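import Mathlib
import Crest.Prelude.Def_LubinTate
import Crest.Agent.LT93.FG
import Crest.Agent.LT93.Frob
import Crest.Agent.LT93.Neg

/-!
# Formal group calculus (row 227, S0351)

Everything formal-level: power series with zero constant term, homs of FGLs, group structure
on power series with zero constant term, sums/inverses/compositions of homs, conjugation,
`mulSeries`.  Composition `f ∘ g` is `PowerSeries.subst g f`.
-/

set_option autoImplicit false
set_option linter.unusedSectionVars false

namespace Crest.Agent.LT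

open Crest.LubinTate MvPowerSeries

variable {R : Type*} [CommRing R] {S : Type*} [CommRing S]

private theorem hs0 {σ : Type*} {f : MvPowerSeries σ R} (h : MvPowerSeries.constantCoeff f = 0) :
    PowerSeries.HasSubst f := PowerSeries.HasSubst.of_constantCoeff_zero h

/-- power series with zero constant term, as points of the formal group `F` -/
def FPt (_F : FormalGroup R) (σ : Type*) := {f : MvPowerSeries σ R // MvPowerSeries.constantCoeff f = 0}

namespace FPt

variable {F : FormalGroup R} {σ : Type*}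

/-- group law evaluated at two series -/
noncomputable def op (F : FormalGroup R) (f g : MvPowerSeries σ R) : MvPowerSeries σ R :=
  F.toPowerSeries.subst ![f, g]

end FPt

/-- The formal inverse series `i_F` with `F(X, i_F(X)) = 0`. -/
theorem exists_negSeries (F : FormalGroup R) [F.IsComm] :
    ∃ i : PowerSeries R, PowerSeries.constantCoeff i = 0 ∧
      F.toPowerSeries.subst ![(PowerSeries.X : PowerSeries R), i] = 0 :=
  LT93.exists_neg F

noncomputable def negSeries (F : FormalGroup R) [F.IsComm] : PowerSeries R :=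
  (exists_negSeries F).choose

theorem constantCoeff_negSeries (F : FormalGroup R) [F.IsComm] :
    PowerSeries.constantCoeff (negSeries F) = 0 := (exists_negSeries F).choose_spec.1

theorem subst_negSeries (F : FormalGroup R) [F.IsComm] :
    F.toPowerSeries.subst ![(PowerSeries.X : PowerSeries R), negSeries F] = 0 :=
  (exists_negSeries F).choose_spec.2

/-- `F(a, i_F(a)) = 0` -/
theorem op_negSeries (F : FormalGroup R) [F.IsComm] {σ : Type*} {a : MvPowerSeries σ R}
    (ha : PowerSeries.HasSubst a) :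
    LT93.op F a (PowerSeries.subst a (negSeries F)) = 0 := by
  have h1 := LT93.subst_op F LT93.hXX
    (LT93.hasSubst_of (negSeries F) (constantCoeff_negSeries F)) ha.const
  have e0 : LT93.op F (PowerSeries.X : PowerSeries R) (negSeries F) = 0 := subst_negSeries F
  have e1 : MvPowerSeries.subst (fun _ : Unit => a) (PowerSeries.X : PowerSeries R) = a :=
    PowerSeries.subst_X ha
  rw [e0, e1] at h1
  have e2 : MvPowerSeries.subst (fun _ : Unit => a) (0 : MvPowerSeries Unit R) = 0 := by
    rw [← MvPowerSeries.coe_substAlgHom ha.const]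
    exact _root_.map_zero _
  rw [e2] at h1
  exact h1.symm

noncomputable instance FPt.instAdd {F : FormalGroup R} {σ : Type*} : Add (FPt F σ) where
  add x y := ⟨F.toPowerSeries.subst ![x.1, y.1], LT93.constantCoeff_op F x.2 y.2⟩

noncomputable instance FPt.instZero {F : FormalGroup R} {σ : Type*} : Zero (FPt F σ) where
  zero := ⟨0, by simp⟩

noncomputable instance FPt.instNeg {F : FormalGroup R} [F.IsComm] {σ : Type*} : Neg (FPt F σ) where
  neg x := ⟨PowerSeries.subst x.1 (negSeries F),
    LT93.constantCoeff_ev' (constantCoeff_negSeries F) x.2⟩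

noncomputable instance FPt.instAddCommGroup {F : FormalGroup R} [F.IsComm] {σ : Type*} :
    AddCommGroup (FPt F σ) where
  nsmul := nsmulRec
  zsmul := zsmulRec
  add_assoc x y z := Subtype.ext (LT93.op_assoc F (hs0 x.2) (hs0 y.2) (hs0 z.2))
  zero_add x := Subtype.ext (LT93.zero_op F (hs0 x.2))
  add_zero x := Subtype.ext (LT93.op_zero F (hs0 x.2))
  neg_add_cancel x := Subtype.ext (by
    have h := op_negSeries F (hs0 x.2)
    have hn := LT93.hasSubst_ev (constantCoeff_negSeries F) (hs0 x.2)
    exact (LT93.op_comm F hn (hs0 x.2)).trans h)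
  add_comm x y := Subtype.ext (LT93.op_comm F (hs0 x.2) (hs0 y.2))

theorem FPt.add_val {F : FormalGroup R} [F.IsComm] {σ : Type*} (x y : FPt F σ) :
    (x + y).1 = F.toPowerSeries.subst ![x.1, y.1] := rfl

theorem FPt.zero_val {F : FormalGroup R} [F.IsComm] {σ : Type*} : (0 : FPt F σ).1 = 0 := rfl

theorem FPt.neg_val {F : FormalGroup R} [F.IsComm] {σ : Type*} (x : FPt F σ) :
    (-x).1 = PowerSeries.subst x.1 (negSeries F) := rfl

/-- a hom of formal group laws acts additively on points -/
noncomputable def IsFGHom.mapPt {F G : FormalGroup R} [F.IsComm] [G.IsComm] {φ : PowerSeries R}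
    (hφ : IsFGHom F G φ) (σ : Type*) : FPt F σ →+ FPt G σ where
  toFun x := ⟨PowerSeries.subst x.1 φ, LT93.constantCoeff_ev' hφ.1 x.2⟩
  map_zero' := Subtype.ext (LT93.ev_zero_arg hφ.1)
  map_add' x y := Subtype.ext (LT93.hom_apply hφ (hs0 x.2) (hs0 y.2))

/-- substituting into points: pull back along `a : τ → MvPowerSeries σ R` -/
noncomputable def FPt.pullback {F : FormalGroup R} [F.IsComm] {σ τ : Type*} [Finite τ]
    (a : τ → MvPowerSeries σ R) (ha : ∀ i, MvPowerSeries.constantCoeff (a i) = 0) :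
    FPt F τ →+ FPt F σ where
  toFun x := ⟨MvPowerSeries.subst a x.1, MvPowerSeries.constantCoeff_subst_eq_zero
    (MvPowerSeries.hasSubst_of_constantCoeff_zero ha) ha x.2⟩
  map_zero' := Subtype.ext (by
    have h := MvPowerSeries.hasSubst_of_constantCoeff_zero ha
    have e2 : MvPowerSeries.subst a (0 : MvPowerSeries τ R) = 0 := by
      rw [← MvPowerSeries.coe_substAlgHom h]
      exact _root_.map_zero _
    exact e2)
  map_add' x y := Subtype.ext (LT93.subst_op F (hs0 x.2) (hs0 y.2)
    (MvPowerSeries.hasSubst_of_constantCoeff_zero ha))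

theorem isFGHom_iff_mapPt {F G : FormalGroup R} {φ : PowerSeries R} :
    IsFGHom F G φ ↔ PowerSeries.constantCoeff φ = 0 ∧
      ∀ x y : MvPowerSeries (Fin 2) R, MvPowerSeries.constantCoeff x = 0 →
        MvPowerSeries.constantCoeff y = 0 →
        PowerSeries.subst (F.toPowerSeries.subst ![x, y]) φ =
          G.toPowerSeries.subst ![PowerSeries.subst x φ, PowerSeries.subst y φ] := by
  constructor
  · intro h
    exact ⟨h.1, fun x y hx hy => LT93.hom_apply h (hs0 hx) (hs0 hy)⟩
  · rintro ⟨h0, h⟩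
    exact LT93.hom_of_apply h0 (h _ _ (MvPowerSeries.constantCoeff_X 0)
      (MvPowerSeries.constantCoeff_X 1))

theorem IsFGHom.id (F : FormalGroup R) : IsFGHom F F PowerSeries.X :=
  LT93.hom_id F

/-- composition `ψ ∘ φ` -/
theorem IsFGHom.comp {F G K : FormalGroup R} {φ ψ : PowerSeries R}
    (hφ : IsFGHom F G φ) (hψ : IsFGHom G K ψ) : IsFGHom F K (PowerSeries.subst φ ψ) :=
  LT93.hom_comp hφ hψ

theorem IsFGHom.map {F G : FormalGroup R} {φ : PowerSeries R} (hφ : IsFGHom F G φ)
    (f : R →+* S) : IsFGHom (F.map f) (G.map f) (PowerSeries.map f φ) :=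
  LT93.hom_map hφ f

/-- sum of homs (target commutative) -/
theorem IsFGHom.add {F G : FormalGroup R} [G.IsComm] {φ ψ : PowerSeries R}
    (hφ : IsFGHom F G φ) (hψ : IsFGHom F G ψ) :
    IsFGHom F G (G.toPowerSeries.subst ![φ, ψ]) := by
  have hsφ := LT93.hasSubst_of φ hφ.1
  have hsψ := LT93.hasSubst_of ψ hψ.1
  refine LT93.hom_of_apply (LT93.constantCoeff_op G hφ.1 hψ.1) ?_
  have key : ∀ a : MvPowerSeries (Fin 2) R, PowerSeries.HasSubst a →
      LT93.ev (G.toPowerSeries.subst ![φ, ψ] : PowerSeries R) a =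
        LT93.op G (LT93.ev φ a) (LT93.ev ψ a) := by
    intro a ha
    exact LT93.subst_op G hsφ hsψ ha.const
  have h0 := LT93.hX (R := R) (0 : Fin 2)
  have h1 := LT93.hX (R := R) (1 : Fin 2)
  rw [key _ (LT93.hasSubst_op F h0 h1), key _ h0, key _ h1, LT93.hom_apply hφ h0 h1,
    LT93.hom_apply hψ h0 h1, LT93.op_op_op_comm G (LT93.hasSubst_ev hφ.1 h0)
      (LT93.hasSubst_ev hφ.1 h1) (LT93.hasSubst_ev hψ.1 h0) (LT93.hasSubst_ev hψ.1 h1)]

theorem IsFGHom.zero (F G : FormalGroup R) : IsFGHom F G 0 := by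
  refine LT93.hom_of_apply (_root_.map_zero _) ?_
  have key : ∀ a : MvPowerSeries (Fin 2) R, PowerSeries.HasSubst a →
      LT93.ev (0 : PowerSeries R) a = 0 := by
    intro a ha
    unfold LT93.ev
    rw [← PowerSeries.coe_substAlgHom (R := R) ha]
    exact _root_.map_zero _
  have h0 := LT93.hX (R := R) (0 : Fin 2)
  have h1 := LT93.hX (R := R) (1 : Fin 2)
  rw [key _ (LT93.hasSubst_op F h0 h1), key _ h0, key _ h1, LT93.op_zero G LT93.hzero]

/-- the inverse series is an endomorphism of a commutative formal group law -/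
theorem isFGHom_negSeries (G : FormalGroup R) [G.IsComm] : IsFGHom G G (negSeries G) := by
  refine LT93.hom_of_apply (constantCoeff_negSeries G) ?_
  let x : FPt G (Fin 2) := ⟨MvPowerSeries.X 0, MvPowerSeries.constantCoeff_X 0⟩
  let y : FPt G (Fin 2) := ⟨MvPowerSeries.X 1, MvPowerSeries.constantCoeff_X 1⟩
  have h : -(x + y) = (-x) + (-y) := by rw [neg_add_rev, add_comm]
  exact congrArg Subtype.val h

/-- negation of homs -/
theorem IsFGHom.neg {F G : FormalGroup R} [G.IsComm] {φ : PowerSeries R}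
    (hφ : IsFGHom F G φ) : IsFGHom F G (PowerSeries.subst φ (negSeries G)) :=
  LT93.hom_comp hφ (isFGHom_negSeries G)

/-- difference of homs: there is `ε` with `ψ = φ +_G ε` -/
theorem IsFGHom.exists_sub {F G : FormalGroup R} [G.IsComm] {φ ψ : PowerSeries R}
    (hφ : IsFGHom F G φ) (hψ : IsFGHom F G ψ) :
    ∃ ε : PowerSeries R, IsFGHom F G ε ∧ ψ = G.toPowerSeries.subst ![φ, ε] := by
  refine ⟨G.toPowerSeries.subst ![ψ, PowerSeries.subst φ (negSeries G)],
    IsFGHom.add hψ (IsFGHom.neg hφ), ?_⟩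
  let x : FPt G Unit := ⟨φ, hφ.1⟩
  let y : FPt G Unit := ⟨ψ, hψ.1⟩
  have h : y = x + (y + (-x)) := by abel
  exact congrArg Subtype.val h

/-- the compositional inverse of a hom with unit linear coefficient is a hom -/
theorem IsFGHom.exists_inv {F G : FormalGroup R} {φ : PowerSeries R}
    (hφ : IsFGHom F G φ) (hu : IsUnit (PowerSeries.coeff 1 φ)) :
    ∃ ψ : PowerSeries R, IsFGHom G F ψ ∧ IsUnit (PowerSeries.coeff 1 ψ) ∧
      PowerSeries.subst φ ψ = PowerSeries.X ∧ PowerSeries.subst ψ φ = PowerSeries.X :=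
  ⟨LT93.cinv φ hu, LT93.hom_cinv hφ hu, LT93.isUnit_coeff_one_cinv φ hu,
    LT93.ev_cinv_left φ hφ.1 hu, LT93.ev_cinv_right φ hφ.1 hu⟩

/-- transport of structure: `G = θ⁻¹ ∘ F ∘ (θ, θ)` -/
theorem exists_conj (F : FormalGroup R) (θ : PowerSeries R)
    (h0 : PowerSeries.constantCoeff θ = 0) (hu : IsUnit (PowerSeries.coeff 1 θ)) :
    ∃ G : FormalGroup R, IsFGHom G F θ ∧ (F.IsComm → G.IsComm) :=
  ⟨LT93.conj F θ h0 hu, LT93.conj_hom F θ h0 hu, fun _ => inferInstance⟩

/-- two structures transported by the same `θ` (with unit linear coefficient) agree -/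
theorem IsFGHom.source_unique {F F' G : FormalGroup R} {θ : PowerSeries R}
    (h : IsFGHom F G θ) (h' : IsFGHom F' G θ) (hu : IsUnit (PowerSeries.coeff 1 θ)) :
    F = F' := by
  rw [LT93.eq_conj_of_hom h hu, ← LT93.eq_conj_of_hom h' hu]

theorem map_isComm (F : FormalGroup R) [F.IsComm] (f : R →+* S) : (F.map f).IsComm where
  comm := by
    have h := LT93.map_op F f (LT93.hX (1 : Fin 2)) (LT93.hX 0)
    rw [LT93.op_comm F (LT93.hX 1) (LT93.hX 0), LT93.op_X, MvPowerSeries.map_X,
      MvPowerSeries.map_X] at h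
    exact h

theorem map_map (F : FormalGroup R) {T : Type*} [CommRing T] (f : R →+* S) (g : S →+* T) :
    (F.map f).map g = F.map (g.comp f) := by
  ext1
  simp only [FormalGroup.map_toPowerSeries]
  rw [MvPowerSeries.map_comp]
  rfl

theorem map_id (F : FormalGroup R) : F.map (RingHom.id R) = F := by
  ext1
  simp only [FormalGroup.map_toPowerSeries]
  rw [MvPowerSeries.map_id]
  rfl

/-! ### `mulSeries` -/

theorem constantCoeff_mulSeries (F : FormalGroup R) (m : ℕ) :
    PowerSeries.constantCoeff (mulSeries F m) = 0 :=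
  LT93.constantCoeff_mulSeries F m

theorem coeff_one_mulSeries (F : FormalGroup R) (m : ℕ) :
    PowerSeries.coeff 1 (mulSeries F m) = m :=
  LT93.coeff_one_mulSeries F m

theorem mulSeries_one (F : FormalGroup R) : mulSeries F 1 = PowerSeries.X := by
  rw [LT93.mulSeries_succ]
  exact LT93.zero_op F LT93.hXX

theorem mulSeries_map (F : FormalGroup R) (f : R →+* S) (m : ℕ) :
    mulSeries (F.map f) m = PowerSeries.map f (mulSeries F m) :=
  (LT93.mulSeries_map F f m).symm

theorem isFGHom_mulSeries (F : FormalGroup R) [F.IsComm] (m : ℕ) :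
    IsFGHom F F (mulSeries F m) :=
  LT93.hom_mulSeries_self F m

/-- `φ ∘ [m]_F = [m]_G ∘ φ` -/
theorem IsFGHom.comp_mulSeries {F G : FormalGroup R} {φ : PowerSeries R}
    (hφ : IsFGHom F G φ) (m : ℕ) :
    PowerSeries.subst (mulSeries F m) φ = PowerSeries.subst φ (mulSeries G m) :=
  LT93.hom_mulSeries hφ m

/-- `m • x` in the group of points is `[m]_F(x)` -/
theorem FPt.nsmul_val {F : FormalGroup R} [F.IsComm] {σ : Type*} (m : ℕ) (x : FPt F σ) :
    (m • x).1 = PowerSeries.subst x.1 (mulSeries F m) := by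
  induction m with
  | zero =>
    rw [zero_smul]
    exact (LT93.ev_mulSeries_zero F (hs0 x.2)).symm
  | succ m ih =>
    rw [succ_nsmul, FPt.add_val, ih]
    exact (LT93.ev_mulSeries_succ F m (hs0 x.2)).symm

theorem mulSeries_mul (F : FormalGroup R) [F.IsComm] (a b : ℕ) :
    mulSeries F (a * b) = PowerSeries.subst (mulSeries F a) (mulSeries F b) := by
  let x : FPt F Unit := ⟨(PowerSeries.X : PowerSeries R), PowerSeries.constantCoeff_X⟩
  have h1 : ∀ m : ℕ, (m • x).1 = mulSeries F m := by
    intro m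
    rw [FPt.nsmul_val]
    exact PowerSeries.X_subst _
  have h2 : (a * b) • x = b • (a • x) := by rw [mul_comm, mul_smul]
  have h3 := congrArg Subtype.val h2
  rw [h1, FPt.nsmul_val, h1] at h3
  exact h3

/-! ### Characteristic `p` -/

/-- A1 (Frobenius lemma): a hom with zero linear coefficient in characteristic `p` factors
through Frobenius. -/
theorem IsFGHom.frob_factor (p : ℕ) [Fact p.Prime] [CharP R p] {F G : FormalGroup R}
    {φ : PowerSeries R} (hφ : IsFGHom F G φ) (h1 : PowerSeries.coeff 1 φ = 0) :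
    ∃ ψ : PowerSeries R, φ = PowerSeries.subst (PowerSeries.X ^ p : PowerSeries R) ψ ∧
      IsFGHom (F.map (frobenius R p)) G ψ := by
  obtain ⟨ψ, hψ, he⟩ := LT93.exists_expand_of_hom p hφ 1 (by
    intro j hj
    have : j = 0 := by omega
    subst this
    rwa [pow_zero])
  refine ⟨ψ, ?_, ?_⟩
  · rw [he, PowerSeries.expand_apply, pow_one]
  · rwa [iterateFrobenius_one] at hψ

/-- iterated version: if all coefficients of `X^(p^j)`, `j < m`, vanish, then
`φ = ψ(X^(p^m))`, with `ψ : F^(p^m) → G` a hom. -/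
theorem IsFGHom.frob_factor_iterate (p : ℕ) [Fact p.Prime] [CharP R p] {F G : FormalGroup R}
    {φ : PowerSeries R} (hφ : IsFGHom F G φ) (m : ℕ)
    (h1 : ∀ j < m, PowerSeries.coeff (p ^ j) φ = 0) :
    ∃ ψ : PowerSeries R, φ = PowerSeries.subst (PowerSeries.X ^ (p ^ m) : PowerSeries R) ψ ∧
      IsFGHom (F.map (iterateFrobenius R p m)) G ψ := by
  obtain ⟨ψ, hψ, he⟩ := LT93.exists_expand_of_hom p hφ m h1
  exact ⟨ψ, by rw [he, PowerSeries.expand_apply], hψ⟩

/-- Frobenius `X ↦ X^(p^m)` is a hom `F → F^(p^m)`. -/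
theorem isFGHom_frobenius (p : ℕ) [hp : Fact p.Prime] [CharP R p] (F : FormalGroup R) (m : ℕ) :
    IsFGHom F (F.map (iterateFrobenius R p m)) (PowerSeries.X ^ (p ^ m)) := by
  have hq : p ^ m ≠ 0 := pow_ne_zero m hp.1.ne_zero
  refine LT93.hom_of_apply ?_ ?_
  · rw [map_pow, PowerSeries.constantCoeff_X, zero_pow hq]
  · have key : ∀ a : MvPowerSeries (Fin 2) R, PowerSeries.HasSubst a →
        LT93.ev (PowerSeries.X ^ (p ^ m) : PowerSeries R) a = a ^ (p ^ m) := by
      intro a ha
      unfold LT93.ev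
      rw [PowerSeries.subst_pow ha, PowerSeries.subst_X ha]
    have h0 := LT93.hX (R := R) (0 : Fin 2)
    have h1 := LT93.hX (R := R) (1 : Fin 2)
    rw [key _ (LT93.hasSubst_op F h0 h1), key _ h0, key _ h1, LT93.op_X,
      ← MvPowerSeries.map_iterateFrobenius_expand p hp.1.ne_zero, MvPowerSeries.map_expand]
    unfold LT93.op
    rw [FormalGroup.map_toPowerSeries, MvPowerSeries.expand]
    rw [MvPowerSeries.substAlgHom_apply]
    congr 1
    funext i
    fin_cases i <;> rfl

end Crest.Agent.LT
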