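import Mathlib
import Crest.Prelude.Def_LubinTate

set_option autoImplicit false

open Crest.LubinTate

namespace Crest.Agent.LT

section General

variable {A : Type*} [CommRing A]

/-- `x ≡ y` mod `I^n • ⊤` in terms of membership. -/
lemma smod_iff {I : Ideal A} {n : ℕ} {x y : A} :
    x ≡ y [SMOD (I ^ n • ⊤ : Submodule A A)] ↔ x - y ∈ I ^ n := by
  rw [SModEq.sub_mem]
  simp

lemma precomplete_iff {I : Ideal A} :
    IsPrecomplete I A ↔ ∀ f : ℕ → A, (∀ {m n : ℕ}, m ≤ n → f m - f n ∈ I ^ m) →
      ∃ L, ∀ n, f n - L ∈ I ^ n := by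
  constructor
  · intro h f hf
    obtain ⟨L, hL⟩ := h.prec' f (fun {m n} hmn => smod_iff.2 (hf hmn))
    exact ⟨L, fun n => smod_iff.1 (hL n)⟩
  · intro h
    refine ⟨fun f hf => ?_⟩
    obtain ⟨L, hL⟩ := h f (fun {m n} hmn => smod_iff.1 (hf hmn))
    exact ⟨L, fun n => smod_iff.2 (hL n)⟩

/-- successive version -/
lemma precomplete_of_succ {I : Ideal A}
    (h : ∀ f : ℕ → A, (∀ n, f (n + 1) - f n ∈ I ^ n) → ∃ L, ∀ n, f n - L ∈ I ^ n) :
    IsPrecomplete I A := by
  rw [precomplete_iff]
  intro f hf
  refine h f (fun n => ?_)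
  have := hf (Nat.le_succ n)
  have h2 := neg_mem this
  simpa using h2

lemma exists_lim {I : Ideal A} [hI : IsPrecomplete I A] (f : ℕ → A)
    (hf : ∀ n, f (n + 1) - f n ∈ I ^ n) : ∃ L, ∀ n, f n - L ∈ I ^ n := by
  refine precomplete_iff.1 hI f ?_
  intro m n hmn
  induction n, hmn using Nat.le_induction with
  | base => simp
  | succ n hmn ih =>
    have h1 : f (n + 1) - f n ∈ I ^ m := Ideal.pow_le_pow_right hmn (hf n)
    have : f m - f (n + 1) = (f m - f n) - (f (n + 1) - f n) := by ring
    rw [this]
    exact sub_mem ih h1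

/-- If `A` is precomplete for `I` and for `J` it is precomplete for `I ⊔ J`. -/
lemma precomplete_sup {I J : Ideal A} [IsPrecomplete I A] [IsPrecomplete J A] :
    IsPrecomplete (I ⊔ J) A := by
  apply precomplete_of_succ
  intro f hf
  -- pass to the subsequence `2 n`
  have key : ∀ n, ∃ a ∈ I ^ n, ∃ b ∈ J ^ n, a + b = f (2 * (n + 1)) - f (2 * n) := by
    intro n
    have h1 : f (2 * (n + 1)) - f (2 * n) ∈ (I ⊔ J) ^ (2 * n) := by
      have h2 := hf (2 * n)
      have h3 := Ideal.pow_le_pow_right (I := I ⊔ J) (Nat.le_succ (2 * n)) (hf (2 * n + 1))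
      have : f (2 * (n + 1)) - f (2 * n) = (f (2 * n + 1 + 1) - f (2 * n + 1)) +
          (f (2 * n + 1) - f (2 * n)) := by
        rw [show 2 * (n + 1) = 2 * n + 1 + 1 by ring]; ring
      rw [this]
      exact add_mem h3 h2
    have h4 : (I ⊔ J) ^ (2 * n) ≤ I ^ n ⊔ J ^ n := by
      have := Ideal.sup_pow_add_le_pow_sup_pow (I := I) (J := J) (n := n) (m := n)
      rwa [two_mul]
    exact Submodule.mem_sup.1 (h4 h1)
  choose a ha b hb hab using key
  obtain ⟨La, hLa⟩ := exists_lim (I := I) (fun n => ∑ i ∈ Finset.range n, a i) (by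
    intro n
    simp only [Finset.sum_range_succ, add_sub_cancel_left]
    exact ha n)
  obtain ⟨Lb, hLb⟩ := exists_lim (I := J) (fun n => ∑ i ∈ Finset.range n, b i) (by
    intro n
    simp only [Finset.sum_range_succ, add_sub_cancel_left]
    exact hb n)
  have hsum : ∀ n, f (2 * n) = f 0 + ∑ i ∈ Finset.range n, a i + ∑ i ∈ Finset.range n, b i := by
    intro n
    induction n with
    | zero => simp
    | succ n ih =>
      rw [Finset.sum_range_succ, Finset.sum_range_succ]
      have := hab n
      have h5 : f (2 * (n + 1)) = f (2 * n) + (a n + b n) := by rw [this]; ring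
      rw [h5, ih]; ring
  refine ⟨f 0 + La + Lb, fun n => ?_⟩
  -- f n - f (2n) ∈ (I ⊔ J)^n
  have hcauchy : ∀ m, n ≤ m → f n - f m ∈ (I ⊔ J) ^ n := by
    intro m hm
    induction m, hm using Nat.le_induction with
    | base => simp
    | succ m hm ih =>
      have h1 : f (m + 1) - f m ∈ (I ⊔ J) ^ n := Ideal.pow_le_pow_right hm (hf m)
      have : f n - f (m + 1) = (f n - f m) - (f (m + 1) - f m) := by ring
      rw [this]
      exact sub_mem ih h1
  have h6 := hcauchy (2 * n) (by omega)
  have h7 : f (2 * n) - (f 0 + La + Lb) ∈ (I ⊔ J) ^ n := by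
    rw [hsum n]
    have e : f 0 + ∑ i ∈ Finset.range n, a i + ∑ i ∈ Finset.range n, b i - (f 0 + La + Lb)
      = (∑ i ∈ Finset.range n, a i - La) + (∑ i ∈ Finset.range n, b i - Lb) := by ring
    rw [e]
    exact add_mem (Ideal.pow_right_mono le_sup_left n (hLa n))
      (Ideal.pow_right_mono le_sup_right n (hLb n))
  have : f n - (f 0 + La + Lb) = (f n - f (2 * n)) + (f (2 * n) - (f 0 + La + Lb)) := by ring
  rw [this]
  exact add_mem h6 h7

end General


section GeneralLocal

variable {A : Type*} [CommRing A] {B : Type*} [CommRing B]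

lemma hausdorff_of_local [IsLocalRing A] [IsNoetherianRing A] :
    IsHausdorff (IsLocalRing.maximalIdeal A) A := by
  refine ⟨fun x hx => ?_⟩
  have h := Ideal.iInf_pow_eq_bot_of_isLocalRing (IsLocalRing.maximalIdeal A)
    (Ideal.IsPrime.ne_top inferInstance)
  have : x ∈ ⨅ i, (IsLocalRing.maximalIdeal A) ^ i := by
    rw [Ideal.mem_iInf]
    intro i
    have := smod_iff.1 (hx i)
    simpa using this
  rw [h] at this
  simpa using this

lemma precomplete_map (f : A →+* B) (hf : Function.Surjective f) (I : Ideal A)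
    [IsPrecomplete I A] : IsPrecomplete (I.map f) B := by
  apply precomplete_of_succ
  intro b hb
  have key : ∀ n, ∃ a ∈ I ^ n, f a = b (n + 1) - b n := by
    intro n
    have h := hb n
    rw [← Ideal.map_pow, Ideal.mem_map_iff_of_surjective f hf] at h
    exact h
  choose a ha hab using key
  obtain ⟨a0, ha0⟩ := hf (b 0)
  obtain ⟨L, hL⟩ := exists_lim (I := I) (fun n => a0 + ∑ i ∈ Finset.range n, a i) (by
    intro n
    simp only [Finset.sum_range_succ]
    have : a0 + (∑ i ∈ Finset.range n, a i + a n) - (a0 + ∑ i ∈ Finset.range n, a i) = a n := by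
      ring
    rw [this]
    exact ha n)
  have hsum : ∀ n, f (a0 + ∑ i ∈ Finset.range n, a i) = b n := by
    intro n
    induction n with
    | zero => simp [ha0]
    | succ n ih =>
      rw [Finset.sum_range_succ, ← add_assoc, map_add, ih, hab]; ring
  refine ⟨f L, fun n => ?_⟩
  rw [← hsum n, ← map_sub, ← Ideal.map_pow]
  exact Ideal.mem_map_of_mem f (hL n)

lemma isAdicComplete_of_surjective [IsLocalRing A] [IsLocalRing B] [IsNoetherianRing B]
    [IsAdicComplete (IsLocalRing.maximalIdeal A) A] (f : A →+* B) (hf : Function.Surjective f) :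
    IsAdicComplete (IsLocalRing.maximalIdeal B) B := by
  have hH : IsHausdorff (IsLocalRing.maximalIdeal B) B := hausdorff_of_local
  have hP : IsPrecomplete (IsLocalRing.maximalIdeal B) B := by
    have := precomplete_map f hf (IsLocalRing.maximalIdeal A)
    rwa [IsLocalRing.map_maximalIdeal_of_surjective f hf] at this
  exact ⟨⟩

lemma isAdicComplete_of_nilpotent (I : Ideal A) (hI : IsNilpotent I) : IsAdicComplete I A := by
  obtain ⟨n, hn⟩ := hI
  have hH : IsHausdorff I A := by
    refine ⟨fun x hx => ?_⟩
    have := smod_iff.1 (hx n)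
    rw [hn] at this
    simpa using this
  have hP : IsPrecomplete I A := by
    rw [precomplete_iff]
    intro f hf
    refine ⟨f n, fun m => ?_⟩
    rcases le_total m n with h | h
    · exact hf h
    · have h2 := hf h
      rw [hn] at h2
      have h3 : f n - f m = 0 := by simpa using h2
      have h4 : f m - f n = 0 := by rw [← neg_sub, h3, neg_zero]
      rw [h4]; exact zero_mem _
  exact ⟨⟩

end GeneralLocal

section PowerSeriesConst

variable {R : Type*} [CommRing R] {σ : Type*}

/-- A multivariate power series from its coefficients. -/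
def mkMv (g : (σ →₀ ℕ) → R) : MvPowerSeries σ R := g

@[simp] lemma coeff_mkMv (g : (σ →₀ ℕ) → R) (d : σ →₀ ℕ) :
    MvPowerSeries.coeff d (mkMv g) = g d := rfl

/-- Membership in the power of the ideal generated by a constant `c`. -/
lemma mem_span_C_pow (c : R) (k : ℕ) (f : MvPowerSeries σ R) :
    f ∈ (Ideal.span {MvPowerSeries.C (σ := σ) c}) ^ k ↔
      ∀ d, MvPowerSeries.coeff d f ∈ (Ideal.span {c}) ^ k := by
  classical
  rw [Ideal.span_singleton_pow, Ideal.span_singleton_pow, Ideal.mem_span_singleton']
  constructor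
  · rintro ⟨g, rfl⟩ d
    rw [← map_pow, MvPowerSeries.coeff_mul_C, Ideal.mem_span_singleton']
    exact ⟨_, rfl⟩
  · intro h
    simp only [Ideal.mem_span_singleton'] at h
    choose g hg using h
    refine ⟨mkMv g, ?_⟩
    ext d
    rw [← map_pow, MvPowerSeries.coeff_mul_C]
    exact hg d

lemma precomplete_C (c : R) [IsPrecomplete (Ideal.span {c}) R] :
    IsPrecomplete (Ideal.span {MvPowerSeries.C (σ := σ) c}) (MvPowerSeries σ R) := by
  apply precomplete_of_succ
  intro f hf
  have key : ∀ d : σ →₀ ℕ, ∃ L, ∀ n, MvPowerSeries.coeff d (f n) - L ∈ (Ideal.span {c}) ^ n := by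
    intro d
    apply exists_lim (I := Ideal.span {c}) (fun n => MvPowerSeries.coeff d (f n))
    intro n
    have := (mem_span_C_pow c n _).1 (hf n) d
    simpa using this
  choose L hL using key
  refine ⟨mkMv L, fun n => ?_⟩
  rw [mem_span_C_pow]
  intro d
  have := hL d n
  rw [map_sub]
  exact this

lemma mem_span_X_of_constantCoeff [Fintype σ] (f : MvPowerSeries σ R)
    (hf : MvPowerSeries.constantCoeff f = 0) :
    f ∈ (Ideal.span (Set.range MvPowerSeries.X) : Ideal (MvPowerSeries σ R)) := by
  classical
  have hex : ∀ d : σ →₀ ℕ, ∃ i : Option σ, (d ≠ 0 → ∃ j, i = some j ∧ d j ≠ 0) := by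
    intro d
    by_cases hd : d = 0
    · exact ⟨none, fun h => absurd hd h⟩
    · obtain ⟨j, hj⟩ := Finsupp.ne_iff.1 hd
      exact ⟨some j, fun _ => ⟨j, rfl, by simpa using hj⟩⟩
  choose i hi using hex
  let g : σ → MvPowerSeries σ R := fun s =>
    (fun e => if i (e + Finsupp.single s 1) = some s then
      MvPowerSeries.coeff (e + Finsupp.single s 1) f else 0)
  have hfg : f = ∑ s : σ, MvPowerSeries.X s * g s := by
    ext d
    rw [map_sum]
    by_cases hd : d = 0
    · subst hd
      simp only [MvPowerSeries.coeff_zero_X_mul, Finset.sum_const_zero]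
      exact hf
    · obtain ⟨j, hj, hdj⟩ := hi d hd
      rw [Finset.sum_eq_single j]
      · rw [MvPowerSeries.X, MvPowerSeries.coeff_monomial_mul, if_pos (by
          simp only [Finsupp.single_le_iff]; omega)]
        have e : d - Finsupp.single j 1 + Finsupp.single j 1 = d :=
          tsub_add_cancel_of_le (by simp only [Finsupp.single_le_iff]; omega)
        rw [one_mul, MvPowerSeries.coeff_apply (g j)]
        simp only [g]
        rw [e, if_pos hj]
      · intro s _ hs
        rw [MvPowerSeries.X, MvPowerSeries.coeff_monomial_mul]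
        split_ifs with h
        · have e : d - Finsupp.single s 1 + Finsupp.single s 1 = d :=
            tsub_add_cancel_of_le h
          rw [one_mul, MvPowerSeries.coeff_apply (g s)]
          simp only [g]
          rw [e, if_neg]
          rw [hj]
          intro h'
          exact hs (Option.some_injective _ h').symm
        · rfl
      · intro h; exact absurd (Finset.mem_univ _) h
  rw [hfg]
  refine sum_mem fun s _ => Ideal.mul_mem_right _ _ (Ideal.subset_span ⟨s, rfl⟩)

end PowerSeriesConst

section LT

variable (p : ℕ) [Fact p.Prime] (n : ℕ)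

instance : Nontrivial (LTRing p n) := inferInstance

lemma isDomain_LTRing : IsDomain (LTRing p n) := by
  have : NoZeroDivisors (LTRing p n) := inferInstance
  exact NoZeroDivisors.to_isDomain _

lemma residue_surjective : Function.Surjective (LTRing.residue p n) := by
  intro x
  refine ⟨MvPowerSeries.C (WittVector.teichmuller p x), ?_⟩
  simp [LTRing.residue]

lemma ker_residue : RingHom.ker (LTRing.residue p n) = IsLocalRing.maximalIdeal (LTRing p n) := by
  have : (RingHom.ker (LTRing.residue p n)).IsMaximal :=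
    RingHom.ker_isMaximal_of_surjective _ (residue_surjective p n)
  exact IsLocalRing.eq_maximalIdeal this

lemma mem_maximal_iff (x : LTRing p n) :
    x ∈ IsLocalRing.maximalIdeal (LTRing p n) ↔ LTRing.residue p n x = 0 := by
  rw [← ker_residue, RingHom.mem_ker]

lemma residue_algebraMap : (LTRing.residue p n).comp
    (algebraMap (WittVector p (GaloisField p n)) (LTRing p n)) = WittVector.constantCoeff := by
  ext x
  simp [LTRing.residue, MvPowerSeries.algebraMap_apply]

lemma ker_constantCoeff_witt :
    RingHom.ker (WittVector.constantCoeff : WittVector p (GaloisField p n) →+* _) =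
      Ideal.span {(p : WittVector p (GaloisField p n))} :=
  WittVector.ker_constantCoeff

lemma maximalIdeal_eq : IsLocalRing.maximalIdeal (LTRing p n) =
    Ideal.span {MvPowerSeries.C (σ := Fin (n-1)) (p : WittVector p (GaloisField p n))} ⊔
      Ideal.span (Set.range MvPowerSeries.X) := by
  apply le_antisymm
  · intro x hx
    rw [mem_maximal_iff] at hx
    have hx' : MvPowerSeries.constantCoeff x ∈
        RingHom.ker (WittVector.constantCoeff : WittVector p (GaloisField p n) →+* _) := hx
    rw [ker_constantCoeff_witt, Ideal.mem_span_singleton'] at hx'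
    obtain ⟨a, ha⟩ := hx'
    have e : x = MvPowerSeries.C a * MvPowerSeries.C (p : WittVector p (GaloisField p n)) +
        (x - MvPowerSeries.C (MvPowerSeries.constantCoeff x)) := by
      rw [← ha, ← map_mul]; ring
    rw [e]
    refine add_mem (Ideal.mem_sup_left (Ideal.mul_mem_left _ _ (Ideal.subset_span rfl)))
      (Ideal.mem_sup_right (mem_span_X_of_constantCoeff _ (by simp)))
  · rw [sup_le_iff, Ideal.span_le, Ideal.span_le]
    constructor
    · rintro _ rfl
      rw [SetLike.mem_coe, mem_maximal_iff]
      simp [LTRing.residue]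
    · rintro _ ⟨s, rfl⟩
      rw [SetLike.mem_coe, mem_maximal_iff]
      simp [LTRing.residue]

instance isAdicComplete_LTRing :
    IsAdicComplete (IsLocalRing.maximalIdeal (LTRing p n)) (LTRing p n) := by
  have : IsPrecomplete (IsLocalRing.maximalIdeal (LTRing p n)) (LTRing p n) := by
    rw [maximalIdeal_eq]
    have := precomplete_C (σ := Fin (n-1)) (p : WittVector p (GaloisField p n))
    have : IsPrecomplete (Ideal.span (Set.range MvPowerSeries.X) : Ideal (LTRing p n))
      (LTRing p n) := inferInstance
    exact precomplete_sup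
  have : IsHausdorff (IsLocalRing.maximalIdeal (LTRing p n)) (LTRing p n) := hausdorff_of_local
  exact ⟨⟩


instance isDomain_LTRing_inst : IsDomain (LTRing p n) := isDomain_LTRing p n

/-! ### Quotients of the Lubin–Tate ring as test algebras -/

section Quot

variable (J : Ideal (LTRing p n))

lemma isLocalRing_quot (hJ : J ≠ ⊤) : IsLocalRing (LTRing p n ⧸ J) := by
  have : Nontrivial (LTRing p n ⧸ J) := Ideal.Quotient.nontrivial_iff.2 hJ
  exact IsLocalRing.of_surjective' (Ideal.Quotient.mk J) Ideal.Quotient.mk_surjective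

lemma le_ker_residue (hJ : J ≠ ⊤) : J ≤ RingHom.ker (LTRing.residue p n) := by
  rw [ker_residue]
  exact IsLocalRing.le_maximalIdeal hJ

/-- residue map of a proper quotient -/
noncomputable def quotResidue (hJ : J ≠ ⊤) : LTRing p n ⧸ J →+* GaloisField p n :=
  Ideal.Quotient.lift J (LTRing.residue p n) (fun _ ha => le_ker_residue p n J hJ ha)

@[simp] lemma quotResidue_mk (hJ : J ≠ ⊤) (x : LTRing p n) :
    quotResidue p n J hJ (Ideal.Quotient.mk J x) = LTRing.residue p n x := rfl

lemma quotResidue_comp_mk (hJ : J ≠ ⊤) :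
    (quotResidue p n J hJ).comp (Ideal.Quotient.mk J) = LTRing.residue p n := rfl

lemma quotResidue_surjective (hJ : J ≠ ⊤) : Function.Surjective (quotResidue p n J hJ) := by
  intro x
  obtain ⟨y, rfl⟩ := residue_surjective p n x
  exact ⟨Ideal.Quotient.mk J y, rfl⟩

lemma ker_quotResidue (hJ : J ≠ ⊤) [IsLocalRing (LTRing p n ⧸ J)] :
    RingHom.ker (quotResidue p n J hJ) = IsLocalRing.maximalIdeal (LTRing p n ⧸ J) := by
  have : (RingHom.ker (quotResidue p n J hJ)).IsMaximal :=
    RingHom.ker_isMaximal_of_surjective _ (quotResidue_surjective p n J hJ)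
  exact IsLocalRing.eq_maximalIdeal this

lemma quotResidue_algebraMap (hJ : J ≠ ⊤) : (quotResidue p n J hJ).comp
    (algebraMap (WittVector p (GaloisField p n)) (LTRing p n ⧸ J)) =
      WittVector.constantCoeff := by
  rw [← residue_algebraMap p n]
  rfl

lemma isAdicComplete_quot [IsLocalRing (LTRing p n ⧸ J)] :
    IsAdicComplete (IsLocalRing.maximalIdeal (LTRing p n ⧸ J)) (LTRing p n ⧸ J) :=
  isAdicComplete_of_surjective (Ideal.Quotient.mk J) Ideal.Quotient.mk_surjective

end Quot

/-! ### Dual numbers -/

section Dual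

open DualNumber

instance isAdicComplete_dual (K : Type*) [Field K] :
    IsAdicComplete (IsLocalRing.maximalIdeal (DualNumber K)) (DualNumber K) := by
  apply isAdicComplete_of_nilpotent
  refine ⟨2, ?_⟩
  rw [DualNumber.maximalIdeal_eq_span_singleton_eps, Ideal.span_singleton_pow, pow_two,
    DualNumber.eps_mul_eps]
  simp

end Dual

end LT

/-! ### Power series over a field -/

section Field

variable (K : Type*) [Field K] (σ : Type*)

lemma maximalIdeal_mvPowerSeries [Fintype σ] :
    IsLocalRing.maximalIdeal (MvPowerSeries σ K) =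
      Ideal.span (Set.range MvPowerSeries.X) := by
  apply le_antisymm
  · intro x hx
    apply mem_span_X_of_constantCoeff
    by_contra h
    have : IsUnit x := MvPowerSeries.isUnit_iff_constantCoeff.2 (isUnit_iff_ne_zero.2 h)
    exact (IsLocalRing.mem_maximalIdeal x).1 hx this
  · rw [Ideal.span_le]
    rintro _ ⟨s, rfl⟩
    rw [SetLike.mem_coe, IsLocalRing.mem_maximalIdeal, mem_nonunits_iff,
      MvPowerSeries.isUnit_iff_constantCoeff]
    simp

instance isAdicComplete_mvPowerSeries [Fintype σ] :
    IsAdicComplete (IsLocalRing.maximalIdeal (MvPowerSeries σ K)) (MvPowerSeries σ K) := by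
  rw [maximalIdeal_mvPowerSeries]
  infer_instance

instance isDomain_mvPowerSeries : IsDomain (MvPowerSeries σ K) := by
  have : NoZeroDivisors (MvPowerSeries σ K) := inferInstance
  exact NoZeroDivisors.to_isDomain _

end Field

end Crest.Agent.LT
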