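import Mathlib
import Crest.Prelude.Def_LubinTate
import Crest.Agent.LT.Ring
import Crest.Agent.LT93.FG

set_option autoImplicit false

open Crest.LubinTate

namespace Crest.Agent.LT

open Crest.Agent.LT93

variable (p : ℕ) [Fact p.Prime] (n : ℕ)

/-- map of a series has zero constant coefficient -/
lemma constantCoeff_map' {R S : Type*} [CommRing R] [CommRing S] (f : R →+* S)
    {θ : PowerSeries R} (h : PowerSeries.constantCoeff θ = 0) :
    PowerSeries.constantCoeff (PowerSeries.map f θ) = 0 := by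
  rw [← PowerSeries.coeff_zero_eq_constantCoeff_apply, PowerSeries.coeff_map,
      PowerSeries.coeff_zero_eq_constantCoeff_apply, h, _root_.map_zero]

lemma map_map_FG {R S T : Type*} [CommRing R] [CommRing S] [CommRing T] (F : FormalGroup R)
    (f : R →+* S) (g : S →+* T) : (F.map f).map g = F.map (g.comp f) := by
  ext1
  simp only [FormalGroup.map_toPowerSeries]
  rw [MvPowerSeries.map_comp]
  rfl

lemma map_id_FG {R : Type*} [CommRing R] (F : FormalGroup R) : F.map (RingHom.id R) = F := by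
  ext1
  simp only [FormalGroup.map_toPowerSeries]
  rw [MvPowerSeries.map_id]
  rfl

section Uniq

variable {p n} {Γ : FormalGroup (GaloisField p n)} {H : FormalGroup (LTRing p n)}

/-- Uniqueness in the universal property, in terms of a `⋆`-isomorphism between two
push-forwards. -/
lemma uniq_of_hom (hH : IsUniversalDeformation p n Γ H)
    (B : Type) [CommRing B] [IsLocalRing B] [IsNoetherianRing B]
    [Algebra (WittVector p (GaloisField p n)) B]
    (hB : IsAdicComplete (IsLocalRing.maximalIdeal B) B)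
    (r : B →+* GaloisField p n) (hr : Function.Surjective r)
    (hker : RingHom.ker r = IsLocalRing.maximalIdeal B)
    (hcomp : r.comp (algebraMap (WittVector p (GaloisField p n)) B) = WittVector.constantCoeff)
    (φ₁ φ₂ : LTRing p n →ₐ[WittVector p (GaloisField p n)] B)
    (h₁ : r.comp φ₁.toRingHom = LTRing.residue p n)
    (h₂ : r.comp φ₂.toRingHom = LTRing.residue p n)
    (θ : PowerSeries B) (hθ : IsFGHom (H.map φ₁.toRingHom) (H.map φ₂.toRingHom) θ)
    (hθX : PowerSeries.map r θ = PowerSeries.X) : φ₁ = φ₂ := by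
  have hG : (H.map φ₂.toRingHom).map r = Γ := by
    rw [map_map_FG, h₂]; exact hH.1
  obtain ⟨φ, _, huniq⟩ := hH.2 B hB r hr hker hcomp (H.map φ₂.toRingHom) hG
  have e1 := huniq φ₁ ⟨h₁, θ, hθ, hθX⟩
  have e2 := huniq φ₂ ⟨h₂, PowerSeries.X, hom_id _, PowerSeries.map_X r⟩
  rw [e1, e2]

/-- the residue map detects units -/
lemma isUnit_of_residue {x : LTRing p n} (hx : IsUnit (LTRing.residue p n x)) : IsUnit x := by
  by_contra h
  have h1 : x ∈ IsLocalRing.maximalIdeal (LTRing p n) := (IsLocalRing.mem_maximalIdeal x).2 h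
  rw [mem_maximal_iff] at h1
  rw [h1] at hx
  exact not_isUnit_zero hx

lemma isUnit_coeff_one_of_map {θ : PowerSeries (LTRing p n)} {g : PowerSeries (GaloisField p n)}
    (h : PowerSeries.map (LTRing.residue p n) θ = g) (hg : IsUnit (PowerSeries.coeff 1 g)) :
    IsUnit (PowerSeries.coeff 1 θ) := by
  apply isUnit_of_residue
  rw [← PowerSeries.coeff_map, h]
  exact hg

/-- A lift of a power series with zero constant coefficient. -/
lemma exists_lift (g : PowerSeries (GaloisField p n)) (hg : PowerSeries.constantCoeff g = 0) :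
    ∃ θ : PowerSeries (LTRing p n), PowerSeries.constantCoeff θ = 0 ∧
      PowerSeries.map (LTRing.residue p n) θ = g := by
  choose l hl using residue_surjective p n
  refine ⟨PowerSeries.mk fun i => if i = 0 then 0 else l (PowerSeries.coeff i g), ?_, ?_⟩
  · rw [← PowerSeries.coeff_zero_eq_constantCoeff_apply, PowerSeries.coeff_mk, if_pos rfl]
  · ext i
    rw [PowerSeries.coeff_map, PowerSeries.coeff_mk]
    split_ifs with h
    · rw [h, PowerSeries.coeff_zero_eq_constantCoeff_apply, hg, _root_.map_zero]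
    · exact hl _

/-- Two stabilizer maps for the same `g` agree. -/
lemma stabilizerMap_unique (hH : IsUniversalDeformation p n Γ H)
    {g : PowerSeries (GaloisField p n)} (hg : IsUnit (PowerSeries.coeff 1 g))
    {φ₁ φ₂ : LTRing p n →ₐ[WittVector p (GaloisField p n)] LTRing p n}
    (h₁ : IsStabilizerMap p n H g φ₁) (h₂ : IsStabilizerMap p n H g φ₂) : φ₁ = φ₂ := by
  obtain ⟨hr₁, θ₁, hθ₁, hm₁⟩ := h₁
  obtain ⟨hr₂, θ₂, hθ₂, hm₂⟩ := h₂
  have hu₂ := isUnit_coeff_one_of_map hm₂ hg
  have hhom := hom_comp hθ₁ (hom_cinv hθ₂ hu₂)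
  refine uniq_of_hom hH (LTRing p n) inferInstance (LTRing.residue p n)
    (residue_surjective p n) (ker_residue p n) (residue_algebraMap p n) φ₁ φ₂ hr₁ hr₂ _ hhom ?_
  have h3 := map_ev (cinv θ₂ hu₂) (LTRing.residue p n) (hasSubst_of _ hθ₁.1)
  have hu' : IsUnit (PowerSeries.coeff 1 (PowerSeries.map (LTRing.residue p n) θ₂)) := by
    rw [hm₂]; exact hg
  rw [map_cinv θ₂ hθ₂.1 hu₂ (LTRing.residue p n) hu'] at h3
  refine Eq.trans h3 ?_
  have e1 : (MvPowerSeries.map (LTRing.residue p n)) θ₁ = PowerSeries.map (LTRing.residue p n) θ₁ :=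
    rfl
  have h4 := ev_cinv_left (PowerSeries.map (LTRing.residue p n) θ₂)
    (constantCoeff_map' _ hθ₂.1) hu'
  rw [e1, hm₁, ← hm₂]
  exact h4

/-- Existence of the stabilizer map. -/
lemma exists_stabilizerMap (hH : IsUniversalDeformation p n Γ H)
    {g : PowerSeries (GaloisField p n)} (hg : IsFGAut Γ g) :
    ∃ φ : LTRing p n →ₐ[WittVector p (GaloisField p n)] LTRing p n,
      IsStabilizerMap p n H g φ := by
  obtain ⟨θ, h0, hm⟩ := exists_lift g hg.1.1
  have hu := isUnit_coeff_one_of_map hm hg.2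
  have hG : (conj H θ h0 hu).map (LTRing.residue p n) = Γ := by
    have h1 : IsFGHom ((conj H θ h0 hu).map (LTRing.residue p n))
        (H.map (LTRing.residue p n)) (PowerSeries.map (LTRing.residue p n) θ) :=
      hom_map (conj_hom H θ h0 hu) _
    rw [hH.1] at h1
    have h2 := hg.1
    rw [← hm] at h2
    have hu' : IsUnit (PowerSeries.coeff 1 (PowerSeries.map (LTRing.residue p n) θ)) := by
      rw [hm]; exact hg.2
    rw [eq_conj_of_hom h1 hu']
    exact (eq_conj_of_hom h2 hu').symm
  obtain ⟨φ, ⟨hφr, θ', hθ', hθ'm⟩, _⟩ := hH.2 (LTRing p n) inferInstance (LTRing.residue p n)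
    (residue_surjective p n) (ker_residue p n) (residue_algebraMap p n) (conj H θ h0 hu) hG
  refine ⟨φ, hφr, ev θ θ', hom_comp hθ' (conj_hom H θ h0 hu), ?_⟩
  have h3 := map_ev θ (LTRing.residue p n) (hasSubst_of _ hθ'.1)
  refine Eq.trans h3 ?_
  have e1 : (MvPowerSeries.map (LTRing.residue p n)) θ' =
    (PowerSeries.X : PowerSeries (GaloisField p n)) := hθ'm
  rw [e1, ev_self_X, hm]

/-- Composition of stabilizer maps. -/
lemma stabilizerMap_comp
    {g g' : PowerSeries (GaloisField p n)}
    {φ φ' : LTRing p n →ₐ[WittVector p (GaloisField p n)] LTRing p n}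
    (h : IsStabilizerMap p n H g φ) (h' : IsStabilizerMap p n H g' φ') :
    IsStabilizerMap p n H (ev g' g) (φ'.comp φ) := by
  obtain ⟨hr, θ, hθ, hm⟩ := h
  obtain ⟨hr', θ', hθ', hm'⟩ := h'
  have hres : (LTRing.residue p n).comp (φ'.comp φ).toRingHom = LTRing.residue p n := by
    have : (φ'.comp φ).toRingHom = φ'.toRingHom.comp φ.toRingHom := rfl
    rw [this, ← RingHom.comp_assoc, hr', hr]
  have h1 : IsFGHom (H.map (φ'.comp φ).toRingHom) (H.map φ'.toRingHom)
      (PowerSeries.map φ'.toRingHom θ) := by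
    have := hom_map hθ φ'.toRingHom
    rwa [map_map_FG] at this
  refine ⟨hres, ev θ' (PowerSeries.map φ'.toRingHom θ), hom_comp h1 hθ', ?_⟩
  have h3 := map_ev θ' (LTRing.residue p n) (hasSubst_of _ h1.1)
  refine Eq.trans h3 ?_
  have e2 : (MvPowerSeries.map (LTRing.residue p n)) (PowerSeries.map φ'.toRingHom θ) =
      PowerSeries.map ((LTRing.residue p n).comp φ'.toRingHom) θ := by
    rw [PowerSeries.map_comp]; rfl
  rw [e2, hr', hm, hm']

lemma stabilizerMap_id (hH : IsUniversalDeformation p n Γ H) :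
    IsStabilizerMap p n H PowerSeries.X
      (AlgHom.id (WittVector p (GaloisField p n)) (LTRing p n)) := by
  refine ⟨?_, PowerSeries.X, ?_, PowerSeries.map_X _⟩
  · exact RingHom.comp_id _
  · have : H.map (AlgHom.id (WittVector p (GaloisField p n)) (LTRing p n)).toRingHom = H :=
      map_id_FG H
    rw [this]
    exact hom_id H

lemma isFGAut_cinv {g : PowerSeries (GaloisField p n)} (hg : IsFGAut Γ g) :
    IsFGAut Γ (cinv g hg.2) :=
  ⟨hom_cinv hg.1 hg.2, isUnit_coeff_one_cinv g hg.2⟩

/-- Every stabilizer map of an automorphism has an inverse stabilizer map. -/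
lemma exists_inverse (hH : IsUniversalDeformation p n Γ H)
    {g : PowerSeries (GaloisField p n)} (hg : IsFGAut Γ g)
    {φ : LTRing p n →ₐ[WittVector p (GaloisField p n)] LTRing p n}
    (h : IsStabilizerMap p n H g φ) :
    ∃ ψ : LTRing p n →ₐ[WittVector p (GaloisField p n)] LTRing p n,
      IsStabilizerMap p n H (cinv g hg.2) ψ ∧ ψ.comp φ = AlgHom.id _ _ ∧
        φ.comp ψ = AlgHom.id _ _ := by
  obtain ⟨ψ, hψ⟩ := exists_stabilizerMap hH (isFGAut_cinv hg)
  refine ⟨ψ, hψ, ?_, ?_⟩
  · have h1 := stabilizerMap_comp h hψ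
    have e : (ev (cinv g hg.2) g : PowerSeries (GaloisField p n)) = PowerSeries.X :=
      ev_cinv_left g hg.1.1 hg.2
    rw [e] at h1
    exact stabilizerMap_unique hH (by simp) h1 (stabilizerMap_id hH)
  · have h1 := stabilizerMap_comp hψ h
    have e : (ev g (cinv g hg.2) : PowerSeries (GaloisField p n)) = PowerSeries.X :=
      ev_cinv_right g hg.1.1 hg.2
    rw [e] at h1
    exact stabilizerMap_unique hH (by simp) h1 (stabilizerMap_id hH)

lemma stabilizerMap_bijective (hH : IsUniversalDeformation p n Γ H)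
    {g : PowerSeries (GaloisField p n)} (hg : IsFGAut Γ g)
    {φ : LTRing p n →ₐ[WittVector p (GaloisField p n)] LTRing p n}
    (h : IsStabilizerMap p n H g φ) : Function.Bijective φ := by
  obtain ⟨ψ, _, h1, h2⟩ := exists_inverse hH hg h
  refine Function.bijective_iff_has_inverse.2 ⟨ψ, fun x => ?_, fun x => ?_⟩
  · exact DFunLike.congr_fun h1 x
  · exact DFunLike.congr_fun h2 x

end Uniq

end Crest.Agent.LT
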