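import Mathlib
import Crest.Prelude.Def_LubinTate
import Crest.Agent.LT.FG
import Crest.Agent.LT.Ring
import Crest.Agent.LT.Stab
import Crest.Agent.LT93.Height

/-! # A3: stabilizer maps (row 227). Paper proof: ideas row 227, A3.
(helper93: LTRing infrastructure goes into LT/Ring.lean) -/

set_option autoImplicit false
set_option linter.unusedSectionVars false

namespace Crest.Agent.LT

open Crest.LubinTate MvPowerSeries

variable {p : ℕ} [Fact p.Prime] {n : ℕ}

/-- The source of a hom `θ₀ : G → H` lifting an automorphism of `Γ` reduces to `Γ`. -/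
theorem map_residue_of_lift {Γ : FormalGroup (GaloisField p n)} {H : FormalGroup (LTRing p n)}
    (hH : H.map (LTRing.residue p n) = Γ) {g : PowerSeries (GaloisField p n)} (hg : IsFGAut Γ g)
    (θ₀ : PowerSeries (LTRing p n))
    (hθ₀ : PowerSeries.map (LTRing.residue p n) θ₀ = g)
    (G : FormalGroup (LTRing p n)) (hG : IsFGHom G H θ₀) :
    G.map (LTRing.residue p n) = Γ := by
  have h1 := IsFGHom.map hG (LTRing.residue p n)
  rw [hH, hθ₀] at h1
  exact IsFGHom.source_unique h1 hg.1 hg.2

/-- existence of the stabilizer map, in the refined form with a prescribed lift `θ₀` of `g`: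
`φ` classifies `G = θ₀⁻¹ ∘ H ∘ (θ₀, θ₀)`. -/
theorem exists_stabilizer_of_lift {Γ : FormalGroup (GaloisField p n)} {H : FormalGroup (LTRing p n)}
    (hH : IsUniversalDeformation p n Γ H) {g : PowerSeries (GaloisField p n)} (hg : IsFGAut Γ g)
    (θ₀ : PowerSeries (LTRing p n)) (h0 : PowerSeries.constantCoeff θ₀ = 0)
    (hθ₀ : PowerSeries.map (LTRing.residue p n) θ₀ = g)
    (G : FormalGroup (LTRing p n)) (hG : IsFGHom G H θ₀) :
    ∃ (φ : LTRing p n →ₐ[WittVector p (GaloisField p n)] LTRing p n)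
      (ψ : PowerSeries (LTRing p n)), IsStabilizerMap p n H g φ ∧
      IsFGHom (H.map φ.toRingHom) G ψ ∧
      PowerSeries.map (LTRing.residue p n) ψ = PowerSeries.X := by
  have hGr := map_residue_of_lift hH.1 hg θ₀ hθ₀ G hG
  obtain ⟨φ, ⟨hφr, ψ, hψ, hψm⟩, _⟩ := hH.2 (LTRing p n) inferInstance (LTRing.residue p n)
    (residue_surjective p n) (ker_residue p n) (residue_algebraMap p n) G hGr
  refine ⟨φ, ψ, ⟨hφr, PowerSeries.subst ψ θ₀, IsFGHom.comp hψ hG, ?_⟩, hψ, hψm⟩
  have h3 := LT93.map_ev θ₀ (LTRing.residue p n) (LT93.hasSubst_of _ hψ.1)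
  refine Eq.trans h3 ?_
  have e1 : (MvPowerSeries.map (LTRing.residue p n)) ψ =
    (PowerSeries.X : PowerSeries (GaloisField p n)) := hψm
  rw [e1, LT93.ev_self_X, hθ₀]

theorem exists_stabilizer {Γ : FormalGroup (GaloisField p n)} {H : FormalGroup (LTRing p n)}
    (hH : IsUniversalDeformation p n Γ H) {g : PowerSeries (GaloisField p n)} (hg : IsFGAut Γ g) :
    ∃ φ : LTRing p n →ₐ[WittVector p (GaloisField p n)] LTRing p n, IsStabilizerMap p n H g φ :=
  exists_stabilizerMap hH hg

theorem stabilizer_unique {Γ : FormalGroup (GaloisField p n)} {H : FormalGroup (LTRing p n)}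
    (hH : IsUniversalDeformation p n Γ H) {g : PowerSeries (GaloisField p n)} (hg : IsFGAut Γ g)
    {φ φ' : LTRing p n →ₐ[WittVector p (GaloisField p n)] LTRing p n}
    (h : IsStabilizerMap p n H g φ) (h' : IsStabilizerMap p n H g φ') : φ = φ' :=
  stabilizerMap_unique hH hg.2 h h'

theorem stabilizer_bijective {Γ : FormalGroup (GaloisField p n)} {H : FormalGroup (LTRing p n)}
    (hH : IsUniversalDeformation p n Γ H) {g : PowerSeries (GaloisField p n)} (hg : IsFGAut Γ g)
    {φ : LTRing p n →ₐ[WittVector p (GaloisField p n)] LTRing p n}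
    (h : IsStabilizerMap p n H g φ) : Function.Bijective φ :=
  stabilizerMap_bijective hH hg h

section CoeffLemmas

variable {R : Type*} [CommRing R]

/-- leading coefficient of `θ(w)` when `X^N ∣ w` -/
theorem coeff_ev_of_dvd {θ w : PowerSeries R} {N : ℕ} (hN : 1 ≤ N)
    (h0 : PowerSeries.constantCoeff θ = 0) (hw : (PowerSeries.X : PowerSeries R) ^ N ∣ w) :
    PowerSeries.coeff N (PowerSeries.subst w θ : PowerSeries R) =
      PowerSeries.coeff 1 θ * PowerSeries.coeff N w := by
  have hw0 : PowerSeries.constantCoeff w = 0 := by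
    rw [← PowerSeries.coeff_zero_eq_constantCoeff_apply]
    exact PowerSeries.X_pow_dvd_iff.1 hw 0 hN
  have hsw := LT93.hasSubst_of w hw0
  obtain ⟨c, rfl⟩ := PowerSeries.X_dvd_iff.2 h0
  obtain ⟨w', hw'⟩ := hw
  have e : (PowerSeries.subst w (PowerSeries.X * c) : PowerSeries R) =
      PowerSeries.X ^ N * (w' * PowerSeries.subst w c) := by
    have := PowerSeries.subst_mul hsw (PowerSeries.X : PowerSeries R) c
    rw [PowerSeries.subst_X hsw] at this
    rw [this, ← mul_assoc, ← hw']
  rw [e]
  have hc : PowerSeries.constantCoeff (PowerSeries.subst w c : PowerSeries R) =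
      PowerSeries.constantCoeff c :=
    LT93.constantCoeff_subst_of_zero hsw.const (fun _ => hw0) c
  have h1 := PowerSeries.coeff_X_pow_mul (w' * PowerSeries.subst w c : PowerSeries R) N 0
  rw [zero_add] at h1
  rw [h1, PowerSeries.coeff_zero_eq_constantCoeff_apply, map_mul, hc]
  have h2 : PowerSeries.coeff 1 (PowerSeries.X * c) = PowerSeries.constantCoeff c := by
    have := PowerSeries.coeff_succ_X_mul 0 c
    rw [zero_add] at this
    rw [this, PowerSeries.coeff_zero_eq_constantCoeff_apply]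
  have h3 : PowerSeries.coeff N w = PowerSeries.constantCoeff w' := by
    rw [hw']
    have := PowerSeries.coeff_X_pow_mul w' N 0
    rw [zero_add] at this
    rw [this, PowerSeries.coeff_zero_eq_constantCoeff_apply]
  rw [h2, h3, mul_comm]

/-- leading coefficient of `φ(θ)` when `X^N ∣ φ` -/
theorem coeff_ev_of_dvd' {φ θ : PowerSeries R} {N : ℕ}
    (h0 : PowerSeries.constantCoeff θ = 0) (hφ : (PowerSeries.X : PowerSeries R) ^ N ∣ φ) :
    PowerSeries.coeff N (PowerSeries.subst θ φ : PowerSeries R) =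
      PowerSeries.coeff 1 θ ^ N * PowerSeries.coeff N φ := by
  have hs := LT93.hasSubst_of θ h0
  obtain ⟨u, hu⟩ := hφ
  obtain ⟨c, hc⟩ := PowerSeries.X_dvd_iff.2 h0
  have e : (PowerSeries.subst θ φ : PowerSeries R) =
      PowerSeries.X ^ N * (c ^ N * PowerSeries.subst θ u) := by
    rw [hu]
    have := PowerSeries.subst_mul hs (PowerSeries.X ^ N : PowerSeries R) u
    rw [PowerSeries.subst_pow hs, PowerSeries.subst_X hs] at this
    rw [this, ← mul_assoc, ← mul_pow, ← hc]
  rw [e]
  have hcc : PowerSeries.constantCoeff (PowerSeries.subst θ u : PowerSeries R) =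
      PowerSeries.constantCoeff u :=
    LT93.constantCoeff_subst_of_zero hs.const (fun _ => h0) u
  have h1 := PowerSeries.coeff_X_pow_mul (c ^ N * PowerSeries.subst θ u : PowerSeries R) N 0
  rw [zero_add] at h1
  rw [h1, PowerSeries.coeff_zero_eq_constantCoeff_apply, map_mul, hcc, map_pow]
  have h2 : PowerSeries.coeff 1 θ = PowerSeries.constantCoeff c := by
    rw [hc]
    have := PowerSeries.coeff_succ_X_mul 0 c
    rw [zero_add] at this
    rw [this, PowerSeries.coeff_zero_eq_constantCoeff_apply]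
  have h3 : PowerSeries.coeff N φ = PowerSeries.constantCoeff u := by
    rw [hu]
    have := PowerSeries.coeff_X_pow_mul u N 0
    rw [zero_add] at this
    rw [this, PowerSeries.coeff_zero_eq_constantCoeff_apply]
  rw [h2, h3]

end CoeffLemmas

/-- modulo `I_h` the series `[p]_H` is divisible by `X^(p^h)` -/
theorem X_pow_dvd_mulSeries (H : FormalGroup (LTRing p n)) [H.IsComm] (h : ℕ) :
    (PowerSeries.X : PowerSeries (LTRing p n ⧸ heightIdeal p n H h)) ^ (p ^ h) ∣
      PowerSeries.map (Ideal.Quotient.mk (heightIdeal p n H h)) (mulSeries H p) := by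
  rw [PowerSeries.X_pow_dvd_iff]
  intro m hm
  rcases Nat.eq_zero_or_pos m with rfl | hm0
  · rw [PowerSeries.coeff_zero_eq_constantCoeff_apply]
    exact constantCoeff_map' _ (constantCoeff_mulSeries H p)
  · rw [PowerSeries.coeff_map, Ideal.Quotient.eq_zero_iff_mem]
    exact LT93.coeff_mulSeries_mem H (fun hdvd => absurd (Nat.le_of_dvd hm0 hdvd) (by omega))

/-- `φ(v_h) ∈ (unit) * v_h + I_h` and the height ideals are stable. -/
theorem stabilizer_coeff {Γ : FormalGroup (GaloisField p n)} {H : FormalGroup (LTRing p n)}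
    (hH : IsUniversalDeformation p n Γ H) [H.IsComm] {g : PowerSeries (GaloisField p n)}
    (hg : IsFGAut Γ g) {φ : LTRing p n →ₐ[WittVector p (GaloisField p n)] LTRing p n}
    (h : IsStabilizerMap p n H g φ) (i : ℕ) :
    ∃ c : LTRing p n, IsUnit c ∧
      φ (PowerSeries.coeff (p ^ i) (mulSeries H p)) - c * PowerSeries.coeff (p ^ i) (mulSeries H p)
        ∈ heightIdeal p n H i := by
  obtain ⟨hres, θ, hθ, hm⟩ := h
  have hu := isUnit_coeff_one_of_map hm hg.2
  set I := heightIdeal p n H i with hI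
  set π := Ideal.Quotient.mk I with hπ
  have h1 := IsFGHom.comp_mulSeries hθ p
  rw [mulSeries_map] at h1
  have h2 := congrArg (PowerSeries.map π) h1
  have hφp : PowerSeries.constantCoeff (PowerSeries.map φ.toRingHom (mulSeries H p)) = 0 :=
    constantCoeff_map' _ (constantCoeff_mulSeries H p)
  have e1 : PowerSeries.map π (PowerSeries.subst (PowerSeries.map φ.toRingHom (mulSeries H p)) θ :
      PowerSeries (LTRing p n)) = (PowerSeries.subst
        (PowerSeries.map π (PowerSeries.map φ.toRingHom (mulSeries H p)))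
          (PowerSeries.map π θ) : PowerSeries (LTRing p n ⧸ I)) :=
    LT93.map_ev θ π (LT93.hasSubst_of _ hφp)
  have e2 : PowerSeries.map π (PowerSeries.subst θ (mulSeries H p) : PowerSeries (LTRing p n)) =
      (PowerSeries.subst (PowerSeries.map π θ) (PowerSeries.map π (mulSeries H p)) :
        PowerSeries (LTRing p n ⧸ I)) :=
    LT93.map_ev (mulSeries H p) π (LT93.hasSubst_of _ hθ.1)
  rw [e1, e2] at h2
  have hd : (PowerSeries.X : PowerSeries (LTRing p n ⧸ I)) ^ (p ^ i) ∣
      PowerSeries.map π (PowerSeries.map φ.toRingHom (mulSeries H p)) := by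
    rw [PowerSeries.X_pow_dvd_iff]
    intro m hm'
    rw [PowerSeries.coeff_map, PowerSeries.coeff_map, Ideal.Quotient.eq_zero_iff_mem]
    have hst := LT93.isStable_heightIdeal hH 0 i g φ hg (fun j hj => absurd hj (by omega))
      ⟨hres, θ, hθ, hm⟩
    have hmem : PowerSeries.coeff m (mulSeries H p) ∈ heightIdeal p n H i := by
      rcases Nat.eq_zero_or_pos m with rfl | hm0
      · rw [PowerSeries.coeff_zero_eq_constantCoeff_apply, constantCoeff_mulSeries]
        exact Ideal.zero_mem _
      · exact LT93.coeff_mulSeries_mem H (fun hdvd => absurd (Nat.le_of_dvd hm0 hdvd) (by omega))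
    rw [← hst] at hmem
    exact Ideal.mem_comap.1 hmem
  have hpi : 1 ≤ p ^ i := Nat.one_le_pow _ _ (Fact.out : p.Prime).pos
  have h3 := congrArg (PowerSeries.coeff (p ^ i)) h2
  rw [coeff_ev_of_dvd hpi (constantCoeff_map' π hθ.1) hd,
    coeff_ev_of_dvd' (constantCoeff_map' π hθ.1) (X_pow_dvd_mulSeries H i)] at h3
  simp only [PowerSeries.coeff_map] at h3
  rw [← map_pow, ← map_mul, ← map_mul, Ideal.Quotient.eq] at h3
  refine ⟨PowerSeries.coeff 1 θ ^ (p ^ i - 1), hu.pow _, ?_⟩
  obtain ⟨u, hu'⟩ := hu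
  rw [← hu'] at h3 ⊢
  have h4 := Ideal.mul_mem_left I ((u⁻¹ : (LTRing p n)ˣ) : LTRing p n) h3
  have e5 : ((u⁻¹ : (LTRing p n)ˣ) : LTRing p n) *
      ((u : LTRing p n) * φ.toRingHom (PowerSeries.coeff (p ^ i) (mulSeries H p)) -
        (u : LTRing p n) ^ (p ^ i) * PowerSeries.coeff (p ^ i) (mulSeries H p)) =
      φ (PowerSeries.coeff (p ^ i) (mulSeries H p)) -
        (u : LTRing p n) ^ (p ^ i - 1) * PowerSeries.coeff (p ^ i) (mulSeries H p) := by
    have e6 : (u : LTRing p n) ^ (p ^ i) = (u : LTRing p n) * (u : LTRing p n) ^ (p ^ i - 1) := by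
      rw [← pow_succ', Nat.sub_add_cancel hpi]
    rw [e6, mul_sub, ← mul_assoc, Units.inv_mul, one_mul, ← mul_assoc, ← mul_assoc,
      Units.inv_mul, one_mul]
    rfl
  rw [← e5]
  exact h4

theorem heightIdeal_stable {Γ : FormalGroup (GaloisField p n)} {H : FormalGroup (LTRing p n)}
    (hH : IsUniversalDeformation p n Γ H) [H.IsComm] (M i : ℕ) :
    IsStableIdeal p n Γ H M (heightIdeal p n H i) :=
  LT93.isStable_heightIdeal hH M i

/-- A stabilizer map composed with a point: with `x : E → O` any ring hom, `x' = x ∘ φ`, there is a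
hom `H_{x'} → H_x` lifting `g` (trivial, for later use). -/
theorem stabilizer_point {H : FormalGroup (LTRing p n)} {g : PowerSeries (GaloisField p n)}
    {φ : LTRing p n →ₐ[WittVector p (GaloisField p n)] LTRing p n}
    (h : IsStabilizerMap p n H g φ) {O : Type*} [CommRing O] (x : LTRing p n →+* O) :
    ∃ θ : PowerSeries (LTRing p n), PowerSeries.map (LTRing.residue p n) θ = g ∧
      IsFGHom (H.map (x.comp φ.toRingHom)) (H.map x) (PowerSeries.map x θ) := by
  obtain ⟨_, θ, hθ, hm⟩ := h
  refine ⟨θ, hm, ?_⟩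
  have := IsFGHom.map hθ x
  rwa [map_map] at this

end Crest.Agent.LT
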