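import Mathlib
import Crest.Prelude.Def_LubinTate
import Crest.Agent.LT.FG
import Crest.Agent.LT.Act

/-! # A4: continuity of the action (row 227). Paper proof: ideas row 227, A4. -/

set_option autoImplicit false
set_option linter.unusedSectionVars false

namespace Crest.Agent.LT

open Crest.LubinTate MvPowerSeries

variable {p : ℕ} [Fact p.Prime] {n : ℕ}

section Gen

variable {R : Type*} [CommRing R]

/-- if `X +_F ε ≡ X mod X^N` then `ε ≡ 0 mod X^N` -/
theorem X_pow_dvd_of_add (F : FormalGroup R) {ε : PowerSeries R}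
    (h0 : PowerSeries.constantCoeff ε = 0) (N : ℕ)
    (h : ∀ i, i < N → PowerSeries.coeff i (F.toPowerSeries.subst ![PowerSeries.X, ε]) =
      PowerSeries.coeff i (PowerSeries.X : PowerSeries R)) :
    (PowerSeries.X : PowerSeries R) ^ N ∣ ε := by
  have hkey : ∀ m, m ≤ N → (PowerSeries.X : PowerSeries R) ^ m ∣ ε := by
    intro m
    induction m with
    | zero => intro _; simp
    | succ m ih =>
      intro hm
      have h1 := ih (by omega)
      have h2 := h m (by omega)
      have h3 := LT93.op_eq F LT93.hXX (LT93.hasSubst_of ε h0)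
      have h4 : (F.toPowerSeries.subst ![PowerSeries.X, ε] : PowerSeries R) =
        PowerSeries.X + ε + PowerSeries.X * (ε * MvPowerSeries.subst ![PowerSeries.X, ε]
          (LT93.cof F)) := h3
      rw [h4, map_add, map_add] at h2
      obtain ⟨w, hw⟩ := h1
      have h5 : PowerSeries.coeff m (PowerSeries.X * (ε * MvPowerSeries.subst ![PowerSeries.X, ε]
          (LT93.cof F)) : PowerSeries R) = 0 := by
        have : (PowerSeries.X : PowerSeries R) ^ (m + 1) ∣
            (PowerSeries.X * (ε * MvPowerSeries.subst ![PowerSeries.X, ε]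
              (LT93.cof F)) : PowerSeries R) := by
          rw [pow_succ', hw]
          refine mul_dvd_mul_left _ ?_
          rw [mul_assoc]
          exact Dvd.intro _ rfl
        exact PowerSeries.X_pow_dvd_iff.1 this m (by omega)
      rw [h5, add_zero] at h2
      have h6 : PowerSeries.coeff m ε = 0 := by
        have := add_eq_left.1 h2
        exact this
      rw [PowerSeries.X_pow_dvd_iff] at *
      intro j hj
      rcases Nat.lt_succ_iff_lt_or_eq.1 hj with hj | hj
      · exact (PowerSeries.X_pow_dvd_iff.1 ⟨w, hw⟩) j hj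
      · rw [hj]; exact h6
  exact hkey N le_rfl

/-- all coefficients in the ideal `J` -/
def CoeffIn {σ : Type*} (J : Ideal R) (f : MvPowerSeries σ R) : Prop :=
  ∀ d, MvPowerSeries.coeff d f ∈ J

theorem CoeffIn.add {σ : Type*} {J : Ideal R} {f g : MvPowerSeries σ R} (hf : CoeffIn J f)
    (hg : CoeffIn J g) : CoeffIn J (f + g) := by
  intro d
  rw [map_add]
  exact J.add_mem (hf d) (hg d)

theorem CoeffIn.mul {σ : Type*} {J K : Ideal R} {f g : MvPowerSeries σ R} (hf : CoeffIn J f)
    (hg : CoeffIn K g) : CoeffIn (J * K) (f * g) := by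
  classical
  intro d
  rw [MvPowerSeries.coeff_mul]
  exact Ideal.sum_mem _ (fun x _ => Ideal.mul_mem_mul (hf _) (hg _))

theorem CoeffIn.mul_right {σ : Type*} {J : Ideal R} {f g : MvPowerSeries σ R}
    (hf : CoeffIn J f) : CoeffIn J (f * g) := by
  classical
  intro d
  rw [MvPowerSeries.coeff_mul]
  exact Ideal.sum_mem _ (fun x _ => Ideal.mul_mem_right _ _ (hf _))

theorem CoeffIn.mono {σ : Type*} {J K : Ideal R} (h : J ≤ K) {f : MvPowerSeries σ R}
    (hf : CoeffIn J f) : CoeffIn K f := fun d => h (hf d)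

theorem coeffIn_map_eq_zero {σ : Type*} {S : Type*} [CommRing S] (π : R →+* S)
    {f : MvPowerSeries σ R} : MvPowerSeries.map π f = 0 ↔ CoeffIn (RingHom.ker π) f := by
  constructor
  · intro h d
    rw [RingHom.mem_ker, ← MvPowerSeries.coeff_map, h]
    simp
  · intro h
    ext d
    rw [MvPowerSeries.coeff_map]
    exact h d

theorem map_eq_map_iff {σ : Type*} {S : Type*} [CommRing S] (π : R →+* S)
    {f g : MvPowerSeries σ R} :
    MvPowerSeries.map π f = MvPowerSeries.map π g ↔ CoeffIn (RingHom.ker π) (f - g) := by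
  rw [← coeffIn_map_eq_zero, map_sub, sub_eq_zero]

/-- contraction property of `[p]` -/
theorem CoeffIn.mulSeries_p {σ : Type*} (F : FormalGroup R) {I : Ideal R} (hp : (p : R) ∈ I)
    {s : ℕ} (hs : 1 ≤ s) {c : MvPowerSeries σ R} (h0 : MvPowerSeries.constantCoeff c = 0)
    (hc : CoeffIn (I ^ s) c) :
    CoeffIn (I ^ (s + 1)) (PowerSeries.subst c (mulSeries F p)) := by
  have hsub : PowerSeries.HasSubst c := PowerSeries.HasSubst.of_constantCoeff_zero h0
  obtain ⟨u, hu⟩ := PowerSeries.X_dvd_iff.2 (constantCoeff_mulSeries F p)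
  have h1 : PowerSeries.constantCoeff u = (p : R) := by
    have := coeff_one_mulSeries F p
    rw [hu] at this
    have h2 := PowerSeries.coeff_succ_X_mul 0 u
    rw [zero_add] at h2
    rw [h2, PowerSeries.coeff_zero_eq_constantCoeff_apply] at this
    exact this
  have h2 : PowerSeries.constantCoeff (u - PowerSeries.C (p : R)) = 0 := by
    rw [map_sub, h1]
    simp
  obtain ⟨v, hv⟩ := PowerSeries.X_dvd_iff.2 h2
  have h3 : mulSeries F p = PowerSeries.C (p : R) * PowerSeries.X +
      PowerSeries.X ^ 2 * v := by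
    rw [hu]
    have : u = PowerSeries.C (p : R) + PowerSeries.X * v := by rw [← hv]; ring
    rw [this]
    ring
  have h4 : (PowerSeries.subst c (mulSeries F p) : MvPowerSeries σ R) =
      MvPowerSeries.C (p : R) * c + c ^ 2 * PowerSeries.subst c v := by
    rw [h3, PowerSeries.subst_add hsub, PowerSeries.subst_mul hsub, PowerSeries.subst_mul hsub,
      PowerSeries.subst_pow hsub, PowerSeries.subst_X hsub, PowerSeries.subst_C]
  rw [h4]
  refine CoeffIn.add ?_ ?_
  · intro d
    rw [MvPowerSeries.coeff_C_mul, pow_succ']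
    exact Ideal.mul_mem_mul hp (hc d)
  · have h5 : CoeffIn (I ^ s * I ^ s) (c ^ 2) := by
      rw [pow_two]
      exact hc.mul hc
    refine CoeffIn.mul_right (h5.mono ?_)
    rw [← pow_add]
    exact Ideal.pow_le_pow_right (by omega)

theorem CoeffIn.nsmul_pow {σ : Type*} (F : FormalGroup R) [F.IsComm] {I : Ideal R}
    (hp : (p : R) ∈ I) (c : FPt F σ) (hc : CoeffIn I c.1) (a : ℕ) :
    CoeffIn (I ^ (a + 1)) (p ^ a • c).1 := by
  induction a with
  | zero =>
    rw [pow_zero, one_smul, zero_add, pow_one]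
    exact hc
  | succ a ih =>
    have h1 : p ^ (a + 1) • c = p • (p ^ a • c) := by
      rw [pow_succ', mul_smul]
    rw [h1, FPt.nsmul_val]
    exact CoeffIn.mulSeries_p F hp (by omega) (p ^ a • c).2 ih

/-- congruence for `ε(a)` -/
theorem CoeffIn.subst_sub {I J : Ideal R} {ε a b : PowerSeries R} (hε : CoeffIn J ε)
    (ha : PowerSeries.constantCoeff a = 0) (hb : PowerSeries.constantCoeff b = 0)
    (hab : CoeffIn I (a - b)) :
    CoeffIn (J * I) (PowerSeries.subst a ε - PowerSeries.subst b ε : PowerSeries R) := by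
  have hsa := LT93.hasSubst_of a ha
  have hsb := LT93.hasSubst_of b hb
  intro d
  rw [map_sub]
  have e1 : MvPowerSeries.coeff d (PowerSeries.subst a ε : PowerSeries R) -
      MvPowerSeries.coeff d (PowerSeries.subst b ε : PowerSeries R) =
      ∑ᶠ (i : ℕ), (PowerSeries.coeff i ε • MvPowerSeries.coeff d (a ^ i) -
        PowerSeries.coeff i ε • MvPowerSeries.coeff d (b ^ i)) := by
    rw [finsum_sub_distrib (PowerSeries.coeff_subst_finite hsa ε d)
      (PowerSeries.coeff_subst_finite hsb ε d)]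
    rw [← PowerSeries.coeff_subst hsa, ← PowerSeries.coeff_subst hsb]
  rw [e1]
  have hfin : (Function.support (fun i : ℕ =>
      (PowerSeries.coeff i ε • MvPowerSeries.coeff d (a ^ i) -
        PowerSeries.coeff i ε • MvPowerSeries.coeff d (b ^ i)))).Finite := by
    refine Set.Finite.subset ((PowerSeries.coeff_subst_finite hsa ε d).union
      (PowerSeries.coeff_subst_finite hsb ε d)) ?_
    intro i hi
    by_contra hcon
    rw [Set.mem_union, not_or] at hcon
    obtain ⟨h1, h2⟩ := hcon
    rw [Function.notMem_support] at h1 h2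
    apply hi
    show PowerSeries.coeff i ε • MvPowerSeries.coeff d (a ^ i) -
        PowerSeries.coeff i ε • MvPowerSeries.coeff d (b ^ i) = 0
    rw [h1, h2, sub_zero]
  rw [finsum_eq_sum _ hfin]
  refine Ideal.sum_mem _ (fun i _ => ?_)
  rw [smul_eq_mul, smul_eq_mul, ← mul_sub, ← map_sub]
  refine Ideal.mul_mem_mul ?_ ?_
  · exact hε (Finsupp.single () i)
  · have h1 : CoeffIn I (a ^ i - b ^ i) := by
      have h2 : MvPowerSeries.map (Ideal.Quotient.mk I) a =
          MvPowerSeries.map (Ideal.Quotient.mk I) b := by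
        rw [map_eq_map_iff, Ideal.mk_ker]
        exact hab
      have h3 : MvPowerSeries.map (Ideal.Quotient.mk I) (a ^ i) =
          MvPowerSeries.map (Ideal.Quotient.mk I) (b ^ i) := by
        rw [map_pow, map_pow, h2]
      rw [map_eq_map_iff, Ideal.mk_ker] at h3
      exact h3
    exact h1 d

/-- rigidity: an endomorphism which is `0` modulo `I` is zero -/
theorem rigid (F : FormalGroup R) [F.IsComm] {I : Ideal R}
    (hH : ∀ x : R, (∀ s, x ∈ I ^ s) → x = 0) {q : ℕ} (hq : 2 ≤ q)
    (hF : CoeffIn I (mulSeries F p - PowerSeries.X ^ q)) {ε : PowerSeries R}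
    (hε : IsFGHom F F ε) (hεI : CoeffIn I ε) : ε = 0 := by
  have hp : (p : R) ∈ I := by
    have h1 := hF (Finsupp.single () 1)
    have h2 : MvPowerSeries.coeff (Finsupp.single () 1) (mulSeries F p - PowerSeries.X ^ q) =
        PowerSeries.coeff 1 (mulSeries F p) - PowerSeries.coeff 1 (PowerSeries.X ^ q) :=
      map_sub _ _ _
    rw [h2, coeff_one_mulSeries, PowerSeries.coeff_X_pow, if_neg (by omega), sub_zero] at h1
    exact h1
  have hXq : PowerSeries.constantCoeff ((PowerSeries.X : PowerSeries R) ^ q) = 0 := by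
    rw [map_pow, PowerSeries.constantCoeff_X, zero_pow (by omega)]
  have hkey : ∀ s, CoeffIn (I ^ (s + 1)) ε := by
    intro s
    induction s with
    | zero => rw [zero_add, pow_one]; exact hεI
    | succ s ih =>
      have h1 : CoeffIn (I ^ (s + 1 + 1))
          (PowerSeries.subst ε (mulSeries F p) : PowerSeries R) :=
        CoeffIn.mulSeries_p F hp (by omega) hε.1 ih
      have h2 := IsFGHom.comp_mulSeries hε p
      have h3 := CoeffIn.subst_sub ih (constantCoeff_mulSeries F p) hXq hF
      have h4 : CoeffIn (I ^ (s + 1 + 1))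
          (PowerSeries.subst (PowerSeries.X ^ q : PowerSeries R) ε : PowerSeries R) := by
        intro d
        have h5 := h3 d
        rw [map_sub, h2, ← pow_succ] at h5
        have h6 := h1 d
        have h7 := (I ^ (s + 1 + 1)).sub_mem h6 h5
        rwa [sub_sub_cancel] at h7
      intro d
      have h8 := h4 (Finsupp.single () (q * (d ())))
      have h9 : MvPowerSeries.coeff (Finsupp.single () (q * (d ())))
          (PowerSeries.subst (PowerSeries.X ^ q : PowerSeries R) ε : PowerSeries R) =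
          PowerSeries.coeff (q * (d ())) (PowerSeries.subst (PowerSeries.X ^ q) ε) := rfl
      rw [h9, ← PowerSeries.expand_apply q (by omega), PowerSeries.coeff_expand_mul] at h8
      have h10 : d = Finsupp.single () (d ()) := by
        ext
        simp
      rw [h10]
      exact h8
  ext i
  rw [map_zero]
  refine hH _ (fun s => ?_)
  exact Ideal.pow_le_pow_right (Nat.le_succ s) (hkey s (Finsupp.single () i))

/-- the induced map on points under a ring hom -/
noncomputable def FPt.mapHom {F : FormalGroup R} [F.IsComm] {S : Type*} [CommRing S]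
    (r : R →+* S) [(F.map r).IsComm] (σ : Type*) : FPt F σ →+ FPt (F.map r) σ where
  toFun x := ⟨MvPowerSeries.map r x.1, by
    rw [MvPowerSeries.constantCoeff_map, x.2, _root_.map_zero]⟩
  map_zero' := Subtype.ext (_root_.map_zero _)
  map_add' x y := Subtype.ext (LT93.map_op F r
    (PowerSeries.HasSubst.of_constantCoeff_zero x.2)
    (PowerSeries.HasSubst.of_constantCoeff_zero y.2))

theorem subst_add_nsmul (F : FormalGroup R) [F.IsComm] {δ : PowerSeries R}
    (h0 : PowerSeries.constantCoeff δ = 0) (m : ℕ) {σ : Type*} (z : FPt F σ)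
    (Dz : FPt F σ) (hD : Dz.1 = PowerSeries.subst z.1 δ) :
    (PowerSeries.subst z.1 (F.toPowerSeries.subst ![PowerSeries.X,
      PowerSeries.subst δ (mulSeries F m)] : PowerSeries R) : MvPowerSeries σ R) =
      (z + m • Dz).1 := by
  have hz : PowerSeries.HasSubst z.1 := PowerSeries.HasSubst.of_constantCoeff_zero z.2
  have hδ := LT93.hasSubst_of δ h0
  have h1 : PowerSeries.HasSubst (PowerSeries.subst δ (mulSeries F m) : PowerSeries R) :=
    LT93.hasSubst_of _ (LT93.constantCoeff_ev (constantCoeff_mulSeries F m) h0)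
  have h2 := LT93.subst_op F LT93.hXX h1 hz.const
  refine Eq.trans h2 ?_
  rw [FPt.add_val, FPt.nsmul_val, hD]
  have h3 : MvPowerSeries.subst (fun _ : Unit => z.1) (PowerSeries.X : PowerSeries R) = z.1 :=
    PowerSeries.subst_X hz
  have h4 : MvPowerSeries.subst (fun _ : Unit => z.1)
      (PowerSeries.subst δ (mulSeries F m) : PowerSeries R) =
      PowerSeries.subst (PowerSeries.subst z.1 δ) (mulSeries F m) :=
    PowerSeries.subst_comp_subst_apply hδ hz (mulSeries F m)
  rw [h3, h4]
  rfl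

/-- `X + p^N δ` is an endomorphism if `δ` is one modulo `I` and `I^(N+1) = 0` -/
theorem isFGHom_add_nsmul {S : Type*} [CommRing S] (F : FormalGroup R) [F.IsComm]
    (r : R →+* S) (hp : (p : R) ∈ RingHom.ker r) (N : ℕ) (hN : (RingHom.ker r) ^ (N + 1) = ⊥)
    {δ : PowerSeries R} (h0 : PowerSeries.constantCoeff δ = 0)
    (hδ : IsFGHom (F.map r) (F.map r) (PowerSeries.map r δ)) :
    IsFGHom F F (F.toPowerSeries.subst ![PowerSeries.X,
      PowerSeries.subst δ (mulSeries F (p ^ N))]) := by
  have := map_isComm F r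
  let D : FPt F (Fin 2) → FPt F (Fin 2) := fun z =>
    ⟨PowerSeries.subst z.1 δ, LT93.constantCoeff_ev' h0 z.2⟩
  let x : FPt F (Fin 2) := ⟨MvPowerSeries.X 0, MvPowerSeries.constantCoeff_X 0⟩
  let y : FPt F (Fin 2) := ⟨MvPowerSeries.X 1, MvPowerSeries.constantCoeff_X 1⟩
  have hD : ∀ z, FPt.mapHom r (Fin 2) (D z) =
      IsFGHom.mapPt hδ (Fin 2) (FPt.mapHom r (Fin 2) z) := by
    intro z
    apply Subtype.ext
    exact LT93.map_ev δ r (PowerSeries.HasSubst.of_constantCoeff_zero z.2)
  have hc0 : FPt.mapHom r (Fin 2) (D (x + y) - D x - D y) = 0 := by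
    rw [map_sub, map_sub, hD, hD, hD, map_add, map_add]
    abel
  have hc1 : CoeffIn (RingHom.ker r) (D (x + y) - D x - D y).1 := by
    rw [← coeffIn_map_eq_zero]
    exact congrArg Subtype.val hc0
  have hc2 := CoeffIn.nsmul_pow F hp _ hc1 N
  rw [hN] at hc2
  have hc3 : p ^ N • (D (x + y) - D x - D y) = 0 := by
    apply Subtype.ext
    ext d
    have := hc2 d
    rw [Ideal.mem_bot] at this
    rw [this]
    rfl
  have hc4 : p ^ N • D (x + y) = p ^ N • D x + p ^ N • D y := by
    rw [smul_sub, smul_sub, sub_sub, sub_eq_zero] at hc3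
    exact hc3
  have hcc : PowerSeries.constantCoeff (F.toPowerSeries.subst ![PowerSeries.X,
      PowerSeries.subst δ (mulSeries F (p ^ N))] : PowerSeries R) = 0 :=
    LT93.constantCoeff_op F PowerSeries.constantCoeff_X
      (LT93.constantCoeff_ev (constantCoeff_mulSeries F _) h0)
  refine LT93.hom_of_apply hcc ?_
  have e1 := subst_add_nsmul F h0 (p ^ N) (x + y) (D (x + y)) rfl
  have e2 := subst_add_nsmul F h0 (p ^ N) x (D x) rfl
  have e3 := subst_add_nsmul F h0 (p ^ N) y (D y) rfl
  have e4 : x + y + p ^ N • D (x + y) = (x + p ^ N • D x) + (y + p ^ N • D y) := by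
    rw [hc4]; abel
  rw [e4] at e1
  refine Eq.trans e1 ?_
  rw [FPt.add_val, ← e2, ← e3]
  rfl

end Gen

/-- `[p^a]_Γ = X^(q^a)` -/
theorem mulSeries_pow_eq {Γ : FormalGroup (GaloisField p n)} [Γ.IsComm]
    (hΓ : mulSeries Γ p = PowerSeries.X ^ (p ^ n)) (a : ℕ) :
    mulSeries Γ (p ^ a) = PowerSeries.X ^ ((p ^ n) ^ a) := by
  have hp0 : p ≠ 0 := (Fact.out : p.Prime).ne_zero
  induction a with
  | zero => rw [pow_zero, mulSeries_one, pow_zero, pow_one]
  | succ a ih =>
    rw [pow_succ, mulSeries_mul, ih, hΓ]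
    have hs : PowerSeries.HasSubst ((PowerSeries.X : PowerSeries (GaloisField p n)) ^
        ((p ^ n) ^ a)) := PowerSeries.HasSubst.X_pow (pow_ne_zero _ (pow_ne_zero _ hp0))
    rw [PowerSeries.subst_pow hs, PowerSeries.subst_X hs, ← pow_mul, ← pow_succ]

theorem iterateFrobenius_eq_id (hn : 1 ≤ n) (a : ℕ) :
    iterateFrobenius (GaloisField p n) p (n * a) = RingHom.id _ := by
  ext x
  have : Fintype (GaloisField p n) := Fintype.ofFinite _
  have hc : Fintype.card (GaloisField p n) = p ^ n := by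
    rw [← Nat.card_eq_fintype_card]
    exact GaloisField.card p n (by omega)
  rw [iterateFrobenius_def, pow_mul, ← hc, FiniteField.pow_card_pow]
  rfl

/-- If `g ≡ X mod X^M`, `M = (p^n)^a + 1`, then `g = X +_Γ [p^a](ψ)` with `ψ ∈ End Γ`. -/
theorem exists_eq_add_of_congr (hn : 1 ≤ n) {Γ : FormalGroup (GaloisField p n)} [Γ.IsComm]
    (hΓ : mulSeries Γ p = PowerSeries.X ^ (p ^ n)) (a : ℕ) {g : PowerSeries (GaloisField p n)}
    (hg : IsFGAut Γ g)
    (hcong : ∀ i, i < (p ^ n) ^ a + 1 → PowerSeries.coeff i g = PowerSeries.coeff i PowerSeries.X) :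
    ∃ ψ : PowerSeries (GaloisField p n), IsFGHom Γ Γ ψ ∧
      g = Γ.toPowerSeries.subst ![PowerSeries.X, PowerSeries.subst ψ (mulSeries Γ (p ^ a))] := by
  obtain ⟨ε, hε, hgε⟩ := IsFGHom.exists_sub (IsFGHom.id Γ) hg.1
  have h1 : (PowerSeries.X : PowerSeries (GaloisField p n)) ^ ((p ^ n) ^ a + 1) ∣ ε := by
    refine X_pow_dvd_of_add Γ hε.1 _ ?_
    intro i hi
    rw [← hgε]
    exact hcong i hi
  rw [PowerSeries.X_pow_dvd_iff] at h1
  obtain ⟨ψ, hψ1, hψ2⟩ := IsFGHom.frob_factor_iterate p hε (n * a) (by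
    intro j hj
    apply h1
    rw [← pow_mul]
    have : p ^ j < p ^ (n * a) := Nat.pow_lt_pow_right (Fact.out : p.Prime).one_lt hj
    omega)
  rw [iterateFrobenius_eq_id hn a, map_id] at hψ2
  refine ⟨ψ, hψ2, ?_⟩
  rw [hgε, hψ1, ← IsFGHom.comp_mulSeries hψ2, mulSeries_pow_eq hΓ, ← pow_mul]

/-- uniqueness in the universal property over `E / J` -/
theorem quot_eq_of_hom {Γ : FormalGroup (GaloisField p n)} {H : FormalGroup (LTRing p n)}
    (hH : IsUniversalDeformation p n Γ H) {J : Ideal (LTRing p n)} (hJ : J ≠ ⊤)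
    {φ : LTRing p n →ₐ[WittVector p (GaloisField p n)] LTRing p n}
    (hφ : (LTRing.residue p n).comp φ.toRingHom = LTRing.residue p n)
    {θ : PowerSeries (LTRing p n ⧸ J)}
    (hθ : IsFGHom ((H.map φ.toRingHom).map (Ideal.Quotient.mk J)) (H.map (Ideal.Quotient.mk J)) θ)
    (hθX : PowerSeries.map (quotResidue p n J hJ) θ = PowerSeries.X) (f : LTRing p n) :
    φ f - f ∈ J := by
  have : IsLocalRing (LTRing p n ⧸ J) := isLocalRing_quot p n J hJ
  have hcomp := quotResidue_comp_mk p n J hJ
  set W := WittVector p (GaloisField p n) with hW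
  have e1 : (((Ideal.Quotient.mkₐ W J).comp φ).toRingHom) =
      (Ideal.Quotient.mk J).comp φ.toRingHom := rfl
  have e2 : (Ideal.Quotient.mkₐ W J).toRingHom = Ideal.Quotient.mk J := rfl
  have h := uniq_of_hom hH (LTRing p n ⧸ J) (isAdicComplete_quot p n J) (quotResidue p n J hJ)
    (quotResidue_surjective p n J hJ) (ker_quotResidue p n J hJ) (quotResidue_algebraMap p n J hJ)
    ((Ideal.Quotient.mkₐ W J).comp φ) (Ideal.Quotient.mkₐ W J) (by
      rw [e1, ← RingHom.comp_assoc, hcomp, hφ]) (by rw [e2, hcomp]) θ (by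
      rw [e1, e2, ← map_map]
      exact hθ) hθX
  have h2 := DFunLike.congr_fun h f
  have h3 : Ideal.Quotient.mk J (φ f) = Ideal.Quotient.mk J f := h2
  rwa [Ideal.Quotient.eq] at h3

/-- `φ_g ≡ id mod m^N` if `g ≡ X mod X^M'`. -/
theorem stabilizer_close (hn : 1 ≤ n) {Γ : FormalGroup (GaloisField p n)} [Γ.IsComm]
    (hΓ : mulSeries Γ p = PowerSeries.X ^ (p ^ n)) {H : FormalGroup (LTRing p n)} [H.IsComm]
    (hH : IsUniversalDeformation p n Γ H) (N : ℕ) :
    ∃ M' : ℕ, ∀ (g : PowerSeries (GaloisField p n))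
      (φ : LTRing p n →ₐ[WittVector p (GaloisField p n)] LTRing p n), IsFGAut Γ g →
      (∀ i, i < M' → PowerSeries.coeff i g = PowerSeries.coeff i PowerSeries.X) →
      IsStabilizerMap p n H g φ →
      ∀ f, φ f - f ∈ (RingHom.ker (LTRing.residue p n)) ^ N := by
  rcases N with _ | N
  · exact ⟨0, fun g φ _ _ _ f => by rw [pow_zero, Ideal.one_eq_top]; exact Submodule.mem_top⟩
  refine ⟨(p ^ n) ^ N + 1, ?_⟩
  rintro g φ hg hcong ⟨hres, θ, hθ, hm⟩
  obtain ⟨ψ, hψ, hgψ⟩ := exists_eq_add_of_congr hn hΓ N hg hcong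
  obtain ⟨δ, hδ0, hδm⟩ := exists_lift ψ hψ.1
  set J : Ideal (LTRing p n) := (RingHom.ker (LTRing.residue p n)) ^ (N + 1) with hJdef
  have hJ : J ≠ ⊤ := by
    intro h
    have h1 : J ≤ RingHom.ker (LTRing.residue p n) := Ideal.pow_le_self (by omega)
    rw [h, top_le_iff, ker_residue] at h1
    exact Ideal.IsPrime.ne_top inferInstance h1
  set r := quotResidue p n J hJ with hr
  set π := Ideal.Quotient.mk J with hπ
  have hcomp : r.comp π = LTRing.residue p n := quotResidue_comp_mk p n J hJ
  have := map_isComm H π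
  have hFr : (H.map π).map r = Γ := by rw [map_map, hcomp]; exact hH.1
  have hp : ((p : ℕ) : LTRing p n ⧸ J) ∈ RingHom.ker r := by
    rw [RingHom.mem_ker, map_natCast]
    exact CharP.cast_eq_zero _ _
  have hker : RingHom.ker r = Ideal.map π (RingHom.ker (LTRing.residue p n)) :=
    Ideal.ker_quotient_lift _ _
  have hnil : (RingHom.ker r) ^ (N + 1) = ⊥ := by
    rw [hker, ← Ideal.map_pow, ← hJdef, hπ]
    exact Ideal.map_quotient_self J
  have hrδ : PowerSeries.map r (PowerSeries.map π δ) = ψ := by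
    rw [← hδm, ← hcomp, PowerSeries.map_comp]
    rfl
  have hδB0 : PowerSeries.constantCoeff (PowerSeries.map π δ) = 0 := constantCoeff_map' π hδ0
  have hθ₀ := isFGHom_add_nsmul (H.map π) r hp N hnil hδB0 (by rw [hrδ, hFr]; exact hψ)
  set θ₀ : PowerSeries (LTRing p n ⧸ J) := (H.map π).toPowerSeries.subst ![PowerSeries.X,
      PowerSeries.subst (PowerSeries.map π δ) (mulSeries (H.map π) (p ^ N))] with hθ₀def
  have hsub1 : PowerSeries.HasSubst (PowerSeries.subst (PowerSeries.map π δ)
      (mulSeries (H.map π) (p ^ N)) : PowerSeries (LTRing p n ⧸ J)) :=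
    LT93.hasSubst_of _ (LT93.constantCoeff_ev (constantCoeff_mulSeries _ _) hδB0)
  have hθ₀r : PowerSeries.map r θ₀ = g := by
    have h1 := LT93.map_op (H.map π) r LT93.hXX hsub1
    have h2 := LT93.map_ev (mulSeries (H.map π) (p ^ N)) r (LT93.hasSubst_of _ hδB0)
    rw [hgψ, hθ₀def]
    refine Eq.trans h1 ?_
    have h3 : MvPowerSeries.map r (PowerSeries.X : PowerSeries (LTRing p n ⧸ J)) =
      (PowerSeries.X : PowerSeries (GaloisField p n)) := PowerSeries.map_X r
    have h4 : MvPowerSeries.map r (PowerSeries.map π δ) = ψ := hrδ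
    have h5 : MvPowerSeries.map r (PowerSeries.subst (PowerSeries.map π δ)
        (mulSeries (H.map π) (p ^ N)) : PowerSeries (LTRing p n ⧸ J)) =
        PowerSeries.subst ψ (mulSeries Γ (p ^ N)) := by
      refine Eq.trans h2 ?_
      rw [h4, ← mulSeries_map, hFr]
      rfl
    rw [h3, h5, hFr]
    rfl
  have hu : IsUnit (PowerSeries.coeff 1 (PowerSeries.map r θ₀)) := by rw [hθ₀r]; exact hg.2
  have : IsLocalRing (LTRing p n ⧸ J) := isLocalRing_quot p n J hJ
  have hu0 : IsUnit (PowerSeries.coeff 1 θ₀) := by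
    rw [PowerSeries.coeff_map] at hu
    by_contra hcon
    have h1 : PowerSeries.coeff 1 θ₀ ∈ IsLocalRing.maximalIdeal (LTRing p n ⧸ J) :=
      (IsLocalRing.mem_maximalIdeal _).2 hcon
    rw [← ker_quotResidue p n J hJ, RingHom.mem_ker] at h1
    rw [hr, h1] at hu
    exact not_isUnit_zero hu
  have hθB : IsFGHom ((H.map φ.toRingHom).map π) (H.map π) (PowerSeries.map π θ) := IsFGHom.map hθ π
  have hθBr : PowerSeries.map r (PowerSeries.map π θ) = g := by
    rw [← hm, ← hcomp, PowerSeries.map_comp]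
    rfl
  have hhom := LT93.hom_comp hθB (LT93.hom_cinv hθ₀ hu0)
  refine quot_eq_of_hom hH hJ hres hhom ?_
  have h3 := LT93.map_ev (LT93.cinv θ₀ hu0) r (LT93.hasSubst_of _ hθB.1)
  rw [LT93.map_cinv θ₀ hθ₀.1 hu0 r hu] at h3
  refine Eq.trans h3 ?_
  have h4 := LT93.ev_cinv_left (PowerSeries.map r θ₀) (constantCoeff_map' _ hθ₀.1) hu
  have e1 : (MvPowerSeries.map r) (PowerSeries.map π θ) = PowerSeries.map r θ₀ := by
    rw [hθ₀r]
    exact hθBr
  rw [e1]
  exact h4

/-- first half of `stabilizer_congr_ideal`, no hypothesis on the height -/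
theorem stabilizer_congr_ideal_fst {Γ : FormalGroup (GaloisField p n)}
    {H : FormalGroup (LTRing p n)} (hH : IsUniversalDeformation p n Γ H)
    (G : FormalGroup (LTRing p n))
    (φ : LTRing p n →ₐ[WittVector p (GaloisField p n)] LTRing p n) (ψ : PowerSeries (LTRing p n))
    (hφ : (LTRing.residue p n).comp φ.toRingHom = LTRing.residue p n)
    (hψ : IsFGHom (H.map φ.toRingHom) G ψ)
    (hψX : PowerSeries.map (LTRing.residue p n) ψ = PowerSeries.X)
    (b : Ideal (LTRing p n))
    (hb : ∀ d, MvPowerSeries.coeff d G.toPowerSeries - MvPowerSeries.coeff d H.toPowerSeries ∈ b) :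
    ∀ f, φ f - f ∈ b := by
  by_cases hbt : b = ⊤
  · intro f; rw [hbt]; exact Submodule.mem_top
  have hG : G.map (Ideal.Quotient.mk b) = H.map (Ideal.Quotient.mk b) := by
    ext1
    simp only [FormalGroup.map_toPowerSeries]
    rw [map_eq_map_iff, Ideal.mk_ker]
    intro d
    rw [map_sub]
    exact hb d
  intro f
  refine quot_eq_of_hom hH hbt hφ (θ := PowerSeries.map (Ideal.Quotient.mk b) ψ) ?_ ?_ f
  · rw [← hG]
    exact IsFGHom.map hψ _
  · rw [← hψX, ← quotResidue_comp_mk p n b hbt, PowerSeries.map_comp]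
    rfl

/-- Refined version for the char 0 part and the orbit expansion: with `δ ∈ End Γ`, `δ'` a lift,
`θ₀ = X +_H [p^a]_H(δ')`, `G = θ₀⁻¹ H(θ₀, θ₀)`, every ideal `b` containing all coefficients of
`G - H`: then the classifying map is `≡ id mod b` and the ⋆-isomorphism is `≡ X mod b`. -/
theorem stabilizer_congr_ideal (hn : 1 ≤ n) {Γ : FormalGroup (GaloisField p n)} [Γ.IsComm]
    (hΓ : mulSeries Γ p = PowerSeries.X ^ (p ^ n))
    {H : FormalGroup (LTRing p n)} [H.IsComm] (hH : IsUniversalDeformation p n Γ H)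
    (G : FormalGroup (LTRing p n))
    (φ : LTRing p n →ₐ[WittVector p (GaloisField p n)] LTRing p n) (ψ : PowerSeries (LTRing p n))
    (hφ : (LTRing.residue p n).comp φ.toRingHom = LTRing.residue p n)
    (hψ : IsFGHom (H.map φ.toRingHom) G ψ)
    (hψX : PowerSeries.map (LTRing.residue p n) ψ = PowerSeries.X)
    (b : Ideal (LTRing p n))
    (hb : ∀ d, MvPowerSeries.coeff d G.toPowerSeries - MvPowerSeries.coeff d H.toPowerSeries ∈ b) :
    (∀ f, φ f - f ∈ b) ∧
      ∀ i, PowerSeries.coeff i ψ - PowerSeries.coeff i PowerSeries.X ∈ b := by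
  have hfst := stabilizer_congr_ideal_fst hH G φ ψ hφ hψ hψX b hb
  refine ⟨hfst, ?_⟩
  by_cases hbt : b = ⊤
  · intro f; rw [hbt]; exact Submodule.mem_top
  set π := Ideal.Quotient.mk b with hπ
  set r := quotResidue p n b hbt with hr
  have hcomp : r.comp π = LTRing.residue p n := quotResidue_comp_mk p n b hbt
  have := map_isComm H π
  have hG : G.map π = H.map π := by
    ext1
    simp only [FormalGroup.map_toPowerSeries]
    rw [map_eq_map_iff, hπ, Ideal.mk_ker]
    intro d
    rw [map_sub]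
    exact hb d
  have hφπ : π.comp φ.toRingHom = π := by
    ext f
    show π (φ f) = π f
    rw [hπ, Ideal.Quotient.eq]
    exact hfst f
  have hψB : IsFGHom (H.map π) (H.map π) (PowerSeries.map π ψ) := by
    have h1 := IsFGHom.map hψ π
    rwa [hG, map_map, hφπ] at h1
  have hψBr : PowerSeries.map r (PowerSeries.map π ψ) = PowerSeries.X := by
    rw [← hψX, ← hcomp, PowerSeries.map_comp]
    rfl
  obtain ⟨ε, hε, hψε⟩ := IsFGHom.exists_sub (IsFGHom.id (H.map π)) hψB
  have hFr : (H.map π).map r = Γ := by rw [map_map, hcomp]; exact hH.1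
  -- ε reduces to zero
  have hεr : PowerSeries.map r ε = 0 := by
    have h1 := congrArg (PowerSeries.map r) hψε
    rw [hψBr] at h1
    have h2 := LT93.map_op (H.map π) r LT93.hXX (LT93.hasSubst_of _ hε.1)
    have h3 := h1.trans h2
    rw [hFr] at h3
    have h4 : MvPowerSeries.map r (PowerSeries.X : PowerSeries (LTRing p n ⧸ b)) =
      (PowerSeries.X : PowerSeries (GaloisField p n)) := PowerSeries.map_X r
    rw [h4] at h3
    have hε0 : PowerSeries.constantCoeff (PowerSeries.map r ε) = 0 := constantCoeff_map' r hε.1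
    let x : FPt Γ Unit := ⟨(PowerSeries.X : PowerSeries (GaloisField p n)),
      PowerSeries.constantCoeff_X⟩
    let y : FPt Γ Unit := ⟨PowerSeries.map r ε, hε0⟩
    have h5 : x = x + y := Subtype.ext h3
    have h6 : y = 0 := by
      have := add_eq_left.1 h5.symm
      exact this
    exact congrArg Subtype.val h6
  have hεI : CoeffIn (RingHom.ker r) ε := coeffIn_map_eq_zero r |>.1 hεr
  have : IsLocalRing (LTRing p n ⧸ b) := isLocalRing_quot p n b hbt
  have hker : RingHom.ker r = IsLocalRing.maximalIdeal (LTRing p n ⧸ b) :=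
    ker_quotResidue p n b hbt
  have hp2 : 2 ≤ p ^ n := by
    calc 2 ≤ p := (Fact.out : p.Prime).two_le
      _ ≤ p ^ n := Nat.le_self_pow (by omega) p
  have hε0 : ε = 0 := by
    refine rigid (p := p) (H.map π) (I := RingHom.ker r) ?_ hp2 ?_ hε hεI
    · intro x hx
      rw [hker] at hx
      have h1 : x ∈ ⨅ i, (IsLocalRing.maximalIdeal (LTRing p n ⧸ b)) ^ i := by
        rw [Ideal.mem_iInf]
        exact hx
      rw [Ideal.iInf_pow_eq_bot_of_isLocalRing _ (Ideal.IsPrime.ne_top inferInstance)] at h1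
      exact h1
    · rw [← coeffIn_map_eq_zero]
      have h1 : MvPowerSeries.map r (mulSeries (H.map π) p - PowerSeries.X ^ (p ^ n)) =
          MvPowerSeries.map r (mulSeries (H.map π) p) -
            MvPowerSeries.map r (PowerSeries.X ^ (p ^ n) : PowerSeries (LTRing p n ⧸ b)) :=
        map_sub _ _ _
      have h2 : MvPowerSeries.map r (mulSeries (H.map π) p) = PowerSeries.X ^ (p ^ n) := by
        have := mulSeries_map (H.map π) r p
        rw [hFr, hΓ] at this
        exact this.symm
      have h3 : MvPowerSeries.map r (PowerSeries.X ^ (p ^ n) : PowerSeries (LTRing p n ⧸ b)) =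
          PowerSeries.X ^ (p ^ n) := by
        have : PowerSeries.map r (PowerSeries.X ^ (p ^ n) : PowerSeries (LTRing p n ⧸ b)) =
          PowerSeries.X ^ (p ^ n) := by rw [map_pow, PowerSeries.map_X]
        exact this
      rw [h1, h2, h3, sub_self]
  have hψX' : PowerSeries.map π ψ = PowerSeries.X := by
    rw [hψε, hε0]
    exact LT93.op_zero (H.map π) LT93.hXX
  intro i
  rw [← Ideal.Quotient.eq]
  have h1 := congrArg (PowerSeries.coeff i) hψX'
  rw [PowerSeries.coeff_map] at h1
  rw [← hπ, h1, PowerSeries.coeff_X, PowerSeries.coeff_X]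
  split_ifs <;> simp

end Crest.Agent.LT
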