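import Mathlib
import Crest.Prelude.Def_LubinTate
import Crest.Agent.LT.FG
import Crest.Agent.LT.Ring
import Crest.Agent.LT.Act
import Crest.Agent.LT93.Height
import Crest.Agent.LT93.Tangent
import Crest.Agent.LT93.AdicEval

/-! # A2: coordinates of `E` (row 227). Paper proof: ideas row 227, A2.
Ring-theoretic infrastructure on `LTRing` (local, Noetherian, complete) is in LT/Ring.lean (helper93). -/

set_option autoImplicit false
set_option linter.unusedSectionVars false

namespace Crest.Agent.LT

open Crest.LubinTate MvPowerSeries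

variable {p : ℕ} [Fact p.Prime] {n : ℕ}

/-- A surjective endomorphism of a Noetherian ring is injective. -/
theorem injective_of_surjective_ringEnd {A : Type*} [CommRing A] [IsNoetherianRing A]
    (Φ : A →+* A) (h : Function.Surjective Φ) : Function.Injective Φ := by
  let K : ℕ →o Ideal A := ⟨fun m => RingHom.ker (Φ ^ m), by
    refine monotone_nat_of_le_succ fun m x hx => ?_
    rw [RingHom.mem_ker] at hx ⊢
    rw [pow_succ', RingHom.mul_def, RingHom.comp_apply, hx, _root_.map_zero]⟩
  obtain ⟨N, hN⟩ := monotone_stabilizes_iff_noetherian.2 ‹IsNoetherianRing A› K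
  rw [injective_iff_map_eq_zero]
  intro x hx
  have hs : Function.Surjective (Φ ^ N) := by
    rw [RingHom.coe_pow]
    exact h.iterate N
  obtain ⟨y, rfl⟩ := hs x
  have h1 : y ∈ K (N + 1) := by
    change y ∈ RingHom.ker (Φ ^ (N + 1))
    rw [RingHom.mem_ker, pow_succ', RingHom.mul_def, RingHom.comp_apply, hx]
  rw [← hN (N + 1) (by omega)] at h1
  exact h1

theorem heightIdeal_le_max {Γ : FormalGroup (GaloisField p n)}
    (hΓ : mulSeries Γ p = PowerSeries.X ^ (p ^ n)) {H : FormalGroup (LTRing p n)}
    (hH : H.map (LTRing.residue p n) = Γ) {h : ℕ} (hh : h ≤ n) :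
    heightIdeal p n H h ≤ IsLocalRing.maximalIdeal (LTRing p n) := by
  rw [LT93.heightIdeal_le_iff]
  intro j hj
  rw [mem_maximal_iff, LT93.residue_coeff_mulSeries hΓ hH, if_neg]
  intro he
  exact absurd (Nat.pow_right_injective (Fact.out : p.Prime).two_le he) (by omega)

theorem heightIdeal_n' (hn : 1 ≤ n) {Γ : FormalGroup (GaloisField p n)}
    (hΓ : mulSeries Γ p = PowerSeries.X ^ (p ^ n)) {H : FormalGroup (LTRing p n)} [H.IsComm]
    (hH : IsUniversalDeformation p n Γ H) :
    heightIdeal p n H n = IsLocalRing.maximalIdeal (LTRing p n) := by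
  classical
  apply le_antisymm (heightIdeal_le_max hΓ hH.1 le_rfl)
  set m := IsLocalRing.maximalIdeal (LTRing p n) with hm
  -- the Jacobian matrix
  let J : Matrix (Fin (n - 1)) (Fin (n - 1)) (GaloisField p n) := fun j i =>
    WittVector.constantCoeff (MvPowerSeries.coeff (Finsupp.single i 1)
        (PowerSeries.coeff (p ^ (j.val + 1)) (mulSeries H p)))
  have hJ : IsUnit J := by
    rw [← Matrix.mulVec_injective_iff_isUnit]
    rw [← Matrix.coe_mulVecLin, injective_iff_map_eq_zero]
    intro lam hlam
    apply LT93.lam_eq_zero hn hΓ hH lam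
    intro j hj1 hjn
    have h1 := congrFun hlam ⟨j - 1, by omega⟩
    simp only [Matrix.mulVecLin_apply, Matrix.mulVec, dotProduct, Pi.zero_apply] at h1
    rw [← h1]
    refine Finset.sum_congr rfl fun i _ => ?_
    have : j - 1 + 1 = j := by omega
    simp only [J, this]
    ring
  have hsurj : Function.Surjective J.vecMul := Matrix.vecMul_surjective_iff_isUnit.2 hJ
  have hle : m ≤ heightIdeal p n H n ⊔ m • m := by
    intro f hf
    obtain ⟨μ, hμ⟩ := hsurj (fun i => WittVector.constantCoeff
      (MvPowerSeries.coeff (Finsupp.single i 1) f))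
    set s : LTRing p n := ∑ j : Fin (n - 1),
      MvPowerSeries.C (WittVector.teichmuller p (μ j)) *
        PowerSeries.coeff (p ^ (j.val + 1)) (mulSeries H p) with hs
    have hsI : s ∈ heightIdeal p n H n := by
      refine sum_mem fun j _ => Ideal.mul_mem_left _ _ ?_
      exact LT93.coeff_pow_mem_heightIdeal H (by omega)
    have hsm : s ∈ m := heightIdeal_le_max hΓ hH.1 le_rfl hsI
    set g := f - s with hg
    have hgm : g ∈ m := sub_mem hf hsm
    have hlin : ∀ i, WittVector.constantCoeff (MvPowerSeries.coeff (Finsupp.single i 1) g) = 0 := by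
      intro i
      have h1 := congrFun hμ i
      simp only [Matrix.vecMul, dotProduct] at h1
      rw [hg, map_sub, map_sub, sub_eq_zero, hs, map_sum, map_sum, ← h1]
      refine Finset.sum_congr rfl fun j _ => ?_
      rw [MvPowerSeries.coeff_C_mul, map_mul]
      congr 1
    -- decompose `g`
    have h0 : MvPowerSeries.constantCoeff (g - MvPowerSeries.C (MvPowerSeries.constantCoeff g)) =
        0 := by simp
    have h2 := mem_span_X_of_constantCoeff _ h0
    rw [Ideal.mem_span_range_iff_exists_fun] at h2
    obtain ⟨c, hc⟩ := h2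
    have hcm : ∀ i, c i ∈ m := by
      intro i
      rw [hm, mem_maximal_iff]
      have h3 := congrArg (MvPowerSeries.coeff (Finsupp.single i 1)) hc
      rw [map_sum, Finset.sum_eq_single i] at h3
      · have e1 : MvPowerSeries.coeff (Finsupp.single i 1) (c i * MvPowerSeries.X i) =
            MvPowerSeries.constantCoeff (c i) := by
          have := MvPowerSeries.coeff_add_mul_monomial (0 : Fin (n-1) →₀ ℕ)
            (Finsupp.single i 1) (c i) 1
          rw [zero_add, mul_one] at this
          exact this
        rw [e1, map_sub, MvPowerSeries.coeff_C, if_neg (by simp), sub_zero] at h3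
        change WittVector.constantCoeff (MvPowerSeries.constantCoeff (c i)) = 0
        rw [h3]
        exact hlin i
      · intro b _ hb
        rw [MvPowerSeries.X, MvPowerSeries.coeff_mul_monomial, if_neg]
        intro hle
        have := hle b
        rw [Finsupp.single_apply, Finsupp.single_apply, if_pos rfl, if_neg (Ne.symm hb)] at this
        omega
      · intro hh; exact absurd (Finset.mem_univ _) hh
    have h4 : g - MvPowerSeries.C (MvPowerSeries.constantCoeff g) ∈ m • m := by
      rw [← hc]
      refine sum_mem fun i _ => ?_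
      rw [smul_eq_mul]
      exact Ideal.mul_mem_mul (hcm i) (by rw [hm, mem_maximal_iff]; simp [LTRing.residue])
    have h5 : MvPowerSeries.C (MvPowerSeries.constantCoeff g) ∈ heightIdeal p n H n := by
      have h6 : MvPowerSeries.constantCoeff g ∈ RingHom.ker
          (WittVector.constantCoeff : WittVector p (GaloisField p n) →+* _) := by
        rw [hm, mem_maximal_iff] at hgm
        exact hgm
      rw [ker_constantCoeff_witt, Ideal.mem_span_singleton'] at h6
      obtain ⟨a, ha⟩ := h6
      rw [← ha, map_mul]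
      apply Ideal.mul_mem_left
      have h7 := LT93.coeff_pow_mem_heightIdeal H (show 0 < n by omega)
      rw [pow_zero, coeff_one_mulSeries] at h7
      have e8 : (MvPowerSeries.C (σ := Fin (n-1)) (p : WittVector p (GaloisField p n))) =
        (p : LTRing p n) := map_natCast _ _
      rw [e8]; exact h7
    have e9 : f = (s + MvPowerSeries.C (MvPowerSeries.constantCoeff g)) +
        (g - MvPowerSeries.C (MvPowerSeries.constantCoeff g)) := by rw [hg]; ring
    rw [e9]
    exact add_mem (Ideal.mem_sup_left (add_mem hsI h5)) (Ideal.mem_sup_right h4)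
  exact Submodule.le_of_le_smul_of_le_jacobson_bot (IsNoetherian.noetherian m)
    (IsLocalRing.maximalIdeal_le_jacobson _) hle

theorem heightIdeal_n (hn : 1 ≤ n) {Γ : FormalGroup (GaloisField p n)}
    (hΓ : mulSeries Γ p = PowerSeries.X ^ (p ^ n)) {H : FormalGroup (LTRing p n)} [H.IsComm]
    (hH : IsUniversalDeformation p n Γ H) :
    heightIdeal p n H n = RingHom.ker (LTRing.residue p n) := by
  rw [ker_residue]
  exact heightIdeal_n' hn hΓ hH

/-- the coefficients `v_i = coeff_{X^(p^i)} [p]_H`, `1 ≤ i ≤ n-1`, are coordinates of `E`. -/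
theorem exists_coord (hn : 1 ≤ n) {Γ : FormalGroup (GaloisField p n)}
    (hΓ : mulSeries Γ p = PowerSeries.X ^ (p ^ n)) {H : FormalGroup (LTRing p n)} [H.IsComm]
    (hH : IsUniversalDeformation p n Γ H) :
    ∃ α : LTRing p n ≃ₐ[WittVector p (GaloisField p n)] LTRing p n,
      ∀ i : Fin (n - 1), α (MvPowerSeries.X i) =
        PowerSeries.coeff (p ^ (i.val + 1)) (mulSeries H p) := by
  classical
  set m := IsLocalRing.maximalIdeal (LTRing p n) with hm
  have hv : ∀ i : Fin (n - 1), PowerSeries.coeff (p ^ (i.val + 1)) (mulSeries H p) ∈ m :=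
    fun i => heightIdeal_le_max hΓ hH.1 le_rfl (LT93.coeff_pow_mem_heightIdeal H (by omega))
  obtain ⟨Φ, hΦC, hΦX, hΦN⟩ := LT93.exists_adicEval m
    (MvPowerSeries.C (σ := Fin (n-1)) (R := WittVector p (GaloisField p n))) _ hv
  have hmap : m.map Φ = m := by
    apply le_antisymm
    · rw [Ideal.map_le_iff_le_comap, hm, maximalIdeal_eq, sup_le_iff, Ideal.span_le, Ideal.span_le]
      constructor
      · rintro _ rfl
        rw [SetLike.mem_coe, Ideal.mem_comap, hΦC, ← maximalIdeal_eq]
        rw [mem_maximal_iff]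
        simp [LTRing.residue]
      · rintro _ ⟨i, rfl⟩
        rw [SetLike.mem_coe, Ideal.mem_comap, hΦX, ← maximalIdeal_eq]
        exact hv i
    · rw [hm, ← heightIdeal_n' hn hΓ hH, LT93.heightIdeal_le_iff, heightIdeal_n' hn hΓ hH]
      intro j hj
      rcases Nat.eq_zero_or_pos j with rfl | hj0
      · rw [pow_zero, coeff_one_mulSeries]
        have e8 : (p : LTRing p n) = Φ (p : LTRing p n) := (map_natCast _ _).symm
        rw [e8]
        apply Ideal.mem_map_of_mem
        rw [mem_maximal_iff]
        simp [LTRing.residue]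
      · have := hΦX ⟨j - 1, by omega⟩
        have e9 : j - 1 + 1 = j := by omega
        simp only [e9] at this
        rw [← this]
        apply Ideal.mem_map_of_mem
        rw [mem_maximal_iff]
        simp [LTRing.residue]
  have hsurj : Function.Surjective Φ := by
    have : IsHausdorff (m.map Φ) (LTRing p n) := by rw [hmap]; infer_instance
    apply surjective_of_mk_map_comp_surjective (I := m)
    intro y
    obtain ⟨x, rfl⟩ := Ideal.Quotient.mk_surjective y
    refine ⟨MvPowerSeries.C (MvPowerSeries.constantCoeff x), ?_⟩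
    rw [RingHom.comp_apply, hΦC, Ideal.Quotient.eq, hmap, hm, mem_maximal_iff]
    simp [LTRing.residue]
  have hinj : Function.Injective Φ :=
    injective_of_surjective_ringEnd Φ hsurj
  let α : LTRing p n →ₐ[WittVector p (GaloisField p n)] LTRing p n :=
    { Φ with commutes' := fun r => hΦC r }
  exact ⟨AlgEquiv.ofBijective α ⟨hinj, hsurj⟩, fun i => hΦX i⟩


section Kill

variable {σ τ : Type*} {R S : Type*} [CommRing R] [CommRing S]

/-- Power series whose coefficients vanish on exponents supported in the range of `e` lie in the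
ideal generated by the remaining variables. -/
theorem mem_span_X_of_killCompl [Fintype τ] (e : σ ↪ τ) (f : MvPowerSeries τ R)
    (hf : MvPowerSeries.killCompl e f = 0) :
    f ∈ (Ideal.span (MvPowerSeries.X '' (Set.range e)ᶜ) : Ideal (MvPowerSeries τ R)) := by
  classical
  have hcoeff : ∀ d : τ →₀ ℕ, (∀ t, t ∉ Set.range e → d t = 0) →
      MvPowerSeries.coeff d f = 0 := by
    intro d hd
    have h1 : d ∈ Set.range (Finsupp.embDomain e : (σ →₀ ℕ) → (τ →₀ ℕ)) := by
      rw [Finsupp.mem_range_embDomain_iff]
      intro t ht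
      by_contra hn
      rw [Finset.mem_coe, Finsupp.mem_support_iff] at ht
      exact ht (hd t hn)
    obtain ⟨x, rfl⟩ := h1
    rw [← MvPowerSeries.coeff_killCompl, hf, _root_.map_zero]
  have hex : ∀ d : τ →₀ ℕ, ∃ i : Option τ, ((∃ t, t ∉ Set.range e ∧ d t ≠ 0) →
      ∃ j, i = some j ∧ j ∉ Set.range e ∧ d j ≠ 0) := by
    intro d
    by_cases hd : ∃ t, t ∉ Set.range e ∧ d t ≠ 0
    · obtain ⟨t, ht1, ht2⟩ := hd
      exact ⟨some t, fun _ => ⟨t, rfl, ht1, ht2⟩⟩
    · exact ⟨none, fun h => absurd h hd⟩
  choose i hi using hex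
  let g : τ → MvPowerSeries τ R := fun s => mkMv
    (fun d => if s ∉ Set.range e ∧ i (d + Finsupp.single s 1) = some s then
      MvPowerSeries.coeff (d + Finsupp.single s 1) f else 0)
  have hg0 : ∀ s, s ∈ Set.range e → g s = 0 := by
    intro s hs
    ext d
    rw [coeff_mkMv, if_neg (by tauto), MvPowerSeries.coeff_zero]
  have hfg : f = ∑ s : τ, MvPowerSeries.X s * g s := by
    ext d
    rw [map_sum]
    by_cases hd : ∃ t, t ∉ Set.range e ∧ d t ≠ 0
    · obtain ⟨j, hj, hjr, hdj⟩ := hi d hd
      rw [Finset.sum_eq_single j]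
      · rw [MvPowerSeries.X, MvPowerSeries.coeff_monomial_mul, if_pos (by
          simp only [Finsupp.single_le_iff]; omega)]
        have e1 : d - Finsupp.single j 1 + Finsupp.single j 1 = d :=
          tsub_add_cancel_of_le (by simp only [Finsupp.single_le_iff]; omega)
        rw [one_mul, coeff_mkMv, e1, if_pos ⟨hjr, hj⟩]
      · intro s _ hs
        rw [MvPowerSeries.X, MvPowerSeries.coeff_monomial_mul]
        split_ifs with h
        · have e1 : d - Finsupp.single s 1 + Finsupp.single s 1 = d :=
            tsub_add_cancel_of_le h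
          rw [one_mul, coeff_mkMv, e1, if_neg]
          rw [hj]
          rintro ⟨_, h'⟩
          exact hs (Option.some_injective _ h').symm
        · rfl
      · intro h; exact absurd (Finset.mem_univ _) h
    · have hd' : ∀ t, t ∉ Set.range e → d t = 0 := by
        intro t ht
        by_contra h0
        exact hd ⟨t, ht, h0⟩
      rw [hcoeff d hd', Finset.sum_eq_zero]
      intro s _
      by_cases hs : s ∈ Set.range e
      · rw [hg0 s hs, mul_zero, MvPowerSeries.coeff_zero]
      · rw [MvPowerSeries.X, MvPowerSeries.coeff_monomial_mul, if_neg]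
        simp only [Finsupp.single_le_iff]
        have := hd' s hs
        omega
  rw [hfg]
  refine sum_mem fun s _ => ?_
  by_cases hs : s ∈ Set.range e
  · rw [hg0 s hs, mul_zero]; exact zero_mem _
  · exact Ideal.mul_mem_right _ _ (Ideal.subset_span ⟨s, hs, rfl⟩)

theorem killCompl_surjective (e : σ ↪ τ) :
    Function.Surjective (MvPowerSeries.killCompl (R := R) e) := by
  intro f
  exact ⟨_, MvPowerSeries.killCompl_rename_app (e := e) f⟩

end Kill

/-- The reduction `E → k[[X_0, …, X_{n-h-1}]]`, `u_{h+i} ↦ X_i`, `u_j ↦ 0` for `j < h`. -/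
noncomputable def redMap (p : ℕ) [Fact p.Prime] (n h : ℕ) (h1 : 1 ≤ h) (hh : h ≤ n) :
    LTRing p n →+* MvPowerSeries (Fin (n - h)) (GaloisField p n) :=
  (MvPowerSeries.killCompl (R := GaloisField p n)
    (⟨fun i : Fin (n - h) => (⟨i.val + (h - 1), by omega⟩ : Fin (n - 1)), fun i j hij => by
      simp only [Fin.mk.injEq] at hij; ext; omega⟩ : Fin (n - h) ↪ Fin (n - 1))).toRingHom.comp
    (MvPowerSeries.map (WittVector.constantCoeff : WittVector p (GaloisField p n) →+* _))

theorem redMap_surjective (p : ℕ) [Fact p.Prime] (n h : ℕ) (h1 : 1 ≤ h) (hh : h ≤ n) :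
    Function.Surjective (redMap p n h h1 hh) := by
  intro f
  obtain ⟨g, hg⟩ := killCompl_surjective (R := GaloisField p n)
    (⟨fun i : Fin (n - h) => (⟨i.val + (h - 1), by omega⟩ : Fin (n - 1)), fun i j hij => by
      simp only [Fin.mk.injEq] at hij; ext; omega⟩ : Fin (n - h) ↪ Fin (n - 1)) f
  have hs : Function.Surjective (MvPowerSeries.map (σ := Fin (n - 1))
      (WittVector.constantCoeff : WittVector p (GaloisField p n) →+* _)) := by
    intro g
    refine ⟨mkMv fun d => WittVector.teichmuller p (MvPowerSeries.coeff d g), ?_⟩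
    ext d
    rw [MvPowerSeries.coeff_map, coeff_mkMv]
    simp
  obtain ⟨g', rfl⟩ := hs g
  exact ⟨g', hg⟩

theorem redMap_X (p : ℕ) [Fact p.Prime] (n h : ℕ) (h1 : 1 ≤ h) (hh : h ≤ n) (i : Fin (n - h)) :
    redMap p n h h1 hh (MvPowerSeries.X ⟨i.val + (h - 1), by omega⟩) = MvPowerSeries.X i := by
  unfold redMap
  rw [RingHom.comp_apply, MvPowerSeries.map_X]
  exact MvPowerSeries.killCompl_X (R := GaloisField p n)
    (e := (⟨fun i : Fin (n - h) => (⟨i.val + (h - 1), by omega⟩ : Fin (n - 1)), fun i j hij => by
      simp only [Fin.mk.injEq] at hij; ext; omega⟩ : Fin (n - h) ↪ Fin (n - 1))) i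

theorem redMap_X_zero (p : ℕ) [Fact p.Prime] (n h : ℕ) (h1 : 1 ≤ h) (hh : h ≤ n)
    (j : Fin (n - 1)) (hj : j.val + 1 < h) :
    redMap p n h h1 hh (MvPowerSeries.X j) = 0 := by
  unfold redMap
  rw [RingHom.comp_apply, MvPowerSeries.map_X]
  apply MvPowerSeries.killCompl_X_eq_zero
  rintro ⟨i, hi⟩
  have := congrArg Fin.val hi
  change i.val + (h - 1) = j.val at this
  omega

theorem constantCoeff_redMap (p : ℕ) [Fact p.Prime] (n h : ℕ) (h1 : 1 ≤ h) (hh : h ≤ n)
    (f : LTRing p n) :
    MvPowerSeries.constantCoeff (redMap p n h h1 hh f) = LTRing.residue p n f := by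
  unfold redMap
  rw [RingHom.comp_apply]
  change MvPowerSeries.constantCoeff (MvPowerSeries.killCompl _ _) = _
  rw [← MvPowerSeries.coeff_zero_eq_constantCoeff_apply, MvPowerSeries.coeff_killCompl]
  simp [LTRing.residue]

/-- kernel of `redMap` is `(p, u_1, …, u_{h-1})` -/
theorem ker_redMap (p : ℕ) [Fact p.Prime] (n h : ℕ) (h1 : 1 ≤ h) (hh : h ≤ n) :
    RingHom.ker (redMap p n h h1 hh) =
      Ideal.span {(p : LTRing p n)} ⊔
        Ideal.span (MvPowerSeries.X '' {j : Fin (n - 1) | j.val + 1 < h}) := by
  classical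
  apply le_antisymm
  · intro f hf
    rw [RingHom.mem_ker] at hf
    set e : Fin (n - h) ↪ Fin (n - 1) :=
      ⟨fun i : Fin (n - h) => (⟨i.val + (h - 1), by omega⟩ : Fin (n - 1)), fun i j hij => by
        simp only [Fin.mk.injEq] at hij; ext; omega⟩ with he
    have hf' : MvPowerSeries.killCompl e (MvPowerSeries.map
        (WittVector.constantCoeff : WittVector p (GaloisField p n) →+* _) f) = 0 := hf
    -- lift: `killCompl e f` over `W` has all coefficients divisible by `p`
    set g := MvPowerSeries.killCompl (R := WittVector p (GaloisField p n)) e f with hg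
    have hgp : ∀ x, ∃ a, a * (p : WittVector p (GaloisField p n)) =
        MvPowerSeries.coeff x g := by
      intro x
      rw [MvPowerSeries.killCompl_map] at hf'
      have h2 := congrArg (MvPowerSeries.coeff x) hf'
      rw [MvPowerSeries.coeff_map, MvPowerSeries.coeff_zero] at h2
      have h3 : MvPowerSeries.coeff x g ∈ RingHom.ker
          (WittVector.constantCoeff : WittVector p (GaloisField p n) →+* _) := h2
      rw [ker_constantCoeff_witt, Ideal.mem_span_singleton'] at h3
      exact h3
    choose a ha using hgp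
    have hga : g = mkMv a * MvPowerSeries.C (p : WittVector p (GaloisField p n)) := by
      ext x
      rw [MvPowerSeries.coeff_mul_C, coeff_mkMv, ha]
    have e8 : (MvPowerSeries.C (σ := Fin (n-1)) (p : WittVector p (GaloisField p n))) =
        (p : LTRing p n) := map_natCast _ _
    set r : LTRing p n := MvPowerSeries.rename e g with hr
    have hfr : MvPowerSeries.killCompl e (f - r) = 0 := by
      rw [map_sub, hr, MvPowerSeries.killCompl_rename_app, hg, sub_self]
    have h4 := mem_span_X_of_killCompl e (f - r) hfr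
    have h5 : r ∈ Ideal.span {(p : LTRing p n)} := by
      rw [hr, hga, map_mul, MvPowerSeries.rename_C, e8]
      exact Ideal.mul_mem_left _ _ (Ideal.subset_span rfl)
    have h6 : (Ideal.span (MvPowerSeries.X '' (Set.range e)ᶜ) : Ideal (LTRing p n)) ≤
        Ideal.span (MvPowerSeries.X '' {j : Fin (n - 1) | j.val + 1 < h}) := by
      apply Ideal.span_mono
      apply Set.image_mono
      intro j hj
      rw [Set.mem_ofPred_eq]
      by_contra hcon
      apply hj
      refine ⟨⟨j.val - (h - 1), by omega⟩, ?_⟩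
      apply Fin.ext
      change j.val - (h - 1) + (h - 1) = j.val
      omega
    have e9 : f = r + (f - r) := by ring
    rw [e9]
    exact add_mem (Ideal.mem_sup_left h5) (Ideal.mem_sup_right (h6 h4))
  · rw [sup_le_iff, Ideal.span_le, Ideal.span_le]
    constructor
    · rintro _ rfl
      rw [SetLike.mem_coe, RingHom.mem_ker, map_natCast]
      have : ((p : GaloisField p n)) = 0 := CharP.cast_eq_zero _ p
      rw [← map_natCast (MvPowerSeries.C (σ := Fin (n - h)) (R := GaloisField p n)) p, this,
        _root_.map_zero]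
    · rintro _ ⟨j, hj, rfl⟩
      rw [SetLike.mem_coe, RingHom.mem_ker]
      exact redMap_X_zero p n h h1 hh j hj

/-- `I_h` is the image of `(p, u_1, …, u_{h-1})` under the coordinate automorphism. -/
theorem heightIdeal_eq_map {H : FormalGroup (LTRing p n)} [H.IsComm]
    (α : LTRing p n ≃ₐ[WittVector p (GaloisField p n)] LTRing p n)
    (hα : ∀ i : Fin (n - 1), α (MvPowerSeries.X i) =
        PowerSeries.coeff (p ^ (i.val + 1)) (mulSeries H p)) {h : ℕ} (h1 : 1 ≤ h) (hh : h ≤ n) :
    heightIdeal p n H h = Ideal.map (α : LTRing p n →+* LTRing p n)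
      (RingHom.ker (redMap p n h h1 hh)) := by
  rw [ker_redMap]
  apply le_antisymm
  · rw [LT93.heightIdeal_le_iff]
    intro j hj
    rcases Nat.eq_zero_or_pos j with rfl | hj0
    · rw [pow_zero, coeff_one_mulSeries]
      have e8 : (α : LTRing p n →+* LTRing p n) (p : LTRing p n) = (p : LTRing p n) :=
        map_natCast _ _
      have e9 := Ideal.mem_map_of_mem (α : LTRing p n →+* LTRing p n)
        (show (p : LTRing p n) ∈ Ideal.span {(p : LTRing p n)} ⊔
          Ideal.span (MvPowerSeries.X '' {j : Fin (n - 1) | j.val + 1 < h}) from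
            Ideal.mem_sup_left (Ideal.subset_span rfl))
      rwa [e8] at e9
    · have := hα ⟨j - 1, by omega⟩
      have e9 : j - 1 + 1 = j := by omega
      simp only [e9] at this
      rw [← this]
      exact Ideal.mem_map_of_mem (α : LTRing p n →+* LTRing p n) (Ideal.mem_sup_right
        (Ideal.subset_span ⟨_, by simp only [Set.mem_ofPred_eq]; omega, rfl⟩))
  · rw [Ideal.map_sup, sup_le_iff, Ideal.map_span, Ideal.map_span, Ideal.span_le, Ideal.span_le]
    constructor
    · rintro _ ⟨_, rfl, rfl⟩
      rw [SetLike.mem_coe, map_natCast]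
      have h7 := LT93.coeff_pow_mem_heightIdeal H (show 0 < h by omega)
      rwa [pow_zero, coeff_one_mulSeries] at h7
    · rintro _ ⟨_, ⟨j, hj, rfl⟩, rfl⟩
      rw [SetLike.mem_coe]
      have h8 : (α : LTRing p n →+* LTRing p n) (MvPowerSeries.X j) =
        PowerSeries.coeff (p ^ (j.val + 1)) (mulSeries H p) := hα j
      rw [h8]
      exact LT93.coeff_pow_mem_heightIdeal H hj

theorem residue_comp_alg (α : LTRing p n →+* LTRing p n)
    (hα : Function.Bijective α)
    (hC : ∀ r : WittVector p (GaloisField p n), α (MvPowerSeries.C r) = MvPowerSeries.C r) :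
    (LTRing.residue p n).comp α = LTRing.residue p n := by
  ext1 f
  rw [RingHom.comp_apply]
  have e : f = MvPowerSeries.C (MvPowerSeries.constantCoeff f) +
    (f - MvPowerSeries.C (MvPowerSeries.constantCoeff f)) := by ring
  have h1 : f - MvPowerSeries.C (MvPowerSeries.constantCoeff f) ∈
      IsLocalRing.maximalIdeal (LTRing p n) := by
    rw [mem_maximal_iff]; simp [LTRing.residue]
  have h2 : α (f - MvPowerSeries.C (MvPowerSeries.constantCoeff f)) ∈
      IsLocalRing.maximalIdeal (LTRing p n) := by
    rw [IsLocalRing.mem_maximalIdeal, mem_nonunits_iff] at h1 ⊢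
    intro hu
    apply h1
    have := hu.map (RingEquiv.ofBijective α hα).symm
    have e2 : (RingEquiv.ofBijective α hα).symm
      (α (f - MvPowerSeries.C (MvPowerSeries.constantCoeff f))) =
        f - MvPowerSeries.C (MvPowerSeries.constantCoeff f) :=
      (RingEquiv.ofBijective α hα).symm_apply_apply _
    rwa [e2] at this
  rw [mem_maximal_iff] at h1 h2
  conv_lhs => rw [e]
  rw [map_add, map_add, hC, h2, add_zero]
  simp [LTRing.residue]

/-- `E / I_h = k[[X_0, …, X_{n-h-1}]]` with `X_i = v_{h+i}` (for `1 ≤ h ≤ n`). -/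
theorem exists_quotient_coord (hn : 1 ≤ n) {Γ : FormalGroup (GaloisField p n)}
    (hΓ : mulSeries Γ p = PowerSeries.X ^ (p ^ n)) {H : FormalGroup (LTRing p n)} [H.IsComm]
    (hH : IsUniversalDeformation p n Γ H) {h : ℕ} (h1 : 1 ≤ h) (hh : h ≤ n) :
    ∃ π : LTRing p n →+* MvPowerSeries (Fin (n - h)) (GaloisField p n),
      Function.Surjective π ∧ RingHom.ker π = heightIdeal p n H h ∧
      MvPowerSeries.constantCoeff.comp π = LTRing.residue p n ∧
      ∀ i : Fin (n - h), π (PowerSeries.coeff (p ^ (h + i.val)) (mulSeries H p)) =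
        MvPowerSeries.X i := by
  obtain ⟨α, hα⟩ := exists_coord hn hΓ hH
  refine ⟨(redMap p n h h1 hh).comp (α.symm : LTRing p n →+* LTRing p n), ?_, ?_, ?_, ?_⟩
  · exact (redMap_surjective p n h h1 hh).comp α.symm.surjective
  · rw [heightIdeal_eq_map α hα h1 hh]
    ext x
    rw [RingHom.mem_ker, RingHom.comp_apply]
    constructor
    · intro hx
      have e : x = (α : LTRing p n →+* LTRing p n) ((α.symm : LTRing p n →+* LTRing p n) x) :=
        (α.apply_symm_apply x).symm
      rw [e]
      exact Ideal.mem_map_of_mem _ hx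
    · intro hx
      obtain ⟨y, hy, rfl⟩ := (Ideal.mem_map_iff_of_surjective
        (α : LTRing p n →+* LTRing p n) α.surjective).1 hx
      have e : (α.symm : LTRing p n →+* LTRing p n) ((α : LTRing p n →+* LTRing p n) y) = y :=
        α.symm_apply_apply y
      rw [e]
      exact hy
  · ext1 f
    rw [RingHom.comp_apply, RingHom.comp_apply, constantCoeff_redMap]
    have h2 := residue_comp_alg (α.symm : LTRing p n →+* LTRing p n) α.symm.bijective
      (fun r => α.symm.commutes r)
    exact DFunLike.congr_fun h2 f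
  · intro i
    have h2 := hα ⟨i.val + (h - 1), by omega⟩
    have e1 : i.val + (h - 1) + 1 = h + i.val := by omega
    simp only [e1] at h2
    rw [← h2, RingHom.comp_apply]
    have e : (α.symm : LTRing p n →+* LTRing p n) (α (MvPowerSeries.X ⟨i.val + (h - 1), by omega⟩)) =
      MvPowerSeries.X ⟨i.val + (h - 1), by omega⟩ := α.symm_apply_apply _
    rw [e, redMap_X]

theorem heightIdeal_prime (hn : 1 ≤ n) {Γ : FormalGroup (GaloisField p n)}
    (hΓ : mulSeries Γ p = PowerSeries.X ^ (p ^ n)) {H : FormalGroup (LTRing p n)} [H.IsComm]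
    (hH : IsUniversalDeformation p n Γ H) {h : ℕ} (hh : h ≤ n) :
    (heightIdeal p n H h).IsPrime := by
  rcases Nat.eq_zero_or_pos h with rfl | h1
  · change (⊥ : Ideal (LTRing p n)).IsPrime
    exact Ideal.isPrime_bot
  · obtain ⟨π, _, hker, _⟩ := exists_quotient_coord hn hΓ hH h1 hh
    rw [← hker]
    exact RingHom.ker_isPrime π

theorem coeff_notMem_heightIdeal (hn : 1 ≤ n) {Γ : FormalGroup (GaloisField p n)}
    (hΓ : mulSeries Γ p = PowerSeries.X ^ (p ^ n)) {H : FormalGroup (LTRing p n)} [H.IsComm]
    (hH : IsUniversalDeformation p n Γ H) {h : ℕ} (hh : h < n) :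
    PowerSeries.coeff (p ^ h) (mulSeries H p) ∉ heightIdeal p n H h := by
  rcases Nat.eq_zero_or_pos h with rfl | h1
  · change _ ∉ (⊥ : Ideal (LTRing p n))
    rw [Ideal.mem_bot, pow_zero, coeff_one_mulSeries]
    intro h0
    have e8 : (MvPowerSeries.C (σ := Fin (n-1)) (p : WittVector p (GaloisField p n))) =
        (p : LTRing p n) := map_natCast _ _
    rw [← e8] at h0
    have h1 := congrArg MvPowerSeries.constantCoeff h0
    rw [MvPowerSeries.constantCoeff_C, _root_.map_zero] at h1
    exact WittVector.p_nonzero p (GaloisField p n) h1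
  · obtain ⟨π, _, hker, _, hX⟩ := exists_quotient_coord hn hΓ hH h1 hh.le
    rw [← hker, RingHom.mem_ker]
    have := hX ⟨0, by omega⟩
    simp only [add_zero] at this
    rw [this]
    intro h0
    have h3 := congrArg (MvPowerSeries.coeff (Finsupp.single (⟨0, by omega⟩ : Fin (n - h)) 1)) h0
    rw [MvPowerSeries.coeff_index_single_self_X, MvPowerSeries.coeff_zero] at h3
    exact one_ne_zero h3

end Crest.Agent.LT
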