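import Mathlib
import Crest.Prelude.Def_LubinTate
import Crest.Agent.LT.Ring

/-! # Part B (characteristic 0): commutative algebra (row 227). -/

set_option autoImplicit false
set_option linter.unusedSectionVars false

namespace Crest.Agent.LT

open Crest.LubinTate MvPowerSeries

namespace Char0Comm

/-! ### Power series with vanishing low coefficients -/

section Vars

variable {R : Type*} [CommRing R] {σ : Type*} [Fintype σ]

theorem exists_decomp (N : ℕ) (f : MvPowerSeries σ R)
    (hf : ∀ d : σ →₀ ℕ, d.degree < N + 1 → MvPowerSeries.coeff d f = 0) :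
    ∃ g : σ → MvPowerSeries σ R, (∀ s, ∀ d : σ →₀ ℕ, d.degree < N →
      MvPowerSeries.coeff d (g s) = 0) ∧ f = ∑ s : σ, MvPowerSeries.X s * g s := by
  classical
  have hex : ∀ d : σ →₀ ℕ, ∃ i : Option σ, (d ≠ 0 → ∃ j, i = some j ∧ d j ≠ 0) := by
    intro d
    by_cases hd : d = 0
    · exact ⟨none, fun h => absurd hd h⟩
    · obtain ⟨j, hj⟩ := Finsupp.ne_iff.1 hd
      exact ⟨some j, fun _ => ⟨j, rfl, by simpa using hj⟩⟩
  choose i hi using hex
  let g : σ → MvPowerSeries σ R := fun s =>
    (fun e => if i (e + Finsupp.single s 1) = some s then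
      MvPowerSeries.coeff (e + Finsupp.single s 1) f else 0)
  refine ⟨g, ?_, ?_⟩
  · intro s d hd
    change (if i (d + Finsupp.single s 1) = some s then
      MvPowerSeries.coeff (d + Finsupp.single s 1) f else 0) = 0
    rw [hf _ (by rw [map_add, Finsupp.degree_single]; omega), ite_self]
  · ext d
    rw [map_sum]
    by_cases hd : d = 0
    · subst hd
      simp only [MvPowerSeries.coeff_zero_X_mul, Finset.sum_const_zero]
      exact hf 0 (by simp)
    · obtain ⟨j, hj, hdj⟩ := hi d hd
      rw [Finset.sum_eq_single j]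
      · rw [MvPowerSeries.X, MvPowerSeries.coeff_monomial_mul, if_pos (by
          simp only [Finsupp.single_le_iff]; omega)]
        have e : d - Finsupp.single j 1 + Finsupp.single j 1 = d :=
          tsub_add_cancel_of_le (by simp only [Finsupp.single_le_iff]; omega)
        rw [one_mul, MvPowerSeries.coeff_apply (g j)]
        simp only [g]
        rw [e, if_pos hj]
      · intro s _ hs
        rw [MvPowerSeries.X, MvPowerSeries.coeff_monomial_mul]
        split_ifs with h
        · have e : d - Finsupp.single s 1 + Finsupp.single s 1 = d :=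
            tsub_add_cancel_of_le h
          rw [one_mul, MvPowerSeries.coeff_apply (g s)]
          simp only [g]
          rw [e, if_neg]
          rw [hj]
          intro h'
          exact hs (Option.some_injective _ h').symm
        · rfl
      · intro h; exact absurd (Finset.mem_univ _) h

theorem mem_vars_pow (N : ℕ) : ∀ (f : MvPowerSeries σ R),
    (∀ d : σ →₀ ℕ, d.degree < N → MvPowerSeries.coeff d f = 0) →
    f ∈ (Ideal.span (Set.range MvPowerSeries.X) : Ideal (MvPowerSeries σ R)) ^ N := by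
  induction N with
  | zero => intro f _; simp
  | succ N ih =>
    intro f hf
    obtain ⟨g, hg, hfg⟩ := exists_decomp N f hf
    rw [hfg]
    refine sum_mem fun s _ => ?_
    rw [pow_succ']
    exact Ideal.mul_mem_mul (Ideal.subset_span ⟨s, rfl⟩) (ih (g s) (hg s))

end Vars

/-! ### Hasse derivatives -/

section Hasse

variable {K : Type*} [CommRing K] {σ : Type*} [Fintype σ]

/-- Hasse derivative of a power series -/
noncomputable def hasse (J : σ →₀ ℕ) (f : MvPowerSeries σ K) : MvPowerSeries σ K :=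
  fun e => ((∏ i, ((e + J) i).choose (J i) : ℕ) : K) * MvPowerSeries.coeff (e + J) f

theorem coeff_hasse (J e : σ →₀ ℕ) (f : MvPowerSeries σ K) :
    MvPowerSeries.coeff e (hasse J f) =
      ((∏ i, ((e + J) i).choose (J i) : ℕ) : K) * MvPowerSeries.coeff (e + J) f := rfl

theorem hasse_zero (f : MvPowerSeries σ K) : hasse 0 f = f := by
  ext e
  rw [coeff_hasse]
  simp

theorem coeff_zero_hasse (J : σ →₀ ℕ) (f : MvPowerSeries σ K) :
    MvPowerSeries.coeff 0 (hasse J f) = MvPowerSeries.coeff J f := by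
  rw [coeff_hasse]
  simp

theorem pderiv_hasse (J : σ →₀ ℕ) (i : σ) (f : MvPowerSeries σ K) :
    MvPowerSeries.pderiv K i (hasse J f) =
      ((J i + 1 : ℕ) : MvPowerSeries σ K) * hasse (J + Finsupp.single i 1) f := by
  classical
  ext e
  have h1 : ((J i + 1 : ℕ) : MvPowerSeries σ K) = MvPowerSeries.C ((J i + 1 : ℕ) : K) := by
    rw [map_natCast]
  rw [MvPowerSeries.coeff_pderiv, h1, MvPowerSeries.coeff_C_mul, coeff_hasse, coeff_hasse]
  have h2 : e + Finsupp.single i 1 + J = e + (J + Finsupp.single i 1) := by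
    rw [add_assoc, add_comm (Finsupp.single i 1) J]
  rw [h2]
  obtain ⟨E, hE⟩ : ∃ E : σ →₀ ℕ, E = e + (J + Finsupp.single i 1) := ⟨_, rfl⟩
  obtain ⟨J', hJ'⟩ : ∃ J' : σ →₀ ℕ, J' = J + Finsupp.single i 1 := ⟨_, rfl⟩
  rw [← hE, ← hJ']
  have h3 : (∏ k, (E k).choose (J k)) * (e i + 1) = (J i + 1) * ∏ k, (E k).choose (J' k) := by
    rw [← Finset.mul_prod_erase Finset.univ (fun k => (E k).choose (J k)) (Finset.mem_univ i),
      ← Finset.mul_prod_erase Finset.univ (fun k => (E k).choose (J' k)) (Finset.mem_univ i)]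
    have h4 : ∀ k ∈ Finset.univ.erase i, (E k).choose (J' k) = (E k).choose (J k) := by
      intro k hk
      have : J' k = J k := by
        rw [hJ', Finsupp.add_apply, Finsupp.single_eq_of_ne (Finset.ne_of_mem_erase hk), add_zero]
      rw [this]
    rw [Finset.prod_congr rfl h4]
    have h5 : (E i).choose (J i) * (e i + 1) = (J i + 1) * (E i).choose (J' i) := by
      have h6 : E i = e i + J i + 1 := by
        rw [hE]; simp [add_assoc]
      have h7 : J' i = J i + 1 := by rw [hJ']; simp
      rw [h6, h7, mul_comm (J i + 1), Nat.choose_succ_right_eq]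
      congr 1
      omega
    calc _ = ((E i).choose (J i) * (e i + 1)) *
          ∏ k ∈ Finset.univ.erase i, (E k).choose (J k) := by ring
      _ = _ := by rw [h5]; ring
  have h3' := congrArg (Nat.cast (R := K)) h3
  push_cast at h3' ⊢
  linear_combination (MvPowerSeries.coeff E f) * h3'

end Hasse

/-! ### The ring `E` -/

section E

variable {p : ℕ} [Fact p.Prime] {n : ℕ}

theorem mem_of_forall_sup {A : Type*} [CommRing A] [IsLocalRing A] [IsNoetherianRing A]
    (J : Ideal A) (x : A) (h : ∀ N : ℕ, x ∈ J ⊔ IsLocalRing.maximalIdeal A ^ N) : x ∈ J := by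
  by_cases hJ : J = ⊤
  · rw [hJ]; trivial
  · have hn : Nontrivial (A ⧸ J) := Ideal.Quotient.nontrivial_iff.2 hJ
    have hl : IsLocalRing (A ⧸ J) :=
      IsLocalRing.of_surjective' (Ideal.Quotient.mk J) Ideal.Quotient.mk_surjective
    have hm : (IsLocalRing.maximalIdeal A).map (Ideal.Quotient.mk J) =
        IsLocalRing.maximalIdeal (A ⧸ J) :=
      IsLocalRing.map_maximalIdeal_of_surjective _ Ideal.Quotient.mk_surjective
    have hI := Ideal.iInf_pow_eq_bot_of_isLocalRing (IsLocalRing.maximalIdeal (A ⧸ J))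
      (Ideal.IsPrime.ne_top inferInstance)
    rw [← Ideal.Quotient.eq_zero_iff_mem, ← Ideal.mem_bot, ← hI, Ideal.mem_iInf]
    intro N
    have h1 := Ideal.mem_map_of_mem (Ideal.Quotient.mk J) (h N)
    rw [Ideal.map_sup, Ideal.map_quotient_self, bot_sup_eq, Ideal.map_pow, hm] at h1
    exact h1

theorem vars_le_maximal :
    (Ideal.span (Set.range MvPowerSeries.X) : Ideal (LTRing p n)) ≤
      IsLocalRing.maximalIdeal (LTRing p n) := by
  rw [maximalIdeal_eq]
  exact le_sup_right

theorem p_mem_maximal : (p : LTRing p n) ∈ IsLocalRing.maximalIdeal (LTRing p n) := by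
  rw [mem_maximal_iff]
  simp

theorem natCast_not_mem (P : Ideal (LTRing p n)) (hP : P.IsPrime) (hpP : (p : LTRing p n) ∉ P)
    (m : ℕ) (hm : m ≠ 0) : (m : LTRing p n) ∉ P := by
  obtain ⟨a, m', hm', rfl⟩ := Nat.exists_eq_pow_mul_and_not_dvd hm p
    (Fact.out : p.Prime).ne_one
  intro h
  push_cast at h
  rcases hP.mem_or_mem h with h1 | h1
  · exact hpP (hP.mem_of_pow_mem _ h1)
  · have h2 : LTRing.residue p n (m' : LTRing p n) = 0 := by
      rw [← mem_maximal_iff]
      exact IsLocalRing.le_maximalIdeal hP.ne_top h1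
    rw [map_natCast, CharP.cast_eq_zero_iff (GaloisField p n) p] at h2
    exact hm' h2

theorem C_not_mem (P : Ideal (LTRing p n)) (hP : P.IsPrime) (hpP : (p : LTRing p n) ∉ P)
    (w : WittVector p (GaloisField p n)) (hw : w ≠ 0) : (MvPowerSeries.C w : LTRing p n) ∉ P := by
  obtain ⟨m, b, rfl⟩ := WittVector.exists_eq_pow_p_mul' w hw
  intro h
  rw [map_mul, map_pow, map_natCast] at h
  rcases hP.mem_or_mem h with h1 | h1
  · exact hpP (hP.mem_of_pow_mem _ h1)
  · apply hP.ne_top
    exact Ideal.eq_top_of_isUnit_mem _ h1 ((MvPowerSeries.C).isUnit_map b.isUnit)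

theorem hasse_mem (P : Ideal (LTRing p n)) (hP : P.IsPrime) (hpP : (p : LTRing p n) ∉ P)
    (hst : ∀ f ∈ P, ∀ i, MvPowerSeries.pderiv (WittVector p (GaloisField p n)) i f ∈ P) :
    ∀ (N : ℕ) (J : Fin (n - 1) →₀ ℕ), J.degree = N → ∀ f ∈ P, hasse J f ∈ P := by
  intro N
  induction N with
  | zero =>
    intro J hJ f hf
    rw [Finsupp.degree_eq_zero_iff] at hJ
    rw [hJ, hasse_zero]
    exact hf
  | succ N ih =>
    intro J hJ f hf
    have hJ0 : J ≠ 0 := by
      rintro rfl
      simp at hJ
    obtain ⟨i, hi⟩ := Finsupp.ne_iff.1 hJ0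
    have hle : Finsupp.single i 1 ≤ J := by
      rw [Finsupp.single_le_iff]
      have : J i ≠ 0 := by simpa using hi
      omega
    obtain ⟨J', rfl⟩ : ∃ J', J = J' + Finsupp.single i 1 :=
      ⟨J - Finsupp.single i 1, (tsub_add_cancel_of_le hle).symm⟩
    have hdeg : J'.degree = N := by
      rw [map_add, Finsupp.degree_single] at hJ
      omega
    have h1 := hst _ (ih J' hdeg f hf) i
    rw [pderiv_hasse] at h1
    exact (hP.mem_or_mem h1).resolve_left (natCast_not_mem P hP hpP _ (by omega))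

theorem exists_const_approx (P : Ideal (LTRing p n))
    (hst : ∀ J : Fin (n - 1) →₀ ℕ, ∀ f ∈ P, hasse J f ∈ P) (f : LTRing p n) (hf : f ∈ P) :
    ∀ N : ℕ, ∃ g ∈ P, ∀ d : Fin (n - 1) →₀ ℕ, d.degree < N + 1 →
      MvPowerSeries.coeff d (C (constantCoeff f) - g) = 0 := by
  intro N
  induction N with
  | zero =>
    refine ⟨f, hf, fun d hd => ?_⟩
    have : d = 0 := by
      rw [← Finsupp.degree_eq_zero_iff]; omega
    rw [this, map_sub, coeff_zero_eq_constantCoeff_apply, coeff_zero_eq_constantCoeff_apply]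
    simp
  | succ N ih =>
    obtain ⟨g, hg, hgd⟩ := ih
    classical
    let T : Finset (Fin (n - 1) →₀ ℕ) := (Finset.univ : Finset (Fin (n-1))).finsuppAntidiag (N + 1)
    have hT : ∀ J, J ∈ T ↔ J.degree = N + 1 := by
      intro J
      rw [Finset.mem_finsuppAntidiag, Finsupp.degree_eq_sum]
      simp
    refine ⟨g - ∑ J ∈ T, MvPowerSeries.monomial J 1 * hasse J g, ?_, fun d hd => ?_⟩
    · exact sub_mem hg (sum_mem fun J _ => Ideal.mul_mem_left _ _ (hst J g hg))
    · rw [← sub_add, map_add, map_sum]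
      rcases Nat.lt_succ_iff_lt_or_eq.mp hd with hd' | hd'
      · rw [hgd d hd', zero_add]
        refine Finset.sum_eq_zero fun J hJ => ?_
        rw [hT] at hJ
        rw [coeff_monomial_mul, if_neg]
        intro hle
        have := Finsupp.degree_mono hle
        omega
      · rw [Finset.sum_eq_single d]
        · rw [coeff_monomial_mul, if_pos le_rfl, tsub_self, coeff_zero_hasse, one_mul, map_sub,
            sub_add_cancel, coeff_C, if_neg]
          rintro rfl
          simp at hd'
        · intro J hJ hJd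
          rw [hT] at hJ
          rw [coeff_monomial_mul, if_neg]
          intro hle
          apply hJd
          have h1 : (d - J).degree + J.degree = d.degree := by
            rw [← map_add, tsub_add_cancel_of_le hle]
          have h2 : d - J = 0 := by
            rw [← Finsupp.degree_eq_zero_iff]; omega
          rw [← tsub_add_cancel_of_le hle, h2, zero_add]
        · intro h
          exact absurd ((hT d).mpr hd') h

theorem exists_pderiv_not_mem (P : Ideal (LTRing p n)) (hP : P.IsPrime) (hP0 : P ≠ ⊥)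
    (hpP : (p : LTRing p n) ∉ P) :
    ∃ f ∈ P, ∃ i, MvPowerSeries.pderiv (WittVector p (GaloisField p n)) i f ∉ P := by
  by_contra hcon
  push Not at hcon
  apply hP0
  have hst : ∀ J : Fin (n - 1) →₀ ℕ, ∀ f ∈ P, hasse J f ∈ P :=
    fun J f hf => hasse_mem P hP hpP hcon _ J rfl f hf
  have hconst : ∀ f ∈ P, constantCoeff f = 0 := by
    intro f hf
    by_contra h0
    apply C_not_mem P hP hpP _ h0
    apply mem_of_forall_sup
    intro N
    obtain ⟨g, hg, hgd⟩ := exists_const_approx P hst f hf N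
    have h1 := mem_vars_pow (N + 1) _ hgd
    have h2 : C (constantCoeff f) - g ∈ IsLocalRing.maximalIdeal (LTRing p n) ^ N :=
      Ideal.pow_le_pow_right (Nat.le_succ N) (Ideal.pow_right_mono vars_le_maximal _ h1)
    have h3 : C (constantCoeff f) = g + (C (constantCoeff f) - g) := by ring
    rw [h3]
    exact Submodule.add_mem_sup hg h2
  rw [eq_bot_iff]
  intro f hf
  rw [Ideal.mem_bot]
  refine MvPowerSeries.ext fun J => ?_
  rw [map_zero, ← coeff_zero_hasse, coeff_zero_eq_constantCoeff_apply]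
  exact hconst _ (hst J f hf)

/-! ### Curves -/

theorem exists_pow_maximal_le {B : Type*} [CommRing B] [IsDomain B] [IsLocalRing B]
    [IsNoetherianRing B] (x : B) (hx0 : x ≠ 0) (hx : x ∈ IsLocalRing.maximalIdeal B)
    (h : ∀ Q : Ideal B, Q.IsPrime → Q ≠ ⊥ → x ∈ Q) :
    ∃ e : ℕ, IsLocalRing.maximalIdeal B ^ e ≤ Ideal.span {x} := by
  have hxle : Ideal.span {x} ≤ IsLocalRing.maximalIdeal B := by
    rw [Ideal.span_singleton_le_iff_mem]; exact hx
  have hmin : (Ideal.span {x}).IsMinimalPrime (IsLocalRing.maximalIdeal B) := by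
    by_contra hcon
    have hfin : (Ideal.span {x}).minimalPrimes.Finite :=
      Ideal.finite_minimalPrimes_of_isNoetherianRing B _
    have hmem : ∀ Q : Ideal B, Q ∈ hfin.toFinset ↔ (Ideal.span {x}).IsMinimalPrime Q := by
      intro Q
      rw [Set.Finite.mem_toFinset]
      rfl
    -- prime avoidance
    have hy : ∃ y ∈ IsLocalRing.maximalIdeal B,
        ∀ Q, (Ideal.span {x}).IsMinimalPrime Q → y ∉ Q := by
      by_contra hc
      push Not at hc
      have hsub : ((IsLocalRing.maximalIdeal B : Ideal B) : Set B) ⊆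
          ⋃ Q ∈ (hfin.toFinset : Set (Ideal B)), (Q : Set B) := by
        intro y hy
        obtain ⟨Q, hQ, hyQ⟩ := hc y hy
        rw [Set.mem_iUnion₂]
        exact ⟨Q, Finset.mem_coe.mpr ((hmem Q).mpr hQ), hyQ⟩
      obtain ⟨Q, hQ, hle⟩ := (Ideal.subset_union_prime (f := fun Q : Ideal B => Q)
        (s := hfin.toFinset) ⊥ ⊥ (fun Q hQ _ _ => ((hmem Q).mp hQ).isPrime)).mp hsub
      have hQ' := (hmem Q).mp hQ
      have : Q = IsLocalRing.maximalIdeal B :=
        le_antisymm (IsLocalRing.le_maximalIdeal hQ'.isPrime.ne_top) hle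
      rw [← this] at hcon
      exact hcon hQ'
    obtain ⟨y, hym, hy⟩ := hy
    -- minimal prime over y
    have hyle : Ideal.span {y} ≤ IsLocalRing.maximalIdeal B := by
      rw [Ideal.span_singleton_le_iff_mem]; exact hym
    obtain ⟨Q', hQ', -⟩ := Ideal.exists_minimalPrimes_le hyle
    have hQ'm : (Ideal.span {y}).IsMinimalPrime Q' := hQ'
    have hQ'p : Q'.IsPrime := hQ'm.isPrime
    have hyQ' : y ∈ Q' := hQ'm.le (Ideal.mem_span_singleton_self y)
    have hy0 : y ≠ 0 := by
      rintro rfl
      obtain ⟨Q, hQ, -⟩ := Ideal.exists_minimalPrimes_le hxle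
      exact hy Q hQ (zero_mem _)
    have hQ'0 : Q' ≠ ⊥ := by
      rintro rfl
      exact hy0 hyQ'
    have hxQ' : x ∈ Q' := h Q' hQ'p hQ'0
    obtain ⟨Q'', hQ'', hle⟩ := Ideal.exists_minimalPrimes_le
      (I := Ideal.span {x}) (J := Q') (by rw [Ideal.span_singleton_le_iff_mem]; exact hxQ')
    have hQ''m : (Ideal.span {x}).IsMinimalPrime Q'' := hQ''
    have hQ''p : Q''.IsPrime := hQ''m.isPrime
    have hne : Q'' ≠ Q' := by
      rintro rfl
      exact hy _ hQ'' hyQ'
    have hlt : Q'' < Q' := lt_of_le_of_ne hle hne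
    have hQ''0 : Q'' ≠ ⊥ := by
      rintro rfl
      exact hx0 (hQ''m.le (Ideal.mem_span_singleton_self x))
    have hlt0 : (⊥ : Ideal B) < Q'' := bot_lt_iff_ne_bot.mpr hQ''0
    have hb : (⊥ : Ideal B).IsPrime := Ideal.isPrime_bot
    have h1 := Ideal.height_add_one_le_of_lt_of_isPrime hlt0
    have h2 := Ideal.height_add_one_le_of_lt_of_isPrime hlt
    have h3 : Q'.height ≤ 1 :=
      Ideal.height_le_one_of_isPrincipal_of_mem_minimalPrimes (Ideal.span {y}) Q' hQ'
    rw [Ideal.height_bot, zero_add] at h1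
    have h4 : (1 : ℕ∞) + 1 ≤ 1 := ((add_le_add_left h1 1).trans h2).trans h3
    exact absurd h4 (by decide)
  have hrad : IsLocalRing.maximalIdeal B ≤ (Ideal.span {x}).radical := by
    rw [Ideal.radical_eq_sInf]
    refine le_sInf fun Q hQ => ?_
    obtain ⟨hxQ, hQp⟩ := hQ
    exact hmin.2 ⟨hQp, hxQ⟩ (IsLocalRing.le_maximalIdeal hQp.ne_top)
  exact Ideal.exists_pow_le_of_le_radical_of_fg hrad (IsNoetherian.noetherian _)

theorem exists_curve_prime (P : Ideal (LTRing p n)) (hP : P.IsPrime) (s : LTRing p n)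
    (hpP : (p : LTRing p n) ∉ P) (hs : s ∉ P) :
    ∃ q : Ideal (LTRing p n), q.IsPrime ∧ P ≤ q ∧ (p : LTRing p n) ∉ q ∧ s ∉ q ∧
      ∃ e : ℕ, IsLocalRing.maximalIdeal (LTRing p n) ^ e ≤ q ⊔ Ideal.span {(p : LTRing p n)} := by
  obtain ⟨q, ⟨hq, hPq, hsq⟩, hmax⟩ := set_has_maximal_iff_noetherian.mpr
    (inferInstance : IsNoetherian (LTRing p n) (LTRing p n))
    {q : Ideal (LTRing p n) | q.IsPrime ∧ P ≤ q ∧ (p : LTRing p n) * s ∉ q}
    ⟨P, hP, le_rfl, fun h => (hP.mem_or_mem h).elim hpP hs⟩
  have hpq : (p : LTRing p n) ∉ q := fun h => hsq (Ideal.mul_mem_right _ _ h)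
  refine ⟨q, hq, hPq, hpq, fun h => hsq (Ideal.mul_mem_left _ _ h), ?_⟩
  have hn : Nontrivial (LTRing p n ⧸ q) := Ideal.Quotient.nontrivial_iff.2 hq.ne_top
  have hl : IsLocalRing (LTRing p n ⧸ q) :=
    IsLocalRing.of_surjective' (Ideal.Quotient.mk q) Ideal.Quotient.mk_surjective
  have hm : (IsLocalRing.maximalIdeal (LTRing p n)).map (Ideal.Quotient.mk q) =
      IsLocalRing.maximalIdeal (LTRing p n ⧸ q) :=
    IsLocalRing.map_maximalIdeal_of_surjective _ Ideal.Quotient.mk_surjective
  obtain ⟨e, he⟩ := exists_pow_maximal_le (B := LTRing p n ⧸ q)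
    (Ideal.Quotient.mk q ((p : LTRing p n) * s))
    (by rw [Ne, Ideal.Quotient.eq_zero_iff_mem]; exact hsq)
    (by rw [← hm]; exact Ideal.mem_map_of_mem _ (Ideal.mul_mem_right _ _ p_mem_maximal))
    (by
      intro Q hQ hQ0
      have hQ' : (Q.comap (Ideal.Quotient.mk q)).IsPrime := Ideal.IsPrime.comap _
      have hqQ : q ≤ Q.comap (Ideal.Quotient.mk q) := by
        intro a ha
        rw [Ideal.mem_comap, Ideal.Quotient.eq_zero_iff_mem.mpr ha]
        exact zero_mem _
      by_contra hnot
      have hlt : q < Q.comap (Ideal.Quotient.mk q) := by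
        refine lt_of_le_of_ne hqQ fun heq => hQ0 ?_
        rw [eq_bot_iff]
        intro b hb
        obtain ⟨a, rfl⟩ := Ideal.Quotient.mk_surjective b
        have : a ∈ q := by
          rw [heq, Ideal.mem_comap]; exact hb
        rw [Ideal.mem_bot]
        exact Ideal.Quotient.eq_zero_iff_mem.mpr this
      exact hmax (Q.comap (Ideal.Quotient.mk q)) ⟨hQ', hPq.trans hqQ, hnot⟩ hlt)
  refine ⟨e, ?_⟩
  intro a ha
  have h1 : Ideal.Quotient.mk q a ∈ IsLocalRing.maximalIdeal (LTRing p n ⧸ q) ^ e := by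
    rw [← hm, ← Ideal.map_pow]
    exact Ideal.mem_map_of_mem _ ha
  have h2 := he h1
  rw [Ideal.mem_span_singleton'] at h2
  obtain ⟨c, hc⟩ := h2
  obtain ⟨c, rfl⟩ := Ideal.Quotient.mk_surjective c
  rw [← map_mul, Ideal.Quotient.eq] at hc
  have h3 : a = -(c * ((p : LTRing p n) * s) - a) + (c * s) * (p : LTRing p n) := by ring
  rw [h3]
  exact Submodule.add_mem_sup (neg_mem hc)
    (Ideal.mul_mem_left _ _ (Ideal.mem_span_singleton_self _))

/-! ### Ultrafilter limits -/

theorem finite_quot (N : ℕ) : Finite (LTRing p n ⧸ (IsLocalRing.maximalIdeal (LTRing p n)) ^ N) := by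
  have h1 : Finite (LTRing p n ⧸ IsLocalRing.maximalIdeal (LTRing p n)) := by
    have e := RingHom.quotientKerEquivOfSurjective (residue_surjective p n)
    rw [← ker_residue]
    exact Finite.of_equiv _ e.symm.toEquiv
  exact Ideal.finite_quotient_pow (IsNoetherian.noetherian _) N

theorem exists_ulim (s : ℕ → LTRing p n) : ∃ y : LTRing p n, ∀ N : ℕ,
    ∀ᶠ a in (Filter.hyperfilter ℕ : Filter ℕ),
      s a - y ∈ IsLocalRing.maximalIdeal (LTRing p n) ^ N := by
  have h1 : ∀ N : ℕ, ∃ y : LTRing p n, ∀ᶠ a in (Filter.hyperfilter ℕ : Filter ℕ),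
      s a - y ∈ IsLocalRing.maximalIdeal (LTRing p n) ^ N := by
    intro N
    have := finite_quot (p := p) (n := n) N
    let F : ℕ → LTRing p n ⧸ (IsLocalRing.maximalIdeal (LTRing p n)) ^ N :=
      fun a => Ideal.Quotient.mk _ (s a)
    obtain ⟨c, hc⟩ := Ultrafilter.eq_pure_of_finite ((Filter.hyperfilter ℕ).map F)
    obtain ⟨y, rfl⟩ := Ideal.Quotient.mk_surjective c
    refine ⟨y, ?_⟩
    have h2 : {Ideal.Quotient.mk (IsLocalRing.maximalIdeal (LTRing p n) ^ N) y} ∈
        ((Filter.hyperfilter ℕ).map F) := by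
      rw [hc]
      exact Filter.mem_pure.mpr rfl
    have h3 : ∀ᶠ a in (Filter.hyperfilter ℕ : Filter ℕ),
        F a ∈ ({Ideal.Quotient.mk (IsLocalRing.maximalIdeal (LTRing p n) ^ N) y} : Set _) :=
      h2
    filter_upwards [h3] with a ha
    rw [← Ideal.Quotient.eq]
    exact ha
  choose y hy using h1
  obtain ⟨L, hL⟩ := exists_lim (I := IsLocalRing.maximalIdeal (LTRing p n)) y (by
    intro N
    obtain ⟨a, ha1, ha2⟩ := ((hy N).and (hy (N + 1))).exists
    have h2 : s a - y (N + 1) ∈ IsLocalRing.maximalIdeal (LTRing p n) ^ N :=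
      Ideal.pow_le_pow_right (Nat.le_succ N) ha2
    have h3 : y (N + 1) - y N = (s a - y N) - (s a - y (N + 1)) := by ring
    rw [h3]
    exact sub_mem ha1 h2)
  refine ⟨L, fun N => ?_⟩
  filter_upwards [hy N] with a ha
  have : s a - L = (s a - y N) + (y N - L) := by ring
  rw [this]
  exact add_mem ha (hL N)

/-! ### Taylor formula to first order -/

/-- polynomials generate modulo powers of the maximal ideal -/
theorem exists_adjoin_approx (f : LTRing p n) (N : ℕ) :
    ∃ g ∈ Algebra.adjoin (WittVector p (GaloisField p n))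
      (Set.range (MvPowerSeries.X : Fin (n - 1) → LTRing p n)),
      f - g ∈ IsLocalRing.maximalIdeal (LTRing p n) ^ N := by
  classical
  induction N with
  | zero => exact ⟨0, zero_mem _, by simp⟩
  | succ N _ =>
    let T : Finset (Fin (n - 1) →₀ ℕ) :=
      (Finset.range (N + 1)).biUnion fun k => (Finset.univ : Finset (Fin (n-1))).finsuppAntidiag k
    have hT : ∀ J, J ∈ T ↔ J.degree < N + 1 := by
      intro J
      simp only [T, Finset.mem_biUnion, Finset.mem_range, Finset.mem_finsuppAntidiag,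
        Finsupp.degree_eq_sum]
      simp
    refine ⟨∑ J ∈ T, (MvPowerSeries.monomial J (coeff J f) : LTRing p n), ?_, ?_⟩
    · refine sum_mem fun J _ => ?_
      have h1 : (MvPowerSeries.monomial J (coeff J f) : LTRing p n) =
          (coeff J f) • (J.prod fun s e => (MvPowerSeries.X s : LTRing p n) ^ e) := by
        rw [← MvPowerSeries.monomial_one_eq]
        refine MvPowerSeries.ext fun d => ?_
        rw [map_smul, coeff_monomial, coeff_monomial]
        split_ifs <;> simp
      rw [h1]
      refine Subalgebra.smul_mem _ ?_ _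
      exact Subalgebra.prod_mem _ fun s _ => Subalgebra.pow_mem _
        (Algebra.subset_adjoin (Set.mem_range_self s)) _
    · refine Ideal.pow_right_mono vars_le_maximal _ (mem_vars_pow (N + 1) _ fun d hd => ?_)
      rw [map_sub, map_sum, Finset.sum_eq_single d]
      · rw [coeff_monomial_same, sub_self]
      · intro J _ hJ
        rw [coeff_monomial, if_neg (Ne.symm hJ)]
      · intro h
        exact absurd ((hT d).mpr hd) h

theorem derivation_pow (D : Derivation (WittVector p (GaloisField p n)) (LTRing p n) (LTRing p n))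
    (I : Ideal (LTRing p n)) : ∀ (N : ℕ) (f : LTRing p n), f ∈ I ^ (N + 1) → D f ∈ I ^ N := by
  intro N
  induction N with
  | zero => intro f _; simp
  | succ N ih =>
    intro f hf
    rw [pow_succ] at hf
    refine Submodule.mul_induction_on hf ?_ ?_
    · intro a ha b hb
      rw [Derivation.leibniz, smul_eq_mul, smul_eq_mul]
      refine add_mem (Ideal.mul_mem_right _ _ ha) ?_
      rw [pow_succ']
      exact Ideal.mul_mem_mul hb (ih a ha)
    · intro x y hx hy
      rw [map_add]
      exact add_mem hx hy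

theorem taylor_mod_sq (φ : LTRing p n →ₐ[WittVector p (GaloisField p n)] LTRing p n)
    (J : Ideal (LTRing p n)) (hJ : J ≤ IsLocalRing.maximalIdeal (LTRing p n))
    (hφ : ∀ i, φ (MvPowerSeries.X i) - MvPowerSeries.X i ∈ J) (f : LTRing p n) :
    φ f - f - ∑ i, MvPowerSeries.pderiv (WittVector p (GaloisField p n)) i f *
      (φ (MvPowerSeries.X i) - MvPowerSeries.X i) ∈ J ^ 2 := by
  let Dn : LTRing p n → LTRing p n := fun f =>
    ∑ i, MvPowerSeries.pderiv (WittVector p (GaloisField p n)) i f *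
      (φ (MvPowerSeries.X i) - MvPowerSeries.X i)
  have hDJ : ∀ f, Dn f ∈ J := fun f => sum_mem fun i _ => Ideal.mul_mem_left _ _ (hφ i)
  have hDadd : ∀ f g, Dn (f + g) = Dn f + Dn g := by
    intro f g
    simp only [Dn, map_add, add_mul, Finset.sum_add_distrib]
  have hDmul : ∀ f g, Dn (f * g) = f * Dn g + g * Dn f := by
    intro f g
    simp only [Dn, Derivation.leibniz, smul_eq_mul, add_mul, Finset.sum_add_distrib,
      Finset.mul_sum, mul_assoc]
  have hDC : ∀ w : WittVector p (GaloisField p n), Dn (algebraMap _ _ w) = 0 := by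
    intro w
    simp only [Dn, Derivation.map_algebraMap, zero_mul, Finset.sum_const_zero]
  have hDX : ∀ j, Dn (MvPowerSeries.X j) = φ (MvPowerSeries.X j) - MvPowerSeries.X j := by
    intro j
    classical
    simp only [Dn]
    rw [Finset.sum_eq_single j]
    · rw [MvPowerSeries.pderiv_X_self, one_mul]
    · intro i _ hij
      rw [MvPowerSeries.pderiv_X_of_ne (Ne.symm hij), zero_mul]
    · intro h
      exact absurd (Finset.mem_univ j) h
  have hφm : ∀ x ∈ IsLocalRing.maximalIdeal (LTRing p n),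
      φ x ∈ IsLocalRing.maximalIdeal (LTRing p n) := by
    have h1 : IsLocalRing.maximalIdeal (LTRing p n) ≤
        (IsLocalRing.maximalIdeal (LTRing p n)).comap φ.toRingHom := by
      conv_lhs => rw [maximalIdeal_eq]
      rw [sup_le_iff, Ideal.span_le, Ideal.span_le]
      constructor
      · rintro _ rfl
        rw [SetLike.mem_coe, Ideal.mem_comap]
        have : φ.toRingHom (MvPowerSeries.C (p : WittVector p (GaloisField p n))) =
            (p : LTRing p n) := by
          rw [map_natCast, map_natCast]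
        rw [this]
        exact p_mem_maximal
      · rintro _ ⟨s, rfl⟩
        rw [SetLike.mem_coe, Ideal.mem_comap]
        have h2 : φ.toRingHom (MvPowerSeries.X s) = (φ (MvPowerSeries.X s) - MvPowerSeries.X s) +
            MvPowerSeries.X s := by
          rw [sub_add_cancel]; rfl
        rw [h2]
        exact add_mem (hJ (hφ s)) (vars_le_maximal (Ideal.subset_span ⟨s, rfl⟩))
    exact fun x hx => h1 hx
  have hφpow : ∀ (N : ℕ), ∀ x ∈ IsLocalRing.maximalIdeal (LTRing p n) ^ N,
      φ x ∈ IsLocalRing.maximalIdeal (LTRing p n) ^ N := by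
    intro N x hx
    have h1 : (IsLocalRing.maximalIdeal (LTRing p n)).map φ.toRingHom ≤
        IsLocalRing.maximalIdeal (LTRing p n) := Ideal.map_le_iff_le_comap.mpr hφm
    have h2 := Ideal.mem_map_of_mem φ.toRingHom hx
    rw [Ideal.map_pow] at h2
    exact Ideal.pow_right_mono h1 N h2
  -- polynomials
  have hpoly : ∀ g ∈ Algebra.adjoin (WittVector p (GaloisField p n))
      (Set.range (MvPowerSeries.X : Fin (n - 1) → LTRing p n)), φ g - g - Dn g ∈ J ^ 2 := by
    intro g hg
    induction hg using Algebra.adjoin_induction with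
    | mem x hx =>
      obtain ⟨j, rfl⟩ := hx
      rw [hDX]
      simp
    | algebraMap w =>
      rw [hDC, AlgHom.commutes]
      simp
    | add x y _ _ hx hy =>
      have : φ (x + y) - (x + y) - Dn (x + y) = (φ x - x - Dn x) + (φ y - y - Dn y) := by
        rw [hDadd, map_add]; ring
      rw [this]
      exact add_mem hx hy
    | mul x y _ _ hx hy =>
      have : φ (x * y) - (x * y) - Dn (x * y) = (φ x - x - Dn x) * φ y +
          (x + Dn x) * (φ y - y - Dn y) + Dn x * Dn y := by
        rw [hDmul, map_mul]; ring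
      rw [this]
      refine add_mem (add_mem (Ideal.mul_mem_right _ _ hx) (Ideal.mul_mem_left _ _ hy)) ?_
      rw [pow_two]
      exact Ideal.mul_mem_mul (hDJ x) (hDJ y)
  show φ f - f - Dn f ∈ J ^ 2
  apply mem_of_forall_sup
  intro N
  obtain ⟨g, hg, hfg⟩ := exists_adjoin_approx f (N + 1)
  have h1 : φ f - f - Dn f = (φ g - g - Dn g) +
      (φ (f - g) - (f - g) - Dn (f - g)) := by
    have h2 : Dn f = Dn g + Dn (f - g) := by rw [← hDadd]; congr 1; ring
    rw [h2, map_sub]; ring
  rw [h1]
  refine Submodule.add_mem_sup (hpoly g hg) ?_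
  have hle : IsLocalRing.maximalIdeal (LTRing p n) ^ (N + 1) ≤
      IsLocalRing.maximalIdeal (LTRing p n) ^ N := Ideal.pow_le_pow_right (Nat.le_succ N)
  refine sub_mem (sub_mem (hle (hφpow _ _ hfg)) (hle hfg)) ?_
  exact sum_mem fun i _ => Ideal.mul_mem_right _ _ (derivation_pow _ _ N _ hfg)

end E

end Char0Comm

variable {p : ℕ} [Fact p.Prime] {n : ℕ}

/-- B1a. A nonzero prime not containing `p` is not stable under all partial derivatives.
Proof: otherwise for `f ∈ P` and one variable `u = u_i`, the series `g = f|_{u=0}` satisfies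
`g ≡ ∑_{j<N} (-u)^j D^[j] f mod u^N` (`D^[j]` Hasse derivative, `j! D^[j] f = D^j f ∈ P`, `j! ∉ P`),
so `g ∈ P + m^N` for all `N`, so `g ∈ P` (Krull). Over all variables: `f(0) ∈ P ∩ W = 0`. Apply to
all iterated derivatives: all coefficients of `f` vanish. -/
theorem exists_pderiv_not_mem (P : Ideal (LTRing p n)) (hP : P.IsPrime) (hP0 : P ≠ ⊥)
    (hpP : (p : LTRing p n) ∉ P) :
    ∃ f ∈ P, ∃ i, MvPowerSeries.pderiv (WittVector p (GaloisField p n)) i f ∉ P :=
  Char0Comm.exists_pderiv_not_mem P hP hP0 hpP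

/-- B1b. Proof: let `q ≥ P` be maximal among the primes not containing `p s`. Then `m` is minimal
over `q + (p s)`: otherwise prime avoidance gives `y ∈ m` outside the finitely many minimal primes
over `q + (p s)`; a minimal prime `Q'` over `q + (y)` has `height (Q'/q) ≤ 1`, `Q' ≠ q`, so
`p s ∈ Q'`, so `Q'` contains (so equals) a minimal prime over `q + (ps)`, contradiction. Hence
`rad (q + (p)) = m`. -/
theorem exists_curve_prime (P : Ideal (LTRing p n)) (hP : P.IsPrime) (s : LTRing p n)
    (hpP : (p : LTRing p n) ∉ P) (hs : s ∉ P) :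
    ∃ q : Ideal (LTRing p n), q.IsPrime ∧ P ≤ q ∧ (p : LTRing p n) ∉ q ∧ s ∉ q ∧
      ∃ e : ℕ, IsLocalRing.maximalIdeal (LTRing p n) ^ e ≤ q ⊔ Ideal.span {(p : LTRing p n)} :=
  Char0Comm.exists_curve_prime P hP s hpP hs

/-- Compactness: limits along the hyperfilter (`E/m^N` is finite, `E` is complete). -/
theorem exists_ulim (s : ℕ → LTRing p n) : ∃ y : LTRing p n, ∀ N : ℕ,
    ∀ᶠ a in (Filter.hyperfilter ℕ : Filter ℕ),
      s a - y ∈ IsLocalRing.maximalIdeal (LTRing p n) ^ N :=
  Char0Comm.exists_ulim s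

/-- Taylor formula to first order. Proof: `f ↦ f + ∑ ∂_i f * η_i` and `φ` are ring homs
`E → E/J²` agreeing on constants and variables, hence modulo every power of `m`. -/
theorem taylor_mod_sq (φ : LTRing p n →ₐ[WittVector p (GaloisField p n)] LTRing p n)
    (J : Ideal (LTRing p n)) (hJ : J ≤ IsLocalRing.maximalIdeal (LTRing p n))
    (hφ : ∀ i, φ (MvPowerSeries.X i) - MvPowerSeries.X i ∈ J) (f : LTRing p n) :
    φ f - f - ∑ i, MvPowerSeries.pderiv (WittVector p (GaloisField p n)) i f *
      (φ (MvPowerSeries.X i) - MvPowerSeries.X i) ∈ J ^ 2 :=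
  Char0Comm.taylor_mod_sq φ J hJ hφ f

end Crest.Agent.LT
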