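import Mathlib
import Crest.Prelude.Def_LubinTate
import Crest.Agent.LT.FG
import Crest.Agent.LT.Ring
import Crest.Agent.LT.Act
import Crest.Agent.LT.Cont

/-! # Part B (characteristic 0): the deformations `g_a = 1 + p^a δ` over `E` (row 227). -/

set_option autoImplicit false
set_option linter.unusedSectionVars false

namespace Crest.Agent.LT

open Crest.LubinTate MvPowerSeries

/-- `J_0 = I`, `J_{s+1} = p J_s + J_s²` -/
noncomputable def Jseq (R : Type*) [CommRing R] (p : ℕ) (I : Ideal R) : ℕ → Ideal R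
  | 0 => I
  | s + 1 => Ideal.span {(p : R)} * Jseq R p I s ⊔ Jseq R p I s ^ 2

/-- one step: `[p](Z) = pZ + Z²(...)` -/
theorem cd_step {R : Type*} [CommRing R] (p : ℕ) (H : FormalGroup R)
    (J : Ideal R) {σ : Type*} (c : MvPowerSeries σ R)
    (h0 : MvPowerSeries.constantCoeff c = 0) (hc : CoeffIn J c) :
    CoeffIn (Ideal.span {(p : R)} * J ⊔ J ^ 2) (PowerSeries.subst c (mulSeries H p)) := by
  have hsub : PowerSeries.HasSubst c := PowerSeries.HasSubst.of_constantCoeff_zero h0
  obtain ⟨u, hu⟩ := PowerSeries.X_dvd_iff.2 (constantCoeff_mulSeries H p)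
  have h1 : PowerSeries.constantCoeff u = (p : R) := by
    have := coeff_one_mulSeries H p
    rw [hu] at this
    have h2 := PowerSeries.coeff_succ_X_mul 0 u
    rw [zero_add] at h2
    rw [h2, PowerSeries.coeff_zero_eq_constantCoeff_apply] at this
    exact this
  have h2 : PowerSeries.constantCoeff (u - PowerSeries.C (p : R)) = 0 := by
    rw [map_sub, h1]
    simp
  obtain ⟨v, hv⟩ := PowerSeries.X_dvd_iff.2 h2
  have h3 : mulSeries H p = PowerSeries.C (p : R) * PowerSeries.X +
      PowerSeries.X ^ 2 * v := by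
    rw [hu]
    have : u = PowerSeries.C (p : R) + PowerSeries.X * v := by rw [← hv]; ring
    rw [this]
    ring
  have h4 : (PowerSeries.subst c (mulSeries H p) : MvPowerSeries σ R) =
      MvPowerSeries.C (p : R) * c + c ^ 2 * PowerSeries.subst c v := by
    rw [h3, PowerSeries.subst_add hsub, PowerSeries.subst_mul hsub, PowerSeries.subst_mul hsub,
      PowerSeries.subst_pow hsub, PowerSeries.subst_X hsub, PowerSeries.subst_C]
  rw [h4]
  refine CoeffIn.add ?_ ?_
  · intro d
    rw [MvPowerSeries.coeff_C_mul]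
    exact Ideal.mem_sup_left (Ideal.mul_mem_mul (Ideal.mem_span_singleton_self _) (hc d))
  · have h5 : CoeffIn (J * J) (c ^ 2) := by
      rw [pow_two]
      exact hc.mul hc
    refine CoeffIn.mul_right (h5.mono ?_)
    rw [← pow_two]
    exact le_sup_right

/-- if all coefficients of `c` are in `I`, those of `[p^a](c)` are in `J_a`. Proof:
`[p](Z) = pZ + Z²(...)`, `[p^{a+1}] = [p] ∘ [p^a]`. -/
theorem coeff_mulSeries_mem_Jseq {R : Type*} [CommRing R] (p : ℕ) (H : FormalGroup R) [H.IsComm]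
    (I : Ideal R) {σ : Type*} [Finite σ] (c : MvPowerSeries σ R)
    (h0 : MvPowerSeries.constantCoeff c = 0) (hc : ∀ d, MvPowerSeries.coeff d c ∈ I)
    (a : ℕ) (d : σ →₀ ℕ) :
    MvPowerSeries.coeff d (PowerSeries.subst c (mulSeries H (p ^ a))) ∈ Jseq R p I a := by
  let x : FPt H σ := ⟨c, h0⟩
  have key : ∀ a, CoeffIn (Jseq R p I a) (p ^ a • x).1 := by
    intro a
    induction a with
    | zero =>
      rw [pow_zero, one_smul]
      exact hc
    | succ a ih =>
      have h1 : p ^ (a + 1) • x = p • (p ^ a • x) := by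
        rw [pow_succ', mul_smul]
      rw [h1, FPt.nsmul_val]
      exact cd_step p H _ _ (p ^ a • x).2 ih
  have h := key a d
  rw [FPt.nsmul_val] at h
  exact h

theorem Jseq_le {R : Type*} [CommRing R] (p : ℕ) (I : Ideal R) (a : ℕ) : Jseq R p I a ≤ I := by
  induction a with
  | zero => exact le_rfl
  | succ a ih =>
    refine sup_le (Ideal.mul_le_right.trans ih) ?_
    exact (Ideal.pow_le_self two_ne_zero).trans ih

/-- images of `J_a` in a local ring with `m^e ⊆ pO` -/
theorem map_Jseq_le {R S : Type*} [CommRing R] [CommRing S] (x : R →+* S) (p : ℕ) (I : Ideal R)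
    (K : Ideal S) (hI : I.map x ≤ K) (hpK : (p : S) ∈ K) (e : ℕ)
    (he : K ^ e ≤ Ideal.span {(p : S)}) (a : ℕ) :
    (Jseq R p I (e + a)).map x ≤ Ideal.span {(p : S) ^ (a + 1)} := by
  have hmapsucc : ∀ s, (Jseq R p I (s + 1)).map x =
      Ideal.span {(p : S)} * (Jseq R p I s).map x ⊔ ((Jseq R p I s).map x) ^ 2 := by
    intro s
    show (Ideal.span {(p : R)} * Jseq R p I s ⊔ Jseq R p I s ^ 2).map x = _
    rw [Ideal.map_sup, Ideal.map_mul, Ideal.map_pow, Ideal.map_span, Set.image_singleton,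
      map_natCast]
  have h1 : ∀ s, (Jseq R p I s).map x ≤ K ^ (s + 1) := by
    intro s
    induction s with
    | zero => rw [zero_add, pow_one]; exact hI
    | succ s ih =>
      rw [hmapsucc]
      refine sup_le ?_ ?_
      · rw [pow_succ']
        exact Ideal.mul_mono ((Ideal.span_singleton_le_iff_mem _).2 hpK) ih
      · refine (Ideal.pow_right_mono ih 2).trans ?_
        rw [← pow_mul]
        exact Ideal.pow_le_pow_right (by omega)
  induction a with
  | zero =>
    rw [add_zero, zero_add, pow_one]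
    exact (h1 e).trans ((Ideal.pow_le_pow_right (Nat.le_succ e)).trans he)
  | succ a ih =>
    rw [← add_assoc, hmapsucc]
    refine sup_le ?_ ?_
    · refine (Ideal.mul_mono le_rfl ih).trans ?_
      rw [Ideal.span_singleton_mul_span_singleton, ← pow_succ']
    · refine (Ideal.pow_right_mono ih 2).trans ?_
      rw [Ideal.span_singleton_pow, ← pow_mul, Ideal.span_singleton_le_span_singleton]
      exact pow_dvd_pow _ (by omega)

/-- `X + m δ` is an endomorphism if `m (δ(x+y) - δ x - δ y) = 0` -/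
theorem cd_isFGHom_add_nsmul {R : Type*} [CommRing R] (F : FormalGroup R) [F.IsComm] (m : ℕ)
    {δ : PowerSeries R} (h0 : PowerSeries.constantCoeff δ = 0)
    (D : FPt F (Fin 2) → FPt F (Fin 2)) (hD : ∀ z, (D z).1 = PowerSeries.subst z.1 δ)
    (x y : FPt F (Fin 2)) (hx : x.1 = MvPowerSeries.X 0) (hy : y.1 = MvPowerSeries.X 1)
    (hm : m • (D (x + y) - D x - D y) = 0) :
    IsFGHom F F (F.toPowerSeries.subst ![PowerSeries.X,
      PowerSeries.subst δ (mulSeries F m)]) := by
  have hc4 : m • D (x + y) = m • D x + m • D y := by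
    rw [smul_sub, smul_sub, sub_sub, sub_eq_zero] at hm
    exact hm
  have hcc : PowerSeries.constantCoeff (F.toPowerSeries.subst ![PowerSeries.X,
      PowerSeries.subst δ (mulSeries F m)] : PowerSeries R) = 0 :=
    LT93.constantCoeff_op F PowerSeries.constantCoeff_X
      (LT93.constantCoeff_ev (constantCoeff_mulSeries F _) h0)
  refine LT93.hom_of_apply hcc ?_
  have e1 := subst_add_nsmul F h0 m (x + y) (D (x + y)) (hD _)
  have e2 := subst_add_nsmul F h0 m x (D x) (hD _)
  have e3 := subst_add_nsmul F h0 m y (D y) (hD _)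
  have e4 : x + y + m • D (x + y) = (x + m • D x) + (y + m • D y) := by
    rw [hc4]; abel
  rw [e4] at e1
  have e5 : (x + y).1 = LT93.op F (MvPowerSeries.X 0 : MvPowerSeries (Fin 2) R)
      (MvPowerSeries.X 1) := by
    rw [FPt.add_val, hx, hy]
    rfl
  rw [e5] at e1
  refine Eq.trans e1 ?_
  rw [FPt.add_val, ← e2, ← e3, hx, hy]
  rfl

variable {p : ℕ} [Fact p.Prime] {n : ℕ}

/-- the automorphism `g_a = X +_Γ [p^a] δ` -/
theorem isFGAut_ga (hn : 1 ≤ n) {Γ : FormalGroup (GaloisField p n)} [Γ.IsComm]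
    (hΓ : mulSeries Γ p = PowerSeries.X ^ (p ^ n)) {δ : PowerSeries (GaloisField p n)}
    (hδ : IsFGHom Γ Γ δ) (a : ℕ) (ha : 1 ≤ a) :
    IsFGAut Γ (Γ.toPowerSeries.subst ![PowerSeries.X, PowerSeries.subst δ (mulSeries Γ (p ^ a))]) ∧
    ∀ i, i < (p ^ n) ^ a → PowerSeries.coeff i (Γ.toPowerSeries.subst ![PowerSeries.X,
      PowerSeries.subst δ (mulSeries Γ (p ^ a))] : PowerSeries (GaloisField p n)) =
      PowerSeries.coeff i PowerSeries.X := by
  have hε : IsFGHom Γ Γ (PowerSeries.subst δ (mulSeries Γ (p ^ a))) :=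
    IsFGHom.comp hδ (isFGHom_mulSeries Γ (p ^ a))
  set ε : PowerSeries (GaloisField p n) := PowerSeries.subst δ (mulSeries Γ (p ^ a)) with hεdef
  have hdvd : (PowerSeries.X : PowerSeries (GaloisField p n)) ^ ((p ^ n) ^ a) ∣ ε := by
    rw [hεdef, mulSeries_pow_eq hΓ]
    have hs := LT93.hasSubst_of δ hδ.1
    rw [PowerSeries.subst_pow hs, PowerSeries.subst_X hs]
    exact pow_dvd_pow_of_dvd (PowerSeries.X_dvd_iff.2 hδ.1) _
  have hcong : ∀ i, i < (p ^ n) ^ a → PowerSeries.coeff i (Γ.toPowerSeries.subst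
      ![PowerSeries.X, ε] : PowerSeries (GaloisField p n)) =
      PowerSeries.coeff i PowerSeries.X := by
    intro i hi
    have h3 := LT93.op_eq Γ LT93.hXX (LT93.hasSubst_of ε hε.1)
    have h4 : (Γ.toPowerSeries.subst ![PowerSeries.X, ε] : PowerSeries (GaloisField p n)) =
      PowerSeries.X + ε + PowerSeries.X * (ε * MvPowerSeries.subst ![PowerSeries.X, ε]
        (LT93.cof Γ)) := h3
    rw [h4, map_add, map_add, PowerSeries.X_pow_dvd_iff.1 hdvd i hi,
      PowerSeries.X_pow_dvd_iff.1 (Dvd.dvd.mul_left (Dvd.dvd.mul_right hdvd _) _) i hi, add_zero,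
      add_zero]
  refine ⟨⟨IsFGHom.add (IsFGHom.id Γ) hε, ?_⟩, hcong⟩
  rw [hcong 1 ?_, PowerSeries.coeff_one_X]
  · exact isUnit_one
  · have hp2 : 2 ≤ p := (Fact.out : p.Prime).two_le
    calc 1 < p := hp2
      _ ≤ p ^ n := Nat.le_self_pow (by omega) p
      _ ≤ (p ^ n) ^ a := Nat.le_self_pow (by omega) _

/-- The stabilizer map of `g_a` and its hom, with congruences. Proof: `θ₀ = X +_H [p^a]_H(δ')`,
`G = θ₀⁻¹ H(θ₀,θ₀)` (`exists_conj`); coefficients of `G - H` are in `J_a`
(`G(X,Y) = θ₀⁻¹(θ₀(H(X,Y)) -_H [p^a] c)`, `c = δ'(H(X,Y)) -_H δ'X -_H δ'Y`); universality gives `φ`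
and `ψ : H^φ → G`; `stabilizer_congr_ideal`. `θ = θ₀ ∘ ψ`. -/
theorem exists_theta (hn : 1 ≤ n) {Γ : FormalGroup (GaloisField p n)} [Γ.IsComm]
    (hΓ : mulSeries Γ p = PowerSeries.X ^ (p ^ n)) {H : FormalGroup (LTRing p n)} [H.IsComm]
    (hH : IsUniversalDeformation p n Γ H) {δ : PowerSeries (GaloisField p n)}
    (hδ : IsFGHom Γ Γ δ) (δ' : PowerSeries (LTRing p n))
    (h0 : PowerSeries.constantCoeff δ' = 0)
    (hδ' : PowerSeries.map (LTRing.residue p n) δ' = δ) (a : ℕ) (ha : 1 ≤ a) :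
    ∃ (φ : LTRing p n →ₐ[WittVector p (GaloisField p n)] LTRing p n)
      (ψ : PowerSeries (LTRing p n)),
      IsStabilizerMap p n H (Γ.toPowerSeries.subst
        ![PowerSeries.X, PowerSeries.subst δ (mulSeries Γ (p ^ a))]) φ ∧
      PowerSeries.constantCoeff ψ = 0 ∧
      (∀ f, φ f - f ∈ Jseq (LTRing p n) p (IsLocalRing.maximalIdeal (LTRing p n)) a) ∧
      (∀ i, PowerSeries.coeff i ψ - PowerSeries.coeff i PowerSeries.X ∈
        Jseq (LTRing p n) p (IsLocalRing.maximalIdeal (LTRing p n)) a) ∧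
      IsFGHom (H.map φ.toRingHom) H (H.toPowerSeries.subst
        ![ψ, PowerSeries.subst (PowerSeries.subst ψ δ') (mulSeries H (p ^ a))]) := by
  obtain ⟨hgaut, hgcong⟩ := isFGAut_ga hn hΓ hδ a ha
  set g : PowerSeries (GaloisField p n) := Γ.toPowerSeries.subst
        ![PowerSeries.X, PowerSeries.subst δ (mulSeries Γ (p ^ a))] with hg
  set r := LTRing.residue p n with hr
  set J := Jseq (LTRing p n) p (IsLocalRing.maximalIdeal (LTRing p n)) a with hJ
  have hε0 : PowerSeries.constantCoeff (PowerSeries.subst δ' (mulSeries H (p ^ a)) :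
      PowerSeries (LTRing p n)) = 0 :=
    LT93.constantCoeff_ev (constantCoeff_mulSeries H _) h0
  set θ₀ : PowerSeries (LTRing p n) := H.toPowerSeries.subst ![PowerSeries.X,
      PowerSeries.subst δ' (mulSeries H (p ^ a))] with hθ₀def
  have hθ₀0 : PowerSeries.constantCoeff θ₀ = 0 :=
    LT93.constantCoeff_op H PowerSeries.constantCoeff_X hε0
  have hθ₀r : PowerSeries.map r θ₀ = g := by
    have h1 := LT93.map_op H r LT93.hXX (LT93.hasSubst_of _ hε0)
    have h2 := LT93.map_ev (mulSeries H (p ^ a)) r (LT93.hasSubst_of _ h0)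
    rw [hg, hθ₀def]
    refine Eq.trans h1 ?_
    have h3 : MvPowerSeries.map r (PowerSeries.X : PowerSeries (LTRing p n)) =
      (PowerSeries.X : PowerSeries (GaloisField p n)) := PowerSeries.map_X r
    have h4 : MvPowerSeries.map r δ' = δ := hδ'
    have h5 : MvPowerSeries.map r (PowerSeries.subst δ'
        (mulSeries H (p ^ a)) : PowerSeries (LTRing p n)) =
        PowerSeries.subst δ (mulSeries Γ (p ^ a)) := by
      refine Eq.trans h2 ?_
      rw [h4, ← mulSeries_map, hH.1]
      rfl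
    rw [h3, h5, hH.1]
    rfl
  have hu : IsUnit (PowerSeries.coeff 1 θ₀) := isUnit_coeff_one_of_map hθ₀r hgaut.2
  obtain ⟨G, hG, _⟩ := exists_conj H θ₀ hθ₀0 hu
  obtain ⟨φ, ψ, hst, hψ, hψX⟩ := exists_stabilizer_of_lift hH hgaut θ₀ hθ₀0 hθ₀r G hG
  -- `G ≡ H mod J`
  have hGH : G.map (Ideal.Quotient.mk J) = H.map (Ideal.Quotient.mk J) := by
    set π := Ideal.Quotient.mk J with hπ
    have := map_isComm H π
    have := map_isComm H r
    -- the defect
    let D : FPt H (Fin 2) → FPt H (Fin 2) := fun z =>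
      ⟨PowerSeries.subst z.1 δ', LT93.constantCoeff_ev' h0 z.2⟩
    let x : FPt H (Fin 2) := ⟨MvPowerSeries.X 0, MvPowerSeries.constantCoeff_X 0⟩
    let y : FPt H (Fin 2) := ⟨MvPowerSeries.X 1, MvPowerSeries.constantCoeff_X 1⟩
    have hδr : IsFGHom (H.map r) (H.map r) (PowerSeries.map r δ') := by
      rw [hδ', hH.1]; exact hδ
    have hD : ∀ z, FPt.mapHom r (Fin 2) (D z) =
        IsFGHom.mapPt hδr (Fin 2) (FPt.mapHom r (Fin 2) z) := by
      intro z
      apply Subtype.ext
      exact LT93.map_ev δ' r (PowerSeries.HasSubst.of_constantCoeff_zero z.2)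
    have hc0 : FPt.mapHom r (Fin 2) (D (x + y) - D x - D y) = 0 := by
      rw [map_sub, map_sub, hD, hD, hD, map_add, map_add]
      abel
    have hc1 : ∀ d, MvPowerSeries.coeff d (D (x + y) - D x - D y).1 ∈
        IsLocalRing.maximalIdeal (LTRing p n) := by
      rw [← ker_residue]
      exact (coeffIn_map_eq_zero r).1 (congrArg Subtype.val hc0)
    have hc2 := coeff_mulSeries_mem_Jseq p H _ _ (D (x + y) - D x - D y).2 hc1 a
    have hc3 : FPt.mapHom π (Fin 2) (p ^ a • (D (x + y) - D x - D y)) = 0 := by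
      apply Subtype.ext
      show MvPowerSeries.map π (p ^ a • (D (x + y) - D x - D y)).1 = 0
      rw [coeffIn_map_eq_zero, hπ, Ideal.mk_ker, FPt.nsmul_val]
      exact hc2
    have hδ0' : PowerSeries.constantCoeff (PowerSeries.map π δ') = 0 := constantCoeff_map' π h0
    let D' : FPt (H.map π) (Fin 2) → FPt (H.map π) (Fin 2) := fun z =>
      ⟨PowerSeries.subst z.1 (PowerSeries.map π δ'), LT93.constantCoeff_ev' hδ0' z.2⟩
    have hDD' : ∀ z, FPt.mapHom π (Fin 2) (D z) = D' (FPt.mapHom π (Fin 2) z) := by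
      intro z
      apply Subtype.ext
      exact LT93.map_ev δ' π (PowerSeries.HasSubst.of_constantCoeff_zero z.2)
    have hend : IsFGHom (H.map π) (H.map π) ((H.map π).toPowerSeries.subst ![PowerSeries.X,
        PowerSeries.subst (PowerSeries.map π δ') (mulSeries (H.map π) (p ^ a))]) := by
      refine cd_isFGHom_add_nsmul (H.map π) (p ^ a) hδ0' D' (fun z => rfl)
        (FPt.mapHom π (Fin 2) x) (FPt.mapHom π (Fin 2) y) ?_ ?_ ?_
      · exact MvPowerSeries.map_X π 0
      · exact MvPowerSeries.map_X π 1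
      · rw [← map_add, ← hDD', ← hDD', ← hDD', ← map_sub, ← map_sub, ← map_nsmul]
        exact hc3
    have hθπ : PowerSeries.map π θ₀ = (H.map π).toPowerSeries.subst ![PowerSeries.X,
        PowerSeries.subst (PowerSeries.map π δ') (mulSeries (H.map π) (p ^ a))] := by
      have h1 := LT93.map_op H π LT93.hXX (LT93.hasSubst_of _ hε0)
      have h2 := LT93.map_ev (mulSeries H (p ^ a)) π (LT93.hasSubst_of _ h0)
      rw [hθ₀def]
      refine Eq.trans h1 ?_
      have h3 : MvPowerSeries.map π (PowerSeries.X : PowerSeries (LTRing p n)) =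
        (PowerSeries.X : PowerSeries (LTRing p n ⧸ J)) := PowerSeries.map_X π
      have h5 : MvPowerSeries.map π (PowerSeries.subst δ'
          (mulSeries H (p ^ a)) : PowerSeries (LTRing p n)) =
          PowerSeries.subst (PowerSeries.map π δ') (mulSeries (H.map π) (p ^ a)) := by
        refine Eq.trans h2 ?_
        rw [← mulSeries_map]
        rfl
      rw [h3, h5]
      rfl
    rw [← hθπ] at hend
    have hG' := IsFGHom.map hG π
    refine IsFGHom.source_unique hG' hend ?_
    rw [PowerSeries.coeff_map]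
    exact hu.map π
  have hb : ∀ d, MvPowerSeries.coeff d G.toPowerSeries - MvPowerSeries.coeff d H.toPowerSeries
      ∈ J := by
    intro d
    have h1 : MvPowerSeries.map (Ideal.Quotient.mk J) G.toPowerSeries =
        MvPowerSeries.map (Ideal.Quotient.mk J) H.toPowerSeries := by
      have := congrArg FormalGroup.toPowerSeries hGH
      simpa only [FormalGroup.map_toPowerSeries] using this
    rw [map_eq_map_iff, Ideal.mk_ker] at h1
    have := h1 d
    rwa [map_sub] at this
  obtain ⟨hφJ, hψJ⟩ := stabilizer_congr_ideal hn hΓ hH G φ ψ hst.1 hψ hψX J hb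
  refine ⟨φ, ψ, hst, hψ.1, hφJ, hψJ, ?_⟩
  have hcomp := IsFGHom.comp hψ hG
  let z : FPt H Unit := ⟨ψ, hψ.1⟩
  let Dz : FPt H Unit := ⟨PowerSeries.subst ψ δ', LT93.constantCoeff_ev' h0 hψ.1⟩
  have e := subst_add_nsmul H h0 (p ^ a) z Dz rfl
  rw [FPt.add_val, FPt.nsmul_val] at e
  have e' : (PowerSeries.subst ψ θ₀ : PowerSeries (LTRing p n)) = H.toPowerSeries.subst
        ![ψ, PowerSeries.subst (PowerSeries.subst ψ δ') (mulSeries H (p ^ a))] := e
  rw [← e']
  exact hcomp

end Crest.Agent.LT
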