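import Mathlib
import Crest.Prelude.Def_LubinTate
import Crest.Agent.LT.FG

/-! # Auxiliary results for `Char0Indep.lean` (row 227): linear algebra and the monoid of power
series without constant term under composition. -/

set_option autoImplicit false
set_option linter.unusedSectionVars false

namespace Crest.Agent.LT

open Crest.LubinTate

/-! ### Linear algebra -/

theorem ind_exists_eigen {L W : Type*} [Field L] [AddCommGroup W] [Module L W] [Nontrivial W]
    (Z : Module.End L W) (S : Finset L)
    (h : (Polynomial.aeval Z) (∏ c ∈ S, (Polynomial.X - Polynomial.C c)) = 0) :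
    ∃ (c : L) (v : W), v ≠ 0 ∧ Z v = c • v := by
  classical
  obtain ⟨v, hv⟩ := exists_ne (0 : W)
  by_contra hne
  push Not at hne
  have key : ∀ (S : Finset L) (v : W), v ≠ 0 →
      (Polynomial.aeval Z) (∏ c ∈ S, (Polynomial.X - Polynomial.C c)) v ≠ 0 := by
    intro S
    induction S using Finset.induction_on with
    | empty => intro v hv; simpa using hv
    | insert a S ha ih =>
      intro v hv
      rw [Finset.prod_insert ha, mul_comm, map_mul, Module.End.mul_apply]
      apply ih
      simp only [map_sub, Polynomial.aeval_X, Polynomial.aeval_C, LinearMap.sub_apply,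
        Module.algebraMap_end_apply]
      exact sub_ne_zero.2 (hne a v hv)
  exact key S v hv (by rw [h]; rfl)

theorem ind_linalg {L W : Type*} [Field L] [CharZero L] [AddCommGroup W] [Module L W]
    [FiniteDimensional L W] [Nontrivial W] (p n : ℕ) (hp : p.Prime) (hn : 1 ≤ n)
    (hW : Module.finrank L W < n) (Z T : Module.End L W)
    (hZT : ∀ x, Z (T x) = T ((Z ^ p) x)) (hT : ∀ x, (T ^ n) x = (p : L) • x)
    (hZ : Z ^ (p ^ n - 1) = 1)
    (hinv : ∀ d, 1 ≤ d → d < n → ∀ x, (Z ^ (p ^ d - 1)) x = x → x = 0)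
    (w : L) (hw : IsPrimitiveRoot w (p ^ n - 1)) : False := by
  have hpn : 0 < p ^ n - 1 := Nat.sub_pos_of_lt (Nat.one_lt_pow (by omega) hp.one_lt)
  obtain ⟨μ, v, hv, hμ⟩ : ∃ (c : L) (v : W), v ≠ 0 ∧ Z v = c • v := by
    apply ind_exists_eigen Z (Polynomial.nthRootsFinset (p ^ n - 1) (1 : L))
    rw [← Polynomial.X_pow_sub_one_eq_prod hpn hw]
    simp [hZ]
  have hTinj : ∀ x, T x = 0 → x = 0 := by
    intro x hx
    have h1 := hT x
    obtain ⟨m, rfl⟩ : ∃ m, n = m + 1 := ⟨n - 1, by omega⟩
    rw [pow_succ, Module.End.mul_apply, hx, map_zero] at h1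
    have hp0 : (p : L) ≠ 0 := Nat.cast_ne_zero.2 hp.ne_zero
    exact (smul_eq_zero.1 h1.symm).resolve_left hp0
  have hpow : ∀ (c : L) (x : W), Z x = c • x → ∀ m : ℕ, (Z ^ m) x = c ^ m • x := by
    intro c x hx m
    induction m with
    | zero => simp
    | succ m ih => rw [pow_succ, Module.End.mul_apply, hx, map_smul, ih, smul_smul, pow_succ,
        mul_comm]
  set vs : ℕ → W := fun s => (T ^ s) v with hvs
  have hvs0 : ∀ s, vs s ≠ 0 := by
    intro s
    induction s with
    | zero => simpa [hvs] using hv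
    | succ s ih =>
      intro h
      apply ih
      apply hTinj
      rw [hvs] at h ⊢
      simpa [pow_succ', Module.End.mul_apply] using h
  have hvs1 : ∀ s, Z (vs s) = μ ^ (p ^ s) • vs s := by
    intro s
    induction s with
    | zero => simpa [hvs] using hμ
    | succ s ih =>
      have e : vs (s + 1) = T (vs s) := by
        rw [hvs]; simp [pow_succ', Module.End.mul_apply]
      rw [e, hZT, hpow _ _ ih, map_smul, ← pow_mul, pow_succ]
  have hμ0 : μ ≠ 0 := by
    rintro rfl
    have h1 : (Z ^ (p ^ n - 1)) v = v := by rw [hZ]; rfl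
    rw [hpow _ _ hμ, zero_pow hpn.ne', zero_smul] at h1
    exact hv h1.symm
  have hlt : ∀ s s' : ℕ, s < s' → s' < n → μ ^ (p ^ s) ≠ μ ^ (p ^ s') := by
    intro s s' h1 h2 h3
    obtain ⟨d, rfl⟩ : ∃ d, s' = s + d := ⟨s' - s, by omega⟩
    apply hvs0 s
    apply hinv d (by omega) (by omega)
    rw [hpow _ _ (hvs1 s)]
    have h4 : (μ ^ p ^ s) ^ (p ^ d - 1) = 1 := by
      have h5 : (μ ^ p ^ s) ^ (p ^ d - 1) * μ ^ p ^ s = 1 * μ ^ p ^ s := by
        calc (μ ^ p ^ s) ^ (p ^ d - 1) * μ ^ p ^ s = (μ ^ p ^ s) ^ (p ^ d) := by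
              rw [← pow_succ, Nat.sub_add_cancel (Nat.one_le_pow _ _ hp.pos)]
          _ = μ ^ p ^ (s + d) := by rw [← pow_mul, ← pow_add]
          _ = 1 * μ ^ p ^ s := by rw [← h3, one_mul]
      exact mul_right_cancel₀ (pow_ne_zero _ hμ0) h5
    rw [h4, one_smul]
  have hli : LinearIndependent L (fun s : Fin n => vs s) := by
    refine Module.End.eigenvectors_linearIndependent' Z (fun s : Fin n => μ ^ (p ^ (s : ℕ))) ?_ _
      (fun s => ?_)
    · intro s s' h
      by_contra hne
      rcases lt_or_gt_of_ne (fun h' : (s : ℕ) = s' => hne (Fin.ext h')) with h' | h'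
      · exact hlt s s' h' s'.2 h
      · exact hlt s' s h' s.2 h.symm
    · exact ⟨Module.End.mem_eigenspace_iff.2 (hvs1 s), hvs0 s⟩
  have := hli.fintype_card_le_finrank
  rw [Fintype.card_fin] at this
  omega

theorem ind_linalg' {L V : Type*} [Field L] [CharZero L] [AddCommGroup V] [Module L V]
    (W : Submodule L V) [FiniteDimensional L W] (hne : W ≠ ⊥) (p n : ℕ) (hp : p.Prime)
    (hn : 1 ≤ n) (hW : Module.finrank L W < n) (Z T : Module.End L V)
    (hZW : ∀ v ∈ W, Z v ∈ W) (hTW : ∀ v ∈ W, T v ∈ W)
    (hZT : ∀ x ∈ W, Z (T x) = T ((Z ^ p) x)) (hT : ∀ x ∈ W, (T ^ n) x = (p : L) • x)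
    (hZ : ∀ x ∈ W, (Z ^ (p ^ n - 1)) x = x)
    (hsurj : ∀ d, 1 ≤ d → d < n → ∀ x ∈ W, ∃ y ∈ W, (Z ^ (p ^ d - 1)) y - y = x)
    (w : L) (hw : IsPrimitiveRoot w (p ^ n - 1)) : False := by
  have : Nontrivial W := Submodule.nontrivial_iff_ne_bot.2 hne
  set Z' : Module.End L W := Z.restrict hZW with hZ'
  set T' : Module.End L W := T.restrict hTW with hT'
  have hZp : ∀ (m : ℕ) (x : W), (((Z' ^ m) x : W) : V) = (Z ^ m) (x : V) := by
    intro m
    induction m with
    | zero => intro x; rfl
    | succ m ih =>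
      intro x
      rw [pow_succ, pow_succ, Module.End.mul_apply, Module.End.mul_apply, ih]
      rfl
  have hTp : ∀ (m : ℕ) (x : W), (((T' ^ m) x : W) : V) = (T ^ m) (x : V) := by
    intro m
    induction m with
    | zero => intro x; rfl
    | succ m ih =>
      intro x
      rw [pow_succ, pow_succ, Module.End.mul_apply, Module.End.mul_apply, ih]
      rfl
  refine ind_linalg p n hp hn hW Z' T' ?_ ?_ ?_ ?_ w hw
  · intro x
    apply Subtype.ext
    have := hZT x x.2
    rw [← hZp] at this
    exact this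
  · intro x
    apply Subtype.ext
    rw [hTp, hT x x.2]
    rfl
  · ext x
    rw [hZp, hZ x x.2]
    rfl
  · intro d h1 h2 x hx
    have hs : Function.Surjective (Z' ^ (p ^ d - 1) - 1 : Module.End L W) := by
      intro y
      obtain ⟨u, hu, hu2⟩ := hsurj d h1 h2 y y.2
      refine ⟨⟨u, hu⟩, Subtype.ext ?_⟩
      rw [LinearMap.sub_apply, Submodule.coe_sub, hZp]
      exact hu2
    have hi := LinearMap.injective_iff_surjective.2 hs
    apply hi
    rw [LinearMap.sub_apply, hx, _root_.map_zero]
    exact sub_self _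

/-! ### The composition monoid -/

/-- power series with zero constant term (under composition) -/
@[ext] structure CSer (R : Type*) [CommRing R] where
  val : PowerSeries R
  zero : PowerSeries.constantCoeff val = 0

namespace CSer

variable {R : Type*} [CommRing R] {S : Type*} [CommRing S]

theorem hs (f : CSer R) : PowerSeries.HasSubst f.val :=
  PowerSeries.HasSubst.of_constantCoeff_zero' f.zero

/-- `f * g = f ∘ g` -/
noncomputable instance : Monoid (CSer R) where
  mul f g := ⟨PowerSeries.subst g.val f.val,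
    PowerSeries.constantCoeff_subst_eq_zero g.zero f.val f.zero⟩
  one := ⟨PowerSeries.X, PowerSeries.constantCoeff_X⟩
  mul_assoc f g h := CSer.ext (PowerSeries.subst_comp_subst_apply g.hs h.hs f.val)
  one_mul f := CSer.ext (PowerSeries.subst_X f.hs)
  mul_one f := CSer.ext (PowerSeries.X_subst f.val)

theorem mul_val (f g : CSer R) : (f * g).val = PowerSeries.subst g.val f.val := rfl
theorem one_val : (1 : CSer R).val = PowerSeries.X := rfl

/-- reduction -/
noncomputable def map (r : R →+* S) : CSer R →* CSer S where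
  toFun f := ⟨PowerSeries.map r f.val, by
    rw [← PowerSeries.coeff_zero_eq_constantCoeff_apply, PowerSeries.coeff_map,
      PowerSeries.coeff_zero_eq_constantCoeff_apply, f.zero, _root_.map_zero]⟩
  map_one' := CSer.ext (PowerSeries.map_X r)
  map_mul' f g := CSer.ext (PowerSeries.map_subst g.hs f.val)

theorem map_val (r : R →+* S) (f : CSer R) : (map r f).val = PowerSeries.map r f.val := rfl

theorem map_surjective (r : R →+* S) (hr : Function.Surjective r) :
    Function.Surjective (map r) := by
  intro g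
  choose s hs using hr
  refine ⟨⟨PowerSeries.mk fun i => if i = 0 then 0 else s (PowerSeries.coeff i g.val), ?_⟩, ?_⟩
  · rw [← PowerSeries.coeff_zero_eq_constantCoeff_apply, PowerSeries.coeff_mk]
    simp
  · apply CSer.ext
    rw [map_val]
    ext i
    rw [PowerSeries.coeff_map, PowerSeries.coeff_mk]
    split_ifs with h
    · subst h
      rw [_root_.map_zero, PowerSeries.coeff_zero_eq_constantCoeff_apply, g.zero]
    · exact hs _

/-- `c X` -/
noncomputable def sc : R →* CSer R where
  toFun c := ⟨PowerSeries.C c * PowerSeries.X, by simp⟩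
  map_one' := CSer.ext (by simp [one_val])
  map_mul' a b := CSer.ext (by
    have hb : PowerSeries.HasSubst (PowerSeries.C b * PowerSeries.X : PowerSeries R) :=
      PowerSeries.HasSubst.of_constantCoeff_zero' (by simp)
    rw [mul_val]
    simp only
    rw [PowerSeries.subst_mul hb, PowerSeries.subst_X hb, PowerSeries.subst_C]
    change _ = PowerSeries.C a * (PowerSeries.C b * PowerSeries.X)
    rw [map_mul, mul_assoc])

theorem sc_val (c : R) : (sc c).val = PowerSeries.C c * PowerSeries.X := rfl

/-- `X ^ m` -/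
noncomputable def fr (m : ℕ) (hm : m ≠ 0) : CSer R :=
  ⟨PowerSeries.X ^ m, by rw [map_pow, PowerSeries.constantCoeff_X, zero_pow hm]⟩

theorem fr_val (m : ℕ) (hm : m ≠ 0) : (fr m hm : CSer R).val = PowerSeries.X ^ m := rfl

theorem fr_mul (m : ℕ) (hm : m ≠ 0) (f : CSer R) : (fr m hm * f).val = f.val ^ m := by
  rw [mul_val, fr_val, PowerSeries.subst_pow f.hs, PowerSeries.subst_X f.hs]

theorem fr_mul_sc (m : ℕ) (hm : m ≠ 0) (c : R) : fr m hm * sc c = sc (c ^ m) * fr m hm := by
  apply CSer.ext
  rw [fr_mul, mul_val, sc_val, sc_val, PowerSeries.subst_mul (fr m hm : CSer R).hs,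
    PowerSeries.subst_X (fr m hm : CSer R).hs, PowerSeries.subst_C, mul_pow, fr_val, map_pow]
  rfl

theorem fr_pow (m : ℕ) (hm : m ≠ 0) (j : ℕ) :
    (fr m hm : CSer R) ^ j = fr (m ^ j) (pow_ne_zero j hm) := by
  induction j with
  | zero => apply CSer.ext; simp [one_val, fr_val]
  | succ j ih =>
    apply CSer.ext
    rw [pow_succ', ih, fr_mul, fr_val, fr_val, ← pow_mul, ← pow_succ]

/-- linear coefficient -/
noncomputable def lc : CSer R →* R where
  toFun f := PowerSeries.coeff 1 f.val
  map_one' := PowerSeries.coeff_one_X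
  map_mul' f g := by
    rw [mul_val]
    have h1 : f.val = PowerSeries.C (PowerSeries.coeff 1 f.val) * PowerSeries.X +
        PowerSeries.X ^ 2 * PowerSeries.mk (fun i => PowerSeries.coeff (i + 2) f.val) := by
      ext i
      rcases i with _ | _ | i
      · rw [PowerSeries.coeff_zero_eq_constantCoeff_apply, f.zero]
        simp
      · rw [zero_add]
        simp [PowerSeries.coeff_X_pow_mul']
      · rw [map_add, PowerSeries.coeff_C_mul, PowerSeries.coeff_X, if_neg (by omega), mul_zero,
          zero_add, PowerSeries.coeff_X_pow_mul', if_pos (by omega), PowerSeries.coeff_mk]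
        congr 1
    have h2 : ∃ g' : PowerSeries R, g.val = PowerSeries.X * g' :=
      PowerSeries.X_dvd_iff.2 g.zero
    obtain ⟨g', hg'⟩ := h2
    conv_lhs => rw [h1]
    rw [PowerSeries.subst_add g.hs, PowerSeries.subst_mul g.hs, PowerSeries.subst_mul g.hs,
      PowerSeries.subst_pow g.hs, PowerSeries.subst_X g.hs, PowerSeries.subst_C]
    rw [map_add]
    have h3 : PowerSeries.coeff 1 (g.val ^ 2 *
        PowerSeries.subst g.val (PowerSeries.mk (fun i => PowerSeries.coeff (i + 2) f.val)) :
          PowerSeries R) = 0 := by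
      rw [hg', mul_pow, mul_assoc, PowerSeries.coeff_X_pow_mul', if_neg (by omega)]
    have h4 : PowerSeries.coeff 1 (PowerSeries.C (PowerSeries.coeff 1 f.val) * g.val) =
        PowerSeries.coeff 1 f.val * PowerSeries.coeff 1 g.val := by
      rw [PowerSeries.coeff_C_mul]
    rw [h3, add_zero]
    exact h4

theorem lc_apply (f : CSer R) : lc f = PowerSeries.coeff 1 f.val := rfl

theorem lc_sc (c : R) : lc (sc c) = c := by
  rw [lc_apply, sc_val, PowerSeries.coeff_C_mul, PowerSeries.coeff_one_X, mul_one]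

/-- `[m]_F` -/
noncomputable def ms (F : FormalGroup R) (m : ℕ) : CSer R :=
  ⟨mulSeries F m, constantCoeff_mulSeries F m⟩

theorem ms_val (F : FormalGroup R) (m : ℕ) : (ms F m).val = mulSeries F m := rfl

/-- sum with respect to a formal group law -/
noncomputable def hadd (F : FormalGroup R) (f g : CSer R) : CSer R :=
  ⟨F.toPowerSeries.subst ![f.val, g.val], LT93.constantCoeff_op F f.zero g.zero⟩

theorem hadd_val (F : FormalGroup R) (f g : CSer R) :
    (hadd F f g).val = F.toPowerSeries.subst ![f.val, g.val] := rfl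

theorem lc_hadd (F : FormalGroup R) (f g : CSer R) : lc (hadd F f g) = lc f + lc g :=
  LT93.coeff_one_op F f.zero g.zero

theorem hadd_mul (F : FormalGroup R) (f g h : CSer R) :
    hadd F f g * h = hadd F (f * h) (g * h) :=
  CSer.ext (LT93.subst_op F f.hs g.hs h.hs.const)

theorem mul_hadd {F G : FormalGroup R} (f g h : CSer R) (hf : IsFGHom F G f.val) :
    f * hadd F g h = hadd G (f * g) (f * h) :=
  CSer.ext (LT93.hom_apply hf g.hs h.hs)

theorem map_hadd (F : FormalGroup R) (r : R →+* S) (f g : CSer R) :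
    map r (hadd F f g) = hadd (F.map r) (map r f) (map r g) :=
  CSer.ext (LT93.map_op F r f.hs g.hs)

/-- difference: over any commutative law there is `e` with `f = g + e` -/
theorem exists_hadd (F : FormalGroup R) [F.IsComm] (f g : CSer R) :
    ∃ e : CSer R, f = hadd F g e := by
  let x : FPt F Unit := ⟨f.val, f.zero⟩
  let y : FPt F Unit := ⟨g.val, g.zero⟩
  refine ⟨⟨(x - y).1, (x - y).2⟩, CSer.ext ?_⟩
  have h : x = y + (x - y) := by abel
  exact congrArg Subtype.val h

theorem eq_zero_of_hadd (F : FormalGroup R) [F.IsComm] (f e : CSer R) (h : f = hadd F f e) :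
    e.val = 0 := by
  let x : FPt F Unit := ⟨f.val, f.zero⟩
  let y : FPt F Unit := ⟨e.val, e.zero⟩
  have h1 : x = x + y := Subtype.ext (congrArg CSer.val h)
  have h2 : y = 0 := by simpa using h1.symm
  exact congrArg Subtype.val h2

end CSer

end Crest.Agent.LT
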