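import Mathlib
import Crest.Prelude.Def_LubinTate
import Crest.Agent.LT.FG

/-! # Part B (characteristic 0): invariant differential and logarithm (row 227). -/

set_option autoImplicit false
set_option linter.unusedSectionVars false

namespace Crest.Agent.LT

open Crest.LubinTate MvPowerSeries

section Diff

variable {R : Type*} [CommRing R] {S : Type*} [CommRing S]

/-- `∂F/∂Y (X, 0)` -/
noncomputable def dop (F : FormalGroup R) : PowerSeries R :=
  MvPowerSeries.subst ![(PowerSeries.X : PowerSeries R), 0]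
    (MvPowerSeries.pderiv R 1 F.toPowerSeries)

/-- the invariant differential `ω = 1 / (∂F/∂Y (X, 0))` -/
noncomputable def omg (F : FormalGroup R) : PowerSeries R := Ring.inverse (dop F)

private theorem hs_pair {τ : Type*} {a b : MvPowerSeries τ R} (ha : PowerSeries.HasSubst a)
    (hb : PowerSeries.HasSubst b) : MvPowerSeries.HasSubst ![a, b] := LT93.hasSubst_pair ha hb

/-- substitution into a two-variable substitution -/
private theorem subst_pair {σ τ : Type*} (P : MvPowerSeries (Fin 2) R) {a b : MvPowerSeries σ R}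
    (ha : PowerSeries.HasSubst a) (hb : PowerSeries.HasSubst b) {c : σ → MvPowerSeries τ R}
    (hc : MvPowerSeries.HasSubst c) :
    MvPowerSeries.subst c (MvPowerSeries.subst ![a, b] P) =
      MvPowerSeries.subst ![MvPowerSeries.subst c a, MvPowerSeries.subst c b] P := by
  rw [MvPowerSeries.subst_comp_subst_apply (hs_pair ha hb) hc]
  congr 1
  funext i
  fin_cases i <;> rfl

private theorem subst_zero' {σ τ : Type*} {c : σ → MvPowerSeries τ R}
    (hc : MvPowerSeries.HasSubst c) : MvPowerSeries.subst c (0 : MvPowerSeries σ R) = 0 := by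
  rw [← MvPowerSeries.coe_substAlgHom hc]
  exact _root_.map_zero _

private theorem subst_one' {σ τ : Type*} {c : σ → MvPowerSeries τ R}
    (hc : MvPowerSeries.HasSubst c) : MvPowerSeries.subst c (1 : MvPowerSeries σ R) = 1 := by
  rw [← MvPowerSeries.coe_substAlgHom hc]
  exact _root_.map_one _

/-- `dop F` at a point -/
theorem subst_dop (F : FormalGroup R) {τ : Type*} {a : MvPowerSeries τ R}
    (ha : PowerSeries.HasSubst a) :
    PowerSeries.subst a (dop F) =
      MvPowerSeries.subst ![a, 0] (MvPowerSeries.pderiv R 1 F.toPowerSeries) := by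
  have h := subst_pair (MvPowerSeries.pderiv R 1 F.toPowerSeries) LT93.hXX
    (LT93.hzero (R := R) (σ := Unit)) ha.const
  have e : MvPowerSeries.subst (fun _ : Unit => a) (PowerSeries.X : PowerSeries R) = a :=
    PowerSeries.subst_X ha
  rw [e, subst_zero' ha.const] at h
  exact h

theorem constantCoeff_dop (F : FormalGroup R) : PowerSeries.constantCoeff (dop F) = 1 := by
  have hs : MvPowerSeries.HasSubst ![(PowerSeries.X : PowerSeries R), 0] :=
    MvPowerSeries.HasSubst.X_zero
  have e := LT93.constantCoeff_subst_of_zero hs (fun i => by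
    fin_cases i
    · exact PowerSeries.constantCoeff_X
    · exact _root_.map_zero _) (MvPowerSeries.pderiv R 1 F.toPowerSeries)
  have e2 : MvPowerSeries.constantCoeff (MvPowerSeries.pderiv R 1 F.toPowerSeries) = 1 := by
    rw [← MvPowerSeries.coeff_zero_eq_constantCoeff_apply, MvPowerSeries.coeff_pderiv,
      zero_add, F.lin_coeff_Y]
    simp
  rw [e2] at e
  exact e

theorem isUnit_dop (F : FormalGroup R) : IsUnit (dop F) := by
  apply PowerSeries.isUnit_iff_constantCoeff.2
  rw [constantCoeff_dop]
  exact isUnit_one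

theorem dop_mul_omg (F : FormalGroup R) : dop F * omg F = 1 :=
  Ring.mul_inverse_cancel _ (isUnit_dop F)

theorem constantCoeff_omg (F : FormalGroup R) : PowerSeries.constantCoeff (omg F) = 1 := by
  have h := congrArg (PowerSeries.constantCoeff (R := R)) (dop_mul_omg F)
  rwa [map_mul, constantCoeff_dop, one_mul, map_one] at h

private theorem pderiv_map' {σ : Type*} (f : R →+* S) (i : σ) (P : MvPowerSeries σ R) :
    MvPowerSeries.pderiv S i (MvPowerSeries.map f P) =
      MvPowerSeries.map f (MvPowerSeries.pderiv R i P) := by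
  ext d
  rw [MvPowerSeries.coeff_pderiv, MvPowerSeries.coeff_map, MvPowerSeries.coeff_map,
    MvPowerSeries.coeff_pderiv]
  simp

theorem dop_map (F : FormalGroup R) (f : R →+* S) :
    dop (F.map f) = PowerSeries.map f (dop F) := by
  have hs : MvPowerSeries.HasSubst ![(PowerSeries.X : PowerSeries R), 0] :=
    MvPowerSeries.HasSubst.X_zero
  unfold dop
  rw [FormalGroup.map_toPowerSeries, pderiv_map']
  have h := MvPowerSeries.map_subst hs (h := f) (MvPowerSeries.pderiv R 1 F.toPowerSeries)
  refine Eq.trans ?_ h.symm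
  congr 1
  funext i
  fin_cases i
  · exact (PowerSeries.map_X f).symm
  · exact (_root_.map_zero (MvPowerSeries.map f)).symm

theorem omg_map (F : FormalGroup R) (f : R →+* S) :
    omg (F.map f) = PowerSeries.map f (omg F) := by
  have h1 := dop_mul_omg (F.map f)
  have h2 := congrArg (PowerSeries.map f) (dop_mul_omg F)
  rw [map_mul, map_one, ← dop_map] at h2
  exact (isUnit_dop (F.map f)).mul_left_cancel (h1.trans h2.symm)

/-- partial derivatives of `F(a, b)` -/
private theorem pderiv_op (F : FormalGroup R) {τ : Type*} {a b : MvPowerSeries τ R}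
    (ha : PowerSeries.HasSubst a) (hb : PowerSeries.HasSubst b) (j : τ) :
    MvPowerSeries.pderiv R j (LT93.op F a b) =
      MvPowerSeries.subst ![a, b] (MvPowerSeries.pderiv R 0 F.toPowerSeries) *
        MvPowerSeries.pderiv R j a +
      MvPowerSeries.subst ![a, b] (MvPowerSeries.pderiv R 1 F.toPowerSeries) *
        MvPowerSeries.pderiv R j b := by
  unfold LT93.op
  rw [LT93.pderiv_subst (hs_pair ha hb), Fin.sum_univ_two]
  rfl

/-- pull-back of the invariant differential along a hom: `ω_G(θ) θ' = θ'(0) ω_F`. -/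
theorem omg_hom {F G : FormalGroup R} {θ : PowerSeries R} (h : IsFGHom F G θ) :
    PowerSeries.subst θ (omg G) * PowerSeries.derivative R θ =
      PowerSeries.C (PowerSeries.coeff 1 θ) * omg F := by
  have hθ := LT93.hasSubst_of θ h.1
  have h2 := congrArg (MvPowerSeries.pderiv R 1)
    (LT93.hom_apply h (LT93.hX (0 : Fin 2)) (LT93.hX 1))
  rw [LT93.pderiv_ev (LT93.hasSubst_op F (LT93.hX 0) (LT93.hX 1)),
    pderiv_op G (LT93.hasSubst_ev h.1 (LT93.hX 0)) (LT93.hasSubst_ev h.1 (LT93.hX 1)),
    LT93.pderiv_ev (LT93.hX 0), LT93.pderiv_ev (LT93.hX 1), MvPowerSeries.pderiv_X_self,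
    MvPowerSeries.pderiv_X_of_ne (by decide : (0 : Fin 2) ≠ 1), mul_zero, mul_zero, zero_add,
    mul_one, LT93.op_X] at h2
  -- substitute `Y = 0`
  have hs : MvPowerSeries.HasSubst ![(PowerSeries.X : PowerSeries R), 0] :=
    MvPowerSeries.HasSubst.X_zero
  have h4 := congrArg (MvPowerSeries.subst ![(PowerSeries.X : PowerSeries R), 0]) h2
  have hFX : PowerSeries.HasSubst F.toPowerSeries := by
    have := LT93.hasSubst_op F (LT93.hX (0 : Fin 2)) (LT93.hX 1)
    rwa [LT93.op_X] at this
  rw [MvPowerSeries.subst_mul hs, MvPowerSeries.subst_mul hs, LT93.subst_ev _ hFX hs,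
    LT93.subst_ev _ (LT93.hX 1) hs, MvPowerSeries.subst_X hs,
    subst_pair _ (LT93.hasSubst_ev h.1 (LT93.hX 0)) (LT93.hasSubst_ev h.1 (LT93.hX 1)) hs,
    LT93.subst_ev _ (LT93.hX 0) hs, LT93.subst_ev _ (LT93.hX 1) hs,
    MvPowerSeries.subst_X hs, MvPowerSeries.subst_X hs] at h4
  simp only [Matrix.cons_val_zero, Matrix.cons_val_one] at h4
  have e1 : MvPowerSeries.subst ![(PowerSeries.X : PowerSeries R), 0] F.toPowerSeries =
      (PowerSeries.X : PowerSeries R) := LT93.op_zero F LT93.hXX
  have e2 : (LT93.ev (PowerSeries.derivative R θ) (0 : PowerSeries R) : PowerSeries R) =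
      PowerSeries.C (PowerSeries.coeff 1 θ) := by
    have := PowerSeries.subst_zero_eq_C_constantCoeff (f := PowerSeries.derivative R θ) (τ := Unit) (S := R)
    refine Eq.trans this ?_
    have e3 : PowerSeries.constantCoeff (PowerSeries.derivative R θ) = PowerSeries.coeff 1 θ := by
      rw [← PowerSeries.coeff_zero_eq_constantCoeff_apply, PowerSeries.coeff_derivative, zero_add]
      simp
    rw [e3]
    rfl
  rw [e1, LT93.ev_self_X, LT93.ev_self_X, LT93.ev_zero_arg h.1, e2, ← subst_dop G hθ] at h4
  change PowerSeries.derivative R θ * dop F =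
    PowerSeries.subst θ (dop G) * PowerSeries.C (PowerSeries.coeff 1 θ) at h4
  have h5 : PowerSeries.subst θ (dop G) * PowerSeries.subst θ (omg G) = 1 := by
    rw [← PowerSeries.subst_mul hθ, dop_mul_omg]
    exact subst_one' hθ.const
  have h6 := dop_mul_omg F
  calc PowerSeries.subst θ (omg G) * PowerSeries.derivative R θ
      = PowerSeries.subst θ (omg G) * (PowerSeries.derivative R θ * dop F) * omg F := by
        rw [mul_assoc, mul_assoc, h6, mul_one]
    _ = (PowerSeries.subst θ (dop G) * PowerSeries.subst θ (omg G)) *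
        PowerSeries.C (PowerSeries.coeff 1 θ) * omg F := by rw [h4]; ring
    _ = PowerSeries.C (PowerSeries.coeff 1 θ) * omg F := by rw [h5, one_mul]

/-- `D(F(α,β)) = F₂(α,β) D(β)` with `D = F₂(X,0)` -/
private theorem dop_op (F : FormalGroup R) {α β : PowerSeries R}
    (hα : PowerSeries.HasSubst α) (hβ : PowerSeries.HasSubst β) :
    PowerSeries.subst (LT93.op F α β) (dop F) =
      MvPowerSeries.subst ![α, β] (MvPowerSeries.pderiv R 1 F.toPowerSeries) *
        PowerSeries.subst β (dop F) := by
  have h0 := LT93.hX (R := R) (0 : Fin 3)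
  have h1 := LT93.hX (R := R) (1 : Fin 3)
  have h2 := LT93.hX (R := R) (2 : Fin 3)
  have h01 := LT93.hasSubst_op F h0 h1
  have h12 := LT93.hasSubst_op F h1 h2
  have h := congrArg (MvPowerSeries.pderiv R 2) (LT93.op_assoc F h0 h1 h2)
  rw [pderiv_op F h01 h2, pderiv_op F h0 h12, pderiv_op F h0 h1, pderiv_op F h1 h2,
    MvPowerSeries.pderiv_X_self,
    MvPowerSeries.pderiv_X_of_ne (by decide : (0 : Fin 3) ≠ 2),
    MvPowerSeries.pderiv_X_of_ne (by decide : (1 : Fin 3) ≠ 2)] at h
  simp only [mul_zero, zero_add, mul_one] at h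
  have hc : MvPowerSeries.HasSubst ![α, β, (0 : PowerSeries R)] := by
    apply MvPowerSeries.hasSubst_of_constantCoeff_nilpotent
    intro i
    fin_cases i
    · exact hα
    · exact hβ
    · exact LT93.hzero (R := R) (σ := Unit)
  have h4 := congrArg (MvPowerSeries.subst ![α, β, (0 : PowerSeries R)]) h
  rw [MvPowerSeries.subst_mul hc, subst_pair _ h01 h2 hc, subst_pair _ h0 h12 hc,
    subst_pair _ h1 h2 hc, LT93.subst_op F h0 h1 hc, LT93.subst_op F h1 h2 hc,
    MvPowerSeries.subst_X hc, MvPowerSeries.subst_X hc, MvPowerSeries.subst_X hc] at h4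
  simp only [Matrix.cons_val_zero, Matrix.cons_val_one, Matrix.cons_val] at h4
  rw [LT93.op_zero F hβ] at h4
  rw [subst_dop F (LT93.hasSubst_op F hα hβ), subst_dop F hβ]
  exact h4

private theorem omg_op_right (F : FormalGroup R) {α β : PowerSeries R}
    (hα : PowerSeries.HasSubst α) (hβ : PowerSeries.HasSubst β) :
    PowerSeries.subst (LT93.op F α β) (omg F) *
      MvPowerSeries.subst ![α, β] (MvPowerSeries.pderiv R 1 F.toPowerSeries) =
        PowerSeries.subst β (omg F) := by
  have h := dop_op F hα hβ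
  have hop : PowerSeries.HasSubst (LT93.op F α β) := LT93.hasSubst_op F hα hβ
  have h5 : ∀ {γ : PowerSeries R}, PowerSeries.HasSubst γ →
      PowerSeries.subst γ (dop F) * PowerSeries.subst γ (omg F) = 1 := by
    intro γ hγ
    rw [← PowerSeries.subst_mul hγ, dop_mul_omg]
    exact subst_one' hγ.const
  have h6 := h5 hβ
  have h7 := h5 hop
  set A : PowerSeries R := PowerSeries.subst (LT93.op F α β) (omg F)
  set B : PowerSeries R := PowerSeries.subst (LT93.op F α β) (dop F)
  set C : PowerSeries R := MvPowerSeries.subst ![α, β] (MvPowerSeries.pderiv R 1 F.toPowerSeries)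
  set D : PowerSeries R := PowerSeries.subst β (dop F)
  set E : PowerSeries R := PowerSeries.subst β (omg F)
  calc A * C = A * (C * (D * E)) := by rw [h6, mul_one]
    _ = A * (C * D) * E := by ring
    _ = E := by rw [← h, mul_comm A B, h7, one_mul]

private theorem pderiv_swap (F : FormalGroup R) [F.IsComm] {α β : PowerSeries R}
    (hα : PowerSeries.HasSubst α) (hβ : PowerSeries.HasSubst β) :
    (MvPowerSeries.subst ![α, β] (MvPowerSeries.pderiv R 0 F.toPowerSeries) : PowerSeries R) =
      MvPowerSeries.subst ![β, α] (MvPowerSeries.pderiv R 1 F.toPowerSeries) := by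
  have h0 := LT93.hX (R := R) (0 : Fin 2)
  have h1 := LT93.hX (R := R) (1 : Fin 2)
  have h := congrArg (MvPowerSeries.pderiv R 0) (LT93.op_comm F h0 h1)
  rw [pderiv_op F h1 h0, MvPowerSeries.pderiv_X_self, LT93.op_X,
    MvPowerSeries.pderiv_X_of_ne (by decide : (1 : Fin 2) ≠ 0), mul_zero, zero_add, mul_one] at h
  have hs : MvPowerSeries.HasSubst ![α, β] := hs_pair hα hβ
  have h4 := congrArg (MvPowerSeries.subst ![α, β]) h
  rw [subst_pair _ h1 h0 hs, MvPowerSeries.subst_X hs, MvPowerSeries.subst_X hs] at h4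
  exact h4

/-- `ω(F(α,β)) · (F(α,β))' = ω(α) α' + ω(β) β'` -/
theorem omg_op (F : FormalGroup R) [F.IsComm] (α β : PowerSeries R)
    (hα : PowerSeries.constantCoeff α = 0) (hβ : PowerSeries.constantCoeff β = 0) :
    PowerSeries.subst (F.toPowerSeries.subst ![α, β] : PowerSeries R) (omg F) *
        PowerSeries.derivative R (F.toPowerSeries.subst ![α, β] : PowerSeries R) =
      PowerSeries.subst α (omg F) * PowerSeries.derivative R α +
        PowerSeries.subst β (omg F) * PowerSeries.derivative R β := by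
  have sα := LT93.hasSubst_of α hα
  have sβ := LT93.hasSubst_of β hβ
  have h1 : PowerSeries.derivative R (LT93.op F α β : PowerSeries R) =
      MvPowerSeries.subst ![α, β] (MvPowerSeries.pderiv R 0 F.toPowerSeries) *
        PowerSeries.derivative R α +
      MvPowerSeries.subst ![α, β] (MvPowerSeries.pderiv R 1 F.toPowerSeries) *
        PowerSeries.derivative R β := pderiv_op F sα sβ ()
  change PowerSeries.subst (LT93.op F α β : PowerSeries R) (omg F) *
        PowerSeries.derivative R (LT93.op F α β : PowerSeries R) = _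
  rw [h1, mul_add, ← mul_assoc, ← mul_assoc, omg_op_right F sα sβ, pderiv_swap F sα sβ,
    LT93.op_comm F sα sβ, omg_op_right F sβ sα]

end Diff

section Log

variable {O : Type*} [CommRing O] {L : Type*} [Field L] [CharZero L] (ι : O →+* L)

/-- the logarithm `∑ ι(ω_{m-1})/m X^m` -/
noncomputable def lgS (F : FormalGroup O) : PowerSeries L :=
  PowerSeries.mk fun m => ι (PowerSeries.coeff (m - 1) (omg F)) / m

/-- `log ∘ α` -/
noncomputable def lg (F : FormalGroup O) (α : PowerSeries O) : PowerSeries L :=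
  PowerSeries.subst (PowerSeries.map ι α) (lgS ι F)

theorem constantCoeff_lgS (F : FormalGroup O) : PowerSeries.constantCoeff (lgS ι F) = 0 := by
  rw [← PowerSeries.coeff_zero_eq_constantCoeff_apply, lgS, PowerSeries.coeff_mk]
  simp

theorem derivative_lgS (F : FormalGroup O) :
    PowerSeries.derivative L (lgS ι F) = PowerSeries.map ι (omg F) := by
  ext m
  rw [PowerSeries.coeff_derivative, lgS, PowerSeries.coeff_mk, PowerSeries.coeff_map,
    Nat.add_sub_cancel, Nat.cast_add, Nat.cast_one]
  exact div_mul_cancel₀ _ (Nat.cast_add_one_ne_zero m)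

private theorem cc_map {α : PowerSeries O} (hα : PowerSeries.constantCoeff α = 0) :
    PowerSeries.constantCoeff (PowerSeries.map ι α) = 0 := by
  rw [← PowerSeries.coeff_zero_eq_constantCoeff_apply, PowerSeries.coeff_map,
    PowerSeries.coeff_zero_eq_constantCoeff_apply, hα, _root_.map_zero]

theorem constantCoeff_lg (F : FormalGroup O) (α : PowerSeries O)
    (hα : PowerSeries.constantCoeff α = 0) : PowerSeries.constantCoeff (lg ι F α) = 0 :=
  PowerSeries.constantCoeff_subst_eq_zero (cc_map ι hα) _ (constantCoeff_lgS ι F)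

theorem derivative_lg (F : FormalGroup O) (α : PowerSeries O)
    (hα : PowerSeries.constantCoeff α = 0) :
    PowerSeries.derivative L (lg ι F α) =
      PowerSeries.map ι (PowerSeries.subst α (omg F) * PowerSeries.derivative O α) := by
  have hs := LT93.hasSubst_of _ (cc_map ι hα)
  have sα := LT93.hasSubst_of α hα
  rw [lg, PowerSeries.derivative_subst hs, derivative_lgS, map_mul]
  congr 1
  · exact (PowerSeries.map_subst sα (h := ι) (omg F)).symm
  · exact pderiv_map' ι () α

theorem lg_X (F : FormalGroup O) : lg ι F PowerSeries.X = lgS ι F := by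
  rw [lg, PowerSeries.map_X]
  exact PowerSeries.X_subst _

private theorem eq_of_deriv {f g : PowerSeries L}
    (h0 : PowerSeries.constantCoeff f = 0) (h0' : PowerSeries.constantCoeff g = 0)
    (h : PowerSeries.derivative L f = PowerSeries.derivative L g) : f = g :=
  PowerSeries.derivative.ext h (h0.trans h0'.symm)

theorem lg_op (F : FormalGroup O) [F.IsComm] (α β : PowerSeries O)
    (hα : PowerSeries.constantCoeff α = 0) (hβ : PowerSeries.constantCoeff β = 0) :
    lg ι F (F.toPowerSeries.subst ![α, β]) = lg ι F α + lg ι F β := by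
  have hop : PowerSeries.constantCoeff (F.toPowerSeries.subst ![α, β] : PowerSeries O) = 0 :=
    LT93.constantCoeff_op F hα hβ
  apply eq_of_deriv
  · exact constantCoeff_lg ι F _ hop
  · rw [_root_.map_add, constantCoeff_lg ι F α hα, constantCoeff_lg ι F β hβ, add_zero]
  · rw [_root_.map_add, derivative_lg ι F _ hop, derivative_lg ι F α hα, derivative_lg ι F β hβ,
      omg_op F α β hα hβ, _root_.map_add]

/-- `log ∘ θ = θ'(0) log` -/
theorem lg_hom {F G : FormalGroup O} {θ : PowerSeries O} (h : IsFGHom F G θ) :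
    lg ι G θ = PowerSeries.C (ι (PowerSeries.coeff 1 θ)) * lgS ι F := by
  apply eq_of_deriv
  · exact constantCoeff_lg ι G _ h.1
  · rw [map_mul, constantCoeff_lgS, mul_zero]
  · rw [derivative_lg ι G _ h.1, omg_hom h, Derivation.leibniz, PowerSeries.derivative_C,
      derivative_lgS, map_mul, PowerSeries.map_C]
    simp

/-- `log ∘ (α ∘ β) = (log ∘ α) ∘ β` -/
theorem lg_subst (F : FormalGroup O) (α β : PowerSeries O)
    (hα : PowerSeries.constantCoeff α = 0) (hβ : PowerSeries.constantCoeff β = 0) :
    lg ι F (PowerSeries.subst β α) = PowerSeries.subst (PowerSeries.map ι β) (lg ι F α) := by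
  have sα := LT93.hasSubst_of _ (cc_map ι hα)
  have sβ := LT93.hasSubst_of _ (cc_map ι hβ)
  rw [lg, lg, PowerSeries.subst_comp_subst_apply sα sβ]
  congr 1
  exact PowerSeries.map_subst (LT93.hasSubst_of β hβ) (h := ι) α

theorem lg_zero (F : FormalGroup O) : lg ι F 0 = 0 := by
  rw [lg, _root_.map_zero]
  exact PowerSeries.subst_zero_of_constantCoeff_zero (constantCoeff_lgS ι F)

theorem lg_mulSeries (F : FormalGroup O) [F.IsComm] (m : ℕ) (α : PowerSeries O)
    (hα : PowerSeries.constantCoeff α = 0) :
    lg ι F (PowerSeries.subst α (mulSeries F m)) = (m : PowerSeries L) * lg ι F α := by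
  have sα := LT93.hasSubst_of α hα
  induction m with
  | zero =>
    have e : PowerSeries.subst α (mulSeries F 0) = 0 := LT93.ev_mulSeries_zero F sα
    rw [e, lg_zero]
    simp
  | succ m ih =>
    have e : PowerSeries.subst α (mulSeries F (m + 1)) =
        F.toPowerSeries.subst ![PowerSeries.subst α (mulSeries F m), α] :=
      LT93.ev_mulSeries_succ F m sα
    have h0 : PowerSeries.constantCoeff (PowerSeries.subst α (mulSeries F m)) = 0 :=
      LT93.constantCoeff_ev' (LT93.constantCoeff_mulSeries F m) hα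
    rw [e, lg_op ι F _ _ h0 hα, ih]
    push_cast
    ring

/-- integrality: `log (p^s Y) ∈ p^s O[[Y]]` for `s ≥ 1` -/
theorem lg_small (p : ℕ) [Fact p.Prime] (hunit : ∀ m : ℕ, ¬ p ∣ m → IsUnit (m : O))
    (F : FormalGroup O) (s : ℕ) (hs : 1 ≤ s) (α : PowerSeries O)
    (h0 : PowerSeries.constantCoeff α = 0)
    (hα : ∀ m, PowerSeries.coeff m α ∈ Ideal.span {(p : O) ^ s}) (m : ℕ) :
    ∃ c : O, PowerSeries.coeff m (lg ι F α) = ι ((p : O) ^ s * c) := by
  classical
  have hp : p.Prime := Fact.out
  have sα := LT93.hasSubst_of _ (cc_map ι h0)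
  choose a ha using fun m => Ideal.mem_span_singleton'.1 (hα m)
  have e1 : α = PowerSeries.C ((p : O) ^ s) * PowerSeries.mk a := by
    ext j
    rw [PowerSeries.coeff_C_mul, PowerSeries.coeff_mk, ← ha j, mul_comm]
  rw [lg, PowerSeries.coeff_subst' sα]
  refine finsum_induction (fun x : L => ∃ c : O, x = ι ((p : O) ^ s * c)) ⟨0, by simp⟩ ?_ ?_
  · rintro x y ⟨c, rfl⟩ ⟨d, rfl⟩
    exact ⟨c + d, by rw [mul_add, _root_.map_add]⟩
  · intro d
    rcases Nat.eq_zero_or_pos d with rfl | hd
    · refine ⟨0, ?_⟩
      have : PowerSeries.coeff 0 (lgS ι F) = 0 := by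
        rw [PowerSeries.coeff_zero_eq_constantCoeff_apply, constantCoeff_lgS]
      rw [this, zero_smul, mul_zero, _root_.map_zero]
    · have e2 : PowerSeries.coeff m ((PowerSeries.map ι α) ^ d) =
          ι ((p : O) ^ (s * d) * PowerSeries.coeff m ((PowerSeries.mk a) ^ d)) := by
        rw [← map_pow, PowerSeries.coeff_map]
        congr 1
        conv_lhs => rw [e1]
        rw [mul_pow, ← map_pow, PowerSeries.coeff_C_mul, pow_mul]
      rw [e2, lgS, PowerSeries.coeff_mk, smul_eq_mul]
      obtain ⟨v, d', hd', hdv⟩ := Nat.exists_eq_pow_mul_and_not_dvd hd.ne' p hp.ne_one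
      have hd'0 : d' ≠ 0 := by
        rintro rfl
        exact hd' (dvd_zero p)
      obtain ⟨u, hu⟩ := (hunit d' hd').exists_right_inv
      have hv : v ≤ d - 1 := by
        have h1 : p ^ v ≤ d := by
          rw [hdv]
          exact Nat.le_mul_of_pos_right _ (Nat.pos_of_ne_zero hd'0)
        have h2 : v < p ^ v := Nat.lt_pow_self hp.one_lt
        omega
      have hle : s + v ≤ s * d := by
        obtain ⟨e, rfl⟩ : ∃ e, d = e + 1 := ⟨d - 1, by omega⟩
        have : e * 1 ≤ e * s := Nat.mul_le_mul_left e hs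
        rw [Nat.mul_add, Nat.mul_comm s e]
        omega
      obtain ⟨t, ht⟩ := Nat.exists_eq_add_of_le hle
      refine ⟨PowerSeries.coeff (d - 1) (omg F) * (p : O) ^ t * u *
        PowerSeries.coeff m ((PowerSeries.mk a) ^ d), ?_⟩
      have hu' : (d' : L) * ι u = 1 := by
        rw [← map_natCast ι, ← map_mul, hu, map_one]
      have hpL : (p : L) ≠ 0 := Nat.cast_ne_zero.2 hp.ne_zero
      have hdL : (d : L) = (p : L) ^ v * d' := by
        rw [hdv]; push_cast; ring
      have hd'L : (d' : L) ≠ 0 := Nat.cast_ne_zero.2 hd'0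
      have hdne : (d : L) ≠ 0 := Nat.cast_ne_zero.2 hd.ne'
      rw [ht]
      simp only [map_mul, map_pow, map_natCast]
      rw [div_mul_eq_mul_div, div_eq_iff hdne, hdL]
      have : ι (PowerSeries.coeff (d - 1) (omg F)) *
          ((p : L) ^ (s + v + t) * ι (PowerSeries.coeff m ((PowerSeries.mk a) ^ d))) =
          ((d' : L) * ι u) * (ι (PowerSeries.coeff (d - 1) (omg F)) *
          ((p : L) ^ (s + v + t) * ι (PowerSeries.coeff m ((PowerSeries.mk a) ^ d)))) := by
        rw [hu', one_mul]
      rw [this]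
      ring

/-- if `α ≡ β mod p^s` then `log α ≡ log β mod p^s` (`s ≥ 1`). -/
theorem lg_congr (p : ℕ) [Fact p.Prime] (hunit : ∀ m : ℕ, ¬ p ∣ m → IsUnit (m : O))
    (F : FormalGroup O) [F.IsComm] (s : ℕ) (hs : 1 ≤ s) (α β : PowerSeries O)
    (h0 : PowerSeries.constantCoeff α = 0) (h0' : PowerSeries.constantCoeff β = 0)
    (hαβ : ∀ m, PowerSeries.coeff m α - PowerSeries.coeff m β ∈ Ideal.span {(p : O) ^ s})
    (m : ℕ) :
    ∃ c : O, PowerSeries.coeff m (lg ι F α) - PowerSeries.coeff m (lg ι F β) =
      ι ((p : O) ^ s * c) := by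
  set I : Ideal O := Ideal.span {(p : O) ^ s} with hI
  set q : O →+* O ⧸ I := Ideal.Quotient.mk I with hq
  set nβ : PowerSeries O := PowerSeries.subst β (negSeries F) with hnβ
  have sα := LT93.hasSubst_of α h0
  have sβ := LT93.hasSubst_of β h0'
  have hn0 : PowerSeries.constantCoeff nβ = 0 :=
    LT93.constantCoeff_ev' (constantCoeff_negSeries F) h0'
  have sn := LT93.hasSubst_of nβ hn0
  set γ : PowerSeries O := LT93.op F α nβ with hγ
  have hγ0 : PowerSeries.constantCoeff γ = 0 := LT93.constantCoeff_op F h0 hn0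
  -- `α = γ +_F β`
  have e1 : α = LT93.op F γ β := by
    let x : FPt F Unit := ⟨α, h0⟩
    let y : FPt F Unit := ⟨β, h0'⟩
    have h : x = (x + (-y)) + y := by abel
    exact congrArg Subtype.val h
  have e2 : lg ι F α = lg ι F γ + lg ι F β := by
    conv_lhs => rw [e1]
    exact lg_op ι F γ β hγ0 h0'
  have hmap : PowerSeries.map q α = PowerSeries.map q β := by
    ext j
    rw [PowerSeries.coeff_map, PowerSeries.coeff_map]
    exact Ideal.Quotient.eq.2 (hαβ j)
  have hγI : ∀ j, PowerSeries.coeff j γ ∈ I := by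
    have h1 : PowerSeries.map q γ = 0 := by
      have h2 : PowerSeries.map q γ =
          LT93.op (F.map q) (PowerSeries.map q α) (PowerSeries.map q nβ) :=
        LT93.map_op F q sα sn
      have h3 : PowerSeries.map q (LT93.op F β nβ : PowerSeries O) =
          LT93.op (F.map q) (PowerSeries.map q β) (PowerSeries.map q nβ) :=
        LT93.map_op F q sβ sn
      have h4 : (LT93.op F β nβ : PowerSeries O) = 0 := op_negSeries F sβ
      rw [h2, hmap, ← h3, h4, _root_.map_zero]
    intro j
    have h5 := congrArg (PowerSeries.coeff j) h1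
    rw [PowerSeries.coeff_map, _root_.map_zero] at h5
    exact Ideal.Quotient.eq_zero_iff_mem.1 h5
  obtain ⟨c, hc⟩ := lg_small ι p hunit F s hs γ hγ0 hγI m
  refine ⟨c, ?_⟩
  rw [e2, _root_.map_add, add_sub_cancel_right, hc]

end Log

end Crest.Agent.LT
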