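import Mathlib
import Crest.Prelude.Def_LubinTate
import Crest.Agent.LT.FG

/-! # The Lubin-Tate lemma for `f = πX + X^q` (row 227, A5a). -/

set_option autoImplicit false
set_option linter.unusedSectionVars false

namespace Crest.Agent.LT

open Crest.LubinTate MvPowerSeries

namespace LTL

variable {R : Type*} [CommRing R] {σ τ : Type*} [Finite σ] [Finite τ]

/-- the series `f(X_i) = πX_i + X_i^q` -/
noncomputable def sf (σ : Type*) (π : R) (q : ℕ) : σ → MvPowerSeries σ R :=
  fun i => C π * X i + X i ^ q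

theorem sf_hasSubst (π : R) {q : ℕ} (hq : 2 ≤ q) : HasSubst (sf σ π q) :=
  hasSubst_of_constantCoeff_zero fun i => by
    simp [sf, constantCoeff_X, zero_pow (by omega : q ≠ 0)]

/-- `φ` commutes with `f = πX + X^q` -/
structure LTE (π : R) (q : ℕ) (φ : MvPowerSeries σ R) : Prop where
  const : constantCoeff φ = 0
  eqn : subst (sf σ π q) φ = C π * φ + φ ^ q

theorem prod_sf (π : R) {q : ℕ} (hq : 2 ≤ q) (e : σ →₀ ℕ) :
    (e.prod fun i k => sf σ π q i ^ k) =
      monomial e 1 * e.prod fun i k => (C π + (X i : MvPowerSeries σ R) ^ (q - 1)) ^ k := by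
  rw [monomial_one_eq, ← Finsupp.prod_mul]
  refine Finsupp.prod_congr fun i _ => ?_
  rw [← mul_pow]
  congr 1
  unfold sf
  have : (X i : MvPowerSeries σ R) ^ q = X i * X i ^ (q - 1) := by
    rw [← pow_succ']
    congr 1
    omega
  rw [this]
  ring

open Classical in
theorem coeff_prod_sf (π : R) {q : ℕ} (hq : 2 ≤ q) (e m : σ →₀ ℕ) (h : m.degree ≤ e.degree) :
    coeff m (e.prod fun i k => sf σ π q i ^ k) = if e = m then π ^ m.degree else 0 := by
  classical
  rw [prod_sf π hq, coeff_monomial_mul]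
  by_cases hle : e ≤ m
  · rw [if_pos hle]
    have hem : e = m := by
      have h1 : e + (m - e) = m := add_tsub_cancel_of_le hle
      have h2 : e.degree + (m - e).degree = m.degree := by
        rw [← map_add, h1]
      have h3 : (m - e).degree = 0 := by omega
      rw [Finsupp.degree_eq_zero_iff] at h3
      rw [h3, add_zero] at h1
      exact h1
    subst hem
    rw [if_pos rfl, tsub_self, coeff_zero_eq_constantCoeff_apply, Finsupp.prod, map_prod]
    rw [Finsupp.degree_apply, ← Finset.prod_pow_eq_pow_sum, one_mul]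
    refine Finset.prod_congr rfl fun i _ => ?_
    rw [map_pow, map_add, constantCoeff_C, map_pow, constantCoeff_X, zero_pow (by omega), add_zero]
  · rw [if_neg hle, if_neg]
    rintro rfl
    exact hle le_rfl

/-- (K1) -/
theorem coeff_subst_sf (π : R) {q : ℕ} (hq : 2 ≤ q) {d : ℕ} {δ : MvPowerSeries σ R}
    (hδ : ∀ m : σ →₀ ℕ, m.degree < d → coeff m δ = 0) {m : σ →₀ ℕ} (hm : m.degree ≤ d) :
    coeff m (subst (sf σ π q) δ) = π ^ m.degree * coeff m δ := by
  rw [coeff_subst (sf_hasSubst π hq), finsum_eq_single _ m]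
  · rw [coeff_prod_sf π hq m m le_rfl, if_pos rfl, smul_eq_mul, mul_comm]
  · intro e he
    rcases Nat.lt_or_ge e.degree d with h | h
    · rw [hδ e h, zero_smul]
    · rw [coeff_prod_sf π hq e m (hm.trans h), if_neg he, smul_zero]

theorem constantCoeff_subst_sf (π : R) {q : ℕ} (hq : 2 ≤ q) (δ : MvPowerSeries σ R) :
    constantCoeff (subst (sf σ π q) δ) = constantCoeff δ := by
  have h := coeff_subst_sf (σ := σ) π hq (d := 0) (δ := δ) (fun m hm => absurd hm (Nat.not_lt_zero _))
    (m := 0) (by simp)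
  simpa using h

/-- (K2) -/
theorem coeff_pow_sub_pow {q : ℕ} (hq : 2 ≤ q) {d : ℕ} {φ ψ : MvPowerSeries σ R}
    (hφ : constantCoeff φ = 0) (hψ : constantCoeff ψ = 0)
    (h : ∀ m : σ →₀ ℕ, m.degree < d → coeff m (φ - ψ) = 0) {m : σ →₀ ℕ} (hm : m.degree ≤ d) :
    coeff m (φ ^ q - ψ ^ q) = 0 := by
  have e : φ ^ q - ψ ^ q = (φ - ψ) * ∑ i ∈ Finset.range q, φ ^ i * ψ ^ (q - 1 - i) := by
    rw [mul_comm]; exact ((Commute.all φ ψ).geom_sum₂_mul q).symm
  have h0 : constantCoeff (∑ i ∈ Finset.range q, φ ^ i * ψ ^ (q - 1 - i)) = 0 := by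
    rw [map_sum]
    refine Finset.sum_eq_zero fun i hi => ?_
    rw [map_mul, map_pow, map_pow, hφ, hψ]
    rcases Nat.eq_zero_or_pos i with h1 | h1
    · subst h1
      rw [zero_pow (by omega : q - 1 - 0 ≠ 0), mul_zero]
    · rw [zero_pow (by omega), zero_mul]
  have h1 : ((d : ℕ) : ℕ∞) ≤ (φ - ψ).order := nat_le_order h
  have h2 : (1 : ℕ∞) ≤ (∑ i ∈ Finset.range q, φ ^ i * ψ ^ (q - 1 - i)).order :=
    one_le_order_iff_constCoeff_eq_zero.2 h0
  rw [e]
  apply coeff_of_lt_order
  refine lt_of_lt_of_le ?_ le_order_mul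
  refine lt_of_lt_of_le ?_ (add_le_add h1 h2)
  have : (m.degree : ℕ∞) < ((d + 1 : ℕ) : ℕ∞) := by
    exact_mod_cast Nat.lt_succ_of_le hm
  simpa using this

/-- Uniqueness in the Lubin-Tate lemma. -/
theorem LTE.unique {π : R} {q : ℕ} (hq : 2 ≤ q)
    (hreg : ∀ d : ℕ, 2 ≤ d → ∀ x : R, π ^ d * x = π * x → x = 0)
    {φ ψ : MvPowerSeries σ R} (hφ : LTE π q φ) (hψ : LTE π q ψ)
    (h1 : ∀ i, coeff (Finsupp.single i 1) φ = coeff (Finsupp.single i 1) ψ) : φ = ψ := by
  have key : ∀ d : ℕ, ∀ m : σ →₀ ℕ, m.degree < d → coeff m (φ - ψ) = 0 := by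
    intro d
    induction d with
    | zero => intro m hm; exact absurd hm (Nat.not_lt_zero _)
    | succ d ih =>
      intro m hm
      rcases Nat.lt_or_ge m.degree d with h | h
      · exact ih m h
      have hmd : m.degree = d := by omega
      rcases Nat.lt_or_ge d 2 with h2 | h2
      · rcases Nat.eq_zero_or_pos d with h3 | h3
        · rw [h3, Finsupp.degree_eq_zero_iff] at hmd
          subst hmd
          rw [coeff_zero_eq_constantCoeff_apply, map_sub, hφ.const, hψ.const, sub_zero]
        · have h4 : m.degree = 1 := by omega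
          have h5 : m ∈ Set.range (fun a : σ => Finsupp.single a 1) := by
            rw [Finsupp.range_single_one]; exact h4
          obtain ⟨i, rfl⟩ := h5
          rw [map_sub, h1 i, sub_self]
      · apply hreg d h2
        have e1 := coeff_subst_sf π hq ih (m := m) hmd.le
        have hs := sf_hasSubst (σ := σ) π hq
        have e2 : subst (sf σ π q) (φ - ψ) = C π * (φ - ψ) + (φ ^ q - ψ ^ q) := by
          rw [← coe_substAlgHom hs, map_sub, coe_substAlgHom hs, hφ.eqn, hψ.eqn]
          ring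
        rw [e2, map_add, coeff_C_mul, coeff_pow_sub_pow hq hφ.const hψ.const ih hmd.le, add_zero,
          hmd] at e1
        exact e1.symm
  rw [← sub_eq_zero]
  ext m
  rw [key (m.degree + 1) m (Nat.lt_succ_self _), map_zero]

theorem LTE.subst {π : R} {q : ℕ} (hq : 2 ≤ q) {φ : MvPowerSeries τ R} (hφ : LTE π q φ)
    {a : τ → MvPowerSeries σ R} (ha : ∀ i, LTE π q (a i)) :
    LTE π q (MvPowerSeries.subst a φ) := by
  have hs : HasSubst a := hasSubst_of_constantCoeff_zero fun i => (ha i).const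
  have hσ := sf_hasSubst (σ := σ) π hq
  have hτ := sf_hasSubst (σ := τ) π hq
  refine ⟨constantCoeff_subst_eq_zero hs (fun i => (ha i).const) hφ.const, ?_⟩
  rw [subst_comp_subst_apply hs hσ]
  have e1 : (fun i => MvPowerSeries.subst (sf σ π q) (a i)) =
      fun i => MvPowerSeries.subst a (sf τ π q i) := by
    funext i
    rw [(ha i).eqn]
    unfold sf
    rw [subst_add hs, subst_mul hs, subst_pow hs, subst_X hs, subst_C]
  rw [e1, ← subst_comp_subst_apply hτ hs, hφ.eqn, subst_add hs, subst_mul hs, subst_pow hs, subst_C]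

theorem LTE.X {π : R} {q : ℕ} (hq : 2 ≤ q) (i : σ) : LTE π q (X i : MvPowerSeries σ R) := by
  refine ⟨constantCoeff_X i, ?_⟩
  rw [subst_X (sf_hasSubst π hq)]
  rfl

theorem coeff_single_eq {ρ : Type*} (f : MvPowerSeries ρ R) (k : ρ) :
      coeff (Finsupp.single k 1) f = constantCoeff (pderiv R k f) := by
  rw [← coeff_zero_eq_constantCoeff_apply, coeff_pderiv]
  simp

/-- linear coefficients -/
theorem coeff_single_subst [Fintype τ] {a : τ → MvPowerSeries σ R}
    (ha : ∀ i, constantCoeff (a i) = 0) (φ : MvPowerSeries τ R) (j : σ) :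
    coeff (Finsupp.single j 1) (MvPowerSeries.subst a φ) =
      ∑ i, coeff (Finsupp.single i 1) φ * coeff (Finsupp.single j 1) (a i) := by
  have hs : HasSubst a := hasSubst_of_constantCoeff_zero ha
  rw [coeff_single_eq, LT93.pderiv_subst hs, map_sum]
  refine Finset.sum_congr rfl fun i _ => ?_
  rw [map_mul, LT93.constantCoeff_subst_of_zero hs ha, coeff_single_eq, coeff_single_eq]


/-! ### Existence -/

/-- the defect `E φ = f(φ) - φ(f)` -/
noncomputable def dfc (π : R) (q : ℕ) (φ : MvPowerSeries σ R) : MvPowerSeries σ R :=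
  C π * φ + φ ^ q - MvPowerSeries.subst (sf σ π q) φ

theorem subst_sf_sub (π : R) {q : ℕ} (hq : 2 ≤ q) (φ ψ : MvPowerSeries σ R) :
    MvPowerSeries.subst (sf σ π q) (φ - ψ) =
      MvPowerSeries.subst (sf σ π q) φ - MvPowerSeries.subst (sf σ π q) ψ := by
  have hs := sf_hasSubst (σ := σ) π hq
  rw [← coe_substAlgHom hs, map_sub, coe_substAlgHom hs]

/-- change of the defect -/
theorem coeff_dfc_sub (π : R) {q : ℕ} (hq : 2 ≤ q) {d : ℕ} {φ ψ : MvPowerSeries σ R}
    (hφ : constantCoeff φ = 0) (hψ : constantCoeff ψ = 0)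
    (h : ∀ m : σ →₀ ℕ, m.degree < d → coeff m (φ - ψ) = 0) {m : σ →₀ ℕ} (hm : m.degree ≤ d) :
    coeff m (dfc π q φ) - coeff m (dfc π q ψ) =
      (π - π ^ m.degree) * coeff m (φ - ψ) := by
  have e : dfc π q φ - dfc π q ψ = C π * (φ - ψ) + (φ ^ q - ψ ^ q) -
      MvPowerSeries.subst (sf σ π q) (φ - ψ) := by
    rw [subst_sf_sub π hq]
    unfold dfc
    ring
  rw [← map_sub, e, map_sub, map_add, coeff_C_mul, coeff_pow_sub_pow hq hφ hψ h hm,
    coeff_subst_sf π hq h hm]
  ring

/-- correction in degree `d` -/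
noncomputable def corr (π : R) (q : ℕ) (d : ℕ) (φ : MvPowerSeries σ R) : MvPowerSeries σ R := by
  classical
  exact fun m => if h : m.degree = d ∧ ∃ y : R, (π - π ^ d) * y = - coeff m (dfc π q φ) then
    h.2.choose else 0

theorem coeff_corr_of_ne (π : R) (q : ℕ) (d : ℕ) (φ : MvPowerSeries σ R) (m : σ →₀ ℕ)
    (h : m.degree ≠ d) : coeff m (corr π q d φ) = 0 := by
  change corr π q d φ m = 0
  unfold corr
  rw [dif_neg (fun h' => h h'.1)]

theorem coeff_corr_of_eq (π : R) (q : ℕ) (d : ℕ) (φ : MvPowerSeries σ R) (m : σ →₀ ℕ)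
    (h : m.degree = d) (hex : ∃ y : R, (π - π ^ d) * y = - coeff m (dfc π q φ)) :
    (π - π ^ d) * coeff m (corr π q d φ) = - coeff m (dfc π q φ) := by
  change (π - π ^ d) * corr π q d φ m = _
  unfold corr
  rw [dif_pos ⟨h, hex⟩]
  exact (⟨h, hex⟩ : m.degree = d ∧ ∃ y : R, (π - π ^ d) * y = - coeff m (dfc π q φ)).2.choose_spec

/-- Existence in the Lubin-Tate lemma. -/
theorem exists_LTE {π : R} {q : ℕ} (hq : 2 ≤ q)
    (hdiv : ∀ d : ℕ, 2 ≤ d → ∀ x : R, π ∣ x → (π - π ^ d) ∣ x)
    (hfrob : ∀ (φ : MvPowerSeries σ R) (m : σ →₀ ℕ), π ∣ coeff m (dfc π q φ))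
    (L : MvPowerSeries σ R) (hL : constantCoeff L = 0) :
    ∃ φ : MvPowerSeries σ R, LTE π q φ ∧ ∀ i, coeff (Finsupp.single i 1) φ =
      coeff (Finsupp.single i 1) L := by
  let u : ℕ → MvPowerSeries σ R := fun k => Nat.rec L (fun k φ => φ + corr π q (k + 2) φ) k
  have hu0 : u 0 = L := rfl
  have hus : ∀ k, u (k + 1) = u k + corr π q (k + 2) (u k) := fun _ => rfl
  have hcorr : ∀ k m, m.degree < k + 2 → coeff m (u (k + 1) - u k) = 0 := by
    intro k m hm
    rw [hus, add_sub_cancel_left]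
    exact coeff_corr_of_ne π q (k + 2) (u k) m hm.ne
  have hc : ∀ k, constantCoeff (u k) = 0 := by
    intro k
    induction k with
    | zero => rw [hu0, hL]
    | succ k ih =>
      have := hcorr k 0 (by simp)
      rw [coeff_zero_eq_constantCoeff_apply, map_sub, ih, sub_zero] at this
      exact this
  have hgood : ∀ k, ∀ m : σ →₀ ℕ, m.degree < k + 2 → coeff m (dfc π q (u k)) = 0 := by
    intro k
    induction k with
    | zero =>
      intro m hm
      have h1 := coeff_dfc_sub π hq (d := m.degree) (φ := u 0) (ψ := 0) (hc 0) (map_zero _)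
        (m := m) ?_ le_rfl
      · have h2 : dfc π q (0 : MvPowerSeries σ R) = 0 := by
          unfold dfc
          rw [mul_zero, zero_pow (by omega), zero_add, zero_sub,
            ← coe_substAlgHom (sf_hasSubst (σ := σ) π hq), map_zero, neg_zero]
        rw [h2, map_zero, sub_zero, sub_zero] at h1
        rw [h1]
        rcases Nat.eq_zero_or_pos m.degree with h3 | h3
        · rw [Finsupp.degree_eq_zero_iff] at h3
          subst h3
          rw [coeff_zero_eq_constantCoeff_apply, hc, mul_zero]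
        · have h4 : m.degree = 1 := by omega
          rw [h4, pow_one, sub_self, zero_mul]
      · intro m' hm'
        have h3 : m'.degree = 0 := by omega
        rw [Finsupp.degree_eq_zero_iff] at h3
        subst h3
        rw [sub_zero, coeff_zero_eq_constantCoeff_apply, hc]
    | succ k ih =>
      intro m hm
      have h1 := coeff_dfc_sub π hq (d := k + 2) (φ := u (k + 1)) (ψ := u k) (hc (k + 1)) (hc k)
        (m := m) (hcorr k) (by omega)
      rcases Nat.lt_or_ge m.degree (k + 2) with h | h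
      · rw [ih m h, hcorr k m h, mul_zero, sub_zero] at h1
        exact h1
      · have h2 : m.degree = k + 2 := by omega
        rw [hus, add_sub_cancel_left, h2] at h1
        have h3 : ∃ y : R, (π - π ^ (k + 2)) * y = - coeff m (dfc π q (u k)) := by
          obtain ⟨y, hy⟩ := hdiv (k + 2) (by omega) _ ((hfrob (u k) m).neg_right)
          exact ⟨y, hy.symm⟩
        rw [coeff_corr_of_eq π q (k + 2) (u k) m h2 h3] at h1
        rw [hus]
        have := h1
        rw [sub_eq_iff_eq_add, neg_add_cancel] at this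
        exact this
  have hstab : ∀ k j, ∀ m : σ →₀ ℕ, m.degree < k + 2 → coeff m (u (k + j)) = coeff m (u k) := by
    intro k j
    induction j with
    | zero => intro m _; rfl
    | succ j ih =>
      intro m hm
      have := hcorr (k + j) m (by omega)
      rw [map_sub, sub_eq_zero] at this
      rw [← ih m hm, ← this]
      rfl
  let φ : MvPowerSeries σ R := fun m => coeff m (u m.degree)
  have hφ : ∀ k, ∀ m : σ →₀ ℕ, m.degree ≤ k → coeff m φ = coeff m (u k) := by
    intro k m hm
    obtain ⟨j, rfl⟩ := Nat.exists_eq_add_of_le hm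
    exact (hstab m.degree j m (by omega)).symm
  have hφ0 : constantCoeff φ = 0 := by
    have := hφ 0 0 (by simp)
    rw [coeff_zero_eq_constantCoeff_apply, coeff_zero_eq_constantCoeff_apply, hc] at this
    exact this
  refine ⟨φ, ⟨hφ0, ?_⟩, ?_⟩
  · have h0 : dfc π q φ = 0 := by
      ext m
      have h1 := coeff_dfc_sub π hq (d := m.degree) (φ := φ) (ψ := u m.degree) hφ0 (hc _)
        (m := m) (fun m' hm' => by rw [map_sub, hφ m.degree m' hm'.le, sub_self]) le_rfl
      rw [hgood _ m (by omega), sub_zero, map_sub, hφ _ m le_rfl, sub_self, mul_zero] at h1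
      rw [h1, map_zero]
    unfold dfc at h0
    rw [sub_eq_zero] at h0
    exact h0.symm
  · intro i
    have h1 := hφ 1 (Finsupp.single i 1) (by simp)
    have h2 := hstab 0 1 (Finsupp.single i 1) (by simp)
    rw [h1]
    rw [hu0, zero_add] at h2
    exact h2

end LTL

end Crest.Agent.LT
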