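import Mathlib
import Crest.Prelude.Def_LubinTate
import Crest.Agent.LT.FG
import Crest.Agent.LT.LTLemma

/-! # A5a: the Lubin-Tate group of `f = pX + X^q` over `Z_p` and its reduction (row 227).
Paper proof: ideas row 227, A5(i). -/

set_option autoImplicit false
set_option linter.unusedSectionVars false

namespace Crest.Agent.LT

open Crest.LubinTate MvPowerSeries

namespace LTL

section Padic

variable (p : ℕ) [hp : Fact p.Prime]

theorem two_le_pow {n : ℕ} (hn : 1 ≤ n) : 2 ≤ p ^ n :=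
  hp.1.two_le.trans (Nat.le_self_pow (by omega) p)

theorem padic_div (d : ℕ) (hd : 2 ≤ d) (x : ℤ_[p]) (hx : (p : ℤ_[p]) ∣ x) :
    ((p : ℤ_[p]) - (p : ℤ_[p]) ^ d) ∣ x := by
  have hu : IsUnit (1 - (p : ℤ_[p]) ^ (d - 1)) := by
    by_contra hcon
    have h1 : (1 - (p : ℤ_[p]) ^ (d - 1)) ∈ IsLocalRing.maximalIdeal ℤ_[p] :=
      (IsLocalRing.mem_maximalIdeal _).2 hcon
    have h2 : (p : ℤ_[p]) ^ (d - 1) ∈ IsLocalRing.maximalIdeal ℤ_[p] := by
      rw [PadicInt.maximalIdeal_eq_span_p]
      exact Ideal.pow_mem_of_mem _ (Ideal.mem_span_singleton_self _) _ (by omega)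
    have h3 := Ideal.add_mem _ h1 h2
    rw [sub_add_cancel] at h3
    exact (Ideal.ne_top_iff_one _).1 (IsLocalRing.maximalIdeal.isMaximal ℤ_[p]).ne_top h3
  obtain ⟨y, rfl⟩ := hx
  have e : (p : ℤ_[p]) - (p : ℤ_[p]) ^ d = (p : ℤ_[p]) * (1 - (p : ℤ_[p]) ^ (d - 1)) := by
    have : (p : ℤ_[p]) ^ d = (p : ℤ_[p]) * (p : ℤ_[p]) ^ (d - 1) := by
      rw [← pow_succ']; congr 1; omega
    rw [this]; ring
  rw [e]
  exact mul_dvd_mul_left _ (hu.dvd)

theorem regular_of_hom {R K : Type*} [CommRing R] [IsDomain R] [Field K] (π : R) (hπ : π ≠ 0)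
    (f : R →+* K) (hf : f π = 0) (d : ℕ) (hd : 2 ≤ d) (x : R) (h : π ^ d * x = π * x) : x = 0 := by
  have h1 : π * ((π ^ (d - 1) - 1) * x) = 0 := by
    have : π ^ d = π * π ^ (d - 1) := by rw [← pow_succ']; congr 1; omega
    rw [this] at h
    linear_combination h
  rcases mul_eq_zero.1 h1 with h2 | h2
  · exact absurd h2 hπ
  rcases mul_eq_zero.1 h2 with h3 | h3
  · exfalso
    have h4 := congrArg f h3
    rw [map_sub, map_pow, hf, map_one, map_zero, zero_pow (by omega), zero_sub, neg_eq_zero] at h4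
    exact one_ne_zero h4
  · exact h3

theorem padic_regular (d : ℕ) (hd : 2 ≤ d) (x : ℤ_[p])
    (h : (p : ℤ_[p]) ^ d * x = (p : ℤ_[p]) * x) : x = 0 :=
  regular_of_hom (p : ℤ_[p]) (by exact_mod_cast hp.1.ne_zero) (PadicInt.toZMod (p := p))
    (by simp) d hd x h

theorem padic_frob {σ : Type*} [Finite σ] {n : ℕ} (hn : 1 ≤ n) (φ : MvPowerSeries σ ℤ_[p])
    (m : σ →₀ ℕ) : (p : ℤ_[p]) ∣ coeff m (dfc (p : ℤ_[p]) (p ^ n) φ) := by
  have hq := two_le_pow p hn
  rw [← Ideal.mem_span_singleton, ← PadicInt.maximalIdeal_eq_span_p, ← PadicInt.ker_toZMod,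
    RingHom.mem_ker, ← coeff_map]
  have h : MvPowerSeries.map (PadicInt.toZMod (p := p)) (dfc (p : ℤ_[p]) (p ^ n) φ) = 0 := by
    unfold dfc
    rw [map_sub, map_add, map_mul, map_pow, map_C, map_natCast, ZMod.natCast_self,
      map_zero, zero_mul, zero_add, map_subst (sf_hasSubst _ hq), sub_eq_zero]
    have hid : iterateFrobenius (ZMod p) p n = RingHom.id _ := by
      rw [iterateFrobenius_eq_pow, ZMod.frobenius_zmod]
      exact one_pow n
    have h1 := map_iterateFrobenius_expand (R := ZMod p) p hp.1.ne_zero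
      (MvPowerSeries.map (PadicInt.toZMod (p := p)) φ) n
    rw [← h1, hid, MvPowerSeries.map_id, expand, substAlgHom_apply]
    simp only [RingHom.id_apply]
    congr 1
    funext i
    unfold sf
    rw [map_add, map_mul, map_C, map_natCast, ZMod.natCast_self, map_zero, zero_mul, zero_add,
      map_pow, map_X]
  rw [h, map_zero]

end Padic

end LTL

open LTL

section Build

variable {R : Type*} [CommRing R]

/-- build a formal group law from the Lubin-Tate lemma -/
theorem exists_of_LTE {π : R} {q : ℕ} (hq : 2 ≤ q)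
    (hreg : ∀ d : ℕ, 2 ≤ d → ∀ x : R, π ^ d * x = π * x → x = 0)
    {φ : MvPowerSeries (Fin 2) R} (hφ : LTE π q φ) (hlin : ∀ i, coeff (Finsupp.single i 1) φ = 1) :
    ∃ F : FormalGroup R, F.toPowerSeries = φ ∧ F.IsComm := by
  have hpair : ∀ {σ : Type} [Finite σ] (a b : MvPowerSeries σ R), LTE π q a → LTE π q b →
      LTE π q (MvPowerSeries.subst ![a, b] φ) ∧ ∀ j, coeff (Finsupp.single j 1)
        (MvPowerSeries.subst ![a, b] φ) = coeff (Finsupp.single j 1) a +
          coeff (Finsupp.single j 1) b := by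
    intro σ _ a b ha hb
    have hab : ∀ i, LTE π q (![a, b] i) := by
      intro i
      fin_cases i
      · exact ha
      · exact hb
    refine ⟨hφ.subst hq hab, fun j => ?_⟩
    rw [coeff_single_subst (fun i => (hab i).const), Fin.sum_univ_two, hlin, hlin, one_mul, one_mul]
    rfl
  let F : FormalGroup R :=
    { toPowerSeries := φ
      zero_constantCoeff := hφ.const
      lin_coeff_X := hlin 0
      lin_coeff_Y := hlin 1
      assoc := by
        have h0 := LTE.X (σ := Fin 3) (π := π) hq 0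
        have h1 := LTE.X (σ := Fin 3) (π := π) hq 1
        have h2 := LTE.X (σ := Fin 3) (π := π) hq 2
        obtain ⟨a1, l1⟩ := hpair _ _ h0 h1
        obtain ⟨a2, l2⟩ := hpair _ _ a1 h2
        obtain ⟨a3, l3⟩ := hpair _ _ h1 h2
        obtain ⟨a4, l4⟩ := hpair _ _ h0 a3
        refine a2.unique hq hreg a4 fun i => ?_
        rw [l2, l1, l4, l3, add_assoc] }
  refine ⟨F, rfl, ⟨?_⟩⟩
  have h0 := LTE.X (σ := Fin 2) (π := π) hq 0
  have h1 := LTE.X (σ := Fin 2) (π := π) hq 1
  obtain ⟨a1, l1⟩ := hpair _ _ h1 h0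
  refine hφ.unique hq hreg a1 fun i => ?_
  rw [l1, hlin]
  fin_cases i
  · simp [coeff_index_single_X]
  · simp [coeff_index_single_X]

/-- the `m`-series commutes with `f` -/
theorem LTE_mulSeries {π : R} {q : ℕ} (hq : 2 ≤ q) (F : FormalGroup R)
    (hF : LTE π q F.toPowerSeries) (m : ℕ) : LTE π q (mulSeries F m : MvPowerSeries Unit R) := by
  induction m with
  | zero =>
    refine ⟨by simp [mulSeries], ?_⟩
    change MvPowerSeries.subst _ (0 : MvPowerSeries Unit R) = C π * 0 + 0 ^ q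
    rw [mul_zero, zero_pow (by omega), zero_add, ← coe_substAlgHom (sf_hasSubst (σ := Unit) π hq),
      map_zero]
  | succ m ih =>
    refine hF.subst hq fun i => ?_
    fin_cases i
    · exact ih
    · exact LTE.X hq ()

theorem LTE_self {π : R} {q : ℕ} (hq : 2 ≤ q) :
    LTE π q (PowerSeries.C π * PowerSeries.X + PowerSeries.X ^ q : PowerSeries R) := by
  have hs := sf_hasSubst (σ := Unit) π hq
  refine ⟨?_, ?_⟩
  · change PowerSeries.constantCoeff (PowerSeries.C π * PowerSeries.X + PowerSeries.X ^ q) = 0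
    rw [map_add, map_mul, map_pow, PowerSeries.constantCoeff_X, mul_zero, zero_pow (by omega),
      zero_add]
  · change MvPowerSeries.subst _ (C π * X () + X () ^ q : MvPowerSeries Unit R) =
      C π * (C π * X () + X () ^ q) + (C π * X () + X () ^ q) ^ q
    rw [subst_add hs, subst_mul hs, subst_pow hs, subst_X hs, subst_C]
    rfl

theorem mulSeries_of_LTE {π : R} {q : ℕ} (hq : 2 ≤ q)
    (hreg : ∀ d : ℕ, 2 ≤ d → ∀ x : R, π ^ d * x = π * x → x = 0) (F : FormalGroup R)
    (hF : LTE π q F.toPowerSeries) {m : ℕ} (hm : (m : R) = π) :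
    mulSeries F m = PowerSeries.C π * PowerSeries.X + PowerSeries.X ^ q := by
  refine (LTE_mulSeries hq F hF m).unique hq hreg (LTE_self hq) fun i => ?_
  change PowerSeries.coeff 1 (mulSeries F m) =
    PowerSeries.coeff 1 (PowerSeries.C π * PowerSeries.X + PowerSeries.X ^ q)
  rw [coeff_one_mulSeries, hm, map_add, PowerSeries.coeff_C_mul, PowerSeries.coeff_one_X, mul_one,
    PowerSeries.coeff_X_pow, if_neg (by omega), add_zero]

end Build

/-- There is a commutative FGL over `Z_p` with `f = pX + X^q` as `p`-series. -/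
theorem exists_LT_Zp' (p : ℕ) [Fact p.Prime] (n : ℕ) (hn : 1 ≤ n) :
    ∃ F : FormalGroup ℤ_[p], F.IsComm ∧ LTE (p : ℤ_[p]) (p ^ n) F.toPowerSeries ∧
      mulSeries F p = PowerSeries.C (p : ℤ_[p]) * PowerSeries.X + PowerSeries.X ^ (p ^ n) := by
  have hq := two_le_pow p hn
  obtain ⟨φ, hφ, hl⟩ := exists_LTE (σ := Fin 2) hq (padic_div p) (padic_frob p hn)
    (X 0 + X 1) (by rw [map_add, constantCoeff_X, constantCoeff_X, add_zero])
  obtain ⟨F, rfl, hF⟩ := exists_of_LTE hq (padic_regular p) hφ (by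
    intro i
    rw [hl]
    fin_cases i
    · simp [coeff_index_single_X]
    · simp [coeff_index_single_X])
  exact ⟨F, hF, hφ, mulSeries_of_LTE hq (padic_regular p) F hφ rfl⟩

/-- There is a commutative FGL over `Z_p` with `f = pX + X^q` as `p`-series. -/
theorem exists_LT_Zp (p : ℕ) [Fact p.Prime] (n : ℕ) (hn : 1 ≤ n) :
    ∃ F : FormalGroup ℤ_[p], F.IsComm ∧
      mulSeries F p = PowerSeries.C (p : ℤ_[p]) * PowerSeries.X + PowerSeries.X ^ (p ^ n) := by
  obtain ⟨F, h1, _, h2⟩ := exists_LT_Zp' p n hn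
  exact ⟨F, h1, h2⟩

theorem LTL.LTE.map {R S : Type*} [CommRing R] [CommRing S] {σ : Type*} [Finite σ] {π : R} {q : ℕ}
    (hq : 2 ≤ q) {φ : MvPowerSeries σ R} (hφ : LTE π q φ) (f : R →+* S) :
    LTE (f π) q (MvPowerSeries.map f φ) := by
  refine ⟨by rw [constantCoeff_map, hφ.const, map_zero], ?_⟩
  have h := congrArg (MvPowerSeries.map f) hφ.eqn
  rw [map_subst (sf_hasSubst _ hq), map_add, map_mul, map_pow, map_C] at h
  rw [← h]
  congr 1
  funext i
  unfold sf
  rw [map_add, map_mul, map_C, map_pow, map_X]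

theorem LTL.LTE.C_mul {R : Type*} [CommRing R] {σ : Type*} [Finite σ] {π : R} {q : ℕ}
    (hq : 2 ≤ q) {φ : MvPowerSeries σ R} (hφ : LTE π q φ) {w : R} (hw : w ^ q = w) :
    LTE π q (C w * φ) := by
  refine ⟨by rw [map_mul, hφ.const, mul_zero], ?_⟩
  rw [subst_mul (sf_hasSubst _ hq), subst_C, hφ.eqn, mul_pow, ← map_pow, hw]
  ring

theorem isFGHom_C_mul_X {R : Type*} [CommRing R] {π : R} {q : ℕ} (hq : 2 ≤ q)
    (hreg : ∀ d : ℕ, 2 ≤ d → ∀ x : R, π ^ d * x = π * x → x = 0) (F : FormalGroup R)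
    (hF : LTE π q F.toPowerSeries) {w : R} (hw : w ^ q = w) :
    IsFGHom F F (PowerSeries.C w * PowerSeries.X) := by
  have key : ∀ a : MvPowerSeries (Fin 2) R, PowerSeries.HasSubst a →
      LT93.ev (PowerSeries.C w * PowerSeries.X) a = C w * a := by
    intro a ha
    unfold LT93.ev
    rw [PowerSeries.subst_mul ha, PowerSeries.subst_X ha]
    congr 1
    exact PowerSeries.subst_C w
  have h0 := LT93.hX (R := R) (0 : Fin 2)
  have h1 := LT93.hX (R := R) (1 : Fin 2)
  refine LT93.hom_of_apply (by rw [map_mul, PowerSeries.constantCoeff_X, mul_zero]) ?_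
  rw [key _ (LT93.hasSubst_op F h0 h1), key _ h0, key _ h1, LT93.op_X]
  have hab : ∀ i, LTE π q (![C w * X 0, C w * X 1] i : MvPowerSeries (Fin 2) R) := by
    intro i
    fin_cases i
    · exact (LTE.X hq 0).C_mul hq hw
    · exact (LTE.X hq 1).C_mul hq hw
  refine (hF.C_mul hq hw).unique hq hreg (hF.subst hq hab) fun j => ?_
  unfold LT93.op
  rw [coeff_single_subst (fun i => (hab i).const), Fin.sum_univ_two, F.lin_coeff_X, F.lin_coeff_Y,
    one_mul, one_mul, coeff_C_mul]
  change _ = coeff (Finsupp.single j 1) (C w * X 0) + coeff (Finsupp.single j 1) (C w * X 1)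
  rw [coeff_C_mul, coeff_C_mul]
  fin_cases j
  · simp [coeff_index_single_X, F.lin_coeff_X]
  · simp [coeff_index_single_X, F.lin_coeff_Y]

/-- the model: a commutative FGL over `k = F_q` with `[p] = X^q` and endomorphisms `ζX`, `X^p`. -/
theorem exists_model (p : ℕ) [Fact p.Prime] (n : ℕ) (hn : 1 ≤ n) :
    ∃ Γ₀ : FormalGroup (GaloisField p n), Γ₀.IsComm ∧
      mulSeries Γ₀ p = PowerSeries.X ^ (p ^ n) ∧
      (∀ ζ : GaloisField p n, IsFGHom Γ₀ Γ₀ (PowerSeries.C ζ * PowerSeries.X)) ∧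
      IsFGHom Γ₀ Γ₀ (PowerSeries.X ^ p) := by
  have hq := two_le_pow p hn
  obtain ⟨F, hc, hF, hm⟩ := exists_LT_Zp' p n hn
  let e : ℤ_[p] →+* WittVector p (ZMod p) := (WittVector.equiv p).symm.toRingHom
  let h : ℤ_[p] →+* WittVector p (GaloisField p n) :=
    (WittVector.map (algebraMap (ZMod p) (GaloisField p n))).comp e
  let c : WittVector p (GaloisField p n) →+* GaloisField p n := WittVector.constantCoeff
  let g : ℤ_[p] →+* GaloisField p n := c.comp h
  have hg : g = (algebraMap (ZMod p) (GaloisField p n)).comp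
      ((WittVector.constantCoeff : WittVector p (ZMod p) →+* ZMod p).comp e) := by
    ext x
    simp [g, c, h, WittVector.constantCoeff_apply]
  have hgp : g (p : ℤ_[p]) = 0 := by
    rw [map_natCast, CharP.cast_eq_zero]
  have hF' : LTE (h (p : ℤ_[p])) (p ^ n) (F.map h).toPowerSeries := hF.map hq h
  have hreg : ∀ d : ℕ, 2 ≤ d → ∀ x : WittVector p (GaloisField p n),
      (h (p : ℤ_[p])) ^ d * x = (h (p : ℤ_[p])) * x → x = 0 := by
    refine regular_of_hom _ ?_ c hgp
    rw [map_natCast]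
    intro h0
    have h1 := congrArg (fun z : WittVector p (GaloisField p n) => z.coeff 1) h0
    simp [WittVector.coeff_p_one] at h1
  have hmapmap : (F.map h).map c = F.map g := map_map F h c
  refine ⟨F.map g, map_isComm F g, ?_, ?_, ?_⟩
  · rw [mulSeries_map, hm, map_add, map_mul, map_pow, PowerSeries.map_C, PowerSeries.map_X, hgp,
      map_zero, zero_mul, zero_add]
  · intro ζ
    have hw : (WittVector.teichmuller p ζ) ^ (p ^ n) = WittVector.teichmuller p ζ := by
      rw [← map_pow]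
      congr 1
      have _i : Fintype (GaloisField p n) := Fintype.ofFinite _
      have h1 := FiniteField.pow_card ζ
      rwa [Fintype.card_eq_nat_card, GaloisField.card p n (by omega)] at h1
    have h1 := IsFGHom.map (isFGHom_C_mul_X hq hreg (F.map h) hF' hw) c
    rw [hmapmap, map_mul, PowerSeries.map_C, PowerSeries.map_X] at h1
    have h2 : c (WittVector.teichmuller p ζ) = ζ := WittVector.teichmuller_coeff_zero p ζ
    rwa [h2] at h1
  · have h1 := isFGHom_frobenius p (F.map g) 1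
    rw [pow_one, map_map] at h1
    have h2 : (iterateFrobenius (GaloisField p n) p 1).comp g = g := by
      rw [hg, iterateFrobenius_one]
      ext x
      simp only [RingHom.comp_apply, frobenius_def]
      rw [← map_pow, ZMod.pow_card]
    rwa [h2] at h1

end Crest.Agent.LT
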