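import Mathlib
import Crest.Prelude.Def_LubinTate
import Crest.Agent.LT.FG

/-! # Degree filtration calculus for power series (row 227, chunk A5b)

`Jd N` is the ideal of power series with all coefficients of total degree `< N` zero. -/

set_option autoImplicit false
set_option linter.unusedSectionVars false

namespace Crest.Agent.LT

open Crest.LubinTate MvPowerSeries

namespace Lz

variable {σ τ : Type*} {R : Type*} [CommRing R]

/-- series with all coefficients of degree `< N` zero -/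
def Jd (N : ℕ) : Ideal (MvPowerSeries σ R) where
  carrier := {f | ∀ d : σ →₀ ℕ, d.degree < N → coeff d f = 0}
  add_mem' := by
    intro f g hf hg d hd
    rw [map_add, hf d hd, hg d hd, add_zero]
  zero_mem' := by intro d _; simp
  smul_mem' := by
    classical
    intro f g hg d hd
    rw [smul_eq_mul, coeff_mul]
    refine Finset.sum_eq_zero fun x hx => ?_
    have h1 : x.1 + x.2 = d := Finset.HasAntidiagonal.mem_antidiagonal.mp hx
    have h2 : x.1.degree + x.2.degree = d.degree := by rw [← h1, map_add]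
    rw [hg x.2 (by omega), mul_zero]

theorem mem_Jd {N : ℕ} {f : MvPowerSeries σ R} :
    f ∈ (Jd N : Ideal (MvPowerSeries σ R)) ↔ ∀ d : σ →₀ ℕ, d.degree < N → coeff d f = 0 := Iff.rfl

theorem Jd_zero (f : MvPowerSeries σ R) : f ∈ (Jd 0 : Ideal (MvPowerSeries σ R)) :=
  fun _ hd => absurd hd (Nat.not_lt_zero _)

theorem Jd_mono {a b : ℕ} (h : a ≤ b) {f : MvPowerSeries σ R}
    (hf : f ∈ (Jd b : Ideal (MvPowerSeries σ R))) : f ∈ (Jd a : Ideal (MvPowerSeries σ R)) :=
  fun d hd => hf d (lt_of_lt_of_le hd h)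

theorem Jd_mul {a b : ℕ} {f g : MvPowerSeries σ R}
    (hf : f ∈ (Jd a : Ideal (MvPowerSeries σ R))) (hg : g ∈ (Jd b : Ideal (MvPowerSeries σ R))) :
    f * g ∈ (Jd (a + b) : Ideal (MvPowerSeries σ R)) := by
  classical
  intro d hd
  rw [coeff_mul]
  refine Finset.sum_eq_zero fun x hx => ?_
  have h1 : x.1 + x.2 = d := Finset.HasAntidiagonal.mem_antidiagonal.mp hx
  have h2 : x.1.degree + x.2.degree = d.degree := by rw [← h1, map_add]
  rcases Nat.lt_or_ge x.1.degree a with h3 | h3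
  · rw [hf x.1 h3, zero_mul]
  · rw [hg x.2 (by omega), mul_zero]

theorem Jd_pow {a : ℕ} {f : MvPowerSeries σ R}
    (hf : f ∈ (Jd a : Ideal (MvPowerSeries σ R))) (n : ℕ) :
    f ^ n ∈ (Jd (n * a) : Ideal (MvPowerSeries σ R)) := by
  induction n with
  | zero => rw [zero_mul]; exact Jd_zero _
  | succ n ih => rw [pow_succ, Nat.succ_mul]; exact Jd_mul ih hf

theorem Jd_one_iff {f : MvPowerSeries σ R} :
    f ∈ (Jd 1 : Ideal (MvPowerSeries σ R)) ↔ constantCoeff f = 0 := by
  constructor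
  · intro h
    rw [← coeff_zero_eq_constantCoeff_apply]
    exact h 0 (by simp)
  · intro h d hd
    have : d = 0 := by
      rw [Nat.lt_one_iff, Finsupp.degree_eq_zero_iff] at hd; exact hd
    subst this
    rw [coeff_zero_eq_constantCoeff_apply, h]

theorem eq_of_forall {f g : MvPowerSeries σ R}
    (h : ∀ N, f - g ∈ (Jd N : Ideal (MvPowerSeries σ R))) : f = g := by
  ext d
  have := h (d.degree + 1) d (Nat.lt_succ_self _)
  rwa [map_sub, sub_eq_zero] at this

theorem X_mem (i : σ) : (X i : MvPowerSeries σ R) ∈ (Jd 1 : Ideal (MvPowerSeries σ R)) :=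
  Jd_one_iff.mpr (constantCoeff_X i)

/-- auxiliary: `x, x'` of order `≥ m`, congruent to order `N + m - 1` -/
structure Cg (N m : ℕ) (x x' : MvPowerSeries σ R) : Prop where
  l : x ∈ (Jd m : Ideal (MvPowerSeries σ R))
  r : x' ∈ (Jd m : Ideal (MvPowerSeries σ R))
  d : x - x' ∈ (Jd (N + m - 1) : Ideal (MvPowerSeries σ R))

theorem Cg.one {N : ℕ} : Cg (σ := σ) (R := R) N 0 1 1 :=
  ⟨Jd_zero _, Jd_zero _, by rw [sub_self]; exact zero_mem _⟩

theorem Cg.mul {N m m' : ℕ} (hN : 1 ≤ N) {x x' y y' : MvPowerSeries σ R} (h : Cg N m x x')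
    (h' : Cg N m' y y') : Cg N (m + m') (x * y) (x' * y') := by
  refine ⟨Jd_mul h.l h'.l, Jd_mul h.r h'.r, ?_⟩
  have e : x * y - x' * y' = x * (y - y') + (x - x') * y' := by ring
  rw [e]
  refine add_mem (Jd_mono (by omega) (Jd_mul h.l h'.d)) (Jd_mono (by omega) (Jd_mul h.d h'.r))

theorem Cg.pow {N : ℕ} (hN : 1 ≤ N) {x x' : MvPowerSeries σ R} (h : Cg N 1 x x') (k : ℕ) :
    Cg N k (x ^ k) (x' ^ k) := by
  induction k with
  | zero => rw [pow_zero, pow_zero]; exact Cg.one
  | succ k ih => rw [pow_succ, pow_succ]; exact Cg.mul hN ih h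

theorem Cg.prod {N : ℕ} (hN : 1 ≤ N) {a a' : τ → MvPowerSeries σ R}
    (h : ∀ i, Cg N 1 (a i) (a' i)) (d : τ →₀ ℕ) :
    Cg N d.degree (d.prod fun s e => a s ^ e) (d.prod fun s e => a' s ^ e) := by
  classical
  have key : ∀ s : Finset τ, Cg N (∑ i ∈ s, d i) (∏ i ∈ s, a i ^ d i) (∏ i ∈ s, a' i ^ d i) := by
    intro s
    induction s using Finset.induction_on with
    | empty => exact Cg.one
    | insert i s hi ih =>
      rw [Finset.prod_insert hi, Finset.prod_insert hi, Finset.sum_insert hi]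
      exact Cg.mul hN ((h i).pow hN (d i)) ih
  exact key d.support

theorem prod_mem {a : τ → MvPowerSeries σ R}
    (h : ∀ i, a i ∈ (Jd 1 : Ideal (MvPowerSeries σ R))) (d : τ →₀ ℕ) :
    (d.prod fun s e => a s ^ e) ∈ (Jd d.degree : Ideal (MvPowerSeries σ R)) :=
  (Cg.prod (N := 1) le_rfl (a := a) (a' := a) (fun i => ⟨h i, h i, by
    rw [sub_self]; exact zero_mem _⟩) d).l

section Subst

variable [Finite τ]

theorem hasSubst_of_mem {a : τ → MvPowerSeries σ R}
    (h : ∀ i, a i ∈ (Jd 1 : Ideal (MvPowerSeries σ R))) : HasSubst a :=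
  hasSubst_of_constantCoeff_zero fun i => Jd_one_iff.mp (h i)

/-- order of a substitution -/
theorem subst_mem {m : ℕ} {f : MvPowerSeries τ R} (hf : f ∈ (Jd m : Ideal (MvPowerSeries τ R)))
    {a : τ → MvPowerSeries σ R} (h : ∀ i, a i ∈ (Jd 1 : Ideal (MvPowerSeries σ R))) :
    subst a f ∈ (Jd m : Ideal (MvPowerSeries σ R)) := by
  intro e he
  rw [coeff_subst (hasSubst_of_mem h), finsum_eq_zero_of_forall_eq_zero]
  intro d
  rcases Nat.lt_or_ge d.degree m with h1 | h1
  · rw [hf d h1, zero_smul]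
  · rw [prod_mem h d e (by omega), smul_zero]

/-- substitution of congruent families into a series of order `≥ m` -/
theorem subst_sub_subst_mem {m N : ℕ} (hN : 1 ≤ N) {f : MvPowerSeries τ R}
    (hf : f ∈ (Jd m : Ideal (MvPowerSeries τ R)))
    {a a' : τ → MvPowerSeries σ R} (h : ∀ i, a i ∈ (Jd 1 : Ideal (MvPowerSeries σ R)))
    (h' : ∀ i, a' i ∈ (Jd 1 : Ideal (MvPowerSeries σ R)))
    (haa : ∀ i, a i - a' i ∈ (Jd N : Ideal (MvPowerSeries σ R))) :
    subst a f - subst a' f ∈ (Jd (N + m - 1) : Ideal (MvPowerSeries σ R)) := by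
  intro e he
  rw [map_sub, coeff_subst (hasSubst_of_mem h), coeff_subst (hasSubst_of_mem h'), sub_eq_zero]
  refine finsum_congr fun d => ?_
  rcases Nat.lt_or_ge d.degree m with h1 | h1
  · rw [hf d h1, zero_smul, zero_smul]
  · congr 1
    have h2 := (Cg.prod hN (fun i => ⟨h i, h' i, by simpa using haa i⟩) d).d e (by omega)
    rwa [map_sub, sub_eq_zero] at h2

end Subst

theorem subst_sub {a : τ → MvPowerSeries σ R} (ha : HasSubst a) (f g : MvPowerSeries τ R) :
    subst a (f - g) = subst a f - subst a g := by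
  rw [← coe_substAlgHom ha, _root_.map_sub]

/-- `F = X + Y + …` -/
theorem FG_sub_mem (F : FormalGroup R) :
    F.toPowerSeries - (X 0 + X 1) ∈ (Jd 2 : Ideal (MvPowerSeries (Fin 2) R)) := by
  classical
  intro d hd
  rw [map_sub, map_add, coeff_X, coeff_X]
  rcases Nat.lt_or_ge d.degree 1 with h1 | h1
  · have h2 : d = 0 := by rwa [Nat.lt_one_iff, Finsupp.degree_eq_zero_iff] at h1
    subst h2
    have e : ∀ i : Fin 2, ¬ ((0 : Fin 2 →₀ ℕ) = Finsupp.single i 1) := fun i h => by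
      have := DFunLike.congr_fun h i
      simp at this
    rw [if_neg (e 0), if_neg (e 1), coeff_zero_eq_constantCoeff_apply, F.zero_constantCoeff]
    simp
  · have h2 : d.degree = 1 := by omega
    have h3 : d 0 + d 1 = 1 := by
      rw [Finsupp.degree_eq_sum, Fin.sum_univ_two] at h2; exact h2
    rcases Nat.eq_zero_or_pos (d 0) with h4 | h4
    · have h5 : d = Finsupp.single 1 1 := by
        ext i; fin_cases i
        · simpa using h4
        · simp; omega
      rw [h5, F.lin_coeff_Y]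
      simp [Finsupp.single_left_inj]
    · have h5 : d = Finsupp.single 0 1 := by
        ext i; fin_cases i
        · simp; omega
        · simp; omega
      rw [h5, F.lin_coeff_X]
      simp [Finsupp.single_left_inj]

theorem pair_mem {a b : MvPowerSeries σ R} {N : ℕ} (ha : a ∈ (Jd N : Ideal (MvPowerSeries σ R)))
    (hb : b ∈ (Jd N : Ideal (MvPowerSeries σ R))) :
    ∀ i, (![a, b] : Fin 2 → MvPowerSeries σ R) i ∈ (Jd N : Ideal (MvPowerSeries σ R)) := by
  intro i; fin_cases i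
  · exact ha
  · exact hb

theorem pair_sub_mem {a b a' b' : MvPowerSeries σ R} {N : ℕ}
    (ha : a - a' ∈ (Jd N : Ideal (MvPowerSeries σ R)))
    (hb : b - b' ∈ (Jd N : Ideal (MvPowerSeries σ R))) :
    ∀ i, (![a, b] : Fin 2 → MvPowerSeries σ R) i - (![a', b'] : Fin 2 → MvPowerSeries σ R) i
      ∈ (Jd N : Ideal (MvPowerSeries σ R)) := by
  intro i; fin_cases i
  · exact ha
  · exact hb

theorem FG_mem (F : FormalGroup R) : F.toPowerSeries ∈ (Jd 1 : Ideal (MvPowerSeries (Fin 2) R)) :=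
  Jd_one_iff.mpr F.zero_constantCoeff

theorem op_mem (F : FormalGroup R) {a b : MvPowerSeries σ R}
    (ha : a ∈ (Jd 1 : Ideal (MvPowerSeries σ R))) (hb : b ∈ (Jd 1 : Ideal (MvPowerSeries σ R))) :
    LT93.op F a b ∈ (Jd 1 : Ideal (MvPowerSeries σ R)) :=
  subst_mem (FG_mem F) (pair_mem ha hb)

/-- first order expansion of the group law -/
theorem op_sub_op (F : FormalGroup R) {a b a' b' : MvPowerSeries σ R} {N : ℕ} (hN : 1 ≤ N)
    (ha : a ∈ (Jd 1 : Ideal (MvPowerSeries σ R))) (hb : b ∈ (Jd 1 : Ideal (MvPowerSeries σ R)))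
    (ha' : a' ∈ (Jd 1 : Ideal (MvPowerSeries σ R))) (hb' : b' ∈ (Jd 1 : Ideal (MvPowerSeries σ R)))
    (haa : a - a' ∈ (Jd N : Ideal (MvPowerSeries σ R)))
    (hbb : b - b' ∈ (Jd N : Ideal (MvPowerSeries σ R))) :
    LT93.op F a b - LT93.op F a' b' - ((a - a') + (b - b')) ∈
      (Jd (N + 1) : Ideal (MvPowerSeries σ R)) := by
  have h := subst_sub_subst_mem hN (FG_sub_mem F) (pair_mem ha hb) (pair_mem ha' hb')
    (pair_sub_mem haa hbb)
  have hs := hasSubst_of_mem (pair_mem ha hb)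
  have hs' := hasSubst_of_mem (pair_mem ha' hb')
  rw [subst_sub hs, subst_sub hs', subst_add hs, subst_add hs', subst_X hs, subst_X hs,
    subst_X hs', subst_X hs'] at h
  have e : N + 2 - 1 = N + 1 := by omega
  rw [e] at h
  simp only [Matrix.cons_val_zero, Matrix.cons_val_one] at h
  convert h using 1
  unfold LT93.op
  ring

theorem op_sub_add (F : FormalGroup R) {a b : MvPowerSeries σ R}
    (ha : a ∈ (Jd 1 : Ideal (MvPowerSeries σ R))) (hb : b ∈ (Jd 1 : Ideal (MvPowerSeries σ R))) :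
    LT93.op F a b - (a + b) ∈ (Jd 2 : Ideal (MvPowerSeries σ R)) := by
  have h := subst_mem (FG_sub_mem F) (pair_mem ha hb)
  have hs := hasSubst_of_mem (pair_mem ha hb)
  rw [subst_sub hs, subst_add hs, subst_X hs, subst_X hs] at h
  exact h

/-! one variable series -/

theorem ev_mem {m : ℕ} {φ : PowerSeries R} (hφ : φ ∈ (Jd m : Ideal (MvPowerSeries Unit R)))
    {a : MvPowerSeries σ R} (ha : a ∈ (Jd 1 : Ideal (MvPowerSeries σ R))) :
    LT93.ev φ a ∈ (Jd m : Ideal (MvPowerSeries σ R)) :=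
  subst_mem hφ (fun _ => ha)

theorem ev_sub_ev {m N : ℕ} (hN : 1 ≤ N) {φ : PowerSeries R}
    (hφ : φ ∈ (Jd m : Ideal (MvPowerSeries Unit R)))
    {a a' : MvPowerSeries σ R} (ha : a ∈ (Jd 1 : Ideal (MvPowerSeries σ R)))
    (ha' : a' ∈ (Jd 1 : Ideal (MvPowerSeries σ R)))
    (haa : a - a' ∈ (Jd N : Ideal (MvPowerSeries σ R))) :
    LT93.ev φ a - LT93.ev φ a' ∈ (Jd (N + m - 1) : Ideal (MvPowerSeries σ R)) :=
  subst_sub_subst_mem hN hφ (fun _ => ha) (fun _ => ha') (fun _ => haa)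

theorem ev_sub {φ ψ : PowerSeries R} {a : MvPowerSeries σ R}
    (ha : a ∈ (Jd 1 : Ideal (MvPowerSeries σ R))) :
    LT93.ev (φ - ψ) a = LT93.ev φ a - LT93.ev ψ a :=
  subst_sub (hasSubst_of_mem (fun _ => ha)) φ ψ

theorem mem_Jd_ps {N : ℕ} {φ : PowerSeries R} :
    φ ∈ (Jd N : Ideal (MvPowerSeries Unit R)) ↔ ∀ n < N, PowerSeries.coeff n φ = 0 := by
  constructor
  · intro h n hn
    exact h (Finsupp.single () n) (by simpa using hn)
  · intro h d hd
    have e : d = Finsupp.single () (d ()) := by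
      ext; simp
    rw [e]
    have e2 : d.degree = d () := by rw [e]; simp
    exact h (d ()) (by omega)

theorem one_iff_ps {φ : PowerSeries R} :
    φ ∈ (Jd 1 : Ideal (MvPowerSeries Unit R)) ↔ PowerSeries.constantCoeff φ = 0 := Jd_one_iff

end Lz

end Crest.Agent.LT
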