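import Mathlib
import Crest.Prelude.Def_LubinTate
import Crest.Agent.LT.FG
import Crest.Agent.LT.LzDeg

/-! # Comparison of two formal group laws to first order (row 227, chunk A5b) -/

set_option autoImplicit false
set_option linter.unusedSectionVars false

namespace Crest.Agent.LT

open Crest.LubinTate MvPowerSeries

namespace Lz

variable {σ τ : Type*} {R : Type*} [CommRing R]

/-- `∑ a i x^i y^(N-i)` -/
noncomputable def dpoly (N : ℕ) (a : ℕ → R) (x y : MvPowerSeries σ R) : MvPowerSeries σ R :=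
  ∑ i ∈ Finset.range (N + 1), a i • (x ^ i * y ^ (N - i))

theorem smul_mem_Jd {N : ℕ} (c : R) {f : MvPowerSeries σ R}
    (hf : f ∈ (Jd N : Ideal (MvPowerSeries σ R))) : c • f ∈ (Jd N : Ideal (MvPowerSeries σ R)) := by
  intro d hd
  rw [coeff_smul, hf d hd]
  simp

theorem subst_dpoly (N : ℕ) (a : ℕ → R) {x y : MvPowerSeries σ R}
    (hx : x ∈ (Jd 1 : Ideal (MvPowerSeries σ R))) (hy : y ∈ (Jd 1 : Ideal (MvPowerSeries σ R))) :
    subst ![x, y] (dpoly N a (X 0) (X 1) : MvPowerSeries (Fin 2) R) = dpoly N a x y := by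
  have hs := hasSubst_of_mem (pair_mem hx hy)
  unfold dpoly
  rw [← coe_substAlgHom hs, _root_.map_sum]
  refine Finset.sum_congr rfl fun i _ => ?_
  rw [_root_.map_smul, _root_.map_mul, _root_.map_pow, _root_.map_pow, coe_substAlgHom hs,
    subst_X hs, subst_X hs]
  rfl

theorem dpoly_sub_mem (N : ℕ) (a : ℕ → R) {x y x' y' : MvPowerSeries σ R}
    (hx : x ∈ (Jd 1 : Ideal (MvPowerSeries σ R))) (hy : y ∈ (Jd 1 : Ideal (MvPowerSeries σ R)))
    (hx' : x' ∈ (Jd 1 : Ideal (MvPowerSeries σ R))) (hy' : y' ∈ (Jd 1 : Ideal (MvPowerSeries σ R)))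
    (hxx : x - x' ∈ (Jd 2 : Ideal (MvPowerSeries σ R)))
    (hyy : y - y' ∈ (Jd 2 : Ideal (MvPowerSeries σ R))) :
    dpoly N a x y - dpoly N a x' y' ∈ (Jd (N + 1) : Ideal (MvPowerSeries σ R)) := by
  unfold dpoly
  rw [← Finset.sum_sub_distrib]
  refine Ideal.sum_mem _ fun i hi => ?_
  rw [← smul_sub]
  refine smul_mem_Jd _ ?_
  have h1 : Cg 2 1 x x' := ⟨hx, hx', hxx⟩
  have h2 : Cg 2 1 y y' := ⟨hy, hy', hyy⟩
  have h3 := (Cg.mul (by norm_num) (h1.pow (by norm_num) i) (h2.pow (by norm_num) (N - i))).d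
  have hi' : i ≤ N := by have := Finset.mem_range.mp hi; omega
  exact Jd_mono (by omega) h3

theorem fin2_eq {d : Fin 2 →₀ ℕ} : d = Finsupp.single 0 (d 0) + Finsupp.single 1 (d 1) := by
  ext i; fin_cases i <;> simp

theorem coeff_X0X1 (d : Fin 2 →₀ ℕ) (i j : ℕ) [Decidable (d 0 = i ∧ d 1 = j)] :
    coeff d (X 0 ^ i * X 1 ^ j : MvPowerSeries (Fin 2) R) =
      if d 0 = i ∧ d 1 = j then 1 else 0 := by
  classical
  rw [X_pow_eq, X_pow_eq, monomial_mul_monomial, coeff_monomial, mul_one]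
  refine if_congr ?_ rfl rfl
  constructor
  · rintro rfl; simp
  · rintro ⟨rfl, rfl⟩; exact fin2_eq

theorem coeff_X0X1X2 (i j k a b c : ℕ) :
    coeff (Finsupp.single 0 i + Finsupp.single 1 j + Finsupp.single 2 k)
      (X 0 ^ a * X 1 ^ b * X 2 ^ c : MvPowerSeries (Fin 3) R) =
      if i = a ∧ j = b ∧ k = c then 1 else 0 := by
  classical
  rw [X_pow_eq, X_pow_eq, X_pow_eq, monomial_mul_monomial, monomial_mul_monomial, coeff_monomial,
    mul_one, mul_one]
  refine if_congr ?_ rfl rfl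
  constructor
  · intro h
    have h0 := DFunLike.congr_fun h 0
    have h1 := DFunLike.congr_fun h 1
    have h2 := DFunLike.congr_fun h 2
    simp at h0 h1 h2
    exact ⟨h0, h1, h2⟩
  · rintro ⟨rfl, rfl, rfl⟩; rfl

theorem coeff_dpoly (N : ℕ) (a : ℕ → R) (i : ℕ) (hi : i ≤ N) :
    coeff (Finsupp.single 0 i + Finsupp.single 1 (N - i))
      (dpoly N a (X 0) (X 1) : MvPowerSeries (Fin 2) R) = a i := by
  classical
  unfold dpoly
  rw [map_sum, Finset.sum_eq_single i]
  · rw [coeff_smul, coeff_X0X1]; simp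
  · intro j _ hj
    rw [coeff_smul, coeff_X0X1, if_neg]
    · simp
    · rintro ⟨h1, _⟩
      simp at h1
      exact hj h1.symm
  · intro h; exact absurd (Finset.mem_range.mpr (by omega)) h

theorem coeff_dpoly_swap (N : ℕ) (a : ℕ → R) (i : ℕ) (hi : i ≤ N) :
    coeff (Finsupp.single 0 i + Finsupp.single 1 (N - i))
      (dpoly N a (X 1) (X 0) : MvPowerSeries (Fin 2) R) = a (N - i) := by
  classical
  unfold dpoly
  rw [map_sum, Finset.sum_eq_single (N - i)]
  · rw [mul_comm, coeff_smul, coeff_X0X1, if_pos]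
    · simp
    · simp; omega
  · intro j hj hji
    have := Finset.mem_range.mp hj
    rw [mul_comm, coeff_smul, coeff_X0X1, if_neg]
    · simp
    · rintro ⟨h1, h2⟩
      simp at h1 h2
      exact hji h2.symm
  · intro h; exact absurd (Finset.mem_range.mpr (by omega)) h

theorem sub_dpoly_mem {N : ℕ} {D : MvPowerSeries (Fin 2) R}
    (hD : D ∈ (Jd N : Ideal (MvPowerSeries (Fin 2) R))) :
    D - dpoly N (fun i => coeff (Finsupp.single 0 i + Finsupp.single 1 (N - i)) D) (X 0) (X 1) ∈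
      (Jd (N + 1) : Ideal (MvPowerSeries (Fin 2) R)) := by
  classical
  intro d hd
  have hdeg : d.degree = d 0 + d 1 := by rw [Finsupp.degree_eq_sum, Fin.sum_univ_two]
  rw [map_sub, sub_eq_zero]
  rcases Nat.lt_or_ge d.degree N with h | h
  · rw [hD d h]
    unfold dpoly
    rw [map_sum]
    refine (Finset.sum_eq_zero fun i hi => ?_).symm
    have := Finset.mem_range.mp hi
    rw [coeff_smul, coeff_X0X1, if_neg]
    · simp
    · omega
  · have h1 : d = Finsupp.single 0 (d 0) + Finsupp.single 1 (N - d 0) := by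
      have : N - d 0 = d 1 := by omega
      rw [this]; exact fin2_eq
    rw [h1, coeff_dpoly N _ (d 0) (by omega), ← h1]

/-- substituting in the difference of order `N` -/
theorem subst_D {N : ℕ} {D : MvPowerSeries (Fin 2) R}
    (hD : D ∈ (Jd N : Ideal (MvPowerSeries (Fin 2) R))) {a : ℕ → R}
    (ha : a = fun i => coeff (Finsupp.single 0 i + Finsupp.single 1 (N - i)) D)
    {x y x' y' : MvPowerSeries σ R}
    (hx : x ∈ (Jd 1 : Ideal (MvPowerSeries σ R))) (hy : y ∈ (Jd 1 : Ideal (MvPowerSeries σ R)))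
    (hx' : x' ∈ (Jd 1 : Ideal (MvPowerSeries σ R))) (hy' : y' ∈ (Jd 1 : Ideal (MvPowerSeries σ R)))
    (hxx : x - x' ∈ (Jd 2 : Ideal (MvPowerSeries σ R)))
    (hyy : y - y' ∈ (Jd 2 : Ideal (MvPowerSeries σ R))) :
    subst ![x, y] D - dpoly N a x' y' ∈ (Jd (N + 1) : Ideal (MvPowerSeries σ R)) := by
  have h1 := subst_mem (sub_dpoly_mem hD) (pair_mem hx hy)
  rw [subst_sub (hasSubst_of_mem (pair_mem hx hy)), subst_dpoly N _ hx hy, ← ha] at h1
  have h2 := dpoly_sub_mem N a hx hy hx' hy' hxx hyy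
  have := add_mem h1 h2
  convert this using 1
  ring

theorem coeff_lhs (N : ℕ) (a : ℕ → R) (i j k : ℕ) (hijk : i + j + k = N) :
    coeff (Finsupp.single 0 i + Finsupp.single 1 j + Finsupp.single 2 k)
      (dpoly N a (X 0 + X 1) (X 2) : MvPowerSeries (Fin 3) R) =
      ((i + j).choose i : R) * a (i + j) := by
  classical
  unfold dpoly
  rw [map_sum, Finset.sum_eq_single (i + j)]
  · rw [coeff_smul, add_pow, Finset.sum_mul, map_sum, Finset.sum_eq_single i]
    · have e : (X 0 ^ i * X 1 ^ (i + j - i) * (((i + j).choose i : ℕ) : MvPowerSeries (Fin 3) R)) *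
          X 2 ^ (N - (i + j)) =
          (((i + j).choose i : ℕ) : R) • (X 0 ^ i * X 1 ^ (i + j - i) * X 2 ^ (N - (i + j))) := by
        rw [Nat.cast_smul_eq_nsmul, nsmul_eq_mul]; ring
      rw [e, coeff_smul, coeff_X0X1X2, if_pos (by omega)]
      simp [mul_comm]
    · intro l hl hli
      have e : (X 0 ^ l * X 1 ^ (i + j - l) * (((i + j).choose l : ℕ) : MvPowerSeries (Fin 3) R)) *
          X 2 ^ (N - (i + j)) =
          (((i + j).choose l : ℕ) : R) • (X 0 ^ l * X 1 ^ (i + j - l) * X 2 ^ (N - (i + j))) := by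
        rw [Nat.cast_smul_eq_nsmul, nsmul_eq_mul]; ring
      rw [e, coeff_smul, coeff_X0X1X2, if_neg (by omega)]
      simp
    · intro h; exact absurd (Finset.mem_range.mpr (by omega)) h
  · intro m hm hmi
    have := Finset.mem_range.mp hm
    rw [coeff_smul, add_pow, Finset.sum_mul, map_sum, Finset.sum_eq_zero]
    · simp
    intro l hl
    have e : (X 0 ^ l * X 1 ^ (m - l) * ((m.choose l : ℕ) : MvPowerSeries (Fin 3) R)) *
          X 2 ^ (N - m) =
          ((m.choose l : ℕ) : R) • (X 0 ^ l * X 1 ^ (m - l) * X 2 ^ (N - m)) := by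
        rw [Nat.cast_smul_eq_nsmul, nsmul_eq_mul]; ring
    have := Finset.mem_range.mp hl
    rw [e, coeff_smul, coeff_X0X1X2, if_neg (by omega)]
    simp
  · intro h; exact absurd (Finset.mem_range.mpr (by omega)) h

theorem coeff_rhs (N : ℕ) (a : ℕ → R) (i j k : ℕ) (hijk : i + j + k = N) :
    coeff (Finsupp.single 0 i + Finsupp.single 1 j + Finsupp.single 2 k)
      (dpoly N a (X 0) (X 1 + X 2) : MvPowerSeries (Fin 3) R) =
      ((N - i).choose j : R) * a i := by
  classical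
  unfold dpoly
  rw [map_sum, Finset.sum_eq_single i]
  · rw [coeff_smul, add_pow, Finset.mul_sum, map_sum, Finset.sum_eq_single j]
    · have e : X 0 ^ i * (X 1 ^ j * X 2 ^ (N - i - j) * (((N - i).choose j : ℕ) : MvPowerSeries (Fin 3) R)) =
          (((N - i).choose j : ℕ) : R) • (X 0 ^ i * X 1 ^ j * X 2 ^ (N - i - j)) := by
        rw [Nat.cast_smul_eq_nsmul, nsmul_eq_mul]; ring
      rw [e, coeff_smul, coeff_X0X1X2, if_pos (by omega)]
      simp [mul_comm]
    · intro l hl hli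
      have e : X 0 ^ i * (X 1 ^ l * X 2 ^ (N - i - l) * (((N - i).choose l : ℕ) : MvPowerSeries (Fin 3) R)) =
          (((N - i).choose l : ℕ) : R) • (X 0 ^ i * X 1 ^ l * X 2 ^ (N - i - l)) := by
        rw [Nat.cast_smul_eq_nsmul, nsmul_eq_mul]; ring
      rw [e, coeff_smul, coeff_X0X1X2, if_neg (by omega)]
      simp
    · intro h; exact absurd (Finset.mem_range.mpr (by omega)) h
  · intro m hm hmi
    rw [coeff_smul, add_pow, Finset.mul_sum, map_sum, Finset.sum_eq_zero]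
    · simp
    intro l hl
    have e : X 0 ^ m * (X 1 ^ l * X 2 ^ (N - m - l) * (((N - m).choose l : ℕ) : MvPowerSeries (Fin 3) R)) =
          (((N - m).choose l : ℕ) : R) • (X 0 ^ m * X 1 ^ l * X 2 ^ (N - m - l)) := by
        rw [Nat.cast_smul_eq_nsmul, nsmul_eq_mul]; ring
    rw [e, coeff_smul, coeff_X0X1X2, if_neg (by omega)]
    simp
  · intro h; exact absurd (Finset.mem_range.mpr (by omega)) h

theorem coeff_dpoly01 (N : ℕ) (a : ℕ → R) (i j k : ℕ) (hk : 1 ≤ k) :
    coeff (Finsupp.single 0 i + Finsupp.single 1 j + Finsupp.single 2 k)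
      (dpoly N a (X 0) (X 1) : MvPowerSeries (Fin 3) R) = 0 := by
  classical
  unfold dpoly
  rw [map_sum]
  refine Finset.sum_eq_zero fun m _ => ?_
  have e : (X 0 ^ m * X 1 ^ (N - m) : MvPowerSeries (Fin 3) R) = X 0 ^ m * X 1 ^ (N - m) * X 2 ^ 0 := by
    rw [pow_zero, mul_one]
  rw [coeff_smul, e, coeff_X0X1X2, if_neg (by omega)]
  simp

theorem coeff_dpoly12 (N : ℕ) (a : ℕ → R) (i j k : ℕ) (hi : 1 ≤ i) :
    coeff (Finsupp.single 0 i + Finsupp.single 1 j + Finsupp.single 2 k)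
      (dpoly N a (X 1) (X 2) : MvPowerSeries (Fin 3) R) = 0 := by
  classical
  unfold dpoly
  rw [map_sum]
  refine Finset.sum_eq_zero fun m _ => ?_
  have e : (X 1 ^ m * X 2 ^ (N - m) : MvPowerSeries (Fin 3) R) = X 0 ^ 0 * X 1 ^ m * X 2 ^ (N - m) := by
    rw [pow_zero, one_mul]
  rw [coeff_smul, e, coeff_X0X1X2, if_neg (by omega)]
  simp

end Lz

end Crest.Agent.LT
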