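import Mathlib
import Crest.Prelude.Def_LubinTate
import Crest.Agent.LT.FG
import Crest.Agent.LT.LzDeg
import Crest.Agent.LT.LzPoly

/-! # Comparison of two formal group laws to first order (row 227, chunk A5b) -/

set_option autoImplicit false
set_option linter.unusedSectionVars false

namespace Crest.Agent.LT

open Crest.LubinTate MvPowerSeries

namespace Lz

variable {σ τ : Type*} {R : Type*} [CommRing R]

section Cocycle

variable (G₁ G₂ : FormalGroup R) {N : ℕ}
  (hD : G₁.toPowerSeries - G₂.toPowerSeries ∈ (Jd N : Ideal (MvPowerSeries (Fin 2) R)))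

/-- coefficients of the difference in degree `N` -/
noncomputable def dc (G₁ G₂ : FormalGroup R) (N : ℕ) : ℕ → R :=
  fun i => coeff (Finsupp.single 0 i + Finsupp.single 1 (N - i))
    (G₁.toPowerSeries - G₂.toPowerSeries)

include hD in
/-- `G₁(x,y) - G₂(x',y') ≡ ∑ a_i x₀^i y₀^(N-i) + (x - x') + (y - y')` -/
theorem op_sub_op' (hN : 1 ≤ N) {x y x' y' x₀ y₀ : MvPowerSeries σ R}
    (hx : x ∈ (Jd 1 : Ideal (MvPowerSeries σ R))) (hy : y ∈ (Jd 1 : Ideal (MvPowerSeries σ R)))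
    (hx' : x' ∈ (Jd 1 : Ideal (MvPowerSeries σ R))) (hy' : y' ∈ (Jd 1 : Ideal (MvPowerSeries σ R)))
    (hx₀ : x₀ ∈ (Jd 1 : Ideal (MvPowerSeries σ R))) (hy₀ : y₀ ∈ (Jd 1 : Ideal (MvPowerSeries σ R)))
    (hxx : x - x' ∈ (Jd N : Ideal (MvPowerSeries σ R)))
    (hyy : y - y' ∈ (Jd N : Ideal (MvPowerSeries σ R)))
    (hxx₀ : x - x₀ ∈ (Jd 2 : Ideal (MvPowerSeries σ R)))
    (hyy₀ : y - y₀ ∈ (Jd 2 : Ideal (MvPowerSeries σ R))) :
    LT93.op G₁ x y - LT93.op G₂ x' y' - (dpoly N (dc G₁ G₂ N) x₀ y₀ + (x - x') + (y - y')) ∈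
      (Jd (N + 1) : Ideal (MvPowerSeries σ R)) := by
  have h1 := subst_D hD (a := dc G₁ G₂ N) rfl hx hy hx₀ hy₀ hxx₀ hyy₀
  rw [subst_sub (hasSubst_of_mem (pair_mem hx hy))] at h1
  have h2 := op_sub_op G₂ hN hx hy hx' hy' hxx hyy
  have := add_mem h1 h2
  convert this using 1
  unfold LT93.op
  ring

include hD in
theorem dc_coc (hN : 2 ≤ N) (i j : ℕ) (hi : 1 ≤ i) (_hj : 1 ≤ j) (hij : i + j ≤ N - 1) :
    ((i + j).choose i : R) * dc G₁ G₂ N (i + j) = ((N - i).choose j : R) * dc G₁ G₂ N i := by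
  have x0 := X_mem (R := R) (0 : Fin 3)
  have x1 := X_mem (R := R) (1 : Fin 3)
  have x2 := X_mem (R := R) (2 : Fin 3)
  have z2 : ∀ {f : MvPowerSeries (Fin 3) R}, f - f ∈ (Jd 2 : Ideal (MvPowerSeries (Fin 3) R)) := by
    intro f; rw [sub_self]; exact zero_mem _
  have zN : ∀ {f : MvPowerSeries (Fin 3) R}, f - f ∈ (Jd N : Ideal (MvPowerSeries (Fin 3) R)) := by
    intro f; rw [sub_self]; exact zero_mem _
  -- first level
  have h01 := op_sub_op' G₁ G₂ hD (by omega) x0 x1 x0 x1 x0 x1 zN zN z2 z2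
  have h12 := op_sub_op' G₁ G₂ hD (by omega) x1 x2 x1 x2 x1 x2 zN zN z2 z2
  rw [sub_self, sub_self, add_zero, add_zero] at h01 h12
  -- `op G₁ X Y - op G₂ X Y ∈ Jd N`
  have hd : ∀ {x y : MvPowerSeries (Fin 3) R}, x ∈ (Jd 1 : Ideal (MvPowerSeries (Fin 3) R)) →
      y ∈ (Jd 1 : Ideal (MvPowerSeries (Fin 3) R)) →
      LT93.op G₁ x y - LT93.op G₂ x y ∈ (Jd N : Ideal (MvPowerSeries (Fin 3) R)) := by
    intro x y hx hy
    have := subst_mem hD (pair_mem hx hy)
    rwa [subst_sub (hasSubst_of_mem (pair_mem hx hy))] at this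
  have hL := op_sub_op' G₁ G₂ hD (by omega) (op_mem G₁ x0 x1) x2 (op_mem G₂ x0 x1) x2
    (add_mem x0 x1) x2 (hd x0 x1) zN (op_sub_add G₁ x0 x1) z2
  have hR := op_sub_op' G₁ G₂ hD (by omega) x0 (op_mem G₁ x1 x2) x0 (op_mem G₂ x1 x2)
    x0 (add_mem x1 x2) zN (hd x1 x2) z2 (op_sub_add G₁ x1 x2)
  rw [LT93.op_assoc G₁ (LT93.hX 0) (LT93.hX 1) (LT93.hX 2),
    LT93.op_assoc G₂ (LT93.hX 0) (LT93.hX 1) (LT93.hX 2)] at hL
  have hT := sub_mem (add_mem hR h12) (add_mem hL h01)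
  have hT2 : dpoly N (dc G₁ G₂ N) (X 0 + X 1) (X 2) + dpoly N (dc G₁ G₂ N) (X 0) (X 1) -
      (dpoly N (dc G₁ G₂ N) (X 0) (X 1 + X 2) + dpoly N (dc G₁ G₂ N) (X 1) (X 2)) ∈
      (Jd (N + 1) : Ideal (MvPowerSeries (Fin 3) R)) := by
    convert hT using 1
    ring
  have hc := hT2 (Finsupp.single 0 i + Finsupp.single 1 j + Finsupp.single 2 (N - (i + j))) (by
    rw [map_add, map_add, Finsupp.degree_single, Finsupp.degree_single, Finsupp.degree_single]
    omega)
  rw [map_sub, map_add, map_add, coeff_lhs N _ i j _ (by omega), coeff_rhs N _ i j _ (by omega),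
    coeff_dpoly01 N _ i j _ (by omega), coeff_dpoly12 N _ i j _ hi, add_zero, add_zero,
    sub_eq_zero] at hc
  exact hc

theorem dc_zero (hN : 2 ≤ N) : dc G₁ G₂ N 0 = 0 := by
  have key : ∀ G : FormalGroup R, coeff (Finsupp.single 1 N : Fin 2 →₀ ℕ) G.toPowerSeries = 0 := by
    intro G
    have hs : HasSubst ![(0 : MvPowerSeries (Fin 2) R), X 1] :=
      LT93.hasSubst_pair LT93.hzero (LT93.hX 1)
    have h1 : LT93.op G (0 : MvPowerSeries (Fin 2) R) (X 1) = X 1 := LT93.zero_op G (LT93.hX 1)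
    have h2 := congrArg (coeff (Finsupp.single 1 N : Fin 2 →₀ ℕ)) h1
    unfold LT93.op at h2
    rw [coeff_subst hs, finsum_eq_single _ (Finsupp.single 1 N : Fin 2 →₀ ℕ)] at h2
    · rw [Finsupp.prod_single_index (by simp)] at h2
      have e : (![(0 : MvPowerSeries (Fin 2) R), X 1] (1 : Fin 2)) = X 1 := rfl
      rw [e, X_pow_eq, coeff_monomial_same, smul_eq_mul, mul_one] at h2
      classical
      rw [h2, coeff_X, if_neg]
      intro h3
      have := DFunLike.congr_fun h3 1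
      simp at this
      omega
    · intro d hd
      by_cases h0 : d 0 = 0
      · have h3 : (d.prod fun s e => (![(0 : MvPowerSeries (Fin 2) R), X 1] s) ^ e) = X 1 ^ (d 1) := by
          rw [Finsupp.prod_fintype _ _ (by simp), Fin.prod_univ_two, h0]
          simp
        classical
        rw [h3, X_pow_eq, coeff_monomial, if_neg, smul_zero]
        intro h4
        have := DFunLike.congr_fun h4 1
        apply hd
        ext i; fin_cases i
        · simpa using h0
        · simp at this ⊢; exact this.symm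
      · have h3 : (d.prod fun s e => (![(0 : MvPowerSeries (Fin 2) R), X 1] s) ^ e) = 0 := by
          rw [Finsupp.prod_fintype _ _ (by simp), Fin.prod_univ_two]
          simp [h0]
        rw [h3]; simp
  unfold dc
  rw [map_sub]
  simp only [Finsupp.single_zero, zero_add, Nat.sub_zero, key, sub_self]

include hD in
theorem dc_symm [G₁.IsComm] [G₂.IsComm] (i : ℕ) (hi : i ≤ N) :
    dc G₁ G₂ N i = dc G₁ G₂ N (N - i) := by
  have x0 := X_mem (R := R) (0 : Fin 2)
  have x1 := X_mem (R := R) (1 : Fin 2)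
  have z2 : ∀ {f : MvPowerSeries (Fin 2) R}, f - f ∈ (Jd 2 : Ideal (MvPowerSeries (Fin 2) R)) := by
    intro f; rw [sub_self]; exact zero_mem _
  have h1 := subst_D hD (a := dc G₁ G₂ N) rfl x0 x1 x0 x1 z2 z2
  have h2 := subst_D hD (a := dc G₁ G₂ N) rfl x1 x0 x1 x0 z2 z2
  rw [subst_sub (hasSubst_of_mem (pair_mem x0 x1))] at h1
  rw [subst_sub (hasSubst_of_mem (pair_mem x1 x0))] at h2
  have e1 : subst ![X 1, (X 0 : MvPowerSeries (Fin 2) R)] G₁.toPowerSeries =
      subst ![X 0, X 1] G₁.toPowerSeries :=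
    LT93.op_comm G₁ (LT93.hX (R := R) (1 : Fin 2)) (LT93.hX 0)
  have e2 : subst ![X 1, (X 0 : MvPowerSeries (Fin 2) R)] G₂.toPowerSeries =
      subst ![X 0, X 1] G₂.toPowerSeries :=
    LT93.op_comm G₂ (LT93.hX (R := R) (1 : Fin 2)) (LT93.hX 0)
  rw [e1, e2] at h2
  have h3 := sub_mem h2 h1
  have h4 : dpoly N (dc G₁ G₂ N) (X 0) (X 1) - dpoly N (dc G₁ G₂ N) (X 1) (X 0) ∈
      (Jd (N + 1) : Ideal (MvPowerSeries (Fin 2) R)) := by
    convert h3 using 1
    ring
  have h5 := h4 (Finsupp.single 0 i + Finsupp.single 1 (N - i)) (by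
    rw [map_add, Finsupp.degree_single, Finsupp.degree_single]; omega)
  rwa [map_sub, coeff_dpoly N _ i hi, coeff_dpoly_swap N _ i hi, sub_eq_zero] at h5

include hD in
/-- difference of the `m`-series -/
theorem mulSeries_sub (hN : 2 ≤ N) (m : ℕ) :
    mulSeries G₁ m - mulSeries G₂ m -
      (∑ l ∈ Finset.range m, ∑ i ∈ Finset.range (N + 1), dc G₁ G₂ N i * (l : R) ^ i) •
        (PowerSeries.X ^ N : PowerSeries R) ∈ (Jd (N + 1) : Ideal (MvPowerSeries Unit R)) := by
  have hX : (PowerSeries.X : PowerSeries R) ∈ (Jd 1 : Ideal (MvPowerSeries Unit R)) := X_mem ()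
  have z2 : ∀ {f : MvPowerSeries Unit R}, f - f ∈ (Jd 2 : Ideal (MvPowerSeries Unit R)) := by
    intro f; rw [sub_self]; exact zero_mem _
  have zN : ∀ {f : MvPowerSeries Unit R}, f - f ∈ (Jd N : Ideal (MvPowerSeries Unit R)) := by
    intro f; rw [sub_self]; exact zero_mem _
  have hm1 : ∀ (G : FormalGroup R) (m : ℕ), mulSeries G m ∈ (Jd 1 : Ideal (MvPowerSeries Unit R)) :=
    fun G m => one_iff_ps.mpr (constantCoeff_mulSeries G m)
  have hm2 : ∀ (G : FormalGroup R) (m : ℕ), mulSeries G m - (m : R) • (PowerSeries.X : PowerSeries R)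
      ∈ (Jd 2 : Ideal (MvPowerSeries Unit R)) := by
    intro G m
    refine mem_Jd_ps.mpr fun k hk => ?_
    rw [_root_.map_sub, _root_.map_smul]
    interval_cases k
    · rw [PowerSeries.coeff_zero_eq_constantCoeff_apply, constantCoeff_mulSeries]
      simp
    · rw [coeff_one_mulSeries, PowerSeries.coeff_one_X]; simp
  have hsX : ∀ c : R, c • (PowerSeries.X : PowerSeries R) ∈ (Jd 1 : Ideal (MvPowerSeries Unit R)) :=
    fun c => smul_mem_Jd c hX
  have hpoly : ∀ c : R, dpoly N (dc G₁ G₂ N) (c • (PowerSeries.X : PowerSeries R)) PowerSeries.X =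
      (∑ i ∈ Finset.range (N + 1), dc G₁ G₂ N i * c ^ i) • (PowerSeries.X ^ N : PowerSeries R) := by
    intro c
    unfold dpoly
    rw [Finset.sum_smul]
    refine Finset.sum_congr rfl fun i hi => ?_
    have hi' := Finset.mem_range.mp hi
    have e : (PowerSeries.X ^ N : PowerSeries R) = PowerSeries.X ^ i * PowerSeries.X ^ (N - i) := by
      rw [← pow_add]; congr 1; omega
    rw [e, mul_smul]
    congr 1
    rw [_root_.smul_pow, smul_mul_assoc]
  induction m with
  | zero => simp [LT93.mulSeries_zero']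
  | succ m ih =>
    have hdiff : mulSeries G₁ m - mulSeries G₂ m ∈ (Jd N : Ideal (MvPowerSeries Unit R)) := by
      have h1 : (PowerSeries.X ^ N : PowerSeries R) ∈ (Jd N : Ideal (MvPowerSeries Unit R)) := by
        have := Jd_pow hX N
        rwa [mul_one] at this
      have h2 := add_mem (Jd_mono (Nat.le_succ N) ih)
        (smul_mem_Jd (∑ l ∈ Finset.range m, ∑ i ∈ Finset.range (N + 1),
          dc G₁ G₂ N i * (l : R) ^ i) h1)
      rwa [sub_add_cancel] at h2
    have h3 := op_sub_op' G₁ G₂ hD (by omega) (hm1 G₁ m) hX (hm1 G₂ m) hX (hsX (m : R)) hX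
      hdiff zN (hm2 G₁ m) z2
    rw [hpoly] at h3
    have h4 := add_mem h3 ih
    rw [LT93.mulSeries_succ, LT93.mulSeries_succ, Finset.sum_range_succ, add_smul]
    convert h4 using 1
    ring

end Cocycle

end Lz

end Crest.Agent.LT
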