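import Mathlib
import Crest.Prelude.Def_LubinTate
import Crest.Agent.LT.FG
import Crest.Agent.LT.LzDeg
import Crest.Agent.LT.LzPoly
import Crest.Agent.LT.LzCmp

/-! # A5b: Lazard comparison (row 227).  Any two commutative FGLs over `k = F_q` with
`[p] = X^q` are strictly isomorphic over `k`. Paper proof: ideas row 227, A5(ii). -/

set_option autoImplicit false
set_option linter.unusedSectionVars false

namespace Crest.Agent.LT

open Crest.LubinTate MvPowerSeries

/-- the cocycle relations in coefficient form -/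
structure LzCoc {K : Type*} [Field K] (N : ℕ) (a : ℕ → K) : Prop where
  zero : a 0 = 0
  top : a N = 0
  symm : ∀ i ≤ N, a i = a (N - i)
  coc : ∀ i j, 1 ≤ i → 1 ≤ j → i + j ≤ N - 1 →
      ((i + j).choose i : K) * a (i + j) = ((N - i).choose j : K) * a i

namespace LzCoc

variable {K : Type*} [Field K] {N : ℕ} {a : ℕ → K}

theorem rel_one (h : LzCoc N a) (m : ℕ) (h1 : 1 ≤ m) (hm : m < N) :
    (m : K) * a m = ((N - 1).choose (m - 1) : K) * a 1 := by
  rcases Nat.eq_or_lt_of_le h1 with h2 | h2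
  · subst h2; simp
  · have := h.coc 1 (m - 1) le_rfl (by omega) (by omega)
    have e : 1 + (m - 1) = m := by omega
    rw [e, Nat.choose_one_right] at this
    exact this

theorem eq_of_ne (h : LzCoc N a) (hN : 2 ≤ N) (hNK : (N : K) ≠ 0) :
    ∀ i, 1 ≤ i → i < N → a i = (a 1 / N) * (N.choose i : K) := by
  have key : ∀ i, 1 ≤ i → i < N → (i : K) ≠ 0 → a i = (a 1 / N) * (N.choose i : K) := by
    intro i hi hiN hiK
    have h1 := h.rel_one i hi hiN
    have h2 : N * (N - 1).choose (i - 1) = N.choose i * i := by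
      have := Nat.add_one_mul_choose_eq (N - 1) (i - 1)
      rwa [Nat.sub_add_cancel (by omega), Nat.sub_add_cancel hi] at this
    have h3 : (N : K) * ((N - 1).choose (i - 1) : K) = (N.choose i : K) * i := by
      exact_mod_cast congrArg (Nat.cast (R := K)) h2
    field_simp
    apply mul_left_cancel₀ hiK
    linear_combination (N : K) * h1 + a 1 * h3
  intro i hi hiN
  by_cases hiK : (i : K) = 0
  · have h1 : ((N - i : ℕ) : K) ≠ 0 := by
      rw [Nat.cast_sub hiN.le, hiK, sub_zero]; exact hNK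
    rw [h.symm i hiN.le, key (N - i) (by omega) (by omega) h1, Nat.choose_symm hiN.le]
  · exact key i hi hiN hiK

variable (p : ℕ) [hp : Fact p.Prime] [CharP K p]

theorem choose_cast_mul (m k : ℕ) : ((p * m).choose (p * k) : K) = (m.choose k : K) := by
  rw [CharP.natCast_eq_natCast K p]
  have h := Choose.choose_modEq_choose_mod_mul_choose_div_nat (n := p * m) (k := p * k) (p := p)
  have hp0 := hp.1.pos
  simpa [Nat.mul_div_cancel_left _ hp0] using h

theorem choose_cast_mul_of_not_dvd (m k : ℕ) (hk : ¬ p ∣ k) : ((p * m).choose k : K) = 0 := by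
  rw [← Nat.cast_zero, CharP.natCast_eq_natCast K p]
  have h := Choose.choose_modEq_choose_mod_mul_choose_div_nat (n := p * m) (k := k) (p := p)
  have hp0 := hp.1.pos
  have h1 : 0 < k % p := Nat.pos_of_ne_zero fun h => hk (Nat.dvd_of_mod_eq_zero h)
  rw [Nat.mul_mod_right, Nat.choose_eq_zero_of_lt h1, zero_mul] at h
  exact h

theorem one_eq_zero {N' : ℕ} (h : LzCoc (p * N') a) (hN' : 2 ≤ N') : a 1 = 0 := by
  have hp2 := hp.1.two_le
  have hpN : p < p * N' := by nlinarith
  have h1 := h.rel_one p (by omega) hpN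
  have h2 : ((p * N' - 1).choose (p - 1) : K) = 1 := by
    rw [← Nat.cast_one (R := K), CharP.natCast_eq_natCast K p]
    have h3 := Choose.choose_modEq_choose_mod_mul_choose_div_nat (n := p * N' - 1) (k := p - 1)
      (p := p)
    have e1 : (p - 1) % p = p - 1 := Nat.mod_eq_of_lt (by omega)
    have e2 : (p - 1) / p = 0 := Nat.div_eq_of_lt (by omega)
    have e3 : (p * N' - 1) % p = p - 1 := by
      have : p * N' - 1 = (p - 1) + p * (N' - 1) := by
        obtain ⟨c, rfl⟩ : ∃ c, N' = c + 1 := ⟨N' - 1, by omega⟩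
        simp only [Nat.add_sub_cancel]
        have : p * (c + 1) = p * c + p := by ring
        omega
      rw [this, Nat.add_mul_mod_self_left, e1]
    rw [e1, e2, e3] at h3
    simpa using h3
  rw [h2, CharP.cast_eq_zero, zero_mul, one_mul] at h1
  exact h1.symm

theorem eq_zero_of_not_dvd {N' : ℕ} (h : LzCoc (p * N') a) (hN' : 2 ≤ N') (m : ℕ) (hm1 : 1 ≤ m)
    (hm : m < p * N') (hpm : ¬ p ∣ m) : a m = 0 := by
  have h1 := h.rel_one m hm1 hm
  rw [one_eq_zero p h hN', mul_zero] at h1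
  rcases mul_eq_zero.mp h1 with h2 | h2
  · exact absurd ((CharP.cast_eq_zero_iff K p m).mp h2) hpm
  · exact h2

theorem descend {N' : ℕ} (h : LzCoc (p * N') a) : LzCoc N' (fun i => a (p * i)) where
  zero := by simpa using h.zero
  top := h.top
  symm := fun i hi => by
    have := h.symm (p * i) (Nat.mul_le_mul_left p hi)
    rw [← Nat.mul_sub] at this
    exact this
  coc := fun i j hi hj hij => by
    have hp0 := hp.1.pos
    have h1 := h.coc (p * i) (p * j) (Nat.mul_pos hp0 hi) (Nat.mul_pos hp0 hj) (by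
      rw [← Nat.mul_add]
      have h2 : i + j + 1 ≤ N' := by omega
      have h3 := Nat.mul_le_mul_left p h2
      have h4 : p * (i + j + 1) = p * (i + j) + p := by ring
      omega)
    rw [← Nat.mul_add, ← Nat.mul_sub, choose_cast_mul p, choose_cast_mul p] at h1
    exact h1

/-- `N` not a power of `p` -/
theorem not_pow (N : ℕ) : ∀ (a : ℕ → K), LzCoc N a → 2 ≤ N → (¬ ∃ c, N = p ^ c) →
    ∃ b : K, ∀ i, 1 ≤ i → i < N → a i = b * (N.choose i : K) := by
  induction N using Nat.strong_induction_on with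
  | _ N ih =>
    intro a h hN hnp
    by_cases hNK : (N : K) = 0
    · obtain ⟨N', rfl⟩ := (CharP.cast_eq_zero_iff K p N).mp hNK
      have hp2 := hp.1.two_le
      have hN'0 : N' ≠ 0 := by rintro rfl; omega
      have hN'1 : N' ≠ 1 := by rintro rfl; exact hnp ⟨1, by simp⟩
      have hlt : N' < p * N' := by
        have : 0 < N' := Nat.pos_of_ne_zero hN'0
        nlinarith
      obtain ⟨b, hb⟩ := ih N' hlt _ (descend p h) (by omega) (by
        rintro ⟨c, rfl⟩; exact hnp ⟨c + 1, by rw [pow_succ, mul_comm]⟩)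
      refine ⟨b, fun i hi hiN => ?_⟩
      by_cases hpi : p ∣ i
      · obtain ⟨i', rfl⟩ := hpi
        rw [choose_cast_mul p]
        refine hb i' (Nat.pos_of_ne_zero (by rintro rfl; simp at hi)) ?_
        exact Nat.lt_of_mul_lt_mul_left hiN
      · rw [choose_cast_mul_of_not_dvd p _ _ hpi, mul_zero]
        exact eq_zero_of_not_dvd p h (by omega) i hi hiN hpi
    · exact ⟨a 1 / N, eq_of_ne h hN hNK⟩

/-- `N` a power of `p`: uniqueness -/
theorem pow_unique (c : ℕ) : ∀ (a : ℕ → K), LzCoc (p ^ (c + 1)) a → a (p ^ c) = 0 →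
    ∀ i, 1 ≤ i → i < p ^ (c + 1) → a i = 0 := by
  induction c with
  | zero =>
    intro a h h1 i hi hip
    rw [pow_zero] at h1
    rw [zero_add, pow_one] at hip h
    have h2 := h.rel_one i hi hip
    rw [h1, mul_zero] at h2
    rcases mul_eq_zero.mp h2 with h3 | h3
    · have := Nat.le_of_dvd hi ((CharP.cast_eq_zero_iff K p i).mp h3)
      omega
    · exact h3
  | succ c ih =>
    intro a h h1 i hi hip
    have hp2 := hp.1.two_le
    have e : p ^ (c + 1 + 1) = p * p ^ (c + 1) := by rw [pow_succ, mul_comm]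
    rw [e] at h hip
    have hN' : 2 ≤ p ^ (c + 1) := by
      calc 2 ≤ p := hp2
        _ = p ^ 1 := (pow_one p).symm
        _ ≤ p ^ (c + 1) := Nat.pow_le_pow_right hp.1.pos (by omega)
    by_cases hpi : p ∣ i
    · obtain ⟨i', rfl⟩ := hpi
      refine ih _ (descend p h) ?_ i' (Nat.pos_of_ne_zero (by rintro rfl; simp at hi))
        (Nat.lt_of_mul_lt_mul_left hip)
      show a (p * p ^ c) = 0
      rw [← h1]; congr 1; rw [pow_succ, mul_comm]
    · exact eq_zero_of_not_dvd p h hN' i hi hip hpi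

theorem dvd_choose_pow (c i : ℕ) (hi : 1 ≤ i) (hip : i < p ^ c) : p ∣ (p ^ c).choose i :=
  (hp.1.dvd_choose_pow_iff).mpr ⟨by omega, by omega⟩

/-- `N = p ^ (c + 1)`: the standard cocycle -/
theorem std (c : ℕ) : LzCoc (K := K) (p ^ (c + 1)) (fun i => (((p ^ (c + 1)).choose i / p : ℕ) : K)) := by
  have hp2 := hp.1.two_le
  set N := p ^ (c + 1) with hN
  refine ⟨?_, ?_, ?_, ?_⟩
  · simp [Nat.div_eq_of_lt hp2]
  · simp [Nat.div_eq_of_lt hp2]
  · intro i hi
    show _ = (((N.choose (N - i)) / p : ℕ) : K)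
    rw [Nat.choose_symm hi]
  · intro i j hi hj hij
    have hN0 : 0 < N := pow_pos hp.1.pos _
    obtain ⟨x, hx⟩ := dvd_choose_pow p (c + 1) i hi (by omega)
    obtain ⟨y, hy⟩ := dvd_choose_pow p (c + 1) (i + j) (by omega) (by omega)
    rw [← hN] at hx hy
    show ((i + j).choose i : K) * ((N.choose (i + j) / p : ℕ) : K) =
      ((N - i).choose j : K) * ((N.choose i / p : ℕ) : K)
    rw [hx, hy, Nat.mul_div_cancel_left _ hp.1.pos, Nat.mul_div_cancel_left _ hp.1.pos]
    have h1 := Nat.choose_mul (n := N) (k := i + j) (s := i) (by omega)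
    rw [hx, hy, Nat.add_sub_cancel_left] at h1
    have h2 : (i + j).choose i * y = (N - i).choose j * x := by
      apply Nat.eq_of_mul_eq_mul_left hp.1.pos
      linarith
    exact_mod_cast congrArg (Nat.cast (R := K)) h2

theorem std_ne_zero (c : ℕ) : (((p ^ (c + 1)).choose (p ^ c) / p : ℕ) : K) ≠ 0 := by
  have hp2 := hp.1.two_le
  have hlt : p ^ c < p ^ (c + 1) := Nat.pow_lt_pow_right hp.1.one_lt (Nat.lt_succ_self c)
  intro h0
  have h1 := (CharP.cast_eq_zero_iff K p _).mp h0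
  obtain ⟨x, hx⟩ := dvd_choose_pow p (c + 1) (p ^ c) (pow_pos hp.1.pos _) hlt
  rw [hx, Nat.mul_div_cancel_left _ hp.1.pos] at h1
  have h2 := Nat.factorization_choose_prime_pow hp.1 hlt.le (pow_pos hp.1.pos c).ne'
  rw [Nat.Prime.factorization_pow hp.1, Finsupp.single_eq_same] at h2
  have h3 : p ^ 2 ∣ (p ^ (c + 1)).choose (p ^ c) := by
    rw [hx, pow_two]; exact Nat.mul_dvd_mul_left p h1
  have h4 := (hp.1.pow_dvd_iff_le_factorization (Nat.choose_pos hlt.le).ne').mp h3
  omega

theorem sub_smul {a' : ℕ → K} (h : LzCoc N a) (h' : LzCoc N a') (b : K) :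
    LzCoc N (fun i => a i - b * a' i) where
  zero := by simp [h.zero, h'.zero]
  top := by simp [h.top, h'.top]
  symm := fun i hi => by rw [← h.symm i hi, ← h'.symm i hi]
  coc := fun i j hi hj hij => by
    have h1 := h.coc i j hi hj hij
    have h2 := h'.coc i j hi hj hij
    linear_combination h1 - b * h2

end LzCoc

theorem lazard_cocycle {K : Type*} [Field K] (p : ℕ) [Fact p.Prime] [CharP K p] (N : ℕ) (hN : 2 ≤ N)
    (a : ℕ → K) (h0 : a 0 = 0) (hNN : a N = 0) (hsymm : ∀ i ≤ N, a i = a (N - i))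
    (hcoc : ∀ i j, 1 ≤ i → 1 ≤ j → i + j ≤ N - 1 →
      ((i + j).choose i : K) * a (i + j) = ((N - i).choose j : K) * a i) :
    (∃ b : K, ∀ i, 1 ≤ i → i < N → a i = b * (N.choose i : K)) ∨
    (∃ c, N = p ^ c ∧ 1 ≤ c ∧ ∃ b : K, ∀ i, 1 ≤ i → i < N → a i = b * ((N.choose i / p : ℕ) : K)) := by
  have h : LzCoc N a := ⟨h0, hNN, hsymm, hcoc⟩
  by_cases hp : ∃ c, N = p ^ c
  · right
    obtain ⟨c, rfl⟩ := hp
    have hc : 1 ≤ c := by
      rcases Nat.eq_zero_or_pos c with h1 | h1
      · subst h1; simp at hN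
      · exact h1
    refine ⟨c, rfl, hc, ?_⟩
    obtain ⟨c, rfl⟩ : ∃ c', c = c' + 1 := ⟨c - 1, by omega⟩
    set e : K := (((p ^ (c + 1)).choose (p ^ c) / p : ℕ) : K) with he
    have he0 : e ≠ 0 := LzCoc.std_ne_zero p c
    refine ⟨a (p ^ c) / e, fun i hi hiN => ?_⟩
    have h1 := LzCoc.pow_unique p c _ (LzCoc.sub_smul h (LzCoc.std p c) (a (p ^ c) / e)) (by
      show a (p ^ c) - a (p ^ c) / e * e = 0
      field_simp; ring) i hi hiN
    exact sub_eq_zero.mp h1
  · left
    exact LzCoc.not_pow p N a h hN hp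


namespace Lz

section General

variable {σ τ : Type*} {R : Type*} [CommRing R]

theorem coeff_one_ev (φ ψ : PowerSeries R) (h0 : PowerSeries.constantCoeff φ = 0)
    (h0' : PowerSeries.constantCoeff ψ = 0) :
    PowerSeries.coeff 1 (LT93.ev φ ψ : PowerSeries R) =
      PowerSeries.coeff 1 φ * PowerSeries.coeff 1 ψ := by
  have h1 : φ - (PowerSeries.coeff 1 φ) • (PowerSeries.X : PowerSeries R) ∈
      (Jd 2 : Ideal (MvPowerSeries Unit R)) := by
    refine mem_Jd_ps.mpr fun k hk => ?_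
    rw [_root_.map_sub, _root_.map_smul]
    interval_cases k
    · rw [PowerSeries.coeff_zero_eq_constantCoeff_apply, h0]; simp
    · rw [PowerSeries.coeff_one_X]; simp
  have hψ : ψ ∈ (Jd 1 : Ideal (MvPowerSeries Unit R)) := one_iff_ps.mpr h0'
  have h2 := ev_mem h1 hψ
  rw [ev_sub hψ] at h2
  have hs := LT93.hasSubst_of ψ h0'
  have h3 : LT93.ev ((PowerSeries.coeff 1 φ) • (PowerSeries.X : PowerSeries R)) ψ =
      (PowerSeries.coeff 1 φ) • ψ := by
    unfold LT93.ev
    rw [← PowerSeries.coe_substAlgHom (R := R) hs, _root_.map_smul, PowerSeries.coe_substAlgHom,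
      PowerSeries.subst_X hs]
  rw [h3] at h2
  have h4 := mem_Jd_ps.mp h2 1 (by norm_num)
  rw [_root_.map_sub, _root_.map_smul, smul_eq_mul, sub_eq_zero] at h4
  exact h4

theorem ev_inj {θ : PowerSeries R} (h0 : PowerSeries.constantCoeff θ = 0)
    (h1 : IsUnit (PowerSeries.coeff 1 θ)) {a b : MvPowerSeries σ R} (ha : PowerSeries.HasSubst a)
    (hb : PowerSeries.HasSubst b) (h : LT93.ev θ a = LT93.ev θ b) : a = b := by
  rw [← LT93.ev_cinv_ev θ h0 h1 ha, h, LT93.ev_cinv_ev θ h0 h1 hb]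

end General

section GF

variable {p : ℕ} [hp : Fact p.Prime] {n : ℕ}

theorem iterateFrobenius_eq_id (hn : 1 ≤ n) :
    iterateFrobenius (GaloisField p n) p n = RingHom.id _ := by
  let _ : Fintype (GaloisField p n) := Fintype.ofFinite _
  ext x
  rw [iterateFrobenius_def]
  have h1 : Nat.card (GaloisField p n) = p ^ n := GaloisField.card p n (by omega)
  have := FiniteField.pow_card (K := GaloisField p n) x
  rw [← Nat.card_eq_fintype_card, h1] at this
  exact this

theorem pow_q (hn : 1 ≤ n) (φ : PowerSeries (GaloisField p n)) :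
    φ ^ (p ^ n) = LT93.ev φ (PowerSeries.X ^ (p ^ n) : PowerSeries (GaloisField p n)) := by
  have h := MvPowerSeries.map_iterateFrobenius_expand (R := GaloisField p n) (σ := Unit) p
    hp.1.ne_zero φ n
  rw [iterateFrobenius_eq_id hn, MvPowerSeries.map_id] at h
  have h2 : φ ^ (p ^ n) = PowerSeries.expand (p ^ n) (pow_ne_zero n hp.1.ne_zero) φ := h.symm
  rw [h2, PowerSeries.expand_apply]
  rfl

theorem hasSubst_Xpow :
    PowerSeries.HasSubst (PowerSeries.X ^ (p ^ n) : PowerSeries (GaloisField p n)) := by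
  refine LT93.hasSubst_of _ ?_
  rw [map_pow, PowerSeries.constantCoeff_X, zero_pow (pow_ne_zero n hp.1.ne_zero)]

/-- conjugation preserves `[p] = X^q` -/
theorem mulSeries_of_hom (hn : 1 ≤ n) {G G' : FormalGroup (GaloisField p n)}
    {θ : PowerSeries (GaloisField p n)} (hθ : IsFGHom G G' θ)
    (hu : IsUnit (PowerSeries.coeff 1 θ)) (hG' : mulSeries G' p = PowerSeries.X ^ (p ^ n)) :
    mulSeries G p = PowerSeries.X ^ (p ^ n) := by
  refine ev_inj hθ.1 hu (LT93.hasSubst_mulSeries G p) hasSubst_Xpow ?_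
  have h1 := LT93.hom_mulSeries hθ p
  rw [hG'] at h1
  have h2 : LT93.ev (PowerSeries.X ^ (p ^ n) : PowerSeries (GaloisField p n)) θ =
      θ ^ (p ^ n) := by
    have hs : PowerSeries.HasSubst θ := LT93.hasSubst_of θ hθ.1
    unfold LT93.ev
    rw [PowerSeries.subst_pow hs, PowerSeries.subst_X hs]
  rw [h2, pow_q hn] at h1
  exact h1

end GF

section Step

variable {K : Type*} [Field K]

theorem dpoly_eq {σ : Type*} {N : ℕ} (hN : 2 ≤ N) (a : ℕ → K) (b : K) (h0 : a 0 = 0)
    (hNN : a N = 0) (h : ∀ i, 1 ≤ i → i < N → a i = b * (N.choose i : K))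
    (x y : MvPowerSeries σ K) :
    dpoly N a x y = b • ((x + y) ^ N - x ^ N - y ^ N) := by
  obtain ⟨M, rfl⟩ : ∃ M, N = M + 1 := ⟨N - 1, by omega⟩
  unfold dpoly
  rw [add_pow, Finset.sum_range_succ, Finset.sum_range_succ' _ M, Finset.sum_range_succ,
    Finset.sum_range_succ' _ M, h0, hNN]
  simp only [zero_smul, add_zero, Nat.choose_self, Nat.choose_zero_right, Nat.cast_one, mul_one,
    pow_zero, one_mul, Nat.sub_zero, Nat.sub_self]
  have e : ∑ i ∈ Finset.range M, a (i + 1) • (x ^ (i + 1) * y ^ (M + 1 - (i + 1))) =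
      b • ∑ i ∈ Finset.range M, x ^ (i + 1) * y ^ (M + 1 - (i + 1)) *
        (((M + 1).choose (i + 1) : ℕ) : MvPowerSeries σ K) := by
    rw [Finset.smul_sum]
    refine Finset.sum_congr rfl fun i hi => ?_
    have := Finset.mem_range.mp hi
    rw [h (i + 1) (by omega) (by omega), mul_smul, Nat.cast_smul_eq_nsmul, nsmul_eq_mul,
      mul_comm (((M + 1).choose (i + 1) : ℕ) : MvPowerSeries σ K)]
  rw [e]
  congr 1
  ring

/-- `(C(N,i)/p)`-sums -/
theorem sum_std (p c : ℕ) [hp : Fact p.Prime] [CharP K p] (hc : 1 ≤ c) :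
    (∑ l ∈ Finset.range p, ∑ i ∈ Finset.range (p ^ c + 1),
      (((p ^ c).choose i / p : ℕ) : K) * (l : K) ^ i) = -1 := by
  have hp2 := hp.1.two_le
  have hN : 2 ≤ p ^ c := by
    calc 2 ≤ p := hp2
      _ = p ^ 1 := (pow_one p).symm
      _ ≤ p ^ c := Nat.pow_le_pow_right hp.1.pos hc
  set N := p ^ c with hNdef
  have key : ∀ l : ℕ, p * (∑ i ∈ Finset.range (N + 1), (N.choose i / p) * l ^ i) + l ^ N + 1 =
      (l + 1) ^ N := by
    intro l
    rw [add_pow, Finset.mul_sum]
    obtain ⟨M, hM⟩ : ∃ M, N = M + 1 := ⟨N - 1, by omega⟩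
    rw [hM, Finset.sum_range_succ, Finset.sum_range_succ' _ M, Finset.sum_range_succ _ (M + 1),
      Finset.sum_range_succ' _ M]
    simp only [one_pow, mul_one, Nat.choose_self, Nat.choose_zero_right, pow_zero, Nat.cast_id,
      Nat.div_eq_of_lt (show 1 < p by omega), zero_mul, mul_zero, add_zero]
    have e : ∀ i ∈ Finset.range M, p * (((M + 1).choose (i + 1) / p) * l ^ (i + 1)) =
        l ^ (i + 1) * (M + 1).choose (i + 1) := by
      intro i hi
      have h1 := Finset.mem_range.mp hi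
      obtain ⟨x, hx⟩ := LzCoc.dvd_choose_pow p c (i + 1) (by omega) (by omega)
      rw [← hNdef, hM] at hx
      rw [hx, Nat.mul_div_cancel_left _ hp.1.pos]
      ring
    rw [Finset.sum_congr rfl e]
    ring
  have h2 : p * (∑ l ∈ Finset.range p, ∑ i ∈ Finset.range (N + 1), (N.choose i / p) * l ^ i) + p =
      p ^ N := by
    have h3 : ∀ m : ℕ, p * (∑ l ∈ Finset.range m, ∑ i ∈ Finset.range (N + 1),
        (N.choose i / p) * l ^ i) + m = m ^ N := by
      intro m
      induction m with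
      | zero => simp [zero_pow (show N ≠ 0 by omega)]
      | succ m ih =>
        rw [Finset.sum_range_succ, mul_add, ← key m, ← ih]
        ring
    exact h3 p
  have h4 : (∑ l ∈ Finset.range p, ∑ i ∈ Finset.range (N + 1), (N.choose i / p) * l ^ i) + 1 =
      p * p ^ (N - 2) := by
    apply Nat.eq_of_mul_eq_mul_left hp.1.pos
    rw [mul_add, mul_one, h2, ← mul_assoc, ← pow_two, ← pow_add]
    congr 1; omega
  have h5 := congrArg (Nat.cast (R := K)) h4
  push_cast at h5
  rw [CharP.cast_eq_zero, zero_mul] at h5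
  exact eq_neg_of_add_eq_zero_left h5

end Step

section Main

variable {p : ℕ} [hp : Fact p.Prime] {n : ℕ}

/-- `ψ ∘ G ≡ G' ∘ (ψ, ψ)` below degree `N` -/
def Apx (G G' : FormalGroup (GaloisField p n)) (N : ℕ) (ψ : PowerSeries (GaloisField p n)) :
    Prop :=
  PowerSeries.constantCoeff ψ = 0 ∧ PowerSeries.coeff 1 ψ = 1 ∧
    LT93.ev ψ G.toPowerSeries - LT93.op G' (LT93.ev ψ (X 0)) (LT93.ev ψ (X 1)) ∈
      (Jd N : Ideal (MvPowerSeries (Fin 2) (GaloisField p n)))

theorem step (hn : 1 ≤ n) (G G' : FormalGroup (GaloisField p n)) [G.IsComm] [G'.IsComm]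
    (hG : mulSeries G p = PowerSeries.X ^ (p ^ n))
    (hG' : mulSeries G' p = PowerSeries.X ^ (p ^ n)) {N : ℕ} (hN : 2 ≤ N)
    {ψ : PowerSeries (GaloisField p n)} (hψ : Apx G G' N ψ) :
    ∃ ψ' : PowerSeries (GaloisField p n), Apx G G' (N + 1) ψ' ∧
      ψ' - ψ ∈ (Jd N : Ideal (MvPowerSeries Unit (GaloisField p n))) := by
  obtain ⟨h0, h1, hP⟩ := hψ
  have hu : IsUnit (PowerSeries.coeff 1 ψ) := by rw [h1]; exact isUnit_one
  set G₂ := LT93.conj G' ψ h0 hu with hG₂def
  have hG₂ : IsFGHom G₂ G' ψ := LT93.conj_hom G' ψ h0 hu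
  have hG₂p : mulSeries G₂ p = PowerSeries.X ^ (p ^ n) := mulSeries_of_hom hn hG₂ hu hG'
  have : G₂.IsComm := by rw [hG₂def]; infer_instance
  have x0 := X_mem (R := GaloisField p n) (0 : Fin 2)
  have x1 := X_mem (R := GaloisField p n) (1 : Fin 2)
  have hψ1 : ψ ∈ (Jd 1 : Ideal (MvPowerSeries Unit (GaloisField p n))) := one_iff_ps.mpr h0
  have hψG₂ : LT93.ev ψ G₂.toPowerSeries = LT93.op G' (LT93.ev ψ (X 0)) (LT93.ev ψ (X 1)) := by
    have := LT93.hom_apply hG₂ (LT93.hX (0 : Fin 2)) (LT93.hX 1)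
    rwa [LT93.op_X] at this
  have sG : PowerSeries.HasSubst G.toPowerSeries :=
    PowerSeries.HasSubst.of_constantCoeff_zero G.zero_constantCoeff
  have sG₂ : PowerSeries.HasSubst G₂.toPowerSeries :=
    PowerSeries.HasSubst.of_constantCoeff_zero G₂.zero_constantCoeff
  have hD : G.toPowerSeries - G₂.toPowerSeries ∈
      (Jd N : Ideal (MvPowerSeries (Fin 2) (GaloisField p n))) := by
    rw [← hψG₂] at hP
    have hc1 : LT93.cinv ψ hu ∈ (Jd 1 : Ideal (MvPowerSeries Unit (GaloisField p n))) :=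
      one_iff_ps.mpr (LT93.constantCoeff_cinv ψ hu)
    have h2 := ev_sub_ev (by omega : 1 ≤ N) hc1 (ev_mem hψ1 (FG_mem G)) (ev_mem hψ1 (FG_mem G₂)) hP
    rw [LT93.ev_cinv_ev ψ h0 hu sG, LT93.ev_cinv_ev ψ h0 hu sG₂, Nat.add_sub_cancel] at h2
    exact h2
  set a := dc G G₂ N with ha
  have ha0 : a 0 = 0 := dc_zero G G₂ hN
  have hsymm : ∀ i ≤ N, a i = a (N - i) := fun i hi => dc_symm G G₂ hD i hi
  have haN : a N = 0 := by
    have := hsymm 0 (Nat.zero_le N)
    rw [Nat.sub_zero, ha0] at this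
    exact this.symm
  have hDd := sub_dpoly_mem hD
  change G.toPowerSeries - G₂.toPowerSeries - dpoly N a (X 0) (X 1) ∈
      (Jd (N + 1) : Ideal (MvPowerSeries (Fin 2) (GaloisField p n))) at hDd
  rcases lazard_cocycle p N hN a ha0 haN hsymm (fun i j hi hj hij => dc_coc G G₂ hD hN i j hi hj hij)
    with ⟨b, hb⟩ | ⟨c, hc, hc1, b, hb⟩
  · -- kill by `X - b X^N`
    rw [dpoly_eq hN a b ha0 haN hb] at hDd
    set θ : PowerSeries (GaloisField p n) := PowerSeries.X - b • PowerSeries.X ^ N with hθ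
    have hXN : (PowerSeries.X ^ N : PowerSeries (GaloisField p n)) ∈
        (Jd N : Ideal (MvPowerSeries Unit (GaloisField p n))) := by
      have := Jd_pow (X_mem (R := GaloisField p n) ()) N
      rwa [mul_one] at this
    have hθX : θ - PowerSeries.X ∈ (Jd N : Ideal (MvPowerSeries Unit (GaloisField p n))) := by
      have : θ - PowerSeries.X = -(b • PowerSeries.X ^ N) := by rw [hθ]; ring
      rw [this]
      exact neg_mem (smul_mem_Jd b hXN)
    have hX1 : (PowerSeries.X : PowerSeries (GaloisField p n)) ∈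
        (Jd 1 : Ideal (MvPowerSeries Unit (GaloisField p n))) := X_mem ()
    have hθ1 : θ ∈ (Jd 1 : Ideal (MvPowerSeries Unit (GaloisField p n))) := by
      have := add_mem (Jd_mono (by omega : 1 ≤ N) hθX) hX1
      rwa [sub_add_cancel] at this
    have hθ0 : PowerSeries.constantCoeff θ = 0 := one_iff_ps.mp hθ1
    have evθ : ∀ {x : MvPowerSeries (Fin 2) (GaloisField p n)},
        x ∈ (Jd 1 : Ideal (MvPowerSeries (Fin 2) (GaloisField p n))) →
        LT93.ev θ x = x - b • x ^ N := by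
      intro x hx
      have hs : PowerSeries.HasSubst x :=
        PowerSeries.HasSubst.of_constantCoeff_zero (Jd_one_iff.mp hx)
      unfold LT93.ev
      rw [hθ, ← PowerSeries.coe_substAlgHom (R := GaloisField p n) hs, _root_.map_sub,
        _root_.map_smul, _root_.map_pow, PowerSeries.coe_substAlgHom, PowerSeries.subst_X hs]
    have hGN : G.toPowerSeries ^ N - (X 0 + X 1) ^ N ∈
        (Jd (N + 1) : Ideal (MvPowerSeries (Fin 2) (GaloisField p n))) := by
      have : Cg 2 1 G.toPowerSeries (X 0 + X 1) := ⟨FG_mem G, add_mem x0 x1, FG_sub_mem G⟩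
      exact Jd_mono (by omega) (this.pow (by norm_num) N).d
    have t0 : ∀ i : Fin 2, LT93.ev θ (X i) - X i ∈
        (Jd N : Ideal (MvPowerSeries (Fin 2) (GaloisField p n))) := by
      intro i
      rw [evθ (X_mem i)]
      have e : (X i - b • X i ^ N - X i : MvPowerSeries (Fin 2) (GaloisField p n)) =
          -(b • X i ^ N) := by ring
      rw [e]
      refine neg_mem (smul_mem_Jd b ?_)
      have := Jd_pow (X_mem (R := GaloisField p n) i) N
      rwa [mul_one] at this
    have hop := op_sub_op G₂ (by omega : 1 ≤ N) (ev_mem hθ1 x0) (ev_mem hθ1 x1) x0 x1 (t0 0) (t0 1)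
    rw [LT93.op_X, evθ x0, evθ x1] at hop
    have hmain : LT93.ev θ G.toPowerSeries - LT93.op G₂ (LT93.ev θ (X 0)) (LT93.ev θ (X 1)) ∈
        (Jd (N + 1) : Ideal (MvPowerSeries (Fin 2) (GaloisField p n))) := by
      rw [evθ (FG_mem G), evθ x0, evθ x1]
      have := sub_mem (sub_mem hDd (smul_mem_Jd b hGN)) hop
      convert this using 1
      simp only [smul_sub]
      ring
    have h2 := ev_sub_ev (by omega : 1 ≤ N + 1) hψ1 (ev_mem hθ1 (FG_mem G))
      (op_mem G₂ (ev_mem hθ1 x0) (ev_mem hθ1 x1)) hmain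
    rw [Nat.add_sub_cancel, LT93.ev_ev hθ0 sG,
      LT93.hom_apply hG₂ (LT93.hasSubst_ev hθ0 (LT93.hX 0)) (LT93.hasSubst_ev hθ0 (LT93.hX 1)),
      LT93.ev_ev hθ0 (LT93.hX 0), LT93.ev_ev hθ0 (LT93.hX 1)] at h2
    have h3 := ev_sub_ev (by omega : 1 ≤ N) hψ1 hθ1 hX1 hθX
    rw [Nat.add_sub_cancel] at h3
    have e3 : (LT93.ev ψ (PowerSeries.X : PowerSeries (GaloisField p n)) :
        PowerSeries (GaloisField p n)) = ψ := LT93.ev_self_X ψ
    rw [e3] at h3
    have h4 := mem_Jd_ps.mp h3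
    refine ⟨LT93.ev ψ θ, ⟨?_, ?_, h2⟩, h3⟩
    · exact LT93.constantCoeff_ev h0 hθ0
    · have := h4 1 (by omega)
      rw [_root_.map_sub, h1, sub_eq_zero] at this
      exact this
  · -- `N = p ^ c`
    have hm := mulSeries_sub G G₂ hD hN p
    rw [hG, hG₂p, sub_self, zero_sub] at hm
    have hE : (∑ l ∈ Finset.range p, ∑ i ∈ Finset.range (N + 1), dc G G₂ N i *
        (l : GaloisField p n) ^ i) = -b := by
      have e : ∀ l ∈ Finset.range p, ∑ i ∈ Finset.range (N + 1), dc G G₂ N i *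
          (l : GaloisField p n) ^ i = b * ∑ i ∈ Finset.range (N + 1),
            ((N.choose i / p : ℕ) : GaloisField p n) * (l : GaloisField p n) ^ i := by
        intro l _
        rw [Finset.mul_sum]
        refine Finset.sum_congr rfl fun i hi => ?_
        have hi' := Finset.mem_range.mp hi
        rw [← ha, ← mul_assoc]
        congr 1
        have hp2 := hp.1.two_le
        rcases Nat.eq_zero_or_pos i with h2 | h2
        · subst h2; rw [ha0]; simp [Nat.div_eq_of_lt (show 1 < p by omega)]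
        · rcases Nat.lt_or_ge i N with h3 | h3
          · exact hb i h2 h3
          · have : i = N := by omega
            subst this; rw [haN]; simp [Nat.div_eq_of_lt (show 1 < p by omega)]
      rw [Finset.sum_congr rfl e, ← Finset.mul_sum]
      have h5 := sum_std (K := GaloisField p n) p c hc1
      rw [← hc] at h5
      rw [h5]; ring
    rw [hE] at hm
    have h6 := mem_Jd_ps.mp hm N (Nat.lt_succ_self N)
    rw [_root_.map_neg, _root_.map_smul, PowerSeries.coeff_X_pow_self, smul_eq_mul, mul_one, neg_neg] at h6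
    have haz : ∀ i ∈ Finset.range (N + 1), a i = 0 := by
      intro i hi
      have hi' := Finset.mem_range.mp hi
      rcases Nat.eq_zero_or_pos i with h2 | h2
      · subst h2; exact ha0
      · rcases Nat.lt_or_ge i N with h3 | h3
        · rw [hb i h2 h3, h6, zero_mul]
        · have : i = N := by omega
          subst this; exact haN
    have hz : dpoly N a (X 0) (X 1) = (0 : MvPowerSeries (Fin 2) (GaloisField p n)) := by
      unfold dpoly
      refine Finset.sum_eq_zero fun i hi => ?_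
      rw [haz i hi, zero_smul]
    rw [hz, sub_zero] at hDd
    have h2 := ev_sub_ev (by omega : 1 ≤ N + 1) hψ1 (FG_mem G) (FG_mem G₂) hDd
    rw [Nat.add_sub_cancel, hψG₂] at h2
    exact ⟨ψ, ⟨h0, h1, h2⟩, by rw [sub_self]; exact zero_mem _⟩

theorem apx_two (G G' : FormalGroup (GaloisField p n)) : Apx G G' 2 PowerSeries.X := by
  refine ⟨PowerSeries.constantCoeff_X, PowerSeries.coeff_one_X, ?_⟩
  have sG : PowerSeries.HasSubst G.toPowerSeries :=
    PowerSeries.HasSubst.of_constantCoeff_zero G.zero_constantCoeff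
  rw [LT93.ev_X sG, LT93.ev_X (LT93.hX 0), LT93.ev_X (LT93.hX 1), LT93.op_X]
  have := sub_mem (FG_sub_mem G) (FG_sub_mem G')
  convert this using 1
  ring

end Main

end Lz

theorem exists_strict_iso {p : ℕ} [Fact p.Prime] {n : ℕ} (hn : 1 ≤ n)
    (G G' : FormalGroup (GaloisField p n)) [G.IsComm] [G'.IsComm]
    (hG : mulSeries G p = PowerSeries.X ^ (p ^ n))
    (hG' : mulSeries G' p = PowerSeries.X ^ (p ^ n)) :
    ∃ ψ : PowerSeries (GaloisField p n), IsFGHom G G' ψ ∧ PowerSeries.coeff 1 ψ = 1 := by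
  choose! f hf using fun (k : ℕ) (ψ : PowerSeries (GaloisField p n)) (h : Lz.Apx G G' (k + 2) ψ) =>
    Lz.step hn G G' hG hG' (by omega : 2 ≤ k + 2) h
  let seq : ℕ → PowerSeries (GaloisField p n) := fun k =>
    Nat.rec PowerSeries.X (fun k ψ => f k ψ) k
  have hseq0 : seq 0 = PowerSeries.X := rfl
  have hseqS : ∀ k, seq (k + 1) = f k (seq k) := fun _ => rfl
  have hA : ∀ k, Lz.Apx G G' (k + 2) (seq k) := by
    intro k
    induction k with
    | zero => rw [hseq0]; exact Lz.apx_two G G'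
    | succ k ih => rw [hseqS]; exact (hf k _ ih).1
  have hS : ∀ k, seq (k + 1) - seq k ∈
      (Lz.Jd (k + 2) : Ideal (MvPowerSeries Unit (GaloisField p n))) := by
    intro k; rw [hseqS]; exact (hf k _ (hA k)).2
  have hSS : ∀ j k, j ≤ k → seq k - seq j ∈
      (Lz.Jd (j + 2) : Ideal (MvPowerSeries Unit (GaloisField p n))) := by
    intro j k hjk
    induction k, hjk using Nat.le_induction with
    | base => rw [sub_self]; exact zero_mem _
    | succ k hjk ih =>
      have := add_mem (Lz.Jd_mono (by omega) (hS k)) ih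
      rwa [sub_add_sub_cancel] at this
  let ψ : PowerSeries (GaloisField p n) := PowerSeries.mk fun m => PowerSeries.coeff m (seq m)
  have hψ : ∀ k, ψ - seq k ∈ (Lz.Jd (k + 2) : Ideal (MvPowerSeries Unit (GaloisField p n))) := by
    intro k
    refine Lz.mem_Jd_ps.mpr fun m hm => ?_
    rw [_root_.map_sub, PowerSeries.coeff_mk, sub_eq_zero]
    rcases Nat.lt_or_ge k m with h1 | h1
    · have h2 := Lz.mem_Jd_ps.mp (hSS k m h1.le) m hm
      rwa [_root_.map_sub, sub_eq_zero] at h2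
    · have h2 := Lz.mem_Jd_ps.mp (hSS m k h1) m (by omega)
      rw [_root_.map_sub, sub_eq_zero] at h2
      exact h2.symm
  have hψ0 : PowerSeries.constantCoeff ψ = 0 := by
    have h1 := Lz.mem_Jd_ps.mp (hψ 0) 0 (by norm_num)
    rw [_root_.map_sub, sub_eq_zero, PowerSeries.coeff_zero_eq_constantCoeff_apply,
      PowerSeries.coeff_zero_eq_constantCoeff_apply, (hA 0).1] at h1
    exact h1
  have hψ1 : PowerSeries.coeff 1 ψ = 1 := by
    have h1 := Lz.mem_Jd_ps.mp (hψ 0) 1 (by norm_num)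
    rwa [_root_.map_sub, sub_eq_zero, (hA 0).2.1] at h1
  refine ⟨ψ, LT93.hom_of_apply hψ0 ?_, hψ1⟩
  rw [LT93.op_X]
  refine Lz.eq_of_forall fun N => ?_
  have x0 := Lz.X_mem (R := GaloisField p n) (0 : Fin 2)
  have x1 := Lz.X_mem (R := GaloisField p n) (1 : Fin 2)
  have hp1 := Lz.one_iff_ps.mpr hψ0
  have hs1 := Lz.one_iff_ps.mpr (hA N).1
  have d : ∀ {x : MvPowerSeries (Fin 2) (GaloisField p n)},
      x ∈ (Lz.Jd 1 : Ideal (MvPowerSeries (Fin 2) (GaloisField p n))) →
      LT93.ev ψ x - LT93.ev (seq N) x ∈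
        (Lz.Jd (N + 2) : Ideal (MvPowerSeries (Fin 2) (GaloisField p n))) := by
    intro x hx
    rw [← Lz.ev_sub hx]
    exact Lz.ev_mem (hψ N) hx
  have h1 := d (Lz.FG_mem G)
  have h2 := Lz.subst_sub_subst_mem (by omega : 1 ≤ N + 2) (Lz.FG_mem G')
    (Lz.pair_mem (Lz.ev_mem hp1 x0) (Lz.ev_mem hp1 x1))
    (Lz.pair_mem (Lz.ev_mem hs1 x0) (Lz.ev_mem hs1 x1)) (Lz.pair_sub_mem (d x0) (d x1))
  rw [Nat.add_sub_cancel] at h2
  have h3 := add_mem (sub_mem h1 h2) (hA N).2.2
  refine Lz.Jd_mono (by omega : N ≤ N + 2) ?_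
  convert h3 using 1
  unfold LT93.op
  ring

end Crest.Agent.LT
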