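import Mathlib
import Crest.Prelude.Def_LubinTate
import Crest.Agent.LT.FG
import Crest.Agent.LT.Lazard
import Crest.Agent.LT.LTGroup

/-! # A5: `End(Γ)` is large (row 227). -/

set_option autoImplicit false
set_option linter.unusedSectionVars false

namespace Crest.Agent.LT

open Crest.LubinTate MvPowerSeries

variable {p : ℕ} [Fact p.Prime] {n : ℕ}

/-- for all `ζ ∈ k` and `m` there is an endomorphism `ζ X^(p^m) + ...` -/
theorem exists_End (hn : 1 ≤ n) (Γ : FormalGroup (GaloisField p n)) [Γ.IsComm]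
    (hΓ : mulSeries Γ p = PowerSeries.X ^ (p ^ n)) (ζ : GaloisField p n) (m : ℕ) :
    ∃ δ : PowerSeries (GaloisField p n), IsFGHom Γ Γ δ ∧
      (∀ i < p ^ m, PowerSeries.coeff i δ = 0) ∧ PowerSeries.coeff (p ^ m) δ = ζ := by
  by_cases hζ : ζ = 0
  · subst hζ
    exact ⟨0, IsFGHom.zero Γ Γ, fun i _ => by simp, by simp⟩
  -- the twist by Frobenius
  set F₁ := Γ.map (iterateFrobenius (GaloisField p n) p m) with hF₁
  have hF₁c : F₁.IsComm := map_isComm Γ _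
  have hF₁p : mulSeries F₁ p = PowerSeries.X ^ (p ^ n) := by
    rw [hF₁, mulSeries_map, hΓ, map_pow, PowerSeries.map_X]
  have hfrob : IsFGHom Γ F₁ (PowerSeries.X ^ (p ^ m)) := isFGHom_frobenius p Γ m
  -- the twist by `ζ`
  set θ : PowerSeries (GaloisField p n) := ζ⁻¹ • PowerSeries.X with hθ
  have hθ0 : PowerSeries.constantCoeff θ = 0 := by simp [hθ]
  have hθ1 : PowerSeries.coeff 1 θ = ζ⁻¹ := by
    rw [hθ, _root_.map_smul, PowerSeries.coeff_one_X, smul_eq_mul, mul_one]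
  have hθu : IsUnit (PowerSeries.coeff 1 θ) := by
    rw [hθ1]; exact (inv_ne_zero hζ).isUnit
  have hG : IsFGHom (LT93.conj F₁ θ hθ0 hθu) F₁ θ := LT93.conj_hom F₁ θ hθ0 hθu
  set G := LT93.conj F₁ θ hθ0 hθu with hGdef
  have hGc : G.IsComm := by rw [hGdef]; infer_instance
  have hGp : mulSeries G p = PowerSeries.X ^ (p ^ n) := Lz.mulSeries_of_hom hn hG hθu hF₁p
  obtain ⟨χ, hχ, -, hχ1, hχ2⟩ := IsFGHom.exists_inv hG hθu
  obtain ⟨ψ, hψ, hψ1⟩ := exists_strict_iso hn G Γ hGp hΓ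
  have hχc : PowerSeries.coeff 1 χ = ζ := by
    have h1 := Lz.coeff_one_ev χ θ hχ.1 hθ0
    have h2 : (LT93.ev χ θ : PowerSeries (GaloisField p n)) = PowerSeries.X := hχ1
    rw [h2, PowerSeries.coeff_one_X, hθ1] at h1
    field_simp at h1
    exact h1.symm
  have hcomp := LT93.hom_comp hχ hψ
  have hc1 : PowerSeries.coeff 1 (LT93.ev ψ χ : PowerSeries (GaloisField p n)) = ζ := by
    rw [Lz.coeff_one_ev ψ χ hψ.1 hχ.1, hψ1, hχc, one_mul]
  have hpm : p ^ m ≠ 0 := pow_ne_zero m (Fact.out : p.Prime).ne_zero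
  have he : (LT93.ev (LT93.ev ψ χ : PowerSeries (GaloisField p n))
      (PowerSeries.X ^ (p ^ m) : PowerSeries (GaloisField p n)) : PowerSeries (GaloisField p n)) =
      PowerSeries.expand (p ^ m) hpm (LT93.ev ψ χ : PowerSeries (GaloisField p n)) := by
    rw [PowerSeries.expand_apply]; rfl
  refine ⟨_, LT93.hom_comp hfrob hcomp, fun i hi => ?_, ?_⟩
  · rw [he, PowerSeries.coeff_expand]
    split_ifs with h
    · obtain ⟨j, rfl⟩ := h
      rw [Nat.mul_div_cancel_left _ (Nat.pos_of_ne_zero hpm)]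
      have hj : j = 0 := by
        by_contra hj
        have : p ^ m * 1 ≤ p ^ m * j := Nat.mul_le_mul_left _ (Nat.pos_of_ne_zero hj)
        omega
      rw [hj, PowerSeries.coeff_zero_eq_constantCoeff_apply]
      exact hcomp.1
    · rfl
  · have h1 := PowerSeries.coeff_expand_mul (p ^ m) hpm
      (LT93.ev ψ χ : PowerSeries (GaloisField p n)) 1
    rw [mul_one] at h1
    rw [he, h1, hc1]

/-- `Γ` is strictly isomorphic to the model. -/
theorem exists_iso_model (hn : 1 ≤ n) (Γ : FormalGroup (GaloisField p n)) [Γ.IsComm]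
    (hΓ : mulSeries Γ p = PowerSeries.X ^ (p ^ n)) :
    ∃ (Γ₀ : FormalGroup (GaloisField p n)) (ψ : PowerSeries (GaloisField p n)), Γ₀.IsComm ∧
      mulSeries Γ₀ p = PowerSeries.X ^ (p ^ n) ∧
      (∀ ζ : GaloisField p n, IsFGHom Γ₀ Γ₀ (PowerSeries.C ζ * PowerSeries.X)) ∧
      IsFGHom Γ₀ Γ₀ (PowerSeries.X ^ p) ∧ IsFGHom Γ Γ₀ ψ ∧ PowerSeries.coeff 1 ψ = 1 := by
  obtain ⟨Γ₀, h1, h2, h3, h4⟩ := exists_model p n hn
  obtain ⟨ψ, hψ, hψ1⟩ := exists_strict_iso hn Γ Γ₀ hΓ h2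
  exact ⟨Γ₀, ψ, h1, h2, h3, h4, hψ, hψ1⟩

end Crest.Agent.LT
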