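import Mathlib
import Crest.Prelude.Def_LubinTate
import Crest.Agent.LT.FG
import Crest.Agent.LT.EndGamma
import Crest.Agent.LT.Char0Log
import Crest.Agent.LT.Char0IndepA

/-! # Part B (characteristic 0): the logs of endomorphisms span `≥ n` dimensions modulo bounded
series (row 227).

Notation: `O` a domain, local, residue field `k = F_q` via `r`, `m_O^e ⊆ pO`, `H` over `O` lifting
`Γ`, `L = Frac O`, `V = L[[X]]/Bdd`.  For `α ∈ k[[X]]` (zero constant term) the class
`λ(α) = [log ∘ α~] ∈ V` does not depend on the lift (`lg_bdd_of_map_eq_zero`), and is additive.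
`R_β : V → V, f ↦ f ∘ β~` satisfies `R_β λ(α) = λ(α∘β)`.  Let `W = span λ(End Γ) ≤ (U + Bdd)/Bdd`, so
`dim W < n`.  On `W`: `Z = R_[ζ]` (`ζ` generator of `k^*`, `[ζ]` the endomorphism corresponding to
`ζX` in the model), `T = R_Π` (`Π` = `X^p` in the model, `Π^n = [p]`), `Z T = T Z^p`, `T^n = p`,
`Z^{q-1} = 1`; for `1 ≤ d < n` the element `[ζ]^{p^d-1} - 1` is an automorphism, so `Z^{p^d-1} - 1` is
invertible on `W`.  `W ≠ 0` since `log ∉ Bdd`.  Take an eigenvector `v` of `Z` (the `(q-1)`-th roots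
of unity are in `O`), eigenvalue `μ`; then `T^s v`, `0 ≤ s < n`, are eigenvectors with eigenvalues
`μ^{p^s}`, pairwise distinct as `μ^{p^d-1} ≠ 1`; so `dim W ≥ n`, contradiction. -/

set_option autoImplicit false
set_option linter.unusedSectionVars false

namespace Crest.Agent.LT

open Crest.LubinTate

section Bdd

variable (O : Type*) [CommRing O] [IsDomain O] (L : Type*) [Field L] [Algebra O L]
  [IsFractionRing O L]

/-- power series over `L` whose coefficients have a common denominator in `O` -/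
def Bdd : Submodule L (PowerSeries L) where
  carrier := {f | ∃ b : O, b ≠ 0 ∧ ∀ m, ∃ c : O,
    algebraMap O L b * PowerSeries.coeff m f = algebraMap O L c}
  add_mem' := by
    rintro f g ⟨b, hb, hf⟩ ⟨b', hb', hg⟩
    refine ⟨b * b', mul_ne_zero hb hb', fun m => ?_⟩
    obtain ⟨c, hc⟩ := hf m
    obtain ⟨c', hc'⟩ := hg m
    refine ⟨b' * c + b * c', ?_⟩
    simp only [map_add, map_mul]
    linear_combination (algebraMap O L b') * hc + (algebraMap O L b) * hc'
  zero_mem' := ⟨1, one_ne_zero, fun m => ⟨0, by simp⟩⟩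
  smul_mem' := by
    rintro l f ⟨b, hb, hf⟩
    obtain ⟨x, y, hy, hl⟩ := IsFractionRing.div_surjective (A := O) l
    have hy0 : y ≠ 0 := nonZeroDivisors.ne_zero hy
    refine ⟨b * y, mul_ne_zero hb hy0, fun m => ?_⟩
    obtain ⟨c, hc⟩ := hf m
    refine ⟨x * c, ?_⟩
    have hyL : algebraMap O L y ≠ 0 := by
      rw [Ne, FaithfulSMul.algebraMap_eq_zero_iff]; exact hy0
    rw [PowerSeries.coeff_smul, ← hl, smul_eq_mul]
    simp only [map_mul]
    rw [← hc]
    field_simp

variable {O L}

theorem mem_Bdd {f : PowerSeries L} : f ∈ Bdd O L ↔ ∃ b : O, b ≠ 0 ∧ ∀ m, ∃ c : O,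
    algebraMap O L b * PowerSeries.coeff m f = algebraMap O L c := Iff.rfl

theorem map_mem_Bdd (α : PowerSeries O) : PowerSeries.map (algebraMap O L) α ∈ Bdd O L :=
  ⟨1, one_ne_zero, fun m => ⟨PowerSeries.coeff m α, by simp⟩⟩

/-- bounded series are stable under substitution of integral series -/
theorem subst_mem_Bdd {f : PowerSeries L} (hf : f ∈ Bdd O L) (β : PowerSeries O)
    (hβ : PowerSeries.constantCoeff β = 0) :
    PowerSeries.subst (PowerSeries.map (algebraMap O L) β) f ∈ Bdd O L := by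
  obtain ⟨b, hb, hf⟩ := hf
  choose c hc using hf
  have hβs : PowerSeries.HasSubst β := PowerSeries.HasSubst.of_constantCoeff_zero' hβ
  have hβs' : PowerSeries.HasSubst (PowerSeries.map (algebraMap O L) β) := LT93.hasSubst_map hβs
  have h1 : PowerSeries.C (algebraMap O L b) * f =
      PowerSeries.map (algebraMap O L) (PowerSeries.mk c) := by
    ext m
    rw [PowerSeries.coeff_C_mul, PowerSeries.coeff_map, PowerSeries.coeff_mk, hc]
  have h2 : PowerSeries.C (algebraMap O L b) *
      (PowerSeries.subst (PowerSeries.map (algebraMap O L) β) f : PowerSeries L) =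
      PowerSeries.map (algebraMap O L) (PowerSeries.subst β (PowerSeries.mk c)) := by
    have h3 : PowerSeries.map (algebraMap O L) (PowerSeries.subst β (PowerSeries.mk c)) =
        (PowerSeries.subst (PowerSeries.map (algebraMap O L) β)
      (PowerSeries.map (algebraMap O L) (PowerSeries.mk c)) : PowerSeries L) :=
      PowerSeries.map_subst hβs _
    rw [h3, ← h1, PowerSeries.subst_mul hβs', PowerSeries.subst_C]
    rfl
  refine ⟨b, hb, fun m => ⟨PowerSeries.coeff m (PowerSeries.subst β (PowerSeries.mk c)), ?_⟩⟩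
  have h3 := congrArg (PowerSeries.coeff m) h2
  rw [PowerSeries.coeff_C_mul] at h3
  rw [h3]
  exact PowerSeries.coeff_map _ _ _

end Bdd

/-- properties of the local ring `O = E/q` -/
structure IsPt0 (p n : ℕ) [Fact p.Prime] (O : Type) [CommRing O] [IsDomain O] [IsLocalRing O]
    (r : O →+* GaloisField p n) : Prop where
  surj : Function.Surjective r
  ker : RingHom.ker r = IsLocalRing.maximalIdeal O
  nilp : ∃ e : ℕ, IsLocalRing.maximalIdeal O ^ e ≤ Ideal.span {(p : O)}
  ne : (p : O) ≠ 0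
  teich : ∀ ζ : GaloisField p n, ∃ w : O, r w = ζ ∧ w ^ (p ^ n) = w

section

variable {p n : ℕ} [Fact p.Prime] {O : Type} [CommRing O] [IsDomain O] [IsLocalRing O]
  [IsNoetherianRing O] {r : O →+* GaloisField p n}

theorem IsPt0.isUnit (hpt : IsPt0 p n O r) (m : ℕ) (hm : ¬ p ∣ m) : IsUnit (m : O) := by
  by_contra h
  have h1 : (m : O) ∈ IsLocalRing.maximalIdeal O := (IsLocalRing.mem_maximalIdeal _).2 h
  rw [← hpt.ker, RingHom.mem_ker, map_natCast, CharP.cast_eq_zero_iff (GaloisField p n) p] at h1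
  exact hm h1

theorem IsPt0.charZero (hpt : IsPt0 p n O r) : CharZero O := by
  refine charZero_of_inj_zero (fun m hm => ?_)
  by_contra hm0
  obtain ⟨e, m', h1, h2⟩ := Nat.exists_eq_pow_mul_and_not_dvd hm0 p
    (Nat.Prime.ne_one (Fact.out : p.Prime))
  rw [h2, Nat.cast_mul, Nat.cast_pow] at hm
  rcases mul_eq_zero.1 hm with h | h
  · exact pow_ne_zero e hpt.ne h
  · exact (hpt.isUnit m' h1).ne_zero h

variable {L : Type} [Field L] [CharZero L] [Algebra O L] [IsFractionRing O L]
  {Γ : FormalGroup (GaloisField p n)} [Γ.IsComm]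

theorem ind_ideal1 (A P M : Ideal O) : (A ⊔ P) * M ≤ A * M ⊔ P := by
  rw [Ideal.sup_mul]
  exact sup_le le_sup_left (le_trans Ideal.mul_le_left le_sup_right)

theorem ind_ideal2 (A P : Ideal O) : P ⊔ (A ⊔ P) * (A ⊔ P) ≤ A * A ⊔ P := by
  refine sup_le le_sup_right ?_
  refine le_trans (ind_ideal1 A P (A ⊔ P)) (sup_le ?_ le_sup_right)
  rw [mul_comm]
  exact ind_ideal1 A P A

theorem ind_coeff_mul {I J : Ideal O} {f g : PowerSeries O} (hf : ∀ m, PowerSeries.coeff m f ∈ I)
    (hg : ∀ m, PowerSeries.coeff m g ∈ J) (m : ℕ) : PowerSeries.coeff m (f * g) ∈ I * J := by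
  rw [PowerSeries.coeff_mul]
  exact Ideal.sum_mem _ (fun x _ => Ideal.mul_mem_mul (hf _) (hg _))

theorem ind_coeff_mul' {I : Ideal O} {f : PowerSeries O} (hf : ∀ m, PowerSeries.coeff m f ∈ I)
    (g : PowerSeries O) (m : ℕ) : PowerSeries.coeff m (f * g) ∈ I := by
  rw [PowerSeries.coeff_mul]
  exact Ideal.sum_mem _ (fun x _ => Ideal.mul_mem_right _ _ (hf _))

theorem ind_mulSeries_eq (H : FormalGroup O) (m : ℕ) :
    mulSeries H m = PowerSeries.C (m : O) * PowerSeries.X + PowerSeries.X ^ 2 *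
      PowerSeries.mk (fun i => PowerSeries.coeff (i + 2) (mulSeries H m)) := by
  ext i
  rcases i with _ | _ | i
  · rw [PowerSeries.coeff_zero_eq_constantCoeff_apply, constantCoeff_mulSeries]
    simp
  · rw [zero_add, coeff_one_mulSeries]
    simp [PowerSeries.coeff_X_pow_mul']
  · rw [map_add, PowerSeries.coeff_C_mul, PowerSeries.coeff_X, if_neg (by omega), mul_zero,
      zero_add, PowerSeries.coeff_X_pow_mul', if_pos (by omega), PowerSeries.coeff_mk]
    congr 1

/-- `[p]` maps series with coefficients in `I` to series with coefficients in `(p) + I ^ 2`. -/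
theorem ind_coeff_mulSeries {I : Ideal O} (H : FormalGroup O) (c : PowerSeries O)
    (h0 : PowerSeries.constantCoeff c = 0) (hc : ∀ m, PowerSeries.coeff m c ∈ I) (m i : ℕ) :
    PowerSeries.coeff i (PowerSeries.subst c (mulSeries H m) : PowerSeries O) ∈
      Ideal.span {(m : O)} ⊔ I * I := by
  have hs : PowerSeries.HasSubst c := PowerSeries.HasSubst.of_constantCoeff_zero' h0
  rw [ind_mulSeries_eq H m, PowerSeries.subst_add hs, PowerSeries.subst_mul hs,
    PowerSeries.subst_mul hs, PowerSeries.subst_pow hs, PowerSeries.subst_X hs,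
    PowerSeries.subst_C]
  rw [map_add]
  refine Ideal.add_mem _ (Ideal.mem_sup_left ?_) (Ideal.mem_sup_right ?_)
  · have : PowerSeries.coeff i (PowerSeries.C (m : O) * c) ∈ Ideal.span {(m : O)} := by
      rw [PowerSeries.coeff_C_mul]
      exact Ideal.mul_mem_right _ _ (Ideal.mem_span_singleton_self _)
    exact this
  · rw [pow_two]
    exact ind_coeff_mul' (ind_coeff_mul hc hc) _ _

theorem IsPt0.p_mem (hpt : IsPt0 p n O r) : (p : O) ∈ IsLocalRing.maximalIdeal O := by
  rw [← hpt.ker, RingHom.mem_ker, map_natCast]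
  exact CharP.cast_eq_zero (GaloisField p n) p

/-- `log ∘ γ` is bounded if `γ ≡ 0 mod m_O`. Proof: `[p^s](γ) ∈ pO[[X]]` for some `s`,
`log γ = p^{-s} log [p^s](γ)`, and `lg_small`. -/
theorem lg_bdd_of_map_eq_zero (hpt : IsPt0 p n O r) (H : FormalGroup O) [H.IsComm]
    (γ : PowerSeries O) (h0 : PowerSeries.constantCoeff γ = 0) (hγ : PowerSeries.map r γ = 0) :
    lg (algebraMap O L) H γ ∈ Bdd O L := by
  obtain ⟨e, he⟩ := hpt.nilp
  set M := IsLocalRing.maximalIdeal O with hM
  have key : ∀ s i : ℕ, PowerSeries.coeff i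
      (PowerSeries.subst γ (mulSeries H (p ^ s)) : PowerSeries O) ∈
        M ^ (s + 1) ⊔ Ideal.span {(p : O)} := by
    intro s
    induction s with
    | zero =>
      intro i
      rw [pow_zero, mulSeries_one, PowerSeries.subst_X
        (PowerSeries.HasSubst.of_constantCoeff_zero' h0)]
      refine Ideal.mem_sup_left ?_
      rw [zero_add, pow_one, hM, ← hpt.ker, RingHom.mem_ker, ← PowerSeries.coeff_map, hγ,
        _root_.map_zero]
    | succ s ih =>
      intro i
      rw [pow_succ p s, mulSeries_mul, PowerSeries.subst_comp_subst_apply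
        (PowerSeries.HasSubst.of_constantCoeff_zero' (constantCoeff_mulSeries H _))
        (PowerSeries.HasSubst.of_constantCoeff_zero' h0)]
      have h1 := ind_coeff_mulSeries H _ (PowerSeries.constantCoeff_subst_eq_zero h0 _
        (constantCoeff_mulSeries H (p ^ s))) ih p i
      have h2 := ind_ideal2 (M ^ (s + 1)) (Ideal.span {(p : O)}) h1
      have h3 : M ^ (s + 1) * M ^ (s + 1) ≤ M ^ (s + 1 + 1) := by
        rw [← pow_add]
        exact Ideal.pow_le_pow_right (by omega)
      exact sup_le_sup_right h3 _ h2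
  have hsmall : ∀ i, PowerSeries.coeff i
      (PowerSeries.subst γ (mulSeries H (p ^ e)) : PowerSeries O) ∈ Ideal.span {(p : O) ^ 1} := by
    intro i
    rw [pow_one]
    exact (sup_le ((Ideal.pow_le_pow_right (by omega)).trans he) le_rfl : _ ≤ _) (key e i)
  have hlg := lg_small (algebraMap O L) p hpt.isUnit H 1 le_rfl _
    (PowerSeries.constantCoeff_subst_eq_zero h0 _ (constantCoeff_mulSeries H (p ^ e))) hsmall
  rw [lg_mulSeries _ H (p ^ e) γ h0] at hlg
  refine ⟨(p : O) ^ e, pow_ne_zero _ hpt.ne, fun m => ?_⟩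
  obtain ⟨c, hc⟩ := hlg m
  refine ⟨(p : O) ^ 1 * c, ?_⟩
  rw [← hc]
  have e1 : ((p ^ e : ℕ) : PowerSeries L) = PowerSeries.C ((p : L) ^ e) := by
    rw [map_pow, map_natCast, Nat.cast_pow]
  rw [e1, PowerSeries.coeff_C_mul, map_pow, map_natCast]

/-- `h ∘ [p] ∈ pO[[X]]` implies `h ∈ pO[[X]]`. Proof: show by induction on `j` that all coefficients
of `h` are in `m^j + pO`: if true for `j`, then `h ∘ [p] ≡ h(X^q) mod m^{j+1} + pO`. -/
theorem coeff_mem_of_subst_mulSeries (hpt : IsPt0 p n O r) (hn : 1 ≤ n)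
    (hΓ : mulSeries Γ p = PowerSeries.X ^ (p ^ n)) (H : FormalGroup O) [H.IsComm]
    (hH : H.map r = Γ) (h : PowerSeries O)
    (hh : ∀ m, PowerSeries.coeff m (PowerSeries.subst (mulSeries H p) h : PowerSeries O) ∈
      Ideal.span {(p : O)}) (m : ℕ) : PowerSeries.coeff m h ∈ Ideal.span {(p : O)} := by
  obtain ⟨e, he⟩ := hpt.nilp
  set M := IsLocalRing.maximalIdeal O with hM
  set f := mulSeries H p with hf
  have hq : p ^ n ≠ 0 := pow_ne_zero _ (Nat.Prime.ne_zero (Fact.out : p.Prime))
  have hsf : PowerSeries.HasSubst f :=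
    PowerSeries.HasSubst.of_constantCoeff_zero' (constantCoeff_mulSeries H p)
  have hsX : PowerSeries.HasSubst (PowerSeries.X ^ (p ^ n) : PowerSeries O) :=
    PowerSeries.HasSubst.X_pow hq
  have hfr : PowerSeries.map r f = PowerSeries.X ^ (p ^ n) := by
    rw [hf, ← mulSeries_map, hH, hΓ]
  have hdiff : ∀ d N : ℕ, PowerSeries.coeff N (f ^ d) -
      PowerSeries.coeff N ((PowerSeries.X ^ (p ^ n) : PowerSeries O) ^ d) ∈ M := by
    intro d N
    have e1 : PowerSeries.map r (f ^ d) =
        PowerSeries.map r ((PowerSeries.X ^ (p ^ n) : PowerSeries O) ^ d) := by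
      rw [map_pow, hfr, map_pow, map_pow, PowerSeries.map_X]
    rw [hM, ← hpt.ker, RingHom.mem_ker, _root_.map_sub, ← PowerSeries.coeff_map,
      ← PowerSeries.coeff_map, e1, sub_self]
  have key : ∀ j m : ℕ, PowerSeries.coeff m h ∈ M ^ j ⊔ Ideal.span {(p : O)} := by
    intro j
    induction j with
    | zero => intro m; rw [pow_zero, Ideal.one_eq_top, top_sup_eq]; trivial
    | succ j ih =>
      intro m
      have h1 := PowerSeries.coeff_subst' hsf h (p ^ n * m)
      have h2 := PowerSeries.coeff_subst' hsX h (p ^ n * m)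
      rw [PowerSeries.coeff_subst_X_pow hq, if_pos (dvd_mul_right _ _),
        Nat.mul_div_cancel_left _ (Nat.pos_of_ne_zero hq)] at h2
      have hmul : (M ^ j ⊔ Ideal.span {(p : O)}) * M ≤ M ^ (j + 1) ⊔ Ideal.span {(p : O)} := by
        rw [pow_succ]
        exact ind_ideal1 (M ^ j) (Ideal.span {(p : O)}) M
      generalize hI : M ^ j ⊔ Ideal.span {(p : O)} = I at ih hmul
      generalize hJ : M ^ (j + 1) ⊔ Ideal.span {(p : O)} = J at hmul
      have hpJ : Ideal.span {(p : O)} ≤ J := hJ ▸ le_sup_right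
      have h3 : PowerSeries.coeff (p ^ n * m) (PowerSeries.subst f h : PowerSeries O) -
          PowerSeries.coeff m h ∈ J := by
        have h2' : PowerSeries.coeff m h = finsum (fun d : ℕ => PowerSeries.coeff d h •
            PowerSeries.coeff (p ^ n * m) ((PowerSeries.X ^ (p ^ n) : PowerSeries O) ^ d)) := h2
        rw [h1, h2', ← finsum_sub_distrib (PowerSeries.coeff_subst_finite' hsf h _)
          (PowerSeries.coeff_subst_finite' hsX h _)]
        refine finsum_induction (fun x => x ∈ J)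
          (Ideal.zero_mem J) (fun x y hx hy => Ideal.add_mem J hx hy) (fun d => ?_)
        have h4 := hmul (Ideal.mul_mem_mul (ih d) (hdiff d (p ^ n * m)))
        rw [mul_sub] at h4
        exact h4
      have h5 : PowerSeries.coeff (p ^ n * m) (PowerSeries.subst f h : PowerSeries O) ∈ J :=
        hpJ (hh _)
      have h6 := Ideal.sub_mem J h5 h3
      rwa [sub_sub_cancel] at h6
  exact (sup_le he le_rfl : _ ≤ _) (key e m)

theorem lgS_not_mem_Bdd (hpt : IsPt0 p n O r) (hn : 1 ≤ n)
    (hΓ : mulSeries Γ p = PowerSeries.X ^ (p ^ n)) (H : FormalGroup O) [H.IsComm]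
    (hH : H.map r = Γ) : lgS (algebraMap O L) H ∉ Bdd O L := by
  rintro ⟨b, hb, hf⟩
  choose c hc using hf
  set ι := algebraMap O L with hι
  have hinj : Function.Injective ι := IsFractionRing.injective O L
  have hinj' : Function.Injective (PowerSeries.map ι) := fun f g hfg => by
    ext m
    have := congrArg (PowerSeries.coeff m) hfg
    rw [PowerSeries.coeff_map, PowerSeries.coeff_map] at this
    exact hinj this
  have hsf : PowerSeries.HasSubst (mulSeries H p) :=
    PowerSeries.HasSubst.of_constantCoeff_zero' (constantCoeff_mulSeries H p)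
  have hsf' : PowerSeries.HasSubst (PowerSeries.map ι (mulSeries H p)) := LT93.hasSubst_map hsf
  set g : PowerSeries O := PowerSeries.mk c with hg
  have h1 : PowerSeries.map ι g = PowerSeries.C (ι b) * lgS ι H := by
    ext m
    rw [PowerSeries.coeff_C_mul, PowerSeries.coeff_map, hg, PowerSeries.coeff_mk, hc]
  have h2 : (PowerSeries.subst (PowerSeries.map ι (mulSeries H p)) (lgS ι H) : PowerSeries L) =
      PowerSeries.C (p : L) * lgS ι H := by
    have h3 := lg_mulSeries ι H p PowerSeries.X PowerSeries.constantCoeff_X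
    have e1 : (PowerSeries.subst (PowerSeries.X : PowerSeries O) (mulSeries H p) :
      PowerSeries O) = mulSeries H p := PowerSeries.X_subst _
    rw [e1, lg_X] at h3
    rw [map_natCast]
    exact h3
  have hg1 : (PowerSeries.subst (mulSeries H p) g : PowerSeries O) = PowerSeries.C (p : O) * g := by
    apply hinj'
    have h3 : PowerSeries.map ι (PowerSeries.subst (mulSeries H p) g) =
        (PowerSeries.subst (PowerSeries.map ι (mulSeries H p)) (PowerSeries.map ι g) :
          PowerSeries L) := PowerSeries.map_subst hsf _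
    rw [h3, h1, PowerSeries.subst_mul hsf', PowerSeries.subst_C, h2, map_mul, h1,
      PowerSeries.map_C, map_natCast ι]
    change PowerSeries.C (ι b) * (PowerSeries.C (p : L) * lgS ι H) = _
    ring
  have key : ∀ k : ℕ, ∃ gk : PowerSeries O, g = PowerSeries.C ((p : O) ^ k) * gk := by
    intro k
    induction k with
    | zero => exact ⟨g, by simp⟩
    | succ k ih =>
      obtain ⟨gk, hgk⟩ := ih
      have h3 : (PowerSeries.subst (mulSeries H p) gk : PowerSeries O) =
          PowerSeries.C (p : O) * gk := by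
        have hne : (PowerSeries.C ((p : O) ^ k) : PowerSeries O) ≠ 0 := by
          intro h
          have := congrArg (PowerSeries.constantCoeff) h
          rw [PowerSeries.constantCoeff_C, _root_.map_zero] at this
          exact pow_ne_zero k hpt.ne this
        apply mul_left_cancel₀ hne
        rw [hgk, PowerSeries.subst_mul hsf, PowerSeries.subst_C] at hg1
        change PowerSeries.C ((p : O) ^ k) * _ = _ at hg1
        rw [hg1]
        ring
      have h4 := coeff_mem_of_subst_mulSeries hpt hn hΓ H hH gk (fun m => by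
        rw [h3, PowerSeries.coeff_C_mul]
        exact Ideal.mul_mem_right _ _ (Ideal.mem_span_singleton_self _))
      choose d hd using fun m => Ideal.mem_span_singleton.1 (h4 m)
      refine ⟨PowerSeries.mk d, ?_⟩
      rw [hgk]
      ext m
      rw [PowerSeries.coeff_C_mul, PowerSeries.coeff_C_mul, PowerSeries.coeff_mk, hd m]
      ring
  have hbmem : ∀ k : ℕ, b ∈ IsLocalRing.maximalIdeal O ^ k := by
    intro k
    obtain ⟨gk, hgk⟩ := key k
    have e1 : PowerSeries.coeff 1 g = b := by
      apply hinj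
      rw [hg, PowerSeries.coeff_mk, ← hc 1, lgS, PowerSeries.coeff_mk]
      simp [constantCoeff_omg]
    rw [← e1, hgk, PowerSeries.coeff_C_mul]
    exact Ideal.mul_mem_right _ _ (Ideal.pow_mem_pow hpt.p_mem k)
  have hbot := Ideal.iInf_pow_eq_bot_of_isLocalRing (IsLocalRing.maximalIdeal O)
    (Ideal.IsPrime.ne_top inferInstance)
  have : b ∈ (⨅ i : ℕ, IsLocalRing.maximalIdeal O ^ i) := Ideal.mem_iInf.2 hbmem
  rw [hbot] at this
  exact hb this

/-- operator `f ↦ f ∘ g` on `L[[X]]/Bdd` -/
noncomputable def indR (L : Type) [Field L] [Algebra O L] [IsFractionRing O L] (g : CSer O) :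
    Module.End L (PowerSeries L ⧸ Bdd O L) :=
  (Bdd O L).mapQ (Bdd O L)
    (PowerSeries.substAlgHom (R := L) (S := L)
      (LT93.hasSubst_map (f := algebraMap O L) g.hs)).toLinearMap (by
    intro f hf
    rw [Submodule.mem_comap, AlgHom.toLinearMap_apply, PowerSeries.coe_substAlgHom]
    exact subst_mem_Bdd hf g.val g.zero)

/-- class of `log ∘ f` -/
noncomputable def indlam (L : Type) [Field L] [CharZero L] [Algebra O L] [IsFractionRing O L]
    (H : FormalGroup O) (f : CSer O) : PowerSeries L ⧸ Bdd O L :=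
  (Bdd O L).mkQ (lg (algebraMap O L) H f.val)

theorem indR_lam (H : FormalGroup O) (f g : CSer O) :
    indR L g (indlam L H f) = indlam L H (f * g) := by
  unfold indR indlam
  rw [Submodule.mkQ_apply, Submodule.mapQ_apply, Submodule.mkQ_apply, CSer.mul_val,
    lg_subst _ H _ _ f.zero g.zero, AlgHom.toLinearMap_apply, PowerSeries.coe_substAlgHom]
  rfl

theorem indR_pow_lam (H : FormalGroup O) (f g : CSer O) (m : ℕ) :
    (indR L g ^ m) (indlam L H f) = indlam L H (f * g ^ m) := by
  induction m with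
  | zero => simp
  | succ m ih => rw [pow_succ', Module.End.mul_apply, ih, indR_lam, mul_assoc, ← pow_succ]

theorem indlam_hadd (H : FormalGroup O) [H.IsComm] (f g : CSer O) :
    indlam L H (CSer.hadd H f g) = indlam L H f + indlam L H g := by
  unfold indlam
  rw [CSer.hadd_val, lg_op _ H _ _ f.zero g.zero, map_add]

theorem indlam_congr (hpt : IsPt0 p n O r) (H : FormalGroup O) [H.IsComm] (hH : H.map r = Γ)
    {f g : CSer O} (hfg : CSer.map r f = CSer.map r g) : indlam L H f = indlam L H g := by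
  obtain ⟨e, he⟩ := CSer.exists_hadd H f g
  have h1 : (CSer.map r e).val = 0 := by
    apply CSer.eq_zero_of_hadd Γ (CSer.map r g)
    have h2 := congrArg (CSer.map r) he
    rw [CSer.map_hadd, hH, hfg] at h2
    exact h2
  have h3 : indlam L H e = 0 := by
    unfold indlam
    rw [Submodule.mkQ_apply, Submodule.Quotient.mk_eq_zero]
    exact lg_bdd_of_map_eq_zero hpt H e.val e.zero h1
  rw [he, indlam_hadd, h3, add_zero]

/-- B4 (independence). -/
theorem logs_not_small (hpt : IsPt0 p n O r) (hn : 1 ≤ n)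
    (hΓ : mulSeries Γ p = PowerSeries.X ^ (p ^ n)) (H : FormalGroup O) [H.IsComm]
    (hH : H.map r = Γ) (U : Submodule L (PowerSeries L)) [FiniteDimensional L U]
    (hU : Module.finrank L U < n)
    (h : ∀ δ : PowerSeries (GaloisField p n), IsFGHom Γ Γ δ → ∃ δ' : PowerSeries O,
      PowerSeries.constantCoeff δ' = 0 ∧ PowerSeries.map r δ' = δ ∧
      lg (algebraMap O L) H δ' ∈ U ⊔ Bdd O L) : False := by
  have hp : p.Prime := Fact.out
  have hp0 : p ≠ 0 := hp.ne_zero
  -- the model
  obtain ⟨Γ₀, ψ₀, hcomm, hΓ₀, hsc, hfr, hψ₀, hψ1⟩ := exists_iso_model hn Γ hΓ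
  obtain ⟨ψi₀, hψi₀, -, hinv1, hinv2⟩ := IsFGHom.exists_inv hψ₀ (by rw [hψ1]; exact isUnit_one)
  set ψ : CSer (GaloisField p n) := ⟨ψ₀, hψ₀.1⟩ with hψdef
  set ψi : CSer (GaloisField p n) := ⟨ψi₀, hψi₀.1⟩ with hψidef
  have hi1 : ψi * ψ = 1 := CSer.ext hinv1
  have hi2 : ψ * ψi = 1 := CSer.ext hinv2
  -- generator
  obtain ⟨ζu, hζu⟩ := IsCyclic.exists_generator (α := (GaloisField p n)ˣ)
  have hcardu : orderOf ζu = p ^ n - 1 := by
    rw [orderOf_eq_card_of_forall_mem_zpowers hζu, Nat.card_units, GaloisField.card p n (by omega)]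
  set ζ : GaloisField p n := (ζu : GaloisField p n) with hζdef
  have hord : orderOf ζ = p ^ n - 1 := by rw [hζdef, orderOf_units, hcardu]
  -- elements of `End Γ`
  set z : CSer (GaloisField p n) := ψi * CSer.sc ζ * ψ with hz
  set t : CSer (GaloisField p n) := ψi * CSer.fr p hp0 * ψ with ht
  have hmulE : ∀ {F G K : FormalGroup (GaloisField p n)} {f g : CSer (GaloisField p n)},
      IsFGHom G K f.val → IsFGHom F G g.val → IsFGHom F K (f * g).val :=
    fun hf hg => IsFGHom.comp hg hf
  have hzE : IsFGHom Γ Γ z.val := hmulE (hmulE hψi₀ (hsc ζ)) hψ₀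
  have htE : IsFGHom Γ Γ t.val := hmulE (hmulE hψi₀ hfr) hψ₀
  have hconj : ∀ a b : CSer (GaloisField p n), (ψi * a * ψ) * (ψi * b * ψ) = ψi * (a * b) * ψ := by
    intro a b
    calc (ψi * a * ψ) * (ψi * b * ψ) = ψi * a * (ψ * ψi) * b * ψ := by simp only [mul_assoc]
      _ = ψi * (a * b) * ψ := by rw [hi2, mul_one, mul_assoc ψi a b]
  have hconjpow : ∀ (a : CSer (GaloisField p n)) (m : ℕ), (ψi * a * ψ) ^ m = ψi * a ^ m * ψ := by
    intro a m
    induction m with
    | zero => rw [pow_zero, pow_zero, mul_one, hi1]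
    | succ m ih => rw [pow_succ, ih, hconj, ← pow_succ]
  have hzpow : ∀ m : ℕ, z ^ m = ψi * CSer.sc (ζ ^ m) * ψ := by
    intro m
    rw [hz, hconjpow, map_pow]
  have hzt : t * z = z ^ p * t := by
    rw [hzpow, hz, ht, hconj, hconj, CSer.fr_mul_sc]
  have hcomms : ∀ f : CSer (GaloisField p n), IsFGHom Γ Γ f.val →
      f * CSer.ms Γ p = CSer.ms Γ p * f := fun f hf => CSer.ext (IsFGHom.comp_mulSeries hf p)
  have htn : t ^ n = CSer.ms Γ p := by
    have e1 : CSer.fr (p ^ n) (pow_ne_zero n hp0) = CSer.ms Γ₀ p := CSer.ext hΓ₀.symm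
    have e2 : ψ * CSer.ms Γ p = CSer.ms Γ₀ p * ψ := CSer.ext (IsFGHom.comp_mulSeries hψ₀ p)
    rw [ht, hconjpow, CSer.fr_pow, e1, mul_assoc, ← e2, ← mul_assoc, hi1, one_mul]
  have hz1 : z ^ (p ^ n - 1) = 1 := by
    rw [hzpow, ← hord, pow_orderOf_eq_one, map_one, mul_one, hi1]
  -- lifts
  obtain ⟨z', hz'⟩ := CSer.map_surjective r hpt.surj z
  obtain ⟨t', ht'⟩ := CSer.map_surjective r hpt.surj t
  -- the space `W`
  set A : Set (CSer O) := {f | IsFGHom Γ Γ (CSer.map r f).val} with hA
  set W : Submodule L (PowerSeries L ⧸ Bdd O L) := Submodule.span L (indlam L H '' A) with hW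
  have hmem : ∀ f ∈ A, indlam L H f ∈ W := fun f hf => Submodule.subset_span ⟨f, hf, rfl⟩
  have hWle : W ≤ U.map (Bdd O L).mkQ := by
    rw [hW, Submodule.span_le]
    rintro _ ⟨f, hf, rfl⟩
    obtain ⟨δ', h0, h1, h2⟩ := h _ hf
    have e : indlam L H f = indlam L H ⟨δ', h0⟩ :=
      indlam_congr hpt H hH (CSer.ext h1.symm)
    rw [e]
    change (Bdd O L).mkQ _ ∈ _
    have h3 := Submodule.mem_map_of_mem (f := (Bdd O L).mkQ) h2
    rw [Submodule.map_sup, Submodule.mkQ_map_self, sup_bot_eq] at h3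
    exact h3
  have : FiniteDimensional L W := Submodule.finiteDimensional_of_le hWle
  have hWrank : Module.finrank L W < n := by
    refine lt_of_le_of_lt ?_ hU
    exact (Submodule.finrank_mono hWle).trans (Submodule.finrank_map_le _ _)
  have hne : W ≠ ⊥ := by
    intro hbot
    have h1 := hmem 1 (by
      rw [hA, Set.mem_ofPred_eq, map_one]
      exact IsFGHom.id Γ)
    rw [hbot, Submodule.mem_bot] at h1
    unfold indlam at h1
    rw [Submodule.mkQ_apply, Submodule.Quotient.mk_eq_zero, CSer.one_val, lg_X] at h1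
    exact lgS_not_mem_Bdd hpt hn hΓ H hH h1
  -- primitive root of unity
  obtain ⟨w, hw1, hw2⟩ := hpt.teich ζ
  have hq1 : 0 < p ^ n := pow_pos hp.pos n
  have hwprim : IsPrimitiveRoot (algebraMap O L w) (p ^ n - 1) := by
    refine IsPrimitiveRoot.map_of_injective ?_ (IsFractionRing.injective O L)
    have hw0 : w ≠ 0 := by
      rintro rfl
      rw [_root_.map_zero] at hw1
      exact ζu.ne_zero hw1.symm
    refine ⟨?_, ?_⟩
    · apply mul_right_cancel₀ hw0
      rw [← pow_succ, Nat.sub_add_cancel hq1, hw2, one_mul]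
    · intro l hl
      rw [← hord]
      apply orderOf_dvd_of_pow_eq_one
      rw [← hw1, ← map_pow, hl, map_one]
  -- congruence for lam
  have hcongr : ∀ f g : CSer O, CSer.map r f = CSer.map r g → indlam L H f = indlam L H g :=
    fun f g hfg => indlam_congr hpt H hH hfg
  refine ind_linalg' W hne p n hp hn hWrank (indR L z') (indR L t') ?_ ?_ ?_ ?_ ?_ ?_ _ hwprim
  · intro v hv
    refine (Submodule.span_le.2 ?_ : W ≤ W.comap (indR L z')) hv
    rintro _ ⟨f, hf, rfl⟩
    change indR L z' _ ∈ W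
    rw [indR_lam]
    refine hmem _ ?_
    rw [hA, Set.mem_ofPred_eq, map_mul, hz']
    exact hmulE hf hzE
  · intro v hv
    refine (Submodule.span_le.2 ?_ : W ≤ W.comap (indR L t')) hv
    rintro _ ⟨f, hf, rfl⟩
    change indR L t' _ ∈ W
    rw [indR_lam]
    refine hmem _ ?_
    rw [hA, Set.mem_ofPred_eq, map_mul, ht']
    exact hmulE hf htE
  · intro v hv
    refine (Submodule.span_le.2 ?_ : W ≤ LinearMap.eqLocus (indR L z' ∘ₗ indR L t')
      (indR L t' ∘ₗ (indR L z' ^ p))) hv
    rintro _ ⟨f, hf, rfl⟩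
    rw [SetLike.mem_coe, LinearMap.mem_eqLocus, LinearMap.comp_apply, LinearMap.comp_apply]
    rw [indR_lam, indR_lam, indR_pow_lam, indR_lam]
    apply hcongr
    simp only [map_mul, map_pow, hz', ht']
    rw [mul_assoc (CSer.map r f) t z, mul_assoc (CSer.map r f) (z ^ p) t, hzt]
  · intro v hv
    refine (Submodule.span_le.2 ?_ : W ≤ LinearMap.eqLocus (indR L t' ^ n)
      ((p : L) • LinearMap.id)) hv
    rintro _ ⟨f, hf, rfl⟩
    rw [SetLike.mem_coe, LinearMap.mem_eqLocus, LinearMap.smul_apply, LinearMap.id_apply]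
    rw [indR_pow_lam]
    have e1 : indlam L H (f * t' ^ n) = indlam L H (CSer.ms H p * f) := by
      apply hcongr
      have e2 : CSer.map r (CSer.ms H p) = CSer.ms Γ p := by
        apply CSer.ext
        rw [CSer.map_val, CSer.ms_val, CSer.ms_val, ← mulSeries_map, hH]
      rw [map_mul, map_mul, map_pow, ht', htn, e2]
      exact hcomms _ hf
    rw [e1]
    unfold indlam
    have e3 : (p : PowerSeries L) * lg (algebraMap O L) H f.val =
        (p : L) • lg (algebraMap O L) H f.val := by
      rw [PowerSeries.smul_eq_C_mul, map_natCast]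
    rw [CSer.mul_val, CSer.ms_val, lg_mulSeries _ H p _ f.zero, e3, map_smul]
  · intro v hv
    refine (Submodule.span_le.2 ?_ : W ≤ LinearMap.eqLocus (indR L z' ^ (p ^ n - 1))
      LinearMap.id) hv
    rintro _ ⟨f, hf, rfl⟩
    rw [SetLike.mem_coe, LinearMap.mem_eqLocus, LinearMap.id_apply]
    rw [indR_pow_lam]
    apply hcongr
    rw [map_mul, map_pow, hz', hz1, mul_one]
  · intro d hd1 hd2 v hv
    -- the automorphism `ε` with `z^N = 1 + ε`
    obtain ⟨ε₀, hε₀, hε₁⟩ := IsFGHom.exists_sub (IsFGHom.id Γ) (ψ := (z ^ (p ^ d - 1)).val) (by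
      rw [hzpow]
      exact hmulE (hmulE hψi₀ (hsc _)) hψ₀)
    set ε : CSer (GaloisField p n) := ⟨ε₀, hε₀.1⟩ with hε
    have hzε : z ^ (p ^ d - 1) = CSer.hadd Γ 1 ε := CSer.ext hε₁
    have hlc : CSer.lc ε ≠ 0 := by
      intro h0
      have h1 := congrArg CSer.lc hzε
      have h2 : CSer.lc ψi * CSer.lc ψ = 1 := by rw [← map_mul, hi1, map_one]
      rw [CSer.lc_hadd, h0, add_zero, map_one, hzpow, map_mul, map_mul, CSer.lc_sc, mul_right_comm,
        h2, one_mul] at h1
      have h3 := orderOf_dvd_of_pow_eq_one h1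
      rw [hord] at h3
      have h4 : 1 < p ^ d := Nat.one_lt_pow (by omega) hp.one_lt
      have h5 : p ^ d < p ^ n := Nat.pow_lt_pow_right hp.one_lt hd2
      have h6 := Nat.le_of_dvd (by omega) h3
      omega
    obtain ⟨δ₀, hδ₀, -, hinv3, hinv4⟩ := IsFGHom.exists_inv hε₀ (isUnit_iff_ne_zero.2 hlc)
    set δ : CSer (GaloisField p n) := ⟨δ₀, hδ₀.1⟩ with hδ
    have hδε : δ * ε = 1 := CSer.ext hinv3
    obtain ⟨δ', hδ'⟩ := CSer.map_surjective r hpt.surj δ
    have hle : W ≤ W.map (indR L z' ^ (p ^ d - 1) - 1) := by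
      conv_lhs => rw [hW]
      rw [Submodule.span_le]
      rintro _ ⟨f, hf, rfl⟩
      refine ⟨indlam L H (f * δ'), hmem _ ?_, ?_⟩
      · rw [hA, Set.mem_ofPred_eq, map_mul, hδ']
        exact hmulE hf hδ₀
      · rw [LinearMap.sub_apply, indR_pow_lam, Module.End.one_apply, sub_eq_iff_eq_add]
        rw [← indlam_hadd]
        apply hcongr
        rw [CSer.map_hadd, hH]
        simp only [map_mul, map_pow, hz', hδ']
        rw [hzε, CSer.mul_hadd (F := Γ) (G := Γ) _ _ _ (hmulE hf hδ₀), mul_one, mul_assoc _ δ ε, hδε,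
          mul_one]
        apply CSer.ext
        exact LT93.op_comm Γ (CSer.hs _) (CSer.hs _)
    obtain ⟨y, hy, hy2⟩ := hle hv
    exact ⟨y, hy, hy2⟩

end

end Crest.Agent.LT
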