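import Mathlib
import Crest.Prelude.Def_LubinTate
import Crest.Agent.LT.FG
import Crest.Agent.LT.Ring
import Crest.Agent.LT.Act
import Crest.Agent.LT.Cont
import Crest.Agent.LT.Char0Comm
import Crest.Agent.LT.Char0Log
import Crest.Agent.LT.Char0Indep
import Crest.Agent.LT.Char0Def

/-! # Part B (characteristic 0): the limit relation (row 227).

`q` prime of `E`, `P ≤ q`, `p ∉ q`, `m^e ≤ q + (p)`, `O = E/q`, `L = Frac O`, `x = mk q`.
`logS = ∑ x(ω_{m-1})/m X^m`, `ℓ_i = ∑ x(∂_i ω_{m-1})/m X^m`.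
For `δ ∈ End Γ`, lift `δ'` over `E`: exist `c`, `υ`, `D` with `∑ D_i x(∂_i f) = 0` for `f ∈ P` and
`p^c log∘δ' - υ log - ∑ D_i ℓ_i ∈ O[[X]]`.
Proof: for each large `a`, `exists_theta` gives `φ_a, ψ_a`; `x_a = x ∘ φ_a`, `π_a = p^{a-c}`
(`x(J_a) ⊆ π_a O`).  `lg_hom` for `θ_a` pushed forward along `x`:
`log ∘ ψ_a + p^a log ∘ δ' ∘ ψ_a = u_a log_{H_{x_a}}`, `u_a ≡ 1 mod π_a`; `log∘ψ_a ≡ log`,
`log∘δ'∘ψ_a ≡ log∘δ'` mod `π_a` (`lg_congr`).  Divide by `π_a`; Taylor (`taylor_mod_sq`):
`x_a(f) - x(f) = π_a ∑ D_{a,i} x(∂_i f) + π_a²(...)`, `D_{a,i} = (x_a(u_i) - x(u_i))/π_a`.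
`u_a = 1 + π_a υ_a`. Take limits of `υ_a, D_{a,i}` along the hyperfilter (`exists_ulim`). -/

set_option autoImplicit false
set_option linter.unusedSectionVars false

namespace Crest.Agent.LT

open Crest.LubinTate MvPowerSeries

variable {p : ℕ} [Fact p.Prime] {n : ℕ}

/-- `ℓ_i = ∂/∂u_i` of the coefficients of the logarithm -/
noncomputable def lgD {L : Type*} [Field L] (x : LTRing p n →+* L) (H : FormalGroup (LTRing p n))
    (i : Fin (n - 1)) : PowerSeries L :=
  PowerSeries.mk fun m => x (MvPowerSeries.pderiv (WittVector p (GaloisField p n)) i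
    (PowerSeries.coeff (m - 1) (omg H))) / m

theorem isUnit_natCast_LT (_hn : 1 ≤ n) (m : ℕ) (hm : ¬ p ∣ m) : IsUnit (m : LTRing p n) := by
  apply isUnit_of_residue
  rw [map_natCast, isUnit_iff_ne_zero, Ne, CharP.cast_eq_zero_iff (GaloisField p n) p]
  exact hm

/-- `subst ψ δ ≡ δ mod I` if `ψ ≡ X mod I` -/
theorem subst_congr_X {R : Type*} [CommRing R] (I : Ideal R) (ψ δ : PowerSeries R)
    (h0 : PowerSeries.constantCoeff ψ = 0)
    (hψ : ∀ i, PowerSeries.coeff i ψ - PowerSeries.coeff i PowerSeries.X ∈ I) (m : ℕ) :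
    PowerSeries.coeff m (PowerSeries.subst ψ δ : PowerSeries R) - PowerSeries.coeff m δ ∈ I := by
  rw [← Ideal.Quotient.eq_zero_iff_mem, map_sub, ← PowerSeries.coeff_map, ← PowerSeries.coeff_map]
  have h1 : PowerSeries.map (Ideal.Quotient.mk I) ψ = PowerSeries.X := by
    ext i
    have := Ideal.Quotient.eq_zero_iff_mem.2 (hψ i)
    rw [map_sub, sub_eq_zero] at this
    rw [PowerSeries.coeff_map, this, ← PowerSeries.coeff_map, PowerSeries.map_X]
  have h2 := LT93.map_ev δ (Ideal.Quotient.mk I) (LT93.hasSubst_of ψ h0)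
  have h3 : PowerSeries.map (Ideal.Quotient.mk I) (PowerSeries.subst ψ δ : PowerSeries R) =
      LT93.ev (PowerSeries.map (Ideal.Quotient.mk I) δ) (PowerSeries.map (Ideal.Quotient.mk I) ψ) :=
    h2
  rw [h3, h1, LT93.ev_self_X, sub_self]

/-- the log relation for one hom -/
theorem log_hom_rel {O : Type*} [CommRing O] {L : Type*} [Field L] [CharZero L] (ι : O →+* L)
    (hunit : ∀ m : ℕ, ¬ p ∣ m → IsUnit (m : O)) {F G : FormalGroup O} [G.IsComm]
    (ψ δ : PowerSeries O) (hψ0 : PowerSeries.constantCoeff ψ = 0)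
    (hδ0 : PowerSeries.constantCoeff δ = 0) (t a : ℕ) (ht : 1 ≤ t)
    (hψ : ∀ i, PowerSeries.coeff i ψ - PowerSeries.coeff i PowerSeries.X ∈
      Ideal.span {(p : O) ^ t})
    (hom : IsFGHom F G (G.toPowerSeries.subst
        ![ψ, PowerSeries.subst (PowerSeries.subst ψ δ : PowerSeries O) (mulSeries G (p ^ a))]))
    (m : ℕ) :
    ∃ c : O, ι (PowerSeries.coeff 1 (G.toPowerSeries.subst
        ![ψ, PowerSeries.subst (PowerSeries.subst ψ δ : PowerSeries O) (mulSeries G (p ^ a))] :
        PowerSeries O)) * PowerSeries.coeff m (lgS ι F) =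
      PowerSeries.coeff m (lgS ι G) + (p : L) ^ a * PowerSeries.coeff m (lg ι G δ) +
        ι ((p : O) ^ t * c) := by
  have hsub0 : PowerSeries.constantCoeff (PowerSeries.subst ψ δ : PowerSeries O) = 0 :=
    LT93.constantCoeff_ev hδ0 hψ0
  have hsub1 : PowerSeries.constantCoeff (PowerSeries.subst (PowerSeries.subst ψ δ : PowerSeries O)
      (mulSeries G (p ^ a)) : PowerSeries O) = 0 :=
    LT93.constantCoeff_ev (LT93.constantCoeff_mulSeries G _) hsub0
  have h1 := lg_hom ι hom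
  rw [lg_op ι G _ _ hψ0 hsub1, lg_mulSeries ι G _ _ hsub0] at h1
  obtain ⟨c1, hc1⟩ := lg_congr ι p hunit G t ht ψ PowerSeries.X hψ0
    PowerSeries.constantCoeff_X hψ m
  obtain ⟨c2, hc2⟩ := lg_congr ι p hunit G t ht (PowerSeries.subst ψ δ) δ hsub0 hδ0
    (fun i => subst_congr_X _ ψ δ hψ0 hψ i) m
  have h2 := congrArg (PowerSeries.coeff m) h1
  rw [map_add, PowerSeries.coeff_C_mul] at h2
  have h3 : PowerSeries.coeff m (((p ^ a : ℕ) : PowerSeries L) *
      lg ι G (PowerSeries.subst ψ δ)) = (p : L) ^ a *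
        PowerSeries.coeff m (lg ι G (PowerSeries.subst ψ δ)) := by
    rw [← map_natCast (PowerSeries.C (R := L)), PowerSeries.coeff_C_mul]
    push_cast
    rfl
  rw [h3] at h2
  refine ⟨c1 + (p : O) ^ a * c2, ?_⟩
  rw [← h2]
  rw [lg_X] at hc1
  have h4 : ι ((p : O) ^ t * (c1 + (p : O) ^ a * c2)) = ι ((p : O) ^ t * c1) +
      (p : L) ^ a * ι ((p : O) ^ t * c2) := by
    simp only [map_mul, map_add, map_pow, map_natCast]
    ring
  rw [h4, ← hc1, ← hc2]
  ring

theorem coeff_one_ev_mulSeries {O : Type*} [CommRing O] (G : FormalGroup O) (m : ℕ)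
    (β : PowerSeries O) (hβ : PowerSeries.constantCoeff β = 0) :
    PowerSeries.coeff 1 (PowerSeries.subst β (mulSeries G m) : PowerSeries O) =
      m * PowerSeries.coeff 1 β := by
  induction m with
  | zero =>
    have := LT93.ev_mulSeries_zero G (LT93.hasSubst_of β hβ)
    have h2 : PowerSeries.subst β (mulSeries G 0) = (0 : PowerSeries O) := this
    rw [h2]
    simp
  | succ m ih =>
    have h1 := LT93.ev_mulSeries_succ G m (LT93.hasSubst_of β hβ)
    have h2 : PowerSeries.subst β (mulSeries G (m + 1)) =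
      (LT93.op G (LT93.ev (mulSeries G m) β) β : PowerSeries O) := h1
    rw [h2, LT93.coeff_one_op G (LT93.constantCoeff_ev (LT93.constantCoeff_mulSeries G _) hβ) hβ]
    have h3 : PowerSeries.coeff 1 (LT93.ev (mulSeries G m) β : PowerSeries O) =
      m * PowerSeries.coeff 1 β := ih
    rw [h3]
    push_cast
    ring

theorem log_arith {L : Type*} [Field L] (m π pe G S S' Dl υ w w' Sg z c : L)
    (hc : (1 + π * υ) * S' = S + pe * π * G + π * c) (hS : m * S = w) (hS' : m * S' = w')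
    (hw : w' = w + π * Sg + π ^ 2 * z) (hD : m * Dl = Sg) :
    π * (m * (pe * G - υ * S - Dl)) = π * (m * (-c) + π * (z + υ * Sg + π * υ * z)) := by
  linear_combination (-m) * hc + (1 + π * υ) * hS' - (1 + π * υ) * hS + (1 + π * υ) * hw - π * hD

section Step

variable (q : Ideal (LTRing p n)) [hq : q.IsPrime]

theorem coeff_lgS {O : Type*} [CommRing O] {L : Type*} [Field L] [CharZero L] (ι : O →+* L)
    (F : FormalGroup O) (m : ℕ) :
    PowerSeries.coeff m (lgS ι F) = ι (PowerSeries.coeff (m - 1) (omg F)) / m := by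
  rw [lgS, PowerSeries.coeff_mk]

/-- the relation at a finite stage -/
theorem log_relation_step (hn : 1 ≤ n) {Γ : FormalGroup (GaloisField p n)} [Γ.IsComm]
    (hΓ : mulSeries Γ p = PowerSeries.X ^ (p ^ n)) {H : FormalGroup (LTRing p n)} [H.IsComm]
    (hH : IsUniversalDeformation p n Γ H) (M : ℕ) (P : Ideal (LTRing p n))
    (hst : IsStableIdeal p n Γ H M P)
    (hPq : P ≤ q) (hpq : (p : LTRing p n) ∉ q)
    (e : ℕ) (he : IsLocalRing.maximalIdeal (LTRing p n) ^ e ≤ q ⊔ Ideal.span {(p : LTRing p n)})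
    {L : Type} [Field L] [CharZero L] (ι : (LTRing p n ⧸ q) →+* L)
    (hι : Function.Injective ι)
    {δ : PowerSeries (GaloisField p n)} (hδ : IsFGHom Γ Γ δ) (δ' : PowerSeries (LTRing p n))
    (h0 : PowerSeries.constantCoeff δ' = 0)
    (hδ' : PowerSeries.map (LTRing.residue p n) δ' = δ) (t : ℕ) (ht : 1 ≤ t)
    (htM : M ≤ (p ^ n) ^ (e + t)) :
    ∃ (υ : LTRing p n ⧸ q) (D : Fin (n - 1) → LTRing p n ⧸ q),
      (∀ f ∈ P, ∃ z, ∑ i, D i * Ideal.Quotient.mk q
        (MvPowerSeries.pderiv (WittVector p (GaloisField p n)) i f) = (p : LTRing p n ⧸ q) ^ t * z) ∧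
      ∀ m : ℕ, 1 ≤ m → ∃ y z : LTRing p n ⧸ q,
        (m : L) * ((p : L) ^ e * PowerSeries.coeff m (lg ι
          (H.map (Ideal.Quotient.mk q)) (PowerSeries.map (Ideal.Quotient.mk q) δ')) -
        ι υ * PowerSeries.coeff m (lgS ι (H.map (Ideal.Quotient.mk q))) -
        ∑ i, ι (D i) * PowerSeries.coeff m (lgD (ι.comp (Ideal.Quotient.mk q)) H i)) =
        m * ι y + ι ((p : LTRing p n ⧸ q) ^ t * z) := by
  classical
  have hlt : 1 ≤ e + t := by omega
  obtain ⟨φ, ψ, hstab, hψ0, hφJ, hψJ, hhom⟩ := exists_theta hn hΓ hH hδ δ' h0 hδ' (e + t) hlt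
  obtain ⟨haut, hcong⟩ := isFGAut_ga hn hΓ hδ (e + t) hlt
  have hP : P.comap φ.toRingHom = P := hst _ φ haut (fun i hi => hcong i (by omega)) hstab
  -- images of J in the quotient
  have hJ : ∀ f ∈ Jseq (LTRing p n) p (IsLocalRing.maximalIdeal (LTRing p n)) (e + t),
      Ideal.Quotient.mk q f ∈ Ideal.span {(p : LTRing p n ⧸ q) ^ t} := by
    intro f hf
    have h1 := map_Jseq_le (Ideal.Quotient.mk q) p (IsLocalRing.maximalIdeal (LTRing p n))
      ((IsLocalRing.maximalIdeal (LTRing p n)).map (Ideal.Quotient.mk q)) le_rfl (by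
        rw [← map_natCast (Ideal.Quotient.mk q)]
        apply Ideal.mem_map_of_mem
        rw [mem_maximal_iff, map_natCast, CharP.cast_eq_zero]) e (by
        rw [← Ideal.map_pow]
        refine (Ideal.map_mono he).trans ?_
        rw [Ideal.map_sup, Ideal.map_quotient_self, bot_sup_eq, Ideal.map_span,
          Set.image_singleton, map_natCast]) t
    have h2 := h1 (Ideal.mem_map_of_mem _ hf)
    rw [Ideal.mem_span_singleton'] at h2 ⊢
    obtain ⟨a, ha⟩ := h2
    exact ⟨a * p, by rw [← ha]; ring⟩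
  have hJ' : ∀ f ∈ Jseq (LTRing p n) p (IsLocalRing.maximalIdeal (LTRing p n)) (e + t),
      ∃ z, Ideal.Quotient.mk q f = (p : LTRing p n ⧸ q) ^ t * z := by
    intro f hf
    obtain ⟨a, ha⟩ := Ideal.mem_span_singleton'.1 (hJ f hf)
    exact ⟨a, by rw [← ha]; ring⟩
  have hJ2 : ∀ f ∈ Jseq (LTRing p n) p (IsLocalRing.maximalIdeal (LTRing p n)) (e + t) ^ 2,
      ∃ z, Ideal.Quotient.mk q f = ((p : LTRing p n ⧸ q) ^ t) ^ 2 * z := by
    intro f hf
    have h1 : Ideal.Quotient.mk q f ∈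
        ((Jseq (LTRing p n) p (IsLocalRing.maximalIdeal (LTRing p n)) (e + t)).map
          (Ideal.Quotient.mk q)) ^ 2 := by
      rw [← Ideal.map_pow]
      exact Ideal.mem_map_of_mem _ hf
    have h2 : (Jseq (LTRing p n) p (IsLocalRing.maximalIdeal (LTRing p n)) (e + t)).map
          (Ideal.Quotient.mk q) ≤ Ideal.span {(p : LTRing p n ⧸ q) ^ t} := by
      rw [Ideal.map_le_iff_le_comap]
      exact fun f hf => hJ f hf
    have h3 := Ideal.pow_right_mono h2 2 h1
    rw [Ideal.span_singleton_pow, Ideal.mem_span_singleton'] at h3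
    obtain ⟨a, ha⟩ := h3
    exact ⟨a, by rw [← ha]; ring⟩
  -- the tangent vector
  have hD : ∀ i, ∃ d, Ideal.Quotient.mk q (φ (MvPowerSeries.X i) - MvPowerSeries.X i) =
      (p : LTRing p n ⧸ q) ^ t * d := fun i => hJ' _ (hφJ _)
  choose D hD using hD
  have hp0 : (p : LTRing p n ⧸ q) ≠ 0 := by
    intro h
    apply hpq
    rw [← Ideal.Quotient.eq_zero_iff_mem, map_natCast]
    exact h
  have hpt : (p : LTRing p n ⧸ q) ^ t ≠ 0 := pow_ne_zero _ hp0
  -- Taylor
  have htay : ∀ f, ∃ z, Ideal.Quotient.mk q (φ f) = Ideal.Quotient.mk q f +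
      (p : LTRing p n ⧸ q) ^ t * ∑ i, D i * Ideal.Quotient.mk q
        (MvPowerSeries.pderiv (WittVector p (GaloisField p n)) i f) +
      ((p : LTRing p n ⧸ q) ^ t) ^ 2 * z := by
    intro f
    obtain ⟨z, hz⟩ := hJ2 _ (taylor_mod_sq φ _ (Jseq_le p _ _) (fun i => hφJ _) f)
    refine ⟨z, ?_⟩
    rw [map_sub, map_sub, map_sum] at hz
    simp only [map_mul, hD] at hz
    rw [← hz, Finset.mul_sum]
    have : ∀ i : Fin (n - 1), (p : LTRing p n ⧸ q) ^ t * (D i * Ideal.Quotient.mk q
        (MvPowerSeries.pderiv (WittVector p (GaloisField p n)) i f)) =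
        Ideal.Quotient.mk q
        (MvPowerSeries.pderiv (WittVector p (GaloisField p n)) i f) *
          ((p : LTRing p n ⧸ q) ^ t * D i) := fun i => by ring
    simp only [this]
    ring
  -- the pushed forward hom
  set x := Ideal.Quotient.mk q with hx
  have hcomm : (H.map x).IsComm := map_isComm H x
  have hhom2 := LT93.hom_map hhom x
  rw [map_map] at hhom2
  have hψx0 : PowerSeries.constantCoeff (PowerSeries.map x ψ) = 0 := constantCoeff_map' x hψ0
  have hδx0 : PowerSeries.constantCoeff (PowerSeries.map x δ') = 0 := constantCoeff_map' x h0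
  have hsub0 : PowerSeries.constantCoeff (PowerSeries.subst ψ δ' : PowerSeries (LTRing p n)) = 0 :=
    LT93.constantCoeff_ev h0 hψ0
  have hmap : PowerSeries.map x (H.toPowerSeries.subst
        ![ψ, PowerSeries.subst (PowerSeries.subst ψ δ') (mulSeries H (p ^ (e + t)))] :
          PowerSeries (LTRing p n)) =
      (H.map x).toPowerSeries.subst ![PowerSeries.map x ψ,
        PowerSeries.subst (PowerSeries.subst (PowerSeries.map x ψ) (PowerSeries.map x δ') :
          PowerSeries (LTRing p n ⧸ q)) (mulSeries (H.map x) (p ^ (e + t)))] := by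
    have h1 := LT93.map_op H x (LT93.hasSubst_of ψ hψ0)
      (LT93.hasSubst_ev (LT93.constantCoeff_mulSeries H (p ^ (e + t))) (LT93.hasSubst_of _ hsub0))
    have h2 := LT93.map_ev (mulSeries H (p ^ (e + t))) x (LT93.hasSubst_of _ hsub0)
    have h3 := LT93.map_ev δ' x (LT93.hasSubst_of ψ hψ0)
    have h4 := mulSeries_map H x (p ^ (e + t))
    rw [h4]
    exact h1.trans (congrArg _ (h2.trans (congrArg _ h3)))
  rw [hmap] at hhom2
  have hunit : ∀ m : ℕ, ¬ p ∣ m → IsUnit (m : LTRing p n ⧸ q) := by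
    intro m hm
    have := (isUnit_natCast_LT hn m hm).map x
    rwa [map_natCast] at this
  have hψx : ∀ i, PowerSeries.coeff i (PowerSeries.map x ψ) - PowerSeries.coeff i PowerSeries.X ∈
      Ideal.span {(p : LTRing p n ⧸ q) ^ t} := by
    intro i
    have := hJ _ (hψJ i)
    rwa [map_sub, ← PowerSeries.coeff_map, ← PowerSeries.coeff_map x i PowerSeries.X,
      PowerSeries.map_X] at this
  have hrel := fun m => log_hom_rel (p := p) ι hunit (PowerSeries.map x ψ) (PowerSeries.map x δ')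
    hψx0 hδx0 t (e + t) ht hψx hhom2 m
  -- the linear coefficient
  have hsx0 : PowerSeries.constantCoeff (PowerSeries.subst (PowerSeries.map x ψ)
      (PowerSeries.map x δ') : PowerSeries (LTRing p n ⧸ q)) = 0 :=
    LT93.constantCoeff_ev hδx0 hψx0
  obtain ⟨υ, hυ⟩ : ∃ υ, PowerSeries.coeff 1 ((H.map x).toPowerSeries.subst
      ![PowerSeries.map x ψ, PowerSeries.subst (PowerSeries.subst (PowerSeries.map x ψ)
        (PowerSeries.map x δ') : PowerSeries (LTRing p n ⧸ q))
        (mulSeries (H.map x) (p ^ (e + t)))] : PowerSeries (LTRing p n ⧸ q)) =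
      1 + (p : LTRing p n ⧸ q) ^ t * υ := by
    have h1 := LT93.coeff_one_op (H.map x) hψx0
      (LT93.constantCoeff_ev (LT93.constantCoeff_mulSeries (H.map x) (p ^ (e + t))) hsx0)
    have h2 := coeff_one_ev_mulSeries (H.map x) (p ^ (e + t)) _ hsx0
    obtain ⟨c, hc⟩ := Ideal.mem_span_singleton'.1 (hψx 1)
    rw [PowerSeries.coeff_one_X] at hc
    refine ⟨c + (p : LTRing p n ⧸ q) ^ e * PowerSeries.coeff 1 (PowerSeries.subst
      (PowerSeries.map x ψ) (PowerSeries.map x δ') : PowerSeries (LTRing p n ⧸ q)), ?_⟩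
    refine h1.trans ?_
    have h3 : PowerSeries.coeff 1 (PowerSeries.map x ψ) = 1 + c * (p : LTRing p n ⧸ q) ^ t := by
      rw [hc]; ring
    rw [h3]
    refine (congrArg _ h2).trans ?_
    push_cast
    ring
  rw [hυ] at hrel
  refine ⟨υ, D, ?_, ?_⟩
  · -- `f ∈ P`
    intro f hf
    obtain ⟨z, hz⟩ := htay f
    have h1 : x f = 0 := Ideal.Quotient.eq_zero_iff_mem.2 (hPq hf)
    have h2 : x (φ f) = 0 := by
      apply Ideal.Quotient.eq_zero_iff_mem.2 (hPq _)
      have : f ∈ P.comap φ.toRingHom := by rw [hP]; exact hf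
      exact this
    rw [h1, h2, zero_add] at hz
    refine ⟨-z, ?_⟩
    apply mul_left_cancel₀ hpt
    linear_combination -hz
  · intro m hm
    obtain ⟨c, hc⟩ := hrel m
    obtain ⟨z, hz⟩ := htay (PowerSeries.coeff (m - 1) (omg H))
    have hm0 : (m : L) ≠ 0 := by exact_mod_cast (by omega : m ≠ 0)
    set Sg := ∑ i, D i * x (MvPowerSeries.pderiv (WittVector p (GaloisField p n)) i
      (PowerSeries.coeff (m - 1) (omg H))) with hSg
    set w := x (PowerSeries.coeff (m - 1) (omg H)) with hw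
    refine ⟨-c, z + υ * Sg + (p : LTRing p n ⧸ q) ^ t * υ * z, ?_⟩
    have hS : (m : L) * PowerSeries.coeff m (lgS ι (H.map x)) = ι w := by
      rw [coeff_lgS, omg_map, PowerSeries.coeff_map, mul_div_cancel₀ _ hm0]
    have hS' : (m : L) * PowerSeries.coeff m (lgS ι (H.map (x.comp φ.toRingHom))) =
        ι (x (φ (PowerSeries.coeff (m - 1) (omg H)))) := by
      rw [coeff_lgS, omg_map, PowerSeries.coeff_map, mul_div_cancel₀ _ hm0]
      rfl
    have hDs : (m : L) * ∑ i, ι (D i) * PowerSeries.coeff m (lgD (ι.comp x) H i) = ι Sg := by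
      rw [hSg, map_sum, Finset.mul_sum]
      refine Finset.sum_congr rfl fun i _ => ?_
      rw [lgD, PowerSeries.coeff_mk, map_mul, RingHom.comp_apply]
      field_simp
    have hptL : ι ((p : LTRing p n ⧸ q) ^ t) ≠ 0 := by
      intro h
      exact hpt (hι (by rw [h, map_zero]))
    apply mul_left_cancel₀ hptL
    have e1 : (p : L) ^ (e + t) = (p : L) ^ e * ι ((p : LTRing p n ⧸ q) ^ t) := by
      rw [map_pow, map_natCast, pow_add]
    have hzL : ι (x (φ (PowerSeries.coeff (m - 1) (omg H)))) = ι w +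
        ι ((p : LTRing p n ⧸ q) ^ t) * ι Sg + ι ((p : LTRing p n ⧸ q) ^ t) ^ 2 * ι z := by
      rw [hz]
      simp only [map_add, map_mul, map_pow]
    have hc3 : (1 + ι ((p : LTRing p n ⧸ q) ^ t) * ι υ) *
        PowerSeries.coeff m (lgS ι (H.map (x.comp φ.toRingHom))) =
        PowerSeries.coeff m (lgS ι (H.map x)) +
          (p : L) ^ e * ι ((p : LTRing p n ⧸ q) ^ t) *
            PowerSeries.coeff m (lg ι (H.map x) (PowerSeries.map x δ')) +
          ι ((p : LTRing p n ⧸ q) ^ t) * ι c := by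
      rw [← e1]
      have := hc
      simp only [map_add, map_mul, map_one] at this
      exact this
    have hres := log_arith (m : L) (ι ((p : LTRing p n ⧸ q) ^ t)) ((p : L) ^ e) _ _ _ _ _ _ _ _ _ _
      hc3 hS hS' hzL hDs
    rw [hres]
    simp only [map_add, map_mul, map_neg]

end Step

/-- `p^N` is divisible by `m` for some `N` -/
theorem exists_pow_eq_mul (hn : 1 ≤ n) (q : Ideal (LTRing p n)) (m : ℕ) (hm : 1 ≤ m) :
    ∃ (N : ℕ) (c : LTRing p n ⧸ q), (p : LTRing p n ⧸ q) ^ N = m * c := by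
  obtain ⟨v, m', hm', hmm⟩ := Nat.exists_eq_pow_mul_and_not_dvd (n := m) (by omega) p
    (Fact.out : p.Prime).ne_one
  obtain ⟨u, hu⟩ := (isUnit_natCast_LT hn m' hm').map (Ideal.Quotient.mk q)
  refine ⟨v, ↑u⁻¹, ?_⟩
  rw [hmm]
  push_cast
  rw [map_natCast] at hu
  rw [← hu, mul_assoc, Units.mul_inv, mul_one]

/-- limits in the quotient -/
theorem exists_ulim_quot (q : Ideal (LTRing p n)) (e : ℕ)
    (he : IsLocalRing.maximalIdeal (LTRing p n) ^ e ≤ q ⊔ Ideal.span {(p : LTRing p n)})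
    (s : ℕ → LTRing p n ⧸ q) : ∃ y : LTRing p n ⧸ q, ∀ N : ℕ,
    ∀ᶠ a in (Filter.hyperfilter ℕ : Filter ℕ), ∃ z, s a = y + (p : LTRing p n ⧸ q) ^ N * z := by
  choose s' hs' using fun a => Ideal.Quotient.mk_surjective (s a)
  obtain ⟨y, hy⟩ := exists_ulim s'
  refine ⟨Ideal.Quotient.mk q y, fun N => ?_⟩
  filter_upwards [hy (e * N)] with a ha
  have h1 : Ideal.Quotient.mk q (s' a - y) ∈ (Ideal.span {(p : LTRing p n ⧸ q)}) ^ N := by
    have h2 : Ideal.Quotient.mk q (s' a - y) ∈
        ((IsLocalRing.maximalIdeal (LTRing p n) ^ e).map (Ideal.Quotient.mk q)) ^ N := by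
      rw [← Ideal.map_pow, ← pow_mul]
      exact Ideal.mem_map_of_mem _ ha
    refine Ideal.pow_right_mono ?_ N h2
    refine (Ideal.map_mono he).trans ?_
    rw [Ideal.map_sup, Ideal.map_quotient_self, bot_sup_eq, Ideal.map_span,
      Set.image_singleton, map_natCast]
  rw [Ideal.span_singleton_pow, Ideal.mem_span_singleton] at h1
  obtain ⟨c, hc⟩ := h1
  refine ⟨c, ?_⟩
  rw [← hs' a, ← hc, map_sub]
  ring

theorem log_relation (hn : 1 ≤ n) {Γ : FormalGroup (GaloisField p n)} [Γ.IsComm]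
    (hΓ : mulSeries Γ p = PowerSeries.X ^ (p ^ n)) {H : FormalGroup (LTRing p n)} [H.IsComm]
    (hH : IsUniversalDeformation p n Γ H) (M : ℕ) (P : Ideal (LTRing p n))
    (hst : IsStableIdeal p n Γ H M P)
    (q : Ideal (LTRing p n)) [q.IsPrime] (hPq : P ≤ q) (hpq : (p : LTRing p n) ∉ q)
    (e : ℕ) (he : IsLocalRing.maximalIdeal (LTRing p n) ^ e ≤ q ⊔ Ideal.span {(p : LTRing p n)})
    {L : Type} [Field L] [CharZero L] [Algebra (LTRing p n ⧸ q) L]
    [IsFractionRing (LTRing p n ⧸ q) L]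
    {δ : PowerSeries (GaloisField p n)} (hδ : IsFGHom Γ Γ δ) (δ' : PowerSeries (LTRing p n))
    (h0 : PowerSeries.constantCoeff δ' = 0)
    (hδ' : PowerSeries.map (LTRing.residue p n) δ' = δ) :
    ∃ (c : ℕ) (υ : LTRing p n ⧸ q) (D : Fin (n - 1) → LTRing p n ⧸ q),
      (∀ f ∈ P, ∑ i, D i * Ideal.Quotient.mk q
        (MvPowerSeries.pderiv (WittVector p (GaloisField p n)) i f) = 0) ∧
      ∀ m, ∃ y : LTRing p n ⧸ q,
        (p : L) ^ c * PowerSeries.coeff m (lg (algebraMap (LTRing p n ⧸ q) L)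
          (H.map (Ideal.Quotient.mk q)) (PowerSeries.map (Ideal.Quotient.mk q) δ')) -
        algebraMap _ L υ * PowerSeries.coeff m (lgS (algebraMap (LTRing p n ⧸ q) L)
          (H.map (Ideal.Quotient.mk q))) -
        ∑ i, algebraMap _ L (D i) * PowerSeries.coeff m
          (lgD ((algebraMap (LTRing p n ⧸ q) L).comp (Ideal.Quotient.mk q)) H i) =
        algebraMap _ L y := by
  classical
  have hι : Function.Injective (algebraMap (LTRing p n ⧸ q) L) :=
    IsFractionRing.injective (LTRing p n ⧸ q) L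
  have hq1 : 1 < p ^ n := Nat.one_lt_pow (by omega) (Fact.out : p.Prime).one_lt
  have hlarge : ∀ t : ℕ, M ≤ t → M ≤ (p ^ n) ^ (e + t) := by
    intro t ht
    have h1 : t < (p ^ n) ^ t := Nat.lt_pow_self hq1
    have h2 : (p ^ n) ^ t ≤ (p ^ n) ^ (e + t) := Nat.pow_le_pow_right (by omega) (by omega)
    omega
  have hstep := fun t : ℕ => log_relation_step q hn hΓ hH M P hst hPq hpq e he
    (algebraMap (LTRing p n ⧸ q) L) hι hδ δ' h0 hδ' (M + 1 + t) (by omega) (hlarge _ (by omega))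
  choose υs Ds hDs hrels using hstep
  obtain ⟨υ, hυ⟩ := exists_ulim_quot q e he υs
  choose D hD using fun i => exists_ulim_quot q e he (fun t => Ds t i)
  have hev : ∀ N : ℕ, ∃ t, N ≤ t ∧ (∃ z, υs t = υ + (p : LTRing p n ⧸ q) ^ N * z) ∧
      ∀ i, ∃ z, Ds t i = D i + (p : LTRing p n ⧸ q) ^ N * z := by
    intro N
    have h1 : ∀ᶠ a in (Filter.hyperfilter ℕ : Filter ℕ), N ≤ a := by
      have : ∀ᶠ a in (Filter.cofinite : Filter ℕ), N ≤ a := by
        rw [Nat.cofinite_eq_atTop]
        exact Filter.eventually_ge_atTop N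
      exact Filter.hyperfilter_le_cofinite this
    have h2 := hυ N
    have h3 : ∀ᶠ a in (Filter.hyperfilter ℕ : Filter ℕ), ∀ i, ∃ z, Ds a i = D i +
        (p : LTRing p n ⧸ q) ^ N * z := Filter.eventually_all.2 fun i => hD i N
    obtain ⟨t, ht⟩ := (h1.and (h2.and h3)).exists
    exact ⟨t, ht⟩
  refine ⟨e, υ, D, ?_, ?_⟩
  · -- Krull
    intro f hf
    have hall : ∀ N : ℕ, ∑ i, D i * Ideal.Quotient.mk q
        (MvPowerSeries.pderiv (WittVector p (GaloisField p n)) i f) ∈
        (Ideal.span {(p : LTRing p n ⧸ q)}) ^ N := by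
      intro N
      rw [Ideal.span_singleton_pow, Ideal.mem_span_singleton]
      obtain ⟨t, ht, -, hDt⟩ := hev N
      choose z hz using hDt
      obtain ⟨w, hw⟩ := hDs t f hf
      have h1 : ∀ i, D i = Ds t i - (p : LTRing p n ⧸ q) ^ N * z i := fun i => by
        rw [hz i]; ring
      have h2 : ∑ i, D i * Ideal.Quotient.mk q
          (MvPowerSeries.pderiv (WittVector p (GaloisField p n)) i f) =
          ∑ i, Ds t i * Ideal.Quotient.mk q
            (MvPowerSeries.pderiv (WittVector p (GaloisField p n)) i f) -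
          (p : LTRing p n ⧸ q) ^ N * ∑ i, z i * Ideal.Quotient.mk q
            (MvPowerSeries.pderiv (WittVector p (GaloisField p n)) i f) := by
        rw [Finset.mul_sum, ← Finset.sum_sub_distrib]
        refine Finset.sum_congr rfl fun i _ => ?_
        rw [h1 i]; ring
      rw [h2, hw]
      refine dvd_sub (dvd_mul_of_dvd_left (pow_dvd_pow _ (by omega)) _) (dvd_mul_right _ _)
    have hloc := isLocalRing_quot p n q (Ideal.IsPrime.ne_top inferInstance)
    have hne : Ideal.span {(p : LTRing p n ⧸ q)} ≠ ⊤ := by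
      intro h
      rw [Ideal.span_singleton_eq_top] at h
      have h2 : IsUnit (quotResidue p n q (Ideal.IsPrime.ne_top inferInstance)
        (p : LTRing p n ⧸ q)) := h.map _
      rw [map_natCast, CharP.cast_eq_zero] at h2
      exact not_isUnit_zero h2
    have hbot := Ideal.iInf_pow_eq_bot_of_isLocalRing (Ideal.span {(p : LTRing p n ⧸ q)}) hne
    have h3 := (Ideal.mem_iInf).2 hall
    rw [hbot] at h3
    exact h3
  · intro m
    rcases Nat.eq_zero_or_pos m with rfl | hm
    · refine ⟨0, ?_⟩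
      have h1 := constantCoeff_lg (algebraMap (LTRing p n ⧸ q) L) (H.map (Ideal.Quotient.mk q))
        (PowerSeries.map (Ideal.Quotient.mk q) δ') (constantCoeff_map' _ h0)
      rw [PowerSeries.coeff_zero_eq_constantCoeff_apply, h1, coeff_lgS]
      simp [lgD]
    · obtain ⟨N, c, hNc⟩ := exists_pow_eq_mul hn q m hm
      obtain ⟨t, ht, ⟨z, hz⟩, hDt⟩ := hev N
      choose w hw using hDt
      obtain ⟨y, y', hyy⟩ := hrels t m hm
      have hm0 : (m : L) ≠ 0 := by exact_mod_cast (by omega : m ≠ 0)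
      set x := Ideal.Quotient.mk q with hx
      set ι := algebraMap (LTRing p n ⧸ q) L with hιdef
      have hS : (m : L) * PowerSeries.coeff m (lgS ι (H.map x)) =
          ι (x (PowerSeries.coeff (m - 1) (omg H))) := by
        rw [coeff_lgS, omg_map, PowerSeries.coeff_map, mul_div_cancel₀ _ hm0]
      have hDl : ∀ i, (m : L) * PowerSeries.coeff m (lgD (ι.comp x) H i) =
          ι (x (MvPowerSeries.pderiv (WittVector p (GaloisField p n)) i
            (PowerSeries.coeff (m - 1) (omg H)))) := by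
        intro i
        rw [lgD, PowerSeries.coeff_mk, mul_div_cancel₀ _ hm0]
        rfl
      have hpN : (p : LTRing p n ⧸ q) ^ (M + 1 + t) =
          m * (c * (p : LTRing p n ⧸ q) ^ (M + 1 + t - N)) := by
        rw [← mul_assoc, ← hNc, ← pow_add]
        congr 1
        omega
      refine ⟨y + c * (p : LTRing p n ⧸ q) ^ (M + 1 + t - N) * y' +
        c * z * x (PowerSeries.coeff (m - 1) (omg H)) +
        ∑ i, c * w i * x (MvPowerSeries.pderiv (WittVector p (GaloisField p n)) i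
            (PowerSeries.coeff (m - 1) (omg H))), ?_⟩
      apply mul_left_cancel₀ hm0
      have hυL : ι υ = ι (υs t) - (m : L) * ι (c * z) := by
        rw [hz, hNc]
        simp only [map_add, map_mul, map_natCast]
        ring
      have hDL : ∀ i, ι (D i) = ι (Ds t i) - (m : L) * ι (c * w i) := by
        intro i
        rw [hw i, hNc]
        simp only [map_add, map_mul, map_natCast]
        ring
      have hsum : ∑ i, ι (D i) * PowerSeries.coeff m (lgD (ι.comp x) H i) =
          ∑ i, ι (Ds t i) * PowerSeries.coeff m (lgD (ι.comp x) H i) -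
          ι (∑ i, c * w i * x (MvPowerSeries.pderiv (WittVector p (GaloisField p n)) i
            (PowerSeries.coeff (m - 1) (omg H)))) := by
        rw [map_sum, ← Finset.sum_sub_distrib]
        refine Finset.sum_congr rfl fun i _ => ?_
        rw [hDL i, map_mul ι (c * w i), ← hDl i]
        ring
      rw [hsum, hυL]
      have hy' : ι ((p : LTRing p n ⧸ q) ^ (M + 1 + t) * y') =
          (m : L) * ι (c * (p : LTRing p n ⧸ q) ^ (M + 1 + t - N) * y') := by
        rw [hpN]
        simp only [map_mul, map_natCast]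
        ring
      rw [hy'] at hyy
      rw [map_add, map_add, map_add, map_mul ι (c * z), ← hS]
      linear_combination hyy

end Crest.Agent.LT
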