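import Mathlib

/-! # Part B (characteristic 0): the eigenvector argument (row 227). -/

set_option autoImplicit false

namespace Crest.Agent.LT

open Module

theorem eigen_bound {L : Type*} [Field L] (W : Type*) [AddCommGroup W] [Module L W]
    [FiniteDimensional L W] [Nontrivial W] (p n : ℕ) (hp : p.Prime) (hn : 1 ≤ n)
    (Z T : Module.End L W) (hZT : Z * T = T * Z ^ p) (hT : Function.Injective T)
    (hZ : Z ^ (p ^ n - 1) = 1) (ω : L) (hω : IsPrimitiveRoot ω (p ^ n - 1))
    (hinj : ∀ d, 1 ≤ d → d < n → Function.Injective (Z ^ (p ^ d - 1) - 1 : Module.End L W)) :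
    n ≤ Module.finrank L W := by
  have hq : 1 < p ^ n := Nat.one_lt_pow (by omega) hp.one_lt
  have hq0 : 0 < p ^ n - 1 := by omega
  -- an eigenvalue
  obtain ⟨μ, hμ⟩ : ∃ μ, Z.HasEigenvalue μ := by
    have hint : IsIntegral L Z := Algebra.IsIntegral.isIntegral Z
    have hdvd : minpoly L Z ∣ Polynomial.X ^ (p ^ n - 1) - 1 := by
      apply minpoly.dvd
      simp [hZ]
    have hsplit : (Polynomial.X ^ (p ^ n - 1) - 1 : Polynomial L).Splits := Polynomial.X_pow_sub_one_splits hω
    have hne : (Polynomial.X ^ (p ^ n - 1) - 1 : Polynomial L) ≠ 0 :=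
      Polynomial.X_pow_sub_C_ne_zero hq0 1
    have hs2 := hsplit.of_dvd hne hdvd
    obtain ⟨μ, hμ⟩ := hs2.exists_eval_eq_zero (minpoly.degree_pos hint).ne'
    exact ⟨μ, Module.End.hasEigenvalue_of_isRoot hμ⟩
  obtain ⟨v, hv⟩ := hμ.exists_hasEigenvector
  have hpowv : ∀ k, (Z ^ k) v = μ ^ k • v := by
    intro k
    induction k with
    | zero => simp
    | succ k ih =>
      rw [pow_succ, Module.End.mul_apply, hv.apply_eq_smul, map_smul, ih, smul_smul, pow_succ,
        mul_comm]
  have hv0 := hv.2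
  have hμ1 : μ ^ (p ^ n - 1) = 1 := by
    have h1 := hpowv (p ^ n - 1)
    rw [hZ, Module.End.one_apply] at h1
    have h2 : (μ ^ (p ^ n - 1) - 1) • v = 0 := by rw [sub_smul, ← h1, one_smul, sub_self]
    rcases smul_eq_zero.1 h2 with h | h
    · exact sub_eq_zero.1 h
    · exact absurd h hv0
  have hμd : ∀ d, 1 ≤ d → d < n → μ ^ (p ^ d - 1) ≠ 1 := by
    intro d h1 h2 h3
    apply hv0
    apply hinj d h1 h2
    rw [map_zero, LinearMap.sub_apply, hpowv, h3, Module.End.one_apply, one_smul, sub_self]
  -- commutation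
  have hcomm : ∀ s k, Z ^ k * T ^ s = T ^ s * Z ^ (k * p ^ s) := by
    have h1 : ∀ k, Z ^ k * T = T * Z ^ (k * p) := by
      intro k
      induction k with
      | zero => simp
      | succ k ih =>
        rw [pow_succ, mul_assoc, hZT, ← mul_assoc, ih, mul_assoc, ← pow_add]
        congr 2
        ring
    intro s
    induction s with
    | zero => intro k; simp
    | succ s ih =>
      intro k
      rw [pow_succ, ← mul_assoc, ih, mul_assoc, h1, ← mul_assoc, pow_succ]
      congr 2
      ring
  have hTs : ∀ s, Function.Injective (T ^ s : Module.End L W) := by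
    intro s
    rw [Module.End.coe_pow]
    exact hT.iterate s
  have heig : ∀ s : Fin n, Z.HasEigenvector (μ ^ (p ^ (s : ℕ))) ((T ^ (s : ℕ)) v) := by
    intro s
    constructor
    · rw [Module.End.mem_eigenspace_iff]
      have h1 := congrArg (fun f : Module.End L W => f v) (hcomm s 1)
      simp only [Module.End.mul_apply, pow_one, one_mul] at h1
      rw [h1, hpowv, map_smul]
    · intro h
      apply hv0
      apply hTs s
      rw [h, map_zero]
  have hdist : Function.Injective (fun s : Fin n => μ ^ (p ^ (s : ℕ))) := by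
    have key : ∀ s s' : ℕ, s < s' → s' < n → μ ^ (p ^ s) ≠ μ ^ (p ^ s') := by
      intro s s' hss hs' heq
      have hμ0 : μ ≠ 0 := by
        intro h
        rw [h, zero_pow (by omega)] at hμ1
        exact zero_ne_one hμ1
      have h1 : (μ ^ (p ^ (s' - s) - 1)) ^ (p ^ s) = 1 := by
        have h2 : p ^ s' = p ^ s + (p ^ (s' - s) - 1) * p ^ s := by
          have h3 : p ^ s' = p ^ (s' - s) * p ^ s := by rw [← pow_add]; congr 1; omega
          have h4 : 1 ≤ p ^ (s' - s) := Nat.one_le_pow _ _ hp.pos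
          rw [h3, Nat.sub_mul, one_mul]
          have h5 : p ^ s ≤ p ^ (s' - s) * p ^ s := Nat.le_mul_of_pos_left _ h4
          omega
        rw [h2, pow_add] at heq
        rw [← pow_mul]
        have h6 : μ ^ p ^ s ≠ 0 := pow_ne_zero _ hμ0
        exact (mul_left_cancel₀ h6 (by rw [← heq, mul_one]))
      have h2 : (μ ^ (p ^ (s' - s) - 1)) ^ (p ^ n - 1) = 1 := by
        rw [← pow_mul, mul_comm, pow_mul, hμ1, one_pow]
      have hcop : Nat.Coprime (p ^ s) (p ^ n - 1) := by
        apply Nat.Coprime.pow_left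
        rw [hp.coprime_iff_not_dvd]
        intro h
        have h3 : p ∣ p ^ n := dvd_pow_self p (by omega)
        have h4 : p ∣ 1 := by
          have := Nat.dvd_sub h3 h
          rwa [Nat.sub_sub_self (by omega)] at this
        exact hp.one_lt.ne' (Nat.dvd_one.1 h4)
      have h3 : orderOf (μ ^ (p ^ (s' - s) - 1)) ∣ Nat.gcd (p ^ s) (p ^ n - 1) :=
        Nat.dvd_gcd (orderOf_dvd_of_pow_eq_one h1) (orderOf_dvd_of_pow_eq_one h2)
      rw [hcop] at h3
      exact hμd (s' - s) (by omega) (by omega) (orderOf_eq_one_iff.1 (Nat.dvd_one.1 h3))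
    intro s s' h
    rcases lt_trichotomy (s : ℕ) s' with hlt | heq | hgt
    · exact absurd h (key _ _ hlt s'.2)
    · exact Fin.ext heq
    · exact absurd h.symm (key _ _ hgt s.2)
  have hli := Module.End.eigenvectors_linearIndependent' Z (fun s : Fin n => μ ^ (p ^ (s : ℕ)))
    hdist (fun s => (T ^ (s : ℕ)) v) heig
  have := hli.fintype_card_le_finrank
  simpa using this

end Crest.Agent.LT
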