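import Mathlib
import Crest.Prelude.Def_LubinTate
import Crest.Agent.LT.FG
import Crest.Agent.LT.Stab
import Crest.Agent.LT.Act
import Crest.Agent.LT.EndGamma
import Crest.Agent.LT.Char0Log
import Crest.Agent.LT.Char0Indep
import Crest.Agent.LT.Char0Lin

/-! # Part B (characteristic 0): operators on the space of logs (row 227). -/

set_option autoImplicit false
set_option linter.unusedSectionVars false

namespace Crest.Agent.LT

open Crest.LubinTate

/-- endomorphisms of `Γ` -/
def EndG {k : Type*} [CommRing k] (Γ : FormalGroup k) := {δ : PowerSeries k // IsFGHom Γ Γ δ}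

namespace EndG

variable {k : Type*} [CommRing k] {Γ : FormalGroup k}

/-- composition `δ ∘ β` -/
noncomputable def comp (δ β : EndG Γ) : EndG Γ := ⟨LT93.ev δ.1 β.1, LT93.hom_comp β.2 δ.2⟩

noncomputable def id : EndG Γ := ⟨PowerSeries.X, LT93.hom_id Γ⟩

noncomputable def add [Γ.IsComm] (δ β : EndG Γ) : EndG Γ :=
  ⟨Γ.toPowerSeries.subst ![δ.1, β.1], Crest.Agent.LT.IsFGHom.add δ.2 β.2⟩

theorem comp_assoc (a b c : EndG Γ) : comp (comp a b) c = comp a (comp b c) := by
  apply Subtype.ext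
  exact (LT93.ev_ev b.2.1 (LT93.hasSubst_of _ c.2.1)).symm

theorem comp_id (a : EndG Γ) : comp a id = a := Subtype.ext (LT93.ev_self_X a.1)

theorem comp_add [Γ.IsComm] (a b c : EndG Γ) : comp a (add b c) = add (comp a b) (comp a c) :=
  Subtype.ext (LT93.hom_apply a.2 (LT93.hasSubst_of _ b.2.1) (LT93.hasSubst_of _ c.2.1))

end EndG

section

variable {p n : ℕ} [Fact p.Prime] {O : Type} [CommRing O] [IsDomain O] [IsLocalRing O]
  [IsNoetherianRing O] {r : O →+* GaloisField p n}
  {L : Type} [Field L] [CharZero L] [Algebra O L] [IsFractionRing O L]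
  {Γ : FormalGroup (GaloisField p n)} [Γ.IsComm]

theorem exists_lift0 (hpt : IsPt0 p n O r) (α : PowerSeries (GaloisField p n))
    (hα : PowerSeries.constantCoeff α = 0) :
    ∃ α' : PowerSeries O, PowerSeries.constantCoeff α' = 0 ∧ PowerSeries.map r α' = α := by
  choose l hl using hpt.surj
  refine ⟨PowerSeries.mk fun i => if i = 0 then 0 else l (PowerSeries.coeff i α), ?_, ?_⟩
  · rw [← PowerSeries.coeff_zero_eq_constantCoeff_apply, PowerSeries.coeff_mk, if_pos rfl]
  · ext i
    rw [PowerSeries.coeff_map, PowerSeries.coeff_mk]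
    split_ifs with h
    · rw [h, PowerSeries.coeff_zero_eq_constantCoeff_apply, hα, map_zero]
    · exact hl _

/-- class of `log ∘ α` -/
noncomputable def cls (L : Type) [Field L] [CharZero L] [Algebra O L] [IsFractionRing O L]
    (H : FormalGroup O) (α : PowerSeries O) : PowerSeries L ⧸ Bdd O L :=
  Submodule.Quotient.mk (lg (algebraMap O L) H α)

theorem cls_op (H : FormalGroup O) [H.IsComm] (α β : PowerSeries O)
    (hα : PowerSeries.constantCoeff α = 0) (hβ : PowerSeries.constantCoeff β = 0) :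
    cls L H (H.toPowerSeries.subst ![α, β]) = cls L H α + cls L H β := by
  rw [cls, lg_op _ _ _ _ hα hβ]
  rfl

/-- the class only depends on the reduction -/
theorem cls_eq (hpt : IsPt0 p n O r) (H : FormalGroup O) [H.IsComm] (α β : PowerSeries O)
    (hα : PowerSeries.constantCoeff α = 0) (hβ : PowerSeries.constantCoeff β = 0)
    (h : PowerSeries.map r α = PowerSeries.map r β) : cls L H α = cls L H β := by
  have : (H.map r).IsComm := map_isComm H r
  let x : FPt H Unit := ⟨α, hα⟩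
  let y : FPt H Unit := ⟨β, hβ⟩
  have hxy : x = y + (x - y) := by abel
  have h1 : α = H.toPowerSeries.subst ![β, (x - y).1] := congrArg Subtype.val hxy
  have hγ0 : PowerSeries.constantCoeff ((x - y).1 : PowerSeries O) = 0 := (x - y).2
  have h2 : PowerSeries.map r ((x - y).1 : PowerSeries O) = 0 := by
    -- reduce the identity
    have h3 := congrArg (PowerSeries.map r) h1
    have h4 : PowerSeries.map r (H.toPowerSeries.subst ![β, (x - y).1] : PowerSeries O) =
        (H.map r).toPowerSeries.subst ![PowerSeries.map r β, PowerSeries.map r (x - y).1] :=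
      LT93.map_op H r (LT93.hasSubst_of _ hβ) (LT93.hasSubst_of _ hγ0)
    rw [h4, h] at h3
    let y' : FPt (H.map r) Unit := ⟨PowerSeries.map r β, constantCoeff_map' r hβ⟩
    let z' : FPt (H.map r) Unit := ⟨PowerSeries.map r (x - y).1, constantCoeff_map' r hγ0⟩
    have h5 : y' = y' + z' := Subtype.ext h3
    have h6 : z' = 0 := by
      have := h5
      rwa [left_eq_add] at this
    exact congrArg Subtype.val h6
  rw [h1, cls_op H _ _ hβ hγ0]
  have h7 : cls L H ((x - y).1 : PowerSeries O) = 0 := by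
    rw [cls, Submodule.Quotient.mk_eq_zero]
    exact lg_bdd_of_map_eq_zero hpt H _ hγ0 h2
  rw [h7, add_zero]

/-- the operator `R_β` -/
noncomputable def Rop (L : Type) [Field L] [CharZero L] [Algebra O L] [IsFractionRing O L]
    (β : PowerSeries O) (hβ : PowerSeries.constantCoeff β = 0) :
    (PowerSeries L ⧸ Bdd O L) →ₗ[L] (PowerSeries L ⧸ Bdd O L) :=
  Submodule.mapQ _ _ (PowerSeries.substAlgHom (R := L)
    (LT93.hasSubst_of (PowerSeries.map (algebraMap O L) β) (constantCoeff_map' _ hβ))).toLinearMap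
    (by
      intro f hf
      have := subst_mem_Bdd hf β hβ
      rw [Submodule.mem_comap, AlgHom.toLinearMap_apply, PowerSeries.coe_substAlgHom]
      exact this)

theorem Rop_cls (H : FormalGroup O) (α β : PowerSeries O)
    (hα : PowerSeries.constantCoeff α = 0) (hβ : PowerSeries.constantCoeff β = 0) :
    Rop L β hβ (cls L H α) = cls L H (LT93.ev α β) := by
  rw [cls, cls, Rop, Submodule.mapQ_apply, AlgHom.toLinearMap_apply, PowerSeries.coe_substAlgHom]
  congr 1
  exact (lg_subst _ H α β hα hβ).symm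

variable (L)

/-- class of `log ∘ δ~` for `δ ∈ End Γ` -/
noncomputable def cE (hpt : IsPt0 p n O r) (H : FormalGroup O) (δ : EndG Γ) :
    PowerSeries L ⧸ Bdd O L := cls L H (exists_lift0 hpt δ.1 δ.2.1).choose

theorem cE_eq (hpt : IsPt0 p n O r) (H : FormalGroup O) [H.IsComm] (δ : EndG Γ)
    (α : PowerSeries O) (hα : PowerSeries.constantCoeff α = 0) (h : PowerSeries.map r α = δ.1) :
    cE L hpt H δ = cls L H α := by
  have hs := (exists_lift0 hpt δ.1 δ.2.1).choose_spec
  exact cls_eq hpt H _ _ hs.1 hα (by rw [hs.2, h])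

theorem cE_add (hpt : IsPt0 p n O r) (H : FormalGroup O) [H.IsComm] (hH : H.map r = Γ)
    (a b : EndG Γ) : cE L hpt H (a.add b) = cE L hpt H a + cE L hpt H b := by
  obtain ⟨α, hα, ha⟩ := exists_lift0 hpt a.1 a.2.1
  obtain ⟨β, hβ, hb⟩ := exists_lift0 hpt b.1 b.2.1
  rw [cE_eq L hpt H a α hα ha, cE_eq L hpt H b β hβ hb, ← cls_op H _ _ hα hβ]
  apply cE_eq L hpt H _ _ (LT93.constantCoeff_op H hα hβ)
  have h1 := LT93.map_op H r (LT93.hasSubst_of _ hα) (LT93.hasSubst_of _ hβ)
  refine Eq.trans h1 ?_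
  have ha' : MvPowerSeries.map r α = a.1 := ha
  have hb' : MvPowerSeries.map r β = b.1 := hb
  rw [ha', hb', hH]
  rfl

theorem Rop_cE (hpt : IsPt0 p n O r) (H : FormalGroup O) [H.IsComm]
    (a b : EndG Γ) (β : PowerSeries O) (hβ : PowerSeries.constantCoeff β = 0)
    (hb : PowerSeries.map r β = b.1) : Rop L β hβ (cE L hpt H a) = cE L hpt H (a.comp b) := by
  obtain ⟨α, hα, ha⟩ := exists_lift0 hpt a.1 a.2.1
  rw [cE_eq L hpt H a α hα ha, Rop_cls H α β hα hβ]
  symm
  apply cE_eq L hpt H _ _ (LT93.constantCoeff_ev hα hβ)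
  have h1 := LT93.map_ev α r (LT93.hasSubst_of _ hβ)
  refine Eq.trans h1 ?_
  have hb' : MvPowerSeries.map r β = b.1 := hb
  rw [ha, hb']
  rfl

/-- the span of the classes -/
noncomputable def WE (hpt : IsPt0 p n O r) (H : FormalGroup O) (Γ : FormalGroup (GaloisField p n)) :
    Submodule L (PowerSeries L ⧸ Bdd O L) :=
  Submodule.span L (Set.range (fun δ : EndG Γ => cE L hpt H δ))

theorem cE_mem (hpt : IsPt0 p n O r) (H : FormalGroup O) (δ : EndG Γ) :
    cE L hpt H δ ∈ WE L hpt H Γ := Submodule.subset_span ⟨δ, rfl⟩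

/-- generators of `WE` -/
noncomputable def gE (hpt : IsPt0 p n O r) (H : FormalGroup O) (δ : EndG Γ) :
    WE L hpt H Γ := ⟨cE L hpt H δ, cE_mem L hpt H δ⟩

theorem WE_ext (hpt : IsPt0 p n O r) (H : FormalGroup O) {f g : Module.End L (WE L hpt H Γ)}
    (h : ∀ δ : EndG Γ, f (gE L hpt H δ) = g (gE L hpt H δ)) : f = g := by
  ext1 ⟨x, hx⟩
  unfold WE at hx
  induction hx using Submodule.span_induction with
  | mem x hx =>
    obtain ⟨δ, rfl⟩ := hx
    exact h δ
  | zero =>
    have : (⟨0, zero_mem _⟩ : WE L hpt H Γ) = 0 := rfl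
    rw [this, map_zero, map_zero]
  | add x y hx hy h1 h2 =>
    have : (⟨x + y, add_mem hx hy⟩ : WE L hpt H Γ) = ⟨x, hx⟩ + ⟨y, hy⟩ := rfl
    rw [this, map_add, map_add, h1, h2]
  | smul c x hx h1 =>
    have : (⟨c • x, Submodule.smul_mem _ c hx⟩ : WE L hpt H Γ) = c • ⟨x, hx⟩ := rfl
    rw [this, map_smul, map_smul, h1]

theorem exists_A (hpt : IsPt0 p n O r) (H : FormalGroup O) [H.IsComm] (β : EndG Γ) :
    ∃ A : Module.End L (WE L hpt H Γ), ∀ δ, A (gE L hpt H δ) = gE L hpt H (δ.comp β) := by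
  obtain ⟨β', hβ, hb⟩ := exists_lift0 hpt β.1 β.2.1
  have hinv : ∀ x ∈ WE L hpt H Γ, Rop L β' hβ x ∈ WE L hpt H Γ := by
    intro x hx
    unfold WE at hx
    induction hx using Submodule.span_induction with
    | mem x hx =>
      obtain ⟨δ, rfl⟩ := hx
      simp only
      rw [Rop_cE L hpt H δ β β' hβ hb]
      exact cE_mem L hpt H _
    | zero => rw [map_zero]; exact zero_mem _
    | add x y hx hy h1 h2 => rw [map_add]; exact add_mem h1 h2
    | smul c x hx h1 => rw [map_smul]; exact Submodule.smul_mem _ _ h1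
  refine ⟨(Rop L β' hβ).restrict hinv, fun δ => Subtype.ext ?_⟩
  exact Rop_cE L hpt H δ β β' hβ hb

/-- the operator of `β ∈ End Γ` on `WE` -/
noncomputable def AE (hpt : IsPt0 p n O r) (H : FormalGroup O) [H.IsComm] (β : EndG Γ) :
    Module.End L (WE L hpt H Γ) := (exists_A L hpt H β).choose

theorem AE_gE (hpt : IsPt0 p n O r) (H : FormalGroup O) [H.IsComm] (β δ : EndG Γ) :
    AE L hpt H β (gE L hpt H δ) = gE L hpt H (δ.comp β) := (exists_A L hpt H β).choose_spec δ

theorem AE_comp (hpt : IsPt0 p n O r) (H : FormalGroup O) [H.IsComm] (a b : EndG Γ) :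
    AE L hpt H (a.comp b) = AE L hpt H b * AE L hpt H a := by
  apply WE_ext
  intro δ
  rw [Module.End.mul_apply, AE_gE, AE_gE, AE_gE, EndG.comp_assoc]

theorem AE_id (hpt : IsPt0 p n O r) (H : FormalGroup O) [H.IsComm] :
    AE L hpt H (EndG.id : EndG Γ) = 1 := by
  apply WE_ext
  intro δ
  rw [AE_gE, EndG.comp_id, Module.End.one_apply]

theorem AE_add (hpt : IsPt0 p n O r) (H : FormalGroup O) [H.IsComm] (hH : H.map r = Γ)
    (a b : EndG Γ) : AE L hpt H (a.add b) = AE L hpt H a + AE L hpt H b := by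
  apply WE_ext
  intro δ
  rw [LinearMap.add_apply, AE_gE, AE_gE, AE_gE, EndG.comp_add]
  exact Subtype.ext (cE_add L hpt H hH _ _)

/-- `[p]` as an endomorphism -/
noncomputable def EndG.mulP (Γ : FormalGroup (GaloisField p n)) [Γ.IsComm] : EndG Γ :=
  ⟨mulSeries Γ p, LT93.hom_mulSeries_self Γ p⟩

theorem AE_mulP (hpt : IsPt0 p n O r) (H : FormalGroup O) [H.IsComm] (hH : H.map r = Γ) :
    AE L hpt H (EndG.mulP Γ) = (p : L) • (1 : Module.End L (WE L hpt H Γ)) := by
  apply WE_ext
  intro δ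
  rw [AE_gE, LinearMap.smul_apply, Module.End.one_apply]
  apply Subtype.ext
  show cE L hpt H (δ.comp (EndG.mulP Γ)) = (p : L) • cE L hpt H δ
  obtain ⟨α, hα, ha⟩ := exists_lift0 hpt δ.1 δ.2.1
  rw [cE_eq L hpt H δ α hα ha, cE_eq L hpt H _ (LT93.ev (mulSeries H p) α)
    (LT93.constantCoeff_ev (LT93.constantCoeff_mulSeries H p) hα)]
  · rw [cls, cls]
    have h1 := lg_mulSeries (algebraMap O L) H p α hα
    have h2 : lg (algebraMap O L) H (LT93.ev (mulSeries H p) α) =
      (p : L) • lg (algebraMap O L) H α := by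
      refine Eq.trans h1 ?_
      rw [PowerSeries.smul_eq_C_mul, map_natCast]
    rw [h2]
    rfl
  · have h1 := LT93.map_ev (mulSeries H p) r (LT93.hasSubst_of _ hα)
    refine Eq.trans h1 ?_
    have ha' : MvPowerSeries.map r α = δ.1 := ha
    rw [ha', ← mulSeries_map, hH]
    exact (LT93.hom_mulSeries δ.2 p).symm

/-! ### transport from the model -/

/-- data of a strict isomorphism with the model -/
structure ModelIso (Γ Γ₀ : FormalGroup (GaloisField p n)) (ψ ψ' : PowerSeries (GaloisField p n)) :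
    Prop where
  h : IsFGHom Γ Γ₀ ψ
  h' : IsFGHom Γ₀ Γ ψ'
  l : LT93.ev ψ' ψ = (PowerSeries.X : PowerSeries (GaloisField p n))
  rr : LT93.ev ψ ψ' = (PowerSeries.X : PowerSeries (GaloisField p n))
  one : PowerSeries.coeff 1 ψ = 1
  one' : PowerSeries.coeff 1 ψ' = 1

variable {Γ₀ : FormalGroup (GaloisField p n)} {ψ ψ' : PowerSeries (GaloisField p n)}

/-- transport of endomorphisms -/
noncomputable def ModelIso.E (m : ModelIso Γ Γ₀ ψ ψ') (φ : EndG Γ₀) : EndG Γ :=
  ⟨LT93.ev ψ' (LT93.ev φ.1 ψ : PowerSeries (GaloisField p n)),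
    LT93.hom_comp (LT93.hom_comp m.h φ.2) m.h'⟩

theorem ModelIso.E_comp (m : ModelIso Γ Γ₀ ψ ψ') (a b : EndG Γ₀) :
    m.E (a.comp b) = (m.E a).comp (m.E b) := by
  apply Subtype.ext
  have hψ := LT93.hasSubst_of _ m.h.1
  have hb : PowerSeries.constantCoeff (LT93.ev b.1 ψ : PowerSeries (GaloisField p n)) = 0 :=
    LT93.constantCoeff_ev b.2.1 m.h.1
  have ha : PowerSeries.constantCoeff (LT93.ev a.1 ψ : PowerSeries (GaloisField p n)) = 0 :=
    LT93.constantCoeff_ev a.2.1 m.h.1
  have hEb : PowerSeries.constantCoeff (LT93.ev ψ' (LT93.ev b.1 ψ : PowerSeries (GaloisField p n)) :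
    PowerSeries (GaloisField p n)) = 0 := LT93.constantCoeff_ev m.h'.1 hb
  show LT93.ev ψ' (LT93.ev (LT93.ev a.1 b.1) ψ) =
    LT93.ev (LT93.ev ψ' (LT93.ev a.1 ψ)) (LT93.ev ψ' (LT93.ev b.1 ψ))
  rw [← LT93.ev_ev ha (LT93.hasSubst_of _ hEb), ← LT93.ev_ev m.h.1 (LT93.hasSubst_of _ hEb),
    LT93.ev_ev m.h'.1 (LT93.hasSubst_of _ hb), m.rr, LT93.ev_X (LT93.hasSubst_of _ hb),
    LT93.ev_ev b.2.1 hψ]

theorem ModelIso.E_id (m : ModelIso Γ Γ₀ ψ ψ') : m.E EndG.id = EndG.id := by
  apply Subtype.ext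
  show LT93.ev ψ' (LT93.ev PowerSeries.X ψ) = PowerSeries.X
  rw [LT93.ev_X (LT93.hasSubst_of _ m.h.1), m.l]

theorem ModelIso.E_mulP (m : ModelIso Γ Γ₀ ψ ψ') [Γ₀.IsComm] :
    m.E (EndG.mulP Γ₀) = EndG.mulP Γ := by
  apply Subtype.ext
  show LT93.ev ψ' (LT93.ev (mulSeries Γ₀ p) ψ) = mulSeries Γ p
  have h1 : LT93.ev ψ (mulSeries Γ p) = (LT93.ev (mulSeries Γ₀ p) ψ : PowerSeries _) :=
    LT93.hom_mulSeries m.h p
  rw [← h1, LT93.ev_ev m.h.1 (LT93.hasSubst_mulSeries Γ p), m.l,
    LT93.ev_X (LT93.hasSubst_mulSeries Γ p)]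

/-- linear coefficient of a composition -/
theorem coeff_one_ev {k : Type*} [CommRing k] (a b : PowerSeries k)
    (ha : PowerSeries.constantCoeff a = 0) (hb : PowerSeries.constantCoeff b = 0) :
    PowerSeries.coeff 1 (LT93.ev a b : PowerSeries k) =
      PowerSeries.coeff 1 a * PowerSeries.coeff 1 b :=
  coeff_ev_of_dvd le_rfl ha (by rw [pow_one]; exact PowerSeries.X_dvd_iff.2 hb)

theorem ModelIso.coeff_one_E (m : ModelIso Γ Γ₀ ψ ψ') (φ : EndG Γ₀) :
    PowerSeries.coeff 1 (m.E φ).1 = PowerSeries.coeff 1 φ.1 := by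
  show PowerSeries.coeff 1 (LT93.ev ψ' (LT93.ev φ.1 ψ : PowerSeries (GaloisField p n)) :
    PowerSeries (GaloisField p n)) = _
  rw [coeff_one_ev _ _ m.h'.1 (LT93.constantCoeff_ev φ.2.1 m.h.1),
    coeff_one_ev _ _ φ.2.1 m.h.1, m.one, m.one', mul_one, one_mul]

/-- B4 (independence). -/
theorem logs_not_small' (hpt : IsPt0 p n O r) (hn : 1 ≤ n)
    (hΓ : mulSeries Γ p = PowerSeries.X ^ (p ^ n)) (H : FormalGroup O) [H.IsComm]
    (hH : H.map r = Γ) (U : Submodule L (PowerSeries L)) [FiniteDimensional L U]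
    (hU : Module.finrank L U < n)
    (h : ∀ δ : PowerSeries (GaloisField p n), IsFGHom Γ Γ δ → ∃ δ' : PowerSeries O,
      PowerSeries.constantCoeff δ' = 0 ∧ PowerSeries.map r δ' = δ ∧
      lg (algebraMap O L) H δ' ∈ U ⊔ Bdd O L) : False := by
  classical
  -- finite dimension
  have hle : WE L hpt H Γ ≤ U.map (Bdd O L).mkQ := by
    unfold WE
    rw [Submodule.span_le]
    rintro _ ⟨δ, rfl⟩
    obtain ⟨δ', h0, hδ', hmem⟩ := h δ.1 δ.2
    simp only [SetLike.mem_coe]
    rw [cE_eq L hpt H δ δ' h0 hδ']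
    obtain ⟨u, hu, b, hb, hub⟩ := Submodule.mem_sup.1 hmem
    refine ⟨u, hu, ?_⟩
    rw [cls, ← hub, Submodule.mkQ_apply, Submodule.Quotient.mk_add,
      (Submodule.Quotient.mk_eq_zero _).2 hb, add_zero]
  have hfd : FiniteDimensional L (WE L hpt H Γ) := Submodule.finiteDimensional_of_le hle
  have hfr : Module.finrank L (WE L hpt H Γ) < n := by
    have h1 := Submodule.finrank_mono hle
    have h2 := Submodule.finrank_map_le (Bdd O L).mkQ U
    omega
  have hnt : Nontrivial (WE L hpt H Γ) := by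
    rw [Submodule.nontrivial_iff_ne_bot]
    intro hbot
    have h1 := cE_mem L hpt H (EndG.id : EndG Γ)
    rw [hbot, Submodule.mem_bot, cE_eq L hpt H _ PowerSeries.X (PowerSeries.constantCoeff_X)
      (PowerSeries.map_X r), cls, Submodule.Quotient.mk_eq_zero, lg_X] at h1
    exact lgS_not_mem_Bdd hpt hn hΓ H hH h1
  -- the model
  obtain ⟨Γ₀, ψ, hΓ₀c, hΓ₀p, hζ, hX, hψ, hψ1⟩ := exists_iso_model hn Γ hΓ
  have hu : IsUnit (PowerSeries.coeff 1 ψ) := by rw [hψ1]; exact isUnit_one
  have m : ModelIso Γ Γ₀ ψ (LT93.cinv ψ hu) :=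
    ⟨hψ, LT93.hom_cinv hψ hu, LT93.ev_cinv_left ψ hψ.1 hu, LT93.ev_cinv_right ψ hψ.1 hu, hψ1, by
      have h1 := congrArg (PowerSeries.coeff 1) (LT93.ev_cinv_left ψ hψ.1 hu)
      rw [coeff_one_ev _ _ (LT93.constantCoeff_cinv ψ hu) hψ.1, hψ1, PowerSeries.coeff_one_X,
        mul_one] at h1
      exact h1⟩
  let z : GaloisField p n → EndG Γ₀ := fun ζ => ⟨PowerSeries.C ζ * PowerSeries.X, hζ ζ⟩
  let Pi0 : EndG Γ₀ := ⟨PowerSeries.X ^ p, hX⟩
  have hsX : ∀ ζ : GaloisField p n, PowerSeries.HasSubst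
      (PowerSeries.C ζ * PowerSeries.X : PowerSeries (GaloisField p n)) := fun ζ =>
    LT93.hasSubst_of _ (hζ ζ).1
  have hevz : ∀ (ζ : GaloisField p n) (a : PowerSeries (GaloisField p n)),
      PowerSeries.HasSubst a →
      (LT93.ev (PowerSeries.C ζ * PowerSeries.X) a : PowerSeries (GaloisField p n)) =
        PowerSeries.C ζ * a := by
    intro ζ a ha
    unfold LT93.ev
    rw [PowerSeries.subst_mul ha, PowerSeries.subst_X ha]
    congr 1
    rw [← PowerSeries.coe_substAlgHom (R := GaloisField p n) ha]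
    exact (PowerSeries.substAlgHom ha).commutes ζ
  have hevX : ∀ (k : ℕ) (a : PowerSeries (GaloisField p n)), PowerSeries.HasSubst a →
      (LT93.ev (PowerSeries.X ^ k) a : PowerSeries (GaloisField p n)) = a ^ k := by
    intro k a ha
    unfold LT93.ev
    rw [PowerSeries.subst_pow ha, PowerSeries.subst_X ha]
  have hzz : ∀ a b : GaloisField p n, (z a).comp (z b) = z (a * b) := by
    intro a b
    apply Subtype.ext
    show LT93.ev (PowerSeries.C a * PowerSeries.X) (PowerSeries.C b * PowerSeries.X) =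
      PowerSeries.C (a * b) * PowerSeries.X
    rw [hevz _ _ (hsX b), map_mul, mul_assoc]
  have hz1 : z 1 = EndG.id := by
    apply Subtype.ext
    show PowerSeries.C 1 * PowerSeries.X = PowerSeries.X
    rw [map_one, one_mul]
  have hPiz : ∀ a, Pi0.comp (z a) = (z (a ^ p)).comp Pi0 := by
    intro a
    apply Subtype.ext
    show LT93.ev (PowerSeries.X ^ p) (PowerSeries.C a * PowerSeries.X) =
      LT93.ev (PowerSeries.C (a ^ p) * PowerSeries.X) (PowerSeries.X ^ p)
    rw [hevX _ _ (hsX a), hevz _ _ (LT93.hasSubst_of _ hX.1), mul_pow, map_pow]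
  -- operators
  let A : EndG Γ → Module.End L (WE L hpt H Γ) := AE L hpt H
  let Zf : GaloisField p n → Module.End L (WE L hpt H Γ) := fun a => A (m.E (z a))
  let T : Module.End L (WE L hpt H Γ) := A (m.E Pi0)
  have hZmul : ∀ a b, Zf (a * b) = Zf b * Zf a := by
    intro a b
    show A (m.E (z (a * b))) = _
    rw [← hzz, m.E_comp]
    exact AE_comp L hpt H _ _
  have hZ1 : Zf 1 = 1 := by
    show A (m.E (z 1)) = 1
    rw [hz1, m.E_id]
    exact AE_id L hpt H
  have hZpow : ∀ a k, Zf (a ^ k) = Zf a ^ k := by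
    intro a k
    induction k with
    | zero => rw [pow_zero, pow_zero, hZ1]
    | succ k ih => rw [pow_succ, hZmul, ih, pow_succ']
  have hZT : ∀ a, Zf a * T = T * Zf a ^ p := by
    intro a
    have h1 : A (m.E (Pi0.comp (z a))) = Zf a * T := by
      rw [m.E_comp]; exact AE_comp L hpt H _ _
    have h2 : A (m.E ((z (a ^ p)).comp Pi0)) = T * Zf (a ^ p) := by
      rw [m.E_comp]; exact AE_comp L hpt H _ _
    rw [← h1, hPiz, h2, hZpow]
  -- `T^n = p`
  have hT : Function.Injective T := by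
    have hpow : ∀ s : ℕ, ∃ F : EndG Γ₀, F.1 = PowerSeries.X ^ (p ^ s) ∧ A (m.E F) = T ^ s := by
      intro s
      induction s with
      | zero =>
        refine ⟨EndG.id, ?_, ?_⟩
        · rw [pow_zero, pow_one]; rfl
        · rw [m.E_id, pow_zero]; exact AE_id L hpt H
      | succ s ih =>
        obtain ⟨F, hF, hA⟩ := ih
        refine ⟨F.comp Pi0, ?_, ?_⟩
        · show LT93.ev F.1 (PowerSeries.X ^ p) = _
          rw [hF, hevX _ _ (LT93.hasSubst_of _ hX.1), ← pow_mul, pow_succ, mul_comm]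
        · rw [m.E_comp, pow_succ', ← hA]; exact AE_comp L hpt H _ _
    obtain ⟨F, hF, hA⟩ := hpow n
    have hF2 : F = EndG.mulP Γ₀ := Subtype.ext (by rw [hF, ← hΓ₀p]; rfl)
    rw [hF2, m.E_mulP] at hA
    have hTn : T ^ n = (p : L) • (1 : Module.End L (WE L hpt H Γ)) := by
      rw [← hA]; exact AE_mulP L hpt H hH
    have hp0 : (p : L) ≠ 0 := by exact_mod_cast (Fact.out : p.Prime).ne_zero
    rw [← LinearMap.ker_eq_bot, LinearMap.ker_eq_bot']
    intro x hx
    have h1 : (T ^ n) x = 0 := by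
      obtain ⟨k, rfl⟩ : ∃ k, n = k + 1 := ⟨n - 1, by omega⟩
      rw [pow_succ, Module.End.mul_apply, hx, map_zero]
    rw [hTn, LinearMap.smul_apply, Module.End.one_apply] at h1
    exact (smul_eq_zero.1 h1).resolve_left hp0
  -- the generator
  have hcard : Nat.card (GaloisField p n) = p ^ n := GaloisField.card p n (by omega)
  have : Fintype (GaloisField p n) := Fintype.ofFinite _
  obtain ⟨g, hg⟩ := IsCyclic.exists_generator (α := (GaloisField p n)ˣ)
  have hgo : orderOf g = p ^ n - 1 := by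
    rw [orderOf_eq_card_of_forall_mem_zpowers hg, Nat.card_units, hcard]
  have hgo' : orderOf (g : GaloisField p n) = p ^ n - 1 := by
    rw [orderOf_units, hgo]
  obtain ⟨w, hw, hwp⟩ := hpt.teich (g : GaloisField p n)
  have hq : 1 < p ^ n := Nat.one_lt_pow (by omega) (Fact.out : p.Prime).one_lt
  have hw0 : w ≠ 0 := by
    intro h
    rw [h, map_zero] at hw
    exact g.ne_zero hw.symm
  have hw1 : w ^ (p ^ n - 1) = 1 := by
    apply mul_left_cancel₀ hw0
    rw [← pow_succ', mul_one]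
    have : p ^ n - 1 + 1 = p ^ n := by omega
    rw [this, hwp]
  have hprim : IsPrimitiveRoot w (p ^ n - 1) := by
    refine ⟨hw1, fun l hl => ?_⟩
    have h1 := congrArg r hl
    rw [map_pow, hw, map_one] at h1
    rw [← hgo']
    exact orderOf_dvd_of_pow_eq_one h1
  have hprimL := hprim.map_of_injective (f := algebraMap O L) (IsFractionRing.injective O L)
  have key := eigen_bound (WE L hpt H Γ) p n (Fact.out : p.Prime) hn (Zf g) T (hZT _) hT
    (by
      rw [← hZpow, ← hgo', pow_orderOf_eq_one, hZ1]) _ hprimL (by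
      intro d hd1 hdn
      -- the automorphism
      set η : GaloisField p n := (g : GaloisField p n) ^ (p ^ d - 1) with hη
      have hη1 : η ≠ 1 := by
        intro h
        have h1 := orderOf_dvd_of_pow_eq_one h
        rw [hgo'] at h1
        have h2 : p ^ d < p ^ n := Nat.pow_lt_pow_right (Fact.out : p.Prime).one_lt hdn
        have h3 : 1 < p ^ d := Nat.one_lt_pow (by omega) (Fact.out : p.Prime).one_lt
        have h4 := Nat.le_of_dvd (by omega) h1
        omega
      obtain ⟨ε, hε, hεs⟩ := Crest.Agent.LT.IsFGHom.exists_sub (LT93.hom_id Γ) (m.E (z η)).2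
      have hε1 : PowerSeries.coeff 1 ε = η - 1 := by
        have h1 := congrArg (PowerSeries.coeff 1) hεs
        have h2 : PowerSeries.coeff 1 (Γ.toPowerSeries.subst ![PowerSeries.X, ε] :
            PowerSeries (GaloisField p n)) = _ :=
          LT93.coeff_one_op Γ (PowerSeries.constantCoeff_X) hε.1
        rw [h2, m.coeff_one_E, PowerSeries.coeff_one_X] at h1
        have h3 : PowerSeries.coeff 1 (z η).1 = η := by
          show PowerSeries.coeff 1 (PowerSeries.C η * PowerSeries.X) = η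
          rw [PowerSeries.coeff_C_mul, PowerSeries.coeff_one_X, mul_one]
        rw [h3] at h1
        rw [h1]; ring
      have hεu : IsUnit (PowerSeries.coeff 1 ε) := by
        rw [hε1, isUnit_iff_ne_zero]
        exact sub_ne_zero.2 hη1
      let εE : EndG Γ := ⟨ε, hε⟩
      let ε' : EndG Γ := ⟨LT93.cinv ε hεu, LT93.hom_cinv hε hεu⟩
      have hinv : εE.comp ε' = EndG.id := Subtype.ext (LT93.ev_cinv_right ε hε.1 hεu)
      have hinv' : ε'.comp εE = EndG.id := Subtype.ext (LT93.ev_cinv_left ε hε.1 hεu)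
      have hA1 : Zf η = 1 + A εE := by
        have h1 : m.E (z η) = EndG.id.add εE := Subtype.ext hεs
        show A (m.E (z η)) = _
        rw [h1]
        have h2 := AE_add L hpt H hH (EndG.id : EndG Γ) εE
        rw [AE_id] at h2
        exact h2
      have hA2 : Zf g ^ (p ^ d - 1) - 1 = A εE := by
        rw [← hZpow, ← hη, hA1]
        abel
      rw [hA2]
      have hA3 : A ε' * A εE = 1 := by
        have h1 := AE_comp L hpt H εE ε'
        rw [hinv, AE_id] at h1
        exact h1.symm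
      intro x y hxy
      have h1 := congrArg (A ε') hxy
      rw [← Module.End.mul_apply, ← Module.End.mul_apply, hA3] at h1
      exact h1)
  omega

end

end Crest.Agent.LT
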