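import Mathlib
import Crest.Prelude.Def_LubinTate
import Crest.Agent.LT.Char0Comm
import Crest.Agent.LT.Char0Log
import Crest.Agent.LT.Char0Indep
import Crest.Agent.LT.Char0Def
import Crest.Agent.LT.Char0Limit
import Crest.Agent.LT.Char0Ops

/-! # Part B (characteristic 0): assembly of KEY0 (row 227). -/

set_option autoImplicit false
set_option linter.unusedSectionVars false

namespace Crest.Agent.LT

open Crest.LubinTate MvPowerSeries

variable {p : ℕ} [Fact p.Prime] {n : ℕ}

/-- the quotient `E/q` is as in `IsPt0` -/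
theorem isPt0_quot (hn : 1 ≤ n) (q : Ideal (LTRing p n)) [hq : q.IsPrime]
    (hpq : (p : LTRing p n) ∉ q)
    (e : ℕ) (he : IsLocalRing.maximalIdeal (LTRing p n) ^ e ≤ q ⊔ Ideal.span {(p : LTRing p n)})
    [IsLocalRing (LTRing p n ⧸ q)] :
    IsPt0 p n (LTRing p n ⧸ q) (quotResidue p n q hq.ne_top) where
  surj := quotResidue_surjective p n q hq.ne_top
  ker := ker_quotResidue p n q hq.ne_top
  nilp := by
    refine ⟨e, ?_⟩
    have h1 : IsLocalRing.maximalIdeal (LTRing p n ⧸ q) =
        (IsLocalRing.maximalIdeal (LTRing p n)).map (Ideal.Quotient.mk q) := by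
      rw [← ker_quotResidue p n q hq.ne_top, ← ker_residue]
      apply le_antisymm
      · intro x hx
        obtain ⟨y, rfl⟩ := Ideal.Quotient.mk_surjective x
        exact Ideal.mem_map_of_mem _ hx
      · rw [Ideal.map_le_iff_le_comap]
        intro y hy
        exact hy
    rw [h1, ← Ideal.map_pow]
    refine (Ideal.map_mono he).trans ?_
    rw [Ideal.map_sup, Ideal.map_quotient_self, bot_sup_eq, Ideal.map_span, Set.image_singleton,
      map_natCast]
  ne := by
    intro h
    apply hpq
    rw [← Ideal.Quotient.eq_zero_iff_mem, map_natCast]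
    exact h
  teich := by
    intro ζ
    refine ⟨Ideal.Quotient.mk q (MvPowerSeries.C (WittVector.teichmuller p ζ)), ?_, ?_⟩
    · rw [quotResidue_mk]
      simp [LTRing.residue]
    · rw [← map_pow, ← map_pow, ← map_pow]
      congr 3
      have : Fintype (GaloisField p n) := Fintype.ofFinite _
      have h1 := FiniteField.pow_card ζ
      rw [← Nat.card_eq_fintype_card, GaloisField.card p n (by omega)] at h1
      exact h1

/-- the linear algebra of the assembly -/
theorem exists_small_space {O : Type} [CommRing O] [IsDomain O] {L : Type} [Field L] [CharZero L]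
    [Algebra O L] [IsFractionRing O L] {k : ℕ} (a : Fin k → O) (i0 : Fin k) (ha : a i0 ≠ 0)
    (g : PowerSeries L) (ell : Fin k → PowerSeries L) :
    ∃ U : Submodule L (PowerSeries L), FiniteDimensional L U ∧ Module.finrank L U < k + 1 ∧
      ∀ (f : PowerSeries L) (b : L) (υ : L) (D : Fin k → O), b ≠ 0 → ∑ i, D i * a i = 0 →
        (∀ m, ∃ y : O, b * PowerSeries.coeff m f - υ * PowerSeries.coeff m g -
          ∑ i, algebraMap O L (D i) * PowerSeries.coeff m (ell i) = algebraMap O L y) →
        f ∈ U ⊔ Bdd O L := by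
  classical
  let lin : (Fin k → L) →ₗ[L] L := ∑ i, (algebraMap O L (a i)) • LinearMap.proj i
  let el : (Fin k → L) →ₗ[L] PowerSeries L :=
    ∑ i, (LinearMap.toSpanSingleton L (PowerSeries L) (ell i)) ∘ₗ LinearMap.proj i
  have hlin : lin ≠ 0 := by
    intro h
    have h1 := LinearMap.congr_fun h (Pi.single i0 1)
    simp only [lin, LinearMap.sum_apply, LinearMap.smul_apply, LinearMap.proj_apply,
      smul_eq_mul, LinearMap.zero_apply] at h1
    rw [Finset.sum_eq_single i0] at h1
    · rw [Pi.single_eq_same, mul_one, FaithfulSMul.algebraMap_eq_zero_iff] at h1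
      exact ha h1
    · intro j _ hj
      rw [Pi.single_eq_of_ne hj, mul_zero]
    · intro h; exact absurd (Finset.mem_univ _) h
  have hker : Module.finrank L (LinearMap.ker lin) + 1 = k := by
    have h1 := LinearMap.finrank_range_add_finrank_ker lin
    have h2 : Module.finrank L (LinearMap.range lin) = 1 := by
      rw [LinearMap.range_eq_top.2 (LinearMap.surjective hlin), finrank_top,
        Module.finrank_self]
    rw [h2, Module.finrank_fin_fun] at h1
    omega
  refine ⟨(L ∙ g) ⊔ (LinearMap.ker lin).map el, inferInstance, ?_, ?_⟩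
  · have h1 := Submodule.finrank_add_le_finrank_add_finrank (L ∙ g) ((LinearMap.ker lin).map el)
    have h2 : Module.finrank L (L ∙ g) ≤ 1 := by
      refine (finrank_span_le_card _).trans ?_
      simp
    have h3 : Module.finrank L ((LinearMap.ker lin).map el) ≤
        Module.finrank L (LinearMap.ker lin) := Submodule.finrank_map_le _ _
    omega
  · intro f b υ D hb hD hrel
    choose y hy using hrel
    have h2 : ∀ m, PowerSeries.coeff m (el (fun i => algebraMap O L (D i))) =
        ∑ i, algebraMap O L (D i) * PowerSeries.coeff m (ell i) := by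
      intro m
      simp only [el, LinearMap.sum_apply, LinearMap.comp_apply, LinearMap.proj_apply,
        LinearMap.toSpanSingleton_apply, map_sum, PowerSeries.coeff_smul, smul_eq_mul]
    have hf : f = b⁻¹ • (υ • g + el (fun i => algebraMap O L (D i))) +
        b⁻¹ • (PowerSeries.mk fun m => algebraMap O L (y m)) := by
      ext m
      simp only [PowerSeries.coeff_smul, map_add, smul_eq_mul, h2, PowerSeries.coeff_mk]
      rw [← hy m, ← mul_add]
      refine (eq_inv_mul_iff_mul_eq₀ hb).2 ?_
      ring
    rw [hf]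
    refine Submodule.add_mem_sup ?_ ?_
    · refine Submodule.smul_mem _ _ (Submodule.add_mem_sup ?_ ?_)
      · exact Submodule.smul_mem _ _ (Submodule.mem_span_singleton_self _)
      · refine Submodule.mem_map_of_mem ?_
        rw [LinearMap.mem_ker]
        simp only [lin, LinearMap.sum_apply, LinearMap.smul_apply, LinearMap.proj_apply,
          smul_eq_mul]
        rw [← map_zero (algebraMap O L), ← hD, map_sum]
        refine Finset.sum_congr rfl fun i _ => ?_
        rw [map_mul, mul_comm]
    · refine Submodule.smul_mem _ _ ?_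
      exact ⟨1, one_ne_zero, fun m => ⟨y m, by rw [map_one, one_mul, PowerSeries.coeff_mk]⟩⟩

/-- KEY0 -/
theorem key_char0' (hn : 1 ≤ n) {Γ : FormalGroup (GaloisField p n)} [Γ.IsComm]
    (hΓ : mulSeries Γ p = PowerSeries.X ^ (p ^ n)) {H : FormalGroup (LTRing p n)} [H.IsComm]
    (hH : IsUniversalDeformation p n Γ H) (M : ℕ) (P : Ideal (LTRing p n)) (hP : P.IsPrime)
    (hP0 : P ≠ ⊥) (hpP : (p : LTRing p n) ∉ P) (hst : IsStableIdeal p n Γ H M P) : False := by
  obtain ⟨f, hf, i0, hfi⟩ := exists_pderiv_not_mem P hP hP0 hpP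
  obtain ⟨q, hq, hPq, hpq, hfq, e, he⟩ := exists_curve_prime P hP _ hpP hfi
  have := isLocalRing_quot p n q hq.ne_top
  have hpt := isPt0_quot hn q hpq e he
  have : CharZero (LTRing p n ⧸ q) := hpt.charZero
  have : CharZero (FractionRing (LTRing p n ⧸ q)) :=
    charZero_of_injective_algebraMap (IsFractionRing.injective (LTRing p n ⧸ q) _)
  have : (H.map (Ideal.Quotient.mk q)).IsComm := map_isComm H _
  have hHO : (H.map (Ideal.Quotient.mk q)).map (quotResidue p n q hq.ne_top) = Γ := by
    rw [map_map, quotResidue_comp_mk]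
    exact hH.1
  obtain ⟨U, hUf, hU, hmem⟩ := exists_small_space (L := FractionRing (LTRing p n ⧸ q))
    (fun i => Ideal.Quotient.mk q
      (MvPowerSeries.pderiv (WittVector p (GaloisField p n)) i f)) i0
    (fun h => hfq (Ideal.Quotient.eq_zero_iff_mem.1 h))
    (lgS (algebraMap (LTRing p n ⧸ q) (FractionRing (LTRing p n ⧸ q)))
      (H.map (Ideal.Quotient.mk q)))
    (lgD ((algebraMap (LTRing p n ⧸ q) (FractionRing (LTRing p n ⧸ q))).comp
      (Ideal.Quotient.mk q)) H)
  refine logs_not_small' (L := FractionRing (LTRing p n ⧸ q)) hpt hn hΓ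
    (H.map (Ideal.Quotient.mk q)) hHO U (by omega) ?_
  intro δ hδ
  obtain ⟨δ', h0, hδ'⟩ := exists_lift (p := p) (n := n) δ hδ.1
  obtain ⟨c, υ, D, hD, hrel⟩ := log_relation hn hΓ hH M P hst q hPq hpq e he
    (L := FractionRing (LTRing p n ⧸ q)) hδ δ' h0 hδ'
  refine ⟨PowerSeries.map (Ideal.Quotient.mk q) δ', ?_, ?_, ?_⟩
  · exact constantCoeff_map' _ h0
  · rw [← hδ']
    ext m
    rw [PowerSeries.coeff_map, PowerSeries.coeff_map, PowerSeries.coeff_map, quotResidue_mk]
  · refine hmem _ _ _ D ?_ (hD f hf) hrel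
    refine pow_ne_zero _ ?_
    exact_mod_cast (Fact.out : p.Prime).ne_zero

end Crest.Agent.LT
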