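import Mathlib
import Crest.Prelude.Def_LubinTate
import Crest.Agent.LT.Ring

/-! # Finiteness of quotients of power series rings over parameters (row 227, C0b) -/

set_option autoImplicit false
set_option linter.unusedSectionVars false

namespace Crest.Agent.LT

open MvPowerSeries

section CommFin

variable {K : Type*} [Field K] {r : ℕ}

/-- `Σ_k X_j^k u_k` -/
noncomputable def powSum (j : Fin r) (u : ℕ → MvPowerSeries (Fin r) K) : MvPowerSeries (Fin r) K :=
  fun e => ∑ k ∈ Finset.range (e j + 1), coeff (e - Finsupp.single j k) (u k)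

lemma coeff_powSum (j : Fin r) (u : ℕ → MvPowerSeries (Fin r) K) (e : Fin r →₀ ℕ) :
    coeff e (powSum j u) =
      ∑ k ∈ Finset.range (e j + 1), coeff (e - Finsupp.single j k) (u k) := rfl

lemma powSum_succ (j : Fin r) (u : ℕ → MvPowerSeries (Fin r) K) :
    powSum j u = u 0 + X j * powSum j (fun k => u (k + 1)) := by
  classical
  ext e
  rw [coeff_powSum, map_add, Finset.sum_range_succ']
  rw [add_comm]
  congr 1
  · simp
  · rw [X, coeff_monomial_mul]
    split_ifs with h
    · rw [one_mul, coeff_powSum]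
      rw [Finsupp.single_le_iff] at h
      have h1 : (e - Finsupp.single j 1 : Fin r →₀ ℕ) j + 1 = e j := by
        simp only [Finsupp.coe_tsub, Pi.sub_apply, Finsupp.single_eq_same]
        omega
      rw [h1]
      refine Finset.sum_congr rfl fun k _ => ?_
      congr 1
      rw [tsub_tsub, ← Finsupp.single_add, add_comm 1 k]
    · rw [Finsupp.single_le_iff] at h
      have : e j = 0 := by omega
      rw [this]
      simp

/-- uniqueness of the solution of `F k = u k + X_j F (k+1)` -/
lemma eq_powSum (j : Fin r) (u F : ℕ → MvPowerSeries (Fin r) K)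
    (h : ∀ k, F k = u k + X j * F (k + 1)) : F 0 = powSum j u := by
  have key : ∀ k, F k - powSum j (fun i => u (k + i)) =
      X j * (F (k + 1) - powSum j (fun i => u (k + 1 + i))) := by
    intro k
    rw [h k, powSum_succ]
    simp only [add_zero]
    have : (fun i => u (k + (i + 1))) = fun i => u (k + 1 + i) := by
      funext i; congr 1; ring
    rw [this]
    ring
  have hn : ∀ n, F 0 - powSum j u = X j ^ n * (F n - powSum j (fun i => u (n + i))) := by
    intro n
    induction n with
    | zero => simp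
    | succ n ih => rw [ih, key n]; ring
  rw [← sub_eq_zero]
  ext e
  have hd : (X j : MvPowerSeries (Fin r) K) ^ (e j + 1) ∣ F 0 - powSum j u :=
    ⟨_, hn (e j + 1)⟩
  rw [X_pow_dvd_iff] at hd
  simpa using hd e (Nat.lt_succ_self _)

lemma powSum_eq_zeroth (j : Fin r) (u : ℕ → MvPowerSeries (Fin r) K) (k : ℕ) :
    powSum j (fun i => u (k + i)) = u k + X j * powSum j (fun i => u (k + 1 + i)) := by
  rw [powSum_succ]
  simp only [add_zero]
  congr 3
  funext i; congr 1; ring

lemma powSum_mul (j : Fin r) (u : ℕ → MvPowerSeries (Fin r) K) (c : MvPowerSeries (Fin r) K) :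
    powSum j (fun k => u k * c) = powSum j u * c := by
  have := eq_powSum j (fun k => u k * c) (fun k => powSum j (fun i => u (k + i)) * c) (by
    intro k
    rw [powSum_eq_zeroth]
    ring)
  simp only [zero_add] at this
  rw [this]

lemma powSum_sum {ι : Type*} (s : Finset ι) (j : Fin r)
    (u : ι → ℕ → MvPowerSeries (Fin r) K) :
    powSum j (fun k => ∑ i ∈ s, u i k) = ∑ i ∈ s, powSum j (u i) := by
  have := eq_powSum j (fun k => ∑ i ∈ s, u i k) (fun k => ∑ i ∈ s, powSum j (fun l => u i (k + l))) (by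
    intro k
    rw [Finset.mul_sum, ← Finset.sum_add_distrib]
    refine Finset.sum_congr rfl fun i _ => ?_
    rw [powSum_eq_zeroth])
  simp only [zero_add] at this
  rw [← this]

lemma powSum_add (j : Fin r) (u v : ℕ → MvPowerSeries (Fin r) K) :
    powSum j (fun k => u k + v k) = powSum j u + powSum j v := by
  have := eq_powSum j (fun k => u k + v k) (fun k => powSum j (fun l => u (k + l)) +
      powSum j (fun l => v (k + l))) (by
    intro k
    rw [powSum_eq_zeroth, powSum_eq_zeroth j v]
    ring)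
  simp only [zero_add] at this
  rw [← this]

/-- `f` involves only the variables in `J` -/
def OnlyVars (J : Fin r → Prop) (f : MvPowerSeries (Fin r) K) : Prop :=
  ∀ e : Fin r →₀ ℕ, coeff e f ≠ 0 → ∀ i, e i ≠ 0 → J i

lemma onlyVars_powSum {J J' : Fin r → Prop} (hJ : ∀ i, J i → J' i) (j : Fin r) (hj : J' j)
    (u : ℕ → MvPowerSeries (Fin r) K) (hu : ∀ k, OnlyVars J (u k)) :
    OnlyVars J' (powSum j u) := by
  intro e he i hi
  rw [coeff_powSum] at he
  obtain ⟨k, hk, hne⟩ := Finset.exists_ne_zero_of_sum_ne_zero he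
  by_cases hij : i = j
  · rw [hij]; exact hj
  · refine hJ i (hu k _ hne i ?_)
    simp only [Finsupp.coe_tsub, Pi.sub_apply]
    rw [Finsupp.single_eq_of_ne hij]
    simpa using hi

lemma onlyVars_C (J : Fin r → Prop) (c : K) : OnlyVars J (C c : MvPowerSeries (Fin r) K) := by
  classical
  intro e he i hi
  rw [coeff_C] at he
  split_ifs at he with h
  · rw [h] at hi; simp at hi
  · exact absurd rfl he

/-- the ideal of all variables -/
noncomputable def mm (K : Type*) [Field K] (r : ℕ) : Ideal (MvPowerSeries (Fin r) K) :=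
  Ideal.span (Set.range X)

/-- finite-dimensionality of `A/m^n` -/
lemma exists_fin_base (n : ℕ) :
    ∃ (ι : Type) (_ : Fintype ι) (θ : ι → MvPowerSeries (Fin r) K),
      ∀ f : MvPowerSeries (Fin r) K, ∃ c : ι → K, f - ∑ i, C (c i) * θ i ∈ (mm K r) ^ n := by
  induction n with
  | zero =>
    refine ⟨Empty, inferInstance, fun i => 0, fun f => ⟨fun i => 0, ?_⟩⟩
    simp
  | succ n ih =>
    obtain ⟨ι, _, θ, hθ⟩ := ih
    refine ⟨Option (Fin r × ι), inferInstance, fun o => o.elim 1 (fun a => X a.1 * θ a.2),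
      fun f => ?_⟩
    have h1 : f - C (constantCoeff f) ∈ (Ideal.span (Set.range X) :
        Ideal (MvPowerSeries (Fin r) K)) := by
      apply mem_span_X_of_constantCoeff
      simp
    obtain ⟨g, hg⟩ := (Ideal.mem_span_range_iff_exists_fun).1 h1
    choose c hc using fun i => hθ (g i)
    refine ⟨fun o => o.elim (constantCoeff f) (fun a => c a.1 a.2), ?_⟩
    rw [Fintype.sum_option]
    simp only [Option.elim_none, Option.elim_some, mul_one]
    rw [Fintype.sum_prod_type]
    have e : f - (C (constantCoeff f) + ∑ x : Fin r, ∑ y : ι, C (c x y) * (X x * θ y)) =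
        ∑ x : Fin r, (g x - ∑ y : ι, C (c x y) * θ y) * X x := by
      have h2 : f - C (constantCoeff f) = ∑ i : Fin r, g i * X i := hg.symm
      rw [← sub_sub, h2, ← Finset.sum_sub_distrib]
      refine Finset.sum_congr rfl fun x _ => ?_
      rw [sub_mul, Finset.sum_mul]
      congr 1
      refine Finset.sum_congr rfl fun y _ => ?_
      ring
    rw [e, pow_succ]
    refine sum_mem fun x _ => Ideal.mul_mem_mul (hc x) (Ideal.subset_span ⟨x, rfl⟩)

/-- finiteness over the parameters -/
theorem exists_fin_gens_aux (P : Ideal (MvPowerSeries (Fin r) K)) (J0 : Finset (Fin r)) (N : ℕ)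
    (hN : (mm K r) ^ N ≤ P ⊔ Ideal.span (X '' (J0 : Set (Fin r)))) :
    ∃ (ι : Type) (_ : Fintype ι) (θ : ι → MvPowerSeries (Fin r) K),
      ∀ f : MvPowerSeries (Fin r) K, ∃ s : ι → MvPowerSeries (Fin r) K,
        (∀ i, OnlyVars (fun j => j ∈ J0) (s i)) ∧ f - ∑ i, s i * θ i ∈ P := by
  classical
  suffices H : ∃ (ι : Type) (_ : Fintype ι) (θ : ι → MvPowerSeries (Fin r) K),
      ∀ f : MvPowerSeries (Fin r) K, ∃ s : ι → MvPowerSeries (Fin r) K,
        (∀ i, OnlyVars (fun j => j ∈ J0) (s i)) ∧ f - ∑ i, s i * θ i ∈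
          P ⊔ Ideal.span (X '' ((J0 \ J0 : Finset (Fin r)) : Set (Fin r))) by
    obtain ⟨ι, hι, θ, h⟩ := H
    refine ⟨ι, hι, θ, fun f => ?_⟩
    obtain ⟨s, hs, hf⟩ := h f
    refine ⟨s, hs, ?_⟩
    simpa using hf
  refine Finset.induction_on' (motive := fun J => ∃ (ι : Type) (_ : Fintype ι)
      (θ : ι → MvPowerSeries (Fin r) K), ∀ f : MvPowerSeries (Fin r) K,
        ∃ s : ι → MvPowerSeries (Fin r) K, (∀ i, OnlyVars (fun j => j ∈ J) (s i)) ∧
        f - ∑ i, s i * θ i ∈ P ⊔ Ideal.span (X '' ((J0 \ J : Finset (Fin r)) : Set (Fin r))))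
      J0 ?_ ?_
  · obtain ⟨ι, hι, θ, h⟩ := exists_fin_base (K := K) (r := r) N
    refine ⟨ι, hι, θ, fun f => ?_⟩
    obtain ⟨c, hc⟩ := h f
    refine ⟨fun i => C (c i), fun i => onlyVars_C _ _, ?_⟩
    have := hN hc
    simpa using this
  · intro j J hj hJ hjJ ⟨ι, hι, θ, h⟩
    set Q : Ideal (MvPowerSeries (Fin r) K) :=
      P ⊔ Ideal.span (X '' ((J0 \ insert j J : Finset (Fin r)) : Set (Fin r))) with hQ
    have hle : P ⊔ Ideal.span (X '' ((J0 \ J : Finset (Fin r)) : Set (Fin r))) ≤
        Q ⊔ Ideal.span {X j} := by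
      refine sup_le (le_sup_left.trans le_sup_left) ?_
      rw [Ideal.span_le]
      rintro _ ⟨i, hi, rfl⟩
      by_cases hij : i = j
      · rw [hij]
        exact Ideal.mem_sup_right (Ideal.subset_span rfl)
      · refine Ideal.mem_sup_left (Ideal.mem_sup_right (Ideal.subset_span ⟨i, ?_, rfl⟩))
        simp only [Finset.coe_sdiff, Set.mem_sdiff, Finset.mem_coe] at hi
        simp [hi.1, hi.2, hij]
    have hfg : Q.FG := IsNoetherian.noetherian Q
    obtain ⟨G, hG⟩ := hfg
    have hdec : ∀ f : MvPowerSeries (Fin r) K, ∃ (s : ι → MvPowerSeries (Fin r) K)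
        (a : MvPowerSeries (Fin r) K → MvPowerSeries (Fin r) K) (b : MvPowerSeries (Fin r) K),
        (∀ i, OnlyVars (fun j => j ∈ J) (s i)) ∧
        f = ∑ i, s i * θ i + ∑ g ∈ G, a g * g + X j * b := by
      intro f
      obtain ⟨s, hs, hf⟩ := h f
      obtain ⟨q, hq, y, hy, hqy⟩ := Submodule.mem_sup.1 (hle hf)
      obtain ⟨b, hb⟩ := Ideal.mem_span_singleton.1 hy
      rw [← hG] at hq
      obtain ⟨a, ha⟩ := Submodule.mem_span_finset.1 hq
      refine ⟨s, a, b, hs, ?_⟩
      have : f = ∑ i, s i * θ i + (q + y) := by rw [hqy]; ring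
      rw [this, hb, ← ha.2]
      simp only [smul_eq_mul]
      ring
    choose s a b hs hdec using hdec
    refine ⟨ι, hι, θ, fun f => ?_⟩
    let fk : ℕ → MvPowerSeries (Fin r) K := fun k => b^[k] f
    refine ⟨fun i => powSum j (fun k => s (fk k) i), fun i => ?_, ?_⟩
    · exact onlyVars_powSum (J := fun i => i ∈ J) (J' := fun i => i ∈ insert j J)
        (fun i hi => Finset.mem_insert_of_mem hi) j
        (Finset.mem_insert_self _ _) (fun k => s (fk k) i) (fun k => hs (fk k) i)
    · have h0 : f = powSum j (fun k => ∑ i, s (fk k) i * θ i + ∑ g ∈ G, a (fk k) g * g) := by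
        refine eq_powSum j _ fk ?_
        intro k
        have : fk (k + 1) = b (fk k) := by
          simp only [fk]
          rw [Function.iterate_succ_apply']
        rw [this]
        exact hdec (fk k)
      have h1 : f = ∑ i, powSum j (fun k => s (fk k) i) * θ i +
          ∑ g ∈ G, powSum j (fun k => a (fk k) g) * g := by
        conv_lhs => rw [h0]
        rw [powSum_add, powSum_sum, powSum_sum]
        congr 1
        · refine Finset.sum_congr rfl fun i _ => ?_
          rw [powSum_mul]
        · refine Finset.sum_congr rfl fun g _ => ?_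
          rw [powSum_mul]
      have h2 : f - ∑ i, powSum j (fun k => s (fk k) i) * θ i =
          ∑ g ∈ G, powSum j (fun k => a (fk k) g) * g := by
        conv_lhs => enter [1]; rw [h1]
        ring
      rw [h2, ← hG]
      exact sum_mem fun g hg => Ideal.mul_mem_left _ _ (Ideal.subset_span hg)

end CommFin

end Crest.Agent.LT
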