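import Mathlib
import Crest.Prelude.Def_LubinTate
import Crest.Agent.LT.FG

/-!
# Evaluation of power series in complete linearly topologised rings (row 227, S0351)

`ev φ a f` evaluates `f : MvPowerSeries σ R` (R with the discrete topology, no topology needed)
at a finite family `a` of topologically nilpotent elements of `S`, through `φ : R →+* S`.
`OC C` is the closed unit ball of a nonarchimedean normed field.

Extra API beyond the chunk statements (general part) is in the namespace `Crest.Agent.LT.E7`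
(`E7.ev_op`, `E7.ev_ev1`, `E7.op_hom`, `E7.op_assoc'`, `E7.op_comm'`, ...).
-/

set_option autoImplicit false
set_option linter.unusedSectionVars false
set_option linter.unusedVariables false
set_option linter.style.haveILetI false

namespace Crest.Agent.LT

open Crest.LubinTate MvPowerSeries

/-! ## General evaluation -/

section General

variable {σ τ : Type*} {R R' : Type*} [CommRing R] [CommRing R']
variable {S : Type*} [CommRing S] [UniformSpace S]

/-- evaluation (junk value unless the `a i` are topologically nilpotent, `σ` finite) -/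
noncomputable def ev (φ : R →+* S) (a : σ → S) (f : MvPowerSeries σ R) : S :=
  letI : UniformSpace R := ⊥
  MvPowerSeries.eval₂ φ a f

/-- one-variable evaluation -/
noncomputable def ev1 (φ : R →+* S) (z : S) (f : PowerSeries R) : S :=
  ev φ (fun _ : Unit => z) f

variable [IsUniformAddGroup S] [IsTopologicalRing S] [IsLinearTopology S S] [T2Space S]
  [CompleteSpace S]

variable [Finite σ] [Finite τ]

theorem hasEval_of_forall {a : σ → S} (ha : ∀ i, IsTopologicallyNilpotent (a i)) :
    MvPowerSeries.HasEval a where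
  hpow := ha
  tendsto_zero := by rw [Filter.cofinite_eq_bot]; exact Filter.tendsto_bot

theorem E7.unifBot (R : Type*) [CommRing R] : @IsUniformAddGroup R ⊥ _ :=
  letI : UniformSpace R := ⊥
  inferInstance

theorem E7.discBot (R : Type*) : @DiscreteTopology R (⊥ : UniformSpace R).toTopologicalSpace :=
  letI : UniformSpace R := ⊥
  inferInstance

/-- evaluation as a ring hom -/
noncomputable def evHom (φ : R →+* S) (a : σ → S) (ha : ∀ i, IsTopologicallyNilpotent (a i)) :
    MvPowerSeries σ R →+* S :=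
  letI : UniformSpace R := ⊥
  haveI : DiscreteTopology R := E7.discBot R
  haveI : IsUniformAddGroup R := E7.unifBot R
  MvPowerSeries.eval₂Hom (φ := φ) (a := a) continuous_of_discreteTopology (hasEval_of_forall ha)

theorem evHom_apply (φ : R →+* S) (a : σ → S) (ha : ∀ i, IsTopologicallyNilpotent (a i))
    (f : MvPowerSeries σ R) : evHom φ a ha f = ev φ a f := by
  letI : UniformSpace R := ⊥
  haveI : DiscreteTopology R := E7.discBot R
  haveI : IsUniformAddGroup R := E7.unifBot R
  exact congrFun (MvPowerSeries.coe_eval₂Hom (φ := φ) (a := a) continuous_of_discreteTopology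
    (hasEval_of_forall ha)) f

theorem ev_C (φ : R →+* S) (a : σ → S) (ha : ∀ i, IsTopologicallyNilpotent (a i)) (r : R) :
    ev φ a (MvPowerSeries.C r) = φ r := by
  letI : UniformSpace R := ⊥
  exact MvPowerSeries.eval₂_C φ a r

theorem ev_X (φ : R →+* S) (a : σ → S) (ha : ∀ i, IsTopologicallyNilpotent (a i)) (i : σ) :
    ev φ a (MvPowerSeries.X i) = a i := by
  letI : UniformSpace R := ⊥
  exact MvPowerSeries.eval₂_X φ a i

theorem ev1_X (φ : R →+* S) (z : S) (hz : IsTopologicallyNilpotent z) :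
    ev1 φ z PowerSeries.X = z :=
  ev_X φ (fun _ : Unit => z) (fun _ => hz) ()

/-- `ev` is the sum of the series -/
theorem hasSum_ev (φ : R →+* S) (a : σ → S) (ha : ∀ i, IsTopologicallyNilpotent (a i))
    (f : MvPowerSeries σ R) :
    HasSum (fun d : σ →₀ ℕ => φ (MvPowerSeries.coeff d f) * d.prod (fun i e => a i ^ e))
      (ev φ a f) := by
  letI : UniformSpace R := ⊥
  haveI : DiscreteTopology R := E7.discBot R
  haveI : IsUniformAddGroup R := E7.unifBot R
  exact MvPowerSeries.hasSum_eval₂ (φ := φ) continuous_of_discreteTopology (hasEval_of_forall ha) f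

theorem hasSum_ev1 (φ : R →+* S) (z : S) (hz : IsTopologicallyNilpotent z) (f : PowerSeries R) :
    HasSum (fun n : ℕ => φ (PowerSeries.coeff n f) * z ^ n) (ev1 φ z f) := by
  have h := hasSum_ev φ (fun _ : Unit => z) (fun _ => hz) f
  let e : ℕ ≃ (Unit →₀ ℕ) := ⟨fun n => Finsupp.single () n, fun d => d (), fun n => by simp,
    fun d => by ext; simp⟩
  rw [← e.hasSum_iff] at h
  have h2 : ((fun d : Unit →₀ ℕ => φ (MvPowerSeries.coeff d f) * d.prod fun _ e => z ^ e) ∘ e) =
      fun n : ℕ => φ (PowerSeries.coeff n f) * z ^ n := by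
    funext n
    simp [e, PowerSeries.coeff]
  rw [h2] at h
  exact h

/-- continuity statement for `evHom` in the product topology -/
theorem E7.continuous_evHom (φ : R →+* S) (a : σ → S) (ha : ∀ i, IsTopologicallyNilpotent (a i)) :
    letI : UniformSpace R := ⊥
    letI : TopologicalSpace (MvPowerSeries σ R) := MvPowerSeries.WithPiTopology.instTopologicalSpace R
    Continuous (evHom φ a ha) := by
  letI : UniformSpace R := ⊥
  haveI : DiscreteTopology R := E7.discBot R
  haveI : IsUniformAddGroup R := E7.unifBot R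
  have h := MvPowerSeries.continuous_eval₂ (φ := φ) (a := a) continuous_of_discreteTopology
    (hasEval_of_forall ha)
  have h2 : (⇑(evHom φ a ha)) = MvPowerSeries.eval₂ φ a :=
    MvPowerSeries.coe_eval₂Hom (φ := φ) (a := a) continuous_of_discreteTopology
    (hasEval_of_forall ha)
  rw [h2]
  exact h

theorem isTopologicallyNilpotent_ev' (φ : R →+* S) (a : σ → S)
    (ha : ∀ i, IsTopologicallyNilpotent (a i)) (f : MvPowerSeries σ R)
    (hf : MvPowerSeries.constantCoeff f = 0) :
    IsTopologicallyNilpotent (ev φ a f) := by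
  letI : UniformSpace R := ⊥
  haveI : DiscreteTopology R := E7.discBot R
  letI : TopologicalSpace (MvPowerSeries σ R) := MvPowerSeries.WithPiTopology.instTopologicalSpace R
  have h0 : IsTopologicallyNilpotent f :=
    MvPowerSeries.WithPiTopology.isTopologicallyNilpotent_of_constantCoeff_zero hf
  have h := h0.map (φ := evHom φ a ha) (E7.continuous_evHom φ a ha)
  rwa [evHom_apply] at h

/-- `ev` of a series with topologically nilpotent constant term is topologically nilpotent -/
theorem isTopologicallyNilpotent_ev (φ : R →+* S) (a : σ → S)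
    (ha : ∀ i, IsTopologicallyNilpotent (a i)) (f : MvPowerSeries σ R)
    (hf : IsTopologicallyNilpotent (φ (MvPowerSeries.constantCoeff f))) :
    IsTopologicallyNilpotent (ev φ a f) := by
  have h1 : ev φ a f = φ (MvPowerSeries.constantCoeff f) +
      ev φ a (f - MvPowerSeries.C (MvPowerSeries.constantCoeff f)) := by
    rw [← evHom_apply φ a ha, ← evHom_apply φ a ha, map_sub, evHom_apply, evHom_apply,
      ev_C φ a ha]
    ring
  rw [h1]
  exact hf.add (isTopologicallyNilpotent_ev' φ a ha _ (by simp))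

theorem isTopologicallyNilpotent_ev1 (φ : R →+* S) (z : S) (hz : IsTopologicallyNilpotent z)
    (f : PowerSeries R) (hf : PowerSeries.constantCoeff f = 0) :
    IsTopologicallyNilpotent (ev1 φ z f) :=
  isTopologicallyNilpotent_ev' φ (fun _ : Unit => z) (fun _ => hz) f hf

open scoped MvPowerSeries.WithPiTopology in
/-- composition law -/
theorem ev_subst (φ : R →+* S) (a : σ → S) (ha : ∀ i, IsTopologicallyNilpotent (a i))
    (b : τ → MvPowerSeries σ R) (hb : ∀ i, MvPowerSeries.constantCoeff (b i) = 0)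
    (f : MvPowerSeries τ R) :
    ev φ a (MvPowerSeries.subst b f) = ev φ (fun i => ev φ a (b i)) f := by
  letI : UniformSpace R := ⊥
  haveI : DiscreteTopology R := E7.discBot R
  haveI : IsUniformAddGroup R := E7.unifBot R
  have hb' : MvPowerSeries.HasEval b := (MvPowerSeries.hasSubst_of_constantCoeff_zero hb).hasEval
  have h := MvPowerSeries.comp_eval₂ (φ := algebraMap R (MvPowerSeries σ R)) (a := b)
    continuous_of_discreteTopology hb' (ε := evHom φ a ha) (E7.continuous_evHom φ a ha)
  have h2 := congrFun h f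
  have h3 : (evHom φ a ha).comp (algebraMap R (MvPowerSeries σ R)) = φ := by
    ext r
    simp only [RingHom.comp_apply]
    rw [MvPowerSeries.algebraMap_apply, evHom_apply]
    exact ev_C φ a ha r
  rw [h3] at h2
  have h4 : (⇑(evHom φ a ha) ∘ b) = fun i => ev φ a (b i) := by
    funext i
    exact evHom_apply φ a ha _
  rw [h4] at h2
  rw [← evHom_apply φ a ha]
  exact h2

theorem ev_subst1 (φ : R →+* S) (a : σ → S) (ha : ∀ i, IsTopologicallyNilpotent (a i))
    (b : MvPowerSeries σ R) (hb : MvPowerSeries.constantCoeff b = 0) (f : PowerSeries R) :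
    ev φ a (PowerSeries.subst b f) = ev1 φ (ev φ a b) f :=
  ev_subst φ a ha (fun _ : Unit => b) (fun _ => hb) f

theorem ev1_subst (φ : R →+* S) (z : S) (hz : IsTopologicallyNilpotent z)
    (b : PowerSeries R) (hb : PowerSeries.constantCoeff b = 0) (f : PowerSeries R) :
    ev1 φ z (PowerSeries.subst b f) = ev1 φ (ev1 φ z b) f :=
  ev_subst1 φ (fun _ : Unit => z) (fun _ => hz) b hb f

theorem ev_map (φ : R →+* S) (ψ : R' →+* R) (a : σ → S)
    (ha : ∀ i, IsTopologicallyNilpotent (a i)) (f : MvPowerSeries σ R') :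
    ev φ a (MvPowerSeries.map ψ f) = ev (φ.comp ψ) a f := by
  have h1 := hasSum_ev φ a ha (MvPowerSeries.map ψ f)
  have h2 := hasSum_ev (φ.comp ψ) a ha f
  simp only [MvPowerSeries.coeff_map] at h1
  exact h1.unique h2

theorem ev1_map (φ : R →+* S) (ψ : R' →+* R) (z : S) (hz : IsTopologicallyNilpotent z)
    (f : PowerSeries R') : ev1 φ z (PowerSeries.map ψ f) = ev1 (φ.comp ψ) z f :=
  ev_map φ ψ (fun _ : Unit => z) (fun _ => hz) f

/-- naturality in `S` -/
theorem map_ev {S' : Type*} [CommRing S'] [UniformSpace S'] [IsUniformAddGroup S']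
    [IsTopologicalRing S'] [IsLinearTopology S' S'] [T2Space S'] [CompleteSpace S']
    (g : S →+* S') (hg : Continuous g) (φ : R →+* S) (a : σ → S)
    (ha : ∀ i, IsTopologicallyNilpotent (a i)) (f : MvPowerSeries σ R) :
    g (ev φ a f) = ev (g.comp φ) (fun i => g (a i)) f := by
  have h1 := (hasSum_ev φ a ha f).map g hg
  have h2 := hasSum_ev (g.comp φ) (fun i => g (a i)) (fun i => (ha i).map hg) f
  refine h1.unique ?_
  convert h2 using 2 with d
  simp [Function.comp, Finsupp.prod, map_prod]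

open scoped MvPowerSeries.WithPiTopology in
/-- a ring hom out of a power series ring agreeing with evaluation on constants and variables and
continuous for the `X`-adic topology (in the weak form below) is evaluation -/
theorem ev_unique (φ : R →+* S) (a : σ → S) (ha : ∀ i, IsTopologicallyNilpotent (a i))
    (g : MvPowerSeries σ R →+* S) (hC : ∀ r, g (MvPowerSeries.C r) = φ r)
    (hX : ∀ i, g (MvPowerSeries.X i) = a i)
    (hcont : ∀ U ∈ nhds (0 : S), ∃ N : ℕ, ∀ f : MvPowerSeries σ R,
      (∀ d : σ →₀ ℕ, d.degree < N → MvPowerSeries.coeff d f = 0) → g f ∈ U)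
    (f : MvPowerSeries σ R) : g f = ev φ a f := by
  let _ : UniformSpace R := ⊥
  have _ : DiscreteTopology R := E7.discBot R
  have _ : IsUniformAddGroup R := E7.unifBot R
  have hgc : Continuous g := by
    apply continuous_of_continuousAt_zero
    intro U hU
    rw [map_zero] at hU
    obtain ⟨N, hN⟩ := hcont U hU
    have hfin : {d : σ →₀ ℕ | d.degree < N}.Finite :=
      (Finsupp.finite_of_degree_le N).subset (fun d (hd : d.degree < N) => hd.le)
    have h1 : ∀ᶠ f : MvPowerSeries σ R in nhds 0, ∀ d ∈ {d : σ →₀ ℕ | d.degree < N},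
        MvPowerSeries.coeff d f = 0 := by
      rw [Set.Finite.eventually_all hfin]
      intro d _
      have h2 : Filter.Tendsto (MvPowerSeries.coeff (R := R) d) (nhds 0) (nhds 0) :=
        (MvPowerSeries.WithPiTopology.continuous_coeff R d).tendsto' 0 0 (map_zero _)
      have h3 : ({0} : Set R) ∈ nhds (0 : R) := by
        rw [nhds_discrete]; exact Filter.mem_pure.2 rfl
      exact h2 h3
    rw [Filter.mem_map]
    filter_upwards [h1] with f hf
    exact hN f hf
  have h := MvPowerSeries.eval₂_unique (φ := φ) (a := a) continuous_of_discreteTopology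
    (hasEval_of_forall ha) (ε := g) hgc (by
      intro P
      have e1 : g.comp (MvPolynomial.coeToMvPowerSeries.ringHom) = MvPolynomial.eval₂Hom φ a := by
        apply MvPolynomial.ringHom_ext
        · intro r
          simp only [RingHom.comp_apply, MvPolynomial.coeToMvPowerSeries.ringHom_apply,
            MvPolynomial.coe_C, hC, MvPolynomial.coe_eval₂Hom, MvPolynomial.eval₂_C]
        · intro i
          simp only [RingHom.comp_apply, MvPolynomial.coeToMvPowerSeries.ringHom_apply,
            MvPolynomial.coe_X, hX, MvPolynomial.coe_eval₂Hom, MvPolynomial.eval₂_X]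
      exact congrArg (fun h : MvPolynomial σ R →+* S => h P) e1)
  exact congrFun h f

/-- the group of topologically nilpotent points of a commutative formal group law -/
def Pt (_F : FormalGroup R) (_φ : R →+* S) := {z : S // IsTopologicallyNilpotent z}

/-- group law at points -/
noncomputable def op (F : FormalGroup R) (φ : R →+* S) (a b : S) : S :=
  ev φ ![a, b] F.toPowerSeries

theorem E7.tn2 {a b : S} (ha : IsTopologicallyNilpotent a) (hb : IsTopologicallyNilpotent b) :
    ∀ i : Fin 2, IsTopologicallyNilpotent ((![a, b] : Fin 2 → S) i) := by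
  intro i
  fin_cases i
  · exact ha
  · exact hb

theorem E7.isTopologicallyNilpotent_op (F : FormalGroup R) (φ : R →+* S) {a b : S}
    (ha : IsTopologicallyNilpotent a) (hb : IsTopologicallyNilpotent b) :
    IsTopologicallyNilpotent (op F φ a b) :=
  isTopologicallyNilpotent_ev' φ _ (E7.tn2 ha hb) _ F.zero_constantCoeff

/-- evaluation of a formal sum is the sum at points -/
theorem E7.ev_op (F : FormalGroup R) (φ : R →+* S) (a : σ → S)
    (ha : ∀ i, IsTopologicallyNilpotent (a i)) {f g : MvPowerSeries σ R}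
    (hf : MvPowerSeries.constantCoeff f = 0) (hg : MvPowerSeries.constantCoeff g = 0) :
    ev φ a (LT93.op F f g) = op F φ (ev φ a f) (ev φ a g) := by
  unfold LT93.op op
  rw [ev_subst φ a ha ![f, g] (by intro i; fin_cases i; exacts [hf, hg])]
  congr 1
  funext i
  fin_cases i <;> rfl

/-- the one variable version: `ev` of `ψ(f)` -/
theorem E7.ev_ev1 (φ : R →+* S) (a : σ → S)
    (ha : ∀ i, IsTopologicallyNilpotent (a i)) (ψ : PowerSeries R) {f : MvPowerSeries σ R}
    (hf : MvPowerSeries.constantCoeff f = 0) :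
    ev φ a (LT93.ev ψ f) = ev1 φ (ev φ a f) ψ :=
  ev_subst1 φ a ha f hf ψ

theorem E7.isTopologicallyNilpotent_ev1' (φ : R →+* S) {z : S} (hz : IsTopologicallyNilpotent z)
    {f : PowerSeries R} (hf : PowerSeries.constantCoeff f = 0) :
    IsTopologicallyNilpotent (ev1 φ z f) :=
  isTopologicallyNilpotent_ev1 φ z hz f hf

theorem E7.ev_zero_series (φ : R →+* S) (a : σ → S)
    (ha : ∀ i, IsTopologicallyNilpotent (a i)) : ev φ a (0 : MvPowerSeries σ R) = 0 := by
  rw [← evHom_apply φ a ha, map_zero]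

theorem E7.op_assoc' (F : FormalGroup R) (φ : R →+* S) {x y z : S}
    (hx : IsTopologicallyNilpotent x) (hy : IsTopologicallyNilpotent y)
    (hz : IsTopologicallyNilpotent z) :
    op F φ (op F φ x y) z = op F φ x (op F φ y z) := by
  have ha : ∀ i : Fin 3, IsTopologicallyNilpotent ((![x, y, z] : Fin 3 → S) i) := by
    intro i; fin_cases i
    exacts [hx, hy, hz]
  have h := congrArg (ev φ ![x, y, z]) (LT93.op_assoc F (LT93.hX (R := R) (0 : Fin 3)) (LT93.hX 1)
    (LT93.hX 2))
  have c : ∀ i : Fin 3, MvPowerSeries.constantCoeff (MvPowerSeries.X i : MvPowerSeries (Fin 3) R) = 0 :=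
    fun i => MvPowerSeries.constantCoeff_X i
  rw [E7.ev_op F φ _ ha (LT93.constantCoeff_op F (c 0) (c 1)) (c 2), E7.ev_op F φ _ ha (c 0) (c 1),
    E7.ev_op F φ _ ha (c 0) (LT93.constantCoeff_op F (c 1) (c 2)), E7.ev_op F φ _ ha (c 1) (c 2),
    ev_X φ _ ha, ev_X φ _ ha, ev_X φ _ ha] at h
  exact h

theorem E7.zero_op' (F : FormalGroup R) (φ : R →+* S) {x : S} (hx : IsTopologicallyNilpotent x) :
    op F φ 0 x = x := by
  have ha : ∀ i : Unit, IsTopologicallyNilpotent ((fun _ : Unit => x) i) := fun _ => hx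
  have c : MvPowerSeries.constantCoeff (MvPowerSeries.X () : MvPowerSeries Unit R) = 0 :=
    MvPowerSeries.constantCoeff_X ()
  have h := congrArg (ev φ (fun _ : Unit => x)) (LT93.zero_op F (LT93.hX (R := R) ()))
  rw [E7.ev_op F φ _ ha (map_zero _) c, ev_X φ _ ha, E7.ev_zero_series φ _ ha] at h
  exact h

theorem E7.op_zero' (F : FormalGroup R) (φ : R →+* S) {x : S} (hx : IsTopologicallyNilpotent x) :
    op F φ x 0 = x := by
  have ha : ∀ i : Unit, IsTopologicallyNilpotent ((fun _ : Unit => x) i) := fun _ => hx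
  have c : MvPowerSeries.constantCoeff (MvPowerSeries.X () : MvPowerSeries Unit R) = 0 :=
    MvPowerSeries.constantCoeff_X ()
  have h := congrArg (ev φ (fun _ : Unit => x)) (LT93.op_zero F (LT93.hX (R := R) ()))
  rw [E7.ev_op F φ _ ha c (map_zero _), ev_X φ _ ha, E7.ev_zero_series φ _ ha] at h
  exact h

theorem E7.op_comm' (F : FormalGroup R) [F.IsComm] (φ : R →+* S) {x y : S}
    (hx : IsTopologicallyNilpotent x) (hy : IsTopologicallyNilpotent y) :
    op F φ x y = op F φ y x := by
  have ha := E7.tn2 hx hy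
  have c : ∀ i : Fin 2, MvPowerSeries.constantCoeff (MvPowerSeries.X i : MvPowerSeries (Fin 2) R) = 0 :=
    fun i => MvPowerSeries.constantCoeff_X i
  have h := congrArg (ev φ ![x, y]) (LT93.op_comm F (LT93.hX (R := R) (0 : Fin 2)) (LT93.hX 1))
  rw [E7.ev_op F φ _ ha (c 0) (c 1), E7.ev_op F φ _ ha (c 1) (c 0), ev_X φ _ ha, ev_X φ _ ha] at h
  exact h

theorem E7.op_neg' (F : FormalGroup R) [F.IsComm] (φ : R →+* S) {x : S}
    (hx : IsTopologicallyNilpotent x) :
    op F φ x (ev1 φ x (negSeries F)) = 0 := by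
  have ha : ∀ i : Unit, IsTopologicallyNilpotent ((fun _ : Unit => x) i) := fun _ => hx
  have c : MvPowerSeries.constantCoeff (MvPowerSeries.X () : MvPowerSeries Unit R) = 0 :=
    MvPowerSeries.constantCoeff_X ()
  have h := congrArg (ev φ (fun _ : Unit => x)) (subst_negSeries F)
  have h2 := E7.ev_op F φ _ ha (f := (PowerSeries.X : PowerSeries R)) (g := negSeries F) c
    (constantCoeff_negSeries F)
  have h3 : ev φ (fun _ : Unit => x) (PowerSeries.X : PowerSeries R) = x := ev_X φ _ ha ()
  rw [h3] at h2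
  exact h2.symm.trans (h.trans (E7.ev_zero_series φ _ ha))

noncomputable instance Pt.instAdd {F : FormalGroup R} {φ : R →+* S} : Add (Pt F φ) where
  add x y := ⟨op F φ x.1 y.1, E7.isTopologicallyNilpotent_op F φ x.2 y.2⟩

noncomputable instance Pt.instZero {F : FormalGroup R} {φ : R →+* S} : Zero (Pt F φ) where
  zero := ⟨0, IsTopologicallyNilpotent.zero⟩

noncomputable instance Pt.instNeg {F : FormalGroup R} [F.IsComm] {φ : R →+* S} : Neg (Pt F φ) where
  neg x := ⟨ev1 φ x.1 (negSeries F),
    isTopologicallyNilpotent_ev1 φ x.1 x.2 _ (constantCoeff_negSeries F)⟩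

noncomputable instance Pt.instAddCommGroup {F : FormalGroup R} [F.IsComm] {φ : R →+* S} :
    AddCommGroup (Pt F φ) where
  add_assoc x y z := Subtype.ext (E7.op_assoc' F φ x.2 y.2 z.2)
  zero_add x := Subtype.ext (E7.zero_op' F φ x.2)
  add_zero x := Subtype.ext (E7.op_zero' F φ x.2)
  nsmul := nsmulRec
  zsmul := zsmulRec
  neg_add_cancel x := Subtype.ext ((E7.op_comm' F φ (-x).2 x.2).trans (E7.op_neg' F φ x.2))
  add_comm x y := Subtype.ext (E7.op_comm' F φ x.2 y.2)

theorem Pt.add_val {F : FormalGroup R} [F.IsComm] {φ : R →+* S} (x y : Pt F φ) :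
    (x + y).1 = op F φ x.1 y.1 := rfl

theorem Pt.zero_val {F : FormalGroup R} [F.IsComm] {φ : R →+* S} : (0 : Pt F φ).1 = 0 := rfl

theorem Pt.nsmul_val {F : FormalGroup R} [F.IsComm] {φ : R →+* S} (m : ℕ) (x : Pt F φ) :
    (m • x).1 = ev1 φ x.1 (mulSeries F m) := by
  have ha : ∀ i : Unit, IsTopologicallyNilpotent ((fun _ : Unit => x.1) i) := fun _ => x.2
  induction m with
  | zero =>
    rw [zero_smul, Pt.zero_val]
    exact (E7.ev_zero_series φ _ ha).symm
  | succ m ih =>
    rw [succ_nsmul, Pt.add_val, ih]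
    have c : MvPowerSeries.constantCoeff (MvPowerSeries.X () : MvPowerSeries Unit R) = 0 :=
      MvPowerSeries.constantCoeff_X ()
    have h2 := E7.ev_op F φ _ ha (f := mulSeries F m) (g := (PowerSeries.X : PowerSeries R))
      (constantCoeff_mulSeries F m) c
    have h3 : ev φ (fun _ : Unit => x.1) (PowerSeries.X : PowerSeries R) = x.1 := ev_X φ _ ha ()
    rw [h3] at h2
    exact h2.symm

theorem E7.op_hom {F G : FormalGroup R} {φ : R →+* S} {ψ : PowerSeries R} (hψ : IsFGHom F G ψ)
    {x y : S} (hx : IsTopologicallyNilpotent x) (hy : IsTopologicallyNilpotent y) :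
    ev1 φ (op F φ x y) ψ = op G φ (ev1 φ x ψ) (ev1 φ y ψ) := by
  have ha := E7.tn2 hx hy
  have c : ∀ i : Fin 2, MvPowerSeries.constantCoeff (MvPowerSeries.X i : MvPowerSeries (Fin 2) R) = 0 :=
    fun i => MvPowerSeries.constantCoeff_X i
  have h := congrArg (ev φ ![x, y]) (LT93.hom_apply hψ (LT93.hX (R := R) (0 : Fin 2)) (LT93.hX 1))
  rw [E7.ev_ev1 φ _ ha ψ (LT93.constantCoeff_op F (c 0) (c 1)), E7.ev_op F φ _ ha (c 0) (c 1),
    E7.ev_op G φ _ ha (LT93.constantCoeff_ev' hψ.1 (c 0)) (LT93.constantCoeff_ev' hψ.1 (c 1)),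
    E7.ev_ev1 φ _ ha ψ (c 0), E7.ev_ev1 φ _ ha ψ (c 1), ev_X φ _ ha, ev_X φ _ ha] at h
  exact h

theorem E7.ev1_zero_arg (φ : R →+* S) (ψ : PowerSeries R) (hψ : PowerSeries.constantCoeff ψ = 0) :
    ev1 φ 0 ψ = 0 := by
  have h := hasSum_ev1 φ 0 IsTopologicallyNilpotent.zero ψ
  refine h.unique ?_
  convert hasSum_zero using 2 with n
  rcases n with _ | n
  · rw [PowerSeries.coeff_zero_eq_constantCoeff_apply, hψ, map_zero, zero_mul]
  · rw [zero_pow (Nat.succ_ne_zero n), mul_zero]

/-- homs act on points -/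
noncomputable def Pt.mapHom {F G : FormalGroup R} [F.IsComm] [G.IsComm] {φ : R →+* S}
    (ψ : PowerSeries R) (hψ : IsFGHom F G ψ) : Pt F φ →+ Pt G φ where
  toFun x := ⟨ev1 φ x.1 ψ, isTopologicallyNilpotent_ev1 φ x.1 x.2 ψ hψ.1⟩
  map_zero' := Subtype.ext (E7.ev1_zero_arg φ ψ hψ.1)
  map_add' x y := Subtype.ext (E7.op_hom hψ x.2 y.2)

theorem Pt.mapHom_val {F G : FormalGroup R} [F.IsComm] [G.IsComm] {φ : R →+* S}
    (ψ : PowerSeries R) (hψ : IsFGHom F G ψ) (x : Pt F φ) :
    (Pt.mapHom ψ hψ x).1 = ev1 φ x.1 ψ := rfl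

end General

/-! ## The closed unit ball of a nonarchimedean field -/

section OC

variable (C : Type*) [NormedField C] [IsUltrametricDist C]

/-- closed unit ball of a nonarchimedean normed field -/
def OC : Subring C where
  carrier := {x | ‖x‖ ≤ 1}
  mul_mem' := by
    intro a b ha hb
    have ha' : ‖a‖ ≤ 1 := ha
    have hb' : ‖b‖ ≤ 1 := hb
    change ‖a * b‖ ≤ 1
    rw [norm_mul]
    exact mul_le_one₀ ha' (norm_nonneg _) hb'
  one_mem' := by
    change ‖(1 : C)‖ ≤ 1
    rw [norm_one]
  add_mem' := by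
    intro a b ha hb
    have ha' : ‖a‖ ≤ 1 := ha
    have hb' : ‖b‖ ≤ 1 := hb
    exact (IsUltrametricDist.norm_add_le_max a b).trans (max_le ha' hb')
  zero_mem' := by
    change ‖(0 : C)‖ ≤ 1
    rw [norm_zero]
    exact zero_le_one
  neg_mem' := by
    intro a ha
    have ha' : ‖a‖ ≤ 1 := ha
    change ‖-a‖ ≤ 1
    rwa [norm_neg]

variable {C}

theorem mem_OC {x : C} : x ∈ OC C ↔ ‖x‖ ≤ 1 := Iff.rfl

theorem OC.norm_le_one (x : OC C) : ‖x‖ ≤ 1 := x.2

theorem OC.norm_mul' (x y : OC C) : ‖x * y‖ = ‖x‖ * ‖y‖ := by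
  change ‖(x : C) * (y : C)‖ = ‖(x : C)‖ * ‖(y : C)‖
  exact norm_mul _ _

theorem OC.norm_pow' (x : OC C) (n : ℕ) : ‖x ^ n‖ = ‖x‖ ^ n := by
  change ‖(x : C) ^ n‖ = ‖(x : C)‖ ^ n
  exact norm_pow _ _

theorem OC.norm_one' : ‖(1 : OC C)‖ = 1 := by
  change ‖(1 : C)‖ = 1
  exact norm_one

theorem OC.norm_add_le_max' (x y : OC C) : ‖x + y‖ ≤ max ‖x‖ ‖y‖ :=
  IsUltrametricDist.norm_add_le_max (x : C) (y : C)

theorem OC.norm_sub_le_max' (x y : OC C) : ‖x - y‖ ≤ max ‖x‖ ‖y‖ := by
  have h := OC.norm_add_le_max' x (-y)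
  rwa [norm_neg, ← sub_eq_add_neg] at h

/-- the ideal `{x | ‖x‖ < ε}` -/
def OC.ballIdeal (C : Type*) [NormedField C] [IsUltrametricDist C] (ε : ℝ) (hε : 0 < ε) :
    Ideal (OC C) where
  carrier := Metric.ball 0 ε
  add_mem' := by
    intro a b ha hb
    rw [mem_ball_zero_iff] at ha hb ⊢
    exact (OC.norm_add_le_max' a b).trans_lt (max_lt ha hb)
  zero_mem' := by
    rw [mem_ball_zero_iff, norm_zero]
    exact hε
  smul_mem' := by
    intro c x hx
    rw [mem_ball_zero_iff] at hx ⊢
    rw [smul_eq_mul, OC.norm_mul']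
    exact (mul_le_of_le_one_left (norm_nonneg _) (OC.norm_le_one c)).trans_lt hx

instance : IsLinearTopology (OC C) (OC C) where
  hasBasis_submodule' := by
    refine Metric.nhds_basis_ball.to_hasBasis (fun ε hε => ?_) (fun N hN => ?_)
    · exact ⟨OC.ballIdeal C ε hε, Metric.ball_mem_nhds 0 hε, subset_rfl⟩
    · exact Metric.nhds_basis_ball.mem_iff.mp hN

instance : IsUniformAddGroup (OC C) := inferInstance

instance [CompleteSpace C] : CompleteSpace (OC C) := by
  have h : IsClosed ((OC C : Subring C) : Set C) := by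
    have h2 : ((OC C : Subring C) : Set C) = {x : C | ‖x‖ ≤ 1} := rfl
    rw [h2]
    exact isClosed_le continuous_norm continuous_const
  exact h.completeSpace_coe

instance : IsUltrametricDist (OC C) := IsUltrametricDist.subtype _

theorem OC.isTopologicallyNilpotent_iff (x : OC C) : IsTopologicallyNilpotent x ↔ ‖x‖ < 1 := by
  constructor
  · intro h
    by_contra hx
    push Not at hx
    have h1 : Filter.Tendsto (fun n : ℕ => ‖x ^ n‖) Filter.atTop (nhds 0) := by
      have := (Filter.Tendsto.norm h)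
      rwa [norm_zero] at this
    have h2 : (1 : ℝ) ≤ 0 := by
      refine ge_of_tendsto h1 (Filter.Eventually.of_forall fun n => ?_)
      change 1 ≤ ‖x ^ n‖
      rw [OC.norm_pow']
      exact one_le_pow₀ hx
    linarith
  · intro h
    exact tendsto_pow_atTop_nhds_zero_of_norm_lt_one h

theorem OC.norm_le_of_hasSum {ι : Type*} {f : ι → OC C} {s : OC C} (h : HasSum f s) {M : ℝ}
    (hM0 : 0 ≤ M) (hM : ∀ i, ‖f i‖ ≤ M) : ‖s‖ ≤ M := by
  have h1 : Filter.Tendsto (fun t : Finset ι => ‖∑ b ∈ t, f b‖) Filter.atTop (nhds ‖s‖) := by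
    have h0 : Filter.Tendsto (fun t : Finset ι => ∑ b ∈ t, f b) Filter.atTop (nhds s) := h
    exact h0.norm
  refine le_of_tendsto h1 (Filter.Eventually.of_forall fun t => ?_)
  exact IsUltrametricDist.norm_sum_le_of_forall_le_of_nonneg hM0 (fun i _ => hM i)

theorem OC.norm_finset_prod_le {ι : Type*} (s : Finset ι) (a : ι → OC C) (d : ι → ℕ) {ρ : ℝ}
    (hρ0 : 0 ≤ ρ) (ha : ∀ i, ‖a i‖ ≤ ρ) : ‖∏ i ∈ s, a i ^ d i‖ ≤ ρ ^ (∑ i ∈ s, d i) := by
  classical
  induction s using Finset.induction_on with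
  | empty => simp
  | insert i s his ih =>
    rw [Finset.prod_insert his, Finset.sum_insert his, OC.norm_mul', OC.norm_pow', pow_add]
    exact mul_le_mul (pow_le_pow_left₀ (norm_nonneg _) (ha i) _) ih (norm_nonneg _)
      (pow_nonneg hρ0 _)

theorem OC.norm_mul_sub_mul_le {a b c d : OC C} {η : ℝ} (h1 : ‖a - b‖ ≤ η)
    (h2 : ‖c - d‖ ≤ η) : ‖a * c - b * d‖ ≤ η := by
  have e : a * c - b * d = (a - b) * c + b * (c - d) := by ring
  rw [e]
  refine (OC.norm_add_le_max' _ _).trans (max_le ?_ ?_)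
  · rw [OC.norm_mul']
    exact (mul_le_of_le_one_right (norm_nonneg _) (OC.norm_le_one c)).trans h1
  · rw [OC.norm_mul']
    exact (mul_le_of_le_one_left (norm_nonneg _) (OC.norm_le_one b)).trans h2

theorem OC.norm_pow_sub_pow_le {a b : OC C} {η : ℝ} (hη0 : 0 ≤ η) (h1 : ‖a - b‖ ≤ η) (n : ℕ) :
    ‖a ^ n - b ^ n‖ ≤ η := by
  induction n with
  | zero => simpa using hη0
  | succ n ih =>
    rw [pow_succ, pow_succ]
    exact OC.norm_mul_sub_mul_le ih h1

theorem OC.norm_finset_prod_sub_le {ι : Type*} (s : Finset ι) (a b : ι → OC C) (d : ι → ℕ)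
    {η : ℝ} (hη0 : 0 ≤ η) (h : ∀ i, ‖a i - b i‖ ≤ η) :
    ‖(∏ i ∈ s, a i ^ d i) - ∏ i ∈ s, b i ^ d i‖ ≤ η := by
  classical
  induction s using Finset.induction_on with
  | empty => simpa using hη0
  | insert i s his ih =>
    rw [Finset.prod_insert his, Finset.prod_insert his]
    exact OC.norm_mul_sub_mul_le (OC.norm_pow_sub_pow_le hη0 (h i) _) ih

variable {σ : Type*} [Finite σ] {R : Type*} [CommRing R] [CompleteSpace C]

/-- norm bound: `‖f(a)‖ ≤ max ‖a i‖` if the constant term vanishes -/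
theorem OC.norm_ev_le (φ : R →+* OC C) (a : σ → OC C) {ρ : ℝ} (hρ0 : 0 ≤ ρ) (hρ : ρ < 1)
    (ha : ∀ i, ‖a i‖ ≤ ρ) (f : MvPowerSeries σ R) {M : ℝ} {N : ℕ}
    (hM : ∀ d, ‖φ (MvPowerSeries.coeff d f)‖ ≤ M)
    (hN : ∀ d : σ →₀ ℕ, d.degree < N → MvPowerSeries.coeff d f = 0) :
    ‖ev φ a f‖ ≤ M * ρ ^ N := by
  have hM0 : 0 ≤ M := (norm_nonneg _).trans (hM 0)
  have hn : ∀ i, IsTopologicallyNilpotent (a i) := fun i =>
    (OC.isTopologicallyNilpotent_iff (a i)).2 ((ha i).trans_lt hρ)
  refine OC.norm_le_of_hasSum (hasSum_ev φ a hn f) (mul_nonneg hM0 (pow_nonneg hρ0 _)) ?_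
  intro d
  rw [OC.norm_mul']
  by_cases hd : d.degree < N
  · rw [hN d hd, map_zero, norm_zero, zero_mul]
    exact mul_nonneg hM0 (pow_nonneg hρ0 _)
  · push Not at hd
    refine mul_le_mul (hM d) ?_ (norm_nonneg _) hM0
    have h1 : ‖d.prod (fun i e => a i ^ e)‖ ≤ ρ ^ d.degree :=
      OC.norm_finset_prod_le d.support a d hρ0 ha
    exact h1.trans (pow_le_pow_of_le_one hρ0 hρ.le hd)

theorem OC.norm_ev1_le (φ : R →+* OC C) (z : OC C) (hz : ‖z‖ < 1) (f : PowerSeries R)
    {M : ℝ} {N : ℕ} (hM : ∀ d, ‖φ (PowerSeries.coeff d f)‖ ≤ M)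
    (hN : ∀ d < N, PowerSeries.coeff d f = 0) :
    ‖ev1 φ z f‖ ≤ M * ‖z‖ ^ N := by
  have hM0 : 0 ≤ M := (norm_nonneg _).trans (hM 0)
  have hn : IsTopologicallyNilpotent z := (OC.isTopologicallyNilpotent_iff z).2 hz
  refine OC.norm_le_of_hasSum (hasSum_ev1 φ z hn f)
    (mul_nonneg hM0 (pow_nonneg (norm_nonneg _) _)) ?_
  intro d
  rw [OC.norm_mul', OC.norm_pow']
  by_cases hd : d < N
  · rw [hN d hd, map_zero, norm_zero, zero_mul]
    exact mul_nonneg hM0 (pow_nonneg (norm_nonneg _) _)
  · push Not at hd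
    refine mul_le_mul (hM d) ?_ (pow_nonneg (norm_nonneg _) _) hM0
    exact pow_le_pow_of_le_one (norm_nonneg _) hz.le hd

/-- Lipschitz in the point -/
theorem OC.norm_ev_sub_le (φ : R →+* OC C) (a b : σ → OC C) (ha : ∀ i, ‖a i‖ < 1)
    (hb : ∀ i, ‖b i‖ < 1) {η : ℝ} (hη0 : 0 ≤ η) (hη : ∀ i, ‖a i - b i‖ ≤ η)
    (f : MvPowerSeries σ R) :
    ‖ev φ a f - ev φ b f‖ ≤ η := by
  have hna : ∀ i, IsTopologicallyNilpotent (a i) := fun i =>
    (OC.isTopologicallyNilpotent_iff (a i)).2 (ha i)
  have hnb : ∀ i, IsTopologicallyNilpotent (b i) := fun i =>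
    (OC.isTopologicallyNilpotent_iff (b i)).2 (hb i)
  refine OC.norm_le_of_hasSum ((hasSum_ev φ a hna f).sub (hasSum_ev φ b hnb f)) hη0 ?_
  intro d
  rw [← mul_sub, OC.norm_mul']
  refine (mul_le_of_le_one_left (norm_nonneg _) (OC.norm_le_one _)).trans ?_
  exact OC.norm_finset_prod_sub_le d.support a b d hη0 hη

/-- Lipschitz in the coefficients -/
theorem OC.norm_ev_sub_ev_le (φ φ' : R →+* OC C) (a : σ → OC C) (ha : ∀ i, ‖a i‖ < 1)
    {η : ℝ} (hη0 : 0 ≤ η) (f : MvPowerSeries σ R)
    (hη : ∀ d, ‖φ (MvPowerSeries.coeff d f) - φ' (MvPowerSeries.coeff d f)‖ ≤ η) :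
    ‖ev φ a f - ev φ' a f‖ ≤ η := by
  have hna : ∀ i, IsTopologicallyNilpotent (a i) := fun i =>
    (OC.isTopologicallyNilpotent_iff (a i)).2 (ha i)
  refine OC.norm_le_of_hasSum ((hasSum_ev φ a hna f).sub (hasSum_ev φ' a hna f)) hη0 ?_
  intro d
  rw [← sub_mul, OC.norm_mul']
  exact (mul_le_of_le_one_right (norm_nonneg _) (OC.norm_le_one _)).trans (hη d)

/-! coefficients of a two-variable series on the axes (after helper93) -/

lemma OC.coeff_single_zero_gen (P : MvPowerSeries (Fin 2) R) (m : ℕ) :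
    MvPowerSeries.coeff (Finsupp.single 0 m) P =
      PowerSeries.coeff m (MvPowerSeries.subst ![PowerSeries.X, 0] P : PowerSeries R) := by
  rw [PowerSeries.coeff, MvPowerSeries.coeff_subst, finsum_eq_single _ (Finsupp.single 0 m)]
  · simp [PowerSeries.coeff_X_pow]
  · intro d hd
    by_cases hd₁ : d 1 = 0
    · by_cases hd₀ : d 0 = m
      · exfalso
        apply hd
        ext i
        fin_cases i
        · simp [hd₀]
        · simp [hd₁]
      · simp only [smul_eq_mul]
        have : d = Finsupp.single 0 (d 0) := by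
          ext i
          fin_cases i
          · simp
          · simp [hd₁]
        have e : (d.prod fun s e ↦ (![PowerSeries.X, 0] s : PowerSeries R) ^ e) =
            (PowerSeries.X : PowerSeries R) ^ (d 0) := by
          rw [this, Finsupp.prod_single_index (by simp)]
          simp
        have e2 : PowerSeries.coeff m ((PowerSeries.X : PowerSeries R) ^ (d 0)) = 0 := by
          rw [PowerSeries.coeff_X_pow, if_neg (fun h => hd₀ h.symm)]
        rw [PowerSeries.coeff] at e2
        rw [e, e2, mul_zero]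
    · have e : (d.prod fun s e ↦ (![PowerSeries.X, 0] s : PowerSeries R) ^ e) = 0 := by
        rw [Finsupp.prod]
        apply Finset.prod_eq_zero (i := 1) (by simpa using hd₁)
        simp [hd₁]
      rw [e]; simp
  · exact MvPowerSeries.HasSubst.X_zero

lemma OC.coeff_single_one_gen (P : MvPowerSeries (Fin 2) R) (m : ℕ) :
    MvPowerSeries.coeff (Finsupp.single 1 m) P =
      PowerSeries.coeff m (MvPowerSeries.subst ![0, PowerSeries.X] P : PowerSeries R) := by
  rw [PowerSeries.coeff, MvPowerSeries.coeff_subst, finsum_eq_single _ (Finsupp.single 1 m)]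
  · simp [PowerSeries.coeff_X_pow]
  · intro d hd
    by_cases hd₁ : d 0 = 0
    · by_cases hd₀ : d 1 = m
      · exfalso
        apply hd
        ext i
        fin_cases i
        · simp [hd₁]
        · simp [hd₀]
      · simp only [smul_eq_mul]
        have : d = Finsupp.single 1 (d 1) := by
          ext i
          fin_cases i
          · simp [hd₁]
          · simp
        have e : (d.prod fun s e ↦ (![0, PowerSeries.X] s : PowerSeries R) ^ e) =
            (PowerSeries.X : PowerSeries R) ^ (d 1) := by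
          rw [this, Finsupp.prod_single_index (by simp)]
          simp
        have e2 : PowerSeries.coeff m ((PowerSeries.X : PowerSeries R) ^ (d 1)) = 0 := by
          rw [PowerSeries.coeff_X_pow, if_neg (fun h => hd₀ h.symm)]
        rw [PowerSeries.coeff] at e2
        rw [e, e2, mul_zero]
    · have e : (d.prod fun s e ↦ (![0, PowerSeries.X] s : PowerSeries R) ^ e) = 0 := by
        rw [Finsupp.prod]
        apply Finset.prod_eq_zero (i := 0) (by simpa using hd₁)
        simp [hd₁]
      rw [e]; simp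
  · exact MvPowerSeries.HasSubst.zero_X

/-- the series `F - X - Y` has no coefficients on the axes -/
lemma OC.coeff_sub_eq_zero (F : FormalGroup R) (d : Fin 2 →₀ ℕ) (h : d 0 = 0 ∨ d 1 = 0) :
    MvPowerSeries.coeff d (F.toPowerSeries - MvPowerSeries.X 0 - MvPowerSeries.X 1) = 0 := by
  classical
  rw [map_sub, map_sub]
  rcases h with h0 | h1
  · have hd : d = Finsupp.single 1 (d 1) := by
      ext i
      fin_cases i
      · simp [h0]
      · simp
    have e1 : MvPowerSeries.coeff d F.toPowerSeries = if d 1 = 1 then 1 else 0 := by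
      rw [hd, OC.coeff_single_one_gen]
      have : (MvPowerSeries.subst ![0, PowerSeries.X] F.toPowerSeries : PowerSeries R) =
          PowerSeries.X := F.zeroX_eq_X
      rw [this, PowerSeries.coeff_X]
      simp
    have e3 : MvPowerSeries.coeff d (MvPowerSeries.X 0 : MvPowerSeries (Fin 2) R) = 0 := by
      rw [MvPowerSeries.coeff_X, if_neg]
      rw [hd]
      intro h
      have := DFunLike.congr_fun h 0
      simp at this
    have e4 : MvPowerSeries.coeff d (MvPowerSeries.X 1 : MvPowerSeries (Fin 2) R) =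
        if d 1 = 1 then 1 else 0 := by
      rw [MvPowerSeries.coeff_X]
      congr 1
      rw [eq_iff_iff]
      constructor
      · intro h; rw [h]; simp
      · intro h; rw [hd, h]
    rw [e1, e3, e4]; ring
  · have hd : d = Finsupp.single 0 (d 0) := by
      ext i
      fin_cases i
      · simp
      · simp [h1]
    have e1 : MvPowerSeries.coeff d F.toPowerSeries = if d 0 = 1 then 1 else 0 := by
      rw [hd, OC.coeff_single_zero_gen]
      have : (MvPowerSeries.subst ![PowerSeries.X, 0] F.toPowerSeries : PowerSeries R) =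
          PowerSeries.X := F.Xzero_eq_X
      rw [this, PowerSeries.coeff_X]
      simp
    have e3 : MvPowerSeries.coeff d (MvPowerSeries.X 1 : MvPowerSeries (Fin 2) R) = 0 := by
      rw [MvPowerSeries.coeff_X, if_neg]
      rw [hd]
      intro h
      have := DFunLike.congr_fun h 1
      simp at this
    have e4 : MvPowerSeries.coeff d (MvPowerSeries.X 0 : MvPowerSeries (Fin 2) R) =
        if d 0 = 1 then 1 else 0 := by
      rw [MvPowerSeries.coeff_X]
      congr 1
      rw [eq_iff_iff]
      constructor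
      · intro h; rw [h]; simp
      · intro h; rw [hd, h]
    rw [e1, e3, e4]; ring

/-- `‖F(a,b) - (a+b)‖ ≤ ‖a‖‖b‖` -/
theorem OC.norm_op_sub_le (F : FormalGroup R) (φ : R →+* OC C) (a b : OC C)
    (ha : ‖a‖ < 1) (hb : ‖b‖ < 1) : ‖op F φ a b - (a + b)‖ ≤ ‖a‖ * ‖b‖ := by
  have hn : ∀ i, IsTopologicallyNilpotent ((![a, b] : Fin 2 → OC C) i) := by
    intro i
    fin_cases i
    · exact (OC.isTopologicallyNilpotent_iff a).2 ha
    · exact (OC.isTopologicallyNilpotent_iff b).2 hb
  have e : op F φ a b - (a + b) =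
      ev φ ![a, b] (F.toPowerSeries - MvPowerSeries.X 0 - MvPowerSeries.X 1) := by
    rw [← evHom_apply φ _ hn, map_sub, map_sub, evHom_apply, evHom_apply, evHom_apply,
      ev_X φ _ hn, ev_X φ _ hn]
    change ev φ ![a, b] F.toPowerSeries - (a + b) = ev φ ![a, b] F.toPowerSeries - a - b
    ring
  rw [e]
  refine OC.norm_le_of_hasSum (hasSum_ev φ _ hn _)
    (mul_nonneg (norm_nonneg _) (norm_nonneg _)) ?_
  intro d
  by_cases h : d 0 = 0 ∨ d 1 = 0
  · rw [OC.coeff_sub_eq_zero F d h, map_zero, zero_mul, norm_zero]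
    exact mul_nonneg (norm_nonneg _) (norm_nonneg _)
  · push Not at h
    rw [OC.norm_mul']
    refine (mul_le_of_le_one_left (norm_nonneg _) (OC.norm_le_one _)).trans ?_
    have e2 : d.prod (fun i e => (![a, b] : Fin 2 → OC C) i ^ e) = a ^ d 0 * b ^ d 1 := by
      rw [Finsupp.prod_fintype _ _ (fun i => pow_zero _), Fin.prod_univ_two]
      rfl
    rw [e2, OC.norm_mul', OC.norm_pow', OC.norm_pow']
    have h0 : ‖a‖ ^ d 0 ≤ ‖a‖ := pow_le_of_le_one (norm_nonneg _) ha.le h.1
    have h1 : ‖b‖ ^ d 1 ≤ ‖b‖ := pow_le_of_le_one (norm_nonneg _) hb.le h.2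
    exact mul_le_mul h0 h1 (pow_nonneg (norm_nonneg _) _) (norm_nonneg _)

/-- `‖a -_F b‖ = ‖a - b‖` for points: if `F(c,b) = a` then `‖c‖ = ‖a - b‖`. -/
theorem OC.norm_eq_of_op_eq (F : FormalGroup R) (φ : R →+* OC C) (a b c : OC C)
    (ha : ‖a‖ < 1) (hb : ‖b‖ < 1) (hc : ‖c‖ < 1) (h : op F φ c b = a) : ‖c‖ = ‖a - b‖ := by
  have h1 := OC.norm_op_sub_le F φ c b hc hb
  rw [h] at h1
  have e : a - b = c + (a - (c + b)) := by ring
  rcases eq_or_ne c 0 with hc0 | hc0
  · subst hc0
    rw [norm_zero, zero_mul, zero_add] at h1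
    have h2 : a - b = 0 := by
      rw [← norm_le_zero_iff]; exact h1
    rw [h2]
  · have hcp : 0 < ‖c‖ := norm_pos_iff.2 hc0
    have h2 : ‖a - (c + b)‖ < ‖c‖ := by
      refine h1.trans_lt ?_
      exact mul_lt_of_lt_one_right hcp hb
    rw [e]
    exact (IsUltrametricDist.norm_add_eq_max_of_norm_ne_norm (ne_of_gt h2)).trans
      (max_eq_left h2.le) |>.symm

end OC

end Crest.Agent.LT
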