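import Mathlib
import Crest.Prelude.Def_LubinTate
import Crest.Agent.LT.Eval

/-! # C0a: the nonarchimedean field (row 227). A domain finite over `K[[s]]` embeds into the unit
ball of a complete algebraically closed nonarchimedean field of characteristic `p`.
Hints: norm on Laurent series, `spectralNorm` on the algebraic closure, completion; algebraically
closed: adapt `IsAlgClosed.of_denseRange` (Mathlib/Analysis/Normed/Field/Dense.lean; only
characteristic 0 is done there; here: a root `a` of `f` in the splitting field is a limit of elements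
of the dense alg. closed subfield [by `exists_aroots_norm_sub_lt_of_norm_coeff_sub_lt`], hence lies in
the complete field `L`). -/

set_option autoImplicit false
set_option linter.unusedSectionVars false

namespace Crest.Agent.LT

section

open Polynomial

/-- algebraically closed dense subfield ⟹ the complete nonarchimedean field is algebraically closed
(any characteristic) -/
theorem isAlgClosed_of_denseRange {K L : Type*} [Field K] [NontriviallyNormedField L]
    [CompleteSpace L] [IsUltrametricDist L] [Algebra K L]
    (hi : DenseRange (algebraMap K L)) [IsAlgClosed K] : IsAlgClosed L := by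
  apply IsAlgClosed.of_exists_root
  intro f fmon firr
  have fnatdeg0 : f.natDegree ≠ 0 := (Irreducible.natDegree_pos firr).ne'
  let F := f.SplittingField
  let : NormedField F := spectralNorm.normedField L F
  let : NormedAlgebra L F := spectralNorm.normedAlgebra L F
  let a := rootOfSplits (SplittingField.splits f)
      (by simpa using degree_ne_of_natDegree_ne fnatdeg0)
  have fa0 : f.aeval a = 0 := by
    rw [← eval_map_algebraMap]
    exact eval_rootOfSplits (Polynomial.SplittingField.splits f)
      (by simpa using degree_ne_of_natDegree_ne fnatdeg0)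
  have key : ∀ δ > (0 : ℝ), ∃ c : L, ‖a - algebraMap L F c‖ < δ := by
    intro δ δpos
    have hε : (δ / (max ‖a‖ 1)) ^ f.natDegree / (f.natDegree + 1) > 0 := by positivity
    obtain ⟨g, gmon, gdeg, gcoeff⟩ :=
      exists_monic_and_natDegree_eq_and_norm_map_algebraMap_coeff_sub_lt hi fmon hε
    let ⟨b, hb, hab⟩ := exists_aroots_norm_sub_lt_of_norm_coeff_sub_lt
        hε fa0 fmon (gmon.map _) (gdeg ▸ (g.natDegree_map _)) gcoeff
        (by simpa [Polynomial.map_map] using (IsAlgClosed.splits g).map ((algebraMap L F).comp _))
    have hab : ‖a - b‖ < δ := by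
      rw [← Real.rpow_natCast, ← mul_comm_div, div_self, one_mul,
          ← Real.rpow_mul (div_pos δpos (by positivity)).le, mul_inv_cancel₀] at hab
      · simpa [mul_assoc, div_mul_cancel₀ _ (by positivity : (max ‖a‖ 1) > 0).ne'] using hab
      · simp [fnatdeg0]
      · positivity
    have bbot : b ∈ (⊥ : IntermediateField L F) := by
      rw [Polynomial.aroots_def, Splits.roots_map ((IsAlgClosed.splits g).map _),
          Multiset.mem_map] at hb
      obtain ⟨bCp, _, hbCp⟩ := hb
      rw [IntermediateField.mem_bot]
      exact ⟨bCp, hbCp⟩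
    obtain ⟨c, hc⟩ := IntermediateField.mem_bot.mp bbot
    exact ⟨c, by rw [hc]; exact hab⟩
  have hclosed : IsClosed (Set.range (algebraMap L F)) :=
    ((algebraMap_isometry L F).isClosedEmbedding).isClosed_range
  have hmem : a ∈ closure (Set.range (algebraMap L F)) := by
    rw [Metric.mem_closure_iff]
    intro ε hε
    obtain ⟨c, hc⟩ := key ε hε
    exact ⟨_, ⟨c, rfl⟩, by rwa [dist_eq_norm]⟩
  rw [hclosed.closure_eq] at hmem
  obtain ⟨aCp, haCp⟩ := hmem
  use aCp
  apply_fun algebraMap L F
  · rwa [← Polynomial.aeval_algebraMap_apply_eq_algebraMap_eval, haCp, map_zero]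
  · exact RingHom.injective _

end

/-- the completed algebraic closure of a complete nonarchimedean field -/
theorem exists_complete_isAlgClosed (K : Type) [NontriviallyNormedField K] [CompleteSpace K]
    [IsUltrametricDist K] :
    ∃ (C : Type) (_ : NontriviallyNormedField C) (_ : CompleteSpace C) (_ : IsUltrametricDist C)
      (_ : IsAlgClosed C) (j : K →+* C), ∀ x, ‖j x‖ = ‖x‖ := by
  let F := AlgebraicClosure K
  let : NontriviallyNormedField F := spectralNorm.nontriviallyNormedField K F
  let : NormedAlgebra K F := spectralNorm.normedAlgebra K F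
  have : IsUltrametricDist F :=
    IsUltrametricDist.isUltrametricDist_of_forall_norm_add_le_max_norm
      (isNonarchimedean_spectralNorm (K := K) (L := F))
  let hC : NontriviallyNormedField (UniformSpace.Completion F) :=
    { (inferInstance : NormedField (UniformSpace.Completion F)) with
      non_trivial := by
        obtain ⟨x, hx⟩ := NontriviallyNormedField.non_trivial (α := F)
        exact ⟨(x : UniformSpace.Completion F), by
          rwa [UniformSpace.Completion.norm_coe]⟩ }
  have : IsUltrametricDist (UniformSpace.Completion F) := IsUltrametricDist.of_normedAlgebra F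
  refine ⟨UniformSpace.Completion F, hC, inferInstance, inferInstance,
    isAlgClosed_of_denseRange (K := F) UniformSpace.Completion.denseRange_coe,
    (algebraMap F (UniformSpace.Completion F)).comp (algebraMap K F), ?_⟩
  intro x
  simp

section

open LaurentSeries WithZero

/-- the `X`-adic valuation on Laurent series has rank one -/
theorem nonempty_rankOne_laurentSeries (K : Type) [Field K] :
    Nonempty (Valuation.RankOne (Valued.v : Valuation K⸨X⸩ ℤᵐ⁰)) := by
  have hnt : (Valued.v : Valuation K⸨X⸩ ℤᵐ⁰).IsNontrivial := by
    have h := LaurentSeries.valuation_X_pow (K := K) 1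
    refine ⟨⟨((PowerSeries.X : PowerSeries K) : K⸨X⸩), ?_, ?_⟩⟩
    · rw [pow_one] at h
      rw [h]
      exact WithZero.coe_ne_zero
    · rw [pow_one] at h
      rw [h]
      decide
  rw [Valuation.nonempty_rankOne_iff_mulArchimedean]
  exact MulArchimedean.comap MonoidWithZeroHom.ValueGroup₀.embedding.toMonoidHom
    MonoidWithZeroHom.ValueGroup₀.embedding_strictMono

/-- the Laurent series field as a complete nonarchimedean normed field -/
theorem exists_norm_laurentSeries (K : Type) [Field K] :
    ∃ (L : Type) (_ : NontriviallyNormedField L) (_ : CompleteSpace L) (_ : IsUltrametricDist L)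
      (i : PowerSeries K →+* L), Function.Injective i ∧ (∀ f, ‖i f‖ ≤ 1) ∧
        ‖i PowerSeries.X‖ < 1 := by
  obtain ⟨hr⟩ := nonempty_rankOne_laurentSeries K
  let : NontriviallyNormedField K⸨X⸩ := Valued.toNontriviallyNormedField K⸨X⸩ ℤᵐ⁰
  refine ⟨K⸨X⸩, inferInstance, LaurentSeries.instLaurentSeriesComplete, inferInstance,
    algebraMap (PowerSeries K) K⸨X⸩, IsFractionRing.injective _ _, ?_, ?_⟩
  · intro f
    rw [Valued.toNormedField.norm_le_one_iff]
    exact (LaurentSeries.val_le_one_iff_eq_coe K _).2 ⟨f, rfl⟩
  · rw [Valued.toNormedField.norm_lt_one_iff]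
    have h := LaurentSeries.valuation_X_pow (K := K) 1
    rw [pow_one] at h
    rw [LaurentSeries.coe_algebraMap, h]
    decide

end

/-- an element of a nonarchimedean field that is integral over a ring mapping to the unit ball
lies in the unit ball -/
theorem norm_le_one_of_isIntegral {R C : Type*} [CommRing R] [NormedField C]
    [IsUltrametricDist C] (φ : R →+* C) (hφ : ∀ a, ‖φ a‖ ≤ 1) (x : C)
    (hx : φ.IsIntegralElem x) : ‖x‖ ≤ 1 := by
  obtain ⟨f, hf, hfx⟩ := hx
  by_contra hlt
  push Not at hlt
  rw [Polynomial.eval₂_eq_sum_range, Finset.sum_range_succ, hf.coeff_natDegree, map_one,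
    one_mul] at hfx
  have h1 : x ^ f.natDegree = - ∑ i ∈ Finset.range f.natDegree, φ (f.coeff i) * x ^ i := by
    linear_combination hfx
  have h2 : ‖x ^ f.natDegree‖ = ‖∑ i ∈ Finset.range f.natDegree, φ (f.coeff i) * x ^ i‖ := by
    rw [h1, norm_neg]
  rcases Nat.eq_zero_or_pos f.natDegree with h0 | h0
  · rw [h0] at h1
    simp at h1
  · have h3 : ‖∑ i ∈ Finset.range f.natDegree, φ (f.coeff i) * x ^ i‖ ≤
        ‖x‖ ^ (f.natDegree - 1) := by
      apply IsUltrametricDist.norm_sum_le_of_forall_le_of_nonneg (by positivity)
      intro i hi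
      rw [norm_mul, norm_pow]
      calc ‖φ (f.coeff i)‖ * ‖x‖ ^ i ≤ 1 * ‖x‖ ^ i := by gcongr; exact hφ _
        _ = ‖x‖ ^ i := one_mul _
        _ ≤ ‖x‖ ^ (f.natDegree - 1) := by
          apply pow_le_pow_right₀ hlt.le
          have := Finset.mem_range.1 hi
          omega
    rw [← h2, norm_pow] at h3
    have h4 : ‖x‖ ^ (f.natDegree - 1) < ‖x‖ ^ f.natDegree :=
      pow_lt_pow_right₀ hlt (by omega)
    linarith

theorem exists_big_field (p : ℕ) [Fact p.Prime] (K : Type) [Field K] [CharP K p] (B : Type)
    [CommRing B] [IsDomain B] [Algebra (PowerSeries K) B] [Module.Finite (PowerSeries K) B]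
    (hinj : Function.Injective (algebraMap (PowerSeries K) B)) :
    ∃ (C : Type) (_ : NontriviallyNormedField C) (_ : CompleteSpace C) (_ : IsUltrametricDist C)
      (_ : CharP C p) (_ : IsAlgClosed C) (j : B →+* OC C), Function.Injective j ∧
      ∀ b : B, (∃ N : ℕ, 0 < N ∧ ∃ b' : B, b ^ N = algebraMap (PowerSeries K) B PowerSeries.X * b') →
        ‖j b‖ < 1 := by
  obtain ⟨L, _, _, _, i, hi, hi1, hiX⟩ := exists_norm_laurentSeries K
  obtain ⟨C, _, _, _, _, j, hj⟩ := exists_complete_isAlgClosed L
  let φ : PowerSeries K →+* C := j.comp i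
  have hφ : Function.Injective φ := j.injective.comp hi
  let : Algebra (PowerSeries K) C := φ.toAlgebra
  have hφa : algebraMap (PowerSeries K) C = φ := rfl
  have : Module.IsTorsionFree (PowerSeries K) B := by
    rw [Module.isTorsionFree_iff_algebraMap_injective]
    exact hinj
  have : Module.IsTorsionFree (PowerSeries K) C := by
    rw [Module.isTorsionFree_iff_algebraMap_injective]
    exact hφ
  have : Algebra.IsIntegral (PowerSeries K) B := inferInstance
  have : Algebra.IsAlgebraic (PowerSeries K) B := inferInstance
  let g : B →ₐ[PowerSeries K] C := IsAlgClosed.lift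
  have hg1 : ∀ b, ‖g b‖ ≤ 1 := by
    intro b
    refine norm_le_one_of_isIntegral φ (fun a => by rw [RingHom.comp_apply, hj]; exact hi1 a)
      (g b) ?_
    exact (Algebra.IsIntegral.isIntegral (R := PowerSeries K) b).map g
  have hginj : Function.Injective g := by
    rw [injective_iff_map_eq_zero]
    intro b hb
    have hbot : (RingHom.ker (g : B →+* C)) = ⊥ := by
      apply Ideal.eq_bot_of_comap_eq_bot (R := PowerSeries K)
      rw [eq_bot_iff]
      intro a ha
      rw [Ideal.mem_comap, RingHom.mem_ker] at ha
      have ha' : φ a = 0 := by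
        have h := g.commutes a
        rw [hφa] at h
        rw [← h]
        exact ha
      exact (injective_iff_map_eq_zero φ).1 hφ a ha'
    have hb' : b ∈ RingHom.ker (g : B →+* C) := hb
    rw [hbot] at hb'
    exact hb'
  have hchar : CharP C p :=
    charP_of_injective_ringHom (f := φ.comp (PowerSeries.C (R := K)))
      (hφ.comp (PowerSeries.C_injective)) p
  refine ⟨C, inferInstance, inferInstance, inferInstance, hchar, inferInstance,
    (g : B →+* C).codRestrict (OC C) hg1, ?_, ?_⟩
  · intro a b hab
    exact hginj (congrArg Subtype.val hab)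
  · rintro b ⟨N, hN, b', hb'⟩
    have h1 : ‖g b‖ ^ N < 1 := by
      rw [← norm_pow, ← map_pow, hb', map_mul, norm_mul, g.commutes, hφa]
      have h2 : ‖φ PowerSeries.X‖ < 1 := by
        rw [RingHom.comp_apply, hj]
        exact hiX
      calc ‖φ PowerSeries.X‖ * ‖g b'‖ ≤ ‖φ PowerSeries.X‖ * 1 := by
            gcongr; exact hg1 b'
        _ < 1 := by rwa [mul_one]
    have h3 : ‖g b‖ < 1 := by
      by_contra hcon
      push Not at hcon
      exact absurd h1 (not_lt.2 (one_le_pow₀ hcon))
    exact h3

end Crest.Agent.LT
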