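import Mathlib
import Crest.Prelude.Def_LubinTate
import Crest.Agent.LT.Eval
import Crest.Agent.LT.Field
import Crest.Agent.LT.CommFin

/-! # C0b: commutative algebra of `A = k[[X_0..X_{r-1}]]` (row 227): the point `x`, finiteness.
Paper proof: ideas row 227, C0. -/

set_option autoImplicit false
set_option linter.unusedSectionVars false

namespace Crest.Agent.LT

open MvPowerSeries

variable {K : Type} [Field K] {r d : ℕ}

/-- `rad(P + (X_0)) = (X_0, …, X_{r-d})`, `1 ≤ d`, `d + 1 ≤ r` -/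
def RadHyp (P : Ideal (MvPowerSeries (Fin r) K)) (d : ℕ) : Prop :=
  (P ⊔ Ideal.span {f | ∃ i : Fin r, (i : ℕ) = 0 ∧ f = X i}).radical =
    Ideal.span {f | ∃ i : Fin r, (i : ℕ) ≤ r - d ∧ f = X i}

/-- kernel of setting the variables `X_i`, `i < k`, to zero -/
noncomputable def killLt (K : Type) [Field K] (r k : ℕ) :
    MvPowerSeries (Fin r) K →+* MvPowerSeries {i : Fin r // k ≤ (i : ℕ)} K :=
  (killCompl (R := K) (Function.Embedding.subtype (fun i : Fin r => k ≤ (i : ℕ)))).toRingHom

lemma killLt_X_lt {k : ℕ} (i : Fin r) (hi : (i : ℕ) < k) : killLt K r k (X i) = 0 := by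
  have h : i ∉ Set.range (Function.Embedding.subtype (fun i : Fin r => k ≤ (i : ℕ))) := by
    rintro ⟨⟨j, hj⟩, rfl⟩
    exact absurd hj (not_le.2 hi)
  exact killCompl_X_eq_zero h

lemma killLt_X_ge {k : ℕ} (i : Fin r) (hi : k ≤ (i : ℕ)) :
    killLt K r k (X i) = X ⟨i, hi⟩ :=
  killCompl_X (e := Function.Embedding.subtype (fun i : Fin r => k ≤ (i : ℕ))) ⟨i, hi⟩

lemma killLt_eq_zero_iff {k : ℕ} (f : MvPowerSeries (Fin r) K) :
    killLt K r k f = 0 ↔ ∀ e : Fin r →₀ ℕ, (∀ i : Fin r, (i : ℕ) < k → e i = 0) →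
      coeff e f = 0 := by
  classical
  constructor
  · intro h e he
    have hr : e ∈ Set.range (Finsupp.embDomain
        (Function.Embedding.subtype (fun i : Fin r => k ≤ (i : ℕ)))) := by
      rw [Finsupp.mem_range_embDomain_iff]
      intro i hi
      rw [Finset.mem_coe, Finsupp.mem_support_iff] at hi
      refine ⟨⟨i, ?_⟩, rfl⟩
      by_contra hlt
      exact hi (he i (not_le.1 hlt))
    obtain ⟨e', rfl⟩ := hr
    have := congrArg (coeff e') h
    simpa [killLt, coeff_killCompl] using this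
  · intro h
    ext e'
    have := h (Finsupp.embDomain (Function.Embedding.subtype (fun i : Fin r => k ≤ (i : ℕ))) e')
      (by
        intro i hi
        rw [Finsupp.embDomain_of_notMem_range]
        rintro ⟨⟨j, hj⟩, rfl⟩
        exact absurd hj (not_le.2 hi))
    simpa [killLt, coeff_killCompl] using this

lemma killLt_mono {k l : ℕ} (hkl : k ≤ l) (f : MvPowerSeries (Fin r) K)
    (h : killLt K r k f = 0) : killLt K r l f = 0 := by
  rw [killLt_eq_zero_iff] at h ⊢
  intro e he
  exact h e (fun i hi => he i (lt_of_lt_of_le hi hkl))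

/-- `m` is in the radical of `P + (params)` -/
lemma radHyp_pow_le (P : Ideal (MvPowerSeries (Fin r) K)) (_hd1 : 1 ≤ d) (_hdr : d + 1 ≤ r)
    (hrad : RadHyp P d) (Q : Ideal (MvPowerSeries (Fin r) K)) (hPQ : P ≤ Q)
    (h0 : ∀ i : Fin r, (i : ℕ) = 0 → X i ∈ Q)
    (h1 : ∀ i : Fin r, r - d + 1 ≤ (i : ℕ) → X i ∈ Q) : ∃ N : ℕ, (mm K r) ^ N ≤ Q := by
  refine Ideal.exists_pow_le_of_le_radical_of_fg (I := mm K r) (J := Q) ?_
    (IsNoetherian.noetherian _)
  rw [mm, Ideal.span_le]
  rintro _ ⟨i, rfl⟩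
  by_cases hi : (i : ℕ) ≤ r - d
  · have h2 : (X i : MvPowerSeries (Fin r) K) ∈
        (P ⊔ Ideal.span {f | ∃ i : Fin r, (i : ℕ) = 0 ∧ f = X i}).radical := by
      rw [hrad]
      exact Ideal.subset_span ⟨i, hi, rfl⟩
    refine Ideal.radical_mono (sup_le hPQ ?_) h2
    rw [Ideal.span_le]
    rintro _ ⟨j, hj, rfl⟩
    exact h0 j hj
  · exact Ideal.le_radical (h1 i (by omega))

/-- a prime over `P + (X_{r-d+1}, …)` not containing `X_0` -/
lemma exists_prime_not_mem (P : Ideal (MvPowerSeries (Fin r) K))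
    (hP : P.IsPrime) (hd1 : 1 ≤ d) (hdr : d + 1 ≤ r)
    (hX0 : ∀ i : Fin r, (i : ℕ) = 0 → (X i : MvPowerSeries (Fin r) K) ∉ P) (hrad : RadHyp P d) :
    ∃ Q : Ideal (MvPowerSeries (Fin r) K), Q.IsPrime ∧ P ≤ Q ∧
      (∀ i : Fin r, r - d + 1 ≤ (i : ℕ) → X i ∈ Q) ∧
      ∀ i : Fin r, (i : ℕ) = 0 → (X i : MvPowerSeries (Fin r) K) ∉ Q := by
  classical
  let A := MvPowerSeries (Fin r) K
  have hPle : ∀ k, r - d + 1 ≤ k → ∀ f ∈ P, killLt K r k f = 0 := by
    intro k hk f hf
    have h1 : f ∈ (P ⊔ Ideal.span {f | ∃ i : Fin r, (i : ℕ) = 0 ∧ f = X i}).radical :=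
      Ideal.le_radical (Ideal.mem_sup_left hf)
    rw [hrad] at h1
    have h2 : (Ideal.span {f | ∃ i : Fin r, (i : ℕ) ≤ r - d ∧ f = X i} :
        Ideal (MvPowerSeries (Fin r) K)) ≤ RingHom.ker (killLt K r k) := by
      rw [Ideal.span_le]
      rintro _ ⟨i, hi, rfl⟩
      exact killLt_X_lt i (by omega)
    exact h2 h1
  -- the chain of primes in `A/P`
  let φ : ∀ k, r - d + 1 ≤ k → (A ⧸ P) →+* MvPowerSeries {i : Fin r // k ≤ (i : ℕ)} K :=
    fun k hk => Ideal.Quotient.lift P (killLt K r k) (hPle k hk)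
  haveI : IsDomain (A ⧸ P) := Ideal.Quotient.isDomain P
  have hprime : ∀ k hk, (RingHom.ker (φ k hk)).IsPrime := fun k hk => by
    haveI : IsDomain (MvPowerSeries {i : Fin r // k ≤ (i : ℕ)} K) := isDomain_mvPowerSeries _ _
    exact RingHom.ker_isPrime _
  have hheight : ∀ m : ℕ, m + 1 ≤ d → ∀ hk : r - d + 1 ≤ r - d + 1 + m,
      ((m + 1 : ℕ) : ℕ∞) ≤ (RingHom.ker (φ (r - d + 1 + m) hk)).height := by
    intro m
    induction m with
    | zero =>
      intro _ hk
      haveI := hprime _ hk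
      have hlt : (⊥ : Ideal (A ⧸ P)) < RingHom.ker (φ (r - d + 1 + 0) hk) := by
        rw [bot_lt_iff_ne_bot]
        intro hbot
        have h0 : (0 : ℕ) < r := by omega
        have hmem : Ideal.Quotient.mk P (X ⟨0, h0⟩) ∈ RingHom.ker (φ (r - d + 1 + 0) hk) := by
          rw [RingHom.mem_ker]
          exact killLt_X_lt (K := K) ⟨0, h0⟩ (by simp)
        rw [hbot, Ideal.mem_bot, Ideal.Quotient.eq_zero_iff_mem] at hmem
        exact hX0 ⟨0, h0⟩ rfl hmem
      have := Ideal.height_add_one_le_of_lt_of_isPrime hlt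
      rw [Ideal.height_bot] at this
      simpa using this
    | succ m ih =>
      intro hm hk
      have hk' : r - d + 1 ≤ r - d + 1 + m := by omega
      haveI := hprime _ hk
      haveI := hprime _ hk'
      have h1 := ih (by omega) hk'
      have hlt : RingHom.ker (φ (r - d + 1 + m) hk') <
          RingHom.ker (φ (r - d + 1 + (m + 1)) hk) := by
        refine lt_of_le_of_ne ?_ ?_
        · intro x hx
          obtain ⟨f, rfl⟩ := Ideal.Quotient.mk_surjective x
          rw [RingHom.mem_ker] at hx ⊢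
          exact killLt_mono (by omega) f hx
        · intro heq
          have hi : r - d + 1 + m < r := by omega
          have hmem : Ideal.Quotient.mk P (X ⟨r - d + 1 + m, hi⟩) ∈
              RingHom.ker (φ (r - d + 1 + (m + 1)) hk) := by
            rw [RingHom.mem_ker]
            exact killLt_X_lt (K := K) ⟨r - d + 1 + m, hi⟩ (by simp)
          rw [← heq, RingHom.mem_ker] at hmem
          have h3 : killLt K r (r - d + 1 + m) (X ⟨r - d + 1 + m, hi⟩) = 0 := hmem
          have h4 := killLt_X_ge (K := K) (k := r - d + 1 + m) ⟨r - d + 1 + m, hi⟩ (le_refl _)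
          rw [h3] at h4
          have h5 := congrArg (coeff (Finsupp.single (⟨⟨r - d + 1 + m, hi⟩, le_refl _⟩ :
            {i : Fin r // r - d + 1 + m ≤ (i : ℕ)}) 1)) h4
          rw [coeff_index_single_self_X] at h5
          simp at h5
      have h2 := Ideal.height_add_one_le_of_lt_of_isPrime hlt
      refine le_trans ?_ h2
      push_cast
      push_cast at h1
      gcongr
  have hmax : ((d : ℕ) : ℕ∞) ≤ (RingHom.ker (φ (r - d + 1 + (d - 1)) (by omega))).height := by
    have := hheight (d - 1) (by omega) (by omega)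
    rwa [Nat.sub_add_cancel hd1] at this
  set M := RingHom.ker (φ (r - d + 1 + (d - 1)) (by omega)) with hM
  haveI hMp : M.IsPrime := hprime _ (by omega)
  -- the ideal of `d - 1` parameters in `A/P`
  let S : Finset (A ⧸ P) := (Finset.univ.filter (fun i : Fin r => r - d + 1 ≤ (i : ℕ))).image
    (fun i => Ideal.Quotient.mk P (X i))
  have hScard : S.card ≤ d - 1 := by
    refine Finset.card_image_le.trans ?_
    have : (Finset.univ.filter (fun i : Fin r => r - d + 1 ≤ (i : ℕ))).card ≤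
        (Finset.Ico (r - d + 1) r).card := by
      refine Finset.card_le_card_of_injOn (fun i => (i : ℕ)) ?_ ?_
      · intro i hi
        simp only [Finset.coe_filter, Finset.mem_univ, true_and, Set.mem_ofPred_eq] at hi
        simp only [Finset.coe_Ico, Set.mem_Ico]
        exact ⟨hi, i.2⟩
      · intro i _ j _ hij
        exact Fin.ext hij
    refine this.trans ?_
    rw [Nat.card_Ico]
    omega
  have hSM : Ideal.span (S : Set (A ⧸ P)) ≤ M := by
    rw [Ideal.span_le]
    intro x hx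
    simp only [S, Finset.coe_image, Finset.coe_filter, Finset.mem_univ, true_and,
      Set.mem_image, Set.mem_ofPred_eq] at hx
    obtain ⟨i, hi, rfl⟩ := hx
    rw [SetLike.mem_coe, hM, RingHom.mem_ker]
    exact killLt_X_lt (K := K) i (by have := i.2; omega)
  obtain ⟨q, hq, hqM⟩ := Ideal.exists_minimalPrimes_le hSM
  have hqh : q.height ≤ ((d - 1 : ℕ) : ℕ∞) :=
    (Ideal.height_le_card_of_mem_minimalPrimes_span_finset hq).trans (by exact_mod_cast hScard)
  haveI hqp : q.IsPrime := hq.1.1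
  refine ⟨q.comap (Ideal.Quotient.mk P), Ideal.IsPrime.comap _, ?_, ?_, ?_⟩
  · intro f hf
    rw [Ideal.mem_comap, Ideal.Quotient.eq_zero_iff_mem.2 hf]
    exact q.zero_mem
  · intro i hi
    rw [Ideal.mem_comap]
    refine hq.1.2 (Ideal.subset_span ?_)
    simp only [S, Finset.coe_image, Finset.coe_filter, Finset.mem_univ, true_and,
      Set.mem_image, Set.mem_ofPred_eq]
    exact ⟨i, hi, rfl⟩
  · intro i hi hmem
    have hqmax : M ≤ q := by
      obtain ⟨N, hN⟩ := radHyp_pow_le P hd1 hdr hrad (q.comap (Ideal.Quotient.mk P))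
        (by
          intro f hf
          rw [Ideal.mem_comap, Ideal.Quotient.eq_zero_iff_mem.2 hf]
          exact q.zero_mem)
        (by
          intro j hj
          have : j = i := Fin.ext (by omega)
          rw [this]; exact hmem)
        (by
          intro j hj
          rw [Ideal.mem_comap]
          refine hq.1.2 (Ideal.subset_span ?_)
          simp only [S, Finset.coe_image, Finset.coe_filter, Finset.mem_univ, true_and,
            Set.mem_image, Set.mem_ofPred_eq]
          exact ⟨j, hj, rfl⟩)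
      haveI : (q.comap (Ideal.Quotient.mk P)).IsPrime := Ideal.IsPrime.comap _
      have hmle : mm K r ≤ q.comap (Ideal.Quotient.mk P) :=
        Ideal.IsPrime.le_of_pow_le hN
      intro x hx
      obtain ⟨f, rfl⟩ := Ideal.Quotient.mk_surjective x
      have hf : killLt K r (r - d + 1 + (d - 1)) f = 0 := hx
      rw [killLt_eq_zero_iff] at hf
      have hf0 : constantCoeff f = 0 := by
        rw [← coeff_zero_eq_constantCoeff_apply]
        exact hf 0 (by simp)
      exact hmle (mem_span_X_of_constantCoeff f hf0)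
    have h5 := (hmax.trans (Ideal.height_mono hqmax)).trans hqh
    have h6 : d ≤ d - 1 := by exact_mod_cast h5
    omega

/-- a power series in the variable `i0` only comes from `K[[s]]` -/
lemma toMv_mk (i0 : Fin r) (f : MvPowerSeries (Fin r) K)
    (hf : ∀ e : Fin r →₀ ℕ, coeff e f ≠ 0 → ∀ j, e j ≠ 0 → j = i0) :
    PowerSeries.toMvPowerSeries (R := K) i0
      (PowerSeries.mk (fun n => coeff (Finsupp.single i0 n) f)) = f := by
  classical
  rw [PowerSeries.toMvPowerSeries_apply]
  ext e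
  by_cases he : e ∈ Set.range (Finsupp.mapDomain (fun _ : Unit => i0) : (Unit →₀ ℕ) → _)
  · obtain ⟨x, rfl⟩ := he
    have h1 := coeff_embDomain_rename (Function.Embedding.punit i0)
      (PowerSeries.mk (fun n => coeff (Finsupp.single i0 n) f)) x
    rw [Finsupp.embDomain_eq_mapDomain] at h1
    have h2 : x = Finsupp.single () (x ()) := by
      ext; simp
    refine h1.trans ?_
    conv_lhs => rw [h2]
    conv_rhs => rw [h2, Finsupp.mapDomain_single]
    exact PowerSeries.coeff_mk _ _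
  · rw [coeff_rename_eq_zero _ _ he]
    by_contra hne
    refine he ⟨Finsupp.single () (e i0), ?_⟩
    rw [Finsupp.mapDomain_single]
    ext j
    by_cases hj : j = i0
    · rw [hj]; simp
    · rw [Finsupp.single_eq_of_ne hj]
      by_contra h3
      exact hj (hf e (Ne.symm hne) j (Ne.symm h3))

/-- C0: the point -/
theorem exists_point {p : ℕ} [Fact p.Prime] [CharP K p] (P : Ideal (MvPowerSeries (Fin r) K))
    (hP : P.IsPrime) (hd1 : 1 ≤ d) (hdr : d + 1 ≤ r)
    (hX0 : ∀ i : Fin r, (i : ℕ) = 0 → (X i : MvPowerSeries (Fin r) K) ∉ P) (hrad : RadHyp P d) :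
    ∃ (C : Type) (_ : NontriviallyNormedField C) (_ : CompleteSpace C) (_ : IsUltrametricDist C)
      (_ : CharP C p) (_ : IsAlgClosed C) (x : MvPowerSeries (Fin r) K →+* OC C),
      (∀ f, MvPowerSeries.constantCoeff f = 0 → ‖x f‖ < 1) ∧ (∀ f ∈ P, x f = 0) ∧
      (∀ i : Fin r, r - d + 1 ≤ (i : ℕ) → x (X i) = 0) ∧
      ∀ i : Fin r, (i : ℕ) = 0 → x (X i) ≠ 0 := by
  classical
  obtain ⟨Q, hQ, hPQ, hQ1, hQ0⟩ := exists_prime_not_mem P hP hd1 hdr hX0 hrad
  have hr0 : 0 < r := by omega
  set i0 : Fin r := ⟨0, hr0⟩ with hi0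
  let A := MvPowerSeries (Fin r) K
  let B := A ⧸ Q
  haveI : IsDomain B := Ideal.Quotient.isDomain Q
  let ψ : PowerSeries K →+* B :=
    (Ideal.Quotient.mk Q).comp (PowerSeries.toMvPowerSeries (R := K) i0).toRingHom
  letI : Algebra (PowerSeries K) B := ψ.toAlgebra
  have halg : algebraMap (PowerSeries K) B = ψ := rfl
  have hψX : ψ PowerSeries.X = Ideal.Quotient.mk Q (X i0) := by
    simp only [ψ, RingHom.comp_apply]
    congr 1
    exact PowerSeries.toMvPowerSeries_X i0
  obtain ⟨N, hN⟩ := radHyp_pow_le P hd1 hdr hrad (Q ⊔ Ideal.span (X '' (({i0} : Finset (Fin r)) :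
    Set (Fin r)))) (hPQ.trans le_sup_left)
    (by
      intro i hi
      refine Ideal.mem_sup_right (Ideal.subset_span ⟨i, ?_, rfl⟩)
      simp only [Finset.coe_singleton, Set.mem_singleton_iff]
      exact Fin.ext hi)
    (fun i hi => Ideal.mem_sup_left (hQ1 i hi))
  -- finiteness
  haveI : Module.Finite (PowerSeries K) B := by
    obtain ⟨ι, _, θ, hθ⟩ := exists_fin_gens_aux Q {i0} N hN
    refine ⟨⟨Finset.univ.image (fun i => Ideal.Quotient.mk Q (θ i)), ?_⟩⟩
    rw [eq_top_iff]
    intro b _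
    obtain ⟨f, rfl⟩ := Ideal.Quotient.mk_surjective b
    obtain ⟨s, hs, hf⟩ := hθ f
    have h1 : Ideal.Quotient.mk Q f =
        ∑ i, Ideal.Quotient.mk Q (s i) * Ideal.Quotient.mk Q (θ i) := by
      rw [← sub_eq_zero]
      have := Ideal.Quotient.eq_zero_iff_mem.2 hf
      rw [map_sub, map_sum] at this
      simpa using this
    rw [h1]
    refine sum_mem fun i _ => ?_
    have h2 : ∃ g : PowerSeries K, PowerSeries.toMvPowerSeries (R := K) i0 g = s i := by
      refine ⟨PowerSeries.mk (fun n => coeff (Finsupp.single i0 n) (s i)), ?_⟩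
      exact toMv_mk i0 (s i) (fun e he j hj => by simpa using hs i e he j hj)
    obtain ⟨g, hg⟩ := h2
    have h3 : Ideal.Quotient.mk Q (s i) * Ideal.Quotient.mk Q (θ i) =
        g • (Ideal.Quotient.mk Q (θ i) : B) := by
      rw [Algebra.smul_def, halg, ← hg]
      rfl
    rw [h3]
    refine Submodule.smul_mem _ _ (Submodule.subset_span ?_)
    simp
  have hinj : Function.Injective (algebraMap (PowerSeries K) B) := by
    rw [halg, injective_iff_map_eq_zero]
    intro g hg
    by_contra hne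
    have h1 := PowerSeries.X_pow_order_mul_divXPowOrder (f := g)
    have hu : IsUnit (PowerSeries.divXPowOrder g) := by
      rw [PowerSeries.isUnit_iff_constantCoeff, isUnit_iff_ne_zero, Ne,
        PowerSeries.constantCoeff_divXPowOrder_eq_zero_iff]
      exact hne
    rw [← h1, map_mul, map_pow, hψX] at hg
    rcases mul_eq_zero.1 hg with h2 | h2
    · exact hQ0 i0 rfl (Ideal.Quotient.eq_zero_iff_mem.1 (IsReduced.eq_zero _ ⟨_, h2⟩))
    · exact (hu.map ψ).ne_zero h2
  obtain ⟨C, i1, i2, i3, i4, i5, j, hj, hj1⟩ := exists_big_field p K B hinj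
  refine ⟨C, i1, i2, i3, i4, i5, j.comp (Ideal.Quotient.mk Q), ?_, ?_, ?_, ?_⟩
  · intro f hf
    refine hj1 _ ⟨N + 1, Nat.succ_pos _, ?_⟩
    have h1 : f ^ (N + 1) ∈ (Q ⊔ Ideal.span (X '' (({i0} : Finset (Fin r)) : Set (Fin r)))) := by
      rw [pow_succ]
      refine Ideal.mul_mem_right _ _ (hN (Ideal.pow_mem_pow ?_ N))
      exact mem_span_X_of_constantCoeff f hf
    obtain ⟨q, hq, y, hy, hqy⟩ := Submodule.mem_sup.1 h1
    simp only [Finset.coe_singleton, Set.image_singleton] at hy
    obtain ⟨b, hb⟩ := Ideal.mem_span_singleton.1 hy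
    refine ⟨Ideal.Quotient.mk Q b, ?_⟩
    rw [halg, hψX, ← map_pow, ← hqy, hb, map_add, Ideal.Quotient.eq_zero_iff_mem.2 hq, zero_add,
      map_mul]
  · intro f hf
    simp [RingHom.comp_apply, Ideal.Quotient.eq_zero_iff_mem.2 (hPQ hf)]
  · intro i hi
    simp [RingHom.comp_apply, Ideal.Quotient.eq_zero_iff_mem.2 (hQ1 i hi)]
  · intro i hi h
    rw [RingHom.comp_apply] at h
    have := hj (h.trans (map_zero j).symm)
    exact hQ0 i hi (Ideal.Quotient.eq_zero_iff_mem.1 this)

/-- the `d` parameters `X_0, X_{r-d+1}, …, X_{r-1}` -/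
def IsParam (r d : ℕ) (i : Fin r) : Prop := (i : ℕ) = 0 ∨ r - d + 1 ≤ (i : ℕ)

/-- `f` involves only the parameters -/
def OnlyParams (r d : ℕ) (f : MvPowerSeries (Fin r) K) : Prop :=
  ∀ e : Fin r →₀ ℕ, MvPowerSeries.coeff e f ≠ 0 → ∀ i, e i ≠ 0 → IsParam r d i

/-- `A/P` is finite over power series in the parameters -/
theorem exists_finite_gens (P : Ideal (MvPowerSeries (Fin r) K)) (hd1 : 1 ≤ d) (hdr : d + 1 ≤ r)
    (hrad : RadHyp P d) :
    ∃ (m0 : ℕ) (θ : Fin m0 → MvPowerSeries (Fin r) K), ∀ f : MvPowerSeries (Fin r) K,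
      ∃ s : Fin m0 → MvPowerSeries (Fin r) K, (∀ i, OnlyParams r d (s i)) ∧
        f - ∑ i, s i * θ i ∈ P := by
  classical
  obtain ⟨N, hN⟩ := radHyp_pow_le P hd1 hdr hrad
    (P ⊔ Ideal.span (X '' ((Finset.univ.filter (IsParam r d) : Finset (Fin r)) : Set (Fin r))))
    le_sup_left
    (fun i hi => Ideal.mem_sup_right (Ideal.subset_span ⟨i, by simp [IsParam, hi], rfl⟩))
    (fun i hi => Ideal.mem_sup_right (Ideal.subset_span ⟨i, by
      simp only [IsParam, Finset.coe_filter, Finset.mem_univ, true_and, Set.mem_ofPred_eq]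
      exact Or.inr hi, rfl⟩))
  obtain ⟨ι, _, θ, h⟩ := exists_fin_gens_aux P _ N hN
  refine ⟨Fintype.card ι, fun i => θ ((Fintype.equivFin ι).symm i), fun f => ?_⟩
  obtain ⟨s, hs, hf⟩ := h f
  refine ⟨fun i => s ((Fintype.equivFin ι).symm i), fun i e he j hj => ?_, ?_⟩
  · have := hs ((Fintype.equivFin ι).symm i) e he j hj
    simpa using this
  · have : ∑ i, s ((Fintype.equivFin ι).symm i) * θ ((Fintype.equivFin ι).symm i) =
        ∑ i, s i * θ i :=
      (Fintype.equivFin ι).symm.sum_comp (fun i => s i * θ i)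
    rw [this]
    exact hf

end Crest.Agent.LT
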