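import Mathlib

/-! # Decomposition of multivariate power series of positive order (row 227) -/

set_option autoImplicit false
set_option linter.unusedSectionVars false

namespace Crest.Agent.LT

open MvPowerSeries

/-- decomposition of a series of positive order -/
theorem io_decomp {r : ℕ} {k : Type*} [CommRing k] (N : ℕ) (f : MvPowerSeries (Fin r) k)
    (hf : ∀ d : Fin r →₀ ℕ, d.degree < N + 1 → MvPowerSeries.coeff d f = 0) :
    ∃ g : Fin r → MvPowerSeries (Fin r) k,
      (∀ i, ∀ d : Fin r →₀ ℕ, d.degree < N → MvPowerSeries.coeff d (g i) = 0) ∧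
      f = ∑ i, MvPowerSeries.X i * g i := by
  classical
  let g : Fin r → MvPowerSeries (Fin r) k := fun i d =>
    if (∀ j < i, d j = 0) then MvPowerSeries.coeff (d + Finsupp.single i 1) f else 0
  have hg : ∀ i d, MvPowerSeries.coeff d (g i)
      = if (∀ j < i, d j = 0) then MvPowerSeries.coeff (d + Finsupp.single i 1) f else 0 :=
    fun i d => rfl
  refine ⟨g, ?_, ?_⟩
  · intro i d hd
    rw [hg]
    split_ifs
    · apply hf
      rw [map_add, Finsupp.degree_single]
      omega
    · rfl
  · ext d
    rw [map_sum]
    have hX : ∀ i, MvPowerSeries.coeff d (MvPowerSeries.X i * g i)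
        = if 1 ≤ d i then MvPowerSeries.coeff (d - Finsupp.single i 1) (g i) else 0 := by
      intro i
      rw [MvPowerSeries.X, MvPowerSeries.coeff_monomial_mul]
      by_cases h : 1 ≤ d i
      · have h' : Finsupp.single i 1 ≤ d := by
          rw [Finsupp.single_le_iff]; exact h
        rw [if_pos h', if_pos h, one_mul]
      · have h' : ¬ Finsupp.single i 1 ≤ d := by
          rw [Finsupp.single_le_iff]; exact h
        rw [if_neg h', if_neg h]
    rw [Finset.sum_congr rfl (fun i _ => hX i)]
    by_cases hd0 : d = 0
    · subst hd0
      have h1 : MvPowerSeries.coeff (0 : Fin r →₀ ℕ) f = 0 := hf 0 (by simp)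
      rw [h1]
      symm
      apply Finset.sum_eq_zero
      intro i _
      simp
    · -- smallest index in the support
      have hne : d.support.Nonempty := Finsupp.support_nonempty_iff.2 hd0
      set i0 := d.support.min' hne with hi0
      have hi0m : i0 ∈ d.support := Finset.min'_mem _ _
      have h1 : 1 ≤ d i0 := Nat.one_le_iff_ne_zero.2 (Finsupp.mem_support_iff.1 hi0m)
      have hlt : ∀ j < i0, d j = 0 := by
        intro j hj
        by_contra h
        exact absurd (Finset.min'_le _ j (Finsupp.mem_support_iff.2 h)) (not_le.2 hj)
      rw [Finset.sum_eq_single i0]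
      · rw [if_pos h1, hg, if_pos]
        · rw [tsub_add_cancel_of_le]
          rw [Finsupp.single_le_iff]; exact h1
        · intro j hj
          rw [Finsupp.tsub_apply, hlt j hj]; simp
      · intro i _ hi
        by_cases h : 1 ≤ d i
        · rw [if_pos h, hg, if_neg]
          push Not
          have hi0i : i0 < i := by
            apply lt_of_le_of_ne _ (Ne.symm hi)
            apply Finset.min'_le
            exact Finsupp.mem_support_iff.2 (by omega)
          refine ⟨i0, hi0i, ?_⟩
          rw [Finsupp.tsub_apply, Finsupp.single_apply, if_neg hi]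
          omega
        · rw [if_neg h]
      · intro h; exact absurd (Finset.mem_univ _) h


end Crest.Agent.LT
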