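import Mathlib
import Crest.Prelude.Def_LubinTate
import Crest.Agent.LT.FG
import Crest.Agent.LT.Eval
import Crest.Agent.LT.Decomp

/-! # Part C (characteristic p): definitions (row 227, S0351) -/

set_option autoImplicit false
set_option linter.unusedSectionVars false

namespace Crest.Agent.LT

open Crest.LubinTate MvPowerSeries

/-- The fixed field of `c ↦ c^(p^h)` in `C` (finite, with `p^h` elements if `C` is alg. closed). -/
def FQ (C : Type*) [Field C] (p : ℕ) [Fact p.Prime] [CharP C p] (h : ℕ) : Subfield C where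
  carrier := {c | c ^ (p ^ h) = c}
  mul_mem' := by intro a b ha hb; simp only [Set.mem_ofPred_eq] at *; rw [mul_pow, ha, hb]
  one_mem' := by simp
  add_mem' := by
    intro a b ha hb; simp only [Set.mem_ofPred_eq] at *; rw [add_pow_char_pow, ha, hb]
  zero_mem' := by
    simp only [Set.mem_ofPred_eq]
    exact zero_pow (pow_ne_zero _ (Fact.out : p.Prime).ne_zero)
  neg_mem' := by
    intro a ha; simp only [Set.mem_ofPred_eq] at *
    have : (0 : C) = (-a) ^ (p ^ h) + a ^ (p ^ h) := by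
      rw [← add_pow_char_pow, neg_add_cancel, zero_pow]
      exact pow_ne_zero _ (Fact.out : p.Prime).ne_zero
    rw [ha] at this
    exact (eq_neg_of_add_eq_zero_left this.symm)
  inv_mem' := by intro a ha; simp only [Set.mem_ofPred_eq] at *; rw [inv_pow, ha]

section

variable {C : Type*} [NormedField C] [IsUltrametricDist C] {p : ℕ} [Fact p.Prime] [CharP C p]
  {h : ℕ}

theorem FQ.norm_le_one (hh : 1 ≤ h) (c : FQ C p h) : ‖(c : C)‖ ≤ 1 := by
  have hc : (c : C) ^ (p ^ h) = c := c.2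
  have h2 : 2 ≤ p ^ h := by
    calc 2 ≤ p := (Fact.out : p.Prime).two_le
      _ = p ^ 1 := (pow_one p).symm
      _ ≤ p ^ h := Nat.pow_le_pow_right (Fact.out : p.Prime).pos hh
  by_contra hlt
  push Not at hlt
  have h3 : ‖(c : C)‖ ^ (p ^ h) = ‖(c : C)‖ := by rw [← norm_pow, hc]
  have h4 : ‖(c : C)‖ ^ 1 < ‖(c : C)‖ ^ (p ^ h) := pow_lt_pow_right₀ hlt (by omega)
  rw [pow_one, h3] at h4
  exact lt_irrefl _ h4

/-- inclusion of the finite field `FQ` into the unit ball -/
noncomputable def FQ.incl (hh : 1 ≤ h) : FQ C p h →+* OC C where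
  toFun c := ⟨c, FQ.norm_le_one hh c⟩
  map_one' := rfl
  map_mul' := fun _ _ => rfl
  map_zero' := rfl
  map_add' := fun _ _ => rfl

theorem OC.charP : CharP (OC C) p := CharP.subring C p (OC C)

end

/-- Local data at one point: formal group `Γ` over `k = F_q`, `q = p^n`, formal group `Hx` over
the unit ball, `Hx ≡ Γ mod ε`, `[p]_{Hx} = Wx(X^(p^h))`, `Wx'(0) ≠ 0`, `n = h + r`. -/
structure LData (p n h r : ℕ) [Fact p.Prime] (C : Type*) [NormedField C] [IsUltrametricDist C]
    [CharP C p] where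
  hh : 1 ≤ h
  hr : 1 ≤ r
  hn : h + r = n
  Γ : FormalGroup (GaloisField p n)
  Γcomm : Γ.IsComm
  Γp : mulSeries Γ p = PowerSeries.X ^ (p ^ n)
  kx : GaloisField p n →+* OC C
  Hx : FormalGroup (OC C)
  Hcomm : Hx.IsComm
  Wx : PowerSeries (OC C)
  W0 : PowerSeries.constantCoeff Wx = 0
  HW : mulSeries Hx p = PowerSeries.subst (PowerSeries.X ^ (p ^ h) : PowerSeries (OC C)) Wx
  ε : ℝ
  ε0 : 0 ≤ ε
  ε1 : ε < 1
  hε : ∀ d, ‖MvPowerSeries.coeff d Hx.toPowerSeries - kx (MvPowerSeries.coeff d Γ.toPowerSeries)‖ ≤ ε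
  W1 : PowerSeries.coeff 1 Wx ≠ 0

/-- Global data: `A = k[[X_0, …, X_{r-1}]]`, `H` over `A`, `[p]_H = W(X^(p^h))`,
`coeff_{X^(p^i)} W = X_i`, a point `x : A → OC C`. -/
structure CData (p n h r : ℕ) [Fact p.Prime] (C : Type*) [NormedField C] [IsUltrametricDist C]
    [CharP C p] where
  hh : 1 ≤ h
  hr : 1 ≤ r
  hn : h + r = n
  Γ : FormalGroup (GaloisField p n)
  Γcomm : Γ.IsComm
  Γp : mulSeries Γ p = PowerSeries.X ^ (p ^ n)
  H : FormalGroup (MvPowerSeries (Fin r) (GaloisField p n))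
  Hcomm : H.IsComm
  Hres : H.map MvPowerSeries.constantCoeff = Γ
  W : PowerSeries (MvPowerSeries (Fin r) (GaloisField p n))
  W0 : PowerSeries.constantCoeff W = 0
  HW : mulSeries H p = PowerSeries.subst (PowerSeries.X ^ (p ^ h) :
    PowerSeries (MvPowerSeries (Fin r) (GaloisField p n))) W
  Wcoord : ∀ i : Fin r, PowerSeries.coeff (p ^ (i : ℕ)) W = MvPowerSeries.X i
  x : MvPowerSeries (Fin r) (GaloisField p n) →+* OC C
  xlt : ∀ f, MvPowerSeries.constantCoeff f = 0 → ‖x f‖ < 1
  x0 : ∀ i : Fin r, (i : ℕ) = 0 → x (MvPowerSeries.X i) ≠ 0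

/-- A point `x' : A → OC C` (for the same `Γ`, `H`, `W`) -/
structure CData.IsPoint {p n h r : ℕ} [Fact p.Prime] {C : Type*} [NormedField C]
    [IsUltrametricDist C] [CharP C p] (D : CData p n h r C)
    (x' : MvPowerSeries (Fin r) (GaloisField p n) →+* OC C) : Prop where
  lt : ∀ f, MvPowerSeries.constantCoeff f = 0 → ‖x' f‖ < 1
  const : ∀ c, x' (MvPowerSeries.C c) = D.x (MvPowerSeries.C c)
  ne : ∀ i : Fin r, (i : ℕ) = 0 → x' (MvPowerSeries.X i) ≠ 0

section

variable {p n h r : ℕ} [Fact p.Prime] {C : Type*} [NormedField C] [IsUltrametricDist C] [CharP C p]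

/-- move the data to another point -/
def CData.at (D : CData p n h r C) (x' : MvPowerSeries (Fin r) (GaloisField p n) →+* OC C)
    (hx' : D.IsPoint x') : CData p n h r C :=
  { D with x := x', xlt := hx'.lt, x0 := hx'.ne }

/-- the local data of a point -/
theorem CData.exists_eps (D : CData p n h r C) : ∃ ε : ℝ, 0 ≤ ε ∧ ε < 1 ∧
    ∀ f, MvPowerSeries.constantCoeff f = 0 → ‖D.x f‖ ≤ ε := by
  classical
  obtain ⟨i0, _, hi0⟩ := Finset.exists_max_image (Finset.univ : Finset (Fin r))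
    (fun i => ‖D.x (MvPowerSeries.X i)‖) ⟨⟨0, D.hr⟩, Finset.mem_univ _⟩
  refine ⟨‖D.x (MvPowerSeries.X i0)‖, norm_nonneg _, D.xlt _ (by simp), ?_⟩
  intro f hf
  obtain ⟨g, _, hfg⟩ := io_decomp 0 f (by
    intro d hd
    have hd0 : d = 0 := by
      rw [← Finsupp.degree_eq_zero_iff]; omega
    rw [hd0]
    exact hf)
  have key : ∀ s : Finset (Fin r), ‖∑ i ∈ s, D.x (MvPowerSeries.X i) * D.x (g i)‖
      ≤ ‖D.x (MvPowerSeries.X i0)‖ := by
    intro s
    induction s using Finset.induction_on with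
    | empty => rw [Finset.sum_empty, norm_zero]; exact norm_nonneg _
    | insert a t ha ih =>
      rw [Finset.sum_insert ha]
      have hadd : ‖D.x (MvPowerSeries.X a) * D.x (g a)
          + ∑ i ∈ t, D.x (MvPowerSeries.X i) * D.x (g i)‖
          ≤ max ‖D.x (MvPowerSeries.X a) * D.x (g a)‖
            ‖∑ i ∈ t, D.x (MvPowerSeries.X i) * D.x (g i)‖ :=
        IsUltrametricDist.norm_add_le_max
          ((D.x (MvPowerSeries.X a) * D.x (g a) : OC C) : C)
          ((∑ i ∈ t, D.x (MvPowerSeries.X i) * D.x (g i) : OC C) : C)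
      refine le_trans hadd (max_le ?_ ih)
      have hmul : ‖D.x (MvPowerSeries.X a) * D.x (g a)‖
          = ‖D.x (MvPowerSeries.X a)‖ * ‖D.x (g a)‖ :=
        norm_mul (D.x (MvPowerSeries.X a) : C) (D.x (g a) : C)
      rw [hmul]
      have h1 : ‖D.x (g a)‖ ≤ 1 := OC.norm_le_one _
      have h2 := hi0 a (Finset.mem_univ _)
      nlinarith [norm_nonneg (D.x (MvPowerSeries.X a)), norm_nonneg (D.x (g a))]
  rw [hfg, map_sum]
  simp only [map_mul]
  exact key Finset.univ

/-- local data attached to global data -/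
noncomputable def CData.toLData (D : CData p n h r C) : LData p n h r C where
  hh := D.hh
  hr := D.hr
  hn := D.hn
  Γ := D.Γ
  Γcomm := D.Γcomm
  Γp := D.Γp
  kx := D.x.comp MvPowerSeries.C
  Hx := D.H.map D.x
  Hcomm := by have := D.Hcomm; exact map_isComm D.H D.x
  Wx := PowerSeries.map D.x D.W
  W0 := by
    rw [← PowerSeries.coeff_zero_eq_constantCoeff_apply, PowerSeries.coeff_map,
      PowerSeries.coeff_zero_eq_constantCoeff_apply, D.W0, map_zero]
  HW := by
    have hQ : p ^ h ≠ 0 := pow_ne_zero _ (Fact.out : p.Prime).ne_zero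
    rw [mulSeries_map, D.HW]
    have hs : PowerSeries.HasSubst (PowerSeries.X ^ (p ^ h) :
        PowerSeries (MvPowerSeries (Fin r) (GaloisField p n))) :=
      PowerSeries.HasSubst.X_pow hQ
    have h1 := PowerSeries.map_subst (h := D.x) hs D.W
    have h2 : MvPowerSeries.map D.x (PowerSeries.X ^ (p ^ h) :
        PowerSeries (MvPowerSeries (Fin r) (GaloisField p n)))
        = (PowerSeries.X ^ (p ^ h) : PowerSeries (OC C)) := by
      show PowerSeries.map D.x (PowerSeries.X ^ (p ^ h)) = _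
      rw [map_pow, PowerSeries.map_X]
    rw [h2] at h1
    exact h1
  ε := D.exists_eps.choose
  ε0 := D.exists_eps.choose_spec.1
  ε1 := D.exists_eps.choose_spec.2.1
  hε := by
    intro d
    have hres : MvPowerSeries.coeff d D.Γ.toPowerSeries
        = MvPowerSeries.constantCoeff (MvPowerSeries.coeff d D.H.toPowerSeries) := by
      have h1 := congrArg (fun F : FormalGroup (GaloisField p n) =>
        MvPowerSeries.coeff d F.toPowerSeries) D.Hres
      exact h1.symm
    show ‖MvPowerSeries.coeff d (MvPowerSeries.map D.x D.H.toPowerSeries)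
      - D.x (MvPowerSeries.C (MvPowerSeries.coeff d D.Γ.toPowerSeries))‖ ≤ _
    rw [MvPowerSeries.coeff_map, hres, ← map_sub]
    apply D.exists_eps.choose_spec.2.2
    simp
  W1 := by
    have h1 := D.Wcoord ⟨0, D.hr⟩
    rw [PowerSeries.coeff_map]
    simp only [pow_zero] at h1
    rw [h1]
    exact D.x0 ⟨0, D.hr⟩ rfl

end

end Crest.Agent.LT
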