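import Mathlib
import Crest.Agent.LT.CDefs

/-! # K: Moore determinant, ℓ-trick, closure theorem, compactness (row 227): definitions, Moore.
Paper proof: ideas row 227, post 4, K1, K2, K3. -/

set_option autoImplicit false
set_option linter.unusedSectionVars false

namespace Crest.Agent.LT

open Crest.LubinTate MvPowerSeries

variable {p h r : ℕ} [Fact p.Prime]
variable {C : Type*} [NontriviallyNormedField C] [CompleteSpace C] [IsUltrametricDist C]
  [CharP C p] [IsAlgClosed C]

theorem cl_FQ_coe (hh : 1 ≤ h) : ((FQ C p h : Subfield C) : Set C) =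
    (Polynomial.X ^ (p ^ h) - Polynomial.X : Polynomial C).rootSet C := by
  have hp1 : 1 < p := (Fact.out : p.Prime).one_lt
  have hne := FiniteField.X_pow_card_pow_sub_X_ne_zero C (p := p) (Nat.one_le_iff_ne_zero.1 hh) hp1
  ext c
  rw [Polynomial.mem_rootSet_of_ne hne]
  simp only [map_sub, map_pow, Polynomial.aeval_X, sub_eq_zero]
  rfl

/-- `FQ` is finite with `p^h` elements -/
theorem FQ.finite (hh : 1 ≤ h) : Finite (FQ C p h) := by
  have : ((FQ C p h : Subfield C) : Set C).Finite := by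
    rw [cl_FQ_coe hh]
    exact Polynomial.rootSet_finite _ _
  exact this.to_subtype

theorem FQ.card (hh : 1 ≤ h) : Nat.card (FQ C p h) = p ^ h := by
  classical
  have hp1 : 1 < p := (Fact.out : p.Prime).one_lt
  have hne := FiniteField.X_pow_card_pow_sub_X_ne_zero C (p := p) (Nat.one_le_iff_ne_zero.1 hh) hp1
  have h1 : Nat.card (FQ C p h) = Nat.card ((Polynomial.X ^ (p ^ h) - Polynomial.X :
      Polynomial C).rootSet C) := by
    rw [← cl_FQ_coe hh]
    rfl
  rw [h1, Nat.card_eq_fintype_card, Polynomial.card_rootSet_eq_natDegree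
    (galois_poly_separable p _ (dvd_pow_self p (Nat.one_le_iff_ne_zero.1 hh)))
    (IsAlgClosed.splits_domain _), FiniteField.X_pow_card_pow_sub_X_natDegree_eq C
      (Nat.one_le_iff_ne_zero.1 hh) hp1]

/-- Moore: if `e_1..e_B` are linearly independent over `F_Q`, the matrix `(e_b^(Q^i))` is
invertible (any field extension `L` of a finite field with `Q` elements). -/
theorem moore {F L : Type*} [Field F] [Finite F] [Field L] [Algebra F L] {B : ℕ} (e : Fin B → L)
    (he : LinearIndependent F e) :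
    IsUnit (Matrix.det (Matrix.of fun i b : Fin B => e b ^ ((Nat.card F) ^ (i : ℕ)))) := by
  classical
  let _ := Fintype.ofFinite F
  rw [Nat.card_eq_fintype_card]
  have hQ1 : 1 < Fintype.card F := Fintype.one_lt_card
  rw [isUnit_iff_ne_zero]
  intro h0
  obtain ⟨v, hv, hv0⟩ := Matrix.exists_vecMul_eq_zero_iff.2 h0
  have hv1 : ∀ b, ∑ i : Fin B, v i * e b ^ ((Fintype.card F) ^ (i : ℕ)) = 0 :=
    fun b => congrFun hv0 b
  obtain ⟨i0, hi0⟩ := Function.ne_iff.1 hv
  have hinj : Function.Injective (fun i : Fin B => (Fintype.card F) ^ (i : ℕ)) := fun i j hij =>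
    Fin.ext (Nat.pow_right_injective hQ1 hij)
  let P : Polynomial L := ∑ i : Fin B, Polynomial.C (v i) *
    Polynomial.X ^ ((Fintype.card F) ^ (i : ℕ))
  have hP : P.coeff ((Fintype.card F) ^ (i0 : ℕ)) = v i0 := by
    simp only [P, Polynomial.finsetSum_coeff, Polynomial.coeff_C_mul_X_pow]
    rw [Finset.sum_eq_single i0]
    · simp
    · intro j _ hj
      rw [if_neg]
      intro h
      exact hj (hinj h.symm)
    · intro h; exact absurd (Finset.mem_univ _) h
  have hP0 : P ≠ 0 := by
    intro h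
    rw [h, Polynomial.coeff_zero] at hP
    exact hi0 hP.symm
  -- iterated Frobenius
  have hfrob : ∀ i : ℕ, ∃ ψ : L →ₐ[F] L, ∀ x, ψ x = x ^ ((Fintype.card F) ^ i) := by
    intro i
    induction i with
    | zero => exact ⟨AlgHom.id F L, fun x => by simp⟩
    | succ i ih =>
      obtain ⟨ψ, hψ⟩ := ih
      refine ⟨(FiniteField.frobeniusAlgHom F L).comp ψ, fun x => ?_⟩
      rw [AlgHom.comp_apply, hψ, FiniteField.coe_frobeniusAlgHom]
      show (x ^ (Fintype.card F) ^ i) ^ (Fintype.card F) = _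
      rw [← pow_mul, ← pow_succ]
  have heval : ∀ c : Fin B → F, P.eval (∑ b, c b • e b) = 0 := by
    intro c
    simp only [P, Polynomial.eval_finset_sum, Polynomial.eval_mul, Polynomial.eval_C,
      Polynomial.eval_pow, Polynomial.eval_X]
    have h1 : ∀ i : Fin B, v i * (∑ b, c b • e b) ^ ((Fintype.card F) ^ (i : ℕ)) =
        ∑ b, c b • (v i * e b ^ ((Fintype.card F) ^ (i : ℕ))) := by
      intro i
      obtain ⟨ψ, hψ⟩ := hfrob i
      rw [← hψ, map_sum, Finset.mul_sum]
      refine Finset.sum_congr rfl fun b _ => ?_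
      rw [map_smul, hψ, mul_smul_comm]
    rw [Finset.sum_congr rfl fun i _ => h1 i, Finset.sum_comm]
    refine Finset.sum_eq_zero fun b _ => ?_
    rw [← Finset.smul_sum, hv1 b, smul_zero]
  have hinj2 : Function.Injective (fun c : Fin B → F => ∑ b, c b • e b) := by
    intro c c' hcc
    have h1 : ∑ b, (c b - c' b) • e b = 0 := by
      simp only [sub_smul, Finset.sum_sub_distrib]
      exact sub_eq_zero.2 hcc
    have h2 := Fintype.linearIndependent_iff.1 he _ h1
    funext b
    exact sub_eq_zero.1 (h2 b)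
  refine hP0 (Polynomial.eq_zero_of_natDegree_lt_card_of_eval_eq_zero P hinj2 heval ?_)
  rw [Fintype.card_fun, Fintype.card_fin]
  refine lt_of_le_of_lt (Polynomial.natDegree_sum_le_of_forall_le (n := (Fintype.card F) ^ (B - 1))
    _ _ fun i _ => ?_) ?_
  · refine (Polynomial.natDegree_C_mul_X_pow_le _ _).trans ?_
    exact Nat.pow_le_pow_right hQ1.le (by have := i.2; omega)
  · exact Nat.pow_lt_pow_right hQ1 (by have := i0.2; omega)

/-- abstract orbit data: `y : 𝒟 → (m_C)^r` additive into `G^r`, stable under Frobenius. -/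
structure YData (p h r : ℕ) [Fact p.Prime] (C : Type*) [NontriviallyNormedField C]
    [CompleteSpace C] [IsUltrametricDist C] [CharP C p] (hh : 1 ≤ h) (G : FormalGroup (FQ C p h))
    (𝒟 : Type*) [AddCommGroup 𝒟] where
  y : 𝒟 → Fin r → OC C
  lt : ∀ δ i, ‖y δ i‖ < 1
  add : ∀ δ δ' i, y (δ + δ') i = op G (FQ.incl hh) (y δ i) (y δ' i)
  frob : ∀ δ, ∃ δ', ∀ i, y δ' i = (y δ i) ^ (p ^ h)

variable {hh : 1 ≤ h} {G : FormalGroup (FQ C p h)} {𝒟 : Type*} [AddCommGroup 𝒟]

/-- the vanishing ideal of the orbit (as a predicate) -/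
def YData.Van (Y : YData p h r C hh G 𝒟) (f : MvPowerSeries (Fin r) (FQ C p h)) : Prop :=
  ∀ δ, ev (FQ.incl hh) (Y.y δ) f = 0

/-- `y_i(δ)` as a point of `G` -/
def YData.pt (Y : YData p h r C hh G 𝒟) (δ : 𝒟) (i : Fin r) :
    Pt G (FQ.incl (C := C) (p := p) hh) :=
  ⟨Y.y δ i, (OC.isTopologicallyNilpotent_iff _).2 (Y.lt δ i)⟩

end Crest.Agent.LT
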