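import Mathlib
import Crest.Agent.LT.ClosureDefs

/-! # K1, K3: ℓ-trick and compactness (row 227). -/

set_option autoImplicit false
set_option linter.unusedSectionVars false

namespace Crest.Agent.LT

open Crest.LubinTate MvPowerSeries

variable {p h r : ℕ} [Fact p.Prime]
variable {C : Type*} [NontriviallyNormedField C] [CompleteSpace C] [IsUltrametricDist C]
  [CharP C p] [IsAlgClosed C]

/-- if `x^(Q^m) ≤ K t^(Q^m)` for all large `m` then `x ≤ t` -/
theorem cl_le_of_pow {Q : ℕ} (hQ : 1 < Q) {x t K : ℝ} (ht : 0 ≤ t) (m0 : ℕ)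
    (h : ∀ m ≥ m0, x ^ (Q ^ m) ≤ K * t ^ (Q ^ m)) : x ≤ t := by
  by_contra hlt
  push Not at hlt
  rcases ht.eq_or_lt with h0 | h0
  · have h1 := h m0 le_rfl
    rw [← h0, zero_pow (pow_ne_zero _ (by omega)), mul_zero] at h1
    have : 0 < x ^ (Q ^ m0) := pow_pos (h0 ▸ hlt) _
    linarith
  · have h1 : 1 < x / t := (one_lt_div h0).2 hlt
    have h2 := (tendsto_pow_atTop_atTop_of_one_lt h1).comp
      (tendsto_pow_atTop_atTop_of_one_lt hQ)
    obtain ⟨m, hm1, hm2⟩ := ((h2.eventually (Filter.eventually_gt_atTop K)).and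
      (Filter.eventually_ge_atTop m0)).exists
    have h3 := h m hm2
    have h4 : (x / t) ^ (Q ^ m) ≤ K := by
      rw [div_pow, div_le_iff₀ (pow_pos h0 _)]
      exact h3
    exact absurd hm1 (not_lt.2 h4)

theorem cl_FQ_pow (c : FQ C p h) (a : ℕ) : ((c : C)) ^ ((p ^ h) ^ a) = c := by
  induction a with
  | zero => simp
  | succ a ih =>
    rw [pow_succ, pow_mul, ih]
    exact c.2

theorem cl_sum_pow {ι : Type*} (s : Finset ι) (f : ι → C) (h a : ℕ) :
    (∑ i ∈ s, f i) ^ ((p ^ h) ^ a) = ∑ i ∈ s, f i ^ ((p ^ h) ^ a) := by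
  rw [← pow_mul, sum_pow_char_pow]

/-- K1, inexact ℓ-trick -/
theorem cl_ell_bound (hh : 1 ≤ h) {ι : Type*} (s : Finset ι) (c z : ι → C) {t : ℝ} (ht : 0 ≤ t)
    {C0 : ℝ} {a0 : ℕ}
    (hb : ∀ a ≥ a0, ‖∑ i ∈ s, c i * z i ^ ((p ^ h) ^ a)‖ ≤ C0 * t ^ ((p ^ h) ^ a))
    (ℓ : C →ₗ[FQ C p h] FQ C p h) :
    ‖∑ i ∈ s, ((ℓ (c i) : FQ C p h) : C) * z i‖ ≤ t := by
  classical
  have hp1 : 1 < p := (Fact.out : p.Prime).one_lt
  have hQ : 1 < p ^ h := Nat.one_lt_pow (by omega) hp1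
  have hfin : Finite (FQ C p h) := FQ.finite hh
  have hcard : Nat.card (FQ C p h) = p ^ h := FQ.card hh
  let V : Submodule (FQ C p h) C := Submodule.span (FQ C p h) (c '' (s : Set ι))
  have hVfin : FiniteDimensional (FQ C p h) V :=
    FiniteDimensional.span_of_finite _ ((s.finite_toSet).image c)
  let B : ℕ := Module.finrank (FQ C p h) V
  let bas : Module.Basis (Fin B) (FQ C p h) V := Module.finBasis (FQ C p h) V
  let e : Fin B → C := fun b => (bas b : C)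
  have he : LinearIndependent (FQ C p h) e :=
    bas.linearIndependent.map' V.subtype (Submodule.ker_subtype V)
  -- coordinates
  have hc : ∀ i ∈ s, ∃ lam : Fin B → FQ C p h, c i = ∑ b, lam b • e b := by
    intro i hi
    have hi' : c i ∈ V := Submodule.subset_span ⟨i, hi, rfl⟩
    refine ⟨fun b => bas.repr ⟨c i, hi'⟩ b, ?_⟩
    have h1 := bas.sum_repr ⟨c i, hi'⟩
    have h2 := congrArg (V.subtype) h1
    rw [map_sum] at h2
    simp only [map_smul, Submodule.subtype_apply] at h2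
    exact h2.symm
  choose! lam hlam using hc
  let Fb : Fin B → C := fun b => ∑ i ∈ s, ((lam i b : FQ C p h) : C) * z i
  have hsum : ∀ a, ∑ i ∈ s, c i * z i ^ ((p ^ h) ^ a) = ∑ b, e b * Fb b ^ ((p ^ h) ^ a) := by
    intro a
    have h1 : ∀ b, Fb b ^ ((p ^ h) ^ a) =
        ∑ i ∈ s, ((lam i b : FQ C p h) : C) * z i ^ ((p ^ h) ^ a) := by
      intro b
      show (∑ i ∈ s, ((lam i b : FQ C p h) : C) * z i) ^ ((p ^ h) ^ a) = _
      rw [cl_sum_pow]
      refine Finset.sum_congr rfl fun i _ => ?_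
      rw [mul_pow, cl_FQ_pow]
    simp only [h1, Finset.mul_sum]
    rw [Finset.sum_comm]
    refine Finset.sum_congr rfl fun i hi => ?_
    rw [hlam i hi, Finset.sum_mul]
    refine Finset.sum_congr rfl fun b _ => ?_
    rw [Subfield.smul_def, smul_eq_mul]
    ring
  -- Moore matrix
  let M : Matrix (Fin B) (Fin B) C := Matrix.of fun i b : Fin B => e b ^ ((p ^ h) ^ (i : ℕ))
  have hM : IsUnit M.det := by
    have := moore e he
    rw [hcard] at this
    exact this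
  have hFb : ∀ b, ‖Fb b‖ ≤ t := by
    intro b
    refine cl_le_of_pow hQ ht (a0 + B)
      (K := ∑ i : Fin B, ‖M⁻¹ b i‖ * |C0| ^ ((p ^ h) ^ (i : ℕ))) ?_
    intro m hm
    let w : Fin B → C := fun i => ∑ b', M i b' * Fb b' ^ ((p ^ h) ^ m)
    have hw : ∀ i : Fin B, ‖w i‖ ≤ |C0| ^ ((p ^ h) ^ (i : ℕ)) * t ^ ((p ^ h) ^ m) := by
      intro i
      have hi : (i : ℕ) ≤ m := by have := i.2; omega
      have h1 : w i = (∑ b', e b' * Fb b' ^ ((p ^ h) ^ (m - i))) ^ ((p ^ h) ^ (i : ℕ)) := by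
        rw [cl_sum_pow]
        refine Finset.sum_congr rfl fun b' _ => ?_
        rw [mul_pow, ← pow_mul (Fb b'), ← pow_add, Nat.sub_add_cancel hi]
        rfl
      rw [h1, norm_pow, ← hsum]
      have h2 := hb (m - i) (by have := i.2; omega)
      calc _ ≤ (|C0| * t ^ ((p ^ h) ^ (m - i))) ^ ((p ^ h) ^ (i : ℕ)) := by
            refine pow_le_pow_left₀ (norm_nonneg _) (h2.trans ?_) _
            exact mul_le_mul_of_nonneg_right (le_abs_self _) (by positivity)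
        _ = _ := by
            rw [mul_pow, ← pow_mul t, ← pow_add, Nat.sub_add_cancel hi]
    have h4 : Fb b ^ ((p ^ h) ^ m) = ∑ i, M⁻¹ b i * w i := by
      have h5 : (M⁻¹ * M) = 1 := Matrix.nonsing_inv_mul M hM
      have h6 : ∑ i, M⁻¹ b i * w i = ∑ b', (M⁻¹ * M) b b' * Fb b' ^ ((p ^ h) ^ m) := by
        simp only [Matrix.mul_apply, w, Finset.mul_sum, Finset.sum_mul]
        rw [Finset.sum_comm]
        refine Finset.sum_congr rfl fun i _ => Finset.sum_congr rfl fun b' _ => ?_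
        ring
      rw [h6, h5]
      simp [Matrix.one_apply]
    rw [← norm_pow, h4, Finset.sum_mul]
    refine (norm_sum_le _ _).trans (Finset.sum_le_sum fun i _ => ?_)
    rw [norm_mul, mul_assoc]
    exact mul_le_mul_of_nonneg_left (hw i) (norm_nonneg _)
  have hfin2 : ∑ i ∈ s, ((ℓ (c i) : FQ C p h) : C) * z i =
      ∑ b, ((ℓ (e b) : FQ C p h) : C) * Fb b := by
    simp only [Fb, Finset.mul_sum]
    rw [Finset.sum_comm]
    refine Finset.sum_congr rfl fun i hi => ?_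
    have h1 : ℓ (c i) = ∑ b, lam i b * ℓ (e b) := by
      conv_lhs => rw [hlam i hi]
      rw [map_sum]
      refine Finset.sum_congr rfl fun b _ => ?_
      rw [map_smul, smul_eq_mul]
    rw [h1]
    push_cast
    rw [Finset.sum_mul]
    refine Finset.sum_congr rfl fun b _ => ?_
    ring
  rw [hfin2]
  refine IsUltrametricDist.norm_sum_le_of_forall_le_of_nonneg ht fun b _ => ?_
  rw [norm_mul]
  calc _ ≤ 1 * t := mul_le_mul (FQ.norm_le_one hh _) (hFb b) (norm_nonneg _) zero_le_one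
    _ = t := one_mul t

/-- compactness of `F^ι`, `F` finite -/
theorem cl_compact {F ι : Type*} [Finite F] (D : ℕ → Set (ι → F))
    (hanti : ∀ n, D (n + 1) ⊆ D n) (hne : ∀ n, (D n).Nonempty)
    (hdep : ∀ n, ∃ s : Set ι, s.Finite ∧ ∀ f ∈ D n, ∀ g : ι → F, (∀ i ∈ s, g i = f i) → g ∈ D n) :
    ∃ f, ∀ n, f ∈ D n := by
  let _ : TopologicalSpace F := ⊥
  have hd : DiscreteTopology F := ⟨rfl⟩
  have hclosed : ∀ n, IsClosed (D n) := by
    intro n
    obtain ⟨s, hs, hsD⟩ := hdep n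
    rw [← isOpen_compl_iff, isOpen_iff_mem_nhds]
    intro f hf
    have h1 : s.pi (fun i => ({f i} : Set F)) ∈ nhds f :=
      set_pi_mem_nhds hs fun i _ => (isOpen_discrete _).mem_nhds rfl
    refine Filter.mem_of_superset h1 fun g hg hgD => hf ?_
    exact hsD g hgD f fun i hi => (hg i hi).symm
  have h2 := IsCompact.nonempty_iInter_of_sequence_nonempty_isCompact_isClosed D hanti hne
    (hclosed 0).isCompact hclosed
  obtain ⟨f, hf⟩ := h2
  exact ⟨f, fun n => Set.mem_iInter.1 hf n⟩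

section ev

variable {σ : Type*} [Finite σ] {R : Type*} [CommRing R] (φ : R →+* OC C) {a : σ → OC C}

theorem cl_nil (ha : ∀ i, ‖a i‖ < 1) (i : σ) : IsTopologicallyNilpotent (a i) :=
  (OC.isTopologicallyNilpotent_iff _).2 (ha i)

theorem cl_ev_add (ha : ∀ i, ‖a i‖ < 1) (f g : MvPowerSeries σ R) :
    ev φ a (f + g) = ev φ a f + ev φ a g := by
  rw [← evHom_apply φ a (cl_nil ha), ← evHom_apply φ a (cl_nil ha),
    ← evHom_apply φ a (cl_nil ha), map_add]

theorem cl_ev_sub (ha : ∀ i, ‖a i‖ < 1) (f g : MvPowerSeries σ R) :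
    ev φ a (f - g) = ev φ a f - ev φ a g := by
  rw [← evHom_apply φ a (cl_nil ha), ← evHom_apply φ a (cl_nil ha),
    ← evHom_apply φ a (cl_nil ha), map_sub]

theorem cl_ev_mul (ha : ∀ i, ‖a i‖ < 1) (f g : MvPowerSeries σ R) :
    ev φ a (f * g) = ev φ a f * ev φ a g := by
  rw [← evHom_apply φ a (cl_nil ha), ← evHom_apply φ a (cl_nil ha),
    ← evHom_apply φ a (cl_nil ha), map_mul]

theorem cl_ev_zero (ha : ∀ i, ‖a i‖ < 1) : ev φ a (0 : MvPowerSeries σ R) = 0 := by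
  rw [← evHom_apply φ a (cl_nil ha), map_zero]

theorem cl_ev_pow (ha : ∀ i, ‖a i‖ < 1) (f : MvPowerSeries σ R) (n : ℕ) :
    ev φ a (f ^ n) = ev φ a f ^ n := by
  rw [← evHom_apply φ a (cl_nil ha), ← evHom_apply φ a (cl_nil ha), map_pow]

/-- the monomial `a^d` in `C` -/
noncomputable def mon (a : σ → C) (d : σ →₀ ℕ) : C := d.prod fun i e => a i ^ e

theorem mon_pow (a : σ → C) (d : σ →₀ ℕ) (n : ℕ) : mon (fun i => a i ^ n) d = mon a d ^ n := by
  unfold mon Finsupp.prod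
  rw [← Finset.prod_pow]
  refine Finset.prod_congr rfl fun i _ => ?_
  show (a i ^ n) ^ d i = (a i ^ d i) ^ n
  rw [← pow_mul, ← pow_mul, mul_comm]

theorem norm_mon_le {a : σ → C} {ρ : ℝ} (ha : ∀ i, ‖a i‖ ≤ ρ) (d : σ →₀ ℕ) :
    ‖mon a d‖ ≤ ρ ^ d.degree := by
  unfold mon Finsupp.prod
  rw [norm_prod, Finsupp.degree_apply, ← Finset.prod_pow_eq_pow_sum]
  refine Finset.prod_le_prod (fun i _ => norm_nonneg _) fun i _ => ?_
  rw [norm_pow]
  exact pow_le_pow_left₀ (norm_nonneg _) (ha i) _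

theorem cl_hasSum (ha : ∀ i, ‖a i‖ < 1) (f : MvPowerSeries σ R) :
    HasSum (fun d : σ →₀ ℕ => ((φ (MvPowerSeries.coeff d f) : OC C) : C) *
      mon (fun i => (a i : C)) d) ((ev φ a f : OC C) : C) := by
  have h1 := (hasSum_ev φ a (cl_nil ha) f).map (OC C).subtype continuous_subtype_val
  have h2 : (fun d : σ →₀ ℕ => ((φ (MvPowerSeries.coeff d f) : OC C) : C) *
      mon (fun i => (a i : C)) d) = (OC C).subtype ∘ (fun d : σ →₀ ℕ =>
        φ (MvPowerSeries.coeff d f) * d.prod (fun i e => a i ^ e)) := by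
    funext d
    simp only [mon, Finsupp.prod, Function.comp_apply, map_mul, map_prod, map_pow]
    rfl
  rw [h2]
  exact h1

end ev

variable {hh : 1 ≤ h} {G : FormalGroup (FQ C p h)} {𝒟 : Type*} [AddCommGroup 𝒟]

theorem YData.norm_lt (Y : YData p h r C hh G 𝒟) (δ : 𝒟) : ‖Y.y δ‖ < 1 :=
  (pi_norm_lt_iff zero_lt_one).2 (Y.lt δ)

/-- `‖f(y(δ))‖ ≤ ‖y(δ)‖^N` -/
def YData.AN (Y : YData p h r C hh G 𝒟) (N : ℕ) (f : MvPowerSeries (Fin r) (FQ C p h)) : Prop :=
  ∀ δ, ‖ev (FQ.incl hh) (Y.y δ) f‖ ≤ ‖Y.y δ‖ ^ N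

theorem YData.AN.anti {Y : YData p h r C hh G 𝒟} {N M : ℕ} (hNM : N ≤ M)
    {f : MvPowerSeries (Fin r) (FQ C p h)} (hf : Y.AN M f) : Y.AN N f := fun δ =>
  (hf δ).trans (pow_le_pow_of_le_one (norm_nonneg _) (Y.norm_lt δ).le hNM)

theorem YData.norm_ev_le (Y : YData p h r C hh G 𝒟) (δ : 𝒟) (N : ℕ)
    (f : MvPowerSeries (Fin r) (FQ C p h))
    (hN : ∀ d : Fin r →₀ ℕ, d.degree < N → MvPowerSeries.coeff d f = 0) :
    ‖ev (FQ.incl hh) (Y.y δ) f‖ ≤ ‖Y.y δ‖ ^ N := by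
  have h1 := OC.norm_ev_le (FQ.incl hh) (Y.y δ) (norm_nonneg (Y.y δ)) (Y.norm_lt δ)
    (fun i => norm_le_pi_norm (Y.y δ) i) f (M := 1) (N := N) (fun d => OC.norm_le_one _) hN
  rwa [one_mul] at h1

theorem YData.AN.congr {Y : YData p h r C hh G 𝒟} {N : ℕ}
    {f g : MvPowerSeries (Fin r) (FQ C p h)} (hf : Y.AN N f)
    (hfg : ∀ d : Fin r →₀ ℕ, d.degree < N → MvPowerSeries.coeff d g = MvPowerSeries.coeff d f) :
    Y.AN N g := by
  intro δ
  have h1 : ev (FQ.incl hh) (Y.y δ) g = ev (FQ.incl hh) (Y.y δ) f +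
      ev (FQ.incl hh) (Y.y δ) (g - f) := by
    rw [← cl_ev_add _ (Y.lt δ), add_sub_cancel]
  rw [h1]
  refine (IsUltrametricDist.norm_add_le_max _ _).trans (max_le (hf δ) ?_)
  refine Y.norm_ev_le δ N _ fun d hd => ?_
  rw [map_sub, hfg d hd, sub_self]

theorem cl_eq_zero_of_norm_le {x : OC C} {ρ : ℝ} (h0 : 0 ≤ ρ) (h1 : ρ < 1) (e : ℕ)
    (hx : ∀ n, ‖x‖ ≤ ρ ^ (n + e)) : x = 0 := by
  have h2 : Filter.Tendsto (fun n => ρ ^ (n + e)) Filter.atTop (nhds 0) :=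
    (Filter.tendsto_add_atTop_iff_nat e).2 (tendsto_pow_atTop_nhds_zero_of_lt_one h0 h1)
  have h3 := ge_of_tendsto' h2 hx
  exact norm_le_zero_iff.1 h3

/-- K3 -/
theorem YData.K3 (Y : YData p h r C hh G 𝒟) (e : ℕ) :
    ∃ N : ℕ, e ≤ N ∧ ∀ f, Y.AN N f → ∃ f', Y.Van f' ∧
      ∀ I : Fin r →₀ ℕ, I.degree < e → MvPowerSeries.coeff I f' = MvPowerSeries.coeff I f := by
  by_contra hcon
  push Not at hcon
  have hfin : Finite (FQ C p h) := FQ.finite hh
  let D : ℕ → Set ((Fin r →₀ ℕ) → FQ C p h) := fun n =>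
    {f | Y.AN (n + e) f ∧ ∀ f', Y.Van f' → ∃ I : Fin r →₀ ℕ, I.degree < e ∧
      MvPowerSeries.coeff I f' ≠ f I}
  obtain ⟨f, hf⟩ := cl_compact D
    (fun n f hf => ⟨hf.1.anti (by omega), hf.2⟩)
    (fun n => by
      obtain ⟨f, hf1, hf2⟩ := hcon (n + e) (by omega)
      exact ⟨f, hf1, hf2⟩)
    (fun n => by
      refine ⟨{d : Fin r →₀ ℕ | d.degree < n + e}, Finsupp.finite_of_degree_lt _, ?_⟩
      rintro f ⟨hf1, hf2⟩ g hg
      refine ⟨hf1.congr fun d hd => hg d hd, fun f' hf' => ?_⟩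
      obtain ⟨I, hI, hI2⟩ := hf2 f' hf'
      refine ⟨I, hI, ?_⟩
      rwa [hg I (show I.degree < n + e by omega)])
  have hV : Y.Van f := by
    intro δ
    exact cl_eq_zero_of_norm_le (norm_nonneg (Y.y δ)) (Y.norm_lt δ) e fun n => (hf n).1 δ
  obtain ⟨I, _, hI2⟩ := (hf 0).2 f hV
  exact hI2 rfl

/-- finite sums: the truncated series -/
theorem cl_eval_trunc (N : ℕ) (c : MvPowerSeries (Fin r) C) (z : Fin r → C) :
    MvPolynomial.eval z (truncTotal N c) =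
      ∑ I ∈ (Finsupp.finite_of_degree_lt (σ := Fin r) N).toFinset,
        MvPowerSeries.coeff I c * mon z I := by
  classical
  rw [MvPolynomial.eval_eq]
  have h1 : (truncTotal N c).support ⊆ (Finsupp.finite_of_degree_lt (σ := Fin r) N).toFinset := by
    intro I hI
    rw [MvPolynomial.mem_support_iff] at hI
    rw [Set.Finite.mem_toFinset]
    by_contra hcon
    exact hI (coeff_truncTotal_eq_zero _ (not_lt.1 hcon))
  rw [Finset.sum_subset h1 (fun I _ hI => by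
    rw [MvPolynomial.notMem_support_iff.1 hI, zero_mul])]
  refine Finset.sum_congr rfl fun I hI => ?_
  rw [Set.Finite.mem_toFinset] at hI
  rw [coeff_truncTotal _ hI]
  rfl

/-- `ev` of a truncated series is a finite sum -/
theorem cl_ev_trunc {a : Fin r → OC C} (ha : ∀ i, ‖a i‖ < 1) (N : ℕ)
    (f : MvPowerSeries (Fin r) (FQ C p h)) (hf : ∀ I : Fin r →₀ ℕ, N ≤ I.degree →
      MvPowerSeries.coeff I f = 0) :
    ((ev (FQ.incl hh) a f : OC C) : C) =
      ∑ I ∈ (Finsupp.finite_of_degree_lt (σ := Fin r) N).toFinset,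
        ((MvPowerSeries.coeff I f : FQ C p h) : C) * mon (fun i => (a i : C)) I := by
  refine (cl_hasSum (FQ.incl hh) ha f).unique (hasSum_sum_of_ne_finset_zero fun I hI => ?_)
  rw [Set.Finite.mem_toFinset] at hI
  rw [hf I (not_lt.1 hI), map_zero]
  simp

/-- K1 + K3 -/
theorem YData.ell_close_proof (Y : YData p h r C hh G 𝒟) (e : ℕ) :
    ∃ N : ℕ, ∀ c : MvPowerSeries (Fin r) C,
      (∀ δ, ∃ (C0 : ℝ) (a0 : ℕ), ∀ a ≥ a0,
        ‖MvPolynomial.eval (fun i => (Y.y δ i : C) ^ ((p ^ h) ^ a)) (truncTotal N c)‖ ≤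
          C0 * (‖Y.y δ‖) ^ (N * (p ^ h) ^ a)) →
      ∀ ℓ : C →ₗ[FQ C p h] FQ C p h, ∃ f : MvPowerSeries (Fin r) (FQ C p h), Y.Van f ∧
        ∀ I : Fin r →₀ ℕ, I.degree < e →
          MvPowerSeries.coeff I f = ℓ (MvPowerSeries.coeff I c) := by
  obtain ⟨N, hN, hK⟩ := Y.K3 e
  refine ⟨N, fun c hc ℓ => ?_⟩
  let f0 : MvPowerSeries (Fin r) (FQ C p h) := fun I =>
    if I.degree < N then ℓ (MvPowerSeries.coeff I c) else 0
  have hf0 : ∀ I : Fin r →₀ ℕ, MvPowerSeries.coeff I f0 =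
    if I.degree < N then ℓ (MvPowerSeries.coeff I c) else 0 := fun I => rfl
  have hAN : Y.AN N f0 := by
    intro δ
    obtain ⟨C0, a0, h0⟩ := hc δ
    have h1 := cl_ev_trunc (hh := hh) (Y.lt δ) N f0 (fun I hI => by
      rw [hf0, if_neg (not_lt.2 hI)])
    have h2 : ‖ev (FQ.incl hh) (Y.y δ) f0‖ = ‖((ev (FQ.incl hh) (Y.y δ) f0 : OC C) : C)‖ := rfl
    rw [h2, h1]
    have h3 : ∀ a ≥ a0, ‖∑ I ∈ (Finsupp.finite_of_degree_lt (σ := Fin r) N).toFinset,
        MvPowerSeries.coeff I c * mon (fun i => (Y.y δ i : C)) I ^ ((p ^ h) ^ a)‖ ≤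
        C0 * (‖Y.y δ‖ ^ N) ^ ((p ^ h) ^ a) := by
      intro a ha
      have h4 := h0 a ha
      rw [cl_eval_trunc, pow_mul] at h4
      simp only [mon_pow] at h4
      exact h4
    have h5 := cl_ell_bound hh (Finsupp.finite_of_degree_lt (σ := Fin r) N).toFinset
      (fun I => MvPowerSeries.coeff I c) (fun I => mon (fun i => (Y.y δ i : C)) I)
      (pow_nonneg (norm_nonneg _) N) h3 ℓ
    refine le_trans (le_of_eq ?_) h5
    congr 1
    refine Finset.sum_congr rfl fun I hI => ?_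
    rw [Set.Finite.mem_toFinset] at hI
    rw [hf0, if_pos (show I.degree < N from hI)]
  obtain ⟨f, hf1, hf2⟩ := hK f0 hAN
  refine ⟨f, hf1, fun I hI => ?_⟩
  rw [hf2 I hI, hf0, if_pos (by omega)]

end Crest.Agent.LT
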