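import Mathlib
import Crest.Agent.LT.ClosureA

/-! # K2, part (i): slices, exact ℓ-trick, no linear part implies zero (row 227). -/

set_option autoImplicit false
set_option linter.unusedSectionVars false

namespace Crest.Agent.LT

open Crest.LubinTate MvPowerSeries

variable {p h r : ℕ} [Fact p.Prime]
variable {C : Type*} [NontriviallyNormedField C] [CompleteSpace C] [IsUltrametricDist C]
  [CharP C p] [IsAlgClosed C]

theorem cl_hasSum_norm_le {ι : Type*} {f : ι → C} {a : C} (hf : HasSum f a) {B : ℝ}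
    (hB : 0 ≤ B) (h : ∀ i, ‖f i‖ ≤ B) : ‖a‖ ≤ B :=
  le_of_tendsto ((continuous_norm.tendsto a).comp hf) (Filter.Eventually.of_forall fun _ =>
    IsUltrametricDist.norm_sum_le_of_forall_le_of_nonneg hB fun i _ => h i)

section slice

variable {σ τ : Type*} [Fintype σ] [Fintype τ] {R : Type*} [CommRing R]

/-- the coefficient of `Z^J` -/
noncomputable def slice (J : τ →₀ ℕ) (g : MvPowerSeries (σ ⊕ τ) R) : MvPowerSeries σ R :=
  fun I => MvPowerSeries.coeff (Finsupp.sumElim I J) g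

theorem coeff_slice (J : τ →₀ ℕ) (g : MvPowerSeries (σ ⊕ τ) R) (I : σ →₀ ℕ) :
    MvPowerSeries.coeff I (slice J g) = MvPowerSeries.coeff (Finsupp.sumElim I J) g := rfl

theorem mon_fintype (a : σ → C) (d : σ →₀ ℕ) : mon a d = ∏ i, a i ^ d i :=
  Finsupp.prod_fintype _ _ fun _ => pow_zero _

theorem mon_sumElim (a : σ → C) (b : τ → C) (I : σ →₀ ℕ) (J : τ →₀ ℕ) :
    mon (Sum.elim a b) (Finsupp.sumElim I J) = mon a I * mon b J := by
  rw [mon_fintype, mon_fintype, mon_fintype, Fintype.prod_sum_type]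
  rfl

theorem eq_zero_of_slice {g : MvPowerSeries (σ ⊕ τ) R} (hg : ∀ J, slice J g = 0) : g = 0 := by
  ext d
  have h1 : d = Finsupp.sumElim (Finsupp.sumFinsuppEquivProdFinsupp d).1
      (Finsupp.sumFinsuppEquivProdFinsupp d).2 :=
    (Finsupp.sumFinsuppEquivProdFinsupp.symm_apply_apply d).symm
  rw [h1, ← coeff_slice, hg, map_zero, map_zero]

theorem slice_hasSum (φ : R →+* OC C) {a : σ → OC C} {b : τ → OC C} (ha : ∀ i, ‖a i‖ < 1)
    (hb : ∀ i, ‖b i‖ < 1) (g : MvPowerSeries (σ ⊕ τ) R) :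
    HasSum (fun J => ((ev φ a (slice J g) : OC C) : C) * mon (fun i => (b i : C)) J)
      ((ev φ (Sum.elim a b) g : OC C) : C) := by
  have hab : ∀ i, ‖(Sum.elim a b) i‖ < 1 := by
    rintro (i | i)
    · exact ha i
    · exact hb i
  have h1 := cl_hasSum φ hab g
  let E : (τ →₀ ℕ) × (σ →₀ ℕ) ≃ (σ ⊕ τ →₀ ℕ) :=
    (Equiv.prodComm _ _).trans Finsupp.sumFinsuppEquivProdFinsupp.symm
  have h2 := E.hasSum_iff.2 h1
  refine HasSum.prod_fiberwise h2 fun J => ?_
  have h3 := (cl_hasSum φ ha (slice J g)).mul_right (mon (fun i => (b i : C)) J)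
  have h4 : (fun I : σ →₀ ℕ => ((fun d : σ ⊕ τ →₀ ℕ =>
      ((φ (MvPowerSeries.coeff d g) : OC C) : C) *
        mon (fun i => ((Sum.elim a b i : OC C) : C)) d) ∘ E) (J, I)) =
      fun I => ((φ (MvPowerSeries.coeff I (slice J g)) : OC C) : C) *
        mon (fun i => (a i : C)) I * mon (fun i => (b i : C)) J := by
    funext I
    have h5 : E (J, I) = Finsupp.sumElim I J := rfl
    have h6 : (fun i => ((Sum.elim a b i : OC C) : C)) =
        Sum.elim (fun i => (a i : C)) (fun i => (b i : C)) := by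
      funext i
      rcases i with i | i <;> rfl
    rw [Function.comp_apply, h5, h6, mon_sumElim, coeff_slice, mul_assoc]
  rw [h4]
  exact h3

end slice

variable {hh : 1 ≤ h} {G : FormalGroup (FQ C p h)} {𝒟 : Type*} [AddCommGroup 𝒟]

theorem YData.frob_iter (Y : YData p h r C hh G 𝒟) (δ : 𝒟) (a : ℕ) :
    ∃ δ', ∀ i, Y.y δ' i = (Y.y δ i) ^ ((p ^ h) ^ a) := by
  induction a with
  | zero => exact ⟨δ, fun i => by simp⟩
  | succ a ih =>
    obtain ⟨δ', h1⟩ := ih
    obtain ⟨δ'', h2⟩ := Y.frob δ'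
    refine ⟨δ'', fun i => ?_⟩
    rw [h2, h1, ← pow_mul, ← pow_succ]

/-- exact ℓ-trick -/
theorem YData.ell_exact (Y : YData p h r C hh G 𝒟) (c : (Fin r →₀ ℕ) → OC C)
    (hc : ∀ δ, HasSum (fun J => (c J : C) * mon (fun i => (Y.y δ i : C)) J) 0)
    (ℓ : C →ₗ[FQ C p h] FQ C p h) :
    Y.Van (fun J => ℓ (c J : C) : MvPowerSeries (Fin r) (FQ C p h)) := by
  intro δ
  refine cl_eq_zero_of_norm_le (norm_nonneg (Y.y δ)) (Y.norm_lt δ) 0 fun N => ?_
  rw [add_zero]
  have hρ0 : 0 ≤ ‖Y.y δ‖ := norm_nonneg _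
  have hρ1 : ‖Y.y δ‖ < 1 := Y.norm_lt δ
  let f0 : MvPowerSeries (Fin r) (FQ C p h) := fun I => if I.degree < N then ℓ (c I : C) else 0
  have hf0 : ∀ I : Fin r →₀ ℕ, MvPowerSeries.coeff I f0 =
    if I.degree < N then ℓ (c I : C) else 0 := fun I => rfl
  let s := (Finsupp.finite_of_degree_lt (σ := Fin r) N).toFinset
  have hs : ∀ I, I ∈ s ↔ I.degree < N := fun I => Set.Finite.mem_toFinset _
  have h3 : ∀ a ≥ 0, ‖∑ I ∈ s, (c I : C) * mon (fun i => (Y.y δ i : C)) I ^ ((p ^ h) ^ a)‖ ≤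
      1 * (‖Y.y δ‖ ^ N) ^ ((p ^ h) ^ a) := by
    intro a _
    obtain ⟨δ', hδ'⟩ := Y.frob_iter δ a
    have h4 := hc δ'
    have h5 : (fun i => ((Y.y δ' i : OC C) : C)) =
        fun i => ((Y.y δ i : OC C) : C) ^ ((p ^ h) ^ a) := by
      funext i
      rw [hδ' i]
      rfl
    rw [h5] at h4
    simp only [mon_pow] at h4
    have h6 : HasSum (fun I => if I ∈ s then (c I : C) *
        mon (fun i => (Y.y δ i : C)) I ^ ((p ^ h) ^ a) else 0)
        (∑ I ∈ s, (c I : C) * mon (fun i => (Y.y δ i : C)) I ^ ((p ^ h) ^ a)) := by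
      have h7 : HasSum (fun I => if I ∈ s then (c I : C) *
          mon (fun i => (Y.y δ i : C)) I ^ ((p ^ h) ^ a) else 0)
          (∑ I ∈ s, if I ∈ s then (c I : C) *
          mon (fun i => (Y.y δ i : C)) I ^ ((p ^ h) ^ a) else 0) :=
        hasSum_sum_of_ne_finset_zero (fun I hI => by simp only [if_neg hI])
      rwa [Finset.sum_congr rfl (g := fun I => (c I : C) *
        mon (fun i => (Y.y δ i : C)) I ^ ((p ^ h) ^ a)) fun I hI => if_pos hI] at h7
    have h8 := h4.sub h6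
    rw [zero_sub] at h8
    have h9 := cl_hasSum_norm_le h8 (B := (‖Y.y δ‖ ^ N) ^ ((p ^ h) ^ a)) (by positivity) (by
      intro I
      by_cases hI : I ∈ s
      · simp only [if_pos hI, sub_self, norm_zero]
        positivity
      · simp only [if_neg hI, sub_zero]
        have h10 : N ≤ I.degree := not_lt.1 fun hlt => hI ((hs I).2 hlt)
        rw [norm_mul, norm_pow]
        calc _ ≤ 1 * (‖Y.y δ‖ ^ N) ^ ((p ^ h) ^ a) := by
              refine mul_le_mul (c I).2 (pow_le_pow_left₀ (norm_nonneg _) ?_ _)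
                (by positivity) zero_le_one
              refine (norm_mon_le (fun i => norm_le_pi_norm (Y.y δ) i) I).trans ?_
              exact pow_le_pow_of_le_one hρ0 hρ1.le h10
          _ = _ := one_mul _)
    rw [norm_neg] at h9
    rw [one_mul]
    exact h9
  have h5 := cl_ell_bound hh s (fun I => (c I : C)) (fun I => mon (fun i => (Y.y δ i : C)) I)
      (pow_nonneg (norm_nonneg (Y.y δ)) N) h3 ℓ
  have hAN : ‖ev (FQ.incl hh) (Y.y δ) f0‖ ≤ ‖Y.y δ‖ ^ N := by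
    have h1 := cl_ev_trunc (hh := hh) (Y.lt δ) N f0 (fun I hI => by
      rw [hf0, if_neg (not_lt.2 hI)])
    have h2 : ‖ev (FQ.incl hh) (Y.y δ) f0‖ = ‖((ev (FQ.incl hh) (Y.y δ) f0 : OC C) : C)‖ := rfl
    rw [h2, h1]
    refine le_trans (le_of_eq ?_) h5
    congr 1
    refine Finset.sum_congr rfl fun I hI => ?_
    rw [hf0, if_pos ((hs I).1 hI)]
  -- compare
  have h1 : ∀ f : MvPowerSeries (Fin r) (FQ C p h), ev (FQ.incl hh) (Y.y δ) f =
      ev (FQ.incl hh) (Y.y δ) f0 + ev (FQ.incl hh) (Y.y δ) (f - f0) := by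
    intro f
    rw [← cl_ev_add _ (Y.lt δ), add_sub_cancel]
  rw [h1]
  refine (IsUltrametricDist.norm_add_le_max _ _).trans (max_le hAN ?_)
  refine Y.norm_ev_le δ N _ fun d hd => ?_
  rw [map_sub, hf0, if_pos hd]
  exact sub_self _

theorem cl_exists_ell {x : C} (hx : ∀ ℓ : C →ₗ[FQ C p h] FQ C p h, ℓ x = 0) : x = 0 :=
  (Module.forall_dual_apply_eq_zero_iff (FQ C p h) x).1 hx

/-- vanishing on pairs -/
theorem YData.pair_zero (Y : YData p h r C hh G 𝒟)
    (hV : ∀ f, Y.Van f → f = 0) (g : MvPowerSeries (Fin r ⊕ Fin r) (FQ C p h))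
    (hg : ∀ δ δ', ev (FQ.incl hh) (Sum.elim (Y.y δ) (Y.y δ')) g = 0) : g = 0 := by
  refine eq_zero_of_slice fun J => hV _ fun δ => ?_
  let c : (Fin r →₀ ℕ) → OC C := fun J => ev (FQ.incl hh) (Y.y δ) (slice J g)
  have h1 : ∀ δ', HasSum (fun J => (c J : C) * mon (fun i => (Y.y δ' i : C)) J) 0 := by
    intro δ'
    have h2 := slice_hasSum (FQ.incl hh) (Y.lt δ) (Y.lt δ') g
    rw [hg] at h2
    exact h2
  have h3 : ((c J : OC C) : C) = 0 := by
    refine cl_exists_ell (p := p) (h := h) fun ℓ => ?_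
    have h4 := hV _ (Y.ell_exact c h1 ℓ)
    exact congrFun h4 J
  exact Subtype.ext h3

end Crest.Agent.LT
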