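import Mathlib
import Crest.Agent.LT.ClosureB

/-! # K2, part (i): no linear part implies zero (row 227). -/

set_option autoImplicit false
set_option linter.unusedSectionVars false

namespace Crest.Agent.LT

open Crest.LubinTate MvPowerSeries

variable {p h r : ℕ} [Fact p.Prime]
variable {C : Type*} [NontriviallyNormedField C] [CompleteSpace C] [IsUltrametricDist C]
  [CharP C p] [IsAlgClosed C]

section gadd

variable {σ : Type*} [Finite σ] {R : Type*} [CommRing R]

/-- the group addition series in `2r` variables -/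
noncomputable def gadd (G : FormalGroup R) (k : σ) : MvPowerSeries (σ ⊕ σ) R :=
  MvPowerSeries.subst ![MvPowerSeries.X (Sum.inl k), MvPowerSeries.X (Sum.inr k)] G.toPowerSeries

theorem constantCoeff_gadd (G : FormalGroup R) (k : σ) :
    MvPowerSeries.constantCoeff (gadd G k) = 0 :=
  LT93.constantCoeff_op G (MvPowerSeries.constantCoeff_X _) (MvPowerSeries.constantCoeff_X _)

theorem cl_elim_lt {a b : σ → OC C} (ha : ∀ i, ‖a i‖ < 1) (hb : ∀ i, ‖b i‖ < 1) (i : σ ⊕ σ) :
    ‖(Sum.elim a b) i‖ < 1 := by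
  rcases i with i | i
  · exact ha i
  · exact hb i

theorem ev_gadd (G : FormalGroup R) (φ : R →+* OC C) {a b : σ → OC C} (ha : ∀ i, ‖a i‖ < 1)
    (hb : ∀ i, ‖b i‖ < 1) (k : σ) :
    ev φ (Sum.elim a b) (gadd G k) = op G φ (a k) (b k) := by
  have hab := cl_nil (cl_elim_lt ha hb)
  unfold gadd
  rw [ev_subst φ _ hab]
  · have h1 : (fun i => ev φ (Sum.elim a b)
        ((![MvPowerSeries.X (Sum.inl k), MvPowerSeries.X (Sum.inr k)] :
          Fin 2 → MvPowerSeries (σ ⊕ σ) R) i)) = ![a k, b k] := by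
      funext i
      fin_cases i
      · exact ev_X φ _ hab _
      · exact ev_X φ _ hab _
    rw [h1]
    rfl
  · intro i
    fin_cases i
    · exact MvPowerSeries.constantCoeff_X _
    · exact MvPowerSeries.constantCoeff_X _

theorem ev_subst_gadd (G : FormalGroup R) (φ : R →+* OC C) {a b : σ → OC C}
    (ha : ∀ i, ‖a i‖ < 1) (hb : ∀ i, ‖b i‖ < 1) (f : MvPowerSeries σ R) :
    ev φ (Sum.elim a b) (MvPowerSeries.subst (gadd G) f) =
      ev φ (fun k => op G φ (a k) (b k)) f := by
  rw [ev_subst φ _ (cl_nil (cl_elim_lt ha hb)) _ (constantCoeff_gadd G)]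
  congr 1
  funext k
  exact ev_gadd G φ ha hb k

end gadd

section taylor

variable {R : Type*} [CommRing R]

theorem cl_mon_erase (a : Fin r → C) (i : Fin r) (d : Fin r →₀ ℕ) :
    mon a d = (∏ k ∈ Finset.univ.erase i, a k ^ d k) * a i ^ d i := by
  rw [mon_fintype, mul_comm, Finset.mul_prod_erase Finset.univ (fun k => a k ^ d k)
    (Finset.mem_univ i)]

theorem cl_hasSum_pderiv (φ : R →+* OC C) {a : Fin r → OC C} (ha : ∀ i, ‖a i‖ < 1) (i : Fin r)
    (f : MvPowerSeries (Fin r) R) :
    HasSum (fun d : Fin r →₀ ℕ => ((φ (MvPowerSeries.coeff d f) : OC C) : C) *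
      ((∏ k ∈ Finset.univ.erase i, (a k : C) ^ d k) * ((d i : C) * (a i : C) ^ (d i - 1))))
      ((ev φ a (MvPowerSeries.pderiv R i f) : OC C) : C) := by
  classical
  have h1 := cl_hasSum φ ha (MvPowerSeries.pderiv R i f)
  have hinj : Function.Injective (fun d : Fin r →₀ ℕ => d + Finsupp.single i 1) :=
    fun d d' hdd => add_right_cancel hdd
  rw [← hinj.hasSum_iff]
  · convert h1 using 1
    funext d
    simp only [Function.comp_apply]
    rw [MvPowerSeries.coeff_pderiv, map_mul, cl_mon_erase _ i]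
    have h2 : (d + Finsupp.single i 1 : Fin r →₀ ℕ) i = d i + 1 := by simp
    have h3 : ∏ k ∈ Finset.univ.erase i, (a k : C) ^ ((d + Finsupp.single i 1 : Fin r →₀ ℕ) k) =
        ∏ k ∈ Finset.univ.erase i, (a k : C) ^ (d k) := by
      refine Finset.prod_congr rfl fun k hk => ?_
      have : k ≠ i := Finset.ne_of_mem_erase hk
      simp [this.symm]
    rw [h2, h3, Nat.add_sub_cancel]
    push_cast
    simp only [map_add, map_natCast, map_one]
    push_cast
    ring
  · intro d hd
    have h2 : d i = 0 := by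
      by_contra h0
      refine hd ⟨d - Finsupp.single i 1, ?_⟩
      ext k
      by_cases hk : k = i
      · subst hk
        simp
        omega
      · simp [Ne.symm hk]
    rw [h2]
    simp

theorem cl_taylor (φ : R →+* OC C) {a : Fin r → OC C} (ha : ∀ i, ‖a i‖ < 1) (i : Fin r)
    (t : OC C) (ht : ‖t‖ < 1) (f : MvPowerSeries (Fin r) R) :
    ‖ev φ (Function.update a i (a i + t)) f - ev φ a f -
      t * ev φ a (MvPowerSeries.pderiv R i f)‖ ≤ ‖t‖ ^ 2 := by
  classical
  have ha' : ∀ k, ‖Function.update a i (a i + t) k‖ < 1 := by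
    intro k
    by_cases hk : k = i
    · subst hk
      rw [Function.update_self]
      exact (IsUltrametricDist.norm_add_le_max _ _).trans_lt (max_lt (ha _) ht)
    · rw [Function.update_of_ne hk]
      exact ha k
  have h1 := cl_hasSum φ ha' f
  have h2 := cl_hasSum φ ha f
  have h3 := (cl_hasSum_pderiv φ ha i f).mul_left (t : C)
  have h4 := (h1.sub h2).sub h3
  refine cl_hasSum_norm_le h4 (by positivity) fun d => ?_
  obtain ⟨k, hk⟩ := Polynomial.powAddExpansion (a i) t (d i)
  have hk' : ((a i : C) + t) ^ (d i) = (a i : C) ^ (d i) + (d i : C) * (a i : C) ^ (d i - 1) * t +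
      (k : C) * (t : C) ^ 2 := by
    have := congrArg (fun x : OC C => (x : C)) hk
    push_cast at this
    exact this
  rw [cl_mon_erase _ i, cl_mon_erase _ i]
  have h5 : ∏ k ∈ Finset.univ.erase i, ((Function.update a i (a i + t) k : OC C) : C) ^ d k =
      ∏ k ∈ Finset.univ.erase i, (a k : C) ^ d k :=
    Finset.prod_congr rfl fun k hk => by
      rw [Function.update_of_ne (Finset.ne_of_mem_erase hk)]
  simp only [Function.update_self]
  rw [h5]
  push_cast
  rw [hk']
  have h6 : ((φ (MvPowerSeries.coeff d f) : OC C) : C) *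
      ((∏ k ∈ Finset.univ.erase i, (a k : C) ^ d k) *
        ((a i : C) ^ (d i) + (d i : C) * (a i : C) ^ (d i - 1) * t + (k : C) * (t : C) ^ 2)) -
      ((φ (MvPowerSeries.coeff d f) : OC C) : C) *
      ((∏ k ∈ Finset.univ.erase i, (a k : C) ^ d k) * (a i : C) ^ (d i)) -
      (t : C) * (((φ (MvPowerSeries.coeff d f) : OC C) : C) *
      ((∏ k ∈ Finset.univ.erase i, (a k : C) ^ d k) * ((d i : C) * (a i : C) ^ (d i - 1)))) =
      (((φ (MvPowerSeries.coeff d f) * (∏ k ∈ Finset.univ.erase i, (a k) ^ d k) * k : OC C)) : C) *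
        (t : C) ^ 2 := by
    push_cast
    ring
  rw [h6, norm_mul, norm_pow]
  have h7 := (φ (MvPowerSeries.coeff d f) * (∏ k ∈ Finset.univ.erase i, (a k) ^ d k) * k : OC C).2
  refine (mul_le_mul_of_nonneg_right h7 (by positivity)).trans (le_of_eq (one_mul _))

end taylor

variable {hh : 1 ≤ h} {G : FormalGroup (FQ C p h)} {𝒟 : Type*} [AddCommGroup 𝒟]

theorem cl_degree_lt_two (J : Fin r →₀ ℕ) (hJ : J.degree < 2) :
    J = 0 ∨ ∃ k, J = Finsupp.single k 1 := by
  by_cases h0 : J.degree = 0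
  · left
    exact (Finsupp.degree_eq_zero_iff _).1 h0
  · right
    have h1 : J ∈ {d : Fin r →₀ ℕ | d.degree = 1} := show J.degree = 1 by omega
    rw [← Finsupp.range_single_one] at h1
    obtain ⟨k, hk⟩ := h1
    exact ⟨k, hk.symm⟩

theorem YData.y_zero [G.IsComm] (Y : YData p h r C hh G 𝒟) (i : Fin r) : Y.y 0 i = 0 := by
  have h1 := Y.add 0 0 i
  rw [add_zero] at h1
  have h2 : Y.pt 0 i + Y.pt 0 i = Y.pt 0 i := by
    apply Subtype.ext
    rw [Pt.add_val]
    exact h1.symm
  have h3 : Y.pt 0 i = 0 := by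
    have := add_left_cancel (a := Y.pt 0 i) (b := Y.pt 0 i) (c := 0) (by rw [h2, add_zero])
    exact this
  have h4 := congrArg Subtype.val h3
  rw [Pt.zero_val] at h4
  exact h4

theorem FQ.incl_injective (hh : 1 ≤ h) :
    Function.Injective (FQ.incl (C := C) (p := p) hh) := by
  intro a b hab
  have h1 := congrArg (fun x : OC C => (x : C)) hab
  exact Subtype.ext h1

theorem YData.constantCoeff_of_van [G.IsComm] (Y : YData p h r C hh G 𝒟)
    {f : MvPowerSeries (Fin r) (FQ C p h)} (hf : Y.Van f) :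
    MvPowerSeries.constantCoeff f = 0 := by
  have h0 : ∀ i : Fin r, ‖(0 : Fin r → OC C) i‖ < 1 := fun i => by simp
  have h1 : Y.y 0 = 0 := funext fun i => Y.y_zero i
  have h2 := hf 0
  rw [h1] at h2
  have h3 := OC.norm_ev_le (FQ.incl hh) (0 : Fin r → OC C) (ρ := 0) le_rfl zero_lt_one
    (fun i => by simp) (f - MvPowerSeries.C (MvPowerSeries.constantCoeff f)) (M := 1) (N := 1)
    (fun d => OC.norm_le_one _) (fun d hd => by
      have : d = 0 := (Finsupp.degree_eq_zero_iff _).1 (by omega)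
      rw [this]
      simp)
  rw [pow_one, mul_zero] at h3
  have h4 := norm_le_zero_iff.1 h3
  rw [cl_ev_sub _ h0, h2, ev_C _ _ (cl_nil h0), zero_sub, neg_eq_zero] at h4
  exact FQ.incl_injective hh (by rw [h4, map_zero])

theorem cl_eq_zero_of_mul {x : OC C} (hx : ∀ t : OC C, ‖t‖ < 1 → ‖t * x‖ ≤ ‖t‖ ^ 2) : x = 0 := by
  by_contra h0
  have hpos : 0 < ‖(x : C)‖ := norm_pos_iff.2 fun h => h0 (Subtype.ext h)
  obtain ⟨t, ht0, ht1⟩ := NormedField.exists_norm_lt C (lt_min hpos zero_lt_one)
  have ht2 : ‖t‖ < 1 := ht1.trans_le (min_le_right _ _)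
  have h1 := hx ⟨t, ht2.le⟩ ht2
  have h2 : ‖t * (x : C)‖ ≤ ‖t‖ ^ 2 := h1
  rw [norm_mul, sq] at h2
  have h3 := le_of_mul_le_mul_left h2 ht0
  exact absurd (ht1.trans_le (min_le_left _ _)) (not_lt.2 h3)

/-- if no vanishing series has a nonzero linear term then the vanishing ideal is stable under
the partial derivatives -/
theorem YData.van_pderiv [G.IsComm] (Y : YData p h r C hh G 𝒟)
    (H : ∀ f, Y.Van f → ∀ i, MvPowerSeries.coeff (Finsupp.single i 1) f = 0)
    (f : MvPowerSeries (Fin r) (FQ C p h)) (hf : Y.Van f) (i : Fin r) :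
    Y.Van (MvPowerSeries.pderiv _ i f) := by
  classical
  intro δ
  let f2 : MvPowerSeries (Fin r ⊕ Fin r) (FQ C p h) := MvPowerSeries.subst (gadd G) f
  let c : (Fin r →₀ ℕ) → OC C := fun J => ev (FQ.incl hh) (Y.y δ) (slice J f2)
  have h1 : ∀ δ', HasSum (fun J => (c J : C) * mon (fun i => (Y.y δ' i : C)) J) 0 := by
    intro δ'
    have h2 := slice_hasSum (FQ.incl hh) (Y.lt δ) (Y.lt δ') f2
    have h3 : ev (FQ.incl hh) (Sum.elim (Y.y δ) (Y.y δ')) f2 = 0 := by
      show ev (FQ.incl hh) (Sum.elim (Y.y δ) (Y.y δ')) (MvPowerSeries.subst (gadd G) f) = 0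
      rw [ev_subst_gadd G _ (Y.lt δ) (Y.lt δ')]
      have h4 : (fun k => op G (FQ.incl hh) (Y.y δ k) (Y.y δ' k)) = Y.y (δ + δ') :=
        funext fun k => (Y.add δ δ' k).symm
      rw [h4]
      exact hf _
    rw [h3] at h2
    exact h2
  have hc0 : ∀ J : Fin r →₀ ℕ, J.degree < 2 → (c J : C) = 0 := by
    intro J hJ
    refine cl_exists_ell (p := p) (h := h) fun ℓ => ?_
    have h4 := Y.ell_exact c h1 ℓ
    rcases cl_degree_lt_two J hJ with rfl | ⟨k, rfl⟩
    · exact Y.constantCoeff_of_van h4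
    · exact H _ h4 k
  have h2 : ∀ b : Fin r → OC C, (∀ k, ‖b k‖ < 1) → ∀ t : ℝ, 0 ≤ t → t < 1 → (∀ k, ‖b k‖ ≤ t) →
      ‖ev (FQ.incl hh) (fun k => op G (FQ.incl hh) (Y.y δ k) (b k)) f‖ ≤ t ^ 2 := by
    intro b hb t ht0 ht1 hbt
    have h3 := slice_hasSum (FQ.incl hh) (Y.lt δ) hb f2
    have h4 : ev (FQ.incl hh) (Sum.elim (Y.y δ) b) f2 =
        ev (FQ.incl hh) (fun k => op G (FQ.incl hh) (Y.y δ k) (b k)) f :=
      ev_subst_gadd G _ (Y.lt δ) hb f
    rw [h4] at h3
    refine cl_hasSum_norm_le h3 (by positivity) fun J => ?_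
    by_cases hJ : J.degree < 2
    · have h5 : (c J : C) = 0 := hc0 J hJ
      have h6 : ((ev (FQ.incl hh) (Y.y δ) (slice J f2) : OC C) : C) = 0 := h5
      rw [h6, zero_mul, norm_zero]
      positivity
    · rw [norm_mul]
      have h5 : ‖mon (fun i => (b i : C)) J‖ ≤ t ^ J.degree := norm_mon_le hbt J
      calc _ ≤ 1 * t ^ 2 := mul_le_mul (OC.norm_le_one _)
            (h5.trans (pow_le_pow_of_le_one ht0 ht1.le (by omega))) (norm_nonneg _) zero_le_one
        _ = _ := one_mul _
  refine cl_eq_zero_of_mul fun t ht => ?_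
  have h3 := cl_taylor (FQ.incl hh) (Y.lt δ) i t ht f
  rw [hf δ, sub_zero] at h3
  -- the perturbed point
  have hw : ∀ k, ‖Function.update (Y.y δ) i (Y.y δ i + t) k‖ < 1 := by
    intro k
    by_cases hk : k = i
    · subst hk
      rw [Function.update_self]
      exact (IsUltrametricDist.norm_add_le_max _ _).trans_lt (max_lt (Y.lt δ _) ht)
    · rw [Function.update_of_ne hk]
      exact Y.lt δ k
  let pw : Fin r → Pt G (FQ.incl (C := C) (p := p) hh) := fun k =>
    ⟨Function.update (Y.y δ) i (Y.y δ i + t) k, (OC.isTopologicallyNilpotent_iff _).2 (hw k)⟩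
  let b : Fin r → OC C := fun k => (pw k - Y.pt δ k).1
  have hb : ∀ k, ‖b k‖ < 1 := fun k =>
    (OC.isTopologicallyNilpotent_iff _).1 (pw k - Y.pt δ k).2
  have hb1 : ∀ k, op G (FQ.incl hh) (b k) (Y.y δ k) = (pw k).1 := by
    intro k
    have h5 : (pw k - Y.pt δ k) + Y.pt δ k = pw k := sub_add_cancel _ _
    have h6 := congrArg Subtype.val h5
    rw [Pt.add_val] at h6
    exact h6
  have hb2 : ∀ k, op G (FQ.incl hh) (Y.y δ k) (b k) = (pw k).1 := by
    intro k
    have h5 : Y.pt δ k + (pw k - Y.pt δ k) = pw k := add_sub_cancel _ _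
    have h6 := congrArg Subtype.val h5
    rw [Pt.add_val] at h6
    exact h6
  have hb3 : ∀ k, ‖b k‖ ≤ ‖t‖ := by
    intro k
    rw [OC.norm_eq_of_op_eq G (FQ.incl hh) (pw k).1 (Y.y δ k) (b k) (hw k) (Y.lt δ k) (hb k)
      (hb1 k)]
    show ‖Function.update (Y.y δ) i (Y.y δ i + t) k - Y.y δ k‖ ≤ ‖t‖
    by_cases hk : k = i
    · subst hk
      rw [Function.update_self, add_sub_cancel_left]
    · rw [Function.update_of_ne hk, sub_self, norm_zero]
      exact norm_nonneg _
  have h4 := h2 b hb ‖t‖ (norm_nonneg _) ht hb3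
  have h5 : (fun k => op G (FQ.incl hh) (Y.y δ k) (b k)) =
      Function.update (Y.y δ) i (Y.y δ i + t) := funext fun k => hb2 k
  rw [h5] at h4
  have h6 : t * ev (FQ.incl hh) (Y.y δ) (MvPowerSeries.pderiv _ i f) =
      ev (FQ.incl hh) (Function.update (Y.y δ) i (Y.y δ i + t)) f -
      (ev (FQ.incl hh) (Function.update (Y.y δ) i (Y.y δ i + t)) f -
        t * ev (FQ.incl hh) (Y.y δ) (MvPowerSeries.pderiv _ i f)) := by ring
  rw [h6, sub_eq_add_neg]
  refine (IsUltrametricDist.norm_add_le_max _ _).trans (max_le h4 ?_)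
  rw [norm_neg]
  exact h3

theorem YData.van_zero (Y : YData p h r C hh G 𝒟) : Y.Van 0 := fun δ => cl_ev_zero _ (Y.lt δ)

theorem YData.van_mul {Y : YData p h r C hh G 𝒟} (g : MvPowerSeries (Fin r) (FQ C p h))
    {f : MvPowerSeries (Fin r) (FQ C p h)} (hf : Y.Van f) : Y.Van (g * f) := fun δ => by
  rw [cl_ev_mul _ (Y.lt δ), hf δ, mul_zero]

theorem YData.van_sub {Y : YData p h r C hh G 𝒟}
    {f g : MvPowerSeries (Fin r) (FQ C p h)} (hf : Y.Van f) (hg : Y.Van g) : Y.Van (f - g) :=
  fun δ => by rw [cl_ev_sub _ (Y.lt δ), hf δ, hg δ, sub_zero]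

/-- multiply the coefficient of `Y^d` by `w d` -/
def wt {R : Type*} [CommRing R] (w : (Fin r →₀ ℕ) → R) (f : MvPowerSeries (Fin r) R) :
    MvPowerSeries (Fin r) R := fun d => w d * MvPowerSeries.coeff d f

theorem coeff_wt {R : Type*} [CommRing R] (w : (Fin r →₀ ℕ) → R) (f : MvPowerSeries (Fin r) R)
    (d : Fin r →₀ ℕ) : MvPowerSeries.coeff d (wt w f) = w d * MvPowerSeries.coeff d f := rfl

theorem X_mul_pderiv {R : Type*} [CommRing R] (f : MvPowerSeries (Fin r) R) (i : Fin r) :
    MvPowerSeries.X i * MvPowerSeries.pderiv R i f = wt (fun d => (d i : R)) f := by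
  classical
  ext d
  rw [coeff_wt]
  by_cases h0 : d i = 0
  · rw [h0, Nat.cast_zero, zero_mul]
    have : ¬ Finsupp.single i 1 ≤ d := by
      rw [Finsupp.single_le_iff]
      omega
    rw [MvPowerSeries.X, MvPowerSeries.coeff_monomial_mul, if_neg this]
  · have hle : Finsupp.single i 1 ≤ d := by
      rw [Finsupp.single_le_iff]
      omega
    rw [MvPowerSeries.X, MvPowerSeries.coeff_monomial_mul, if_pos hle, one_mul,
      MvPowerSeries.coeff_pderiv, tsub_add_cancel_of_le hle, mul_comm]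
    congr 1
    have h1 : ((d - Finsupp.single i 1 : Fin r →₀ ℕ)) i = d i - 1 := by simp
    rw [h1]
    have h2 : d i = (d i - 1) + 1 := by omega
    conv_rhs => rw [h2]
    push_cast
    rfl

/-- (i): no linear part implies zero -/
theorem YData.eq_zero_of_lin [G.IsComm] (Y : YData p h r C hh G 𝒟)
    (H : ∀ f, Y.Van f → ∀ i, MvPowerSeries.coeff (Finsupp.single i 1) f = 0)
    (f : MvPowerSeries (Fin r) (FQ C p h)) (hf : Y.Van f) : f = 0 := by
  classical
  have hpp : p.Prime := Fact.out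
  by_contra hne
  have hex : ∃ n : ℕ, ∃ f : MvPowerSeries (Fin r) (FQ C p h), Y.Van f ∧
      ∃ I : Fin r →₀ ℕ, I.degree = n ∧ MvPowerSeries.coeff I f ≠ 0 := by
    by_contra hcon
    push Not at hcon
    refine hne ?_
    ext I
    rw [hcon I.degree f hf I rfl, map_zero]
  obtain ⟨f, hf, I, hIn, hI⟩ := Nat.find_spec hex
  have hmin : ∀ g : MvPowerSeries (Fin r) (FQ C p h), Y.Van g → ∀ J : Fin r →₀ ℕ,
      J.degree < I.degree → MvPowerSeries.coeff J g = 0 := by
    intro g hg J hJ
    by_contra hJ0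
    rw [hIn] at hJ
    exact Nat.find_min hex hJ ⟨g, hg, J, rfl, hJ0⟩
  -- (a)
  have hIp : ∀ i, ((I i : ℕ) : FQ C p h) = 0 := by
    intro i
    by_contra h0
    have h1 : I i ≠ 0 := by
      intro h; rw [h] at h0; exact h0 Nat.cast_zero
    have hle : Finsupp.single i 1 ≤ I := by
      rw [Finsupp.single_le_iff]
      omega
    have h2 := hmin _ (Y.van_pderiv H f hf i) (I - Finsupp.single i 1) (by
      have h3 : (I - Finsupp.single i 1) + Finsupp.single i 1 = I := tsub_add_cancel_of_le hle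
      have h4 := congrArg Finsupp.degree h3
      rw [map_add, Finsupp.degree_single] at h4
      omega)
    rw [MvPowerSeries.coeff_pderiv, tsub_add_cancel_of_le hle] at h2
    have h5 : ((I - Finsupp.single i 1 : Fin r →₀ ℕ)) i = I i - 1 := by simp
    rw [h5] at h2
    have h6 : (((I i - 1 : ℕ) : FQ C p h) + 1) = ((I i : ℕ) : FQ C p h) := by
      have h7 : I i = (I i - 1) + 1 := by omega
      conv_rhs => rw [h7]
      push_cast
      rfl
    rw [h6] at h2
    rcases mul_eq_zero.1 h2 with h7 | h7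
    · exact hI h7
    · exact h0 h7
  -- (b)
  have hθ : ∀ (i : Fin r) (g : MvPowerSeries (Fin r) (FQ C p h)), Y.Van g →
      Y.Van (wt (fun d => ((d i : ℕ) : FQ C p h)) g) := by
    intro i g hg
    rw [← X_mul_pderiv]
    exact Y.van_mul _ (Y.van_pderiv H g hg i)
  have hθn : ∀ (i : Fin r) (n : ℕ) (g : MvPowerSeries (Fin r) (FQ C p h)), Y.Van g →
      Y.Van (wt (fun d => ((d i : ℕ) : FQ C p h) ^ n) g) := by
    intro i n
    induction n with
    | zero =>
      intro g hg
      convert hg using 1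
      ext d
      rw [coeff_wt, pow_zero, one_mul]
    | succ n ih =>
      intro g hg
      convert ih _ (hθ i g hg) using 1
      ext d
      rw [coeff_wt, coeff_wt, coeff_wt, pow_succ, mul_assoc]
  have hproj : ∀ s : Finset (Fin r), Y.Van (wt (fun d =>
      if ∀ i ∈ s, ((d i : ℕ) : FQ C p h) = 0 then 1 else 0) f) := by
    intro s
    induction s using Finset.induction_on with
    | empty =>
      convert hf using 1
      ext d
      rw [coeff_wt, if_pos (by simp), one_mul]
    | insert i s _ ih =>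
      convert Y.van_sub ih (hθn i (p - 1) _ ih) using 1
      ext d
      simp only [map_sub, coeff_wt]
      have hfer : ((d i : ℕ) : FQ C p h) ^ (p - 1) =
          if ((d i : ℕ) : FQ C p h) = 0 then 0 else 1 := by
        by_cases h0 : ((d i : ℕ) : FQ C p h) = 0
        · rw [if_pos h0, h0, zero_pow (by have := hpp.two_le; omega)]
        · rw [if_neg h0]
          have hch : CharP (FQ C p h) p := by
            refine (RingHom.charP_iff (FQ C p h).subtype Subtype.val_injective p).2 inferInstance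
          have h1 : ((d i : ℕ) : ZMod p) ≠ 0 := by
            intro h1
            apply h0
            have h2 := congrArg (ZMod.castHom (dvd_refl p) (FQ C p h)) h1
            rw [map_natCast, map_zero] at h2
            exact h2
          have h2 := ZMod.pow_card_sub_one_eq_one h1
          have h3 := congrArg (ZMod.castHom (dvd_refl p) (FQ C p h)) h2
          rw [map_pow, map_natCast, map_one] at h3
          exact h3
      rw [hfer]
      by_cases hi : ((d i : ℕ) : FQ C p h) = 0
      · rw [if_pos hi, zero_mul, sub_zero]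
        simp only [Finset.forall_mem_insert, hi, true_and]
      · rw [if_neg hi, one_mul, sub_self, if_neg, zero_mul]
        intro hall
        exact hi (hall i (Finset.mem_insert_self _ _))
  have hch : CharP (FQ C p h) p :=
    (RingHom.charP_iff (FQ C p h).subtype Subtype.val_injective p).2 inferInstance
  have hfin : Finite (FQ C p h) := FQ.finite hh
  let f0 : MvPowerSeries (Fin r) (FQ C p h) := wt (fun d =>
      if ∀ i ∈ Finset.univ, ((d i : ℕ) : FQ C p h) = 0 then 1 else 0) f
  have hf0 : Y.Van f0 := hproj Finset.univ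
  have hroot : ∀ x : FQ C p h, ∃ y : FQ C p h, y ^ p = x := by
    intro x
    have h1 : Function.Surjective (frobenius (FQ C p h) p) :=
      Finite.surjective_of_injective (frobenius_inj _ p)
    obtain ⟨y, hy⟩ := h1 x
    exact ⟨y, hy⟩
  choose rt hrt using hroot
  let g : MvPowerSeries (Fin r) (FQ C p h) := fun J => rt (MvPowerSeries.coeff (p • J) f0)
  have hg : ∀ J, MvPowerSeries.coeff J g = rt (MvPowerSeries.coeff (p • J) f0) := fun _ => rfl
  have hgp : g ^ p = f0 := by
    rw [← MvPowerSeries.map_frobenius_expand p hpp.ne_zero]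
    ext d
    rw [MvPowerSeries.coeff_map]
    by_cases hd : ∀ i, p ∣ d i
    · obtain ⟨J, rfl⟩ : ∃ J : Fin r →₀ ℕ, d = p • J := by
        refine ⟨d.mapRange (fun n => n / p) (Nat.zero_div p), ?_⟩
        ext i
        simp [Nat.mul_div_cancel' (hd i)]
      rw [MvPowerSeries.coeff_expand_smul, hg]
      exact congrArg _ (hrt _)
    · push Not at hd
      obtain ⟨i, hi⟩ := hd
      rw [MvPowerSeries.coeff_expand_of_not_dvd p hpp.ne_zero _ hi, map_zero]
      have h1 : MvPowerSeries.coeff d f0 = 0 := by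
        rw [coeff_wt, if_neg, zero_mul]
        intro hall
        exact hi ((CharP.cast_eq_zero_iff (FQ C p h) p _).1 (hall i (Finset.mem_univ _)))
      rw [h1]
  have hgV : Y.Van g := by
    intro δ
    have h1 := hf0 δ
    rw [← hgp, cl_ev_pow _ (Y.lt δ)] at h1
    exact pow_eq_zero_iff hpp.ne_zero |>.1 h1
  have hIdvd : ∀ i, p ∣ I i := fun i => (CharP.cast_eq_zero_iff (FQ C p h) p _).1 (hIp i)
  obtain ⟨J, hJ⟩ : ∃ J : Fin r →₀ ℕ, I = p • J := by
    refine ⟨I.mapRange (fun n => n / p) (Nat.zero_div p), ?_⟩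
    ext i
    simp [Nat.mul_div_cancel' (hIdvd i)]
  have hcI : MvPowerSeries.coeff (p • J) f0 ≠ 0 := by
    rw [← hJ, coeff_wt, if_pos (fun i _ => hIp i), one_mul]
    exact hI
  have hcJ : MvPowerSeries.coeff J g ≠ 0 := by
    intro h0
    rw [hg] at h0
    apply hcI
    rw [← hrt (MvPowerSeries.coeff (p • J) f0), h0, zero_pow hpp.ne_zero]
  have hdeg : I.degree = p * J.degree := by
    rw [hJ, map_nsmul, smul_eq_mul]
  by_cases h0 : J.degree = 0
  · have h1 : I = 0 := (Finsupp.degree_eq_zero_iff _).1 (by rw [hdeg, h0, mul_zero])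
    apply hI
    rw [h1]
    exact Y.constantCoeff_of_van hf
  · refine hcJ (hmin g hgV J ?_)
    rw [hdeg]
    have := hpp.two_le
    nlinarith [Nat.pos_of_ne_zero h0]

end Crest.Agent.LT
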