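import Mathlib
import Crest.Agent.LT.ClosureC

/-! # K2, part (ii): elimination of a variable with nonzero linear coefficient (row 227). -/

set_option autoImplicit false
set_option linter.unusedSectionVars false

namespace Crest.Agent.LT

open Crest.LubinTate MvPowerSeries

variable {p h r : ℕ} [Fact p.Prime]
variable {C : Type*} [NontriviallyNormedField C] [CompleteSpace C] [IsUltrametricDist C]
  [CharP C p] [IsAlgClosed C]

section alg

variable {R : Type*} [CommRing R]

/-- the ideal of series without constant term -/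
noncomputable def clm (r : ℕ) (R : Type*) [CommRing R] : Ideal (MvPowerSeries (Fin r) R) :=
  RingHom.ker (MvPowerSeries.constantCoeff (σ := Fin r) (R := R))

theorem mem_clm {f : MvPowerSeries (Fin r) R} : f ∈ clm r R ↔ MvPowerSeries.constantCoeff f = 0 :=
  RingHom.mem_ker

theorem cl_exists_sum (f : MvPowerSeries (Fin r) R) (hf : f ∈ clm r R) :
    ∃ g : Fin r → MvPowerSeries (Fin r) R, f = ∑ k, MvPowerSeries.X k * g k := by
  classical
  have hex : ∀ d : Fin r →₀ ℕ, ∃ i : Option (Fin r), (d ≠ 0 → ∃ j, i = some j ∧ d j ≠ 0) := by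
    intro d
    by_cases hd : d = 0
    · exact ⟨none, fun h => absurd hd h⟩
    · obtain ⟨j, hj⟩ := Finsupp.ne_iff.1 hd
      exact ⟨some j, fun _ => ⟨j, rfl, by simpa using hj⟩⟩
  choose i hi using hex
  let g : Fin r → MvPowerSeries (Fin r) R := fun s =>
    (fun e => if i (e + Finsupp.single s 1) = some s then
      MvPowerSeries.coeff (e + Finsupp.single s 1) f else 0)
  refine ⟨g, ?_⟩
  ext d
  rw [map_sum]
  have h1 : ∀ s : Fin r, MvPowerSeries.coeff d (MvPowerSeries.X s * g s) =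
      if i d = some s then MvPowerSeries.coeff d f else 0 := by
    intro s
    by_cases hle : Finsupp.single s 1 ≤ d
    · rw [MvPowerSeries.X, MvPowerSeries.coeff_monomial_mul, if_pos hle, one_mul]
      show (if i (d - Finsupp.single s 1 + Finsupp.single s 1) = some s then
        MvPowerSeries.coeff (d - Finsupp.single s 1 + Finsupp.single s 1) f else 0) = _
      rw [tsub_add_cancel_of_le hle]
    · rw [MvPowerSeries.X, MvPowerSeries.coeff_monomial_mul, if_neg hle]
      rw [Finsupp.single_le_iff] at hle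
      by_cases hd : d = 0
      · subst hd
        have : MvPowerSeries.coeff 0 f = 0 := mem_clm.1 hf
        rw [this, ite_self]
      · rw [if_neg]
        intro hcon
        obtain ⟨j, hj1, hj2⟩ := hi d hd
        rw [hj1] at hcon
        have : j = s := Option.some_injective _ hcon
        subst this
        omega
  rw [Finset.sum_congr rfl fun s _ => h1 s]
  by_cases hd : d = 0
  · subst hd
    have : MvPowerSeries.coeff 0 f = 0 := mem_clm.1 hf
    rw [this]
    simp
  · obtain ⟨j, hj1, _⟩ := hi d hd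
    rw [hj1]
    simp

theorem X_mem_clm (k : Fin r) : (MvPowerSeries.X k : MvPowerSeries (Fin r) R) ∈ clm r R :=
  mem_clm.2 (MvPowerSeries.constantCoeff_X k)

theorem cl_mem_sq (f : MvPowerSeries (Fin r) R) (h0 : f ∈ clm r R)
    (h1 : ∀ k, MvPowerSeries.coeff (Finsupp.single k 1) f = 0) : f ∈ clm r R ^ 2 := by
  classical
  obtain ⟨g, hg⟩ := cl_exists_sum f h0
  rw [hg]
  refine Ideal.sum_mem _ fun k _ => ?_
  rw [sq]
  refine Ideal.mul_mem_mul (X_mem_clm k) (mem_clm.2 ?_)
  have h2 := h1 k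
  rw [hg, map_sum] at h2
  rw [Finset.sum_eq_single k] at h2
  · rw [MvPowerSeries.X, MvPowerSeries.coeff_monomial_mul, if_pos le_rfl, one_mul,
      tsub_self] at h2
    exact h2
  · intro j _ hj
    rw [MvPowerSeries.X, MvPowerSeries.coeff_monomial_mul, if_neg]
    rw [Finsupp.single_le_iff, Finsupp.single_apply, if_neg hj.symm]
    omega
  · intro h; exact absurd (Finset.mem_univ _) h

/-- a subring containing the constants and `𝔪^n`, and generating `𝔪` modulo `𝔪²`, is everything -/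
theorem cl_subring_top (S : Subring (MvPowerSeries (Fin r) R)) (n : ℕ)
    (hC : ∀ c, MvPowerSeries.C c ∈ S) (hn : ∀ f ∈ clm r R ^ n, f ∈ S)
    (hX : ∀ k, ∃ s ∈ S, MvPowerSeries.X k - s ∈ clm r R ^ 2) (g : MvPowerSeries (Fin r) R) :
    g ∈ S := by
  -- `𝔪 ⊆ S + 𝔪²`
  have h1 : ∀ a ∈ clm r R, ∃ s ∈ S, a - s ∈ clm r R ^ 2 := by
    intro a ha
    obtain ⟨b, hb⟩ := cl_exists_sum a ha
    choose s hs hs2 using hX
    refine ⟨∑ k, MvPowerSeries.C (MvPowerSeries.constantCoeff (b k)) * s k,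
      Subring.sum_mem _ fun k _ => S.mul_mem (hC _) (hs k), ?_⟩
    rw [hb, ← Finset.sum_sub_distrib]
    refine Ideal.sum_mem _ fun k _ => ?_
    have e1 : MvPowerSeries.X k * b k - MvPowerSeries.C (MvPowerSeries.constantCoeff (b k)) * s k =
        MvPowerSeries.X k * (b k - MvPowerSeries.C (MvPowerSeries.constantCoeff (b k))) +
        MvPowerSeries.C (MvPowerSeries.constantCoeff (b k)) * (MvPowerSeries.X k - s k) := by ring
    rw [e1]
    refine Ideal.add_mem _ ?_ (Ideal.mul_mem_left _ _ (hs2 k))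
    rw [sq]
    refine Ideal.mul_mem_mul (X_mem_clm k) (mem_clm.2 ?_)
    rw [map_sub, MvPowerSeries.constantCoeff_C, sub_self]
  have h2 : ∀ j : ℕ, ∀ a ∈ clm r R ^ (j + 1), ∃ s ∈ S, a - s ∈ clm r R ^ (j + 2) := by
    intro j
    induction j with
    | zero =>
      intro a ha
      rw [zero_add, pow_one] at ha
      exact h1 a ha
    | succ j ih =>
      intro a ha
      rw [pow_succ'] at ha
      refine Submodule.mul_induction_on ha ?_ ?_
      · intro x hx y hy
        obtain ⟨s, hs, hs2⟩ := h1 x hx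
        obtain ⟨s', hs', hs2'⟩ := ih y hy
        refine ⟨s * s', S.mul_mem hs hs', ?_⟩
        have e1 : x * y - s * s' = (x - s) * y + s * (y - s') := by ring
        rw [e1]
        refine Ideal.add_mem _ ?_ ?_
        · have := Ideal.mul_mem_mul hs2 hy
          rwa [← pow_add, show 2 + (j + 1) = j + 1 + 2 by ring] at this
        · have hs3 : s ∈ clm r R := by
            have h3 : s = x - (x - s) := by ring
            rw [h3]
            exact Ideal.sub_mem _ hx (Ideal.pow_le_self two_ne_zero hs2)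
          have := Ideal.mul_mem_mul hs3 hs2'
          rwa [← pow_succ', show j + 2 + 1 = j + 1 + 2 by ring] at this
      · rintro x y ⟨s, hs, hs2⟩ ⟨s', hs', hs2'⟩
        refine ⟨s + s', S.add_mem hs hs', ?_⟩
        have e1 : x + y - (s + s') = (x - s) + (y - s') := by ring
        rw [e1]
        exact Ideal.add_mem _ hs2 hs2'
  have h3 : ∀ j : ℕ, ∃ s ∈ S, g - s ∈ clm r R ^ (j + 1) := by
    intro j
    induction j with
    | zero =>
      refine ⟨MvPowerSeries.C (MvPowerSeries.constantCoeff g), hC _, ?_⟩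
      rw [zero_add, pow_one, mem_clm, map_sub, MvPowerSeries.constantCoeff_C, sub_self]
    | succ j ih =>
      obtain ⟨s, hs, hs2⟩ := ih
      obtain ⟨s', hs', hs2'⟩ := h2 j _ hs2
      exact ⟨s + s', S.add_mem hs hs', by rwa [← sub_sub]⟩
  obtain ⟨s, hs, hs2⟩ := h3 n
  have h4 : g = s + (g - s) := by ring
  rw [h4]
  exact S.add_mem hs (hn _ (Ideal.pow_le_pow_right (Nat.le_succ n) hs2))

end alg

variable {hh : 1 ≤ h} {G : FormalGroup (FQ C p h)} {𝒟 : Type*} [AddCommGroup 𝒟]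

theorem YData.norm_ev_le_of_mem_pow (Y : YData p h r C hh G 𝒟) (δ : 𝒟) (n : ℕ)
    (f : MvPowerSeries (Fin r) (FQ C p h)) (hf : f ∈ clm r (FQ C p h) ^ n) :
    ‖ev (FQ.incl hh) (Y.y δ) f‖ ≤ ‖Y.y δ‖ ^ n := by
  induction n generalizing f with
  | zero =>
    rw [pow_zero]
    exact OC.norm_le_one _
  | succ n ih =>
    rw [pow_succ'] at hf
    refine Submodule.mul_induction_on hf ?_ ?_
    · intro x hx y hy
      rw [cl_ev_mul _ (Y.lt δ), pow_succ']
      have h1 : ‖ev (FQ.incl hh) (Y.y δ) x‖ ≤ ‖Y.y δ‖ := by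
        have := Y.norm_ev_le δ 1 x (fun d hd => by
          have : d = 0 := (Finsupp.degree_eq_zero_iff _).1 (by omega)
          rw [this]
          exact mem_clm.1 hx)
        rwa [pow_one] at this
      calc ‖ev (FQ.incl hh) (Y.y δ) x * ev (FQ.incl hh) (Y.y δ) y‖ =
            ‖ev (FQ.incl hh) (Y.y δ) x‖ * ‖ev (FQ.incl hh) (Y.y δ) y‖ := norm_mul (_ : C) _
        _ ≤ _ := mul_le_mul h1 (ih y hy) (norm_nonneg _) (norm_nonneg _)
    · intro x y hx hy
      rw [cl_ev_add _ (Y.lt δ)]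
      exact (IsUltrametricDist.norm_add_le_max _ _).trans (max_le hx hy)

/-- restriction of the orbit to a subset of the coordinates -/
def YData.sub (Y : YData p h r C hh G 𝒟) {c : ℕ} (K : Fin c ↪ Fin r) : YData p h c C hh G 𝒟 where
  y δ k := Y.y δ (K k)
  lt δ k := Y.lt δ (K k)
  add δ δ' k := Y.add δ δ' (K k)
  frob δ := by
    obtain ⟨δ', h1⟩ := Y.frob δ
    exact ⟨δ', fun k => h1 (K k)⟩

theorem YData.norm_sub_le (Y : YData p h r C hh G 𝒟) {c : ℕ} (K : Fin c ↪ Fin r) (δ : 𝒟) :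
    ‖(Y.sub K).y δ‖ ≤ ‖Y.y δ‖ :=
  (pi_norm_le_iff_of_nonneg (norm_nonneg _)).2 fun k => norm_le_pi_norm (Y.y δ) (K k)

/-- elimination: if `f` vanishes on the orbit and has nonzero coefficient at `Y_{k0}` then every
function of the orbit is a function of the other coordinates -/
theorem YData.elim_var {c : ℕ} (Y : YData p h (c + 1) C hh G 𝒟)
    (f : MvPowerSeries (Fin (c + 1)) (FQ C p h)) (hf : Y.Van f) (hf0 : f ∈ clm (c + 1) (FQ C p h))
    (k0 : Fin (c + 1)) (hk0 : MvPowerSeries.coeff (Finsupp.single k0 1) f ≠ 0)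
    (g : MvPowerSeries (Fin (c + 1)) (FQ C p h)) :
    ∃ ψ : MvPowerSeries (Fin c) (FQ C p h), ∀ δ, ev (FQ.incl hh) (Y.y δ) g =
      ev (FQ.incl hh) ((Y.sub k0.succAboveEmb).y δ) ψ := by
  classical
  have hfin : Finite (FQ C p h) := FQ.finite hh
  set Z := Y.sub k0.succAboveEmb with hZ
  -- approximation
  have happ : ∀ (n : ℕ) (g : MvPowerSeries (Fin (c + 1)) (FQ C p h)),
      ∃ ψ : MvPowerSeries (Fin c) (FQ C p h), ∀ δ, ‖ev (FQ.incl hh) (Y.y δ) g -
        ev (FQ.incl hh) (Z.y δ) ψ‖ ≤ ‖Y.y δ‖ ^ n := by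
    intro n
    let S : Subring (MvPowerSeries (Fin (c + 1)) (FQ C p h)) :=
      { carrier := {g | ∃ ψ : MvPowerSeries (Fin c) (FQ C p h), ∀ δ,
          ‖ev (FQ.incl hh) (Y.y δ) g - ev (FQ.incl hh) (Z.y δ) ψ‖ ≤ ‖Y.y δ‖ ^ n}
        mul_mem' := by
          rintro a b ⟨ψ, hψ⟩ ⟨ψ', hψ'⟩
          refine ⟨ψ * ψ', fun δ => ?_⟩
          rw [cl_ev_mul _ (Y.lt δ), cl_ev_mul _ (Z.lt δ)]
          have e1 : ev (FQ.incl hh) (Y.y δ) a * ev (FQ.incl hh) (Y.y δ) b -
              ev (FQ.incl hh) (Z.y δ) ψ * ev (FQ.incl hh) (Z.y δ) ψ' =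
              (ev (FQ.incl hh) (Y.y δ) a - ev (FQ.incl hh) (Z.y δ) ψ) *
                ev (FQ.incl hh) (Y.y δ) b +
              ev (FQ.incl hh) (Z.y δ) ψ * (ev (FQ.incl hh) (Y.y δ) b -
                ev (FQ.incl hh) (Z.y δ) ψ') := by ring
          rw [e1]
          have hm : ∀ x y : OC C, ‖x * y‖ = ‖x‖ * ‖y‖ := fun x y => norm_mul (x : C) y
          refine (IsUltrametricDist.norm_add_le_max _ _).trans (max_le ?_ ?_)
          · rw [hm]
            calc _ ≤ ‖Y.y δ‖ ^ n * 1 := mul_le_mul (hψ δ) (OC.norm_le_one _) (norm_nonneg _)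
                  (by positivity)
              _ = _ := mul_one _
          · rw [hm]
            calc _ ≤ 1 * ‖Y.y δ‖ ^ n := mul_le_mul (OC.norm_le_one _) (hψ' δ) (norm_nonneg _)
                  zero_le_one
              _ = _ := one_mul _
        one_mem' := ⟨1, fun δ => by
          rw [← evHom_apply _ _ (cl_nil (Y.lt δ)), ← evHom_apply _ _ (cl_nil (Z.lt δ)), map_one,
            map_one, sub_self, norm_zero]
          positivity⟩
        add_mem' := by
          rintro a b ⟨ψ, hψ⟩ ⟨ψ', hψ'⟩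
          refine ⟨ψ + ψ', fun δ => ?_⟩
          rw [cl_ev_add _ (Y.lt δ), cl_ev_add _ (Z.lt δ), add_sub_add_comm]
          exact (IsUltrametricDist.norm_add_le_max _ _).trans (max_le (hψ δ) (hψ' δ))
        zero_mem' := ⟨0, fun δ => by
          rw [cl_ev_zero _ (Y.lt δ), cl_ev_zero _ (Z.lt δ), sub_self, norm_zero]
          positivity⟩
        neg_mem' := by
          rintro a ⟨ψ, hψ⟩
          refine ⟨-ψ, fun δ => ?_⟩
          rw [← zero_sub a, ← zero_sub ψ, cl_ev_sub _ (Y.lt δ), cl_ev_sub _ (Z.lt δ),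
            cl_ev_zero _ (Y.lt δ), cl_ev_zero _ (Z.lt δ), zero_sub, zero_sub, neg_sub_neg,
            norm_sub_rev]
          exact hψ δ }
    have hSmem : ∀ g, g ∈ S ↔ ∃ ψ : MvPowerSeries (Fin c) (FQ C p h), ∀ δ,
          ‖ev (FQ.incl hh) (Y.y δ) g - ev (FQ.incl hh) (Z.y δ) ψ‖ ≤ ‖Y.y δ‖ ^ n := fun g => Iff.rfl
    have hSC : ∀ c', MvPowerSeries.C c' ∈ S := fun c' => ⟨MvPowerSeries.C c', fun δ => by
      rw [ev_C _ _ (cl_nil (Y.lt δ)), ev_C _ _ (cl_nil (Z.lt δ)), sub_self, norm_zero]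
      positivity⟩
    have hSX : ∀ k, k ≠ k0 → MvPowerSeries.X k ∈ S := by
      intro k hk
      obtain ⟨j, rfl⟩ := Fin.exists_succAbove_eq hk
      refine ⟨MvPowerSeries.X j, fun δ => ?_⟩
      rw [ev_X _ _ (cl_nil (Y.lt δ)), ev_X _ _ (cl_nil (Z.lt δ))]
      have : Z.y δ j = Y.y δ (k0.succAbove j) := rfl
      rw [this, sub_self, norm_zero]
      positivity
    have hSV : ∀ f, Y.Van f → f ∈ S := fun f hf => ⟨0, fun δ => by
      rw [hf δ, cl_ev_zero _ (Z.lt δ), sub_self, norm_zero]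
      positivity⟩
    intro g
    refine (hSmem g).1 (cl_subring_top S n hSC ?_ ?_ g)
    · intro f hf
      refine ⟨0, fun δ => ?_⟩
      rw [cl_ev_zero _ (Z.lt δ), sub_zero]
      exact Y.norm_ev_le_of_mem_pow δ n f hf
    · intro k
      by_cases hk : k = k0
      · subst hk
        set α := MvPowerSeries.coeff (Finsupp.single k 1) f with hα
        let q : MvPowerSeries (Fin (c + 1)) (FQ C p h) := f -
          ∑ j, MvPowerSeries.C (MvPowerSeries.coeff (Finsupp.single j 1) f) * MvPowerSeries.X j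
        have hq : q ∈ clm (c + 1) (FQ C p h) ^ 2 := by
          refine cl_mem_sq _ ?_ ?_
          · refine Ideal.sub_mem _ hf0 (Ideal.sum_mem _ fun j _ =>
              Ideal.mul_mem_left _ _ (X_mem_clm j))
          · intro j
            rw [map_sub, map_sum, Finset.sum_eq_single j]
            · rw [MvPowerSeries.coeff_C_mul, MvPowerSeries.coeff_X, if_pos rfl, mul_one, sub_self]
            · intro i _ hij
              rw [MvPowerSeries.coeff_C_mul, MvPowerSeries.coeff_X, if_neg, mul_zero]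
              intro hcon
              exact hij (Finsupp.single_left_injective one_ne_zero hcon).symm
            · intro h; exact absurd (Finset.mem_univ _) h
        refine ⟨MvPowerSeries.C α⁻¹ * (f - ∑ j ∈ Finset.univ.erase k,
          MvPowerSeries.C (MvPowerSeries.coeff (Finsupp.single j 1) f) * MvPowerSeries.X j),
          S.mul_mem (hSC _) (S.sub_mem (hSV f hf) (Subring.sum_mem _ fun j hj =>
            S.mul_mem (hSC _) (hSX j (Finset.ne_of_mem_erase hj)))), ?_⟩
        have e1 : MvPowerSeries.X k - MvPowerSeries.C α⁻¹ * (f - ∑ j ∈ Finset.univ.erase k,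
            MvPowerSeries.C (MvPowerSeries.coeff (Finsupp.single j 1) f) * MvPowerSeries.X j) =
            -(MvPowerSeries.C α⁻¹ * q) := by
          have e2 : q = f - (MvPowerSeries.C α * MvPowerSeries.X k + ∑ j ∈ Finset.univ.erase k,
              MvPowerSeries.C (MvPowerSeries.coeff (Finsupp.single j 1) f) *
                MvPowerSeries.X j) := by
            rw [hα, Finset.add_sum_erase Finset.univ (fun j => MvPowerSeries.C
              (MvPowerSeries.coeff (Finsupp.single j 1) f) * MvPowerSeries.X j)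
              (Finset.mem_univ k)]
          have e3 : MvPowerSeries.C (σ := Fin (c + 1)) α⁻¹ * MvPowerSeries.C α = 1 := by
            rw [← map_mul, inv_mul_cancel₀ hk0, map_one]
          rw [e2]
          linear_combination (-(MvPowerSeries.X k : MvPowerSeries (Fin (c + 1)) (FQ C p h))) * e3
        rw [e1]
        exact Ideal.neg_mem_iff _ |>.2 (Ideal.mul_mem_left _ _ hq)
      · exact ⟨MvPowerSeries.X k, hSX k hk, by rw [sub_self]; exact Ideal.zero_mem _⟩
  -- compactness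
  have hdep : ∀ (n : ℕ) (ψ ψ' : MvPowerSeries (Fin c) (FQ C p h)),
      (∀ δ, ‖ev (FQ.incl hh) (Y.y δ) g - ev (FQ.incl hh) (Z.y δ) ψ‖ ≤ ‖Y.y δ‖ ^ n) →
      (∀ d : Fin c →₀ ℕ, d.degree < n → MvPowerSeries.coeff d ψ' = MvPowerSeries.coeff d ψ) →
      ∀ δ, ‖ev (FQ.incl hh) (Y.y δ) g - ev (FQ.incl hh) (Z.y δ) ψ'‖ ≤ ‖Y.y δ‖ ^ n := by
    intro n ψ ψ' hψ hψ' δ
    have h1 : ev (FQ.incl hh) (Z.y δ) ψ' = ev (FQ.incl hh) (Z.y δ) ψ +
        ev (FQ.incl hh) (Z.y δ) (ψ' - ψ) := by
      rw [← cl_ev_add _ (Z.lt δ), add_sub_cancel]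
    rw [h1, ← sub_sub, sub_eq_add_neg]
    refine (IsUltrametricDist.norm_add_le_max _ _).trans (max_le (hψ δ) ?_)
    rw [norm_neg]
    refine (Z.norm_ev_le δ n _ fun d hd => ?_).trans
      (pow_le_pow_left₀ (norm_nonneg _) (Y.norm_sub_le _ δ) n)
    rw [map_sub, hψ' d hd, sub_self]
  let D : ℕ → Set ((Fin c →₀ ℕ) → FQ C p h) := fun n =>
    {ψ | ∀ δ, ‖ev (FQ.incl hh) (Y.y δ) g -
      ev (FQ.incl hh) (Z.y δ) (ψ : MvPowerSeries (Fin c) (FQ C p h))‖ ≤ ‖Y.y δ‖ ^ n}
  obtain ⟨ψ, hψ⟩ := cl_compact D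
    (fun n ψ hψ δ => (hψ δ).trans (pow_le_pow_of_le_one (norm_nonneg _) (Y.norm_lt δ).le
      (Nat.le_succ n)))
    (fun n => by
      obtain ⟨ψ, hψ⟩ := happ n g
      exact ⟨ψ, hψ⟩)
    (fun n => by
      refine ⟨{d : Fin c →₀ ℕ | d.degree < n}, Finsupp.finite_of_degree_lt _, ?_⟩
      intro ψ hψ ψ' hψ'
      exact hdep n ψ ψ' hψ fun d hd => hψ' d hd)
  refine ⟨ψ, fun δ => ?_⟩
  rw [← sub_eq_zero]
  exact cl_eq_zero_of_norm_le (norm_nonneg (Y.y δ)) (Y.norm_lt δ) 0 fun n => by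
    rw [add_zero]
    exact hψ n δ

end Crest.Agent.LT
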