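import Mathlib
import Crest.Agent.LT.ClosureD

/-! # K2, part (iii): the closure theorem (row 227). -/

set_option autoImplicit false
set_option linter.unusedSectionVars false

namespace Crest.Agent.LT

open Crest.LubinTate MvPowerSeries

variable {p h r : ℕ} [Fact p.Prime]
variable {C : Type*} [NontriviallyNormedField C] [CompleteSpace C] [IsUltrametricDist C]
  [CharP C p] [IsAlgClosed C]

variable {hh : 1 ≤ h} {G : FormalGroup (FQ C p h)} {𝒟 : Type*} [AddCommGroup 𝒟]

/-- minimal set of coordinates -/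
theorem YData.exists_min [G.IsComm] (Y : YData p h r C hh G 𝒟) :
    ∃ (c : ℕ) (K : Fin c ↪ Fin r),
      (∀ i, ∃ φ : MvPowerSeries (Fin c) (FQ C p h), ∀ δ, Y.y δ i =
        ev (FQ.incl hh) ((Y.sub K).y δ) φ) ∧
      (∀ f, (Y.sub K).Van f → f = 0) := by
  classical
  let S : ℕ → Prop := fun c => ∃ K : Fin c ↪ Fin r, ∀ i, ∃ φ : MvPowerSeries (Fin c) (FQ C p h),
    ∀ δ, Y.y δ i = ev (FQ.incl hh) ((Y.sub K).y δ) φ
  have hex : ∃ c, S c := ⟨r, Function.Embedding.refl _, fun i => ⟨MvPowerSeries.X i, fun δ => by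
    rw [ev_X _ _ (cl_nil ((Y.sub (Function.Embedding.refl _)).lt δ))]
    rfl⟩⟩
  obtain ⟨K, hK⟩ := Nat.find_spec hex
  have hmin : ∀ m, m < Nat.find hex → ¬ S m := fun m hm => Nat.find_min hex hm
  generalize Nat.find hex = c at K hK hmin
  refine ⟨c, K, hK, ?_⟩
  refine (Y.sub K).eq_zero_of_lin ?_
  intro f hf k0
  by_contra hk0
  obtain ⟨c', rfl⟩ : ∃ c', c = c' + 1 := ⟨c - 1, by have := k0.2; omega⟩
  refine hmin c' (Nat.lt_succ_self c') ⟨k0.succAboveEmb.trans K, fun i => ?_⟩
  obtain ⟨φ, hφ⟩ := hK i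
  obtain ⟨ψ, hψ⟩ := (Y.sub K).elim_var f hf
    (mem_clm.2 ((Y.sub K).constantCoeff_of_van hf)) k0 hk0 φ
  refine ⟨ψ, fun δ => ?_⟩
  rw [hφ δ, hψ δ]
  rfl

/-- if the vanishing ideal is zero then a series representing an additive function is additive -/
theorem YData.additive [G.IsComm] (Z : YData p h r C hh G 𝒟) (hV : ∀ f, Z.Van f → f = 0)
    (φ : MvPowerSeries (Fin r) (FQ C p h)) (hφ0 : MvPowerSeries.constantCoeff φ = 0)
    (hadd : ∀ δ δ', ev (FQ.incl hh) (Z.y (δ + δ')) φ =
      op G (FQ.incl hh) (ev (FQ.incl hh) (Z.y δ) φ) (ev (FQ.incl hh) (Z.y δ') φ)) :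
    MvPowerSeries.subst (gadd G) φ =
      MvPowerSeries.subst ![MvPowerSeries.subst (fun k : Fin r =>
          (MvPowerSeries.X (Sum.inl k) : MvPowerSeries (Fin r ⊕ Fin r) (FQ C p h))) φ,
        MvPowerSeries.subst (fun k : Fin r =>
          (MvPowerSeries.X (Sum.inr k) : MvPowerSeries (Fin r ⊕ Fin r) (FQ C p h))) φ]
        G.toPowerSeries := by
  rw [← sub_eq_zero]
  refine Z.pair_zero hV _ fun δ δ' => ?_
  have hab := cl_elim_lt (Z.lt δ) (Z.lt δ')
  have hL : ∀ a b : Fin r → OC C, (∀ i, ‖a i‖ < 1) → (∀ i, ‖b i‖ < 1) →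
      ev (FQ.incl hh) (Sum.elim a b) (MvPowerSeries.subst (fun k : Fin r =>
          (MvPowerSeries.X (Sum.inl k) : MvPowerSeries (Fin r ⊕ Fin r) (FQ C p h))) φ) =
        ev (FQ.incl hh) a φ := by
    intro a b ha hb
    rw [ev_subst _ _ (cl_nil (cl_elim_lt ha hb)) _ (fun i => MvPowerSeries.constantCoeff_X _)]
    congr 1
    funext k
    rw [ev_X _ _ (cl_nil (cl_elim_lt ha hb))]
    rfl
  have hR : ∀ a b : Fin r → OC C, (∀ i, ‖a i‖ < 1) → (∀ i, ‖b i‖ < 1) →
      ev (FQ.incl hh) (Sum.elim a b) (MvPowerSeries.subst (fun k : Fin r =>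
          (MvPowerSeries.X (Sum.inr k) : MvPowerSeries (Fin r ⊕ Fin r) (FQ C p h))) φ) =
        ev (FQ.incl hh) b φ := by
    intro a b ha hb
    rw [ev_subst _ _ (cl_nil (cl_elim_lt ha hb)) _ (fun i => MvPowerSeries.constantCoeff_X _)]
    congr 1
    funext k
    rw [ev_X _ _ (cl_nil (cl_elim_lt ha hb))]
    rfl
  have hc0 : ∀ e : Fin r → Fin r ⊕ Fin r, MvPowerSeries.constantCoeff
      (MvPowerSeries.subst (fun k : Fin r =>
        (MvPowerSeries.X (e k) : MvPowerSeries (Fin r ⊕ Fin r) (FQ C p h))) φ) = 0 := by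
    intro e
    exact MvPowerSeries.constantCoeff_subst_eq_zero
      (MvPowerSeries.hasSubst_of_constantCoeff_zero fun k => MvPowerSeries.constantCoeff_X _)
      (fun k => MvPowerSeries.constantCoeff_X _) hφ0
  rw [cl_ev_sub _ hab, ev_subst_gadd G _ (Z.lt δ) (Z.lt δ'), sub_eq_zero,
    ev_subst _ _ (cl_nil hab)]
  · have h1 : (fun k => op G (FQ.incl hh) (Z.y δ k) (Z.y δ' k)) = Z.y (δ + δ') :=
      funext fun k => (Z.add δ δ' k).symm
    rw [h1, hadd]
    unfold op
    congr 1
    funext i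
    fin_cases i
    · exact (hL _ _ (Z.lt δ) (Z.lt δ')).symm
    · exact (hR _ _ (Z.lt δ) (Z.lt δ')).symm
  · intro i
    fin_cases i
    · exact hc0 _
    · exact hc0 _

/-- additivity at all points of the open polydisc -/
theorem cl_add_points [G.IsComm] (φ : MvPowerSeries (Fin r) (FQ C p h))
    (hφ0 : MvPowerSeries.constantCoeff φ = 0)
    (hφ : MvPowerSeries.subst (gadd G) φ =
      MvPowerSeries.subst ![MvPowerSeries.subst (fun k : Fin r =>
          (MvPowerSeries.X (Sum.inl k) : MvPowerSeries (Fin r ⊕ Fin r) (FQ C p h))) φ,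
        MvPowerSeries.subst (fun k : Fin r =>
          (MvPowerSeries.X (Sum.inr k) : MvPowerSeries (Fin r ⊕ Fin r) (FQ C p h))) φ]
        G.toPowerSeries) {a b : Fin r → OC C} (ha : ∀ i, ‖a i‖ < 1) (hb : ∀ i, ‖b i‖ < 1) :
    ev (FQ.incl hh) (fun k => op G (FQ.incl hh) (a k) (b k)) φ =
      op G (FQ.incl hh) (ev (FQ.incl hh) a φ) (ev (FQ.incl hh) b φ) := by
  have hab := cl_elim_lt ha hb
  have hL : ev (FQ.incl hh) (Sum.elim a b) (MvPowerSeries.subst (fun k : Fin r =>
          (MvPowerSeries.X (Sum.inl k) : MvPowerSeries (Fin r ⊕ Fin r) (FQ C p h))) φ) =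
        ev (FQ.incl hh) a φ := by
    rw [ev_subst _ _ (cl_nil hab) _ (fun i => MvPowerSeries.constantCoeff_X _)]
    congr 1
    funext k
    rw [ev_X _ _ (cl_nil hab)]
    rfl
  have hR : ev (FQ.incl hh) (Sum.elim a b) (MvPowerSeries.subst (fun k : Fin r =>
          (MvPowerSeries.X (Sum.inr k) : MvPowerSeries (Fin r ⊕ Fin r) (FQ C p h))) φ) =
        ev (FQ.incl hh) b φ := by
    rw [ev_subst _ _ (cl_nil hab) _ (fun i => MvPowerSeries.constantCoeff_X _)]
    congr 1
    funext k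
    rw [ev_X _ _ (cl_nil hab)]
    rfl
  have hc0 : ∀ e : Fin r → Fin r ⊕ Fin r, MvPowerSeries.constantCoeff
      (MvPowerSeries.subst (fun k : Fin r =>
        (MvPowerSeries.X (e k) : MvPowerSeries (Fin r ⊕ Fin r) (FQ C p h))) φ) = 0 := by
    intro e
    exact MvPowerSeries.constantCoeff_subst_eq_zero
      (MvPowerSeries.hasSubst_of_constantCoeff_zero fun k => MvPowerSeries.constantCoeff_X _)
      (fun k => MvPowerSeries.constantCoeff_X _) hφ0
  rw [← ev_subst_gadd G _ ha hb, hφ, ev_subst _ _ (cl_nil hab)]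
  · unfold op
    congr 1
    funext i
    fin_cases i
    · exact hL
    · exact hR
  · intro i
    fin_cases i
    · exact hc0 _
    · exact hc0 _

/-- the restriction of `φ` to the `k`-th axis -/
noncomputable def axis (φ : MvPowerSeries (Fin r) (FQ C p h)) (k : Fin r) :
    PowerSeries (FQ C p h) :=
  MvPowerSeries.subst (fun j : Fin r => if j = k then (PowerSeries.X : PowerSeries (FQ C p h))
    else 0) φ

theorem cl_axis_hom [G.IsComm] (φ : MvPowerSeries (Fin r) (FQ C p h))
    (hφ0 : MvPowerSeries.constantCoeff φ = 0)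
    (hφ : MvPowerSeries.subst (gadd G) φ =
      MvPowerSeries.subst ![MvPowerSeries.subst (fun k : Fin r =>
          (MvPowerSeries.X (Sum.inl k) : MvPowerSeries (Fin r ⊕ Fin r) (FQ C p h))) φ,
        MvPowerSeries.subst (fun k : Fin r =>
          (MvPowerSeries.X (Sum.inr k) : MvPowerSeries (Fin r ⊕ Fin r) (FQ C p h))) φ]
        G.toPowerSeries) (k : Fin r) : IsFGHom G G (axis φ k) := by
  classical
  have hz : ∀ j : Fin r, MvPowerSeries.constantCoeff (if j = k then
      (PowerSeries.X : PowerSeries (FQ C p h)) else 0) = 0 := by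
    intro j
    split_ifs
    · exact PowerSeries.constantCoeff_X
    · exact map_zero _
  have hax := MvPowerSeries.hasSubst_of_constantCoeff_zero hz
  have h0 : PowerSeries.constantCoeff (axis φ k) = 0 :=
    MvPowerSeries.constantCoeff_subst_eq_zero hax hz hφ0
  refine LT93.hom_of_apply h0 ?_
  have hsubst0 : ∀ {σ τ : Type} {b : σ → MvPowerSeries τ (FQ C p h)} (_ : MvPowerSeries.HasSubst b),
      MvPowerSeries.subst b (0 : MvPowerSeries σ (FQ C p h)) = 0 := by
    intro σ τ b hb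
    rw [← MvPowerSeries.coe_substAlgHom hb]
    exact _root_.map_zero _
  have key : ∀ a : MvPowerSeries (Fin 2) (FQ C p h), PowerSeries.HasSubst a →
      LT93.ev (axis φ k) a = MvPowerSeries.subst (fun j => if j = k then a else 0) φ := by
    intro a ha
    unfold LT93.ev axis
    rw [PowerSeries.subst, MvPowerSeries.subst_comp_subst_apply hax ha.const]
    congr 1
    funext j
    split_ifs
    · exact PowerSeries.subst_X ha
    · exact hsubst0 ha.const
  let e : Fin r ⊕ Fin r → MvPowerSeries (Fin 2) (FQ C p h) :=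
    Sum.elim (fun j => if j = k then MvPowerSeries.X 0 else 0)
      (fun j => if j = k then MvPowerSeries.X 1 else 0)
  have he : MvPowerSeries.HasSubst e := by
    refine MvPowerSeries.hasSubst_of_constantCoeff_zero ?_
    rintro (j | j)
    · show MvPowerSeries.constantCoeff (if j = k then MvPowerSeries.X 0 else 0) = 0
      split_ifs
      · exact MvPowerSeries.constantCoeff_X _
      · exact map_zero _
    · show MvPowerSeries.constantCoeff (if j = k then MvPowerSeries.X 1 else 0) = 0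
      split_ifs
      · exact MvPowerSeries.constantCoeff_X _
      · exact map_zero _
  have hg : MvPowerSeries.HasSubst (gadd G : Fin r → MvPowerSeries (Fin r ⊕ Fin r) (FQ C p h)) :=
    MvPowerSeries.hasSubst_of_constantCoeff_zero fun j => constantCoeff_gadd G j
  have hXe : ∀ f : Fin r → Fin r ⊕ Fin r, MvPowerSeries.HasSubst (fun j : Fin r =>
      (MvPowerSeries.X (f j) : MvPowerSeries (Fin r ⊕ Fin r) (FQ C p h))) := fun f =>
    MvPowerSeries.hasSubst_of_constantCoeff_zero fun j => MvPowerSeries.constantCoeff_X _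
  have hLs : ∀ f : Fin r → Fin r ⊕ Fin r, PowerSeries.HasSubst (MvPowerSeries.subst
      (fun j : Fin r => (MvPowerSeries.X (f j) : MvPowerSeries (Fin r ⊕ Fin r) (FQ C p h))) φ) :=
    fun f => PowerSeries.HasSubst.of_constantCoeff_zero
      (MvPowerSeries.constantCoeff_subst_eq_zero (hXe f)
        (fun j => MvPowerSeries.constantCoeff_X _) hφ0)
  have h1 := congrArg (MvPowerSeries.subst e) hφ
  rw [MvPowerSeries.subst_comp_subst_apply hg he] at h1
  have h2 : MvPowerSeries.subst e (MvPowerSeries.subst ![MvPowerSeries.subst (fun k : Fin r =>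
          (MvPowerSeries.X (Sum.inl k) : MvPowerSeries (Fin r ⊕ Fin r) (FQ C p h))) φ,
        MvPowerSeries.subst (fun k : Fin r =>
          (MvPowerSeries.X (Sum.inr k) : MvPowerSeries (Fin r ⊕ Fin r) (FQ C p h))) φ]
        G.toPowerSeries) = LT93.op G (LT93.ev (axis φ k) (MvPowerSeries.X 0))
          (LT93.ev (axis φ k) (MvPowerSeries.X 1)) := by
    have h3 := LT93.subst_op G (hLs Sum.inl) (hLs Sum.inr) he
    refine h3.trans ?_
    rw [key _ (LT93.hX 0), key _ (LT93.hX 1),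
      MvPowerSeries.subst_comp_subst_apply (hXe Sum.inl) he,
      MvPowerSeries.subst_comp_subst_apply (hXe Sum.inr) he]
    simp only [MvPowerSeries.subst_X he]
    rfl
  rw [h2] at h1
  rw [← h1, LT93.op_X, key _ (by
    have := LT93.hasSubst_op G (LT93.hX (R := FQ C p h) (0 : Fin 2)) (LT93.hX 1)
    rwa [LT93.op_X] at this)]
  congr 1
  funext j
  have h4 := LT93.subst_op G (LT93.hX (R := FQ C p h) (Sum.inl j : Fin r ⊕ Fin r))
    (LT93.hX (Sum.inr j)) he
  rw [MvPowerSeries.subst_X he, MvPowerSeries.subst_X he] at h4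
  refine Eq.trans ?_ h4.symm
  show (if j = k then G.toPowerSeries else 0) = LT93.op G
    (if j = k then MvPowerSeries.X 0 else 0) (if j = k then MvPowerSeries.X 1 else 0)
  split_ifs
  · exact (LT93.op_X G).symm
  · exact (LT93.op_zero G LT93.hzero).symm

/-- the series as an additive map on points -/
noncomputable def addHomOf [G.IsComm] (φ : MvPowerSeries (Fin r) (FQ C p h))
    (hφ0 : MvPowerSeries.constantCoeff φ = 0)
    (hφ : MvPowerSeries.subst (gadd G) φ =
      MvPowerSeries.subst ![MvPowerSeries.subst (fun k : Fin r =>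
          (MvPowerSeries.X (Sum.inl k) : MvPowerSeries (Fin r ⊕ Fin r) (FQ C p h))) φ,
        MvPowerSeries.subst (fun k : Fin r =>
          (MvPowerSeries.X (Sum.inr k) : MvPowerSeries (Fin r ⊕ Fin r) (FQ C p h))) φ]
        G.toPowerSeries) :
    (Fin r → Pt G (FQ.incl (C := C) (p := p) hh)) →+ Pt G (FQ.incl (C := C) (p := p) hh) :=
  AddMonoidHom.mk' (fun u => ⟨ev (FQ.incl hh) (fun k => (u k).1) φ,
      isTopologicallyNilpotent_ev' _ _ (fun k => (u k).2) _ hφ0⟩) (by
    intro u v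
    apply Subtype.ext
    rw [Pt.add_val]
    have hu : ∀ k, ‖(u k).1‖ < 1 := fun k => (OC.isTopologicallyNilpotent_iff _).1 (u k).2
    have hv : ∀ k, ‖(v k).1‖ < 1 := fun k => (OC.isTopologicallyNilpotent_iff _).1 (v k).2
    have h1 := cl_add_points (hh := hh) φ hφ0 hφ hu hv
    refine Eq.trans ?_ h1
    show ev (FQ.incl hh) (fun k => ((u + v) k).1) φ = _
    congr 1)

theorem addHomOf_val [G.IsComm] (φ : MvPowerSeries (Fin r) (FQ C p h))
    (hφ0 : MvPowerSeries.constantCoeff φ = 0)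
    (hφ : MvPowerSeries.subst (gadd G) φ =
      MvPowerSeries.subst ![MvPowerSeries.subst (fun k : Fin r =>
          (MvPowerSeries.X (Sum.inl k) : MvPowerSeries (Fin r ⊕ Fin r) (FQ C p h))) φ,
        MvPowerSeries.subst (fun k : Fin r =>
          (MvPowerSeries.X (Sum.inr k) : MvPowerSeries (Fin r ⊕ Fin r) (FQ C p h))) φ]
        G.toPowerSeries) (u : Fin r → Pt G (FQ.incl (C := C) (p := p) hh)) :
    (addHomOf φ hφ0 hφ u).1 = ev (FQ.incl hh) (fun k => (u k).1) φ := rfl

theorem addHomOf_single [G.IsComm] (φ : MvPowerSeries (Fin r) (FQ C p h))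
    (hφ0 : MvPowerSeries.constantCoeff φ = 0)
    (hφ : MvPowerSeries.subst (gadd G) φ =
      MvPowerSeries.subst ![MvPowerSeries.subst (fun k : Fin r =>
          (MvPowerSeries.X (Sum.inl k) : MvPowerSeries (Fin r ⊕ Fin r) (FQ C p h))) φ,
        MvPowerSeries.subst (fun k : Fin r =>
          (MvPowerSeries.X (Sum.inr k) : MvPowerSeries (Fin r ⊕ Fin r) (FQ C p h))) φ]
        G.toPowerSeries) (k : Fin r) (t : Pt G (FQ.incl (C := C) (p := p) hh))
    (hα : IsFGHom G G (axis φ k)) :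
    addHomOf φ hφ0 hφ (Pi.single k t) = Pt.mapHom (axis φ k) hα t := by
  classical
  apply Subtype.ext
  rw [Pt.mapHom_val, addHomOf_val]
  have ht : ‖t.1‖ < 1 := (OC.isTopologicallyNilpotent_iff _).1 t.2
  have hz : ∀ j : Fin r, MvPowerSeries.constantCoeff (if j = k then
      (PowerSeries.X : PowerSeries (FQ C p h)) else 0) = 0 := by
    intro j
    split_ifs
    · exact PowerSeries.constantCoeff_X
    · exact map_zero _
  have h1 : ev1 (FQ.incl hh) t.1 (axis φ k) = ev (FQ.incl hh) (fun j => ev (FQ.incl hh)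
      (fun _ : Unit => t.1) (if j = k then (PowerSeries.X : PowerSeries (FQ C p h)) else 0)) φ := by
    unfold ev1 axis
    exact ev_subst _ _ (fun _ => t.2) _ hz _
  rw [h1]
  congr 1
  funext j
  by_cases hj : j = k
  · subst hj
    rw [Pi.single_eq_same, if_pos rfl]
    exact (ev_X _ _ (fun _ => t.2) _).symm
  · rw [Pi.single_eq_of_ne hj, if_neg hj]
    have h2 : ev (FQ.incl hh) (fun _ : Unit => t.1) (0 : PowerSeries (FQ C p h)) = 0 :=
      cl_ev_zero _ (fun _ => ht)
    rw [h2]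
    exact Pt.zero_val

theorem YData.constantCoeff_of_rep [G.IsComm] (Z : YData p h r C hh G 𝒟)
    (φ : MvPowerSeries (Fin r) (FQ C p h)) (h2 : ev (FQ.incl hh) (Z.y 0) φ = 0) :
    MvPowerSeries.constantCoeff φ = 0 := by
  have h0 : ∀ i : Fin r, ‖(0 : Fin r → OC C) i‖ < 1 := fun i => by simp
  have h1 : Z.y 0 = 0 := funext fun k => Z.y_zero k
  rw [h1] at h2
  have h3 := OC.norm_ev_le (FQ.incl hh) (0 : Fin r → OC C) (ρ := 0) le_rfl zero_lt_one
    (fun i => by simp) (φ - MvPowerSeries.C (MvPowerSeries.constantCoeff φ)) (M := 1)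
    (N := 1) (fun d => OC.norm_le_one _) (fun d hd => by
      have : d = 0 := (Finsupp.degree_eq_zero_iff _).1 (by omega)
      rw [this]
      simp)
  rw [pow_one, mul_zero] at h3
  have h4 := norm_le_zero_iff.1 h3
  rw [cl_ev_sub _ h0, h2, ev_C _ _ (cl_nil h0), zero_sub, neg_eq_zero] at h4
  exact FQ.incl_injective hh (by rw [h4, map_zero])

/-- K2: closure theorem -/
theorem YData.closure_proof [G.IsComm] (Y : YData p h r C hh G 𝒟) :
    ∃ (c : ℕ) (K : Fin c ↪ Fin r) (α : Fin r → Fin c → PowerSeries (FQ C p h))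
      (hα : ∀ i k, IsFGHom G G (α i k)),
      (∀ δ i, Y.pt δ i = ∑ k, Pt.mapHom (α i k) (hα i k) (Y.pt δ (K k))) ∧
      (∀ f : MvPowerSeries (Fin c) (FQ C p h),
        (∀ δ, ev (FQ.incl hh) (fun k => Y.y δ (K k)) f = 0) → f = 0) := by
  classical
  obtain ⟨c, K, hK, hV⟩ := Y.exists_min
  choose φ hφ using hK
  have hφ0 : ∀ i, MvPowerSeries.constantCoeff (φ i) = 0 := fun i =>
    (Y.sub K).constantCoeff_of_rep (φ i) (by rw [← hφ, Y.y_zero])
  have hadd := fun i => (Y.sub K).additive hV (φ i) (hφ0 i) (fun δ δ' => by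
    rw [← hφ, ← hφ, ← hφ, Y.add])
  have hα : ∀ i k, IsFGHom G G (axis (φ i) k) := fun i k =>
    cl_axis_hom (φ i) (hφ0 i) (hadd i) k
  refine ⟨c, K, fun i k => axis (φ i) k, hα, ?_, hV⟩
  intro δ i
  have h1 : Y.pt δ i = addHomOf (φ i) (hφ0 i) (hadd i) (fun k => Y.pt δ (K k)) :=
    Subtype.ext (hφ i δ)
  have h2 : (fun k => Y.pt δ (K k)) = ∑ k, Pi.single k (Y.pt δ (K k)) :=
    (Finset.univ_sum_single _).symm
  rw [h1, h2, map_sum]
  exact Finset.sum_congr rfl fun k _ => addHomOf_single _ _ _ k _ _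

end Crest.Agent.LT
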