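import Mathlib
import Crest.Agent.LT.CDefs
import Crest.Agent.LT.ClosureE

/-! # K: Moore determinant, ℓ-trick, closure theorem, compactness (row 227).
Paper proof: ideas row 227, post 4, K1, K2, K3.
`FQ.finite`, `FQ.card`, `moore`, `YData`, `YData.Van`, `YData.pt` are in `ClosureDefs.lean`. -/

set_option autoImplicit false
set_option linter.unusedSectionVars false

namespace Crest.Agent.LT

open Crest.LubinTate MvPowerSeries

variable {p h r : ℕ} [Fact p.Prime]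
variable {C : Type*} [NontriviallyNormedField C] [CompleteSpace C] [IsUltrametricDist C]
  [CharP C p] [IsAlgClosed C]

variable {hh : 1 ≤ h} {G : FormalGroup (FQ C p h)} {𝒟 : Type*} [AddCommGroup 𝒟]

/-- K2: closure theorem -/
theorem YData.closure [G.IsComm] (Y : YData p h r C hh G 𝒟) :
    ∃ (c : ℕ) (K : Fin c ↪ Fin r) (α : Fin r → Fin c → PowerSeries (FQ C p h))
      (hα : ∀ i k, IsFGHom G G (α i k)),
      (∀ δ i, Y.pt δ i = ∑ k, Pt.mapHom (α i k) (hα i k) (Y.pt δ (K k))) ∧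
      (∀ f : MvPowerSeries (Fin c) (FQ C p h),
        (∀ δ, ev (FQ.incl hh) (fun k => Y.y δ (K k)) f = 0) → f = 0) :=
  Y.closure_proof

/-- K1+K3: for every `e` there is `N` such that a series `c` over `C` whose truncation
`Σ_{|I|<N} c_I Y^I` is asymptotically `O(|Y|^N)` on the points `y(δ)^(Q^a)`, `a → ∞`, has
`ℓ(c) ∈ 𝔞 + (Y)^e` for all `F_Q`-linear `ℓ : C → F_Q`. -/
theorem YData.ell_close (Y : YData p h r C hh G 𝒟) (e : ℕ) :
    ∃ N : ℕ, ∀ c : MvPowerSeries (Fin r) C,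
      (∀ δ, ∃ (C0 : ℝ) (a0 : ℕ), ∀ a ≥ a0,
        ‖MvPolynomial.eval (fun i => (Y.y δ i : C) ^ ((p ^ h) ^ a)) (truncTotal N c)‖ ≤
          C0 * (‖Y.y δ‖) ^ (N * (p ^ h) ^ a)) →
      ∀ ℓ : C →ₗ[FQ C p h] FQ C p h, ∃ f : MvPowerSeries (Fin r) (FQ C p h), Y.Van f ∧
        ∀ I : Fin r →₀ ℕ, I.degree < e →
          MvPowerSeries.coeff I f = ℓ (MvPowerSeries.coeff I c) :=
  Y.ell_close_proof e

end Crest.Agent.LT
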