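import Mathlib
import Crest.Agent.LT.CDefs

/-! # C3, part A: the operator `[p]` on the open unit ball (row 227). -/

set_option autoImplicit false
set_option linter.unusedSectionVars false

namespace Crest.Agent.LT

open Crest.LubinTate MvPowerSeries

section Ball
variable {C : Type*} [NormedField C] [IsUltrametricDist C]

theorem io_norm_mul (x y : OC C) : ‖x * y‖ = ‖x‖ * ‖y‖ := norm_mul (x : C) (y : C)

theorem io_norm_pow (x : OC C) (m : ℕ) : ‖x ^ m‖ = ‖x‖ ^ m := norm_pow (x : C) m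

theorem io_norm_one : ‖(1 : OC C)‖ = 1 := norm_one (α := C)

theorem io_norm_add_le_max (x y : OC C) : ‖x + y‖ ≤ max ‖x‖ ‖y‖ :=
  IsUltrametricDist.norm_add_le_max (x : C) (y : C)

theorem io_norm_sub_le_max (x y : OC C) : ‖x - y‖ ≤ max ‖x‖ ‖y‖ := by
  rw [sub_eq_add_neg, ← norm_neg y]
  exact io_norm_add_le_max x (-y)

/-- triangle inequality for differences -/
theorem io_tri (x y z : OC C) {B : ℝ} (h1 : ‖x - y‖ ≤ B) (h2 : ‖y - z‖ ≤ B) : ‖x - z‖ ≤ B := by
  have : x - z = (x - y) + (y - z) := by ring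
  rw [this]
  exact le_trans (io_norm_add_le_max _ _) (max_le h1 h2)

theorem io_lt_of_sub (x y : OC C) {B : ℝ} (hy : ‖y‖ < B) (h : ‖x - y‖ < B) : ‖x‖ < B := by
  have : x = (x - y) + y := by ring
  rw [this]
  exact lt_of_le_of_lt (io_norm_add_le_max _ _) (max_lt h hy)

theorem io_nilp {z : OC C} (hz : ‖z‖ < 1) : IsTopologicallyNilpotent z :=
  (OC.isTopologicallyNilpotent_iff z).2 hz

theorem io_lt_one {z : OC C} (hz : IsTopologicallyNilpotent z) : ‖z‖ < 1 :=
  (OC.isTopologicallyNilpotent_iff z).1 hz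

/-- The closed ball ideal. -/
def ballIdeal (C : Type*) [NormedField C] [IsUltrametricDist C] (ε : ℝ) (hε : 0 ≤ ε) :
    Ideal (OC C) where
  carrier := {z | ‖z‖ ≤ ε}
  add_mem' := by
    intro a b ha hb
    exact le_trans (io_norm_add_le_max a b) (max_le ha hb)
  zero_mem' := by
    show ‖(0 : OC C)‖ ≤ ε
    rw [norm_zero]; exact hε
  smul_mem' := by
    intro c z hz
    show ‖c * z‖ ≤ ε
    rw [io_norm_mul]
    have h1 : ‖c‖ ≤ 1 := OC.norm_le_one c
    have h2 : ‖z‖ ≤ ε := hz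
    nlinarith [norm_nonneg z, norm_nonneg c]

theorem mem_ballIdeal {ε : ℝ} {hε : 0 ≤ ε} {z : OC C} : z ∈ ballIdeal C ε hε ↔ ‖z‖ ≤ ε := Iff.rfl

/-- Limits of sums of small terms are small. -/
theorem io_hasSum_le {ι : Type*} {g : ι → OC C} {s : OC C} (hs : HasSum g s) {B : ℝ} (hB : 0 ≤ B)
    (h : ∀ i, ‖g i‖ ≤ B) : ‖s‖ ≤ B := by
  have h1 : Filter.Tendsto (fun t : Finset ι => ‖∑ i ∈ t, g i‖) Filter.atTop (nhds ‖s‖) :=
    (continuous_norm.tendsto s).comp hs
  refine le_of_tendsto h1 (Filter.Eventually.of_forall (fun t => ?_))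
  classical
  induction t using Finset.induction_on with
  | empty => simpa using hB
  | insert a t ha ih =>
    rw [Finset.sum_insert ha]
    exact le_trans (io_norm_add_le_max _ _) (max_le (h a) ih)

end Ball

section MulSeries
variable {C : Type*} [NormedField C] [IsUltrametricDist C]

/-- The `m`-series depends on the group law in a Lipschitz way. -/
theorem mulSeries_close (F F' : FormalGroup (OC C)) {ε : ℝ} (hε : 0 ≤ ε)
    (h : ∀ d, ‖MvPowerSeries.coeff d F.toPowerSeries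
      - MvPowerSeries.coeff d F'.toPowerSeries‖ ≤ ε) (m i : ℕ) :
    ‖PowerSeries.coeff i (mulSeries F m) - PowerSeries.coeff i (mulSeries F' m)‖ ≤ ε := by
  let mk := Ideal.Quotient.mk (ballIdeal C ε hε)
  have h1 : F.map mk = F'.map mk := by
    apply FormalGroup.ext
    show MvPowerSeries.map mk F.toPowerSeries = MvPowerSeries.map mk F'.toPowerSeries
    ext d
    rw [MvPowerSeries.coeff_map, MvPowerSeries.coeff_map]
    exact (Ideal.Quotient.eq).2 (h d)
  have h2 := mulSeries_map F mk m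
  have h3 := mulSeries_map F' mk m
  rw [h1, h3] at h2
  have h4 := congrArg (PowerSeries.coeff i) h2
  rw [PowerSeries.coeff_map, PowerSeries.coeff_map] at h4
  exact (Ideal.Quotient.eq).1 h4.symm

end MulSeries

section Eval
variable {C : Type*} [NontriviallyNormedField C] [CompleteSpace C] [IsUltrametricDist C]

theorem io_ev1_lt {R : Type*} [CommRing R] (φ : R →+* OC C) {z : OC C} (hz : ‖z‖ < 1)
    {f : PowerSeries R} (hf : PowerSeries.constantCoeff f = 0) : ‖ev1 φ z f‖ < 1 :=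
  io_lt_one (isTopologicallyNilpotent_ev1 φ z (io_nilp hz) f hf)

/-- Differences of values of a series with small coefficients. -/
theorem io_ev1_sub_small (f : PowerSeries (OC C)) {ε : ℝ} (hε : 0 ≤ ε)
    (hf : ∀ i, ‖PowerSeries.coeff i f‖ ≤ ε) {a b : OC C} (ha : ‖a‖ < 1) (hb : ‖b‖ < 1) :
    ‖ev1 (RingHom.id (OC C)) a f - ev1 (RingHom.id (OC C)) b f‖ ≤ ε * ‖a - b‖ := by
  have h1 := hasSum_ev1 (RingHom.id (OC C)) a (io_nilp ha) f
  have h2 := hasSum_ev1 (RingHom.id (OC C)) b (io_nilp hb) f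
  refine io_hasSum_le (h1.sub h2) (by positivity) (fun i => ?_)
  have h3 : (RingHom.id (OC C)) (PowerSeries.coeff i f) * a ^ i
      - (RingHom.id (OC C)) (PowerSeries.coeff i f) * b ^ i
      = PowerSeries.coeff i f * (a ^ i - b ^ i) := by
    rw [RingHom.id_apply]; ring
  rw [h3, io_norm_mul]
  apply mul_le_mul (hf i) _ (norm_nonneg _) hε
  obtain ⟨c, hc⟩ := sub_dvd_pow_sub_pow a b i
  rw [hc, io_norm_mul]
  have : ‖c‖ ≤ 1 := OC.norm_le_one c
  nlinarith [norm_nonneg (a - b), norm_nonneg c]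

theorem io_ev1_lip (f : PowerSeries (OC C)) {a b : OC C} (ha : ‖a‖ < 1) (hb : ‖b‖ < 1) :
    ‖ev1 (RingHom.id (OC C)) a f - ev1 (RingHom.id (OC C)) b f‖ ≤ ‖a - b‖ := by
  have := io_ev1_sub_small f zero_le_one (fun i => OC.norm_le_one _) ha hb
  simpa using this

/-- values of a series with small coefficients are small -/
theorem io_ev1_small (f : PowerSeries (OC C)) {ε : ℝ} (hε : 0 ≤ ε)
    (hf : ∀ i, ‖PowerSeries.coeff i f‖ ≤ ε) {a : OC C} (ha : ‖a‖ < 1) :
    ‖ev1 (RingHom.id (OC C)) a f‖ ≤ ε := by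
  have h1 := hasSum_ev1 (RingHom.id (OC C)) a (io_nilp ha) f
  refine io_hasSum_le h1 hε (fun i => ?_)
  rw [RingHom.id_apply, io_norm_mul, io_norm_pow]
  have h2 := hf i
  have h3 : ‖a‖ ^ i ≤ 1 := pow_le_one₀ (norm_nonneg _) ha.le
  nlinarith [norm_nonneg (PowerSeries.coeff i f), norm_nonneg a, pow_nonneg (norm_nonneg a) i]

theorem io_ev1_sub {R : Type*} [CommRing R] (φ : R →+* OC C) {z : OC C} (hz : ‖z‖ < 1)
    (f g : PowerSeries R) : ev1 φ z (f - g) = ev1 φ z f - ev1 φ z g := by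
  have hz' : ∀ _ : Unit, IsTopologicallyNilpotent z := fun _ => io_nilp hz
  unfold ev1
  rw [← evHom_apply φ (fun _ : Unit => z) hz', ← evHom_apply φ (fun _ : Unit => z) hz',
    ← evHom_apply φ (fun _ : Unit => z) hz']
  exact map_sub _ f g

theorem io_ev1_Xpow (m : ℕ) {z : OC C} (hz : ‖z‖ < 1) :
    ev1 (RingHom.id (OC C)) z ((PowerSeries.X : PowerSeries (OC C)) ^ m) = z ^ m := by
  have hz' : ∀ _ : Unit, IsTopologicallyNilpotent z := fun _ => io_nilp hz
  have h1 := ev1_X (RingHom.id (OC C)) z (io_nilp hz)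
  unfold ev1 at h1 ⊢
  rw [← evHom_apply (RingHom.id (OC C)) (fun _ : Unit => z) hz'] at h1 ⊢
  calc (evHom (RingHom.id (OC C)) (fun _ : Unit => z) hz') (PowerSeries.X ^ m)
      = ((evHom (RingHom.id (OC C)) (fun _ : Unit => z) hz') PowerSeries.X) ^ m := map_pow _ _ m
    _ = z ^ m := by rw [h1]

end Eval

section P
variable {p n h r : ℕ} [Fact p.Prime]
variable {C : Type*} [NontriviallyNormedField C] [CompleteSpace C] [IsUltrametricDist C]
  [CharP C p]

/-- the operator `[p]` on points of `Hx` -/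
noncomputable def LData.P (D : LData p n h r C) (z : OC C) : OC C :=
  ev1 (RingHom.id (OC C)) z (mulSeries D.Hx p)

theorem LData.two_le_q (D : LData p n h r C) : 2 ≤ p ^ n := by
  have hp : 2 ≤ p := (Fact.out : p.Prime).two_le
  have hn : 1 ≤ n := by have := D.hh; have := D.hn; omega
  calc 2 ≤ p := hp
    _ = p ^ 1 := (pow_one p).symm
    _ ≤ p ^ n := Nat.pow_le_pow_right (by omega) hn

theorem LData.mulSeries_sub_le (D : LData p n h r C) (i : ℕ) :
    ‖PowerSeries.coeff i (mulSeries D.Hx p - PowerSeries.X ^ (p ^ n))‖ ≤ D.ε := by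
  have h1 := mulSeries_close D.Hx (D.Γ.map D.kx) D.ε0 (by
    intro d
    have := D.hε d
    show ‖MvPowerSeries.coeff d D.Hx.toPowerSeries
      - MvPowerSeries.coeff d (MvPowerSeries.map D.kx D.Γ.toPowerSeries)‖ ≤ D.ε
    rw [MvPowerSeries.coeff_map]
    exact this) p i
  rw [mulSeries_map, D.Γp, map_pow, PowerSeries.map_X] at h1
  rw [map_sub]
  exact h1

theorem LData.P_lt (D : LData p n h r C) {z : OC C} (hz : ‖z‖ < 1) : ‖D.P z‖ < 1 :=
  io_ev1_lt _ hz (constantCoeff_mulSeries D.Hx p)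

theorem LData.P_eq (D : LData p n h r C) {z : OC C} (hz : ‖z‖ < 1) :
    D.P z = z ^ (p ^ n) + ev1 (RingHom.id (OC C)) z (mulSeries D.Hx p - PowerSeries.X ^ (p ^ n)) := by
  rw [io_ev1_sub _ hz, io_ev1_Xpow _ hz]
  unfold LData.P
  ring

theorem LData.P_sub_pow_le (D : LData p n h r C) {z : OC C} (hz : ‖z‖ < 1) :
    ‖D.P z - z ^ (p ^ n)‖ ≤ D.ε := by
  rw [D.P_eq hz, add_sub_cancel_left]
  exact io_ev1_small _ D.ε0 D.mulSeries_sub_le hz

theorem io_frob_sub (p n : ℕ) [Fact p.Prime] [CharP C p] (a b : OC C) :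
    a ^ (p ^ n) - b ^ (p ^ n) = (a - b) ^ (p ^ n) := by
  have : CharP (OC C) p := OC.charP
  rw [sub_pow_char_pow]

/-- `[p]` contracts. -/
theorem LData.P_contract (D : LData p n h r C) {a b : OC C} (ha : ‖a‖ < 1) (hb : ‖b‖ < 1)
    {ρ : ℝ} (hab : ‖a - b‖ ≤ ρ) : ‖D.P a - D.P b‖ ≤ max ρ D.ε * ‖a - b‖ := by
  rw [D.P_eq ha, D.P_eq hb]
  have h1 : a ^ (p ^ n) + ev1 (RingHom.id (OC C)) a (mulSeries D.Hx p - PowerSeries.X ^ (p ^ n))
      - (b ^ (p ^ n) + ev1 (RingHom.id (OC C)) b (mulSeries D.Hx p - PowerSeries.X ^ (p ^ n)))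
      = (a ^ (p ^ n) - b ^ (p ^ n))
        + (ev1 (RingHom.id (OC C)) a (mulSeries D.Hx p - PowerSeries.X ^ (p ^ n))
          - ev1 (RingHom.id (OC C)) b (mulSeries D.Hx p - PowerSeries.X ^ (p ^ n))) := by ring
  rw [h1]
  refine le_trans (io_norm_add_le_max _ _) (max_le ?_ ?_)
  · rw [io_frob_sub p n, io_norm_pow]
    have hn : ‖a - b‖ ≤ 1 := OC.norm_le_one _
    have h0 : 0 ≤ ‖a - b‖ := norm_nonneg _
    calc ‖a - b‖ ^ (p ^ n) ≤ ‖a - b‖ ^ 2 := pow_le_pow_of_le_one h0 hn D.two_le_q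
      _ = ‖a - b‖ * ‖a - b‖ := pow_two _
      _ ≤ max ρ D.ε * ‖a - b‖ := mul_le_mul_of_nonneg_right (le_trans hab (le_max_left _ _)) h0
  · refine le_trans (io_ev1_sub_small _ D.ε0 D.mulSeries_sub_le ha hb) ?_
    exact mul_le_mul_of_nonneg_right (le_max_right _ _) (norm_nonneg _)

theorem LData.P_lip (D : LData p n h r C) {a b : OC C} (ha : ‖a‖ < 1) (hb : ‖b‖ < 1) :
    ‖D.P a - D.P b‖ ≤ ‖a - b‖ := io_ev1_lip _ ha hb

theorem LData.P_zero (D : LData p n h r C) : D.P 0 = 0 := by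
  have hz : ‖(0 : OC C)‖ < 1 := by rw [norm_zero]; exact zero_lt_one
  have h1 := hasSum_ev1 (RingHom.id (OC C)) 0 (io_nilp hz) (mulSeries D.Hx p)
  have h2 : ∀ i, (RingHom.id (OC C)) (PowerSeries.coeff i (mulSeries D.Hx p)) * (0 : OC C) ^ i = 0 := by
    intro i
    rcases Nat.eq_zero_or_pos i with hi | hi
    · subst hi
      rw [PowerSeries.coeff_zero_eq_constantCoeff_apply, constantCoeff_mulSeries]
      simp
    · rw [zero_pow hi.ne', mul_zero]
  simp only [h2] at h1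
  exact h1.unique hasSum_zero

end P

end Crest.Agent.LT
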