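import Mathlib
import Crest.Agent.LT.CDefs
import Crest.Agent.LT.IotaA

/-! # C3, part B: evaluation and Frobenius, homs at points, points of `A` (row 227). -/

set_option autoImplicit false
set_option linter.unusedSectionVars false

namespace Crest.Agent.LT

open Crest.LubinTate MvPowerSeries

section Frob
variable {p n : ℕ} [Fact p.Prime]

theorem io_gal_pow (hn : n ≠ 0) (m : ℕ) (c : GaloisField p n) : c ^ (p ^ (n * m)) = c := by
  have hfin : Finite (GaloisField p n) := inferInstance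
  have : Fintype (GaloisField p n) := Fintype.ofFinite _
  have hc : Fintype.card (GaloisField p n) = p ^ n := by
    rw [← Nat.card_eq_fintype_card]; exact GaloisField.card p n hn
  have h1 := FiniteField.pow_card_pow m c
  rw [hc, ← pow_mul] at h1
  exact h1

variable {C : Type*} [NontriviallyNormedField C] [CompleteSpace C] [IsUltrametricDist C]
  [CharP C p]

theorem io_ev_frob {σ : Type*} [Finite σ] (kx : GaloisField p n →+* OC C) (hn : n ≠ 0) (m : ℕ)
    (a : σ → OC C) (ha : ∀ i, ‖a i‖ < 1) (f : MvPowerSeries σ (GaloisField p n)) :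
    (ev kx a f) ^ (p ^ (n * m)) = ev kx (fun i => (a i) ^ (p ^ (n * m))) f := by
  have hch : CharP (OC C) p := OC.charP
  have hex : ExpChar (OC C) p := ExpChar.prime (Fact.out : p.Prime)
  have hcont : Continuous (iterateFrobenius (OC C) p (n * m)) := by
    show Continuous (fun z : OC C => iterateFrobenius (OC C) p (n * m) z)
    simp only [iterateFrobenius_def]
    exact continuous_pow _
  have h1 := map_ev (iterateFrobenius (OC C) p (n * m)) hcont kx a (fun i => io_nilp (ha i)) f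
  have h2 : (iterateFrobenius (OC C) p (n * m)).comp kx = kx := by
    ext c
    rw [RingHom.comp_apply, iterateFrobenius_def, ← map_pow, io_gal_pow hn]
  rw [h2] at h1
  simp only [iterateFrobenius_def] at h1
  exact h1

theorem io_op_frob (kx : GaloisField p n →+* OC C) (hn : n ≠ 0) (m : ℕ)
    (Γ : FormalGroup (GaloisField p n)) {a b : OC C} (ha : ‖a‖ < 1) (hb : ‖b‖ < 1) :
    (op Γ kx a b) ^ (p ^ (n * m)) = op Γ kx (a ^ (p ^ (n * m))) (b ^ (p ^ (n * m))) := by
  unfold op
  rw [io_ev_frob kx hn m ![a, b] (by intro i; fin_cases i <;> assumption)]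
  congr 1
  funext i
  fin_cases i <;> rfl

theorem io_ev1_frob (kx : GaloisField p n →+* OC C) (hn : n ≠ 0) (m : ℕ)
    (g : PowerSeries (GaloisField p n)) {a : OC C} (ha : ‖a‖ < 1) :
    (ev1 kx a g) ^ (p ^ (n * m)) = ev1 kx (a ^ (p ^ (n * m))) g := by
  unfold ev1
  rw [io_ev_frob kx hn m (fun _ => a) (fun _ => ha)]

end Frob

section Hom
variable {C : Type*} [NontriviallyNormedField C] [CompleteSpace C] [IsUltrametricDist C]
variable {R : Type*} [CommRing R]

theorem io_pair_nilp {a b : OC C} (ha : ‖a‖ < 1) (hb : ‖b‖ < 1) :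
    ∀ i : Fin 2, IsTopologicallyNilpotent (![a, b] i) := by
  intro i
  fin_cases i
  · exact io_nilp ha
  · exact io_nilp hb

theorem io_op_lt (F : FormalGroup R) (φ : R →+* OC C) {a b : OC C} (ha : ‖a‖ < 1)
    (hb : ‖b‖ < 1) : ‖op F φ a b‖ < 1 :=
  io_lt_one (isTopologicallyNilpotent_ev' φ _ (io_pair_nilp ha hb) _ F.zero_constantCoeff)

theorem io_hom_op {F G : FormalGroup R} {θ : PowerSeries R} (hθ : IsFGHom F G θ) (φ : R →+* OC C)
    {a b : OC C} (ha : ‖a‖ < 1) (hb : ‖b‖ < 1) :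
    ev1 φ (op F φ a b) θ = op G φ (ev1 φ a θ) (ev1 φ b θ) := by
  have hab := io_pair_nilp ha hb
  have h1 := congrArg (ev φ ![a, b]) hθ.2
  rw [ev_subst1 φ _ hab _ F.zero_constantCoeff] at h1
  have h0 : MvPowerSeries.constantCoeff (MvPowerSeries.X (0 : Fin 2) : MvPowerSeries (Fin 2) R) = 0 := by
    simp
  have h0' : MvPowerSeries.constantCoeff (MvPowerSeries.X (1 : Fin 2) : MvPowerSeries (Fin 2) R) = 0 := by
    simp
  have hsub : ∀ b : MvPowerSeries (Fin 2) R, MvPowerSeries.constantCoeff b = 0 →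
      MvPowerSeries.constantCoeff (PowerSeries.subst b θ) = 0 := by
    intro b hb
    have hb' : PowerSeries.HasSubst b := by
      apply PowerSeries.HasSubst.of_constantCoeff_zero hb
    rw [PowerSeries.constantCoeff_subst hb']
    apply finsum_eq_zero_of_forall_eq_zero
    intro d
    rcases Nat.eq_zero_or_pos d with hd | hd
    · subst hd
      rw [PowerSeries.coeff_zero_eq_constantCoeff_apply, hθ.1, zero_smul]
    · rw [map_pow, hb, zero_pow hd.ne', smul_zero]
  rw [ev_subst φ _ hab _ (by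
    intro i
    fin_cases i
    · exact hsub _ h0
    · exact hsub _ h0')] at h1
  unfold op
  rw [h1]
  congr 1
  funext i
  fin_cases i
  · show ev φ ![a, b] (PowerSeries.subst (MvPowerSeries.X (0 : Fin 2)) θ) = ev1 φ a θ
    rw [ev_subst1 φ _ hab _ h0, ev_X φ _ hab]
    rfl
  · show ev φ ![a, b] (PowerSeries.subst (MvPowerSeries.X (1 : Fin 2)) θ) = ev1 φ b θ
    rw [ev_subst1 φ _ hab _ h0', ev_X φ _ hab]
    rfl

theorem io_comp_mul {F G : FormalGroup R} {θ : PowerSeries R} (hθ : IsFGHom F G θ)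
    (φ : R →+* OC C) (m : ℕ) {z : OC C} (hz : ‖z‖ < 1) :
    ev1 φ (ev1 φ z (mulSeries F m)) θ = ev1 φ (ev1 φ z θ) (mulSeries G m) := by
  rw [← ev1_subst φ z (io_nilp hz) _ (constantCoeff_mulSeries F m),
    ← ev1_subst φ z (io_nilp hz) _ hθ.1, IsFGHom.comp_mulSeries hθ m]

theorem io_ev_sub_coeff {σ : Type*} [Finite σ] (φ : R →+* OC C) (a : σ → OC C)
    (ha : ∀ i, ‖a i‖ < 1) (f g : MvPowerSeries σ R) {ε : ℝ} (hε : 0 ≤ ε)
    (h : ∀ d, ‖φ (MvPowerSeries.coeff d f) - φ (MvPowerSeries.coeff d g)‖ ≤ ε) :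
    ‖ev φ a f - ev φ a g‖ ≤ ε := by
  have h1 := hasSum_ev φ a (fun i => io_nilp (ha i)) f
  have h2 := hasSum_ev φ a (fun i => io_nilp (ha i)) g
  refine io_hasSum_le (h1.sub h2) hε (fun d => ?_)
  rw [← sub_mul, io_norm_mul]
  have h3 : ‖d.prod (fun i e => a i ^ e)‖ ≤ 1 := OC.norm_le_one _
  have h4 := h d
  nlinarith [norm_nonneg (φ (MvPowerSeries.coeff d f) - φ (MvPowerSeries.coeff d g)),
    norm_nonneg (d.prod (fun i e => a i ^ e))]

theorem io_ev1_sub_coeff (φ : R →+* OC C) {z : OC C} (hz : ‖z‖ < 1) (f g : PowerSeries R)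
    {ε : ℝ} (hε : 0 ≤ ε)
    (h : ∀ i, ‖φ (PowerSeries.coeff i f) - φ (PowerSeries.coeff i g)‖ ≤ ε) :
    ‖ev1 φ z f - ev1 φ z g‖ ≤ ε := by
  have h1 := hasSum_ev1 φ z (io_nilp hz) f
  have h2 := hasSum_ev1 φ z (io_nilp hz) g
  refine io_hasSum_le (h1.sub h2) hε (fun d => ?_)
  rw [← sub_mul, io_norm_mul]
  have h3 : ‖z ^ d‖ ≤ 1 := OC.norm_le_one _
  have h4 := h d
  nlinarith [norm_nonneg (φ (PowerSeries.coeff d f) - φ (PowerSeries.coeff d g)),
    norm_nonneg (z ^ d)]

end Hom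

section Points
variable {C : Type*} [NontriviallyNormedField C] [CompleteSpace C] [IsUltrametricDist C]

theorem io_sum_le {ι : Type*} (s : Finset ι) (g : ι → OC C) {B : ℝ} (hB : 0 ≤ B)
    (h : ∀ i ∈ s, ‖g i‖ ≤ B) : ‖∑ i ∈ s, g i‖ ≤ B := by
  classical
  induction s using Finset.induction_on with
  | empty => simpa using hB
  | insert a t ha ih =>
    rw [Finset.sum_insert ha]
    exact le_trans (io_norm_add_le_max _ _) (max_le (h a (Finset.mem_insert_self _ _))
      (ih (fun i hi => h i (Finset.mem_insert_of_mem hi))))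

theorem io_point_small {r : ℕ} {k : Type*} [CommRing k] (x : MvPowerSeries (Fin r) k →+* OC C)
    {ε : ℝ} (hε : 0 ≤ ε) (hx : ∀ i, ‖x (MvPowerSeries.X i)‖ ≤ ε) (N : ℕ) :
    ∀ f : MvPowerSeries (Fin r) k,
      (∀ d : Fin r →₀ ℕ, d.degree < N → MvPowerSeries.coeff d f = 0) → ‖x f‖ ≤ ε ^ N := by
  induction N with
  | zero => intro f _; rw [pow_zero]; exact OC.norm_le_one _
  | succ N ih =>
    intro f hf
    obtain ⟨g, hg, rfl⟩ := io_decomp N f hf
    rw [map_sum]
    apply io_sum_le _ _ (by positivity)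
    intro i _
    rw [map_mul, io_norm_mul, pow_succ, mul_comm (ε ^ N)]
    exact mul_le_mul (hx i) (ih (g i) (hg i)) (norm_nonneg _) hε

end Points

end Crest.Agent.LT
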