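import Mathlib
import Crest.Agent.LT.CDefs
import Crest.Agent.LT.IotaA
import Crest.Agent.LT.IotaB

/-! # C3: the map `ι : Γ(m_C) → H_x(m_C)` (row 227). Paper proof: ideas row 227, C3. -/

set_option autoImplicit false
set_option linter.unusedSectionVars false

namespace Crest.Agent.LT

open Crest.LubinTate MvPowerSeries

variable {p n h r : ℕ} [Fact p.Prime]
variable {C : Type*} [NontriviallyNormedField C] [CompleteSpace C] [IsUltrametricDist C]
  [CharP C p] [IsAlgClosed C]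

/-- `p^N`-th root in `OC C` -/
theorem OC.exists_root (p : ℕ) [Fact p.Prime] [CharP C p] (N : ℕ) (z : OC C) :
    ∃ y : OC C, y ^ (p ^ N) = z := by
  have hpos : 0 < p ^ N := pow_pos (Fact.out : p.Prime).pos N
  obtain ⟨y, hy⟩ := IsAlgClosed.exists_pow_nat_eq (z : C) hpos
  have hn : ‖y‖ ≤ 1 := by
    have h1 : ‖y‖ ^ (p ^ N) ≤ 1 := by
      rw [← norm_pow, hy]; exact OC.norm_le_one z
    by_contra h
    push Not at h
    exact absurd h1 (not_le.2 (one_lt_pow₀ h hpos.ne'))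
  exact ⟨⟨y, hn⟩, Subtype.ext hy⟩

noncomputable def rt (p : ℕ) [Fact p.Prime] [CharP C p] (N : ℕ) (z : OC C) : OC C :=
  (OC.exists_root p N z).choose

theorem rt_pow (N : ℕ) (z : OC C) : (rt p N z) ^ (p ^ N) = z := (OC.exists_root p N z).choose_spec

theorem rt_unique (N : ℕ) (z y : OC C) (hy : y ^ (p ^ N) = z) : rt p N z = y := by
  have h1 : (rt p N z) ^ (p ^ N) - y ^ (p ^ N) = 0 := by rw [rt_pow, hy, sub_self]
  rw [io_frob_sub p N] at h1
  exact sub_eq_zero.1 (pow_eq_zero_iff (pow_ne_zero N (Fact.out : p.Prime).ne_zero) |>.1 h1)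

theorem rt_zero (z : OC C) : rt p 0 z = z := rt_unique 0 z z (by simp)

theorem rt_lt (N : ℕ) {z : OC C} (hz : ‖z‖ < 1) : ‖rt p N z‖ < 1 := by
  have h1 : ‖rt p N z‖ ^ (p ^ N) < 1 := by
    rw [← io_norm_pow, rt_pow]; exact hz
  by_contra h
  push Not at h
  exact absurd h1 (not_lt.2 (one_le_pow₀ h))

theorem rt_succ (m : ℕ) (z : OC C) : (rt p (n * (m + 1)) z) ^ (p ^ n) = rt p (n * m) z := by
  symm
  apply rt_unique
  rw [← pow_mul, ← pow_add]
  have : n + n * m = n * (m + 1) := by ring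
  rw [this, rt_pow]

theorem rt_pow_q (m : ℕ) (z : OC C) : rt p (n * (m + 1)) (z ^ (p ^ n)) = rt p (n * m) z := by
  apply rt_unique
  have : p ^ (n * (m + 1)) = p ^ (n * m) * p ^ n := by rw [← pow_add]; congr 1
  rw [this, pow_mul, rt_pow]

/-- `[p]`-contraction: sequences of `p`-power divisions which stay uniformly close agree. -/
theorem LData.contraction (D : LData p n h r C) (w w' : ℕ → OC C) (hw : ∀ m, ‖w m‖ < 1)
    (hw' : ∀ m, ‖w' m‖ < 1)
    (hp : ∀ m, ev1 (RingHom.id (OC C)) (w (m + 1)) (mulSeries D.Hx p) = w m)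
    (hp' : ∀ m, ev1 (RingHom.id (OC C)) (w' (m + 1)) (mulSeries D.Hx p) = w' m)
    {ρ : ℝ} (hρ : ρ < 1) (hc : ∀ m, ‖w m - w' m‖ ≤ ρ) : w 0 = w' 0 := by
  set c : ℝ := max ρ D.ε with hcdef
  have hc0 : 0 ≤ c := le_trans D.ε0 (le_max_right _ _)
  have hc1 : c < 1 := max_lt hρ D.ε1
  have h1 : ∀ m k, ‖w k - w' k‖ ≤ c ^ m * ‖w (k + m) - w' (k + m)‖ := by
    intro m
    induction m with
    | zero => intro k; simp
    | succ m ih =>
      intro k
      refine le_trans (ih k) ?_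
      have h2 : ‖w (k + m) - w' (k + m)‖ ≤ c * ‖w (k + m + 1) - w' (k + m + 1)‖ := by
        have := D.P_contract (hw (k + m + 1)) (hw' (k + m + 1)) (hc (k + m + 1))
        unfold LData.P at this
        rwa [hp (k + m), hp' (k + m)] at this
      calc c ^ m * ‖w (k + m) - w' (k + m)‖ ≤ c ^ m * (c * ‖w (k + m + 1) - w' (k + m + 1)‖) :=
            mul_le_mul_of_nonneg_left h2 (pow_nonneg hc0 m)
        _ = c ^ (m + 1) * ‖w (k + (m + 1)) - w' (k + (m + 1))‖ := by
            rw [pow_succ]; ring_nf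
  have h3 : ∀ m, ‖w 0 - w' 0‖ ≤ c ^ m := by
    intro m
    refine le_trans (h1 m 0) ?_
    have : ‖w (0 + m) - w' (0 + m)‖ ≤ 1 := OC.norm_le_one _
    nlinarith [pow_nonneg hc0 m]
  have h4 : ‖w 0 - w' 0‖ ≤ 0 :=
    ge_of_tendsto' (tendsto_pow_atTop_nhds_zero_of_lt_one hc0 hc1) h3
  exact sub_eq_zero.1 (norm_le_zero_iff.1 h4)

/-- approximations to `ι` -/
noncomputable def LData.io_a (D : LData p n h r C) (m : ℕ) (z : OC C) : OC C :=
  (D.P)^[m] (rt p (n * m) z)

theorem LData.P_iter_lt (D : LData p n h r C) (m : ℕ) {z : OC C} (hz : ‖z‖ < 1) :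
    ‖(D.P)^[m] z‖ < 1 := by
  induction m with
  | zero => simpa using hz
  | succ m ih => rw [Function.iterate_succ_apply']; exact D.P_lt ih

theorem LData.P_iter_contract (D : LData p n h r C) (m : ℕ) {a b : OC C} (ha : ‖a‖ < 1)
    (hb : ‖b‖ < 1) {ρ : ℝ} (hρ1 : ρ < 1) (hab : ‖a - b‖ ≤ ρ) :
    ‖(D.P)^[m] a - (D.P)^[m] b‖ ≤ (max ρ D.ε) ^ m * ‖a - b‖ := by
  have hc0 : 0 ≤ max ρ D.ε := le_trans D.ε0 (le_max_right _ _)
  have hc1 : max ρ D.ε < 1 := max_lt hρ1 D.ε1
  induction m with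
  | zero => simp
  | succ m ih =>
    rw [Function.iterate_succ_apply', Function.iterate_succ_apply']
    have h1 : ‖(D.P)^[m] a - (D.P)^[m] b‖ ≤ ρ := by
      refine le_trans ih (le_trans ?_ hab)
      have : (max ρ D.ε) ^ m ≤ 1 := pow_le_one₀ hc0 hc1.le
      nlinarith [norm_nonneg (a - b)]
    refine le_trans (D.P_contract (D.P_iter_lt m ha) (D.P_iter_lt m hb) h1) ?_
    calc max ρ D.ε * ‖(D.P)^[m] a - (D.P)^[m] b‖
        ≤ max ρ D.ε * ((max ρ D.ε) ^ m * ‖a - b‖) := mul_le_mul_of_nonneg_left ih hc0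
      _ = (max ρ D.ε) ^ (m + 1) * ‖a - b‖ := by rw [pow_succ]; ring

theorem LData.io_a_step (D : LData p n h r C) (m : ℕ) {z : OC C} (hz : ‖z‖ < 1) :
    ‖D.io_a m z - D.io_a (m + 1) z‖ ≤ D.ε * D.ε ^ m := by
  have h1 : D.io_a (m + 1) z = (D.P)^[m] (D.P (rt p (n * (m + 1)) z)) := by
    unfold LData.io_a
    rw [Function.iterate_succ_apply]
  have h2 : ‖rt p (n * m) z - D.P (rt p (n * (m + 1)) z)‖ ≤ D.ε := by
    rw [← rt_succ m z, norm_sub_rev]
    exact D.P_sub_pow_le (rt_lt _ hz)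
  rw [h1]
  unfold LData.io_a
  refine le_trans (D.P_iter_contract m (rt_lt _ hz) (D.P_lt (rt_lt _ hz)) D.ε1 h2) ?_
  rw [max_self]
  have := pow_nonneg D.ε0 m
  nlinarith

theorem LData.io_a_lt (D : LData p n h r C) (m : ℕ) {z : OC C} (hz : ‖z‖ < 1) :
    ‖D.io_a m z‖ < 1 := D.P_iter_lt m (rt_lt _ hz)

theorem LData.io_a_close (D : LData p n h r C) (m : ℕ) {z : OC C} (hz : ‖z‖ < 1) :
    ‖D.io_a m z - z‖ ≤ D.ε := by
  induction m with
  | zero =>
    unfold LData.io_a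
    rw [Function.iterate_zero_apply, Nat.mul_zero, rt_zero, sub_self, norm_zero]
    exact D.ε0
  | succ m ih =>
    apply io_tri _ (D.io_a m z) _ _ ih
    rw [norm_sub_rev]
    refine le_trans (D.io_a_step m hz) ?_
    have : D.ε ^ m ≤ 1 := pow_le_one₀ D.ε0 D.ε1.le
    nlinarith [D.ε0]

theorem LData.io_a_pow (D : LData p n h r C) (m : ℕ) (z : OC C) :
    D.io_a (m + 1) (z ^ (p ^ n)) = D.P (D.io_a m z) := by
  unfold LData.io_a
  rw [Function.iterate_succ_apply', rt_pow_q]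

theorem LData.io_lim (D : LData p n h r C) {z : OC C} (hz : ‖z‖ < 1) :
    ∃ l : OC C, Filter.Tendsto (fun m => D.io_a m z) Filter.atTop (nhds l) := by
  have hc : CauchySeq (fun m => D.io_a m z) := by
    apply cauchySeq_of_le_geometric D.ε D.ε D.ε1
    intro m
    rw [dist_eq_norm]
    exact D.io_a_step m hz
  exact cauchySeq_tendsto_of_complete hc

/-- existence of `ι` -/
theorem LData.exists_iota (D : LData p n h r C) : ∃ ι : OC C → OC C,
    (∀ z, ‖z‖ < 1 → ‖ι z‖ < 1) ∧ (∀ z, ‖z‖ < 1 → ‖ι z - z‖ ≤ D.ε) ∧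
    (∀ z, ‖z‖ < 1 → ι (z ^ (p ^ n)) = ev1 (RingHom.id (OC C)) (ι z) (mulSeries D.Hx p)) := by
  classical
  have hex : ∀ z : OC C, ∃ l : OC C, ‖z‖ < 1 →
      Filter.Tendsto (fun m => D.io_a m z) Filter.atTop (nhds l) := by
    intro z
    by_cases hz : ‖z‖ < 1
    · obtain ⟨l, hl⟩ := D.io_lim hz
      exact ⟨l, fun _ => hl⟩
    · exact ⟨0, fun h => absurd h hz⟩
  choose ι hι using hex
  have hclose : ∀ z, ‖z‖ < 1 → ‖ι z - z‖ ≤ D.ε := by
    intro z hz
    have h1 : Filter.Tendsto (fun m => ‖D.io_a m z - z‖) Filter.atTop (nhds ‖ι z - z‖) :=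
      ((hι z hz).sub_const z).norm
    exact le_of_tendsto' h1 (fun m => D.io_a_close m hz)
  have hlt : ∀ z, ‖z‖ < 1 → ‖ι z‖ < 1 := fun z hz =>
    io_lt_of_sub _ z hz (lt_of_le_of_lt (hclose z hz) D.ε1)
  refine ⟨ι, hlt, hclose, ?_⟩
  intro z hz
  have hzq : ‖z ^ (p ^ n)‖ < 1 := by
    rw [io_norm_pow]
    exact pow_lt_one₀ (norm_nonneg _) hz (by have := D.two_le_q; omega)
  have h1 : Filter.Tendsto (fun m => D.io_a (m + 1) (z ^ (p ^ n))) Filter.atTop
      (nhds (ι (z ^ (p ^ n)))) := (hι _ hzq).comp (Filter.tendsto_add_atTop_nat 1)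
  have h2 : Filter.Tendsto (fun m => D.P (D.io_a m z)) Filter.atTop (nhds (D.P (ι z))) := by
    rw [tendsto_iff_norm_sub_tendsto_zero]
    have h3 := tendsto_iff_norm_sub_tendsto_zero.1 (hι z hz)
    refine squeeze_zero (fun _ => norm_nonneg _) (fun m => ?_) h3
    exact D.P_lip (D.io_a_lt m hz) (hlt z hz)
  have h4 : (fun m => D.io_a (m + 1) (z ^ (p ^ n))) = fun m => D.P (D.io_a m z) := by
    funext m; exact D.io_a_pow m z
  rw [h4] at h1
  exact tendsto_nhds_unique h1 h2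

noncomputable def LData.iota (D : LData p n h r C) : OC C → OC C := D.exists_iota.choose

theorem LData.iota_lt (D : LData p n h r C) {z : OC C} (hz : ‖z‖ < 1) : ‖D.iota z‖ < 1 :=
  D.exists_iota.choose_spec.1 z hz

theorem LData.iota_sub_le (D : LData p n h r C) {z : OC C} (hz : ‖z‖ < 1) :
    ‖D.iota z - z‖ ≤ D.ε :=
  D.exists_iota.choose_spec.2.1 z hz

theorem LData.iota_pow (D : LData p n h r C) {z : OC C} (hz : ‖z‖ < 1) :
    D.iota (z ^ (p ^ n)) = ev1 (RingHom.id (OC C)) (D.iota z) (mulSeries D.Hx p) :=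
  D.exists_iota.choose_spec.2.2 z hz

theorem LData.iota_unique (D : LData p n h r C) (f : OC C → OC C) (hf : ∀ z, ‖z‖ < 1 → ‖f z‖ < 1)
    {ρ : ℝ} (hρ : ρ < 1) (hfc : ∀ z, ‖z‖ < 1 → ‖f z - z‖ ≤ ρ)
    (hfp : ∀ z, ‖z‖ < 1 → f (z ^ (p ^ n)) = ev1 (RingHom.id (OC C)) (f z) (mulSeries D.Hx p))
    {z : OC C} (hz : ‖z‖ < 1) : f z = D.iota z := by
  have key := D.contraction (fun m => f (rt p (n * m) z)) (fun m => D.iota (rt p (n * m) z))
    (fun m => hf _ (rt_lt _ hz)) (fun m => D.iota_lt (rt_lt _ hz))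
    (fun m => by
      show ev1 (RingHom.id (OC C)) (f (rt p (n * (m + 1)) z)) (mulSeries D.Hx p) = _
      rw [← hfp _ (rt_lt _ hz), rt_succ])
    (fun m => by
      show ev1 (RingHom.id (OC C)) (D.iota (rt p (n * (m + 1)) z)) (mulSeries D.Hx p) = _
      rw [← D.iota_pow (rt_lt _ hz), rt_succ])
    (ρ := max ρ D.ε) (max_lt hρ D.ε1)
    (fun m => by
      apply io_tri _ (rt p (n * m) z)
      · exact le_trans (hfc _ (rt_lt _ hz)) (le_max_left _ _)
      · rw [norm_sub_rev]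
        exact le_trans (D.iota_sub_le (rt_lt _ hz)) (le_max_right _ _))
  simpa [rt_zero] using key

theorem LData.iota_zero (D : LData p n h r C) : D.iota 0 = 0 := by
  have hz : ‖(0 : OC C)‖ < 1 := by rw [norm_zero]; exact zero_lt_one
  have hq : (0 : OC C) ^ (p ^ n) = 0 := zero_pow (by have := D.two_le_q; omega)
  exact D.contraction (fun _ => D.iota 0) (fun _ => 0) (fun _ => D.iota_lt hz) (fun _ => hz)
    (fun m => by
      show ev1 (RingHom.id (OC C)) (D.iota 0) (mulSeries D.Hx p) = _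
      rw [← D.iota_pow hz, hq])
    (fun m => D.P_zero) D.ε1 (fun m => D.iota_sub_le hz)

theorem LData.n_ne (D : LData p n h r C) : n ≠ 0 := by
  have := D.hh; have := D.hn; omega

theorem LData.op_close (D : LData p n h r C) {a b a' b' : OC C} (ha : ‖a‖ < 1) (hb : ‖b‖ < 1)
    (ha' : ‖a'‖ < 1) (hb' : ‖b'‖ < 1) (h1 : ‖a' - a‖ ≤ D.ε) (h2 : ‖b' - b‖ ≤ D.ε) :
    ‖op D.Γ D.kx a b - op D.Hx (RingHom.id (OC C)) a' b'‖ ≤ D.ε := by
  have hab : ∀ i : Fin 2, ‖(![a, b] : Fin 2 → OC C) i‖ < 1 := by intro i; fin_cases i <;> assumption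
  have hab' : ∀ i : Fin 2, ‖(![a', b'] : Fin 2 → OC C) i‖ < 1 := by
    intro i; fin_cases i <;> assumption
  have e1 : op D.Γ D.kx a b = ev (RingHom.id (OC C)) ![a, b]
      (MvPowerSeries.map D.kx D.Γ.toPowerSeries) := by
    rw [ev_map _ _ _ (fun i => io_nilp (hab i))]
    rfl
  apply io_tri _ (ev (RingHom.id (OC C)) ![a, b] D.Hx.toPowerSeries)
  · rw [e1, norm_sub_rev]
    apply io_ev_sub_coeff _ _ hab _ _ D.ε0
    intro d
    rw [MvPowerSeries.coeff_map]
    exact D.hε d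
  · unfold op
    apply OC.norm_ev_sub_le _ _ _ hab hab' D.ε0
    intro i
    fin_cases i
    · show ‖a - a'‖ ≤ D.ε
      rw [norm_sub_rev]; exact h1
    · show ‖b - b'‖ ≤ D.ε
      rw [norm_sub_rev]; exact h2

/-- `ι` is a homomorphism -/
theorem LData.iota_op (D : LData p n h r C) {z w : OC C} (hz : ‖z‖ < 1) (hw : ‖w‖ < 1) :
    D.iota (op D.Γ D.kx z w) = op D.Hx (RingHom.id (OC C)) (D.iota z) (D.iota w) := by
  have hr : ∀ m, ‖rt p (n * m) z‖ < 1 := fun m => rt_lt _ hz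
  have hs : ∀ m, ‖rt p (n * m) w‖ < 1 := fun m => rt_lt _ hw
  have hop : ∀ m, ‖op D.Γ D.kx (rt p (n * m) z) (rt p (n * m) w)‖ < 1 := fun m =>
    io_op_lt _ _ (hr m) (hs m)
  have := D.Hcomm
  have key := D.contraction (fun m => D.iota (op D.Γ D.kx (rt p (n * m) z) (rt p (n * m) w)))
    (fun m => op D.Hx (RingHom.id (OC C)) (D.iota (rt p (n * m) z)) (D.iota (rt p (n * m) w)))
    (fun m => D.iota_lt (hop m))
    (fun m => io_op_lt _ _ (D.iota_lt (hr m)) (D.iota_lt (hs m)))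
    (fun m => by
      show ev1 (RingHom.id (OC C)) (D.iota (op D.Γ D.kx (rt p (n * (m + 1)) z)
        (rt p (n * (m + 1)) w))) (mulSeries D.Hx p) = _
      rw [← D.iota_pow (hop (m + 1))]
      have h1 := io_op_frob D.kx D.n_ne 1 D.Γ (hr (m + 1)) (hs (m + 1))
      rw [mul_one] at h1
      rw [h1, rt_succ, rt_succ])
    (fun m => by
      show ev1 (RingHom.id (OC C)) (op D.Hx (RingHom.id (OC C)) (D.iota (rt p (n * (m + 1)) z))
        (D.iota (rt p (n * (m + 1)) w))) (mulSeries D.Hx p) = _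
      rw [io_hom_op (isFGHom_mulSeries D.Hx p) (RingHom.id (OC C)) (D.iota_lt (hr (m + 1)))
        (D.iota_lt (hs (m + 1))), ← D.iota_pow (hr (m + 1)), ← D.iota_pow (hs (m + 1)),
        rt_succ, rt_succ])
    D.ε1
    (fun m => by
      apply io_tri _ (op D.Γ D.kx (rt p (n * m) z) (rt p (n * m) w))
      · exact D.iota_sub_le (hop m)
      · exact D.op_close (hr m) (hs m) (D.iota_lt (hr m)) (D.iota_lt (hs m))
          (D.iota_sub_le (hr m)) (D.iota_sub_le (hs m)))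
  simpa [rt_zero] using key

/-- naturality: a hom `θ : H_{x'} → H_x` reducing to `g ∈ k[[X]]`. -/
theorem LData.iota_hom (D D' : LData p n h r C) (hkx : D'.kx = D.kx)
    (θ : PowerSeries (OC C)) (hθ : IsFGHom D'.Hx D.Hx θ) (g : PowerSeries (GaloisField p n))
    (hg0 : PowerSeries.constantCoeff g = 0) {ρ : ℝ} (hρ : ρ < 1)
    (hg : ∀ i, ‖PowerSeries.coeff i θ - D.kx (PowerSeries.coeff i g)‖ ≤ ρ)
    {z : OC C} (hz : ‖z‖ < 1) :
    ev1 (RingHom.id (OC C)) (D'.iota z) θ = D.iota (ev1 D.kx z g) := by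
  have hr : ∀ m, ‖rt p (n * m) z‖ < 1 := fun m => rt_lt _ hz
  have hg' : ∀ m, ‖ev1 D.kx (rt p (n * m) z) g‖ < 1 := fun m => io_ev1_lt _ (hr m) hg0
  have hρ0 : 0 ≤ ρ := le_trans (norm_nonneg _) (hg 0)
  have key := D.contraction (fun m => ev1 (RingHom.id (OC C)) (D'.iota (rt p (n * m) z)) θ)
    (fun m => D.iota (ev1 D.kx (rt p (n * m) z) g))
    (fun m => io_ev1_lt _ (D'.iota_lt (hr m)) hθ.1)
    (fun m => D.iota_lt (hg' m))
    (fun m => by
      show ev1 (RingHom.id (OC C)) (ev1 (RingHom.id (OC C)) (D'.iota (rt p (n * (m + 1)) z)) θ)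
        (mulSeries D.Hx p) = _
      rw [← io_comp_mul hθ _ p (D'.iota_lt (hr (m + 1))), ← D'.iota_pow (hr (m + 1)), rt_succ])
    (fun m => by
      show ev1 (RingHom.id (OC C)) (D.iota (ev1 D.kx (rt p (n * (m + 1)) z) g))
        (mulSeries D.Hx p) = _
      rw [← D.iota_pow (hg' (m + 1))]
      have h1 := io_ev1_frob D.kx D.n_ne 1 g (hr (m + 1))
      rw [mul_one] at h1
      rw [h1, rt_succ])
    (ρ := max (max D'.ε ρ) D.ε) (max_lt (max_lt D'.ε1 hρ) D.ε1)
    (fun m => by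
      have e1 : ev1 D.kx (rt p (n * m) z) g
          = ev1 (RingHom.id (OC C)) (rt p (n * m) z) (PowerSeries.map D.kx g) := by
        rw [ev1_map _ _ _ (io_nilp (hr m))]
        rfl
      apply io_tri _ (ev1 (RingHom.id (OC C)) (rt p (n * m) z) θ)
      · refine le_trans (io_ev1_lip θ (D'.iota_lt (hr m)) (hr m)) ?_
        exact le_trans (D'.iota_sub_le (hr m)) (le_trans (le_max_left _ _) (le_max_left _ _))
      · apply io_tri _ (ev1 D.kx (rt p (n * m) z) g)
        · rw [e1]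
          refine le_trans (io_ev1_sub_coeff _ (hr m) _ _ hρ0 (fun i => ?_))
            (le_trans (le_max_right D'.ε ρ) (le_max_left _ _))
          rw [PowerSeries.coeff_map]
          exact hg i
        · rw [norm_sub_rev]
          exact le_trans (D.iota_sub_le (hg' m)) (le_max_right _ _))
  simpa [rt_zero] using key

theorem CData.x_X_lt (D : CData p n h r C) (i : Fin r) : ‖D.x (MvPowerSeries.X i)‖ < 1 :=
  D.xlt _ (by simp)

/-- a point is given by evaluation -/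
theorem CData.point_eq_ev (D : CData p n h r C) (f : MvPowerSeries (Fin r) (GaloisField p n)) :
    D.x f = ev (D.x.comp MvPowerSeries.C) (fun i => D.x (MvPowerSeries.X i)) f := by
  apply ev_unique
  · intro i; exact io_nilp (D.x_X_lt i)
  · intro c; rfl
  · intro i; rfl
  · intro U hU
    obtain ⟨ε, hε0, hε1, hε⟩ := D.exists_eps
    obtain ⟨δ, hδ, hball⟩ := Metric.mem_nhds_iff.1 hU
    obtain ⟨N, hN⟩ := exists_pow_lt_of_lt_one hδ hε1
    refine ⟨N, fun f hf => hball ?_⟩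
    rw [mem_ball_zero_iff]
    exact lt_of_le_of_lt (io_point_small D.x hε0 (fun i => hε _ (by simp)) N f hf) hN

/-- Lipschitz for all elements of `A` -/
theorem CData.point_close (D : CData p n h r C)
    (x' : MvPowerSeries (Fin r) (GaloisField p n) →+* OC C) (hx' : D.IsPoint x') {η : ℝ}
    (hη : ∀ i, ‖x' (MvPowerSeries.X i) - D.x (MvPowerSeries.X i)‖ ≤ η)
    (f : MvPowerSeries (Fin r) (GaloisField p n)) : ‖x' f - D.x f‖ ≤ η := by
  have hη0 : 0 ≤ η := le_trans (norm_nonneg _) (hη ⟨0, D.hr⟩)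
  have h1 := D.point_eq_ev f
  have h2 := (D.at x' hx').point_eq_ev f
  have hc : x'.comp MvPowerSeries.C = D.x.comp MvPowerSeries.C := by
    ext c
    exact congrArg _ (hx'.const c)
  have h2' : x' f = ev (D.x.comp MvPowerSeries.C) (fun i => x' (MvPowerSeries.X i)) f := by
    rw [← hc]; exact h2
  rw [h1, h2']
  exact OC.norm_ev_sub_le _ _ _ (fun i => (D.at x' hx').x_X_lt i) (fun i => D.x_X_lt i) hη0 hη f

/-- `ι` depends on the point in a Lipschitz way -/
theorem CData.iota_close (D : CData p n h r C)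
    (x' : MvPowerSeries (Fin r) (GaloisField p n) →+* OC C) (hx' : D.IsPoint x') {η : ℝ}
    (hη : ∀ i, ‖x' (MvPowerSeries.X i) - D.x (MvPowerSeries.X i)‖ ≤ η)
    {z : OC C} (hz : ‖z‖ < 1) :
    ‖(D.at x' hx').toLData.iota z - D.toLData.iota z‖ ≤ η := by
  have hη0 : 0 ≤ η := le_trans (norm_nonneg _) (hη ⟨0, D.hr⟩)
  set L := D.toLData with hL
  set L' := (D.at x' hx').toLData with hL'
  have hPP : ∀ a : OC C, ‖a‖ < 1 → ‖L'.P a - L.P a‖ ≤ η := by
    intro a ha
    show ‖ev1 (RingHom.id (OC C)) a (mulSeries (D.H.map x') p)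
      - ev1 (RingHom.id (OC C)) a (mulSeries (D.H.map D.x) p)‖ ≤ η
    apply io_ev1_sub_coeff _ ha _ _ hη0
    intro i
    rw [mulSeries_map, mulSeries_map, PowerSeries.coeff_map, PowerSeries.coeff_map]
    exact D.point_close x' hx' hη _
  set E : ℝ := max L'.ε L.ε with hE
  have hE0 : 0 ≤ E := le_trans L.ε0 (le_max_right _ _)
  have hE1 : E < 1 := max_lt L'.ε1 L.ε1
  have hr : ∀ m, ‖rt p (n * m) z‖ < 1 := fun m => rt_lt _ hz
  have hclose : ∀ m, ‖L'.iota (rt p (n * m) z) - L.iota (rt p (n * m) z)‖ ≤ E := by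
    intro m
    apply io_tri _ (rt p (n * m) z)
    · exact le_trans (L'.iota_sub_le (hr m)) (le_max_left _ _)
    · rw [norm_sub_rev]; exact le_trans (L.iota_sub_le (hr m)) (le_max_right _ _)
  have hstep : ∀ m, ‖L'.iota (rt p (n * m) z) - L.iota (rt p (n * m) z)‖
      ≤ max η (E * ‖L'.iota (rt p (n * (m + 1)) z) - L.iota (rt p (n * (m + 1)) z)‖) := by
    intro m
    have e1 : L'.iota (rt p (n * m) z) = L'.P (L'.iota (rt p (n * (m + 1)) z)) := by
      have := L'.iota_pow (hr (m + 1))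
      rw [rt_succ] at this
      exact this
    have e2 : L.iota (rt p (n * m) z) = L.P (L.iota (rt p (n * (m + 1)) z)) := by
      have := L.iota_pow (hr (m + 1))
      rw [rt_succ] at this
      exact this
    rw [e1, e2]
    apply io_tri _ (L.P (L'.iota (rt p (n * (m + 1)) z)))
    · exact le_trans (hPP _ (L'.iota_lt (hr (m + 1)))) (le_max_left _ _)
    · refine le_trans (L.P_contract (L'.iota_lt (hr (m + 1))) (L.iota_lt (hr (m + 1)))
        (hclose (m + 1))) (le_trans (le_of_eq ?_) (le_max_right _ _))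
      rw [max_eq_left (le_max_right L'.ε L.ε)]
  have hall : ∀ k m, ‖L'.iota (rt p (n * m) z) - L.iota (rt p (n * m) z)‖ ≤ max η (E ^ k) := by
    intro k
    induction k with
    | zero => intro m; rw [pow_zero]; exact le_trans (OC.norm_le_one _) (le_max_right _ _)
    | succ k ih =>
      intro m
      refine le_trans (hstep m) (max_le (le_max_left _ _) ?_)
      have h1 := ih (m + 1)
      have h2 : E * ‖L'.iota (rt p (n * (m + 1)) z) - L.iota (rt p (n * (m + 1)) z)‖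
          ≤ E * max η (E ^ k) := mul_le_mul_of_nonneg_left h1 hE0
      refine le_trans h2 ?_
      rw [mul_max_of_nonneg _ _ hE0]
      apply max_le_max
      · nlinarith
      · rw [pow_succ, mul_comm]
  have hlim : Filter.Tendsto (fun k => max η (E ^ k)) Filter.atTop (nhds (max η 0)) :=
    tendsto_const_nhds.max (tendsto_pow_atTop_nhds_zero_of_lt_one hE0 hE1)
  rw [max_eq_left hη0] at hlim
  have := ge_of_tendsto' hlim (fun k => hall k 0)
  simpa [rt_zero] using this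

end Crest.Agent.LT
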