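import Mathlib
import Crest.Agent.LT.CDefs

/-! # C2, part 1: construction of `Log` (row 227) -/

set_option autoImplicit false
set_option linter.unusedSectionVars false

namespace Crest.Agent.LT

open Crest.LubinTate MvPowerSeries

namespace LogC

section General

variable {R : Type*} [CommRing R] {S : Type*} [CommRing S]

/-- transport of structure along the target -/
theorem exists_target (F : FormalGroup R) (θ : PowerSeries R)
    (h0 : PowerSeries.constantCoeff θ = 0) (hu : IsUnit (PowerSeries.coeff 1 θ)) :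
    ∃ G : FormalGroup R, IsFGHom F G θ ∧ (F.IsComm → G.IsComm) := by
  obtain ⟨G, hG, hc⟩ := exists_conj F (LT93.cinv θ hu) (LT93.constantCoeff_cinv θ hu)
    (LT93.isUnit_coeff_one_cinv θ hu)
  refine ⟨G, ?_, hc⟩
  obtain ⟨ψ, hψ, hψu, h1, h2⟩ := IsFGHom.exists_inv hG (LT93.isUnit_coeff_one_cinv θ hu)
  have : ψ = θ := by
    have e1 : (LT93.ev θ (LT93.cinv θ hu) : PowerSeries R) = PowerSeries.X :=
      LT93.ev_cinv_right θ h0 hu
    have e2 : (LT93.ev θ (LT93.ev (LT93.cinv θ hu) (ψ : PowerSeries R)) : PowerSeries R) = ψ :=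
      LT93.ev_ev_cinv θ h0 hu (LT93.hasSubst_of ψ hψ.1)
    have e3 : (LT93.ev (LT93.cinv θ hu) ψ : PowerSeries R) = PowerSeries.X := h2
    rw [e3, LT93.ev_self_X] at e2
    exact e2.symm
  rw [← this]; exact hψ

theorem target_unique {F G G' : FormalGroup R} {θ : PowerSeries R}
    (h : IsFGHom F G θ) (h' : IsFGHom F G' θ) (hu : IsUnit (PowerSeries.coeff 1 θ)) :
    G = G' := by
  have h1 := LT93.hom_cinv h hu
  have h2 := LT93.hom_cinv h' hu
  exact IsFGHom.source_unique h1 h2 (LT93.isUnit_coeff_one_cinv θ hu)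

theorem mv_map_injective {σ : Type*} {f : R →+* S} (hf : Function.Injective f) :
    Function.Injective (MvPowerSeries.map (σ := σ) f) := by
  intro a b hab
  ext d
  apply hf
  rw [← MvPowerSeries.coeff_map, hab, MvPowerSeries.coeff_map]

theorem ps_map_injective {f : R →+* S} (hf : Function.Injective f) :
    Function.Injective (PowerSeries.map f) := mv_map_injective hf

/-- homs descend along injective maps -/
theorem hom_of_map {f : R →+* S} (hf : Function.Injective f) {F G : FormalGroup R}
    {φ : PowerSeries R} (h : IsFGHom (F.map f) (G.map f) (PowerSeries.map f φ)) :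
    IsFGHom F G φ := by
  have h0 : PowerSeries.constantCoeff φ = 0 := by
    have := h.1
    rw [← PowerSeries.coeff_zero_eq_constantCoeff_apply, PowerSeries.coeff_map] at this
    rw [← PowerSeries.coeff_zero_eq_constantCoeff_apply]
    exact hf (this.trans (_root_.map_zero f).symm)
  apply LT93.hom_of_apply h0
  apply mv_map_injective hf
  have hFX := LT93.hasSubst_op F (LT93.hX (0 : Fin 2)) (LT93.hX 1)
  have h1 := LT93.hom_apply h (LT93.hX (0 : Fin 2)) (LT93.hX 1)
  rw [LT93.map_ev φ f hFX, LT93.map_op F f (LT93.hX 0) (LT93.hX 1),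
    LT93.map_op G f (LT93.hasSubst_ev h0 (LT93.hX 0)) (LT93.hasSubst_ev h0 (LT93.hX 1)),
    LT93.map_ev φ f (LT93.hX 0), LT93.map_ev φ f (LT93.hX 1), MvPowerSeries.map_X,
    MvPowerSeries.map_X]
  exact h1

/-- descent of formal groups along an injective map -/
theorem exists_descent {f : R →+* S} (hf : Function.Injective f) (G' : FormalGroup S)
    (h : ∀ d, ∃ c, f c = MvPowerSeries.coeff d G'.toPowerSeries) :
    ∃ G : FormalGroup R, G.map f = G' := by
  choose c hc using h
  let P : MvPowerSeries (Fin 2) R := fun d => c d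
  have hP : MvPowerSeries.map f P = G'.toPowerSeries := by
    ext d
    rw [MvPowerSeries.coeff_map]
    exact hc d
  have h0 : MvPowerSeries.constantCoeff P = 0 := by
    apply hf
    rw [← MvPowerSeries.constantCoeff_map, hP, G'.zero_constantCoeff, _root_.map_zero]
  have hs : ∀ {a b : MvPowerSeries (Fin 3) R}, PowerSeries.HasSubst a → PowerSeries.HasSubst b →
      MvPowerSeries.map f (MvPowerSeries.subst ![a, b] P) =
        LT93.op G' (MvPowerSeries.map f a) (MvPowerSeries.map f b) := by
    intro a b ha hb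
    rw [MvPowerSeries.map_subst (LT93.hasSubst_pair ha hb), hP]
    unfold LT93.op
    congr 1
    funext i
    fin_cases i <;> rfl
  have hs' : ∀ {a b : MvPowerSeries (Fin 3) R}, PowerSeries.HasSubst a → PowerSeries.HasSubst b →
      PowerSeries.HasSubst (MvPowerSeries.subst ![a, b] P) := by
    intro a b ha hb
    exact MvPowerSeries.IsNilpotent_subst (LT93.hasSubst_pair ha hb) (h0 ▸ IsNilpotent.zero)
  refine ⟨⟨P, h0, ?_, ?_, ?_⟩, ?_⟩
  · apply hf
    rw [← MvPowerSeries.coeff_map, hP, G'.lin_coeff_X, _root_.map_one]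
  · apply hf
    rw [← MvPowerSeries.coeff_map, hP, G'.lin_coeff_Y, _root_.map_one]
  · apply mv_map_injective hf
    have hX := fun i : Fin 3 => LT93.hX (R := R) i
    have hX' := fun i : Fin 3 => LT93.hX (R := S) i
    rw [hs (hs' (hX 0) (hX 1)) (hX 2), hs (hX 0) (hs' (hX 1) (hX 2)), hs (hX 0) (hX 1),
      hs (hX 1) (hX 2), MvPowerSeries.map_X, MvPowerSeries.map_X, MvPowerSeries.map_X,
      LT93.op_assoc G' (hX' 0) (hX' 1) (hX' 2)]
  · ext1
    exact hP

theorem isComm_of_map {f : R →+* S} (hf : Function.Injective f) (F : FormalGroup R)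
    (h : (F.map f).IsComm) : F.IsComm where
  comm := by
    apply mv_map_injective hf
    have h1 := LT93.map_op F f (LT93.hX (1 : Fin 2)) (LT93.hX 0)
    rw [MvPowerSeries.map_X, MvPowerSeries.map_X, LT93.op_comm (F.map f) (LT93.hX 1) (LT93.hX 0),
      LT93.op_X] at h1
    exact h1.symm

/-- coefficients of a composition as a finite sum -/
theorem coeff_subst_eq_sum {W L : PowerSeries R} (hW : PowerSeries.constantCoeff W = 0) (N : ℕ) :
    PowerSeries.coeff N (PowerSeries.subst W L) =
      ∑ d ∈ Finset.range (N + 1), PowerSeries.coeff d L * PowerSeries.coeff N (W ^ d) := by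
  rw [PowerSeries.coeff_subst' (PowerSeries.HasSubst.of_constantCoeff_zero' hW)]
  rw [finsum_eq_sum_of_support_subset (s := Finset.range (N + 1))]
  · rfl
  · intro d hd
    rw [Function.mem_support] at hd
    by_contra hcon
    apply hd
    have hlt : N < d := by
      simp only [Finset.coe_range, Set.mem_Iio] at hcon
      omega
    have : PowerSeries.coeff N (W ^ d) = 0 := by
      apply PowerSeries.coeff_of_lt_order
      refine lt_of_lt_of_le ?_ (PowerSeries.le_order_pow_of_constantCoeff_eq_zero d hW)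
      exact_mod_cast hlt
    rw [this, smul_zero]

theorem coeff_pow_self {W : PowerSeries R} (hW : PowerSeries.constantCoeff W = 0) (N : ℕ) :
    PowerSeries.coeff N (W ^ N) = (PowerSeries.coeff 1 W) ^ N := by
  obtain ⟨V, rfl⟩ := PowerSeries.X_dvd_iff.2 hW
  rw [mul_pow, PowerSeries.coeff_X_pow_mul']
  simp

end General

section Construct

variable {C : Type*} [NormedField C] [IsUltrametricDist C] [IsAlgClosed C]

/-- roots of `T^Q = w T + c` in the unit ball -/
theorem exists_root_OC {Q : ℕ} (hQ : 2 ≤ Q) (w c : OC C) : ∃ t : OC C, t ^ Q = w * t + c := by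
  have hd : (Polynomial.X ^ Q - (Polynomial.C (w : C) * Polynomial.X + Polynomial.C (c : C))).degree
      ≠ 0 := by
    have h1 : (Polynomial.C (w : C) * Polynomial.X + Polynomial.C (c : C)).degree <
        (Polynomial.X ^ Q : Polynomial C).degree := by
      rw [Polynomial.degree_X_pow]
      refine lt_of_le_of_lt (Polynomial.degree_linear_le) ?_
      exact_mod_cast hQ
    rw [Polynomial.degree_sub_eq_left_of_degree_lt h1, Polynomial.degree_X_pow]
    have : Q ≠ 0 := by omega
    exact_mod_cast this
  obtain ⟨t, ht⟩ := IsAlgClosed.exists_root _ hd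
  have ht' : t ^ Q = (w : C) * t + c := by
    have : t ^ Q - ((w : C) * t + c) = 0 := by simpa [Polynomial.IsRoot] using ht
    exact sub_eq_zero.1 this
  have hn : ‖t‖ ≤ 1 := by
    by_contra hcon
    rw [not_le] at hcon
    have h1 : ‖t‖ ^ Q ≤ ‖t‖ := by
      rw [← norm_pow, ht']
      refine (IsUltrametricDist.norm_add_le_max _ _).trans (max_le ?_ ?_)
      · rw [norm_mul]
        exact mul_le_of_le_one_left (norm_nonneg _) w.2
      · exact (c.2).trans hcon.le
    have h2 : ‖t‖ < ‖t‖ ^ Q := by
      calc ‖t‖ = ‖t‖ ^ 1 := (pow_one _).symm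
        _ < ‖t‖ ^ Q := pow_lt_pow_right₀ hcon (by omega)
    linarith
  exact ⟨⟨t, hn⟩, Subtype.ext ht'⟩

/-- nonzero solution of `a^Q = w a` -/
theorem exists_root_one {Q : ℕ} (hQ : 2 ≤ Q) (w : OC C) (hw : w ≠ 0) :
    ∃ a : OC C, a ≠ 0 ∧ a ^ Q = w * a := by
  obtain ⟨a, ha⟩ := IsAlgClosed.exists_pow_nat_eq (w : C) (show 0 < Q - 1 by omega)
  have hn : ‖a‖ ≤ 1 := by
    by_contra hcon
    rw [not_le] at hcon
    have h1 : 1 < ‖a‖ ^ (Q - 1) := one_lt_pow₀ hcon (by omega)
    rw [← norm_pow, ha] at h1
    exact absurd w.2 (not_le.2 h1)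
  refine ⟨⟨a, hn⟩, ?_, ?_⟩
  · intro h
    have h0 : a = 0 := congrArg Subtype.val h
    rw [h0, zero_pow (by omega)] at ha
    exact hw (Subtype.ext ha.symm)
  · apply Subtype.ext
    change a ^ Q = (w : C) * a
    rw [← ha, ← pow_succ]
    congr 1
    omega

/-- the coefficients of `Log` -/
noncomputable def logCoeff (root : ℕ → OC C → OC C) (W : PowerSeries (OC C)) (a : OC C) :
    ℕ → OC C
  | 0 => 0
  | 1 => a
  | (N + 2) => root (N + 2) (∑ d : Fin (N + 2), logCoeff root W a d *
      PowerSeries.coeff (N + 2) (W ^ (d : ℕ)))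
  termination_by n => n
  decreasing_by exact d.2

theorem exists_series {Q : ℕ} (hQ : 2 ≤ Q) (W : PowerSeries (OC C))
    (hW : PowerSeries.constantCoeff W = 0) (hW1 : PowerSeries.coeff 1 W ≠ 0) :
    ∃ L : PowerSeries (OC C), PowerSeries.constantCoeff L = 0 ∧ PowerSeries.coeff 1 L ≠ 0 ∧
      ∀ i, PowerSeries.coeff i (PowerSeries.subst W L) = (PowerSeries.coeff i L) ^ Q := by
  obtain ⟨a, ha0, ha⟩ := exists_root_one hQ _ hW1
  choose root hroot using fun (N : ℕ) (c : OC C) =>
    exists_root_OC hQ ((PowerSeries.coeff 1 W) ^ N) c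
  refine ⟨PowerSeries.mk (logCoeff root W a), ?_, ?_, ?_⟩
  · rw [← PowerSeries.coeff_zero_eq_constantCoeff_apply, PowerSeries.coeff_mk, logCoeff]
  · rw [PowerSeries.coeff_mk, logCoeff]
    exact ha0
  · intro N
    rw [coeff_subst_eq_sum hW, Finset.sum_range_succ, coeff_pow_self hW]
    simp only [PowerSeries.coeff_mk]
    match N with
    | 0 =>
      have : Q ≠ 0 := by omega
      simp [logCoeff, this]
    | 1 =>
      simp only [Finset.sum_range_one, logCoeff]
      rw [pow_one, ha]
      ring
    | (N + 2) =>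
      rw [Finset.sum_range]
      conv_rhs => rw [logCoeff]
      rw [hroot]
      conv_lhs => rw [add_comm]
      congr 1
      rw [mul_comm]
      congr 1
      conv_lhs => rw [logCoeff]

end Construct

section Main

variable {p n h r : ℕ} [Fact p.Prime]
variable {C : Type*} [NormedField C] [IsUltrametricDist C] [CharP C p] [IsAlgClosed C]

theorem exists_Log_aux (D : LData p n h r C) :
    ∃ (L : PowerSeries (OC C)) (G : FormalGroup (FQ C p h)), PowerSeries.constantCoeff L = 0 ∧
      PowerSeries.coeff 1 L ≠ 0 ∧ G.IsComm ∧ mulSeries G p = PowerSeries.X ^ (p ^ h) ∧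
      IsFGHom D.Hx (G.map (FQ.incl D.hh)) L ∧
      ∀ i, PowerSeries.coeff i (PowerSeries.subst D.Wx L) = (PowerSeries.coeff i L) ^ (p ^ h) := by
  have hp : p.Prime := Fact.out
  have hQ0 : p ^ h ≠ 0 := pow_ne_zero h hp.ne_zero
  have hQ : 2 ≤ p ^ h := by
    calc 2 ≤ p := hp.two_le
      _ = p ^ 1 := (pow_one p).symm
      _ ≤ p ^ h := Nat.pow_le_pow_right hp.pos D.hh
  obtain ⟨L, hL0, hL1, hLW⟩ := exists_series hQ D.Wx D.W0 D.W1
  have : CharP (OC C) p := OC.charP
  have := D.Hcomm
  -- the inclusion `j`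
  set j : OC C →+* C := (OC C).subtype with hj
  have hji : Function.Injective j := Subtype.val_injective
  -- W is a hom from the Frobenius twist
  have hWhom : IsFGHom (D.Hx.map (iterateFrobenius (OC C) p h)) D.Hx D.Wx := by
    apply LT93.hom_of_expand p h
    rw [PowerSeries.expand_apply, ← D.HW]
    exact isFGHom_mulSeries D.Hx p
  -- L^{(Q)} = L ∘ W
  have hLW' : PowerSeries.subst D.Wx L = PowerSeries.map (iterateFrobenius (OC C) p h) L := by
    ext i
    rw [hLW, PowerSeries.coeff_map, iterateFrobenius_def]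
  -- objects over C
  have hL0' : PowerSeries.constantCoeff (PowerSeries.map j L) = 0 := by
    rw [← PowerSeries.coeff_zero_eq_constantCoeff_apply, PowerSeries.coeff_map,
      PowerSeries.coeff_zero_eq_constantCoeff_apply, hL0, _root_.map_zero]
  have hL1' : IsUnit (PowerSeries.coeff 1 (PowerSeries.map j L)) := by
    rw [PowerSeries.coeff_map, isUnit_iff_ne_zero]
    exact fun h0 => hL1 (hji (h0.trans (_root_.map_zero j).symm))
  obtain ⟨G', hG', hGc⟩ := exists_target (D.Hx.map j) (PowerSeries.map j L) hL0' hL1'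
  have hG'comm : G'.IsComm := hGc (map_isComm D.Hx j)
  -- Frobenius commutes with j
  have hfrob : (iterateFrobenius C p h).comp j = j.comp (iterateFrobenius (OC C) p h) := by
    ext x
    simp [iterateFrobenius_def]
  have e1 : IsFGHom ((D.Hx.map (iterateFrobenius (OC C) p h)).map j)
      (G'.map (iterateFrobenius C p h))
      (PowerSeries.map j (PowerSeries.map (iterateFrobenius (OC C) p h) L)) := by
    have h1 := LT93.hom_map hG' (iterateFrobenius C p h)
    rw [map_map, hfrob, ← map_map] at h1
    have h2 : PowerSeries.map (iterateFrobenius C p h) (PowerSeries.map j L) =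
        PowerSeries.map j (PowerSeries.map (iterateFrobenius (OC C) p h) L) := by
      rw [← RingHom.comp_apply, ← RingHom.comp_apply, ← PowerSeries.map_comp,
        ← PowerSeries.map_comp, hfrob]
    rw [h2] at h1
    exact h1
  have e2 : IsFGHom ((D.Hx.map (iterateFrobenius (OC C) p h)).map j) G'
      (PowerSeries.map j (PowerSeries.map (iterateFrobenius (OC C) p h) L)) := by
    have h1 := IsFGHom.comp (LT93.hom_map hWhom j) hG'
    have h2 : PowerSeries.subst (PowerSeries.map j D.Wx) (PowerSeries.map j L) =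
        PowerSeries.map j (PowerSeries.subst D.Wx L) :=
      (LT93.map_ev L j (LT93.hasSubst_of _ D.W0)).symm
    rw [h2, hLW'] at h1
    exact h1
  have hu : IsUnit (PowerSeries.coeff 1
      (PowerSeries.map j (PowerSeries.map (iterateFrobenius (OC C) p h) L))) := by
    rw [PowerSeries.coeff_map, PowerSeries.coeff_map, iterateFrobenius_def, map_pow]
    rw [PowerSeries.coeff_map] at hL1'
    exact hL1'.pow _
  have hGG : G'.map (iterateFrobenius C p h) = G' := target_unique e1 e2 hu
  -- descent to FQ
  set i : FQ C p h →+* C := (FQ C p h).subtype with hi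
  have hii : Function.Injective i := Subtype.val_injective
  obtain ⟨G, hG⟩ := exists_descent hii G' (by
    intro d
    refine ⟨⟨MvPowerSeries.coeff d G'.toPowerSeries, ?_⟩, rfl⟩
    have := congrArg (fun F : FormalGroup C => MvPowerSeries.coeff d F.toPowerSeries) hGG
    simp only [FormalGroup.map_toPowerSeries, MvPowerSeries.coeff_map,
      iterateFrobenius_def] at this
    exact this)
  have hcomp : j.comp (FQ.incl D.hh) = i := by
    ext x; rfl
  have hGmap : (G.map (FQ.incl D.hh)).map j = G' := by rw [map_map, hcomp, hG]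
  refine ⟨L, G, hL0, hL1, ?_, ?_, ?_, hLW⟩
  · exact isComm_of_map hii G (by rw [hG]; exact hG'comm)
  · apply ps_map_injective hii
    rw [LT93.mulSeries_map, hG, map_pow, PowerSeries.map_X]
    have h1 := LT93.hom_mulSeries hG' p
    -- LHS
    have h2 : (LT93.ev (PowerSeries.map j L) (mulSeries (D.Hx.map j) p) : PowerSeries C) =
        (PowerSeries.map j L) ^ (p ^ h) := by
      rw [← LT93.mulSeries_map, D.HW]
      have h3 : (LT93.ev (PowerSeries.map j L) (PowerSeries.map j (PowerSeries.subst
          (PowerSeries.X ^ (p ^ h) : PowerSeries (OC C)) D.Wx)) : PowerSeries C) =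
          PowerSeries.map j (LT93.ev L (PowerSeries.subst
          (PowerSeries.X ^ (p ^ h) : PowerSeries (OC C)) D.Wx : PowerSeries (OC C))) := by
        refine (LT93.map_ev L j ?_).symm
        exact LT93.hasSubst_of _ (by
          rw [← D.HW]; exact LT93.constantCoeff_mulSeries _ _)
      rw [h3]
      have h4 : (LT93.ev L (PowerSeries.subst
          (PowerSeries.X ^ (p ^ h) : PowerSeries (OC C)) D.Wx : PowerSeries (OC C)) :
            PowerSeries (OC C)) = L ^ (p ^ h) := by
        have h5 := LT93.ev_ev (φ := L) D.W0 (a := (PowerSeries.X ^ (p ^ h) : PowerSeries (OC C)))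
          (LT93.hasSubst_pow hQ0 LT93.hXX)
        have h6 : (LT93.ev L D.Wx : PowerSeries (OC C)) =
          PowerSeries.map (iterateFrobenius (OC C) p h) L := hLW'
        rw [h6] at h5
        refine h5.trans ?_
        have h7 := PowerSeries.expand_apply (p ^ h) hQ0
          (PowerSeries.map (iterateFrobenius (OC C) p h) L)
        refine h7.symm.trans ?_
        have h8 := MvPowerSeries.map_iterateFrobenius_expand (σ := Unit) p hp.ne_zero L h
        rw [MvPowerSeries.map_expand] at h8
        exact h8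
      rw [h4, map_pow]
    rw [h2] at h1
    have hev := LT93.ev_ev (φ := mulSeries G' p) hL0' (LT93.hasSubst_of _
      (LT93.constantCoeff_cinv _ hL1'))
    rw [← h1] at hev
    rw [LT93.ev_cinv_right _ hL0' hL1', LT93.ev_self_X] at hev
    rw [hev]
    have h9 : (LT93.ev ((PowerSeries.map j L) ^ (p ^ h)) (LT93.cinv (PowerSeries.map j L) hL1') :
        PowerSeries C) = (LT93.ev (PowerSeries.map j L)
          (LT93.cinv (PowerSeries.map j L) hL1')) ^ (p ^ h) :=
      PowerSeries.subst_pow (LT93.hasSubst_of _ (LT93.constantCoeff_cinv _ hL1')) _ _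
    rw [h9, LT93.ev_cinv_right _ hL0' hL1']
  · apply hom_of_map hji
    rw [hGmap]
    exact hG'

end Main

end LogC

end Crest.Agent.LT
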