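import Mathlib
import Crest.Agent.LT.CDefs
import Crest.Agent.LT.Iota
import Crest.Agent.LT.LogC1

/-! # C2: the homomorphism `Log : H_x → G_h` (row 227). Paper proof: ideas row 227, C2. -/

set_option autoImplicit false
set_option linter.unusedSectionVars false

namespace Crest.Agent.LT

open Crest.LubinTate MvPowerSeries

variable {p n h r : ℕ} [Fact p.Prime]
variable {C : Type*} [NontriviallyNormedField C] [CompleteSpace C] [IsUltrametricDist C]
  [CharP C p] [IsAlgClosed C]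

/-- existence of `Log` and `G_h` (`G_h` over the finite field `FQ`). -/
theorem LData.exists_Log (D : LData p n h r C) :
    ∃ (L : PowerSeries (OC C)) (G : FormalGroup (FQ C p h)), PowerSeries.constantCoeff L = 0 ∧
      PowerSeries.coeff 1 L ≠ 0 ∧ G.IsComm ∧ mulSeries G p = PowerSeries.X ^ (p ^ h) ∧
      IsFGHom D.Hx (G.map (FQ.incl D.hh)) L ∧
      ∀ i, PowerSeries.coeff i (PowerSeries.subst D.Wx L) = (PowerSeries.coeff i L) ^ (p ^ h) :=
  LogC.exists_Log_aux D

noncomputable def LData.Log (D : LData p n h r C) : PowerSeries (OC C) := D.exists_Log.choose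

noncomputable def LData.Gh (D : LData p n h r C) : FormalGroup (FQ C p h) :=
  D.exists_Log.choose_spec.choose

theorem LData.Log_spec (D : LData p n h r C) : PowerSeries.constantCoeff D.Log = 0 ∧
      PowerSeries.coeff 1 D.Log ≠ 0 ∧ D.Gh.IsComm ∧ mulSeries D.Gh p = PowerSeries.X ^ (p ^ h) ∧
      IsFGHom D.Hx (D.Gh.map (FQ.incl D.hh)) D.Log ∧
      ∀ i, PowerSeries.coeff i (PowerSeries.subst D.Wx D.Log) =
        (PowerSeries.coeff i D.Log) ^ (p ^ h) :=
  D.exists_Log.choose_spec.choose_spec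

/-- `π = Log ∘ ι` -/
noncomputable def LData.pi (D : LData p n h r C) (z : OC C) : OC C :=
  ev1 (RingHom.id (OC C)) (D.iota z) D.Log

namespace LogC

theorem tn {z : OC C} (hz : ‖z‖ < 1) : IsTopologicallyNilpotent z :=
  (OC.isTopologicallyNilpotent_iff z).2 hz

theorem norm_ev1_le_of_zero {R : Type*} [CommRing R] (φ : R →+* OC C) (z : OC C) (hz : ‖z‖ < 1)
    (f : PowerSeries R) (hf : PowerSeries.constantCoeff f = 0) : ‖ev1 φ z f‖ ≤ ‖z‖ := by
  have h1 := OC.norm_ev1_le φ z hz f (M := 1) (N := 1) (fun d => OC.norm_le_one _) (by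
    intro d hd
    have : d = 0 := by omega
    rw [this, PowerSeries.coeff_zero_eq_constantCoeff_apply, hf])
  simpa using h1

/-- homs at points -/
theorem ev1_op {R : Type*} [CommRing R] {F G : FormalGroup R} [F.IsComm] [G.IsComm]
    (φ : R →+* OC C) {ψ : PowerSeries R} (hψ : IsFGHom F G ψ) {a b : OC C}
    (ha : ‖a‖ < 1) (hb : ‖b‖ < 1) :
    ev1 φ (op F φ a b) ψ = op G φ (ev1 φ a ψ) (ev1 φ b ψ) := by
  let x : Pt F φ := ⟨a, tn ha⟩
  let y : Pt F φ := ⟨b, tn hb⟩
  have h1 := congrArg Subtype.val (_root_.map_add (Pt.mapHom ψ hψ) x y)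
  rw [Pt.mapHom_val, Pt.add_val, Pt.add_val, Pt.mapHom_val, Pt.mapHom_val] at h1
  exact h1

end LogC

theorem LData.pi_lt (D : LData p n h r C) {z : OC C} (hz : ‖z‖ < 1) : ‖D.pi z‖ < 1 :=
  lt_of_le_of_lt (LogC.norm_ev1_le_of_zero _ _ (D.iota_lt hz) _ D.Log_spec.1) (D.iota_lt hz)

theorem LData.pi_op (D : LData p n h r C) {z w : OC C} (hz : ‖z‖ < 1) (hw : ‖w‖ < 1) :
    D.pi (op D.Γ D.kx z w) = op D.Gh (FQ.incl D.hh) (D.pi z) (D.pi w) := by
  have := D.Hcomm
  have := D.Log_spec.2.2.1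
  have := map_isComm D.Gh (FQ.incl D.hh)
  unfold LData.pi
  rw [D.iota_op hz hw, LogC.ev1_op _ D.Log_spec.2.2.2.2.1 (D.iota_lt hz) (D.iota_lt hw)]
  unfold op
  rw [FormalGroup.map_toPowerSeries, ev_map]
  · rfl
  · intro i
    fin_cases i
    · exact LogC.tn (D.pi_lt hz)
    · exact LogC.tn (D.pi_lt hw)

/-- `Log([p]z) = Log(z)^Q` -/
theorem LData.Log_mulSeries (D : LData p n h r C) {z : OC C} (hz : ‖z‖ < 1) :
    ev1 (RingHom.id (OC C)) (ev1 (RingHom.id (OC C)) z (mulSeries D.Hx p)) D.Log =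
      (ev1 (RingHom.id (OC C)) z D.Log) ^ (p ^ h) := by
  have hp : p.Prime := Fact.out
  have hQ0 : p ^ h ≠ 0 := pow_ne_zero h hp.ne_zero
  have : CharP (OC C) p := OC.charP
  have htn := LogC.tn hz
  have hzQ : ‖z ^ (p ^ h)‖ < 1 := by
    rw [norm_pow]
    exact pow_lt_one₀ (norm_nonneg _) hz hQ0
  have h1 : ev1 (RingHom.id (OC C)) z (mulSeries D.Hx p) =
      ev1 (RingHom.id (OC C)) (z ^ (p ^ h)) D.Wx := by
    rw [D.HW, ev1_subst _ _ htn _ (by
      rw [map_pow, PowerSeries.constantCoeff_X, zero_pow hQ0])]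
    congr 1
    have h2 : ev1 (RingHom.id (OC C)) z (PowerSeries.X ^ (p ^ h) : PowerSeries (OC C)) =
        (evHom (RingHom.id (OC C)) (fun _ : Unit => z) (fun _ => htn)) (PowerSeries.X ^ (p ^ h)) :=
      (evHom_apply _ _ _ _).symm
    rw [h2, map_pow, evHom_apply]
    congr 1
    exact ev1_X _ _ htn
  rw [h1, ← ev1_subst _ _ (LogC.tn hzQ) _ D.W0]
  have h2 : PowerSeries.subst D.Wx D.Log = PowerSeries.map (iterateFrobenius (OC C) p h) D.Log := by
    ext i
    rw [D.Log_spec.2.2.2.2.2, PowerSeries.coeff_map, iterateFrobenius_def]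
  rw [h2, ev1_map _ _ _ (LogC.tn hzQ)]
  have h3 := map_ev (iterateFrobenius (OC C) p h) (by
    change Continuous (fun x : OC C => x ^ (p ^ h))
    exact continuous_pow _) (RingHom.id (OC C)) (fun _ : Unit => z) (fun _ => htn) D.Log
  rw [iterateFrobenius_def] at h3
  exact h3.symm

/-- `π(z^q) = π(z)^Q` -/
theorem LData.pi_pow (D : LData p n h r C) {z : OC C} (hz : ‖z‖ < 1) :
    D.pi (z ^ (p ^ n)) = (D.pi z) ^ (p ^ h) := by
  unfold LData.pi
  rw [D.iota_pow hz, D.Log_mulSeries (D.iota_lt hz)]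

/-- near zero `|Log z| = |l_1| |z|`, more precisely `Log z = l_1 z (1 + small)` -/
theorem LData.norm_Log_sub_le (D : LData p n h r C) {z : OC C} (hz : ‖z‖ < 1) :
    ‖ev1 (RingHom.id (OC C)) z D.Log - PowerSeries.coeff 1 D.Log * z‖ ≤ ‖z‖ ^ 2 := by
  have htn := LogC.tn hz
  have h1 : ev1 (RingHom.id (OC C)) z D.Log - PowerSeries.coeff 1 D.Log * z =
      ev1 (RingHom.id (OC C)) z
        (D.Log - PowerSeries.C (PowerSeries.coeff 1 D.Log) * PowerSeries.X) := by
    have e : ∀ f : PowerSeries (OC C), ev1 (RingHom.id (OC C)) z f =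
        (evHom (RingHom.id (OC C)) (fun _ : Unit => z) (fun _ => htn)) f :=
      fun f => (evHom_apply _ _ _ _).symm
    rw [e (D.Log - _), _root_.map_sub, map_mul, ← e, ← e, ← e, ev1_X _ _ htn]
    congr 2
    have := ev_C (RingHom.id (OC C)) (fun _ : Unit => z) (fun _ => htn)
      (PowerSeries.coeff 1 D.Log)
    exact this.symm
  rw [h1]
  have h2 := OC.norm_ev1_le (RingHom.id (OC C)) z hz
    (D.Log - PowerSeries.C (PowerSeries.coeff 1 D.Log) * PowerSeries.X) (M := 1) (N := 2)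
    (fun d => OC.norm_le_one _) (by
      intro d hd
      have h3 : d = 0 ∨ d = 1 := by omega
      rcases h3 with rfl | rfl
      · rw [_root_.map_sub, PowerSeries.coeff_zero_eq_constantCoeff_apply, D.Log_spec.1]
        simp
      · rw [_root_.map_sub, PowerSeries.coeff_C_mul, PowerSeries.coeff_one_X]
        simp)
  simpa using h2

/-- the kernel of `Log` is torsion -/
theorem LData.torsion_of_Log_eq_zero (D : LData p n h r C) {z : OC C} (hz : ‖z‖ < 1)
    (h0 : ev1 (RingHom.id (OC C)) z D.Log = 0) :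
    ∃ m, ev1 (RingHom.id (OC C)) z (mulSeries D.Hx (p ^ m)) = 0 := by
  have hp : p.Prime := Fact.out
  have hQ0 : p ^ h ≠ 0 := pow_ne_zero h hp.ne_zero
  have := D.Hcomm
  have htn := LogC.tn hz
  set w : ℕ → OC C := fun m => ev1 (RingHom.id (OC C)) z (mulSeries D.Hx (p ^ m)) with hw
  have hw0 : w 0 = z := by
    simp only [hw, pow_zero]
    rw [mulSeries_one]
    exact ev1_X _ _ htn
  have hws : ∀ m, w (m + 1) = ev1 (RingHom.id (OC C)) (w m) (mulSeries D.Hx p) := by
    intro m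
    simp only [hw]
    rw [pow_succ, mulSeries_mul, ev1_subst _ _ htn _ (constantCoeff_mulSeries _ _)]
  have hwlt : ∀ m, ‖w m‖ < 1 := by
    intro m
    exact lt_of_le_of_lt (LogC.norm_ev1_le_of_zero _ _ hz _ (constantCoeff_mulSeries _ _)) hz
  have hwpow : ∀ m, ‖w (m + 1)‖ ≤ ‖w m‖ ^ (p ^ h) := by
    intro m
    have hzQ : ‖(w m) ^ (p ^ h)‖ < 1 := by
      rw [norm_pow]
      exact pow_lt_one₀ (norm_nonneg _) (hwlt m) hQ0
    have h1 : w (m + 1) = ev1 (RingHom.id (OC C)) ((w m) ^ (p ^ h)) D.Wx := by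
      rw [hws, D.HW, ev1_subst _ _ (LogC.tn (hwlt m)) _ (by
        rw [map_pow, PowerSeries.constantCoeff_X, zero_pow hQ0])]
      congr 1
      have h2 : ev1 (RingHom.id (OC C)) (w m) (PowerSeries.X ^ (p ^ h) : PowerSeries (OC C)) =
          (evHom (RingHom.id (OC C)) (fun _ : Unit => w m) (fun _ => LogC.tn (hwlt m)))
            (PowerSeries.X ^ (p ^ h)) :=
        (evHom_apply _ _ _ _).symm
      rw [h2, map_pow, evHom_apply]
      congr 1
      exact ev1_X _ _ (LogC.tn (hwlt m))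
    rw [h1, ← norm_pow]
    exact LogC.norm_ev1_le_of_zero _ _ hzQ _ D.W0
  have hlog : ∀ m, ev1 (RingHom.id (OC C)) (w m) D.Log = 0 := by
    intro m
    induction m with
    | zero => rw [hw0]; exact h0
    | succ m ih => rw [hws, D.Log_mulSeries (hwlt m), ih, zero_pow hQ0]
  -- geometric decay
  have hdec : ∀ m, ‖w m‖ ≤ ‖z‖ ^ (m + 1) := by
    intro m
    induction m with
    | zero => rw [hw0, zero_add, pow_one]
    | succ m ih =>
      refine (hwpow m).trans ?_
      have hQ : 2 ≤ p ^ h := by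
        calc 2 ≤ p := hp.two_le
          _ = p ^ 1 := (pow_one p).symm
          _ ≤ p ^ h := Nat.pow_le_pow_right hp.pos D.hh
      calc ‖w m‖ ^ (p ^ h) ≤ (‖z‖ ^ (m + 1)) ^ (p ^ h) :=
            pow_le_pow_left₀ (norm_nonneg _) ih _
        _ = ‖z‖ ^ ((m + 1) * p ^ h) := by rw [← pow_mul]
        _ ≤ ‖z‖ ^ (m + 1 + 1) := by
            apply pow_le_pow_of_le_one (norm_nonneg _) hz.le
            nlinarith
  have hl : 0 < ‖PowerSeries.coeff 1 D.Log‖ := norm_pos_iff.2 D.Log_spec.2.1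
  obtain ⟨m, hm⟩ := exists_pow_lt_of_lt_one hl hz
  refine ⟨m, ?_⟩
  change w m = 0
  by_contra hne
  have hpos : 0 < ‖w m‖ := norm_pos_iff.2 hne
  have hlt : ‖w m‖ < ‖PowerSeries.coeff 1 D.Log‖ := by
    refine lt_of_le_of_lt (hdec m) (lt_of_le_of_lt ?_ hm)
    exact pow_le_pow_of_le_one (norm_nonneg _) hz.le (Nat.le_succ m)
  have h1 := D.norm_Log_sub_le (hwlt m)
  rw [hlog, zero_sub, norm_neg, norm_mul] at h1
  nlinarith

end Crest.Agent.LT
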