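import Mathlib
import Crest.Agent.LT.CDefs

/-! # C4, part 1: residue field of the unit ball, additive polynomials (row 227, helper47) -/

set_option autoImplicit false
set_option linter.unusedSectionVars false

namespace Crest.Agent.LT

open Crest.LubinTate

namespace LeadT

section AddPoly

open Polynomial

variable {κ : Type*} [Field κ] {p : ℕ} [Fact p.Prime] [CharP κ p]

/-- the additive map `t ↦ Σ_{i<m} a_i t^(p^i)` -/
noncomputable def addMap (p : ℕ) [Fact p.Prime] [CharP κ p] (a : ℕ → κ) (m : ℕ) : κ →+ κ where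
  toFun t := ∑ i ∈ Finset.range m, a i * t ^ (p ^ i)
  map_zero' := by
    refine Finset.sum_eq_zero fun i _ => ?_
    rw [zero_pow (pow_ne_zero _ (Fact.out : p.Prime).ne_zero), mul_zero]
  map_add' x y := by
    rw [← Finset.sum_add_distrib]
    refine Finset.sum_congr rfl fun i _ => ?_
    rw [add_pow_char_pow, mul_add]

theorem addMap_apply (a : ℕ → κ) (m : ℕ) (t : κ) :
    addMap p a m t = ∑ i ∈ Finset.range m, a i * t ^ (p ^ i) := rfl

noncomputable def addPoly (p : ℕ) (a : ℕ → κ) (m : ℕ) : κ[X] :=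
  ∑ i ∈ Finset.range m, C (a i) * X ^ (p ^ i)

theorem addPoly_eval (a : ℕ → κ) (m : ℕ) (t : κ) :
    (addPoly p a m).eval t = addMap p a m t := by
  unfold addPoly addMap
  simp [eval_finsetSum]

theorem addPoly_natDegree_le (a : ℕ → κ) (m : ℕ) : (addPoly p a (m + 1)).natDegree ≤ p ^ m := by
  unfold addPoly
  refine natDegree_sum_le_of_forall_le _ _ fun i hi => ?_
  refine (natDegree_C_mul_X_pow_le _ _).trans ?_
  exact Nat.pow_le_pow_right (Fact.out : p.Prime).pos (Nat.lt_succ_iff.1 (Finset.mem_range.1 hi))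

theorem addPoly_coeff (a : ℕ → κ) (m j : ℕ) (hj : j < m) :
    (addPoly p a m).coeff (p ^ j) = a j := by
  unfold addPoly
  rw [finsetSum_coeff, Finset.sum_eq_single j]
  · simp
  · intro i _ hij
    rw [coeff_C_mul, coeff_X_pow, if_neg, mul_zero]
    intro h
    exact hij (Nat.pow_right_injective (Fact.out : p.Prime).two_le h).symm
  · intro h
    exact absurd (Finset.mem_range.2 hj) h

/-- an additive polynomial of small degree vanishing on a big set has zero coefficients -/
theorem addPoly_zero_of_card (a : ℕ → κ) (m : ℕ) (V : Finset κ) (hV : p ^ m < V.card)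
    (h : ∀ v ∈ V, addMap p a (m + 1) v = 0) : ∀ j < m + 1, a j = 0 := by
  classical
  have h0 : addPoly p a (m + 1) = 0 := by
    by_contra hne
    have h1 : V ⊆ (addPoly p a (m + 1)).roots.toFinset := by
      intro v hv
      rw [Multiset.mem_toFinset, mem_roots hne]
      show (addPoly p a (m + 1)).eval v = 0
      rw [addPoly_eval]
      exact h v hv
    have h2 := (Finset.card_le_card h1).trans (Multiset.toFinset_card_le _)
    have h3 := (h2.trans (card_roots' _)).trans (addPoly_natDegree_le (p := p) a m)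
    omega
  intro j hj
  rw [← addPoly_coeff (p := p) a (m + 1) j hj, h0, coeff_zero]

/-- existence of a nonzero additive polynomial of degree `≤ p^w` vanishing on a subgroup of
order `p^w` -/
theorem exists_addMap_vanish (V : AddSubgroup κ) [Finite V] (w : ℕ) (hw : Nat.card V = p ^ w) :
    ∃ a : ℕ → κ, (∃ i < w + 1, a i ≠ 0) ∧ ∀ v ∈ V, addMap p a (w + 1) v = 0 := by
  classical
  have hp := (Fact.out : p.Prime)
  let : Algebra (ZMod p) κ := ZMod.algebra κ p
  let V' : Submodule (ZMod p) κ := AddSubgroup.toZModSubmodule p V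
  have : Finite V' := (inferInstance : Finite V)
  have hfr : Module.finrank (ZMod p) V' = w := by
    cases nonempty_fintype V'
    have h1 := Module.card_eq_pow_finrank (K := ZMod p) (V := V')
    rw [ZMod.card, ← Nat.card_eq_fintype_card] at h1
    have h2 : Nat.card V' = p ^ w := hw
    rw [h2] at h1
    exact (Nat.pow_right_injective hp.two_le h1).symm
  let b := Module.finBasisOfFinrankEq (ZMod p) V' hfr
  let Mx : Matrix (Fin w) (Fin (w + 1)) κ := Matrix.of fun j i => ((b j : V') : κ) ^ (p ^ (i : ℕ))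
  have hker : LinearMap.ker (Matrix.mulVecLin Mx) ≠ ⊥ := by
    apply LinearMap.ker_ne_bot_of_finrank_lt
    simp
  obtain ⟨a, ha, hane⟩ := (Submodule.ne_bot_iff _).1 hker
  rw [LinearMap.mem_ker, Matrix.mulVecLin_apply] at ha
  refine ⟨fun i => if h : i < w + 1 then a ⟨i, h⟩ else 0, ?_, ?_⟩
  · by_contra hcon
    push Not at hcon
    apply hane
    funext i
    have := hcon i i.2
    rw [dif_pos i.2] at this
    exact this
  · set a' : ℕ → κ := fun i => if h : i < w + 1 then a ⟨i, h⟩ else 0 with ha'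
    have hb : ∀ j, addMap p a' (w + 1) ((b j : V') : κ) = 0 := by
      intro j
      have h1 := congrFun ha j
      rw [addMap_apply, Finset.sum_range]
      rw [Matrix.mulVec, dotProduct] at h1
      rw [Pi.zero_apply] at h1
      rw [← h1]
      refine Finset.sum_congr rfl fun i _ => ?_
      rw [ha']
      simp only [Mx, Matrix.of_apply, i.2, dif_pos, Fin.eta]
      ring
    let Lm : κ →ₗ[ZMod p] κ := (addMap p a' (w + 1)).toZModLinearMap p
    have hL : Lm ∘ₗ V'.subtype = 0 := by
      apply b.ext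
      intro j
      exact hb j
    intro v hv
    have h2 := LinearMap.congr_fun hL (⟨v, hv⟩ : V')
    exact h2

/-- The polynomial vanishing on a finite additive subgroup of a perfect field of char `p`
is additive, with nonzero linear coefficient. -/
theorem exists_additive_poly (hperf : ∀ x : κ, ∃ y, y ^ p = x) (V : AddSubgroup κ) [Finite V]
    (w : ℕ) (hw : Nat.card V = p ^ w) (s : Finset κ) (hs : ∀ x, x ∈ s ↔ x ∈ V) :
    ∃ a : ℕ → κ, a 0 ≠ 0 ∧ a w ≠ 0 ∧ ∀ t, ∏ v ∈ s, (t - v) =
      ∑ i ∈ Finset.range (w + 1), a i * t ^ (p ^ i) := by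
  classical
  have hp := (Fact.out : p.Prime)
  have hcard : s.card = p ^ w := by
    rw [← hw]
    have h1 : (s : Set κ) = (V : Set κ) := by
      ext x; exact hs x
    rw [← Set.ncard_coe_finset, h1]
    exact (Nat.card_coe_set_eq (V : Set κ)).symm
  obtain ⟨a, ⟨i0, hi0, hne⟩, hvan⟩ := exists_addMap_vanish (p := p) V w hw
  have haw : a w ≠ 0 := by
    intro h0
    cases w with
    | zero =>
      have : i0 = 0 := by omega
      rw [this] at hne
      exact hne h0
    | succ m =>
      have h1 : ∀ v ∈ s, addMap p a (m + 1) v = 0 := by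
        intro v hv
        have h2 := hvan v ((hs v).1 hv)
        rw [addMap_apply, Finset.sum_range_succ, h0, zero_mul, add_zero] at h2
        exact h2
      have h3 := addPoly_zero_of_card (p := p) a m s (by
        rw [hcard]
        exact Nat.pow_lt_pow_right hp.one_lt (Nat.lt_succ_self m)) h1
      rcases Nat.lt_succ_iff_lt_or_eq.1 hi0 with h | h
      · exact hne (h3 i0 h)
      · rw [h] at hne; exact hne h0
  have ha0 : a 0 ≠ 0 := by
    intro h0
    cases w with
    | zero => exact haw h0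
    | succ m =>
      choose c hc using fun i : ℕ => hperf (a (i + 1))
      have h1 : ∀ v ∈ s, addMap p c (m + 1) v = 0 := by
        intro v hv
        have h2 := hvan v ((hs v).1 hv)
        rw [addMap_apply, Finset.sum_range_succ', h0, zero_mul, add_zero] at h2
        have h3 : (addMap p c (m + 1) v) ^ p = 0 := by
          rw [addMap_apply, sum_pow_char, ← h2]
          refine Finset.sum_congr rfl fun i _ => ?_
          rw [mul_pow, hc, ← pow_mul, ← pow_succ]
        exact pow_eq_zero_iff hp.ne_zero |>.1 h3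
      have h3 := addPoly_zero_of_card (p := p) c m s (by
        rw [hcard]
        exact Nat.pow_lt_pow_right hp.one_lt (Nat.lt_succ_self m)) h1 m (Nat.lt_succ_self m)
      apply haw
      rw [← hc m, h3, zero_pow hp.ne_zero]
  -- compare the two polynomials
  have hP : (C (a w) * ∏ v ∈ s, (X - C v) : κ[X]) = addPoly p a (w + 1) := by
    have hmon : (∏ v ∈ s, (X - C v) : κ[X]).Monic := monic_prod_of_monic _ _ fun v _ => monic_X_sub_C v
    have hdeg : (∏ v ∈ s, (X - C v) : κ[X]).natDegree = p ^ w := by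
      rw [natDegree_prod_of_monic _ _ fun v _ => monic_X_sub_C v]
      simp [hcard]
    have hdeg1 : (C (a w) * ∏ v ∈ s, (X - C v) : κ[X]).natDegree = p ^ w := by
      rw [natDegree_C_mul haw, hdeg]
    have hlc1 : (C (a w) * ∏ v ∈ s, (X - C v) : κ[X]).leadingCoeff = a w := by
      rw [leadingCoeff_mul, leadingCoeff_C, hmon.leadingCoeff, mul_one]
    have hdeg2 : (addPoly p a (w + 1)).natDegree = p ^ w := by
      apply natDegree_eq_of_le_of_coeff_ne_zero (addPoly_natDegree_le a w)
      rw [addPoly_coeff a (w + 1) w (Nat.lt_succ_self w)]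
      exact haw
    have hlc2 : (addPoly p a (w + 1)).leadingCoeff = a w := by
      rw [leadingCoeff, hdeg2, addPoly_coeff a (w + 1) w (Nat.lt_succ_self w)]
    have hne1 : (C (a w) * ∏ v ∈ s, (X - C v) : κ[X]) ≠ 0 := by
      intro h
      rw [h, leadingCoeff_zero] at hlc1
      exact haw hlc1.symm
    have hne2 : addPoly p a (w + 1) ≠ 0 := by
      intro h
      rw [h, leadingCoeff_zero] at hlc2
      exact haw hlc2.symm
    apply eq_of_degree_sub_lt_of_eval_finset_eq s
    · refine lt_of_lt_of_eq (degree_sub_lt_left ?_ hne1 (by rw [hlc1, hlc2])) ?_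
      · rw [degree_eq_natDegree hne1, degree_eq_natDegree hne2, hdeg1, hdeg2]
      · rw [degree_eq_natDegree hne1, hdeg1, hcard]
    · intro v hv
      rw [addPoly_eval, hvan v ((hs v).1 hv), eval_mul, eval_prod,
        Finset.prod_eq_zero hv (by simp), mul_zero]
  refine ⟨fun i => a i / a w, div_ne_zero ha0 haw, div_ne_zero haw haw, ?_⟩
  intro t
  have h1 := congrArg (fun P => eval t P) hP
  simp only [eval_mul, eval_C, eval_prod, eval_sub, eval_X] at h1
  rw [addPoly_eval, addMap_apply] at h1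
  have h2 : ∏ v ∈ s, (t - v) = (∑ i ∈ Finset.range (w + 1), a i * t ^ (p ^ i)) / a w := by
    rw [← h1]; field_simp
  rw [h2, Finset.sum_div]
  refine Finset.sum_congr rfl fun i _ => ?_
  ring

end AddPoly

section Residue

variable {C : Type*} [NontriviallyNormedField C] [CompleteSpace C] [IsUltrametricDist C]

theorem OC.isUnit_iff_norm (x : OC C) : IsUnit x ↔ ‖(x : C)‖ = 1 := by
  constructor
  · intro h
    obtain ⟨y, hy⟩ := h.exists_right_inv
    have h1 : ‖(x : C)‖ * ‖(y : C)‖ = 1 := by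
      rw [← norm_mul]
      have := congrArg (fun z : OC C => (z : C)) hy
      simp only [Subring.coe_mul, Subring.coe_one] at this
      rw [this, norm_one]
    have hx : ‖(x : C)‖ ≤ 1 := x.2
    have hy' : ‖(y : C)‖ ≤ 1 := y.2
    nlinarith [norm_nonneg (x : C), norm_nonneg (y : C)]
  · intro h
    have hx0 : (x : C) ≠ 0 := by
      intro h0
      rw [h0, norm_zero] at h
      exact zero_ne_one h
    have hinv : ‖(x : C)⁻¹‖ ≤ 1 := by rw [norm_inv, h, inv_one]
    refine IsUnit.of_mul_eq_one ⟨(x : C)⁻¹, hinv⟩ ?_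
    apply Subtype.ext
    show (x : C) * (x : C)⁻¹ = 1
    exact mul_inv_cancel₀ hx0

theorem OC.not_isUnit_iff_norm (x : OC C) : ¬ IsUnit x ↔ ‖(x : C)‖ < 1 := by
  rw [OC.isUnit_iff_norm]
  have hx : ‖(x : C)‖ ≤ 1 := x.2
  constructor
  · intro h
    exact lt_of_le_of_ne hx h
  · intro h
    exact ne_of_lt h

end Residue

end LeadT

section

variable {C : Type*} [NontriviallyNormedField C] [CompleteSpace C] [IsUltrametricDist C]

instance OC.isLocalRing : IsLocalRing (OC C) := by
  apply IsLocalRing.of_nonunits_add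
  intro a b ha hb
  rw [mem_nonunits_iff, LeadT.OC.not_isUnit_iff_norm] at *
  refine lt_of_le_of_lt (IsUltrametricDist.norm_add_le_max (a : C) (b : C)) ?_
  exact max_lt ha hb

/-- residue field -/
abbrev Kap (C : Type*) [NontriviallyNormedField C] [CompleteSpace C] [IsUltrametricDist C] : Type _ :=
  IsLocalRing.ResidueField (OC C)

/-- residue of an element of `C` of norm `≤ 1` (junk `0` otherwise) -/
noncomputable def rs (c : C) : Kap C :=
  open Classical in if hc : ‖c‖ ≤ 1 then IsLocalRing.residue (OC C) ⟨c, hc⟩ else 0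

end

namespace LeadT

section Residue

variable {C : Type*} [NontriviallyNormedField C] [CompleteSpace C] [IsUltrametricDist C]

theorem rs_of_le {c : C} (hc : ‖c‖ ≤ 1) : rs c = IsLocalRing.residue (OC C) ⟨c, hc⟩ := by
  unfold rs
  rw [dif_pos hc]

theorem rs_zero : rs (0 : C) = 0 := by
  rw [rs_of_le (by rw [norm_zero]; exact zero_le_one)]
  exact map_zero _

theorem rs_one : rs (1 : C) = 1 := by
  rw [rs_of_le (by rw [norm_one])]
  exact map_one _

theorem rs_add {a b : C} (ha : ‖a‖ ≤ 1) (hb : ‖b‖ ≤ 1) : rs (a + b) = rs a + rs b := by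
  have hab : ‖a + b‖ ≤ 1 := (IsUltrametricDist.norm_add_le_max a b).trans (max_le ha hb)
  rw [rs_of_le ha, rs_of_le hb, rs_of_le hab, ← map_add]
  rfl

theorem rs_mul {a b : C} (ha : ‖a‖ ≤ 1) (hb : ‖b‖ ≤ 1) : rs (a * b) = rs a * rs b := by
  have hab : ‖a * b‖ ≤ 1 := by
    rw [norm_mul]
    exact mul_le_one₀ ha (norm_nonneg _) hb
  rw [rs_of_le ha, rs_of_le hb, rs_of_le hab, ← map_mul]
  rfl

theorem rs_neg {a : C} (ha : ‖a‖ ≤ 1) : rs (-a) = -rs a := by
  have ha' : ‖-a‖ ≤ 1 := by rwa [norm_neg]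
  rw [rs_of_le ha, rs_of_le ha', ← map_neg]
  rfl

theorem rs_sub {a b : C} (ha : ‖a‖ ≤ 1) (hb : ‖b‖ ≤ 1) : rs (a - b) = rs a - rs b := by
  rw [sub_eq_add_neg, rs_add ha (by rwa [norm_neg]), rs_neg hb, sub_eq_add_neg]

theorem rs_pow {a : C} (ha : ‖a‖ ≤ 1) (m : ℕ) : rs (a ^ m) = rs a ^ m := by
  induction m with
  | zero => rw [pow_zero, pow_zero, rs_one]
  | succ m ih =>
    rw [pow_succ, rs_mul _ ha, ih, pow_succ]
    rw [norm_pow]
    exact pow_le_one₀ (norm_nonneg _) ha

theorem rs_eq_zero_iff {a : C} (ha : ‖a‖ ≤ 1) : rs a = 0 ↔ ‖a‖ < 1 := by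
  rw [rs_of_le ha, IsLocalRing.residue_eq_zero_iff, IsLocalRing.mem_maximalIdeal,
    mem_nonunits_iff, OC.not_isUnit_iff_norm]

theorem rs_eq_zero {a : C} (ha : ‖a‖ < 1) : rs a = 0 := (rs_eq_zero_iff ha.le).2 ha

theorem rs_add_small {a b : C} (ha : ‖a‖ ≤ 1) (hb : ‖b‖ < 1) : rs (a + b) = rs a := by
  rw [rs_add ha hb.le, rs_eq_zero hb, add_zero]

theorem rs_eq_iff {a b : C} (ha : ‖a‖ ≤ 1) (hb : ‖b‖ ≤ 1) : rs a = rs b ↔ ‖a - b‖ < 1 := by
  have hab : ‖a - b‖ ≤ 1 := by
    rw [sub_eq_add_neg]
    refine (IsUltrametricDist.norm_add_le_max a (-b)).trans (max_le ha ?_)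
    rwa [norm_neg]
  rw [← rs_eq_zero_iff hab, rs_sub ha hb, sub_eq_zero]

theorem rs_prod {τ : Type*} (s : Finset τ) (f : τ → C) (hf : ∀ i ∈ s, ‖f i‖ ≤ 1) :
    rs (∏ i ∈ s, f i) = ∏ i ∈ s, rs (f i) := by
  classical
  induction s using Finset.induction_on with
  | empty => rw [Finset.prod_empty, Finset.prod_empty, rs_one]
  | insert i s hi ih =>
    rw [Finset.prod_insert hi, Finset.prod_insert hi, rs_mul (hf i (Finset.mem_insert_self i s)),
      ih fun j hj => hf j (Finset.mem_insert_of_mem hj)]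
    rw [norm_prod]
    exact Finset.prod_le_one (fun _ _ => norm_nonneg _)
      fun j hj => hf j (Finset.mem_insert_of_mem hj)

theorem rs_surj (x : Kap C) : ∃ a : C, ‖a‖ ≤ 1 ∧ rs a = x := by
  obtain ⟨a, ha⟩ := IsLocalRing.residue_surjective x
  exact ⟨a, a.2, by rw [rs_of_le a.2]; exact ha⟩

theorem Kap.charP (p : ℕ) [hp : Fact p.Prime] [CharP C p] : CharP (Kap C) p := by
  rw [CharP.charP_iff_prime_eq_zero hp.out]
  have h1 : ((p : ℕ) : OC C) = 0 := by
    apply Subtype.ext
    show (((p : ℕ) : OC C) : C) = 0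
    rw [Subring.coe_natCast, CharP.cast_eq_zero]
  have h2 := congrArg (IsLocalRing.residue (OC C)) h1
  rw [map_natCast, map_zero] at h2
  exact h2

theorem Kap.perfect (p : ℕ) [hp : Fact p.Prime] [IsAlgClosed C] (x : Kap C) :
    ∃ y, y ^ p = x := by
  obtain ⟨a, ha, rfl⟩ := rs_surj x
  obtain ⟨b, hb⟩ := IsAlgClosed.exists_pow_nat_eq a hp.out.pos
  have hb1 : ‖b‖ ≤ 1 := by
    by_contra hcon
    push Not at hcon
    have h1 : 1 < ‖b‖ ^ p := one_lt_pow₀ hcon hp.out.ne_zero
    rw [← norm_pow, hb] at h1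
    linarith
  exact ⟨rs b, by rw [← rs_pow hb1, hb]⟩

end Residue

end LeadT

end Crest.Agent.LT
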