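import Crest.Agent.LT.TorsionAux

/-! # C1: auxiliary lemmas (evaluation, roots) for `LT/Torsion.lean` -/

set_option autoImplicit false
set_option linter.unusedSectionVars false

namespace Crest.Agent.LT

open Crest.LubinTate MvPowerSeries

section EvLemmas

variable {R : Type*} [CommRing R]
variable {S : Type*} [CommRing S] [UniformSpace S]
variable [IsUniformAddGroup S] [IsTopologicalRing S] [IsLinearTopology S S] [T2Space S]
  [CompleteSpace S]

/-- `ev1` as a ring hom -/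
noncomputable def tor_evHom1 (φ : R →+* S) (z : S) (hz : IsTopologicallyNilpotent z) :
    PowerSeries R →+* S := evHom φ (fun _ : Unit => z) (fun _ => hz)

theorem tor_evHom1_apply (φ : R →+* S) (z : S) (hz : IsTopologicallyNilpotent z)
    (f : PowerSeries R) : tor_evHom1 φ z hz f = ev1 φ z f :=
  evHom_apply _ _ _ _

theorem tor_ev1_mul (φ : R →+* S) (z : S) (hz : IsTopologicallyNilpotent z)
    (f g : PowerSeries R) : ev1 φ z (f * g) = ev1 φ z f * ev1 φ z g := by
  rw [← tor_evHom1_apply φ z hz, map_mul, tor_evHom1_apply, tor_evHom1_apply]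

theorem tor_ev1_add (φ : R →+* S) (z : S) (hz : IsTopologicallyNilpotent z)
    (f g : PowerSeries R) : ev1 φ z (f + g) = ev1 φ z f + ev1 φ z g := by
  rw [← tor_evHom1_apply φ z hz, map_add, tor_evHom1_apply, tor_evHom1_apply]

theorem tor_ev1_sub (φ : R →+* S) (z : S) (hz : IsTopologicallyNilpotent z)
    (f g : PowerSeries R) : ev1 φ z (f - g) = ev1 φ z f - ev1 φ z g := by
  rw [← tor_evHom1_apply φ z hz, map_sub, tor_evHom1_apply, tor_evHom1_apply]

theorem tor_ev1_pow (φ : R →+* S) (z : S) (hz : IsTopologicallyNilpotent z)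
    (f : PowerSeries R) (n : ℕ) : ev1 φ z (f ^ n) = ev1 φ z f ^ n := by
  rw [← tor_evHom1_apply φ z hz, map_pow, tor_evHom1_apply]

theorem tor_ev1_C (φ : R →+* S) (z : S) (hz : IsTopologicallyNilpotent z)
    (r : R) : ev1 φ z (PowerSeries.C r) = φ r :=
  ev_C φ (fun _ : Unit => z) (fun _ => hz) r

theorem tor_ev1_one (φ : R →+* S) (z : S) (hz : IsTopologicallyNilpotent z) :
    ev1 φ z (1 : PowerSeries R) = 1 := by
  rw [← tor_evHom1_apply φ z hz, map_one]

theorem tor_ev1_coe (φ : R →+* S) (z : S) (hz : IsTopologicallyNilpotent z)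
    (D : Polynomial R) : ev1 φ z (D : PowerSeries R) = D.eval₂ φ z := by
  have h : (tor_evHom1 φ z hz).comp Polynomial.coeToPowerSeries.ringHom =
      Polynomial.eval₂RingHom φ z := by
    apply Polynomial.ringHom_ext
    · intro a
      simp only [RingHom.comp_apply, Polynomial.coeToPowerSeries.ringHom_apply,
        Polynomial.coe_C, Polynomial.coe_eval₂RingHom, Polynomial.eval₂_C]
      rw [tor_evHom1_apply, tor_ev1_C φ z hz]
    · simp only [RingHom.comp_apply, Polynomial.coeToPowerSeries.ringHom_apply,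
        Polynomial.coe_X, Polynomial.coe_eval₂RingHom, Polynomial.eval₂_X]
      rw [tor_evHom1_apply, ev1_X φ z hz]
  have := congrArg (fun f => f D) h
  simpa [tor_evHom1_apply] using this

end EvLemmas

section Roots

variable {C : Type*} [NormedField C] [IsUltrametricDist C]

/-- roots of a monic polynomial with lower coefficients of norm `< 1` have norm `< 1` -/
theorem tor_root_norm_lt (D : Polynomial C) (hm : D.Monic) (hc : ∀ i < D.natDegree, ‖D.coeff i‖ < 1)
    (z : C) (hz : D.eval z = 0) : ‖z‖ < 1 := by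
  by_contra hcon
  rw [not_lt] at hcon
  rw [Polynomial.eval_eq_sum_range, Finset.sum_range_succ, hm.coeff_natDegree, one_mul] at hz
  have h1 : z ^ D.natDegree = - ∑ i ∈ Finset.range D.natDegree, D.coeff i * z ^ i := by
    rw [eq_neg_iff_add_eq_zero, add_comm]; exact hz
  have h2 : ‖z‖ ^ D.natDegree < ‖z‖ ^ D.natDegree := by
    calc ‖z‖ ^ D.natDegree = ‖∑ i ∈ Finset.range D.natDegree, D.coeff i * z ^ i‖ := by
          rw [← norm_pow, h1, norm_neg]
      _ < ‖z‖ ^ D.natDegree := by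
          rcases Nat.eq_zero_or_pos D.natDegree with h0 | h0
          · rw [h0] at hz
            simp at hz
          obtain ⟨i, hi, hle⟩ := IsUltrametricDist.exists_norm_finsetSum_le
            (Finset.range D.natDegree) (fun i => D.coeff i * z ^ i)
          have hi' : i < D.natDegree :=
            Finset.mem_range.1 (hi (Finset.nonempty_range_iff.2 (by omega)))
          refine lt_of_le_of_lt hle ?_
          rw [norm_mul, norm_pow]
          calc ‖D.coeff i‖ * ‖z‖ ^ i < 1 * ‖z‖ ^ i :=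
                mul_lt_mul_of_pos_right (hc i hi') (by positivity)
            _ ≤ ‖z‖ ^ D.natDegree := by
                rw [one_mul]
                exact pow_le_pow_right₀ hcon hi'.le
  exact lt_irrefl _ h2

end Roots

section Analytic

variable {C : Type*} [NontriviallyNormedField C] [CompleteSpace C] [IsUltrametricDist C]

/-- a unit power series has values of norm one -/
theorem tor_norm_unit {R : Type*} [CommRing R] (φ : R →+* OC C) (z : OC C) (hz : ‖z‖ < 1)
    (U : PowerSeries R) (hU : IsUnit U) : ‖ev1 φ z U‖ = 1 := by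
  have hz' := (OC.isTopologicallyNilpotent_iff z).2 hz
  obtain ⟨V, hV⟩ := hU.exists_right_inv
  have h1 : ev1 φ z U * ev1 φ z V = 1 := by
    rw [← tor_ev1_mul φ z hz', hV, tor_ev1_one φ z hz']
  have h2 : ‖ev1 φ z U‖ ≤ 1 := OC.norm_le_one _
  have h3 : ‖ev1 φ z V‖ ≤ 1 := OC.norm_le_one _
  have h4 : ‖ev1 φ z U‖ * ‖ev1 φ z V‖ = 1 := by
    have := congrArg (fun x : OC C => ‖(x : C)‖) h1
    simpa using this
  have h5 : 0 ≤ ‖ev1 φ z U‖ := norm_nonneg _
  nlinarith

theorem tor_norm_linear (φ : PowerSeries (OC C)) (h0 : PowerSeries.constantCoeff φ = 0)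
    (c : OC C) (hc : ‖c‖ < 1) (hc1 : ‖c‖ < ‖PowerSeries.coeff 1 φ‖) :
    ‖ev1 (RingHom.id (OC C)) c φ‖ = ‖PowerSeries.coeff 1 φ‖ * ‖c‖ := by
  have hc' := (OC.isTopologicallyNilpotent_iff c).2 hc
  obtain ⟨ψ, hψ⟩ : ∃ ψ, ψ = φ - PowerSeries.C (PowerSeries.coeff 1 φ) * PowerSeries.X := ⟨_, rfl⟩
  have h1 : ev1 (RingHom.id (OC C)) c φ =
      ev1 (RingHom.id (OC C)) c ψ + PowerSeries.coeff 1 φ * c := by
    have : φ = ψ + PowerSeries.C (PowerSeries.coeff 1 φ) * PowerSeries.X := by rw [hψ]; ring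
    conv_lhs => rw [this]
    rw [tor_ev1_add _ _ hc', tor_ev1_mul _ _ hc', tor_ev1_C _ _ hc', ev1_X _ _ hc']
    rfl
  have h2 : ‖ev1 (RingHom.id (OC C)) c ψ‖ ≤ 1 * ‖c‖ ^ 2 := by
    apply OC.norm_ev1_le _ _ hc
    · intro d; exact OC.norm_le_one _
    · intro d hd
      have hd' : d = 0 ∨ d = 1 := by omega
      rcases hd' with rfl | rfl
      · rw [hψ, map_sub, PowerSeries.coeff_zero_eq_constantCoeff_apply, h0]
        simp
      · rw [hψ, map_sub, PowerSeries.coeff_C_mul, PowerSeries.coeff_one_X]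
        simp
  by_cases hc0 : c = 0
  · subst hc0
    have h3 : ev1 (RingHom.id (OC C)) 0 ψ = 0 := by
      have : ‖ev1 (RingHom.id (OC C)) 0 ψ‖ ≤ 0 := by simpa using h2
      exact norm_le_zero_iff.1 this
    rw [h1, h3]
    simp
  have hc2 : 0 < ‖c‖ := norm_pos_iff.2 hc0
  have h4 : ‖PowerSeries.coeff 1 φ * c‖ = ‖PowerSeries.coeff 1 φ‖ * ‖c‖ := by
    exact norm_mul ((PowerSeries.coeff 1 φ : OC C) : C) (c : C)
  rw [h1, ← h4]
  have h5 : ‖ev1 (RingHom.id (OC C)) c ψ‖ < ‖PowerSeries.coeff 1 φ * c‖ := by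
    rw [h4]
    refine lt_of_le_of_lt h2 ?_
    rw [one_mul, pow_two]
    exact mul_lt_mul_of_pos_right hc1 hc2
  rw [add_comm]
  exact IsUltrametricDist.norm_add_eq_max_of_norm_ne_norm h5.ne' |>.trans (max_eq_left h5.le)

/-- a hom with nonzero linear coefficient has simple zeros -/
theorem tor_hom_simple {F G : FormalGroup (OC C)} (hF : F.IsComm) (hG : G.IsComm)
    {φ : PowerSeries (OC C)} (hφ : IsFGHom F G φ) (τ : OC C) (hτ : ‖τ‖ < 1)
    (h0 : ev1 (RingHom.id (OC C)) τ φ = 0) (z : OC C) (hz : ‖z‖ < 1)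
    (hz1 : ‖z - τ‖ < ‖PowerSeries.coeff 1 φ‖) :
    ‖ev1 (RingHom.id (OC C)) z φ‖ = ‖PowerSeries.coeff 1 φ‖ * ‖z - τ‖ := by
  have hz' := (OC.isTopologicallyNilpotent_iff z).2 hz
  have hτ' := (OC.isTopologicallyNilpotent_iff τ).2 hτ
  obtain ⟨zp, hzp⟩ : ∃ zp : Pt F (RingHom.id (OC C)), zp.1 = z := ⟨⟨z, hz'⟩, rfl⟩
  obtain ⟨tp, htp⟩ : ∃ tp : Pt F (RingHom.id (OC C)), tp.1 = τ := ⟨⟨τ, hτ'⟩, rfl⟩
  obtain ⟨cp, hcp⟩ : ∃ cp : Pt F (RingHom.id (OC C)), cp = zp - tp := ⟨_, rfl⟩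
  have hadd : cp + tp = zp := by rw [hcp]; abel
  have h1 : op F (RingHom.id (OC C)) cp.1 τ = z := by
    rw [← hzp, ← htp, ← hadd, Pt.add_val]
  have hcl : ‖cp.1‖ < 1 := (OC.isTopologicallyNilpotent_iff cp.1).1 cp.2
  have h2 : ‖cp.1‖ = ‖z - τ‖ := OC.norm_eq_of_op_eq F _ z τ cp.1 hz hτ hcl h1
  have h3 : Pt.mapHom φ hφ zp = Pt.mapHom φ hφ cp := by
    rw [← hadd, map_add]
    have : Pt.mapHom φ hφ tp = 0 := by
      apply Subtype.ext
      rw [Pt.mapHom_val, htp, h0, Pt.zero_val]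
    rw [this, add_zero]
  have h4 : ev1 (RingHom.id (OC C)) z φ = ev1 (RingHom.id (OC C)) cp.1 φ := by
    have := congrArg Subtype.val h3
    rw [Pt.mapHom_val, Pt.mapHom_val, hzp] at this
    exact this
  rw [h4, ← h2]
  apply tor_norm_linear φ hφ.1 _ hcl
  rw [h2]
  exact hz1

/-- the roots of a Weierstrass polynomial of a hom with nonzero linear coefficient are simple -/
theorem tor_nodup [IsAlgClosed C] {F G : FormalGroup (OC C)} (hF : F.IsComm) (hG : G.IsComm)
    {φ : PowerSeries (OC C)} (hφ : IsFGHom F G φ) (h1 : PowerSeries.coeff 1 φ ≠ 0)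
    (U : PowerSeries (OC C)) (hU : IsUnit U) (D : Polynomial (OC C)) (hD : D.Monic)
    (hDc : ∀ i < D.natDegree, ‖D.coeff i‖ < 1) (hUD : φ = U * (D : PowerSeries (OC C))) :
    (D.map (OC C).subtype).roots.Nodup ∧
      (∀ a ∈ (D.map (OC C).subtype).roots, ‖a‖ < 1) ∧
      (D.map (OC C).subtype).roots.card = D.natDegree ∧
      ∀ z : OC C, ((D.eval z : OC C) : C) =
        ((D.map (OC C).subtype).roots.map (fun a => (z : C) - a)).prod := by
  classical
  obtain ⟨P, hP⟩ : ∃ P, P = D.map (OC C).subtype := ⟨_, rfl⟩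
  rw [← hP]
  have hPm : P.Monic := by rw [hP]; exact hD.map _
  have hPd : P.natDegree = D.natDegree := by rw [hP]; exact hD.natDegree_map _
  have hcard : P.roots.card = D.natDegree := by
    rw [← hPd]
    exact (Polynomial.splits_iff_card_roots.1 (IsAlgClosed.splits P))
  have hprod : ∀ z : C, P.eval z = (P.roots.map (fun a => z - a)).prod := by
    intro z
    conv_lhs => rw [(IsAlgClosed.splits P).eq_prod_roots_of_monic hPm]
    rw [Polynomial.eval_multiset_prod, Multiset.map_map]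
    simp
  have hnorm : ∀ a ∈ P.roots, ‖a‖ < 1 := by
    intro a ha
    apply tor_root_norm_lt P hPm _ a ((Polynomial.mem_roots hPm.ne_zero).1 ha)
    intro i hi
    rw [hP, Polynomial.coeff_map]
    exact hDc i (by rwa [hPd] at hi)
  have heval : ∀ z : OC C, ((D.eval z : OC C) : C) = P.eval (z : C) := by
    intro z
    rw [hP, Polynomial.eval_map]
    exact (Polynomial.eval₂_hom (OC C).subtype z).symm
  refine ⟨?_, hnorm, hcard, fun z => by rw [heval, hprod]⟩
  rw [Multiset.nodup_iff_le]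
  intro a ha
  have ha1 : a ∈ P.roots := Multiset.mem_of_le ha (by simp)
  have hanorm := hnorm a ha1
  obtain ⟨t, ht⟩ := Multiset.le_iff_exists_add.1 ha
  obtain ⟨τ, hτ⟩ : ∃ τ : OC C, (τ : C) = a := ⟨⟨a, hanorm.le⟩, rfl⟩
  have hτn : ‖τ‖ < 1 := by
    show ‖(τ : C)‖ < 1
    rw [hτ]; exact hanorm
  have hev : ∀ z : OC C, ‖z‖ < 1 → ev1 (RingHom.id (OC C)) z φ =
      ev1 (RingHom.id (OC C)) z U * D.eval z := by
    intro z hz
    have hz' := (OC.isTopologicallyNilpotent_iff z).2 hz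
    rw [hUD, tor_ev1_mul _ _ hz', tor_ev1_coe _ _ hz']
    rfl
  have h0 : ev1 (RingHom.id (OC C)) τ φ = 0 := by
    rw [hev τ hτn]
    have : D.eval τ = 0 := by
      apply Subtype.ext
      rw [heval, hτ]
      exact (Polynomial.mem_roots hPm.ne_zero).1 ha1
    rw [this, mul_zero]
  obtain ⟨δ, hδ⟩ : ∃ δ, δ = ‖PowerSeries.coeff 1 φ‖ := ⟨_, rfl⟩
  have hδ0 : 0 < δ := by rw [hδ]; exact norm_pos_iff.2 h1
  have hδ1 : δ ≤ 1 := by rw [hδ]; exact OC.norm_le_one _
  -- choose `z` close to `τ`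
  obtain ⟨w, hw0, hw1⟩ := NormedField.exists_norm_lt C hδ0
  have hwl : ‖w‖ < 1 := lt_of_lt_of_le hw1 hδ1
  obtain ⟨ω, hω⟩ : ∃ ω : OC C, (ω : C) = w := ⟨⟨w, hwl.le⟩, rfl⟩
  have hωn : ‖ω‖ = ‖w‖ := by show ‖(ω : C)‖ = _; rw [hω]
  have hzl : ‖τ + ω‖ < 1 := by
    refine lt_of_le_of_lt (IsUltrametricDist.norm_add_le_max _ _) (max_lt hτn ?_)
    rw [hωn]; exact hwl
  have hsub : τ + ω - τ = ω := by ring
  have e1 := tor_hom_simple hF hG hφ τ hτn h0 (τ + ω) hzl (by rw [hsub, hωn, ← hδ]; exact hw1)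
  rw [hsub, hωn, ← hδ, hev _ hzl] at e1
  have e2 : ‖ev1 (RingHom.id (OC C)) (τ + ω) U * D.eval (τ + ω)‖ =
      ‖ev1 (RingHom.id (OC C)) (τ + ω) U‖ * ‖D.eval (τ + ω)‖ :=
    norm_mul ((ev1 (RingHom.id (OC C)) (τ + ω) U : OC C) : C) ((D.eval (τ + ω) : OC C) : C)
  rw [e2, tor_norm_unit _ _ hzl U hU, one_mul] at e1
  have e3 : ‖D.eval (τ + ω)‖ = ‖P.eval ((τ + ω : OC C) : C)‖ := by
    rw [← heval]; rfl
  rw [e3, hprod, ht, Multiset.map_add, Multiset.prod_add] at e1
  have e4 : ((τ + ω : OC C) : C) - a = w := by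
    rw [← hτ, ← hω]
    push_cast
    ring
  rw [Multiset.map_cons, Multiset.map_cons, Multiset.map_zero,
    Multiset.prod_cons, Multiset.prod_cons, Multiset.prod_zero, mul_one, e4, norm_mul,
    norm_mul] at e1
  have e5 : ‖(t.map (fun a => ((τ + ω : OC C) : C) - a)).prod‖ ≤ 1 := by
    have : ∀ s : Multiset C, (∀ x ∈ s, ‖x‖ ≤ 1) → ‖s.prod‖ ≤ 1 := by
      intro s
      induction s using Multiset.induction with
      | empty => intro _; simp
      | cons x s ih =>
        intro hx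
        rw [Multiset.prod_cons, norm_mul]
        exact mul_le_one₀ (hx x (Multiset.mem_cons_self x s)) (norm_nonneg _)
          (ih (fun y hy => hx y (Multiset.mem_cons_of_mem hy)))
    apply this
    intro x hx
    obtain ⟨b, hb, rfl⟩ := Multiset.mem_map.1 hx
    have hb' : ‖b‖ < 1 := hnorm b (by rw [ht]; exact Multiset.mem_add.2 (Or.inr hb))
    rw [sub_eq_add_neg]
    have h3 := IsUltrametricDist.norm_add_le_max ((τ + ω : OC C) : C) (-b)
    rw [norm_neg] at h3
    exact h3.trans (max_le hzl.le hb'.le)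
  have hw0' : 0 < ‖w‖ := hw0
  have : δ * ‖w‖ ≤ ‖w‖ * ‖w‖ := by
    rw [← e1]
    exact mul_le_of_le_one_right (by positivity) e5
  have := le_of_mul_le_mul_right this hw0'
  linarith

end Analytic

end Crest.Agent.LT
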