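import Mathlib
import Crest.Agent.LT.CDefs
import Crest.Agent.LT.TorsionAux2

/-! # C1: torsion and Weierstrass factorisation (row 227). Paper proof: ideas row 227, C1.
Mathlib: `Mathlib/RingTheory/PowerSeries/WeierstrassPreparation.lean` over
`A = MvPowerSeries (Fin r) (GaloisField p n)` (complete local Noetherian, instances in LT/Ring.lean). -/

set_option autoImplicit false
set_option linter.unusedSectionVars false

namespace Crest.Agent.LT

open Crest.LubinTate MvPowerSeries

variable {p n h r : ℕ} [Fact p.Prime]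

section
variable {C : Type*} [NormedField C] [IsUltrametricDist C] [CharP C p]

/-- Weierstrass factorisation of `[p^m]_H = W_m(X^(Q^m))`, `Q = p^h`, over `A`. -/
theorem CData.exists_weierstrass (D : CData p n h r C) (m : ℕ) :
    ∃ (Wm Um : PowerSeries (MvPowerSeries (Fin r) (GaloisField p n)))
      (Dm : Polynomial (MvPowerSeries (Fin r) (GaloisField p n))),
      mulSeries D.H (p ^ m) = PowerSeries.subst (PowerSeries.X ^ ((p ^ h) ^ m) :
        PowerSeries (MvPowerSeries (Fin r) (GaloisField p n))) Wm ∧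
      PowerSeries.constantCoeff Wm = 0 ∧
      PowerSeries.coeff 1 Wm = ∏ i ∈ Finset.range m, (PowerSeries.coeff 1 D.W) ^ ((p ^ h) ^ i) ∧
      (∀ hc : CharP (MvPowerSeries (Fin r) (GaloisField p n)) p,
        IsFGHom (D.H.map (iterateFrobenius _ p (h * m))) D.H Wm) ∧
      Wm = Um * (Dm : PowerSeries (MvPowerSeries (Fin r) (GaloisField p n))) ∧ IsUnit Um ∧
      Dm.Monic ∧ Dm.natDegree = p ^ (r * m) ∧
      ∀ i < p ^ (r * m), MvPowerSeries.constantCoeff (Dm.coeff i) = 0 := by
  have hch : CharP (MvPowerSeries (Fin r) (GaloisField p n)) p := tor_charP_mv _ _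
  obtain ⟨Wm, h1, h2, h3, h4, h5⟩ := D.tor_Wm m
  obtain ⟨Dm, Um, g1, g2, g3, g4, g5⟩ := tor_weier Wm (p ^ (r * m)) (by
    ext i
    have h6 := congrArg (PowerSeries.coeff i) h5
    rw [PowerSeries.coeff_map, PowerSeries.coeff_X_pow] at h6
    rw [PowerSeries.coeff_map, PowerSeries.coeff_X_pow]
    have h7 : (PowerSeries.coeff i Wm - if i = p ^ (r * m) then 1 else 0) ∈
        IsLocalRing.maximalIdeal (MvPowerSeries (Fin r) (GaloisField p n)) := by
      rw [tor_mem_max, map_sub, h6]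
      split_ifs <;> simp
    have h8 := (IsLocalRing.residue_eq_zero_iff _).2 h7
    rw [map_sub, sub_eq_zero] at h8
    rw [h8]
    split_ifs <;> simp)
  refine ⟨Wm, Um, Dm, h1, h2, h3, fun _ => h4, ?_, g4, g1, g2, fun i hi => ?_⟩
  · rw [g5, mul_comm]
  · rw [← tor_mem_max]
    exact g3 i hi

end

variable {C : Type*} [NontriviallyNormedField C] [CompleteSpace C] [IsUltrametricDist C]
  [CharP C p]

/-- the factorisation property of `[p^m]` at a point: `T` = the `p^m`-torsion points. -/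
def LData.Factor (D : LData p n h r C) (m : ℕ) (T : Finset (OC C)) (U : PowerSeries (OC C)) :
    Prop :=
  T.card = p ^ (r * m) ∧ (∀ τ ∈ T, ‖τ‖ < 1) ∧ IsUnit (PowerSeries.constantCoeff U) ∧
    ∀ z : OC C, ‖z‖ < 1 →
      ev1 (RingHom.id (OC C)) z (mulSeries D.Hx (p ^ m)) =
        ev1 (RingHom.id (OC C)) z U * ∏ τ ∈ T, (z - τ) ^ ((p ^ h) ^ m)

/-- refined form: the Weierstrass polynomial is the product over the torsion points -/
theorem CData.tor_exists_factor [IsAlgClosed C] (D : CData p n h r C) (m : ℕ) :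
    ∃ (T : Finset (OC C)) (U : PowerSeries (OC C))
      (Wm Um : PowerSeries (MvPowerSeries (Fin r) (GaloisField p n)))
      (Dm : Polynomial (MvPowerSeries (Fin r) (GaloisField p n))),
      D.toLData.Factor m T U ∧
      mulSeries D.H (p ^ m) = PowerSeries.subst (PowerSeries.X ^ ((p ^ h) ^ m) :
        PowerSeries (MvPowerSeries (Fin r) (GaloisField p n))) Wm ∧
      Wm = Um * (Dm : PowerSeries (MvPowerSeries (Fin r) (GaloisField p n))) ∧ IsUnit Um ∧
      Dm.Monic ∧ Dm.natDegree = p ^ (r * m) ∧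
      (Dm.map ((OC C).subtype.comp D.x)) =
        ∏ τ ∈ T, (Polynomial.X - Polynomial.C ((τ : C) ^ ((p ^ h) ^ m))) := by
  classical
  have hp0 : p ≠ 0 := (Fact.out : p.Prime).ne_zero
  have hch : CharP (MvPowerSeries (Fin r) (GaloisField p n)) p := tor_charP_mv _ _
  have hchO : CharP (OC C) p := OC.charP
  have := D.Hcomm
  obtain ⟨Wm, Um, Dm, h1, h2, h3, h4, h5, h6, h7, h8, h9⟩ := D.exists_weierstrass m
  -- specialise at `x`
  obtain ⟨Φ, hΦ⟩ : ∃ Φ, Φ = PowerSeries.map D.x Wm := ⟨_, rfl⟩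
  obtain ⟨V, hV⟩ : ∃ V, V = PowerSeries.map D.x Um := ⟨_, rfl⟩
  obtain ⟨E, hE⟩ : ∃ E, E = Dm.map D.x := ⟨_, rfl⟩
  have hVu : IsUnit V := by rw [hV]; exact h6.map _
  have hEm : E.Monic := by rw [hE]; exact h7.map _
  have hEd : E.natDegree = p ^ (r * m) := by rw [hE, h7.natDegree_map, h8]
  have hEc : ∀ i < E.natDegree, ‖E.coeff i‖ < 1 := by
    intro i hi
    rw [hE, Polynomial.coeff_map]
    exact D.xlt _ (h9 i (by rwa [hEd] at hi))
  have hΦE : Φ = V * (E : PowerSeries (OC C)) := by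
    rw [hΦ, h5, map_mul, ← hV, hE]
    congr 1
    ext i
    rw [PowerSeries.coeff_map, Polynomial.coeff_coe, Polynomial.coeff_coe, Polynomial.coeff_map]
  have hhom : IsFGHom ((D.H.map (iterateFrobenius _ p (h * m))).map D.x) (D.H.map D.x) Φ := by
    rw [hΦ]
    exact IsFGHom.map (h4 hch) D.x
  have hΦ1 : PowerSeries.coeff 1 Φ ≠ 0 := by
    rw [hΦ, PowerSeries.coeff_map, h3, map_prod]
    rw [Finset.prod_ne_zero_iff]
    intro i _
    rw [map_pow]
    apply pow_ne_zero
    have hw := D.Wcoord ⟨0, D.hr⟩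
    rw [show p ^ ((⟨0, D.hr⟩ : Fin r) : ℕ) = 1 from by simp] at hw
    rw [hw]
    exact D.x0 _ rfl
  have hcF : ((D.H.map (iterateFrobenius _ p (h * m))).map D.x).IsComm := by
    have := map_isComm D.H (iterateFrobenius (MvPowerSeries (Fin r) (GaloisField p n)) p (h * m))
    exact map_isComm _ _
  have hcG : (D.H.map D.x).IsComm := map_isComm _ _
  obtain ⟨k1, k2, k3, k4⟩ := tor_nodup hcF hcG hhom hΦ1 V hVu E hEm hEc hΦE
  obtain ⟨s, hs⟩ : ∃ s, s = (E.map (OC C).subtype).roots := ⟨_, rfl⟩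
  rw [← hs] at k1 k2 k3 k4
  -- `p^(hm)`-th roots
  have hQ0 : (p ^ h) ^ m ≠ 0 := pow_ne_zero _ (pow_ne_zero _ hp0)
  have hroot : ∀ a : C, ∃ b : OC C, ‖a‖ < 1 → (b : C) ^ ((p ^ h) ^ m) = a := by
    intro a
    by_cases ha : ‖a‖ < 1
    · obtain ⟨b, hb⟩ := IsAlgClosed.exists_pow_nat_eq a (Nat.pos_of_ne_zero hQ0)
      have hb1 : ‖b‖ ≤ 1 := by
        by_contra hcon
        rw [not_le] at hcon
        have : 1 < ‖b‖ ^ ((p ^ h) ^ m) := one_lt_pow₀ hcon hQ0
        rw [← norm_pow, hb] at this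
        linarith
      exact ⟨⟨b, hb1⟩, fun _ => hb⟩
    · exact ⟨0, fun h => absurd h ha⟩
  choose b hb using hroot
  have hbinj : ∀ a ∈ s.toFinset, ∀ a' ∈ s.toFinset, b a = b a' → a = a' := by
    intro a ha a' ha' hbb
    rw [← hb a (k2 a (Multiset.mem_toFinset.1 ha)), ← hb a' (k2 a' (Multiset.mem_toFinset.1 ha')),
      hbb]
  have hbn : ∀ a ∈ s.toFinset, ‖b a‖ < 1 := by
    intro a ha
    have ha1 := k2 a (Multiset.mem_toFinset.1 ha)
    by_contra hcon
    rw [not_lt] at hcon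
    have h10 : (1 : ℝ) ≤ ‖(b a : C)‖ ^ ((p ^ h) ^ m) := one_le_pow₀ hcon
    rw [← norm_pow, hb a ha1] at h10
    linarith
  have hscard : s.toFinset.card = p ^ (r * m) := by
    rw [Multiset.toFinset_card_of_nodup k1, k3, hEd]
  refine ⟨s.toFinset.image b, PowerSeries.subst (PowerSeries.X ^ ((p ^ h) ^ m) :
    PowerSeries (OC C)) V, Wm, Um, Dm, ⟨?_, ?_, ?_, ?_⟩, h1, h5, h6, h7, h8, ?_⟩
  · rw [Finset.card_image_of_injOn hbinj, hscard]
  · intro τ hτ
    obtain ⟨a, ha, rfl⟩ := Finset.mem_image.1 hτ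
    exact hbn a ha
  · rw [PowerSeries.constantCoeff_subst_X_pow hQ0]
    exact hVu.map (PowerSeries.constantCoeff : PowerSeries (OC C) →+* OC C)
  · intro z hz
    have hz' := (OC.isTopologicallyNilpotent_iff z).2 hz
    have hX0 : PowerSeries.constantCoeff (PowerSeries.X ^ ((p ^ h) ^ m) : PowerSeries (OC C)) = 0 := by
      rw [map_pow, PowerSeries.constantCoeff_X, zero_pow hQ0]
    have e1 : mulSeries D.toLData.Hx (p ^ m) = PowerSeries.subst (PowerSeries.X ^ ((p ^ h) ^ m) :
        PowerSeries (OC C)) Φ := by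
      show mulSeries (D.H.map D.x) (p ^ m) = _
      rw [mulSeries_map, h1, ← PowerSeries.expand_apply _ hQ0, PowerSeries.map_expand, ← hΦ,
        PowerSeries.expand_apply]
    have hzp : ev1 (RingHom.id (OC C)) z (PowerSeries.X ^ ((p ^ h) ^ m)) = z ^ ((p ^ h) ^ m) := by
      rw [tor_ev1_pow _ _ hz', ev1_X _ _ hz']
    have hzk : ‖z ^ ((p ^ h) ^ m)‖ < 1 := by
      show ‖((z ^ ((p ^ h) ^ m) : OC C) : C)‖ < 1
      push_cast
      rw [norm_pow]
      exact pow_lt_one₀ (norm_nonneg _) hz hQ0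
    have hzk' := (OC.isTopologicallyNilpotent_iff _).2 hzk
    rw [e1, ev1_subst _ _ hz' _ hX0, ev1_subst _ _ hz' _ hX0, hzp, hΦE, tor_ev1_mul _ _ hzk',
      tor_ev1_coe _ _ hzk']
    congr 1
    rw [Finset.prod_image hbinj]
    apply Subtype.ext
    have e2 := k4 (z ^ ((p ^ h) ^ m))
    rw [show Polynomial.eval₂ (RingHom.id (OC C)) (z ^ ((p ^ h) ^ m)) E =
      E.eval (z ^ ((p ^ h) ^ m)) from rfl, e2]
    have e3 : ((∏ a ∈ s.toFinset, (z - b a) ^ ((p ^ h) ^ m) : OC C) : C) =
        ∏ a ∈ s.toFinset, (((z ^ ((p ^ h) ^ m) : OC C) : C) - a) := by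
      rw [show ((∏ a ∈ s.toFinset, (z - b a) ^ ((p ^ h) ^ m) : OC C) : C) =
        (OC C).subtype (∏ a ∈ s.toFinset, (z - b a) ^ ((p ^ h) ^ m)) from rfl, map_prod]
      apply Finset.prod_congr rfl
      intro a ha
      have ha1 := k2 a (Multiset.mem_toFinset.1 ha)
      rw [map_pow, map_sub, ← pow_mul, sub_pow_char_pow, pow_mul]
      show (z : C) ^ ((p ^ h)) ^ m - (b a : C) ^ (p ^ h) ^ m = _
      rw [hb a ha1]
      rfl
    rw [e3, Finset.prod, Multiset.toFinset_val, Multiset.dedup_eq_self.2 k1]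
  · have e4 : Dm.map ((OC C).subtype.comp D.x) = E.map (OC C).subtype := by
      rw [hE, Polynomial.map_map]
    have hPm : (E.map (OC C).subtype).Monic := hEm.map _
    rw [Finset.prod_image hbinj, e4]
    conv_lhs => rw [(IsAlgClosed.splits (E.map (OC C).subtype)).eq_prod_roots_of_monic hPm, ← hs]
    have e5 : ∏ a ∈ s.toFinset, (Polynomial.X - Polynomial.C ((b a : C) ^ ((p ^ h) ^ m))) =
        ∏ a ∈ s.toFinset, (Polynomial.X - Polynomial.C a) := by
      apply Finset.prod_congr rfl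
      intro a ha
      rw [hb a (k2 a (Multiset.mem_toFinset.1 ha))]
    rw [e5, Finset.prod, Multiset.toFinset_val, Multiset.dedup_eq_self.2 k1]

theorem CData.exists_factor [IsAlgClosed C] (D : CData p n h r C) (m : ℕ) :
    ∃ (T : Finset (OC C)) (U : PowerSeries (OC C)), D.toLData.Factor m T U := by
  obtain ⟨T, U, _, _, _, h, _⟩ := D.tor_exists_factor m
  exact ⟨T, U, h⟩

theorem LData.Factor.mem_iff (D : LData p n h r C) {m : ℕ} {T : Finset (OC C)}
    {U : PowerSeries (OC C)} (hT : D.Factor m T U) (z : OC C) :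
    z ∈ T ↔ ‖z‖ < 1 ∧ ev1 (RingHom.id (OC C)) z (mulSeries D.Hx (p ^ m)) = 0 := by
  obtain ⟨_, h2, h3, h4⟩ := hT
  have hp0 : p ≠ 0 := (Fact.out : p.Prime).ne_zero
  have hQ0 : (p ^ h) ^ m ≠ 0 := pow_ne_zero _ (pow_ne_zero _ hp0)
  constructor
  · intro hz
    refine ⟨h2 z hz, ?_⟩
    rw [h4 z (h2 z hz), Finset.prod_eq_zero hz, mul_zero]
    rw [sub_self, zero_pow hQ0]
  · rintro ⟨hz, h0⟩
    rw [h4 z hz] at h0
    have hU : IsUnit U := PowerSeries.isUnit_iff_constantCoeff.2 h3
    have h5 := tor_norm_unit (RingHom.id (OC C)) z hz U hU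
    have h6 : ev1 (RingHom.id (OC C)) z U ≠ 0 := by
      intro h7
      rw [h7] at h5
      simp at h5
    have h8 := (mul_eq_zero.1 h0).resolve_left h6
    obtain ⟨τ, hτ, hzτ⟩ := Finset.prod_eq_zero_iff.1 h8
    have h9 := pow_eq_zero_iff hQ0 |>.1 hzτ
    rw [sub_eq_zero] at h9
    rw [h9]
    exact hτ

theorem LData.Factor.unique (D : LData p n h r C) {m : ℕ} {T T' : Finset (OC C)}
    {U U' : PowerSeries (OC C)} (hT : D.Factor m T U) (hT' : D.Factor m T' U') : T = T' := by
  ext z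
  rw [LData.Factor.mem_iff D hT, LData.Factor.mem_iff D hT']

section Coeff

theorem tor_prod_coeff_lt {ι : Type*} [DecidableEq ι] (s : Finset ι) (a : ι → C) (R : ℝ)
    (hR : 0 < R) (h : ∀ i ∈ s, ‖a i‖ < R) :
    ∀ j < s.card, ‖(∏ i ∈ s, (Polynomial.X - Polynomial.C (a i))).coeff j‖ < R ^ (s.card - j) := by
  induction s using Finset.induction_on with
  | empty => intro j hj; simp at hj
  | insert i s hi ih =>
    intro j hj
    rw [Finset.card_insert_of_notMem hi] at hj ⊢
    rw [Finset.prod_insert hi, sub_mul, Polynomial.coeff_sub, Polynomial.coeff_C_mul]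
    have ih' := ih (fun k hk => h k (Finset.mem_insert_of_mem hk))
    have hai := h i (Finset.mem_insert_self i s)
    have hmon := Polynomial.monic_prod_X_sub_C a s
    have hdeg := Polynomial.natDegree_finsetProd_X_sub_C_eq_card s a
    have h1 : ‖a i * (∏ k ∈ s, (Polynomial.X - Polynomial.C (a k))).coeff j‖ <
        R ^ (s.card + 1 - j) := by
      rw [norm_mul]
      rcases Nat.lt_or_ge j s.card with hj' | hj'
      · have h2 := ih' j hj'
        rw [show s.card + 1 - j = (s.card - j) + 1 by omega, pow_succ, mul_comm]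
        exact mul_lt_mul'' h2 hai (norm_nonneg _) (norm_nonneg _)
      · have h3 : j = s.card := by omega
        rw [h3, ← hdeg, hmon.coeff_natDegree, norm_one, mul_one, hdeg]
        rw [show s.card + 1 - s.card = 1 by omega, pow_one]
        exact hai
    have h2 : ‖(Polynomial.X * ∏ k ∈ s, (Polynomial.X - Polynomial.C (a k))).coeff j‖ <
        R ^ (s.card + 1 - j) := by
      rcases j with _ | j
      · rw [Polynomial.coeff_X_mul_zero, norm_zero]
        positivity
      · rw [Polynomial.coeff_X_mul]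
        have h3 := ih' j (by omega)
        rwa [show s.card + 1 - (j + 1) = s.card - j by omega]
    rw [sub_eq_add_neg]
    refine lt_of_le_of_lt (IsUltrametricDist.norm_add_le_max _ _) (max_lt h2 ?_)
    rw [norm_neg]
    exact h1

theorem tor_prod_coeff_le {ι : Type*} [DecidableEq ι] (s : Finset ι) (a : ι → C) (R : ℝ)
    (hR : 0 < R) (h : ∀ i ∈ s, ‖a i‖ ≤ R) :
    ∀ j ≤ s.card, ‖(∏ i ∈ s, (Polynomial.X - Polynomial.C (a i))).coeff j‖ ≤ R ^ (s.card - j) := by
  induction s using Finset.induction_on with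
  | empty =>
    intro j hj
    have : j = 0 := by simpa using hj
    subst this
    simp
  | insert i s hi ih =>
    intro j hj
    rw [Finset.card_insert_of_notMem hi] at hj ⊢
    rw [Finset.prod_insert hi, sub_mul, Polynomial.coeff_sub, Polynomial.coeff_C_mul]
    have ih' := ih (fun k hk => h k (Finset.mem_insert_of_mem hk))
    have hai := h i (Finset.mem_insert_self i s)
    have hmon := Polynomial.monic_prod_X_sub_C a s
    have hdeg := Polynomial.natDegree_finsetProd_X_sub_C_eq_card s a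
    have h1 : ‖a i * (∏ k ∈ s, (Polynomial.X - Polynomial.C (a k))).coeff j‖ ≤
        R ^ (s.card + 1 - j) := by
      rw [norm_mul]
      rcases Nat.lt_or_ge s.card j with hj' | hj'
      · rw [Polynomial.coeff_eq_zero_of_natDegree_lt (by rw [hdeg]; exact hj'), norm_zero, mul_zero]
        positivity
      · have h2 := ih' j hj'
        rw [show s.card + 1 - j = (s.card - j) + 1 by omega, pow_succ, mul_comm]
        exact mul_le_mul h2 hai (norm_nonneg _) (by positivity)
    have h2 : ‖(Polynomial.X * ∏ k ∈ s, (Polynomial.X - Polynomial.C (a k))).coeff j‖ ≤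
        R ^ (s.card + 1 - j) := by
      rcases j with _ | j
      · rw [Polynomial.coeff_X_mul_zero, norm_zero]
        positivity
      · rw [Polynomial.coeff_X_mul]
        have h3 := ih' j (by omega)
        rwa [show s.card + 1 - (j + 1) = s.card - j by omega]
    rw [sub_eq_add_neg]
    refine (IsUltrametricDist.norm_add_le_max _ _).trans (max_le h2 ?_)
    rw [norm_neg]
    exact h1

theorem tor_sum_lt {ι : Type*} (s : Finset ι) (f : ι → C) (R : ℝ) (hR : 0 < R)
    (h : ∀ i ∈ s, ‖f i‖ < R) : ‖∑ i ∈ s, f i‖ < R := by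
  classical
  induction s using Finset.induction_on with
  | empty => simpa using hR
  | insert i s hi ih =>
    rw [Finset.sum_insert hi]
    exact lt_of_le_of_lt (IsUltrametricDist.norm_add_le_max _ _)
      (max_lt (h i (Finset.mem_insert_self i s)) (ih (fun k hk => h k (Finset.mem_insert_of_mem hk))))

end Coeff

/-- Newton polygon computation of C5: if `p^e` is the number of `σ ∈ T_1` of norm `< ρ0 = max`, then
`x(X_e) ≠ 0` (in particular `e < r`). -/
theorem CData.coeff_ne_zero_of_card [IsAlgClosed C] (D : CData p n h r C)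
    (T : Finset (OC C)) (U : PowerSeries (OC C)) (hT : D.toLData.Factor 1 T U)
    (ρ : ℝ) (hρ : ∀ τ ∈ T, ‖τ‖ ≤ ρ) (hρ' : ∃ τ ∈ T, ‖τ‖ = ρ) (hρ0 : 0 < ρ) (e : ℕ)
    (he : (T.filter (fun τ => ‖τ‖ < ρ)).card = p ^ e) :
    ∃ i : Fin r, (i : ℕ) = e ∧ D.x (MvPowerSeries.X i) ≠ 0 := by
  classical
  have hp0 : p ≠ 0 := (Fact.out : p.Prime).ne_zero
  obtain ⟨T₀, U₀, W1, U1, D1, g1, g2, g3, g4, g5, g6, g7⟩ := D.tor_exists_factor 1
  have hTT := LData.Factor.unique D.toLData hT g1
  rw [← hTT] at g7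
  have hW1 : W1 = D.W := by
    apply tor_subst_X_pow_inj (pow_ne_zero h hp0)
    rw [← D.HW]
    have := g2
    rw [pow_one, pow_one] at this
    exact this.symm
  obtain ⟨Q, hQ⟩ : ∃ Q, Q = (p ^ h) ^ 1 := ⟨_, rfl⟩
  have hQ0 : Q ≠ 0 := by rw [hQ]; exact pow_ne_zero _ (pow_ne_zero _ hp0)
  rw [← hQ] at g7
  have hTcard : T.card = p ^ r := by rw [hT.1, mul_one]
  obtain ⟨S, hS⟩ : ∃ S, S = T.filter (fun τ => ‖τ‖ < ρ) := ⟨_, rfl⟩
  obtain ⟨B, hB⟩ : ∃ B, B = T.filter (fun τ => ¬ ‖τ‖ < ρ) := ⟨_, rfl⟩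
  rw [← hS] at he
  have hSB : S.card + B.card = p ^ r := by
    rw [hS, hB, ← hTcard]
    exact Finset.card_filter_add_card_filter_not _
  obtain ⟨τ₀, hτ₀, hτ₀ρ⟩ := hρ'
  have hρ1 : ρ < 1 := by rw [← hτ₀ρ]; exact hT.2.1 τ₀ hτ₀
  have hBpos : 0 < B.card := by
    rw [Finset.card_pos]
    exact ⟨τ₀, by rw [hB, Finset.mem_filter]; exact ⟨hτ₀, by rw [hτ₀ρ]; exact lt_irrefl _⟩⟩
  have her : e < r := by
    have : p ^ e < p ^ r := by omega
    exact (Nat.pow_lt_pow_iff_right (Fact.out : p.Prime).one_lt).1 this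
  refine ⟨⟨e, her⟩, rfl, ?_⟩
  have hWe := D.Wcoord ⟨e, her⟩
  rw [← hWe]
  -- work over `C`
  obtain ⟨R, hR⟩ : ∃ R, R = ρ ^ Q := ⟨_, rfl⟩
  have hR0 : 0 < R := by rw [hR]; positivity
  have hR1 : R ≤ 1 := by rw [hR]; exact pow_le_one₀ hρ0.le hρ1.le
  obtain ⟨PA, hPA⟩ : ∃ PA, PA = ∏ τ ∈ S, (Polynomial.X - Polynomial.C ((τ : C) ^ Q)) := ⟨_, rfl⟩
  obtain ⟨PB, hPB⟩ : ∃ PB, PB = ∏ τ ∈ B, (Polynomial.X - Polynomial.C ((τ : C) ^ Q)) := ⟨_, rfl⟩
  have hP : D1.map ((OC C).subtype.comp D.x) = PA * PB := by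
    rw [g7, hPA, hPB, hS, hB]
    exact (Finset.prod_filter_mul_prod_filter_not T (fun τ => ‖τ‖ < ρ) _).symm
  have hAlt : ∀ j < S.card, ‖PA.coeff j‖ < R ^ (S.card - j) := by
    rw [hPA]
    apply tor_prod_coeff_lt S (fun τ => (τ : C) ^ Q) R hR0
    intro τ hτ
    rw [hS, Finset.mem_filter] at hτ
    rw [norm_pow, hR]
    exact pow_lt_pow_left₀ hτ.2 (norm_nonneg _) hQ0
  have hBnorm : ∀ τ ∈ B, ‖(τ : C) ^ Q‖ = R := by
    intro τ hτ
    rw [hB, Finset.mem_filter] at hτ
    have : ‖(τ : C)‖ = ρ := le_antisymm (hρ τ hτ.1) (not_lt.1 hτ.2)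
    rw [norm_pow, this, hR]
  have hBle : ∀ j ≤ B.card, ‖PB.coeff j‖ ≤ R ^ (B.card - j) := by
    rw [hPB]
    apply tor_prod_coeff_le B (fun τ => (τ : C) ^ Q) R hR0
    intro τ hτ
    exact (hBnorm τ hτ).le
  have hB0 : ‖PB.coeff 0‖ = R ^ B.card := by
    rw [hPB, Polynomial.coeff_zero_prod, norm_prod, Finset.prod_congr rfl (g := fun _ => R),
      Finset.prod_const]
    intro τ hτ
    rw [Polynomial.coeff_sub, Polynomial.coeff_X_zero, Polynomial.coeff_C_zero, zero_sub, norm_neg]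
    exact hBnorm τ hτ
  have hAm : PA.coeff S.card = 1 := by
    have h1 := Polynomial.monic_prod_X_sub_C (fun τ : OC C => (τ : C) ^ Q) S
    have h2 := Polynomial.natDegree_finsetProd_X_sub_C_eq_card S (fun τ : OC C => (τ : C) ^ Q)
    rw [← hPA] at h1 h2
    rw [← h2]
    exact h1.coeff_natDegree
  have hBbig : ∀ j, B.card < j → PB.coeff j = 0 := by
    intro j hj
    apply Polynomial.coeff_eq_zero_of_natDegree_lt
    rw [hPB, Polynomial.natDegree_finsetProd_X_sub_C_eq_card]
    exact hj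
  -- coefficients of the product
  have hterm : ∀ i j, i < S.card → ‖PA.coeff i * PB.coeff j‖ < R ^ (S.card + B.card - (i + j)) := by
    intro i j hi
    rcases Nat.lt_or_ge B.card j with hj | hj
    · rw [hBbig j hj, mul_zero, norm_zero]
      positivity
    · rw [norm_mul, show S.card + B.card - (i + j) = (S.card - i) + (B.card - j) by omega, pow_add]
      calc ‖PA.coeff i‖ * ‖PB.coeff j‖ ≤ ‖PA.coeff i‖ * R ^ (B.card - j) :=
            mul_le_mul_of_nonneg_left (hBle j hj) (norm_nonneg _)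
        _ < R ^ (S.card - i) * R ^ (B.card - j) :=
            mul_lt_mul_of_pos_right (hAlt i hi) (by positivity)
  have hlow : ∀ k < S.card, ‖(PA * PB).coeff k‖ < R ^ (S.card + B.card - k) := by
    intro k hk
    rw [Polynomial.coeff_mul]
    apply tor_sum_lt _ _ _ (by positivity)
    rintro ⟨i, j⟩ hij
    rw [Finset.HasAntidiagonal.mem_antidiagonal] at hij
    have := hterm i j (by simp only at hij; omega)
    simp only at hij
    rw [hij] at this
    exact this
  have hmain : ‖(PA * PB).coeff S.card‖ = R ^ B.card := by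
    rw [Polynomial.coeff_mul, ← Finset.add_sum_erase _ _
      (show (S.card, 0) ∈ Finset.HasAntidiagonal.antidiagonal S.card by simp)]
    simp only [hAm, one_mul]
    have h1 : ‖∑ x ∈ (Finset.HasAntidiagonal.antidiagonal S.card).erase (S.card, 0),
        PA.coeff x.1 * PB.coeff x.2‖ < R ^ B.card := by
      apply tor_sum_lt _ _ _ (by positivity)
      rintro ⟨i, j⟩ hij
      rw [Finset.mem_erase, Finset.HasAntidiagonal.mem_antidiagonal] at hij
      obtain ⟨h1, h2⟩ := hij
      simp only at h2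
      have hi : i < S.card := by
        rcases Nat.lt_or_ge i S.card with h3 | h3
        · exact h3
        · exfalso
          apply h1
          have h4 : i = S.card := by omega
          have h5 : j = 0 := by omega
          rw [h4, h5]
      have := hterm i j hi
      rw [h2, show S.card + B.card - S.card = B.card by omega] at this
      exact this
    rw [← hB0] at h1 ⊢
    exact IsUltrametricDist.norm_add_eq_max_of_norm_ne_norm h1.ne' |>.trans (max_eq_left h1.le)
  -- the coefficient of `W`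
  intro hzero
  obtain ⟨V, hV⟩ : ∃ V, V = PowerSeries.map ((OC C).subtype.comp D.x) U1 := ⟨_, rfl⟩
  have hWV : PowerSeries.map ((OC C).subtype.comp D.x) D.W =
      V * ((PA * PB : Polynomial C) : PowerSeries C) := by
    rw [← hW1, g3, map_mul, ← hV, ← hP]
    congr 1
    ext i
    rw [PowerSeries.coeff_map, Polynomial.coeff_coe, Polynomial.coeff_coe, Polynomial.coeff_map]
  have hc := congrArg (PowerSeries.coeff S.card) hWV
  rw [PowerSeries.coeff_map, PowerSeries.coeff_mul, ← Finset.add_sum_erase _ _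
      (show (0, S.card) ∈ Finset.HasAntidiagonal.antidiagonal S.card by simp)] at hc
  have hV0 : ‖PowerSeries.coeff 0 V‖ = 1 := by
    rw [hV, PowerSeries.coeff_map]
    have h1 : IsUnit (D.x (PowerSeries.coeff 0 U1)) := by
      rw [PowerSeries.coeff_zero_eq_constantCoeff_apply]
      exact (g4.map (PowerSeries.constantCoeff (R := MvPowerSeries (Fin r) (GaloisField p n)))).map D.x
    obtain ⟨y, hy⟩ := h1.exists_right_inv
    have h2 : ‖(D.x (PowerSeries.coeff 0 U1) : C)‖ * ‖(y : C)‖ = 1 := by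
      have := congrArg (fun x : OC C => ‖(x : C)‖) hy
      simpa using this
    have h3 : ‖(D.x (PowerSeries.coeff 0 U1) : C)‖ ≤ 1 := OC.norm_le_one _
    have h4 : ‖(y : C)‖ ≤ 1 := OC.norm_le_one _
    have h5 : 0 ≤ ‖(D.x (PowerSeries.coeff 0 U1) : C)‖ := norm_nonneg _
    show ‖(D.x (PowerSeries.coeff 0 U1) : C)‖ = 1
    nlinarith
  have hVle : ∀ i, ‖PowerSeries.coeff i V‖ ≤ 1 := by
    intro i
    rw [hV, PowerSeries.coeff_map]
    exact OC.norm_le_one _
  have hrest : ‖∑ x ∈ (Finset.HasAntidiagonal.antidiagonal S.card).erase (0, S.card),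
      PowerSeries.coeff x.1 V * PowerSeries.coeff x.2 ((PA * PB : Polynomial C) : PowerSeries C)‖ <
      R ^ B.card := by
    apply tor_sum_lt _ _ _ (by positivity)
    rintro ⟨i, j⟩ hij
    rw [Finset.mem_erase, Finset.HasAntidiagonal.mem_antidiagonal] at hij
    obtain ⟨h1, h2⟩ := hij
    simp only at h2
    have hj : j < S.card := by
      rcases Nat.lt_or_ge j S.card with h3 | h3
      · exact h3
      · exfalso
        apply h1
        have h4 : j = S.card := by omega
        have h5 : i = 0 := by omega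
        rw [h4, h5]
    rw [norm_mul, Polynomial.coeff_coe]
    calc ‖PowerSeries.coeff i V‖ * ‖(PA * PB).coeff j‖ ≤ 1 * ‖(PA * PB).coeff j‖ :=
          mul_le_mul_of_nonneg_right (hVle i) (norm_nonneg _)
      _ < R ^ (S.card + B.card - j) := by rw [one_mul]; exact hlow j hj
      _ ≤ R ^ B.card := pow_le_pow_of_le_one hR0.le hR1 (by omega)
  have hfirst : ‖PowerSeries.coeff 0 V * PowerSeries.coeff S.card
      ((PA * PB : Polynomial C) : PowerSeries C)‖ = R ^ B.card := by
    rw [norm_mul, hV0, one_mul, Polynomial.coeff_coe, hmain]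
  have hz2 : ((OC C).subtype.comp D.x) (PowerSeries.coeff S.card D.W) = 0 := by
    rw [he]
    show ((D.x (PowerSeries.coeff (p ^ e) D.W) : OC C) : C) = 0
    rw [hzero]
    rfl
  rw [hz2] at hc
  have hc2 := eq_neg_of_add_eq_zero_left hc.symm
  rw [hc2, norm_neg] at hfirst
  exact absurd hfirst hrest.ne

end Crest.Agent.LT
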