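import Mathlib
import Crest.Agent.LT.LeadRes
import Crest.Agent.LT.LogC
import Crest.Agent.LT.Torsion

/-! # C4, part 2: torsion points and their norms (row 227, helper47) -/

set_option autoImplicit false
set_option linter.unusedSectionVars false

namespace Crest.Agent.LT

open Crest.LubinTate MvPowerSeries

variable {p n h r : ℕ} [Fact p.Prime]
variable {C : Type*} [NontriviallyNormedField C] [CompleteSpace C] [IsUltrametricDist C]
  [CharP C p] [IsAlgClosed C]

namespace LeadT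

attribute [local instance] LData.Hcomm

/-- points of `H_x` -/
abbrev GP (D : LData p n h r C) : Type _ := Pt D.Hx (RingHom.id (OC C))

theorem norm_eq_of_sub_lt {a b : C} (h : ‖a - b‖ < ‖a‖) : ‖b‖ = ‖a‖ := by
  have h1 : ‖a + -b‖ < max ‖a‖ ‖-b‖ := by
    rw [← sub_eq_add_neg]
    exact lt_of_lt_of_le h (le_max_left _ _)
  have h2 := IsUltrametricDist.norm_eq_of_add_norm_lt_max h1
  rw [norm_neg] at h2
  exact h2.symm

theorem norm_sub_le_max (a b : C) : ‖a - b‖ ≤ max ‖a‖ ‖b‖ := by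
  rw [sub_eq_add_neg, ← norm_neg b]
  exact IsUltrametricDist.norm_add_le_max a (-b)

theorem norm_sub_of_lt {a b : C} (h : ‖b‖ < ‖a‖) : ‖a - b‖ = ‖a‖ := by
  apply norm_eq_of_sub_lt
  rw [sub_sub_cancel]
  exact h

theorem norm_sub_of_lt' {a b : C} (h : ‖a‖ < ‖b‖) : ‖a - b‖ = ‖b‖ := by
  rw [norm_sub_rev]
  exact norm_sub_of_lt h

variable (D : LData p n h r C)

variable {D}

theorem lt_one (x : GP D) : ‖x.1‖ < 1 := (OC.isTopologicallyNilpotent_iff x.1).1 x.2

/-- a point from an element of norm `< 1` -/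
def mk (D : LData p n h r C) (z : OC C) (hz : ‖z‖ < 1) : GP D :=
  ⟨z, (OC.isTopologicallyNilpotent_iff z).2 hz⟩

theorem mk_val (z : OC C) (hz : ‖z‖ < 1) : (mk D z hz).1 = z := rfl

theorem val_eq_zero {x : GP D} : x.1 = 0 ↔ x = 0 := by
  constructor
  · intro h0
    apply Subtype.ext
    rw [h0]
    exact Pt.zero_val.symm
  · intro h0
    rw [h0]
    exact Pt.zero_val

theorem norm_zero_val : ‖(0 : GP D).1‖ = 0 := by
  have h0 : (0 : GP D).1 = 0 := Pt.zero_val
  rw [h0, norm_zero]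

theorem norm_val_pos {x : GP D} (hx : x ≠ 0) : 0 < ‖x.1‖ := by
  rw [norm_pos_iff]
  intro h0
  exact hx (val_eq_zero.1 h0)

theorem norm_sub_val (x y : GP D) : ‖(x - y).1‖ = ‖x.1 - y.1‖ := by
  apply OC.norm_eq_of_op_eq D.Hx (RingHom.id (OC C)) x.1 y.1 (x - y).1 (lt_one x) (lt_one y)
    (lt_one _)
  rw [← Pt.add_val, sub_add_cancel]

theorem sz0 (m : ℕ) : m • (0 : GP D) = 0 := nsmul_zero m

theorem sadd (m : ℕ) (x y : GP D) : m • (x + y) = m • x + m • y := nsmul_add x y m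

theorem sneg (m : ℕ) (x : GP D) : m • (-x) = -(m • x) := neg_nsmul x m

theorem ssub (m : ℕ) (x y : GP D) : m • (x - y) = m • x - m • y := nsmul_sub x y m

theorem nz0 : -(0 : GP D) = 0 := neg_zero

theorem az0 (x : GP D) : x + 0 = x := add_zero x

theorem za0 (x : GP D) : 0 + x = x := zero_add x

/-- the group law is addition up to the product of norms -/
theorem norm_add_val_sub (x y : GP D) : ‖(x + y).1 - (x.1 + y.1)‖ ≤ ‖x.1‖ * ‖y.1‖ := by
  rw [Pt.add_val]
  exact OC.norm_op_sub_le D.Hx (RingHom.id (OC C)) x.1 y.1 (lt_one x) (lt_one y)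

theorem norm_sub_val_le (x y : GP D) : ‖(x - y).1‖ ≤ max ‖x.1‖ ‖y.1‖ := by
  rw [norm_sub_val]
  exact norm_sub_le_max (x.1 : C) (y.1 : C)

theorem norm_neg_val (x : GP D) : ‖(-x).1‖ = ‖x.1‖ := by
  have h1 := norm_sub_val (0 : GP D) x
  have h0 : (0 : GP D).1 = 0 := Pt.zero_val
  rw [zero_sub, h0, zero_sub, norm_neg] at h1
  exact h1

theorem norm_add_val_le (x y : GP D) : ‖(x + y).1‖ ≤ max ‖x.1‖ ‖y.1‖ := by
  have h1 := norm_sub_val_le x (-y)
  rwa [sub_neg_eq_add, norm_neg_val] at h1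

theorem p_smul_val (x : GP D) : (p • x).1 = ev1 (RingHom.id (OC C)) x.1 (mulSeries D.Hx p) :=
  Pt.nsmul_val p x

theorem norm_p_smul_le (x : GP D) : ‖(p • x).1‖ ≤ ‖x.1‖ ^ (p ^ h) := by
  have hp := (Fact.out : p.Prime)
  have hx := (OC.isTopologicallyNilpotent_iff x.1).2 (lt_one x)
  have hQ : p ^ h ≠ 0 := pow_ne_zero _ hp.ne_zero
  have hc : PowerSeries.constantCoeff (PowerSeries.X ^ (p ^ h) : PowerSeries (OC C)) = 0 := by
    rw [map_pow, PowerSeries.constantCoeff_X, zero_pow hQ]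
  rw [p_smul_val, D.HW, ev1_subst (RingHom.id (OC C)) x.1 hx _ hc]
  have h1 : ev1 (RingHom.id (OC C)) x.1 (PowerSeries.X ^ (p ^ h) : PowerSeries (OC C)) =
      x.1 ^ (p ^ h) := by
    have hx' : ∀ _ : Unit, IsTopologicallyNilpotent x.1 := fun _ => hx
    have h2 := evHom_apply (RingHom.id (OC C)) (fun _ : Unit => x.1) hx'
      (PowerSeries.X ^ (p ^ h) : PowerSeries (OC C))
    have h3 := evHom_apply (RingHom.id (OC C)) (fun _ : Unit => x.1) hx'
      (PowerSeries.X : PowerSeries (OC C))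
    unfold ev1
    rw [← h2, map_pow, h3]
    have h4 := ev1_X (RingHom.id (OC C)) x.1 hx
    unfold ev1 at h4
    rw [h4]
  rw [h1]
  have hlt : ‖x.1 ^ (p ^ h)‖ < 1 := by
    show ‖((x.1 ^ (p ^ h) : OC C) : C)‖ < 1
    rw [Subring.coe_pow, norm_pow]
    exact pow_lt_one₀ (norm_nonneg _) (lt_one x) hQ
  have h5 := OC.norm_ev1_le (RingHom.id (OC C)) (x.1 ^ (p ^ h)) hlt D.Wx (M := 1) (N := 1)
    (fun d => OC.norm_le_one _) (by
      intro d hd
      have : d = 0 := by omega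
      rw [this, PowerSeries.coeff_zero_eq_constantCoeff_apply]
      exact D.W0)
  rw [one_mul, pow_one] at h5
  refine h5.trans (le_of_eq ?_)
  show ‖((x.1 ^ (p ^ h) : OC C) : C)‖ = _
  rw [Subring.coe_pow, norm_pow]
  rfl

theorem two_le_Q (D : LData p n h r C) : 2 ≤ p ^ h := by
  have hp := (Fact.out : p.Prime)
  calc 2 ≤ p := hp.two_le
    _ = p ^ 1 := (pow_one p).symm
    _ ≤ p ^ h := Nat.pow_le_pow_right hp.pos D.hh

theorem norm_p_smul_le_sq (x : GP D) : ‖(p • x).1‖ ≤ ‖x.1‖ * ‖x.1‖ := by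
  refine (norm_p_smul_le x).trans ?_
  rw [← sq]
  exact pow_le_pow_of_le_one (norm_nonneg _) (lt_one x).le (two_le_Q D)

theorem norm_p_smul_le_self (x : GP D) : ‖(p • x).1‖ ≤ ‖x.1‖ := by
  refine (norm_p_smul_le_sq x).trans ?_
  exact mul_le_of_le_one_right (norm_nonneg _) (lt_one x).le

theorem pow_smul_succ (m : ℕ) (x : GP D) : (p ^ (m + 1)) • x = p • ((p ^ m) • x) := by
  rw [pow_succ', mul_smul]

theorem norm_pow_smul_le_self (m : ℕ) (x : GP D) : ‖((p ^ m) • x).1‖ ≤ ‖x.1‖ := by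
  induction m with
  | zero => rw [pow_zero, one_smul]
  | succ m ih =>
    rw [pow_smul_succ]
    exact (norm_p_smul_le_self _).trans ih

theorem norm_pow_smul_le (m : ℕ) (x : GP D) {ρ : ℝ} (hρ : ‖x.1‖ ≤ ρ) :
    ‖((p ^ m) • x).1‖ ≤ ρ ^ m * ρ := by
  have hρ0 : 0 ≤ ρ := (norm_nonneg _).trans hρ
  induction m with
  | zero => rw [pow_zero, one_smul, pow_zero, one_mul]; exact hρ
  | succ m ih =>
    rw [pow_smul_succ]
    refine (norm_p_smul_le_sq _).trans ?_
    have h1 : ‖((p ^ m) • x).1‖ ≤ ρ := (norm_pow_smul_le_self m x).trans hρ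
    calc ‖((p ^ m) • x).1‖ * ‖((p ^ m) • x).1‖ ≤ (ρ ^ m * ρ) * ρ := by gcongr
      _ = ρ ^ (m + 1) * ρ := by ring

/-- contraction of `[p]` -/
theorem exists_contract {ρ η : ℝ} (hρ0 : 0 ≤ ρ) (hρ : ρ < 1) (hη : 0 < η) :
    ∃ M : ℕ, ∀ m, M ≤ m → ∀ x : GP D, ‖x.1‖ ≤ ρ → ‖((p ^ m) • x).1‖ < η := by
  obtain ⟨M, hM⟩ := exists_pow_lt_of_lt_one hη hρ
  refine ⟨M, fun m hm x hx => ?_⟩
  refine (norm_pow_smul_le m x hx).trans_lt ?_
  calc ρ ^ m * ρ ≤ ρ ^ m * 1 := by gcongr
    _ = ρ ^ m := mul_one _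
    _ ≤ ρ ^ M := pow_le_pow_of_le_one hρ0 hρ.le hm
    _ < η := hM

/-- factorisation in terms of points of the group -/
theorem fac (D : LData p n h r C)
    (hF : ∀ m, ∃ (T : Finset (OC C)) (U : PowerSeries (OC C)), D.Factor m T U) (m : ℕ) :
    ∃ (T : Finset (GP D)) (U : PowerSeries (OC C)), (∀ x : GP D, x ∈ T ↔ (p ^ m) • x = 0) ∧
      T.card = p ^ (r * m) ∧ IsUnit (PowerSeries.constantCoeff U) ∧
      ∀ x : GP D, ((p ^ m) • x).1 = ev1 (RingHom.id (OC C)) x.1 U *
        ∏ y ∈ T, (x.1 - y.1) ^ ((p ^ h) ^ m) := by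
  classical
  obtain ⟨T, U, hc, hlt, hU, hfac⟩ := hF m
  have hinj : Set.InjOn (fun z : OC C => if hz : ‖z‖ < 1 then mk D z hz else 0)
      (T : Set (OC C)) := by
    intro a ha b hb hab
    have ha' := hlt a ha
    have hb' := hlt b hb
    simp only [ha', hb', dif_pos] at hab
    exact congrArg Subtype.val hab
  set TG : Finset (GP D) := T.image (fun z : OC C => if hz : ‖z‖ < 1 then mk D z hz else 0)
    with hTG
  have hmem : ∀ x : GP D, x ∈ TG ↔ x.1 ∈ T := by
    intro x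
    rw [hTG, Finset.mem_image]
    constructor
    · rintro ⟨z, hz, rfl⟩
      rw [dif_pos (hlt z hz)]
      exact hz
    · intro hx
      refine ⟨x.1, hx, ?_⟩
      rw [dif_pos (lt_one x)]
      rfl
  have hprod : ∀ x : GP D, ∏ y ∈ TG, (x.1 - y.1) ^ ((p ^ h) ^ m) =
      ∏ τ ∈ T, (x.1 - τ) ^ ((p ^ h) ^ m) := by
    intro x
    rw [hTG, Finset.prod_image hinj]
    refine Finset.prod_congr rfl fun z hz => ?_
    rw [dif_pos (hlt z hz)]
    rfl
  have hval : ∀ x : GP D, ((p ^ m) • x).1 = ev1 (RingHom.id (OC C)) x.1 U *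
        ∏ y ∈ TG, (x.1 - y.1) ^ ((p ^ h) ^ m) := by
    intro x
    rw [hprod, ← hfac x.1 (lt_one x)]
    exact Pt.nsmul_val (p ^ m) x
  refine ⟨TG, U, ?_, ?_, hU, hval⟩
  · intro x
    rw [hmem]
    have hQ : (p ^ h) ^ m ≠ 0 := pow_ne_zero _ (pow_ne_zero _ (Fact.out : p.Prime).ne_zero)
    constructor
    · intro hx
      apply val_eq_zero.1
      rw [hval, hprod, Finset.prod_eq_zero hx, mul_zero]
      rw [sub_self, zero_pow hQ]
    · intro hx
      have h1 := hval x
      rw [hx, hprod] at h1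
      have h0 : (0 : GP D).1 = 0 := Pt.zero_val
      rw [h0] at h1
      have hUx : ‖ev1 (RingHom.id (OC C)) x.1 U‖ = 1 := by
        have hx' := (OC.isTopologicallyNilpotent_iff x.1).2 (lt_one x)
        have hx'' : ∀ _ : Unit, IsTopologicallyNilpotent x.1 := fun _ => hx'
        have e1 := evHom_apply (RingHom.id (OC C)) (fun _ : Unit => x.1) hx'' U
        have e2 := evHom_apply (RingHom.id (OC C)) (fun _ : Unit => x.1) hx''
          (PowerSeries.C (PowerSeries.constantCoeff U))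
        have e3 := evHom_apply (RingHom.id (OC C)) (fun _ : Unit => x.1) hx''
          (U - PowerSeries.C (PowerSeries.constantCoeff U))
        have e4 := ev_C (RingHom.id (OC C)) (fun _ : Unit => x.1) hx''
          (PowerSeries.constantCoeff U)
        have e5 := OC.norm_ev1_le (RingHom.id (OC C)) x.1 (lt_one x)
          (U - PowerSeries.C (PowerSeries.constantCoeff U)) (M := 1) (N := 1)
          (fun d => OC.norm_le_one _) (by
            intro d hd
            have : d = 0 := by omega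
            rw [this, PowerSeries.coeff_zero_eq_constantCoeff_apply, map_sub,
              PowerSeries.constantCoeff_C, sub_self])
        rw [one_mul, pow_one] at e5
        unfold ev1 at e5 ⊢
        rw [← e3, map_sub, e1, e2] at e5
        have e6 : ev (RingHom.id (OC C)) (fun _ : Unit => x.1)
          (PowerSeries.C (PowerSeries.constantCoeff U)) = PowerSeries.constantCoeff U := e4
        rw [e6] at e5
        have e7 : ‖((PowerSeries.constantCoeff U : OC C) : C)‖ = 1 :=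
          (OC.isUnit_iff_norm _).1 hU
        have e8 : ‖((PowerSeries.constantCoeff U : OC C) : C) -
            (ev (RingHom.id (OC C)) (fun _ : Unit => x.1) U : OC C)‖ <
            ‖((PowerSeries.constantCoeff U : OC C) : C)‖ := by
          rw [norm_sub_rev, e7]
          exact lt_of_le_of_lt e5 (lt_one x)
        exact (norm_eq_of_sub_lt e8).trans e7
      have hU0 : ev1 (RingHom.id (OC C)) x.1 U ≠ 0 := by
        intro h0
        rw [h0, norm_zero] at hUx
        exact zero_ne_one hUx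
      have h2 : ∏ τ ∈ T, (x.1 - τ) ^ ((p ^ h) ^ m) = 0 :=
        (mul_eq_zero.1 h1.symm).resolve_left hU0
      obtain ⟨τ, hτ, h3⟩ := Finset.prod_eq_zero_iff.1 h2
      have h4 : x.1 - τ = 0 := pow_eq_zero_iff hQ |>.1 h3
      rw [sub_eq_zero.1 h4]
      exact hτ
  · rw [hTG, Finset.card_image_of_injOn hinj, hc]

/-- norm and residue of `U(x)` -/
theorem U_spec (U : PowerSeries (OC C)) (hU : IsUnit (PowerSeries.constantCoeff U)) (x : GP D) :
    ‖((PowerSeries.constantCoeff U : OC C) : C)‖ = 1 ∧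
    ‖((ev1 (RingHom.id (OC C)) x.1 U : OC C) : C) - (PowerSeries.constantCoeff U : OC C)‖ < 1 ∧
    ‖ev1 (RingHom.id (OC C)) x.1 U‖ = 1 := by
  have hx' := (OC.isTopologicallyNilpotent_iff x.1).2 (lt_one x)
  have hx'' : ∀ _ : Unit, IsTopologicallyNilpotent x.1 := fun _ => hx'
  have e1 := evHom_apply (RingHom.id (OC C)) (fun _ : Unit => x.1) hx'' U
  have e2 := evHom_apply (RingHom.id (OC C)) (fun _ : Unit => x.1) hx''
    (PowerSeries.C (PowerSeries.constantCoeff U))
  have e3 := evHom_apply (RingHom.id (OC C)) (fun _ : Unit => x.1) hx''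
    (U - PowerSeries.C (PowerSeries.constantCoeff U))
  have e4 := ev_C (RingHom.id (OC C)) (fun _ : Unit => x.1) hx''
    (PowerSeries.constantCoeff U)
  have e5 := OC.norm_ev1_le (RingHom.id (OC C)) x.1 (lt_one x)
    (U - PowerSeries.C (PowerSeries.constantCoeff U)) (M := 1) (N := 1)
    (fun d => OC.norm_le_one _) (by
      intro d hd
      have : d = 0 := by omega
      rw [this, PowerSeries.coeff_zero_eq_constantCoeff_apply, map_sub,
        PowerSeries.constantCoeff_C, sub_self])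
  rw [one_mul, pow_one] at e5
  unfold ev1 at e5 ⊢
  rw [← e3, map_sub, e1, e2] at e5
  have e6 : ev (RingHom.id (OC C)) (fun _ : Unit => x.1)
    (PowerSeries.C (PowerSeries.constantCoeff U)) = PowerSeries.constantCoeff U := e4
  rw [e6] at e5
  have e7 : ‖((PowerSeries.constantCoeff U : OC C) : C)‖ = 1 :=
    (OC.isUnit_iff_norm _).1 hU
  have e9 : ‖((ev (RingHom.id (OC C)) (fun _ : Unit => x.1) U : OC C) : C) -
      (PowerSeries.constantCoeff U : OC C)‖ < 1 := lt_of_le_of_lt e5 (lt_one x)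
  have e8 : ‖((PowerSeries.constantCoeff U : OC C) : C) -
      (ev (RingHom.id (OC C)) (fun _ : Unit => x.1) U : OC C)‖ <
      ‖((PowerSeries.constantCoeff U : OC C) : C)‖ := by
    rw [norm_sub_rev, e7]
    exact e9
  exact ⟨e7, e9, (norm_eq_of_sub_lt e8).trans e7⟩

end LeadT

end Crest.Agent.LT
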