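import Mathlib
import Crest.Agent.LT.LeadTors

/-! # C4, part 3: counting torsion points (row 227, helper47) -/

set_option autoImplicit false
set_option linter.unusedSectionVars false

namespace Crest.Agent.LT

open Crest.LubinTate MvPowerSeries

variable {p n h r : ℕ} [Fact p.Prime]
variable {C : Type*} [NontriviallyNormedField C] [CompleteSpace C] [IsUltrametricDist C]
  [CharP C p] [IsAlgClosed C]

namespace LeadT

attribute [local instance] LData.Hcomm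

section

variable {D : LData p n h r C}
  (hF : ∀ m, ∃ (T : Finset (OC C)) (U : PowerSeries (OC C)), D.Factor m T U)

/-- `p^m`-torsion points -/
noncomputable def TG (m : ℕ) : Finset (GP D) := (fac D hF m).choose

noncomputable def UU (m : ℕ) : PowerSeries (OC C) := (fac D hF m).choose_spec.choose

theorem mem_TG (m : ℕ) (x : GP D) : x ∈ TG hF m ↔ (p ^ m) • x = 0 :=
  (fac D hF m).choose_spec.choose_spec.1 x

theorem card_TG (m : ℕ) : (TG hF m).card = p ^ (r * m) :=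
  (fac D hF m).choose_spec.choose_spec.2.1

theorem UU_unit (m : ℕ) : IsUnit (PowerSeries.constantCoeff (UU hF m)) :=
  (fac D hF m).choose_spec.choose_spec.2.2.1

theorem val_pow_smul (m : ℕ) (x : GP D) : ((p ^ m) • x).1 =
    ev1 (RingHom.id (OC C)) x.1 (UU hF m) * ∏ y ∈ TG hF m, (x.1 - y.1) ^ ((p ^ h) ^ m) :=
  (fac D hF m).choose_spec.choose_spec.2.2.2 x

theorem norm_pow_smul_eq (m : ℕ) (x : GP D) : ‖((p ^ m) • x).1‖ =
    (∏ y ∈ TG hF m, ‖x.1 - y.1‖) ^ ((p ^ h) ^ m) := by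
  have h1 := congrArg (fun z : OC C => ‖(z : C)‖) (val_pow_smul hF m x)
  simp only [Subring.coe_mul, norm_mul] at h1
  have h2 := (U_spec (UU hF m) (UU_unit hF m) x).2.2
  have h3 : ‖((ev1 (RingHom.id (OC C)) x.1 (UU hF m) : OC C) : C)‖ = 1 := h2
  rw [h3, one_mul] at h1
  have h4 : ‖((∏ y ∈ TG hF m, (x.1 - y.1) ^ ((p ^ h) ^ m) : OC C) : C)‖ =
      (∏ y ∈ TG hF m, ‖x.1 - y.1‖) ^ ((p ^ h) ^ m) := by
    have h5 : ((∏ y ∈ TG hF m, (x.1 - y.1) ^ ((p ^ h) ^ m) : OC C) : C) =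
        ∏ y ∈ TG hF m, ((x.1 : C) - (y.1 : C)) ^ ((p ^ h) ^ m) := by
      have h6 := map_prod (OC C).subtype (fun y : GP D => (x.1 - y.1) ^ ((p ^ h) ^ m)) (TG hF m)
      exact h6
    rw [h5, norm_prod, ← Finset.prod_pow]
    refine Finset.prod_congr rfl fun y _ => ?_
    rw [norm_pow]
    rfl
  rw [h4] at h1
  exact h1

theorem TG_mono {m m' : ℕ} (hm : m ≤ m') {x : GP D} (hx : x ∈ TG hF m) : x ∈ TG hF m' := by
  rw [mem_TG] at hx ⊢
  obtain ⟨k, rfl⟩ := Nat.exists_eq_add_of_le hm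
  rw [pow_add, mul_comm, mul_smul, hx, sz0]

theorem zero_mem_TG (m : ℕ) : (0 : GP D) ∈ TG hF m := by
  rw [mem_TG, sz0]

/-- torsion predicate -/
def IsTor (x : GP D) : Prop := ∃ m : ℕ, (p ^ m) • x = 0

theorem IsTor.smul {x : GP D} (hx : IsTor x) : IsTor (p • x) := by
  obtain ⟨m, hm⟩ := hx
  refine ⟨m, ?_⟩
  rw [smul_comm, hm, sz0]

theorem isTor_zero : IsTor (0 : GP D) := ⟨0, by rw [sz0]⟩

theorem IsTor.add {x y : GP D} (hx : IsTor x) (hy : IsTor y) : IsTor (x + y) := by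
  obtain ⟨m, hm⟩ := hx
  obtain ⟨m', hm'⟩ := hy
  refine ⟨m + m', ?_⟩
  rw [sadd]
  have h1 : (p ^ (m + m')) • x = 0 := by rw [pow_add, mul_comm, mul_smul, hm, sz0]
  have h2 : (p ^ (m + m')) • y = 0 := by rw [pow_add, mul_smul, hm', sz0]
  rw [h1, h2, az0]

theorem IsTor.neg {x : GP D} (hx : IsTor x) : IsTor (-x) := by
  obtain ⟨m, hm⟩ := hx
  exact ⟨m, by rw [sneg, hm, nz0]⟩

/-- torsion points are bounded away from 0 -/
theorem exists_sep (hF : ∀ m, ∃ (T : Finset (OC C)) (U : PowerSeries (OC C)), D.Factor m T U) :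
    ∃ s : ℝ, 0 < s ∧ ∀ x : GP D, IsTor x → x ≠ 0 → s ≤ ‖x.1‖ := by
  classical
  have h1 : ∃ s : ℝ, 0 < s ∧ ∀ x ∈ TG hF 1, x ≠ 0 → s ≤ ‖x.1‖ := by
    rcases ((TG hF 1).filter (fun x => x ≠ 0)).eq_empty_or_nonempty with he | hne
    · refine ⟨1, one_pos, fun x hx hx0 => ?_⟩
      have : x ∈ (TG hF 1).filter (fun x => x ≠ 0) := Finset.mem_filter.2 ⟨hx, hx0⟩
      rw [he] at this
      exact absurd this (Finset.notMem_empty x)
    · obtain ⟨y, hy, hmin⟩ := Finset.exists_min_image _ (fun x : GP D => ‖x.1‖) hne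
      refine ⟨‖y.1‖, norm_val_pos (Finset.mem_filter.1 hy).2, fun x hx hx0 => ?_⟩
      exact hmin x (Finset.mem_filter.2 ⟨hx, hx0⟩)
  obtain ⟨s, hs0, hs⟩ := h1
  refine ⟨s, hs0, ?_⟩
  rintro x hx hx0
  have hex : ∃ m : ℕ, (p ^ m) • x = 0 := hx
  let m0 := Nat.find hex
  have hm0 : (p ^ m0) • x = 0 := Nat.find_spec hex
  have hm0' : m0 ≠ 0 := by
    intro h0
    rw [h0, pow_zero, one_smul] at hm0
    exact hx0 hm0
  obtain ⟨j, hj⟩ := Nat.exists_eq_succ_of_ne_zero hm0'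
  have hy0 : (p ^ j) • x ≠ 0 := Nat.find_min hex (show j < m0 by omega)
  have hy1 : (p ^ j) • x ∈ TG hF 1 := by
    rw [mem_TG, pow_one, ← pow_smul_succ]
    rw [hj] at hm0
    exact hm0
  exact (hs _ hy1 hy0).trans (norm_pow_smul_le_self j x)

theorem exists_smax : ∃ S : ℝ, 0 < S ∧ S < 1 ∧ ∀ x ∈ TG hF 1, ‖x.1‖ ≤ S := by
  obtain ⟨y, _, hmax⟩ := Finset.exists_max_image (TG hF 1) (fun x : GP D => ‖x.1‖)
    ⟨0, zero_mem_TG hF 1⟩
  refine ⟨max ‖y.1‖ (1 / 2), ?_, max_lt (lt_one y) (by norm_num), ?_⟩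
  · exact lt_of_lt_of_le (by norm_num) (le_max_right _ _)
  · intro x hx
    exact (hmax x hx).trans (le_max_left _ _)

/-- torsion points of norm `≤ ρ < 1` lie in `TG m` for large `m` -/
theorem exists_level {ρ : ℝ} (hρ : ρ < 1) :
    ∃ m0 : ℕ, ∀ m, m0 ≤ m → ∀ x : GP D, IsTor x → ‖x.1‖ ≤ ρ → x ∈ TG hF m := by
  by_cases hρ0 : 0 ≤ ρ
  · obtain ⟨s, hs0, hs⟩ := exists_sep hF
    obtain ⟨M, hM⟩ := exists_contract (D := D) hρ0 hρ hs0
    refine ⟨M, fun m hm x hx hxρ => ?_⟩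
    rw [mem_TG]
    by_contra hne
    have h1 : IsTor ((p ^ m) • x) := by
      obtain ⟨k, hk⟩ := hx
      exact ⟨k, by rw [smul_comm, hk, sz0]⟩
    exact absurd (hs _ h1 hne) (not_le.2 (hM m hm x hxρ))
  · refine ⟨0, fun m _ x _ hxρ => ?_⟩
    exact absurd ((norm_nonneg _).trans hxρ) hρ0

variable (D) in
/-- torsion points of norm `≤ ρ` (and 0) -/
noncomputable def SubLe (ρ : ℝ) : AddSubgroup (GP D) where
  carrier := {x | IsTor x ∧ (‖x.1‖ ≤ ρ ∨ x = 0)}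
  zero_mem' := ⟨isTor_zero, Or.inr rfl⟩
  add_mem' := by
    rintro x y ⟨hx, hx'⟩ ⟨hy, hy'⟩
    refine ⟨hx.add hy, ?_⟩
    rcases hx' with hx' | rfl
    · rcases hy' with hy' | rfl
      · exact Or.inl ((norm_add_val_le x y).trans (max_le hx' hy'))
      · rw [az0]; exact Or.inl hx'
    · rw [za0]; exact hy'
  neg_mem' := by
    rintro x ⟨hx, hx'⟩
    refine ⟨hx.neg, ?_⟩
    rcases hx' with hx' | rfl
    · left; rw [norm_neg_val]; exact hx'
    · right; exact nz0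

variable (D) in
/-- torsion points of norm `< ρ` (and 0) -/
noncomputable def SubLt (ρ : ℝ) : AddSubgroup (GP D) where
  carrier := {x | IsTor x ∧ (‖x.1‖ < ρ ∨ x = 0)}
  zero_mem' := ⟨isTor_zero, Or.inr rfl⟩
  add_mem' := by
    rintro x y ⟨hx, hx'⟩ ⟨hy, hy'⟩
    refine ⟨hx.add hy, ?_⟩
    rcases hx' with hx' | rfl
    · rcases hy' with hy' | rfl
      · exact Or.inl ((norm_add_val_le x y).trans_lt (max_lt hx' hy'))
      · rw [az0]; exact Or.inl hx'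
    · rw [za0]; exact hy'
  neg_mem' := by
    rintro x ⟨hx, hx'⟩
    refine ⟨hx.neg, ?_⟩
    rcases hx' with hx' | rfl
    · left; rw [norm_neg_val]; exact hx'
    · right; exact nz0

theorem mem_SubLe {ρ : ℝ} {x : GP D} : x ∈ SubLe D ρ ↔ IsTor x ∧ (‖x.1‖ ≤ ρ ∨ x = 0) := Iff.rfl

theorem mem_SubLt {ρ : ℝ} {x : GP D} : x ∈ SubLt D ρ ↔ IsTor x ∧ (‖x.1‖ < ρ ∨ x = 0) := Iff.rfl

theorem mem_SubLe_pos {ρ : ℝ} (hρ : 0 ≤ ρ) {x : GP D} :
    x ∈ SubLe D ρ ↔ IsTor x ∧ ‖x.1‖ ≤ ρ := by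
  rw [mem_SubLe]
  constructor
  · rintro ⟨h1, h2 | rfl⟩
    · exact ⟨h1, h2⟩
    · exact ⟨h1, by rw [norm_zero_val]; exact hρ⟩
  · rintro ⟨h1, h2⟩
    exact ⟨h1, Or.inl h2⟩

theorem mem_SubLt_pos {ρ : ℝ} (hρ : 0 < ρ) {x : GP D} :
    x ∈ SubLt D ρ ↔ IsTor x ∧ ‖x.1‖ < ρ := by
  rw [mem_SubLt]
  constructor
  · rintro ⟨h1, h2 | rfl⟩
    · exact ⟨h1, h2⟩
    · exact ⟨h1, by rw [norm_zero_val]; exact hρ⟩
  · rintro ⟨h1, h2⟩
    exact ⟨h1, Or.inl h2⟩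

theorem SubLt_le_SubLe (ρ : ℝ) : SubLt D ρ ≤ SubLe D ρ := by
  rintro x ⟨h1, h2⟩
  exact ⟨h1, h2.imp le_of_lt id⟩

theorem SubLe_le_SubLt {ρ ρ' : ℝ} (h : ρ < ρ') : SubLe D ρ ≤ SubLt D ρ' := by
  rintro x ⟨h1, h2⟩
  exact ⟨h1, h2.imp (fun h3 => lt_of_le_of_lt h3 h) id⟩

/-- `p^m`-torsion subgroup -/
noncomputable def TorM (D : LData p n h r C) (m : ℕ) : AddSubgroup (GP D) :=
  (nsmulAddMonoidHom (p ^ m) : GP D →+ GP D).ker

theorem mem_TorM (m : ℕ) (x : GP D) : x ∈ TorM D m ↔ (p ^ m) • x = 0 := Iff.rfl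

include hF in
theorem card_TorM (m : ℕ) : Nat.card (TorM D m) = p ^ (r * m) := by
  rw [← card_TG hF m]
  have h1 : ((TG hF m : Finset (GP D)) : Set (GP D)) = (TorM D m : Set (GP D)) := by
    ext x
    exact mem_TG hF m x
  rw [← Set.ncard_coe_finset, h1]
  exact (Nat.card_coe_set_eq (TorM D m : Set (GP D)))

include hF in
theorem SubLe_le_TorM {ρ : ℝ} (hρ : ρ < 1) : ∃ m, SubLe D ρ ≤ TorM D m := by
  obtain ⟨m, hm⟩ := exists_level hF hρ
  refine ⟨m, ?_⟩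
  rintro x ⟨hx, hx' | rfl⟩
  · exact (mem_TG hF m x).1 (hm m le_rfl x hx hx')
  · exact zero_mem _

include hF in
theorem finite_TorM (m : ℕ) : Finite (TorM D m) := by
  apply Nat.finite_of_card_ne_zero
  rw [card_TorM hF m]
  exact pow_ne_zero _ (Fact.out : p.Prime).ne_zero

include hF in
theorem finite_SubLe {ρ : ℝ} (hρ : ρ < 1) : Finite (SubLe D ρ) := by
  obtain ⟨m, hm⟩ := SubLe_le_TorM hF hρ
  have := finite_TorM hF m
  exact Finite.of_injective _ (AddSubgroup.inclusion_injective hm)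

include hF in
theorem finite_SubLt {ρ : ℝ} (hρ : ρ < 1) : Finite (SubLt D ρ) := by
  have := finite_SubLe hF hρ
  exact Finite.of_injective _ (AddSubgroup.inclusion_injective (SubLt_le_SubLe ρ))

include hF in
theorem card_SubLe_pow {ρ : ℝ} (hρ : ρ < 1) : ∃ k, Nat.card (SubLe D ρ) = p ^ k := by
  obtain ⟨m, hm⟩ := SubLe_le_TorM hF hρ
  have h1 := AddSubgroup.card_dvd_of_le hm
  rw [card_TorM hF m] at h1
  obtain ⟨k, _, hk⟩ := (Nat.dvd_prime_pow (Fact.out : p.Prime)).1 h1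
  exact ⟨k, hk⟩

include hF in
theorem card_SubLt_pow {ρ : ℝ} (hρ : ρ < 1) : ∃ k, Nat.card (SubLt D ρ) = p ^ k := by
  obtain ⟨m, hm⟩ := SubLe_le_TorM hF hρ
  have h1 := AddSubgroup.card_dvd_of_le ((SubLt_le_SubLe ρ).trans hm)
  rw [card_TorM hF m] at h1
  obtain ⟨k, _, hk⟩ := (Nat.dvd_prime_pow (Fact.out : p.Prime)).1 h1
  exact ⟨k, hk⟩

variable (D) in
noncomputable def bb (ρ : ℝ) : ℕ := if ρ < 1 then Nat.log p (Nat.card (SubLe D ρ)) else 0

variable (D) in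
noncomputable def cc (ρ : ℝ) : ℕ := if ρ < 1 then Nat.log p (Nat.card (SubLt D ρ)) else 0

include hF in
theorem card_SubLe {ρ : ℝ} (hρ : ρ < 1) : Nat.card (SubLe D ρ) = p ^ (bb D ρ) := by
  obtain ⟨k, hk⟩ := card_SubLe_pow hF hρ
  unfold bb
  rw [if_pos hρ, hk, Nat.log_pow (Fact.out : p.Prime).one_lt]

include hF in
theorem card_SubLt {ρ : ℝ} (hρ : ρ < 1) : Nat.card (SubLt D ρ) = p ^ (cc D ρ) := by
  obtain ⟨k, hk⟩ := card_SubLt_pow hF hρ
  unfold cc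
  rw [if_pos hρ, hk, Nat.log_pow (Fact.out : p.Prime).one_lt]

include hF in
theorem cc_le_bb (ρ : ℝ) : cc D ρ ≤ bb D ρ := by
  by_cases hρ : ρ < 1
  · have := finite_SubLe hF hρ
    have h1 := AddSubgroup.card_le_of_le (SubLt_le_SubLe (D := D) ρ)
    rw [card_SubLe hF hρ, card_SubLt hF hρ] at h1
    exact (Nat.pow_le_pow_iff_right (Fact.out : p.Prime).one_lt).1 h1
  · unfold cc bb
    rw [if_neg hρ, if_neg hρ]

include hF in
theorem bb_le_cc {ρ ρ' : ℝ} (h : ρ < ρ') (h' : ρ' < 1) : bb D ρ ≤ cc D ρ' := by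
  have := finite_SubLt hF h'
  have h1 := AddSubgroup.card_le_of_le (SubLe_le_SubLt (D := D) h)
  rw [card_SubLe hF (h.trans h'), card_SubLt hF h'] at h1
  exact (Nat.pow_le_pow_iff_right (Fact.out : p.Prime).one_lt).1 h1

/-- `[p]` as additive map -/
noncomputable def pm (D : LData p n h r C) : GP D →+ GP D := nsmulAddMonoidHom p

theorem pm_apply (x : GP D) : pm D x = p • x := rfl

theorem ker_pm : (pm D).ker = TorM D 1 := by
  ext x
  rw [AddMonoidHom.mem_ker, mem_TorM, pow_one, pm_apply]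

include hF in
theorem card_ker_pm : Nat.card (pm D).ker = p ^ r := by
  rw [ker_pm, card_TorM hF 1, mul_one]

theorem card_eq_of_ker_le (K : AddSubgroup (GP D)) (hK : (pm D).ker ≤ K) :
    Nat.card K = Nat.card (pm D).ker * Nat.card (K.map (pm D)) := by
  have e1 : (pm D).ker.relIndex K = Nat.card (K.map (pm D)) := AddSubgroup.relIndex_ker _ _
  have e2 := AddSubgroup.relIndex_bot_left K
  have e3 := AddSubgroup.relIndex_bot_left (pm D).ker
  rw [← e1, ← e2, ← e3]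
  exact (AddSubgroup.relIndex_mul_relIndex _ _ _ bot_le hK).symm

theorem card_eq_inf (K : AddSubgroup (GP D)) :
    Nat.card K = Nat.card ((pm D).ker ⊓ K : AddSubgroup (GP D)) * Nat.card (K.map (pm D)) := by
  have e1 : (pm D).ker.relIndex K = Nat.card (K.map (pm D)) := AddSubgroup.relIndex_ker _ _
  have e2 := AddSubgroup.relIndex_bot_left K
  have e3 := AddSubgroup.relIndex_bot_left ((pm D).ker ⊓ K : AddSubgroup (GP D))
  have e4 := AddSubgroup.inf_relIndex_right (pm D).ker K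
  rw [← e1, ← e2, ← e3, ← e4]
  exact (AddSubgroup.relIndex_mul_relIndex _ _ _ bot_le inf_le_right).symm

include hF in
theorem bb_le_cc_add (ρ : ℝ) : bb D ρ ≤ cc D ρ + r := by
  by_cases hρ : ρ < 1
  · have hfin := finite_SubLt hF hρ
    have hfin1 : Finite (pm D).ker := by rw [ker_pm]; exact finite_TorM hF 1
    have h1 := card_eq_inf (SubLe D ρ)
    have h2 : Nat.card ((pm D).ker ⊓ SubLe D ρ : AddSubgroup (GP D)) ≤ p ^ r := by
      rw [← card_ker_pm hF]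
      exact AddSubgroup.card_le_of_le inf_le_left
    have h3 : Nat.card ((SubLe D ρ).map (pm D)) ≤ p ^ (cc D ρ) := by
      rw [← card_SubLt hF hρ]
      apply AddSubgroup.card_le_of_le
      rintro _ ⟨x, ⟨hx, hx'⟩, rfl⟩
      refine ⟨hx.smul, ?_⟩
      by_cases hx0 : x = 0
      · right; rw [pm_apply, hx0, sz0]
      · left
        have hxρ : ‖x.1‖ ≤ ρ := hx'.resolve_right hx0
        have hpos := norm_val_pos hx0
        refine lt_of_lt_of_le ?_ hxρ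
        refine (norm_p_smul_le_sq x).trans_lt ?_
        calc ‖x.1‖ * ‖x.1‖ < ‖x.1‖ * 1 := by
              apply mul_lt_mul_of_pos_left (lt_one x) hpos
          _ = ‖x.1‖ := mul_one _
    rw [card_SubLe hF hρ] at h1
    have h4 : p ^ (bb D ρ) ≤ p ^ (cc D ρ + r) := by
      rw [h1, pow_add, mul_comm (p ^ cc D ρ)]
      exact Nat.mul_le_mul h2 h3
    exact (Nat.pow_le_pow_iff_right (Fact.out : p.Prime).one_lt).1 h4
  · unfold bb
    rw [if_neg hρ]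
    exact Nat.zero_le _

/-- exact norm of `[p]x` above the norms of `T_1` -/
theorem norm_p_smul_eq {S : ℝ} (hS : ∀ x ∈ TG hF 1, ‖x.1‖ ≤ S) {x : GP D} (hx : S < ‖x.1‖) :
    ‖(p • x).1‖ = ‖x.1‖ ^ (p ^ n) := by
  have h1 := norm_pow_smul_eq hF 1 x
  rw [pow_one, pow_one] at h1
  have h2 : ∏ y ∈ TG hF 1, ‖x.1 - y.1‖ = ‖x.1‖ ^ (p ^ r) := by
    have h3 : ∀ y ∈ TG hF 1, ‖x.1 - y.1‖ = ‖x.1‖ := by
      intro y hy
      exact norm_sub_of_lt (C := C) (lt_of_le_of_lt (hS y hy) hx)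
    rw [Finset.prod_congr rfl h3, Finset.prod_const, card_TG, mul_one]
  rw [h1, h2, ← pow_mul, ← pow_add, add_comm r h, D.hn]

theorem norm_p_smul_le_of_le {S : ℝ} (hS : ∀ x ∈ TG hF 1, ‖x.1‖ ≤ S) {x : GP D} {ρ : ℝ}
    (hρ : S ≤ ρ) (hx : ‖x.1‖ ≤ ρ) : ‖(p • x).1‖ ≤ ρ ^ (p ^ n) := by
  have h1 := norm_pow_smul_eq hF 1 x
  rw [pow_one, pow_one] at h1
  have h2 : ∏ y ∈ TG hF 1, ‖x.1 - y.1‖ ≤ ρ ^ (p ^ r) := by
    calc ∏ y ∈ TG hF 1, ‖x.1 - y.1‖ ≤ ∏ y ∈ TG hF 1, ρ := by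
          apply Finset.prod_le_prod (fun _ _ => norm_nonneg _)
          intro y hy
          exact (norm_sub_le_max (x.1 : C) (y.1 : C)).trans (max_le hx ((hS y hy).trans hρ))
      _ = ρ ^ (p ^ r) := by rw [Finset.prod_const, card_TG, mul_one]
  rw [h1]
  calc (∏ y ∈ TG hF 1, ‖x.1 - y.1‖) ^ (p ^ h) ≤ (ρ ^ (p ^ r)) ^ (p ^ h) := by
        apply pow_le_pow_left₀ _ h2
        exact Finset.prod_nonneg fun _ _ => norm_nonneg _
    _ = ρ ^ (p ^ n) := by rw [← pow_mul, ← pow_add, add_comm r h, D.hn]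

/-- every torsion point is divisible by `p` -/
theorem exists_div (hF : ∀ m, ∃ (T : Finset (OC C)) (U : PowerSeries (OC C)), D.Factor m T U)
    {w : GP D} (hw : IsTor w) : ∃ x : GP D, IsTor x ∧ p • x = w := by
  obtain ⟨m, hm⟩ := hw
  -- map TorM (m+1) onto TorM m
  have h1 : (pm D).ker ≤ TorM D (m + 1) := by
    rw [ker_pm]
    intro x hx
    rw [mem_TorM] at hx ⊢
    rw [pow_succ, mul_smul, show p • x = 0 by rwa [pow_one] at hx, sz0]
  have h2 := card_eq_of_ker_le (TorM D (m + 1)) h1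
  rw [card_TorM hF, card_ker_pm hF, mul_add, mul_one, pow_add, mul_comm] at h2
  have hp := (Fact.out : p.Prime)
  have h3 : Nat.card ((TorM D (m + 1)).map (pm D)) = p ^ (r * m) :=
    (Nat.eq_of_mul_eq_mul_left (pow_pos hp.pos r) h2).symm
  have h4 : (TorM D (m + 1)).map (pm D) ≤ TorM D m := by
    rintro _ ⟨x, hx, rfl⟩
    have hx' : (p ^ (m + 1)) • x = 0 := hx
    rw [mem_TorM, pm_apply, ← mul_smul, ← pow_succ]
    exact hx'
  have hfin := finite_TorM hF m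
  have h5 : (TorM D (m + 1)).map (pm D) = TorM D m := by
    apply AddSubgroup.eq_of_le_of_card_ge h4
    rw [h3, card_TorM hF]
  have h6 : w ∈ (TorM D (m + 1)).map (pm D) := by rw [h5]; exact hm
  obtain ⟨x, hx, hxw⟩ := h6
  exact ⟨x, ⟨m + 1, hx⟩, hxw⟩

section pow

variable {S : ℝ} (hS0 : 0 < S) (hS : ∀ x ∈ TG hF 1, ‖x.1‖ ≤ S) {ρ : ℝ} (h1 : S < ρ) (h2 : ρ < 1)

include hS0 hS h1 h2 in
theorem map_SubLt : (SubLt D ρ).map (pm D) = SubLt D (ρ ^ (p ^ n)) := by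
  have hρ0 : 0 < ρ := hS0.trans h1
  have hq0 : p ^ n ≠ 0 := pow_ne_zero _ (Fact.out : p.Prime).ne_zero
  have hρq : 0 < ρ ^ (p ^ n) := pow_pos hρ0 _
  apply le_antisymm
  · rintro _ ⟨x, hx, rfl⟩
    have hx' := (mem_SubLt_pos hρ0).1 hx
    rw [pm_apply, mem_SubLt_pos hρq]
    refine ⟨hx'.1.smul, ?_⟩
    by_cases hxS : S < ‖x.1‖
    · rw [norm_p_smul_eq hF hS hxS]
      exact pow_lt_pow_left₀ hx'.2 (norm_nonneg _) hq0
    · refine (norm_p_smul_le_of_le hF hS le_rfl (not_lt.1 hxS)).trans_lt ?_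
      exact pow_lt_pow_left₀ h1 hS0.le hq0
  · intro w hw
    have hw' := (mem_SubLt_pos hρq).1 hw
    obtain ⟨x, hx, rfl⟩ := exists_div hF hw'.1
    refine ⟨x, ?_, rfl⟩
    show x ∈ SubLt D ρ
    rw [mem_SubLt_pos hρ0]
    refine ⟨hx, ?_⟩
    by_contra hcon
    push Not at hcon
    have h3 := norm_p_smul_eq hF hS (lt_of_lt_of_le h1 hcon)
    have h4 : ρ ^ (p ^ n) ≤ ‖(p • x).1‖ := by
      rw [h3]
      exact pow_le_pow_left₀ hρ0.le hcon _
    exact absurd hw'.2 (not_lt.2 h4)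

include hS0 hS h1 h2 in
theorem map_SubLe : (SubLe D ρ).map (pm D) = SubLe D (ρ ^ (p ^ n)) := by
  have hρ0 : 0 < ρ := hS0.trans h1
  have hq0 : p ^ n ≠ 0 := pow_ne_zero _ (Fact.out : p.Prime).ne_zero
  have hρq : 0 < ρ ^ (p ^ n) := pow_pos hρ0 _
  apply le_antisymm
  · rintro _ ⟨x, hx, rfl⟩
    have hx' := (mem_SubLe_pos hρ0.le).1 hx
    rw [pm_apply, mem_SubLe_pos hρq.le]
    exact ⟨hx'.1.smul, norm_p_smul_le_of_le hF hS h1.le hx'.2⟩
  · intro w hw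
    have hw' := (mem_SubLe_pos hρq.le).1 hw
    obtain ⟨x, hx, rfl⟩ := exists_div hF hw'.1
    refine ⟨x, ?_, rfl⟩
    show x ∈ SubLe D ρ
    rw [mem_SubLe_pos hρ0.le]
    refine ⟨hx, ?_⟩
    by_contra hcon
    push Not at hcon
    have h3 := norm_p_smul_eq hF hS (h1.trans hcon)
    have h4 : ρ ^ (p ^ n) < ‖(p • x).1‖ := by
      rw [h3]
      exact pow_lt_pow_left₀ hcon hρ0.le hq0
    exact absurd hw'.2 (not_le.2 h4)

include hS0 hS h1 in
theorem ker_le_SubLt : (pm D).ker ≤ SubLt D ρ := by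
  intro x hx
  rw [ker_pm, mem_TorM] at hx
  rw [mem_SubLt_pos (hS0.trans h1)]
  exact ⟨⟨1, hx⟩, lt_of_le_of_lt (hS x ((mem_TG hF 1 x).2 hx)) h1⟩

include hS0 hS h1 h2 in
theorem cc_pow : cc D (ρ ^ (p ^ n)) + r = cc D ρ := by
  have hp := (Fact.out : p.Prime)
  have hρ0 : 0 < ρ := hS0.trans h1
  have hq0 : p ^ n ≠ 0 := pow_ne_zero _ hp.ne_zero
  have h3 := card_eq_of_ker_le (SubLt D ρ) (ker_le_SubLt hF hS0 hS h1)
  rw [map_SubLt hF hS0 hS h1 h2, card_ker_pm hF, card_SubLt hF h2,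
    card_SubLt hF (pow_lt_one₀ hρ0.le h2 hq0), ← pow_add] at h3
  have := Nat.pow_right_injective hp.two_le h3
  omega

include hS0 hS h1 h2 in
theorem bb_pow : bb D (ρ ^ (p ^ n)) + r = bb D ρ := by
  have hp := (Fact.out : p.Prime)
  have hρ0 : 0 < ρ := hS0.trans h1
  have hq0 : p ^ n ≠ 0 := pow_ne_zero _ hp.ne_zero
  have h3 := card_eq_of_ker_le (SubLe D ρ)
    ((ker_le_SubLt hF hS0 hS h1).trans (SubLt_le_SubLe ρ))
  rw [map_SubLe hF hS0 hS h1 h2, card_ker_pm hF, card_SubLe hF h2,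
    card_SubLe hF (pow_lt_one₀ hρ0.le h2 hq0), ← pow_add] at h3
  have := Nat.pow_right_injective hp.two_le h3
  omega

end pow

end

end LeadT

end Crest.Agent.LT
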