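import Mathlib
import Crest.Agent.LT.LeadCount

/-! # C4, part 4: the nominal size of `Log` (row 227, helper47) -/

set_option autoImplicit false
set_option linter.unusedSectionVars false

namespace Crest.Agent.LT

open Crest.LubinTate MvPowerSeries

variable {p n h r : ℕ} [Fact p.Prime]
variable {C : Type*} [NontriviallyNormedField C] [CompleteSpace C] [IsUltrametricDist C]
  [CharP C p] [IsAlgClosed C]

namespace LeadT

attribute [local instance] LData.Hcomm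

section

variable {D : LData p n h r C}
  (hF : ∀ m, ∃ (T : Finset (OC C)) (U : PowerSeries (OC C)), D.Factor m T U)

variable (D) in
/-- linear coefficient of `Log` -/
noncomputable def l1 : OC C := PowerSeries.coeff 1 D.Log

variable (D) in
theorem l1_pos : 0 < ‖l1 D‖ := norm_pos_iff.2 D.Log_spec.2.1

variable (D) in
theorem l1_le : ‖l1 D‖ ≤ 1 := OC.norm_le_one _

/-- `Log` at a point -/
noncomputable def Lg (x : GP D) : OC C := ev1 (RingHom.id (OC C)) x.1 D.Log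

theorem Lg_pow_smul (m : ℕ) (x : GP D) : Lg ((p ^ m) • x) = (Lg x) ^ ((p ^ h) ^ m) := by
  induction m with
  | zero => rw [pow_zero, one_smul, pow_zero, pow_one]
  | succ m ih =>
    rw [pow_smul_succ]
    have h1 := D.Log_mulSeries (lt_one ((p ^ m) • x))
    have h2 : Lg (p • ((p ^ m) • x)) = (Lg ((p ^ m) • x)) ^ (p ^ h) := by
      unfold Lg
      rw [p_smul_val]
      exact h1
    rw [h2, ih, ← pow_mul, ← pow_succ]

theorem norm_Lg_sub (x : GP D) : ‖Lg x - l1 D * x.1‖ ≤ ‖x.1‖ ^ 2 := D.norm_Log_sub_le (lt_one x)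

theorem OCnorm_mul (a b : OC C) : ‖a * b‖ = ‖a‖ * ‖b‖ := by
  show ‖((a * b : OC C) : C)‖ = ‖(a : C)‖ * ‖(b : C)‖
  rw [Subring.coe_mul, norm_mul]

theorem OCnorm_pow (a : OC C) (m : ℕ) : ‖a ^ m‖ = ‖a‖ ^ m := by
  show ‖((a ^ m : OC C) : C)‖ = ‖(a : C)‖ ^ m
  rw [Subring.coe_pow, norm_pow]

theorem norm_Lg_small {x : GP D} (h1 : ‖x.1‖ < ‖l1 D‖) : ‖Lg x‖ = ‖l1 D‖ * ‖x.1‖ := by
  by_cases hx0 : ‖x.1‖ = 0
  · have h2 := norm_Lg_sub x
    have hx1 : x.1 = 0 := norm_eq_zero.1 hx0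
    rw [hx0, hx1, mul_zero, sub_zero, zero_pow two_ne_zero] at h2
    rw [hx0, mul_zero]
    exact le_antisymm h2 (norm_nonneg _)
  · have hxpos : 0 < ‖x.1‖ := lt_of_le_of_ne (norm_nonneg _) (Ne.symm hx0)
    have h2 := norm_Lg_sub x
    have h3 : ‖((l1 D * x.1 : OC C) : C) - (Lg x : OC C)‖ < ‖((l1 D * x.1 : OC C) : C)‖ := by
      rw [norm_sub_rev]
      refine lt_of_le_of_lt h2 ?_
      have h4 : ‖((l1 D * x.1 : OC C) : C)‖ = ‖l1 D‖ * ‖x.1‖ := OCnorm_mul _ _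
      rw [h4, sq]
      exact mul_lt_mul_of_pos_right h1 hxpos
    have h5 := norm_eq_of_sub_lt h3
    exact h5.trans (OCnorm_mul _ _)

/-- product of the norms of the nonzero torsion points -/
theorem prod_norm_TG (m : ℕ) [DecidableEq (GP D)] :
    ‖l1 D‖ * (∏ y ∈ (TG hF m).erase 0, ‖y.1‖) ^ ((p ^ h) ^ m) = ‖l1 D‖ ^ ((p ^ h) ^ m) := by
  obtain ⟨s, hs0, hs⟩ := exists_sep hF
  obtain ⟨z0, hz0, hz1⟩ := NormedField.exists_norm_lt C
    (show 0 < min (min s ‖l1 D‖) 1 from lt_min (lt_min hs0 (l1_pos D)) one_pos)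
  have hz2 : ‖z0‖ < 1 := hz1.trans_le (min_le_right _ _)
  have hz3 : ‖z0‖ < s := hz1.trans_le ((min_le_left _ _).trans (min_le_left _ _))
  have hz4 : ‖z0‖ < ‖l1 D‖ := hz1.trans_le ((min_le_left _ _).trans (min_le_right _ _))
  let z : GP D := mk D ⟨z0, hz2.le⟩ hz2
  have hzn : ‖z.1‖ = ‖z0‖ := rfl
  have e1 := Lg_pow_smul m z
  have e2 : ‖Lg ((p ^ m) • z)‖ = ‖l1 D‖ * ‖((p ^ m) • z).1‖ :=
    norm_Lg_small (lt_of_le_of_lt (norm_pow_smul_le_self m z) (by rw [hzn]; exact hz4))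
  have e3 : ‖Lg z‖ = ‖l1 D‖ * ‖z.1‖ := norm_Lg_small (by rw [hzn]; exact hz4)
  have e4 := norm_pow_smul_eq hF m z
  have e5 : ∏ y ∈ TG hF m, ‖z.1 - y.1‖ = ‖z0‖ * ∏ y ∈ (TG hF m).erase 0, ‖y.1‖ := by
    rw [← Finset.mul_prod_erase _ _ (zero_mem_TG hF m)]
    congr 1
    · have h0 : (0 : GP D).1 = 0 := Pt.zero_val
      rw [h0, sub_zero, hzn]
    · refine Finset.prod_congr rfl fun y hy => ?_
      rw [Finset.mem_erase] at hy
      have hy1 : s ≤ ‖y.1‖ := hs y ⟨m, (mem_TG hF m y).1 hy.2⟩ hy.1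
      exact norm_sub_of_lt' (C := C) (lt_of_lt_of_le hz3 hy1)
  have e6 : ‖Lg ((p ^ m) • z)‖ = ‖Lg z‖ ^ ((p ^ h) ^ m) := by rw [e1, OCnorm_pow]
  rw [e2, e4, e5, e3, hzn, mul_pow, mul_pow] at e6
  have hzpos : 0 < ‖z0‖ ^ ((p ^ h) ^ m) := pow_pos hz0 _
  apply mul_right_cancel₀ hzpos.ne'
  rw [← e6]
  ring

variable (D) in
/-- finset of torsion points of norm `≤ ρ` -/
noncomputable def Fle (ρ : ℝ) : Finset (GP D) :=
  open Classical in if hf : (SubLe D ρ : Set (GP D)).Finite then hf.toFinset else ∅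

include hF in
theorem mem_Fle {ρ : ℝ} (hρ : ρ < 1) (x : GP D) : x ∈ Fle D ρ ↔ x ∈ SubLe D ρ := by
  have hf : (SubLe D ρ : Set (GP D)).Finite := finite_SubLe hF hρ
  unfold Fle
  rw [dif_pos hf, Set.Finite.mem_toFinset]
  rfl

variable (D) in
/-- nominal size of `Log` on the sphere of radius `ρ` -/
noncomputable def NN (ρ : ℝ) : ℝ :=
  open Classical in ‖l1 D‖ * ρ * ∏ y ∈ (Fle D ρ).erase 0, (ρ / ‖y.1‖)

/-- product of `max ρ ‖y‖` over the `p^m`-torsion -/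
noncomputable def PP (m : ℕ) (ρ : ℝ) : ℝ := ∏ y ∈ TG hF m, max ρ ‖y.1‖

theorem NN_pow {ρ : ℝ} (hρ0 : 0 < ρ) (hρ : ρ < 1) (m : ℕ)
    (hm : ∀ x ∈ SubLe D ρ, x ∈ TG hF m) :
    (NN D ρ) ^ ((p ^ h) ^ m) = ‖l1 D‖ * (PP hF m ρ) ^ ((p ^ h) ^ m) := by
  classical
  have h1 := prod_norm_TG hF m
  have h2 : PP hF m ρ = ρ * (∏ y ∈ (Fle D ρ).erase 0, (ρ / ‖y.1‖)) *
      ∏ y ∈ (TG hF m).erase 0, ‖y.1‖ := by
    unfold PP
    rw [← Finset.mul_prod_erase _ _ (zero_mem_TG hF m)]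
    have h3 : max ρ ‖(0 : GP D).1‖ = ρ := by
      rw [norm_zero_val]
      exact max_eq_left hρ0.le
    rw [h3, mul_assoc]
    congr 1
    have h4 : (Fle D ρ).erase 0 = ((TG hF m).erase 0).filter (fun y => ‖y.1‖ ≤ ρ) := by
      ext y
      rw [Finset.mem_erase, Finset.mem_filter, Finset.mem_erase, mem_Fle hF hρ]
      constructor
      · rintro ⟨hy0, hy⟩
        exact ⟨⟨hy0, hm y hy⟩, ((mem_SubLe_pos hρ0.le).1 hy).2⟩
      · rintro ⟨⟨hy0, hy⟩, hyρ⟩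
        exact ⟨hy0, (mem_SubLe_pos hρ0.le).2 ⟨⟨m, (mem_TG hF m y).1 hy⟩, hyρ⟩⟩
    rw [h4, Finset.prod_filter, ← Finset.prod_mul_distrib]
    refine Finset.prod_congr rfl fun y hy => ?_
    rw [Finset.mem_erase] at hy
    have hy0 := norm_val_pos hy.1
    split_ifs with hyρ
    · rw [max_eq_left hyρ, div_mul_cancel₀ _ hy0.ne']
    · rw [one_mul, max_eq_right (not_le.1 hyρ).le]
  have hNN : NN D ρ = ‖l1 D‖ * (ρ * ∏ y ∈ (Fle D ρ).erase 0, (ρ / ‖y.1‖)) := by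
    unfold NN
    rw [mul_assoc]
  rw [h2, hNN, mul_pow, mul_pow (ρ * _), ← h1]
  ring

theorem NN_pos {ρ : ℝ} (hρ0 : 0 < ρ) : 0 < NN D ρ := by
  classical
  unfold NN
  refine mul_pos (mul_pos (l1_pos D) hρ0) (Finset.prod_pos fun y hy => ?_)
  exact div_pos hρ0 (norm_val_pos (Finset.ne_of_mem_erase hy))

theorem PP_pos (m : ℕ) {ρ : ℝ} (hρ0 : 0 < ρ) : 0 < PP hF m ρ :=
  Finset.prod_pos fun _ _ => lt_max_of_lt_left hρ0

theorem PP_lt_one (m : ℕ) {ρ : ℝ} (hρ0 : 0 < ρ) (hρ : ρ < 1) : PP hF m ρ < 1 := by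
  classical
  unfold PP
  rw [← Finset.mul_prod_erase _ _ (zero_mem_TG hF m)]
  have h3 : max ρ ‖(0 : GP D).1‖ = ρ := by
    rw [norm_zero_val]
    exact max_eq_left hρ0.le
  rw [h3]
  calc ρ * ∏ y ∈ (TG hF m).erase 0, max ρ ‖y.1‖ ≤ ρ * 1 := by
        apply mul_le_mul_of_nonneg_left _ hρ0.le
        exact Finset.prod_le_one (fun _ _ => le_max_of_le_left hρ0.le)
          fun y _ => max_le hρ.le (lt_one y).le
    _ < 1 := by rw [mul_one]; exact hρ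

theorem PP_lt (m : ℕ) {ρ ρ' : ℝ} (hρ0 : 0 < ρ) (hρ : ρ < ρ') : PP hF m ρ < PP hF m ρ' := by
  unfold PP
  apply Finset.prod_lt_prod (fun _ _ => lt_max_of_lt_left hρ0)
    (fun y _ => max_le_max hρ.le le_rfl)
  refine ⟨0, zero_mem_TG hF m, ?_⟩
  rw [norm_zero_val, max_eq_left hρ0.le, max_eq_left (hρ0.trans hρ).le]
  exact hρ

include hF in
theorem exists_level' {ρ : ℝ} (hρ : ρ < 1) : ∃ m0 : ℕ, ∀ m, m0 ≤ m →
    ∀ x ∈ SubLe D ρ, x ∈ TG hF m := by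
  obtain ⟨m0, h0⟩ := exists_level hF hρ
  refine ⟨m0, fun m hm x hx => ?_⟩
  rcases hx.2 with h1 | rfl
  · exact h0 m hm x hx.1 h1
  · exact zero_mem_TG hF m

theorem Qm_ne_zero (_D : LData p n h r C) (m : ℕ) : (p ^ h) ^ m ≠ 0 :=
  pow_ne_zero _ (pow_ne_zero _ (Fact.out : p.Prime).ne_zero)

include hF in
theorem NN_lt_one {ρ : ℝ} (hρ0 : 0 < ρ) (hρ : ρ < 1) : NN D ρ < 1 := by
  obtain ⟨m, hm⟩ := exists_level' hF hρ
  have h1 := NN_pow hF hρ0 hρ m (hm m le_rfl)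
  by_contra hcon
  push Not at hcon
  have h2 : 1 ≤ (NN D ρ) ^ ((p ^ h) ^ m) := one_le_pow₀ hcon
  rw [h1] at h2
  have h3 : (PP hF m ρ) ^ ((p ^ h) ^ m) < 1 :=
    pow_lt_one₀ (PP_pos hF m hρ0).le (PP_lt_one hF m hρ0 hρ) (Qm_ne_zero D m)
  have h4 : ‖l1 D‖ * (PP hF m ρ) ^ ((p ^ h) ^ m) < 1 := by
    calc ‖l1 D‖ * (PP hF m ρ) ^ ((p ^ h) ^ m) ≤ 1 * (PP hF m ρ) ^ ((p ^ h) ^ m) :=
          mul_le_mul_of_nonneg_right (l1_le D) (pow_nonneg (PP_pos hF m hρ0).le _)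
      _ < 1 := by rw [one_mul]; exact h3
  linarith

include hF in
theorem NN_lt {ρ ρ' : ℝ} (hρ0 : 0 < ρ) (h1 : ρ < ρ') (h2 : ρ' < 1) : NN D ρ < NN D ρ' := by
  obtain ⟨m, hm⟩ := exists_level' hF h2
  have e1 := NN_pow hF (hρ0.trans h1) h2 m (hm m le_rfl)
  have e2 := NN_pow hF hρ0 (h1.trans h2) m (fun x hx => hm m le_rfl x
    (((SubLe_le_SubLt h1).trans (SubLt_le_SubLe ρ')) hx))
  apply lt_of_pow_lt_pow_left₀ ((p ^ h) ^ m) (NN_pos (hρ0.trans h1)).le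
  rw [e1, e2]
  apply mul_lt_mul_of_pos_left _ (l1_pos D)
  exact pow_lt_pow_left₀ (PP_lt hF m hρ0 h1) (PP_pos hF m hρ0).le (Qm_ne_zero D m)

/-- fibers of `[p] : T_(m+1) → T_m` -/
theorem fiber_card (m : ℕ) [DecidableEq (GP D)] {w : GP D} (hw : w ∈ TG hF m) :
    ((TG hF (m + 1)).filter (fun y => p • y = w)).card = p ^ r := by
  obtain ⟨y0, _, hy0⟩ := exists_div hF ⟨m, (mem_TG hF m w).1 hw⟩
  have h1 : (TG hF 1).card = p ^ r := by rw [card_TG, mul_one]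
  rw [← h1]
  refine Finset.card_bij' (fun y _ => y - y0) (fun y _ => y + y0) ?_ ?_
    (fun y _ => sub_add_cancel y y0) (fun y _ => add_sub_cancel_right y y0)
  · intro y hy
    rw [Finset.mem_filter] at hy
    rw [mem_TG, pow_one, ssub, hy.2, hy0, sub_self]
  · intro y hy
    rw [mem_TG, pow_one] at hy
    rw [Finset.mem_filter, mem_TG]
    have h2 : p • (y + y0) = w := by rw [sadd, hy, zero_add, hy0]
    refine ⟨?_, h2⟩
    rw [pow_succ, mul_smul, h2]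
    exact (mem_TG hF m w).1 hw

theorem PP_succ {S : ℝ} (hS0 : 0 < S) (hS : ∀ x ∈ TG hF 1, ‖x.1‖ ≤ S) {ρ : ℝ} (h1 : S < ρ)
    (m : ℕ) : (PP hF (m + 1) ρ) ^ (p ^ h) = PP hF m (ρ ^ (p ^ n)) := by
  classical
  have hp := (Fact.out : p.Prime)
  have hρ0 : 0 < ρ := hS0.trans h1
  have hr0 : p ^ r ≠ 0 := pow_ne_zero _ hp.ne_zero
  have e1 : (PP hF (m + 1) ρ) ^ (p ^ n) = (PP hF m (ρ ^ (p ^ n))) ^ (p ^ r) := by
    unfold PP
    rw [← Finset.prod_pow, ← Finset.prod_pow]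
    have e2 : ∀ y ∈ TG hF (m + 1), (max ρ ‖y.1‖) ^ (p ^ n) =
        max (ρ ^ (p ^ n)) ‖(p • y).1‖ := by
      intro y _
      rcases le_or_gt ‖y.1‖ ρ with hy | hy
      · rw [max_eq_left hy, max_eq_left (norm_p_smul_le_of_le hF hS h1.le hy)]
      · rw [max_eq_right hy.le, norm_p_smul_eq hF hS (h1.trans hy), max_eq_right]
        exact pow_le_pow_left₀ hρ0.le hy.le _
    rw [Finset.prod_congr rfl e2]
    have hmaps : ∀ y ∈ TG hF (m + 1), p • y ∈ TG hF m := by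
      intro y hy
      rw [mem_TG] at hy ⊢
      rw [← mul_smul, ← pow_succ]
      exact hy
    rw [← Finset.prod_fiberwise_of_maps_to hmaps]
    refine Finset.prod_congr rfl fun w hw => ?_
    rw [Finset.prod_congr rfl (g := fun _ => max (ρ ^ (p ^ n)) ‖w.1‖)
      (fun y hy => by rw [(Finset.mem_filter.1 hy).2]), Finset.prod_const, fiber_card hF m hw]
  have e3 : ((PP hF (m + 1) ρ) ^ (p ^ h)) ^ (p ^ r) = (PP hF m (ρ ^ (p ^ n))) ^ (p ^ r) := by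
    rw [← e1, ← pow_mul, ← pow_add, D.hn]
  exact (pow_left_inj₀ (pow_nonneg (PP_pos hF _ hρ0).le _)
    (PP_pos hF _ (pow_pos hρ0 _)).le hr0).1 e3

include hF in
theorem NN_q {S : ℝ} (hS0 : 0 < S) (hS : ∀ x ∈ TG hF 1, ‖x.1‖ ≤ S) {ρ : ℝ} (h1 : S < ρ)
    (h2 : ρ < 1) : NN D (ρ ^ (p ^ n)) = (NN D ρ) ^ (p ^ h) := by
  have hp := (Fact.out : p.Prime)
  have hρ0 : 0 < ρ := hS0.trans h1
  have hq0 : p ^ n ≠ 0 := pow_ne_zero _ hp.ne_zero
  have hρq0 : 0 < ρ ^ (p ^ n) := pow_pos hρ0 _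
  have hρq : ρ ^ (p ^ n) < 1 := pow_lt_one₀ hρ0.le h2 hq0
  obtain ⟨m1, hm1⟩ := exists_level' hF h2
  obtain ⟨m2, hm2⟩ := exists_level' hF hρq
  have e1 := NN_pow hF hρ0 h2 (max m1 m2 + 1) (hm1 _ ((le_max_left _ _).trans (Nat.le_succ _)))
  have e2 := NN_pow hF hρq0 hρq (max m1 m2) (hm2 _ (le_max_right _ _))
  have e3 : (NN D (ρ ^ (p ^ n))) ^ ((p ^ h) ^ (max m1 m2)) =
      ((NN D ρ) ^ (p ^ h)) ^ ((p ^ h) ^ (max m1 m2)) := by
    rw [e2, ← PP_succ hF hS0 hS h1, ← pow_mul (PP hF (max m1 m2 + 1) ρ), ← pow_mul (NN D ρ),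
      ← pow_succ' (p ^ h), e1]
  exact (pow_left_inj₀ (NN_pos hρq0).le (pow_nonneg (NN_pos hρ0).le _)
    (Qm_ne_zero D _)).1 e3

end

end LeadT

end Crest.Agent.LT
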