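import Mathlib
import Crest.Agent.LT.LeadN

/-! # C4, part 5: leading terms (row 227, helper47) -/

set_option autoImplicit false
set_option linter.unusedSectionVars false

namespace Crest.Agent.LT

open Crest.LubinTate MvPowerSeries

variable {p n h r : ℕ} [Fact p.Prime]
variable {C : Type*} [NontriviallyNormedField C] [CompleteSpace C] [IsUltrametricDist C]
  [CharP C p] [IsAlgClosed C]

namespace LeadT

attribute [local instance] LData.Hcomm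

section

variable {D : LData p n h r C}
  (hF : ∀ m, ∃ (T : Finset (OC C)) (U : PowerSeries (OC C)), D.Factor m T U)

/-- normalised residue -/
noncomputable def rq (Xs : C) (x : GP D) : Kap C := rs ((x.1 : C) / Xs)

theorem norm_div_le {Xs a : C} (hX : 0 < ‖Xs‖) (ha : ‖a‖ ≤ ‖Xs‖) : ‖a / Xs‖ ≤ 1 := by
  rw [norm_div, div_le_one hX]
  exact ha

theorem rq_add {Xs : C} (hX0 : 0 < ‖Xs‖) (hX1 : ‖Xs‖ < 1) {x y : GP D} (hx : ‖x.1‖ ≤ ‖Xs‖)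
    (hy : ‖y.1‖ ≤ ‖Xs‖) : rq Xs (x + y) = rq Xs x + rq Xs y := by
  unfold rq
  have hx' : ‖(x.1 : C) / Xs‖ ≤ 1 := norm_div_le hX0 hx
  have hy' : ‖(y.1 : C) / Xs‖ ≤ 1 := norm_div_le hX0 hy
  have hxy : ‖((x + y).1 : C) / Xs‖ ≤ 1 :=
    norm_div_le hX0 ((norm_add_val_le x y).trans (max_le hx hy))
  rw [← rs_add hx' hy', rs_eq_iff hxy
    ((IsUltrametricDist.norm_add_le_max _ _).trans (max_le hx' hy'))]
  have h1 : ((x + y).1 : C) / Xs - ((x.1 : C) / Xs + (y.1 : C) / Xs) =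
      (((x + y).1 : C) - ((x.1 : C) + (y.1 : C))) / Xs := by
    field_simp
  rw [h1, norm_div, div_lt_one hX0]
  have h2 : ‖((x + y).1 : C) - ((x.1 : C) + (y.1 : C))‖ ≤ ‖x.1‖ * ‖y.1‖ := norm_add_val_sub x y
  refine h2.trans_lt ?_
  calc ‖x.1‖ * ‖y.1‖ ≤ ‖Xs‖ * ‖Xs‖ := mul_le_mul hx hy (norm_nonneg _) hX0.le
    _ < ‖Xs‖ * 1 := mul_lt_mul_of_pos_left hX1 hX0
    _ = ‖Xs‖ := mul_one _

theorem rq_eq_iff {Xs : C} (hX0 : 0 < ‖Xs‖) {x y : GP D} (hx : ‖x.1‖ ≤ ‖Xs‖)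
    (hy : ‖y.1‖ ≤ ‖Xs‖) : rq Xs x = rq Xs y ↔ ‖(x - y).1‖ < ‖Xs‖ := by
  unfold rq
  have hx' : ‖(x.1 : C) / Xs‖ ≤ 1 := norm_div_le hX0 hx
  have hy' : ‖(y.1 : C) / Xs‖ ≤ 1 := norm_div_le hX0 hy
  rw [rs_eq_iff hx' hy', ← sub_div, norm_div, div_lt_one hX0, norm_sub_val]
  rfl

theorem rq_zero (Xs : C) : rq Xs (0 : GP D) = 0 := by
  unfold rq
  have h0 : (0 : GP D).1 = 0 := Pt.zero_val
  rw [h0]
  show rs (((0 : OC C) : C) / Xs) = 0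
  rw [Subring.coe_zero, zero_div, rs_zero]

variable (D) in
/-- the residues of torsion points of norm `≤ ‖Xs‖` -/
noncomputable def VV (Xs : C) (hX0 : 0 < ‖Xs‖) (hX1 : ‖Xs‖ < 1) : AddSubgroup (Kap C) where
  carrier := {v | ∃ x ∈ SubLe D ‖Xs‖, rq Xs x = v}
  zero_mem' := ⟨0, zero_mem _, rq_zero Xs⟩
  add_mem' := by
    rintro _ _ ⟨x, hx, rfl⟩ ⟨y, hy, rfl⟩
    exact ⟨x + y, add_mem hx hy, rq_add hX0 hX1 ((mem_SubLe_pos hX0.le).1 hx).2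
      ((mem_SubLe_pos hX0.le).1 hy).2⟩
  neg_mem' := by
    rintro _ ⟨x, hx, rfl⟩
    refine ⟨-x, neg_mem hx, ?_⟩
    have h1 := rq_add hX0 hX1 ((mem_SubLe_pos hX0.le).1 hx).2
      ((mem_SubLe_pos hX0.le).1 (neg_mem hx)).2
    rw [add_neg_cancel, rq_zero] at h1
    exact (neg_eq_of_add_eq_zero_right h1.symm).symm

include hF in
theorem card_Fle {ρ : ℝ} (hρ : ρ < 1) : (Fle D ρ).card = p ^ (bb D ρ) := by
  rw [← card_SubLe hF hρ]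
  have h1 : ((Fle D ρ : Finset (GP D)) : Set (GP D)) = (SubLe D ρ : Set (GP D)) := by
    ext x
    exact mem_Fle hF hρ x
  rw [← Set.ncard_coe_finset, h1]
  exact (Nat.card_coe_set_eq (SubLe D ρ : Set (GP D)))

include hF in
theorem card_Flt {ρ : ℝ} (hρ0 : 0 < ρ) (hρ : ρ < 1) :
    ((Fle D ρ).filter (fun x => ‖x.1‖ < ρ)).card = p ^ (cc D ρ) := by
  rw [← card_SubLt hF hρ]
  have h1 : (((Fle D ρ).filter (fun x => ‖x.1‖ < ρ) : Finset (GP D)) : Set (GP D)) =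
      (SubLt D ρ : Set (GP D)) := by
    ext x
    rw [Finset.coe_filter, Set.mem_ofPred_eq, mem_Fle hF hρ]
    show x ∈ SubLe D ρ ∧ ‖x.1‖ < ρ ↔ x ∈ SubLt D ρ
    rw [mem_SubLe_pos hρ0.le, mem_SubLt_pos hρ0]
    exact ⟨fun h => ⟨h.1.1, h.2⟩, fun h => ⟨⟨h.1, h.2.le⟩, h.2⟩⟩
  rw [← Set.ncard_coe_finset, h1]
  exact (Nat.card_coe_set_eq (SubLt D ρ : Set (GP D)))

include hF in
theorem card_fiber_rq (Xs : C) (hX0 : 0 < ‖Xs‖) (hX1 : ‖Xs‖ < 1) [DecidableEq (Kap C)]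
    {v : Kap C} (hv : v ∈ (Fle D ‖Xs‖).image (rq Xs)) :
    ((Fle D ‖Xs‖).filter (fun x => rq Xs x = v)).card = p ^ (cc D ‖Xs‖) := by
  rw [Finset.mem_image] at hv
  obtain ⟨x0, hx0, rfl⟩ := hv
  rw [mem_Fle hF hX1] at hx0
  have hx0' := ((mem_SubLe_pos hX0.le).1 hx0).2
  rw [← card_Flt hF hX0 hX1]
  refine Finset.card_bij' (fun y _ => y - x0) (fun y _ => y + x0) ?_ ?_
    (fun y _ => sub_add_cancel y x0) (fun y _ => add_sub_cancel_right y x0)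
  · intro y hy
    rw [Finset.mem_filter, mem_Fle hF hX1] at hy
    have hy' := ((mem_SubLe_pos hX0.le).1 hy.1).2
    rw [Finset.mem_filter, mem_Fle hF hX1]
    exact ⟨sub_mem hy.1 hx0, (rq_eq_iff hX0 hy' hx0').1 hy.2⟩
  · intro y hy
    rw [Finset.mem_filter, mem_Fle hF hX1] at hy
    rw [Finset.mem_filter, mem_Fle hF hX1]
    have h1 : y + x0 ∈ SubLe D ‖Xs‖ := add_mem hy.1 hx0
    refine ⟨h1, (rq_eq_iff hX0 ((mem_SubLe_pos hX0.le).1 h1).2 hx0').2 ?_⟩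
    rw [add_sub_cancel_right]
    exact hy.2

include hF in
/-- the residue polynomial -/
theorem exists_res_poly (Xs : C) (hX0 : 0 < ‖Xs‖) (hX1 : ‖Xs‖ < 1) :
    ∃ a : ℕ → Kap C, a 0 ≠ 0 ∧ a (bb D ‖Xs‖ - cc D ‖Xs‖) ≠ 0 ∧
      ∀ t : Kap C, ∏ x ∈ Fle D ‖Xs‖, (t - rq Xs x) =
        (∑ i ∈ Finset.range (bb D ‖Xs‖ - cc D ‖Xs‖ + 1), a i * t ^ (p ^ i)) ^
          (p ^ (cc D ‖Xs‖)) := by
  classical
  have hp := (Fact.out : p.Prime)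
  have := Kap.charP (C := C) p
  set s : Finset (Kap C) := (Fle D ‖Xs‖).image (rq Xs) with hs
  have hmem : ∀ v, v ∈ s ↔ v ∈ VV D Xs hX0 hX1 := by
    intro v
    rw [hs, Finset.mem_image]
    show _ ↔ ∃ x ∈ SubLe D ‖Xs‖, rq Xs x = v
    constructor
    · rintro ⟨x, hx, rfl⟩
      exact ⟨x, (mem_Fle hF hX1 x).1 hx, rfl⟩
    · rintro ⟨x, hx, rfl⟩
      exact ⟨x, (mem_Fle hF hX1 x).2 hx, rfl⟩
  have hmaps : ∀ x ∈ Fle D ‖Xs‖, rq Xs x ∈ s := fun x hx => Finset.mem_image_of_mem _ hx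
  have hcb := cc_le_bb hF ‖Xs‖
  have hscard : s.card = p ^ (bb D ‖Xs‖ - cc D ‖Xs‖) := by
    have h1 := Finset.card_eq_sum_card_fiberwise hmaps
    rw [Finset.sum_congr rfl (fun v hv => card_fiber_rq hF Xs hX0 hX1 hv), Finset.sum_const,
      smul_eq_mul, card_Fle hF hX1] at h1
    have h2 : p ^ (bb D ‖Xs‖) = p ^ (bb D ‖Xs‖ - cc D ‖Xs‖) * p ^ (cc D ‖Xs‖) := by
      rw [← pow_add, Nat.sub_add_cancel hcb]
    rw [h2] at h1
    exact (Nat.eq_of_mul_eq_mul_right (pow_pos hp.pos _) h1).symm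
  have hset : ((s : Finset (Kap C)) : Set (Kap C)) = (VV D Xs hX0 hX1 : Set (Kap C)) := by
    ext v
    exact hmem v
  have hVcard : Nat.card (VV D Xs hX0 hX1) = p ^ (bb D ‖Xs‖ - cc D ‖Xs‖) := by
    rw [← hscard, ← Set.ncard_coe_finset, hset]
    exact (Nat.card_coe_set_eq (VV D Xs hX0 hX1 : Set (Kap C))).symm
  have hfin : Finite (VV D Xs hX0 hX1) := by
    apply Nat.finite_of_card_ne_zero
    rw [hVcard]
    exact pow_ne_zero _ hp.ne_zero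
  obtain ⟨a, ha0, haw, ha⟩ := exists_additive_poly (p := p) (Kap.perfect (C := C) p)
    (VV D Xs hX0 hX1) _ hVcard s hmem
  refine ⟨a, ha0, haw, ?_⟩
  intro t
  rw [← ha t, ← Finset.prod_pow, ← Finset.prod_fiberwise_of_maps_to hmaps]
  refine Finset.prod_congr rfl fun v hv => ?_
  rw [Finset.prod_congr rfl (g := fun _ => t - v)
    (fun x hx => by rw [(Finset.mem_filter.1 hx).2]), Finset.prod_const,
    card_fiber_rq hF Xs hX0 hX1 hv]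

theorem coe_prod_OC {τ : Type*} (s : Finset τ) (f : τ → OC C) :
    ((∏ i ∈ s, f i : OC C) : C) = ∏ i ∈ s, (f i : C) :=
  map_prod (OC C).subtype f s

include hF in
/-- leading terms of `Log` on the sphere of radius `‖Xs‖` -/
theorem exists_lead (Xs : C) (hX0 : 0 < ‖Xs‖) (hX1 : ‖Xs‖ < 1) :
    ∃ ν : C, ‖ν‖ = NN D ‖Xs‖ ∧ ∀ x : GP D, ‖x.1‖ = ‖Xs‖ →
      ‖((Lg x : OC C) : C) / ν‖ ≤ 1 ∧
      rs (((Lg x : OC C) : C) / ν) = ∏ y ∈ Fle D ‖Xs‖, (rq Xs x - rq Xs y) := by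
  classical
  have hp := (Fact.out : p.Prime)
  have := Kap.charP (C := C) p
  obtain ⟨m1, hm1⟩ := exists_level' hF hX1
  obtain ⟨m2, hm2⟩ := exists_contract (D := D) hX0.le hX1 (l1_pos D)
  set m := max m1 m2 with hm
  have hlev : ∀ x ∈ SubLe D ‖Xs‖, x ∈ TG hF m := hm1 m (le_max_left _ _)
  have hcon : ∀ x : GP D, ‖x.1‖ ≤ ‖Xs‖ → ‖((p ^ m) • x).1‖ < ‖l1 D‖ := hm2 m (le_max_right _ _)
  set E := (p ^ h) ^ m with hE
  have hE0 : E ≠ 0 := Qm_ne_zero D m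
  -- small and big torsion points
  set Tb := (TG hF m).filter (fun y => ¬ ‖y.1‖ ≤ ‖Xs‖) with hTb
  have hTs : (TG hF m).filter (fun y => ‖y.1‖ ≤ ‖Xs‖) = Fle D ‖Xs‖ := by
    ext y
    rw [Finset.mem_filter, mem_Fle hF hX1, mem_SubLe_pos hX0.le]
    constructor
    · rintro ⟨h1, h2⟩
      exact ⟨⟨m, (mem_TG hF m y).1 h1⟩, h2⟩
    · rintro ⟨h1, h2⟩
      exact ⟨hlev y ((mem_SubLe_pos hX0.le).2 ⟨h1, h2⟩), h2⟩
  have hbig : ∀ y ∈ Tb, ‖Xs‖ < ‖y.1‖ := by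
    intro y hy
    rw [hTb, Finset.mem_filter] at hy
    exact not_le.1 hy.2
  have hXs0 : Xs ≠ 0 := norm_pos_iff.1 hX0
  set K : C := (∏ y ∈ Tb, (-(y.1 : C))) * Xs ^ (p ^ (bb D ‖Xs‖)) with hK
  set u0 : C := ((PowerSeries.constantCoeff (UU hF m) : OC C) : C) with hu0
  have hu0n : ‖u0‖ = 1 := (OC.isUnit_iff_norm _).1 (UU_unit hF m)
  have hu00 : u0 ≠ 0 := by
    intro h0
    rw [h0, norm_zero] at hu0n
    exact zero_ne_one hu0n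
  have hl0 : (l1 D : C) ≠ 0 := norm_pos_iff.1 (l1_pos D)
  have hK0 : K ≠ 0 := by
    rw [hK]
    refine mul_ne_zero (Finset.prod_ne_zero_iff.2 fun y hy => ?_) (pow_ne_zero _ hXs0)
    have h1 : 0 < ‖(y.1 : C)‖ := hX0.trans (hbig y hy)
    exact neg_ne_zero.2 (norm_pos_iff.1 h1)
  have hKn : ‖K‖ = PP hF m ‖Xs‖ := by
    rw [hK, norm_mul, norm_pow, norm_prod]
    unfold PP
    rw [← Finset.prod_filter_mul_prod_filter_not (TG hF m) (fun y => ‖y.1‖ ≤ ‖Xs‖), hTs, mul_comm]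
    congr 1
    · rw [Finset.prod_congr rfl (g := fun _ => ‖Xs‖) (fun y hy => ?_), Finset.prod_const,
        card_Fle hF hX1]
      exact max_eq_left ((mem_SubLe_pos hX0.le).1 ((mem_Fle hF hX1 y).1 hy)).2
    · refine Finset.prod_congr rfl fun y hy => ?_
      rw [norm_neg, max_eq_right (hbig y hy).le]
      rfl
  obtain ⟨ν, hν⟩ := IsAlgClosed.exists_pow_nat_eq ((l1 D : C) * u0 * K ^ E)
    (Nat.pos_of_ne_zero hE0)
  have hνn : ‖ν‖ = NN D ‖Xs‖ := by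
    have h1 := congrArg norm hν
    rw [norm_pow, norm_mul, norm_mul, norm_pow, hu0n, mul_one, hKn] at h1
    have h2 := NN_pow hF hX0 hX1 m hlev
    have h3 : ‖ν‖ ^ E = (NN D ‖Xs‖) ^ E := by
      rw [h1, h2]
      rfl
    exact (pow_left_inj₀ (norm_nonneg _) (NN_pos hX0).le hE0).1 h3
  have hν0 : ν ≠ 0 := by
    intro h0
    rw [h0, norm_zero] at hνn
    exact (NN_pos (D := D) hX0).ne hνn
  refine ⟨ν, hνn, ?_⟩
  intro x hx
  have hxle : ‖(x.1 : C)‖ ≤ ‖Xs‖ := le_of_eq hx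
  -- the quotient A
  set A : C := ((ev1 (RingHom.id (OC C)) x.1 (UU hF m) : OC C) : C) / u0 *
    (∏ y ∈ Tb, (((x.1 : C) - y.1) / (-(y.1 : C)))) ^ E *
    (∏ y ∈ Fle D ‖Xs‖, (((x.1 : C) - y.1) / Xs)) ^ E with hA
  have hAval : (((p ^ m) • x).1 : C) = u0 * K ^ E * A := by
    have h1 := congrArg (fun z : OC C => (z : C)) (val_pow_smul hF m x)
    simp only [Subring.coe_mul] at h1
    rw [h1, coe_prod_OC]
    have h2 : ∏ y ∈ TG hF m, (((x.1 - y.1) ^ E : OC C) : C) =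
        (∏ y ∈ Tb, ((x.1 : C) - y.1)) ^ E * (∏ y ∈ Fle D ‖Xs‖, ((x.1 : C) - y.1)) ^ E := by
      rw [← Finset.prod_filter_mul_prod_filter_not (TG hF m) (fun y => ‖y.1‖ ≤ ‖Xs‖), hTs,
        ← Finset.prod_pow, ← Finset.prod_pow, mul_comm]
      rfl
    rw [h2, hA, hK]
    have h3 : ∏ y ∈ Tb, (((x.1 : C) - y.1) / (-(y.1 : C))) =
        (∏ y ∈ Tb, ((x.1 : C) - y.1)) / (∏ y ∈ Tb, (-(y.1 : C))) := Finset.prod_div_distrib _ _
    have h4 : ∏ y ∈ Fle D ‖Xs‖, (((x.1 : C) - y.1) / Xs) =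
        (∏ y ∈ Fle D ‖Xs‖, ((x.1 : C) - y.1)) / Xs ^ (p ^ (bb D ‖Xs‖)) := by
      rw [Finset.prod_div_distrib, Finset.prod_const, card_Fle hF hX1]
    rw [h3, h4]
    have h5 : (∏ y ∈ Tb, (-(y.1 : C))) ≠ 0 := by
      refine Finset.prod_ne_zero_iff.2 fun y hy => ?_
      have h1 : 0 < ‖(y.1 : C)‖ := hX0.trans (hbig y hy)
      exact neg_ne_zero.2 (norm_pos_iff.1 h1)
    have h6 := pow_ne_zero E h5
    have h7 : (Xs ^ (p ^ (bb D ‖Xs‖))) ^ E ≠ 0 := pow_ne_zero E (pow_ne_zero _ hXs0)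
    rw [div_pow, div_pow, mul_pow]
    field_simp
  -- norms and residue of A
  have f1n : ‖((ev1 (RingHom.id (OC C)) x.1 (UU hF m) : OC C) : C) / u0‖ ≤ 1 := by
    rw [norm_div, hu0n, div_one]
    exact OC.norm_le_one _
  have f1 : rs (((ev1 (RingHom.id (OC C)) x.1 (UU hF m) : OC C) : C) / u0) = 1 := by
    rw [← rs_one (C := C), rs_eq_iff f1n (by rw [norm_one])]
    have h1 : ((ev1 (RingHom.id (OC C)) x.1 (UU hF m) : OC C) : C) / u0 - 1 =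
        (((ev1 (RingHom.id (OC C)) x.1 (UU hF m) : OC C) : C) - u0) / u0 := by
      field_simp
    rw [h1, norm_div, hu0n, div_one]
    exact (U_spec (UU hF m) (UU_unit hF m) x).2.1
  have f2n : ∀ y ∈ Tb, ‖((x.1 : C) - y.1) / (-(y.1 : C))‖ ≤ 1 := by
    intro y hy
    have h1 : ‖(x.1 : C)‖ < ‖(y.1 : C)‖ := lt_of_le_of_lt hxle (hbig y hy)
    rw [norm_div, norm_neg, norm_sub_of_lt' h1, div_self]
    exact ((norm_nonneg _).trans_lt h1).ne'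
  have f2 : ∀ y ∈ Tb, rs (((x.1 : C) - y.1) / (-(y.1 : C))) = 1 := by
    intro y hy
    have h1 : ‖(x.1 : C)‖ < ‖(y.1 : C)‖ := lt_of_le_of_lt hxle (hbig y hy)
    have h2 : 0 < ‖(y.1 : C)‖ := (norm_nonneg _).trans_lt h1
    have hy0 : (y.1 : C) ≠ 0 := norm_pos_iff.1 h2
    rw [← rs_one (C := C), rs_eq_iff (f2n y hy) (by rw [norm_one])]
    have h3 : ((x.1 : C) - y.1) / (-(y.1 : C)) - 1 = -((x.1 : C) / (y.1 : C)) := by
      field_simp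
      ring
    rw [h3, norm_neg, norm_div, div_lt_one h2]
    exact h1
  have f3n : ∀ y ∈ Fle D ‖Xs‖, ‖((x.1 : C) - y.1) / Xs‖ ≤ 1 := by
    intro y hy
    have hy' := ((mem_SubLe_pos hX0.le).1 ((mem_Fle hF hX1 y).1 hy)).2
    exact norm_div_le hX0 ((norm_sub_le_max _ _).trans (max_le hxle hy'))
  have f3 : ∀ y ∈ Fle D ‖Xs‖, rs (((x.1 : C) - y.1) / Xs) = rq Xs x - rq Xs y := by
    intro y hy
    have hy' := ((mem_SubLe_pos hX0.le).1 ((mem_Fle hF hX1 y).1 hy)).2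
    have h1 : ‖(x.1 : C) / Xs‖ ≤ 1 := norm_div_le hX0 hxle
    have h2 : ‖(y.1 : C) / Xs‖ ≤ 1 := norm_div_le hX0 hy'
    rw [sub_div, rs_sub h1 h2]
    rfl
  have g2n : ‖∏ y ∈ Tb, (((x.1 : C) - y.1) / (-(y.1 : C)))‖ ≤ 1 := by
    rw [norm_prod]
    exact Finset.prod_le_one (fun _ _ => norm_nonneg _) f2n
  have g3n : ‖∏ y ∈ Fle D ‖Xs‖, (((x.1 : C) - y.1) / Xs)‖ ≤ 1 := by
    rw [norm_prod]
    exact Finset.prod_le_one (fun _ _ => norm_nonneg _) f3n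
  have k2n : ‖(∏ y ∈ Tb, (((x.1 : C) - y.1) / (-(y.1 : C)))) ^ E‖ ≤ 1 := by
    rw [norm_pow]
    exact pow_le_one₀ (norm_nonneg _) g2n
  have k3n : ‖(∏ y ∈ Fle D ‖Xs‖, (((x.1 : C) - y.1) / Xs)) ^ E‖ ≤ 1 := by
    rw [norm_pow]
    exact pow_le_one₀ (norm_nonneg _) g3n
  have k12n : ‖((ev1 (RingHom.id (OC C)) x.1 (UU hF m) : OC C) : C) / u0 *
      (∏ y ∈ Tb, (((x.1 : C) - y.1) / (-(y.1 : C)))) ^ E‖ ≤ 1 := by
    rw [norm_mul]
    exact mul_le_one₀ f1n (norm_nonneg _) k2n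
  have hAn : ‖A‖ ≤ 1 := by
    rw [hA, norm_mul]
    exact mul_le_one₀ k12n (norm_nonneg _) k3n
  have hAr : rs A = (∏ y ∈ Fle D ‖Xs‖, (rq Xs x - rq Xs y)) ^ E := by
    rw [hA, rs_mul k12n k3n, rs_mul f1n k2n, f1, one_mul, rs_pow g2n, rs_pow g3n,
      rs_prod _ _ f2n, rs_prod _ _ f3n, Finset.prod_congr rfl f2, Finset.prod_const_one, one_pow,
      one_mul, Finset.prod_congr rfl f3]
  -- Log
  set Y : C := (((p ^ m) • x).1 : C) with hY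
  set e : C := ((Lg ((p ^ m) • x) : OC C) : C) - (l1 D : C) * Y with he
  have hen : ‖e‖ ≤ ‖Y‖ ^ 2 := norm_Lg_sub ((p ^ m) • x)
  have hYl : ‖Y‖ < ‖(l1 D : C)‖ := hcon x hxle
  have hpow : (((Lg x : OC C) : C) / ν) ^ E = A + e / ((l1 D : C) * u0 * K ^ E) := by
    have h1 : ((Lg ((p ^ m) • x) : OC C) : C) = ((Lg x : OC C) : C) ^ E := by
      have h0 := congrArg (fun z : OC C => (z : C)) (Lg_pow_smul m x)
      simp only [Subring.coe_pow] at h0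
      exact h0
    rw [div_pow, hν, ← h1]
    have h2 : ((Lg ((p ^ m) • x) : OC C) : C) = (l1 D : C) * Y + e := by rw [he]; ring
    rw [h2, add_div, hAval]
    congr 1
    field_simp
  have he' : ‖e / ((l1 D : C) * u0 * K ^ E)‖ < 1 := by
    have hKE : 0 < ‖K ^ E‖ := norm_pos_iff.2 (pow_ne_zero _ hK0)
    have hl1 : 0 < ‖(l1 D : C)‖ := l1_pos D
    rw [norm_div, norm_mul, norm_mul, hu0n, mul_one, div_lt_one (mul_pos hl1 hKE)]
    refine hen.trans_lt ?_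
    have h1 : ‖Y‖ = ‖K ^ E‖ * ‖A‖ := by
      rw [hAval, norm_mul, norm_mul, hu0n, one_mul]
    have h2 : ‖Y‖ ≤ ‖K ^ E‖ := by
      rw [h1]
      exact mul_le_of_le_one_right hKE.le hAn
    calc ‖Y‖ ^ 2 = ‖Y‖ * ‖Y‖ := sq _
      _ ≤ ‖Y‖ * ‖K ^ E‖ := mul_le_mul_of_nonneg_left h2 (norm_nonneg _)
      _ < ‖(l1 D : C)‖ * ‖K ^ E‖ := mul_lt_mul_of_pos_right hYl hKE
  have hfn : ‖((Lg x : OC C) : C) / ν‖ ≤ 1 := by
    by_contra hcon'
    push Not at hcon'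
    have h1 : 1 < ‖((Lg x : OC C) : C) / ν‖ ^ E := one_lt_pow₀ hcon' hE0
    rw [← norm_pow, hpow] at h1
    have h2 : ‖A + e / ((l1 D : C) * u0 * K ^ E)‖ ≤ 1 :=
      (IsUltrametricDist.norm_add_le_max _ _).trans (max_le hAn he'.le)
    linarith
  refine ⟨hfn, ?_⟩
  have h3 : (rs (((Lg x : OC C) : C) / ν)) ^ E =
      (∏ y ∈ Fle D ‖Xs‖, (rq Xs x - rq Xs y)) ^ E := by
    rw [← rs_pow hfn, hpow, rs_add_small hAn he', hAr]
  have hEp : E = p ^ (h * m) := by rw [hE, ← pow_mul]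
  rw [hEp] at h3
  exact iterateFrobenius_inj (Kap C) p (h * m) h3

end

end LeadT

end Crest.Agent.LT
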