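import Mathlib
import Crest.Agent.LT.CDefs
import Crest.Agent.LT.Iota
import Crest.Agent.LT.LogC
import Crest.Agent.LT.Torsion
import Crest.Agent.LT.LeadMain

/-! # C4: leading terms of `Log` and `π` (row 227). Paper proof: ideas row 227, C4.
(`OC.isLocalRing`, `Kap`, `rs` are defined in LeadRes.lean.) -/

set_option autoImplicit false
set_option linter.unusedSectionVars false

namespace Crest.Agent.LT

open Crest.LubinTate MvPowerSeries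

variable {p n h r : ℕ} [Fact p.Prime]
variable {C : Type*} [NontriviallyNormedField C] [CompleteSpace C] [IsUltrametricDist C]
  [CharP C p] [IsAlgClosed C]

/-- The leading term package for `π = Log ∘ ι`:
`N ρ` nominal size, `c ρ, b ρ`: `p^(c ρ) = #{τ torsion, |τ| < ρ}`, `p^(b ρ) = #{|τ| ≤ ρ}`,
`ρ0 < 1` bound above which `[p]` acts as `q`-th power. All statements for `ρ` in the value group. -/
structure LData.Lead (D : LData p n h r C) where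
  N : ℝ → ℝ
  c : ℝ → ℕ
  b : ℝ → ℕ
  ρ0 : ℝ
  ρ0_pos : 0 < ρ0
  ρ0_lt : ρ0 < 1
  N_pos : ∀ z : C, 0 < ‖z‖ → ‖z‖ < 1 → 0 < N ‖z‖
  N_lt : ∀ z : C, 0 < ‖z‖ → ‖z‖ < 1 → N ‖z‖ < 1
  N_mono : ∀ z w : C, 0 < ‖z‖ → ‖z‖ < ‖w‖ → ‖w‖ < 1 → N ‖z‖ < N ‖w‖
  c_le_b : ∀ ρ, c ρ ≤ b ρ
  b_le_c : ∀ ρ ρ', ρ < ρ' → ρ' < 1 → b ρ ≤ c ρ'
  /-- `c(ρ^q) + r = c(ρ)` above `ρ0` -/
  c_pow : ∀ ρ, ρ0 < ρ → ρ < 1 → c (ρ ^ (p ^ n)) + r = c ρ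
  b_pow : ∀ ρ, ρ0 < ρ → ρ < 1 → b (ρ ^ (p ^ n)) + r = b ρ
  N_pow : ∀ z : C, ρ0 < ‖z‖ → ‖z‖ < 1 → N (‖z‖ ^ (p ^ n)) = (N ‖z‖) ^ (p ^ h)
  b_sub_c : ∀ ρ, b ρ ≤ c ρ + r
  /-- leading terms of `π` above `ρ0`: for `|X*| = ρ` there are `ν`, `a` with
  `π(z)/ν ≡ (Σ_{i ≤ b-c} a_i (z/X*)^(p^i))^(p^c)` for all `|z| = ρ`. -/
  lead : ∀ Xs : C, ρ0 < ‖Xs‖ → ‖Xs‖ < 1 → ∃ (ν : C) (a : ℕ → Kap C), ‖ν‖ = N ‖Xs‖ ∧ a 0 ≠ 0 ∧
    a (b ‖Xs‖ - c ‖Xs‖) ≠ 0 ∧ ∀ z : OC C, ‖z‖ = ‖Xs‖ →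
      ‖D.pi z‖ ≤ ‖ν‖ ∧
      rs ((D.pi z : C) / ν) =
        (∑ i ∈ Finset.range (b ‖Xs‖ - c ‖Xs‖ + 1), a i * (rs ((z : C) / Xs)) ^ (p ^ i)) ^
          (p ^ (c ‖Xs‖))

open LeadT in
/-- C4: existence of the leading term package -/
theorem LData.exists_Lead (D : LData p n h r C)
    (hF : ∀ m, ∃ (T : Finset (OC C)) (U : PowerSeries (OC C)), D.Factor m T U) :
    Nonempty D.Lead := by
  obtain ⟨S, hS0, hS1, hS⟩ := exists_smax hF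
  set ρ0 : ℝ := max S D.ε with hρ0
  have hSρ : S ≤ ρ0 := le_max_left _ _
  have hερ : D.ε ≤ ρ0 := le_max_right _ _
  refine ⟨{
    N := NN D
    c := cc D
    b := bb D
    ρ0 := ρ0
    ρ0_pos := lt_of_lt_of_le hS0 hSρ
    ρ0_lt := max_lt hS1 D.ε1
    N_pos := fun z h0 _ => NN_pos h0
    N_lt := fun z h0 h1 => NN_lt_one hF h0 h1
    N_mono := fun z w h0 h1 h2 => NN_lt hF h0 h1 h2
    c_le_b := cc_le_bb hF
    b_le_c := fun ρ ρ' h1 h2 => bb_le_cc hF h1 h2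
    c_pow := fun ρ h1 h2 => cc_pow hF hS0 hS (lt_of_le_of_lt hSρ h1) h2
    b_pow := fun ρ h1 h2 => bb_pow hF hS0 hS (lt_of_le_of_lt hSρ h1) h2
    N_pow := fun z h1 h2 => NN_q hF hS0 hS (lt_of_le_of_lt hSρ h1) h2
    b_sub_c := bb_le_cc_add hF
    lead := ?_ }⟩
  intro Xs h0 h1
  have hX0 : 0 < ‖Xs‖ := (lt_of_lt_of_le hS0 hSρ).trans h0
  obtain ⟨ν, hν, hlead⟩ := exists_lead hF Xs hX0 h1
  obtain ⟨a, ha0, haw, ha⟩ := exists_res_poly hF Xs hX0 h1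
  refine ⟨ν, a, hν, ha0, haw, ?_⟩
  intro z hz
  have hz1 : ‖z‖ < 1 := by rw [hz]; exact h1
  have hνpos : 0 < ‖ν‖ := by rw [hν]; exact NN_pos hX0
  let x : GP D := LeadT.mk D (D.iota z) (D.iota_lt hz1)
  have hd : ‖((D.iota z : OC C) : C) - (z : C)‖ < ‖Xs‖ :=
    lt_of_le_of_lt ((D.iota_sub_le hz1).trans hερ) h0
  have hzC : ‖(z : C)‖ = ‖Xs‖ := hz
  have hxn : ‖x.1‖ = ‖Xs‖ := by
    have h2 : ‖(z : C) - ((D.iota z : OC C) : C)‖ < ‖(z : C)‖ := by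
      rw [norm_sub_rev, hzC]
      exact hd
    exact (norm_eq_of_sub_lt h2).trans hzC
  obtain ⟨g1, g2⟩ := hlead x hxn
  have hpi : D.pi z = Lg x := rfl
  have hrq : rq Xs x = rs ((z : C) / Xs) := by
    unfold rq
    have e1 : ‖(x.1 : C) / Xs‖ ≤ 1 := norm_div_le hX0 (le_of_eq hxn)
    have e2 : ‖(z : C) / Xs‖ ≤ 1 := norm_div_le hX0 (le_of_eq hzC)
    rw [rs_eq_iff e1 e2, ← sub_div, norm_div, div_lt_one hX0]
    exact hd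
  rw [hpi]
  constructor
  · rw [norm_div, div_le_one hνpos] at g1
    exact g1
  · rw [g2, ha (rq Xs x), hrq]

end Crest.Agent.LT
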