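import Mathlib
import Crest.Agent.LT.CDefs
import Crest.Agent.LT.Iota
import Crest.Agent.LT.LogC
import Crest.Agent.LT.Torsion
import Crest.Agent.LT.Leading

/-! # C5: the special basis of `T = ker ι` (row 227). Paper proof: ideas row 227, C5. -/

set_option autoImplicit false
set_option linter.unusedSectionVars false

namespace Crest.Agent.LT

open Crest.LubinTate MvPowerSeries

variable {p n h r : ℕ} [Fact p.Prime]

section defs
variable {C : Type*} [NontriviallyNormedField C] [CompleteSpace C] [IsUltrametricDist C]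
  [CharP C p] [IsAlgClosed C]

/-- a basis (generating family is enough) of `T = ker ι`: `t_i ∈ m_C`, `ι(t_i) = 0`, and the
`τ_i = ι(t_i^(1/q))` generate `{σ : [p]σ = 0}` additively. -/
structure LData.TBasis (D : LData p n h r C) (t : Fin r → OC C) : Prop where
  lt : ∀ i, ‖t i‖ < 1
  iota : ∀ i, D.iota (t i) = 0
  /-- every additive predicate holding at the `τ_i` holds on all `p`-torsion points -/
  gen : ∀ Q : OC C → Prop, Q 0 → (∀ i, Q (D.iota (rt p n (t i)))) →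
    (∀ a b, ‖a‖ < 1 → ‖b‖ < 1 → Q a → Q b → Q (op D.Hx (RingHom.id (OC C)) a b)) →
    ∀ σ : OC C, ‖σ‖ < 1 → ev1 (RingHom.id (OC C)) σ (mulSeries D.Hx p) = 0 → Q σ

/-- `F_p`-independence of residues of a family of elements of the same norm -/
def ResIndep (p : ℕ) {C : Type*} [NontriviallyNormedField C] [CompleteSpace C]
    [IsUltrametricDist C] {m : ℕ} (s : Fin m → OC C) (R : ℝ) : Prop :=
  (∀ i, ‖s i‖ = R) ∧ ∀ a : Fin m → ℤ, ‖∑ i, (a i : C) * (s i : C)‖ < R → ∀ i, (p : ℤ) ∣ a i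

end defs

section linalg

variable {K V : Type*} [Field K] [AddCommGroup V] [Module K V] [FiniteDimensional K V]

theorem sp_linA (W0 : Submodule K V) (d : ℕ) (hd : Module.finrank K W0 + d ≤ Module.finrank K V) :
    ∃ σ : Fin d → V, ∀ c : Fin d → K, ∑ i, c i • σ i ∈ W0 → ∀ i, c i = 0 := by
  obtain ⟨U, hU⟩ := Submodule.exists_isCompl W0
  have h1 := Submodule.finrank_add_eq_of_isCompl hU
  have h2 : d ≤ Module.finrank K U := by omega
  let b := Module.finBasis K U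
  refine ⟨fun i => (b (Fin.castLE h2 i) : V), ?_⟩
  intro c hc
  have h3 : ∑ i, c i • (b (Fin.castLE h2 i) : V) ∈ U :=
    Submodule.sum_mem _ fun i _ => U.smul_mem _ (b _).2
  have h4 : ∑ i, c i • (b (Fin.castLE h2 i) : V) = 0 :=
    (Submodule.disjoint_def.1 hU.disjoint) _ hc h3
  have h5 : LinearIndependent K (fun i : Fin d => b (Fin.castLE h2 i)) :=
    b.linearIndependent.comp _ (Fin.castLE_injective h2)
  have h6 : ∑ i, c i • b (Fin.castLE h2 i) = 0 := by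
    apply Subtype.ext
    push_cast
    exact h4
  exact fun i => Fintype.linearIndependent_iff.1 h5 c h6 i

theorem sp_linB (d r : ℕ) (hd : d + 1 ≤ r) (hr : Module.finrank K V = r) (σ : Fin d → V)
    (hσ : LinearIndependent K σ) (τ : V) (hτ : τ ∉ Submodule.span K (Set.range σ)) :
    ∃ σ' : Fin r → V, (∀ (i : Fin r) (hi : (i : ℕ) < d), σ' i = σ ⟨i, hi⟩) ∧
      (∀ (i : Fin r), (i : ℕ) = d → σ' i = τ) ∧ (∀ i, σ' i ≠ 0) ∧
      Submodule.span K (Set.range σ') = ⊤ := by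
  set S := Submodule.span K (Set.range σ) with hS
  have hSd : Module.finrank K S = d := by
    rw [hS, finrank_span_eq_card hσ, Fintype.card_fin]
  set S' := S ⊔ Submodule.span K {τ} with hS'
  have hlt : S < S' := by
    refine lt_of_le_of_ne le_sup_left ?_
    intro h
    apply hτ
    rw [h]
    exact Submodule.mem_sup_right (Submodule.mem_span_singleton_self τ)
  have h1 := Submodule.finrank_lt_finrank_of_lt hlt
  have h2 : Module.finrank K S' ≤ Module.finrank K S + 1 := by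
    have h3 := Submodule.finrank_add_le_finrank_add_finrank S (Submodule.span K {τ})
    have h4 : Module.finrank K (Submodule.span K {τ}) ≤ 1 := by
      simpa using finrank_span_le_card (R := K) ({τ} : Set V)
    rw [← hS'] at h3
    omega
  obtain ⟨U, hU⟩ := Submodule.exists_isCompl S'
  have h3 := Submodule.finrank_add_eq_of_isCompl hU
  have h4 : Module.finrank K U = r - (d + 1) := by omega
  let b := Module.finBasisOfFinrankEq K U h4
  let σ' : Fin r → V := fun i => if hi : (i : ℕ) < d then σ ⟨i, hi⟩ else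
    if hi2 : (i : ℕ) = d then τ else (b ⟨(i : ℕ) - (d + 1), by omega⟩ : V)
  have e1 : ∀ (i : Fin r) (hi : (i : ℕ) < d), σ' i = σ ⟨i, hi⟩ := fun i hi => dif_pos hi
  have e2 : ∀ (i : Fin r), (i : ℕ) = d → σ' i = τ := by
    intro i hi
    show (if hi : (i : ℕ) < d then _ else _) = _
    rw [dif_neg (by omega), dif_pos hi]
  have e3 : ∀ (i : Fin r) (hi : d < (i : ℕ)), σ' i = (b ⟨(i : ℕ) - (d + 1), by omega⟩ : V) := by
    intro i hi
    show (if hi : (i : ℕ) < d then _ else _) = _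
    rw [dif_neg (by omega), dif_neg (by omega)]
  refine ⟨σ', e1, e2, ?_, ?_⟩
  · intro i
    rcases lt_trichotomy (i : ℕ) d with hi | hi | hi
    · rw [e1 i hi]; exact hσ.ne_zero _
    · rw [e2 i hi]
      intro h0
      apply hτ
      rw [h0]; exact Submodule.zero_mem _
    · rw [e3 i hi]
      intro h0
      exact b.ne_zero _ (Subtype.ext h0)
  · rw [eq_top_iff, ← hU.sup_eq_top]
    apply sup_le
    · apply sup_le
      · rw [hS, Submodule.span_le]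
        rintro _ ⟨i, rfl⟩
        apply Submodule.subset_span
        exact ⟨⟨i, by omega⟩, e1 ⟨i, by omega⟩ i.2⟩
      · rw [Submodule.span_le]
        rintro _ rfl
        apply Submodule.subset_span
        exact ⟨⟨d, by omega⟩, e2 ⟨d, by omega⟩ rfl⟩
    · intro v hv
      have h5 : (⟨v, hv⟩ : U) ∈ Submodule.span K (Set.range b) := by rw [b.span_eq]; trivial
      have h6 : Submodule.span K (Set.range b) ≤
          (Submodule.span K (Set.range σ')).comap U.subtype := by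
        rw [Submodule.span_le]
        rintro _ ⟨i, rfl⟩
        show (b i : V) ∈ Submodule.span K (Set.range σ')
        apply Submodule.subset_span
        refine ⟨⟨i + (d + 1), by have := i.2; omega⟩, ?_⟩
        rw [e3 _ (by simp only; omega)]
        congr 2
        apply Fin.ext
        simp
      exact h6 h5

end linalg

/-! ### generalities on points -/

section general
variable {C : Type*} [NontriviallyNormedField C] [CompleteSpace C] [IsUltrametricDist C]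
variable {R : Type*} [CommRing R] {F : FormalGroup R} [F.IsComm] {φ : R →+* OC C}

theorem sp_norm_lt (a : Pt F φ) : ‖a.1‖ < 1 := (OC.isTopologicallyNilpotent_iff _).1 a.2

/-- a point of norm `< 1` -/
def sp_mk (F : FormalGroup R) (φ : R →+* OC C) (z : OC C) (hz : ‖z‖ < 1) : Pt F φ :=
  ⟨z, (OC.isTopologicallyNilpotent_iff _).2 hz⟩

theorem sp_norm_add_sub_le (a b : Pt F φ) : ‖(a + b).1 - (a.1 + b.1)‖ ≤ ‖a.1‖ * ‖b.1‖ := by
  rw [Pt.add_val]
  exact OC.norm_op_sub_le F φ _ _ (sp_norm_lt a) (sp_norm_lt b)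

theorem sp_max (x y : OC C) : ‖x + y‖ ≤ max ‖x‖ ‖y‖ := IsUltrametricDist.norm_add_le_max x y

theorem sp_max_sub (x y : OC C) : ‖x - y‖ ≤ max ‖x‖ ‖y‖ := by
  have := sp_max x (-y)
  rwa [norm_neg, ← sub_eq_add_neg] at this

theorem sp_norm_mul (x y : OC C) : ‖x * y‖ = ‖x‖ * ‖y‖ := norm_mul (x : C) (y : C)

theorem sp_norm_pow (x : OC C) (k : ℕ) : ‖x ^ k‖ = ‖x‖ ^ k := norm_pow (x : C) k

theorem sp_norm_prod {ι : Type*} (s : Finset ι) (f : ι → OC C) :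
    ‖∏ i ∈ s, f i‖ = ∏ i ∈ s, ‖f i‖ := by
  classical
  induction s using Finset.induction_on with
  | empty => simp [show ‖(1 : OC C)‖ = ‖(1:C)‖ from rfl]
  | insert a s ha ih => rw [Finset.prod_insert ha, Finset.prod_insert ha, sp_norm_mul, ih]

/-! ### the group `1 + m` -/

theorem sp_one1_norm {a : C} (ha : ‖a - 1‖ < 1) : ‖a‖ = 1 := by
  have h1 : ‖(a - 1) + 1‖ = max ‖a - 1‖ ‖(1:C)‖ :=
    IsUltrametricDist.norm_add_eq_max_of_norm_ne_norm (by rw [norm_one]; exact ha.ne)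
  rw [sub_add_cancel, norm_one, max_eq_right ha.le] at h1
  exact h1

theorem sp_one1_mul {a b : C} (ha : ‖a - 1‖ < 1) (hb : ‖b - 1‖ < 1) : ‖a * b - 1‖ < 1 := by
  have h1 : a * b - 1 = (a - 1) * b + (b - 1) := by ring
  rw [h1]
  refine (IsUltrametricDist.norm_add_le_max _ _).trans_lt (max_lt ?_ hb)
  rw [norm_mul, sp_one1_norm hb, mul_one]; exact ha

theorem sp_one1_pow {a : C} (ha : ‖a - 1‖ < 1) (k : ℕ) : ‖a ^ k - 1‖ < 1 := by
  induction k with
  | zero => simp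
  | succ k ih => rw [pow_succ]; exact sp_one1_mul ih ha

theorem sp_one1_prod {ι : Type*} (s : Finset ι) (f : ι → C) (hf : ∀ i ∈ s, ‖f i - 1‖ < 1) :
    ‖∏ i ∈ s, f i - 1‖ < 1 := by
  classical
  induction s using Finset.induction_on with
  | empty => simp
  | insert a s ha ih =>
    rw [Finset.prod_insert ha]
    exact sp_one1_mul (hf a (Finset.mem_insert_self _ _))
      (ih fun i hi => hf i (Finset.mem_insert_of_mem hi))

theorem sp_one1_of_mul {a b : C} (ha : ‖a - 1‖ < 1) (hab : ‖a * b - 1‖ < 1) : ‖b - 1‖ < 1 := by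
  have h0 : a ≠ 0 := by
    intro h; rw [h] at ha; simp at ha
  have h1 : b - 1 = a⁻¹ * ((a * b - 1) - (a - 1)) := by field_simp; ring
  rw [h1, norm_mul, norm_inv, sp_one1_norm ha, inv_one, one_mul, sub_eq_add_neg]
  refine (IsUltrametricDist.norm_add_le_max _ _).trans_lt (max_lt hab ?_)
  rw [norm_neg]; exact ha

theorem sp_norm_add_le {a b : Pt F φ} {ρ : ℝ} (ha : ‖a.1‖ ≤ ρ) (hb : ‖b.1‖ ≤ ρ) :
    ‖(a + b).1‖ ≤ ρ := by
  have h1 := sp_norm_add_sub_le a b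
  have h2 : ‖a.1‖ * ‖b.1‖ ≤ ρ := by
    have := sp_norm_lt b
    have := norm_nonneg a.1
    nlinarith [norm_nonneg b.1]
  have h3 : (a + b).1 = ((a + b).1 - (a.1 + b.1)) + (a.1 + b.1) := by ring
  rw [h3]
  exact (sp_max _ _).trans (max_le (h1.trans h2) ((sp_max _ _).trans (max_le ha hb)))

theorem sp_norm_neg (a : Pt F φ) : ‖(-a).1‖ = ‖a.1‖ := by
  have h1 : op F φ (-a).1 a.1 = 0 := by
    rw [← Pt.add_val, neg_add_cancel, Pt.zero_val]
  have h2 := OC.norm_eq_of_op_eq F φ 0 a.1 (-a).1 (by simp) (sp_norm_lt a) (sp_norm_lt _) h1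
  rw [h2, zero_sub, norm_neg]

theorem sp_norm_sub (a b : Pt F φ) : ‖(a - b).1‖ = ‖a.1 - b.1‖ := by
  have h1 : op F φ (a - b).1 b.1 = a.1 := by
    rw [← Pt.add_val, sub_add_cancel]
  exact OC.norm_eq_of_op_eq F φ a.1 b.1 (a - b).1 (sp_norm_lt a) (sp_norm_lt b) (sp_norm_lt _) h1

variable (F φ) in
/-- pairs (point, element) which agree to second order at level `ρ` -/
def sp_approx (ρ : ℝ) (h0 : 0 ≤ ρ) : AddSubgroup (Pt F φ × OC C) where
  carrier := {x | ‖x.1.1‖ ≤ ρ ∧ ‖x.1.1 - x.2‖ ≤ ρ ^ 2}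
  add_mem' := by
    rintro ⟨a, c⟩ ⟨b, d⟩ ⟨ha, ha'⟩ ⟨hb, hb'⟩
    refine ⟨sp_norm_add_le ha hb, ?_⟩
    show ‖(a + b).1 - (c + d)‖ ≤ ρ ^ 2
    simp only at ha ha' hb hb'
    have h1 := sp_norm_add_sub_le a b
    have h2 : ‖a.1‖ * ‖b.1‖ ≤ ρ ^ 2 := by
      rw [sq]; exact mul_le_mul ha hb (norm_nonneg _) h0
    have h3 : (a + b).1 - (c + d) = ((a + b).1 - (a.1 + b.1)) + ((a.1 - c) + (b.1 - d)) := by ring
    rw [h3]
    exact (sp_max _ _).trans (max_le (h1.trans h2) ((sp_max _ _).trans (max_le ha' hb')))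
  zero_mem' := by
    refine ⟨?_, ?_⟩
    · show ‖(0 : Pt F φ).1‖ ≤ ρ
      rw [Pt.zero_val, norm_zero]; exact h0
    · show ‖(0 : Pt F φ).1 - 0‖ ≤ ρ ^ 2
      rw [Pt.zero_val, sub_zero, norm_zero]; positivity
  neg_mem' := by
    rintro ⟨a, c⟩ ⟨ha, ha'⟩
    refine ⟨?_, ?_⟩
    · show ‖(-a).1‖ ≤ ρ
      rw [sp_norm_neg]; exact ha
    · show ‖(-a).1 - (-c)‖ ≤ ρ ^ 2
      simp only at ha ha'
      have h1 := sp_norm_add_sub_le (-a) a
      rw [neg_add_cancel, Pt.zero_val, zero_sub, norm_neg, sp_norm_neg] at h1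
      have h2 : ‖a.1‖ * ‖a.1‖ ≤ ρ ^ 2 := by
        rw [sq]; exact mul_le_mul ha ha (norm_nonneg _) h0
      have h3 : (-a).1 - (-c) = ((-a).1 + a.1) - (a.1 - c) := by ring
      rw [h3]
      exact (sp_max_sub _ _).trans (max_le (h1.trans h2) ha')

theorem sp_combo {ι : Type*} (s : Finset ι) (x : ι → Pt F φ) {ρ : ℝ} (h0 : 0 ≤ ρ)
    (hx : ∀ i ∈ s, ‖(x i).1‖ ≤ ρ) (c : ι → ℤ) :
    ‖(∑ i ∈ s, c i • x i).1‖ ≤ ρ ∧
      ‖(∑ i ∈ s, c i • x i).1 - ∑ i ∈ s, (c i : OC C) * (x i).1‖ ≤ ρ ^ 2 := by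
  have h1 : ∀ i ∈ s, ((x i, (x i).1) : Pt F φ × OC C) ∈ sp_approx F φ ρ h0 := by
    intro i hi
    exact ⟨hx i hi, by simp only [sub_self, norm_zero]; positivity⟩
  have h2 : ∑ i ∈ s, c i • ((x i, (x i).1) : Pt F φ × OC C) ∈ sp_approx F φ ρ h0 :=
    AddSubgroup.sum_mem _ fun i hi => AddSubgroup.zsmul_mem _ (h1 i hi) _
  have h3 : ∑ i ∈ s, c i • ((x i, (x i).1) : Pt F φ × OC C) =
      (∑ i ∈ s, c i • x i, ∑ i ∈ s, (c i : OC C) * (x i).1) := by
    rw [Prod.ext_iff]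
    constructor
    · rw [Prod.fst_sum]; rfl
    · rw [Prod.snd_sum]
      simp only [Prod.smul_snd, zsmul_eq_mul]
  rw [h3] at h2
  exact h2

end general

/-! ### the `p`-series -/

section ldata
variable {C : Type*} [NontriviallyNormedField C] [CompleteSpace C] [IsUltrametricDist C]
  [CharP C p]
variable (D : LData p n h r C)

theorem sp_q2 (D : LData p n h r C) : 2 ≤ p ^ n := by
  have hp := (Fact.out : p.Prime).two_le
  have hn : 1 ≤ n := by have := D.hn; have := D.hh; omega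
  calc 2 ≤ p := hp
    _ = p ^ 1 := (pow_one p).symm
    _ ≤ p ^ n := Nat.pow_le_pow_right (by omega) hn

theorem sp_charP : CharP (OC C) p := OC.charP

theorem sp_sub_pow (a b : OC C) (N : ℕ) : a ^ (p ^ N) - b ^ (p ^ N) = (a - b) ^ (p ^ N) := by
  have := sp_charP (C := C) (p := p)
  rw [sub_pow_char_pow]

theorem sp_norm_sub_pow (a b : OC C) (N : ℕ) : ‖a ^ (p ^ N) - b ^ (p ^ N)‖ = ‖a - b‖ ^ (p ^ N) := by
  rw [sp_sub_pow, sp_norm_pow]

/-- the coefficients of `[p]_{H_x}` are `ε`-close to those of `X^q` -/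
theorem sp_coeff_close (d : ℕ) : ‖PowerSeries.coeff d (mulSeries D.Hx p) -
    PowerSeries.coeff d (PowerSeries.X ^ (p ^ n) : PowerSeries (OC C))‖ ≤ D.ε := by
  let I : Ideal (OC C) :=
    { carrier := {x | ‖x‖ ≤ D.ε}
      add_mem' := fun {a b} ha hb => (sp_max a b).trans (max_le ha hb)
      zero_mem' := by
        show ‖(0 : OC C)‖ ≤ D.ε
        rw [norm_zero]; exact D.ε0
      smul_mem' := by
        intro c x hx
        show ‖c * x‖ ≤ D.ε
        rw [sp_norm_mul]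
        have h1 := OC.norm_le_one c
        have h2 : ‖x‖ ≤ D.ε := hx
        have h3 : ‖c‖ ≤ 1 := h1
        nlinarith [norm_nonneg x, norm_nonneg c] }
  let π : OC C →+* OC C ⧸ I := Ideal.Quotient.mk I
  have hF : D.Hx.map π = (D.Γ.map D.kx).map π := by
    ext1
    simp only [FormalGroup.map_toPowerSeries]
    ext d
    rw [MvPowerSeries.coeff_map, MvPowerSeries.coeff_map, MvPowerSeries.coeff_map]
    exact Ideal.Quotient.eq.2 (D.hε d)
  have h1 : PowerSeries.map π (mulSeries D.Hx p) =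
      PowerSeries.map π (PowerSeries.X ^ (p ^ n) : PowerSeries (OC C)) := by
    rw [← mulSeries_map, hF, mulSeries_map, mulSeries_map, D.Γp]
    congr 1
    rw [map_pow, PowerSeries.map_X]
  have h2 := congrArg (PowerSeries.coeff d) h1
  rw [PowerSeries.coeff_map, PowerSeries.coeff_map] at h2
  exact Ideal.Quotient.eq.1 h2

/-- `[p]w` -/
noncomputable def LData.pw (w : OC C) : OC C := ev1 (RingHom.id (OC C)) w (mulSeries D.Hx p)

theorem sp_evX_pow {R : Type*} [CommRing R] (φ : R →+* OC C) (w : OC C) (hw : ‖w‖ < 1) (k : ℕ) :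
    ev1 φ w (PowerSeries.X ^ k : PowerSeries R) = w ^ k := by
  have hz : ∀ _ : Unit, IsTopologicallyNilpotent w := fun _ =>
    (OC.isTopologicallyNilpotent_iff _).2 hw
  have h1 : ev1 φ w (PowerSeries.X ^ k : PowerSeries R) =
      evHom φ (fun _ : Unit => w) hz (PowerSeries.X ^ k : PowerSeries R) :=
    (evHom_apply φ _ hz _).symm
  rw [h1]
  erw [map_pow]
  rw [evHom_apply]
  congr 1
  exact ev1_X φ w (hz ())

theorem sp_pw_close (w : OC C) (hw : ‖w‖ < 1) : ‖D.pw w - w ^ (p ^ n)‖ ≤ D.ε := by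
  have hz : ∀ _ : Unit, IsTopologicallyNilpotent w := fun _ =>
    (OC.isTopologicallyNilpotent_iff _).2 hw
  have h1 : D.pw w - w ^ (p ^ n) = ev1 (RingHom.id (OC C)) w
      (mulSeries D.Hx p - (PowerSeries.X ^ (p ^ n) : PowerSeries (OC C))) := by
    rw [← sp_evX_pow (RingHom.id (OC C)) w hw (p ^ n)]
    show ev _ _ _ - ev _ _ _ = ev _ _ _
    rw [← evHom_apply _ _ hz, ← evHom_apply _ _ hz, ← evHom_apply _ _ hz]
    exact (map_sub _ _ _).symm
  rw [h1]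
  have h2 := OC.norm_ev1_le (RingHom.id (OC C)) w hw
    (mulSeries D.Hx p - (PowerSeries.X ^ (p ^ n) : PowerSeries (OC C))) (M := D.ε) (N := 0)
    (by
      intro d
      rw [map_sub]
      exact sp_coeff_close D d) (by intro d hd; omega)
  simpa using h2

theorem sp_pw_factor {T : Finset (OC C)} {U : PowerSeries (OC C)} (hT : D.Factor 1 T U)
    (w : OC C) (hw : ‖w‖ < 1) :
    D.pw w = ev1 (RingHom.id (OC C)) w U * ∏ τ ∈ T, (w - τ) ^ (p ^ h) := by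
  have := hT.2.2.2 w hw
  simp only [pow_one] at this
  exact this

theorem sp_card {T : Finset (OC C)} {U : PowerSeries (OC C)} (hT : D.Factor 1 T U) :
    T.card = p ^ r := by
  have := hT.1
  rwa [mul_one] at this

include D in
theorem sp_pow_total : p ^ r * p ^ h = p ^ n := by
  rw [← pow_add, ← D.hn, Nat.add_comm]

theorem sp_pow_lt {x y : ℝ} (hy : 0 ≤ y) {k : ℕ} (h : x ^ k < y ^ k) : x < y :=
  lt_of_pow_lt_pow_left₀ k hy h

variable [IsAlgClosed C]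

theorem sp_rt_norm (N : ℕ) (z : OC C) : ‖rt p N z‖ ^ (p ^ N) = ‖z‖ := by
  rw [← sp_norm_pow, rt_pow]

theorem sp_exists_near_one (p : ℕ) [Fact p.Prime] {C : Type*} [NontriviallyNormedField C]
    [CompleteSpace C] [IsUltrametricDist C] [CharP C p] [IsAlgClosed C] (δ : ℝ) (hδ : δ < 1) :
    ∃ z : OC C, δ < ‖z‖ ∧ ‖z‖ < 1 := by
  obtain ⟨c, hc0, hc1⟩ := NormedField.exists_norm_lt_one C
  let z0 : OC C := ⟨c, hc1.le⟩
  have hz0 : ‖z0‖ = ‖c‖ := rfl
  obtain ⟨k, hk⟩ := exists_pow_lt_of_lt_one hc0 (show max δ 0 < 1 from max_lt hδ one_pos)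
  have hp1 : 1 < p := (Fact.out : p.Prime).one_lt
  have hk2 : (max δ 0) ^ (p ^ k) < ‖c‖ := by
    refine lt_of_le_of_lt ?_ hk
    exact pow_le_pow_of_le_one (le_max_right _ _) (max_lt hδ one_pos).le (Nat.lt_pow_self hp1).le
  have h1 := sp_rt_norm (p := p) k z0
  rw [hz0] at h1
  refine ⟨rt p k z0, ?_, ?_⟩
  · refine lt_of_le_of_lt (le_max_left δ 0) ?_
    apply sp_pow_lt (norm_nonneg _) (k := p ^ k)
    rw [h1]; exact hk2
  · apply sp_pow_lt zero_le_one (k := p ^ k)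
    rw [h1, one_pow]; exact hc1

/-- the product over the torsion points, divided by `w^q`, is a one-unit -/
theorem sp_prod_one {T : Finset (OC C)} {U : PowerSeries (OC C)} (hT : D.Factor 1 T U) {ρ : ℝ}
    (hρ0 : 0 ≤ ρ) (hρ : ∀ τ ∈ T, ‖τ‖ ≤ ρ) (w : OC C) (hw : ρ < ‖w‖) :
    ‖(((∏ τ ∈ T, (w - τ) ^ (p ^ h) : OC C) : C) / (w : C) ^ (p ^ n)) - 1‖ < 1 := by
  have hw0 : (w : C) ≠ 0 := by
    intro h0
    have h1 : ‖w‖ = 0 := by
      show ‖(w : C)‖ = 0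
      rw [h0, norm_zero]
    rw [h1] at hw; linarith
  have h1 : (((∏ τ ∈ T, (w - τ) ^ (p ^ h) : OC C) : C) / (w : C) ^ (p ^ n)) =
      ∏ τ ∈ T, (1 - (τ : C) / (w : C)) ^ (p ^ h) := by
    rw [← sp_pow_total D, ← sp_card D hT, pow_mul, Finset.prod_pow, Finset.prod_pow]
    push_cast
    rw [← div_pow]
    congr 1
    rw [← Finset.prod_const, ← Finset.prod_div_distrib]
    apply Finset.prod_congr rfl
    intro τ _
    field_simp
  rw [h1]
  apply sp_one1_prod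
  intro τ hτ
  apply sp_one1_pow
  have h2 : (1 - (τ : C) / (w : C)) - 1 = -((τ : C) / (w : C)) := by ring
  rw [h2, norm_neg, norm_div]
  have h3 : ‖(τ : C)‖ ≤ ρ := hρ τ hτ
  have h4 : ρ < ‖(w : C)‖ := hw
  rw [div_lt_one (by linarith)]
  linarith

theorem sp_U_one {T : Finset (OC C)} {U : PowerSeries (OC C)} (hT : D.Factor 1 T U) {ρ : ℝ}
    (hρ0 : 0 ≤ ρ) (hρ1 : ρ < 1) (hρ : ∀ τ ∈ T, ‖τ‖ ≤ ρ) (w : OC C) (hw : ‖w‖ < 1) :
    ‖((ev1 (RingHom.id (OC C)) w U : OC C) : C) - 1‖ < 1 := by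
  obtain ⟨z, hz1, hz2⟩ := sp_exists_near_one p (C := C) (max D.ε ρ) (max_lt D.ε1 hρ1)
  -- choose `w1` with `‖w1‖ ^ q > ε`
  obtain ⟨w1, hw1, hw1'⟩ : ∃ w1 : OC C, w1 ^ (p ^ n) = z ∧ ‖w1‖ < 1 := by
    refine ⟨rt p n z, rt_pow n z, ?_⟩
    apply sp_pow_lt zero_le_one (k := p ^ n)
    rw [sp_rt_norm, one_pow]; exact hz2
  have hzn : ‖w1‖ ^ (p ^ n) = ‖z‖ := by rw [← sp_norm_pow, hw1]
  have hw1ρ : ρ < ‖w1‖ := by
    have h1 : ρ < ‖z‖ := lt_of_le_of_lt (le_max_right _ _) hz1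
    have h2 : ‖w1‖ ^ (p ^ n) ≤ ‖w1‖ := by
      apply pow_le_of_le_one (norm_nonneg _) hw1'.le
      have := sp_q2 D; omega
    rw [hzn] at h2
    linarith
  have hε : D.ε < ‖w1‖ ^ (p ^ n) := by
    rw [hzn]; exact lt_of_le_of_lt (le_max_left _ _) hz1
  have hw10 : (w1 : C) ≠ 0 := by
    intro h0
    have h1 : ‖w1‖ = 0 := by
      show ‖(w1 : C)‖ = 0
      rw [h0, norm_zero]
    rw [h1] at hw1ρ; linarith
  have hA := sp_prod_one D hT hρ0 hρ w1 hw1ρ
  have hB : ‖((D.pw w1 : OC C) : C) / (w1 : C) ^ (p ^ n) - 1‖ < 1 := by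
    have h1 : ((D.pw w1 : OC C) : C) / (w1 : C) ^ (p ^ n) - 1 =
        (((D.pw w1 - w1 ^ (p ^ n) : OC C)) : C) / (w1 : C) ^ (p ^ n) := by
      push_cast
      rw [sub_div, div_self (pow_ne_zero _ hw10)]
    rw [h1, norm_div, norm_pow]
    have h2 := sp_pw_close D w1 hw1'
    have h3 : ‖((D.pw w1 - w1 ^ (p ^ n) : OC C) : C)‖ ≤ D.ε := h2
    have h4 : D.ε < ‖(w1 : C)‖ ^ (p ^ n) := hε
    rw [div_lt_one (lt_of_le_of_lt D.ε0 h4)]
    exact lt_of_le_of_lt h3 h4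
  have hU1 : ‖((ev1 (RingHom.id (OC C)) w1 U : OC C) : C) - 1‖ < 1 := by
    apply sp_one1_of_mul hA
    have h1 : (((∏ τ ∈ T, (w1 - τ) ^ (p ^ h) : OC C) : C) / (w1 : C) ^ (p ^ n)) *
        ((ev1 (RingHom.id (OC C)) w1 U : OC C) : C) = ((D.pw w1 : OC C) : C) / (w1 : C) ^ (p ^ n) := by
      rw [sp_pw_factor D hT w1 hw1']
      push_cast
      ring
    rw [h1]
    exact hB
  have hL : ‖((ev1 (RingHom.id (OC C)) w U : OC C) : C) -
      ((ev1 (RingHom.id (OC C)) w1 U : OC C) : C)‖ < 1 := by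
    have h1 : ‖w - w1‖ < 1 := (sp_max_sub _ _).trans_lt (max_lt hw hw1')
    have h2 := OC.norm_ev_sub_le (RingHom.id (OC C)) (fun _ : Unit => w) (fun _ : Unit => w1)
      (fun _ => hw) (fun _ => hw1') (norm_nonneg (w - w1)) (fun _ => le_rfl) U
    exact lt_of_le_of_lt h2 h1
  have h5 : ((ev1 (RingHom.id (OC C)) w U : OC C) : C) - 1 =
      (((ev1 (RingHom.id (OC C)) w U : OC C) : C) - ((ev1 (RingHom.id (OC C)) w1 U : OC C) : C)) +
      (((ev1 (RingHom.id (OC C)) w1 U : OC C) : C) - 1) := by ring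
  rw [h5]
  exact (IsUltrametricDist.norm_add_le_max _ _).trans_lt (max_lt hL hU1)

theorem sp_U_norm {T : Finset (OC C)} {U : PowerSeries (OC C)} (hT : D.Factor 1 T U) {ρ : ℝ}
    (hρ0 : 0 ≤ ρ) (hρ1 : ρ < 1) (hρ : ∀ τ ∈ T, ‖τ‖ ≤ ρ) (w : OC C) (hw : ‖w‖ < 1) :
    ‖ev1 (RingHom.id (OC C)) w U‖ = 1 :=
  sp_one1_norm (sp_U_one D hT hρ0 hρ1 hρ w hw)

/-- (P1) -/
theorem sp_P1 {T : Finset (OC C)} {U : PowerSeries (OC C)} (hT : D.Factor 1 T U) {ρ : ℝ}
    (hρ0 : 0 ≤ ρ) (hρ1 : ρ < 1) (hρ : ∀ τ ∈ T, ‖τ‖ ≤ ρ) (w : OC C) (hw1 : ρ < ‖w‖)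
    (hw : ‖w‖ < 1) : ‖D.pw w - w ^ (p ^ n)‖ < ‖w‖ ^ (p ^ n) := by
  have hw0 : (w : C) ≠ 0 := by
    intro h0
    have h1 : ‖w‖ = 0 := by
      show ‖(w : C)‖ = 0
      rw [h0, norm_zero]
    rw [h1] at hw1; linarith
  have hA := sp_prod_one D hT hρ0 hρ w hw1
  have hU := sp_U_one D hT hρ0 hρ1 hρ w hw
  have h1 := sp_one1_mul hU hA
  have h2 : ((ev1 (RingHom.id (OC C)) w U : OC C) : C) *
      (((∏ τ ∈ T, (w - τ) ^ (p ^ h) : OC C) : C) / (w : C) ^ (p ^ n)) - 1 =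
      (((D.pw w - w ^ (p ^ n) : OC C)) : C) / (w : C) ^ (p ^ n) := by
    rw [sp_pw_factor D hT w hw]
    push_cast
    field_simp
  rw [h2, norm_div, norm_pow] at h1
  have h3 : 0 < ‖(w : C)‖ ^ (p ^ n) := pow_pos (norm_pos_iff.2 hw0) _
  rw [div_lt_one h3] at h1
  exact h1

/-- (P2) -/
theorem sp_P2 {T : Finset (OC C)} {U : PowerSeries (OC C)} (hT : D.Factor 1 T U) {ρ : ℝ}
    (hρ : ∀ τ ∈ T, ‖τ‖ ≤ ρ) (w : OC C) {s : ℝ} (hs : ρ ≤ s) (hws : ‖w‖ ≤ s)
    (hw : ‖w‖ < 1) : ‖D.pw w‖ ≤ s ^ (p ^ n) := by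
  have hs0 : 0 ≤ s := (norm_nonneg _).trans hws
  rw [sp_pw_factor D hT w hw, sp_norm_mul, sp_norm_prod]
  have h1 : ∏ τ ∈ T, ‖(w - τ) ^ (p ^ h)‖ ≤ ∏ τ ∈ T, s ^ (p ^ h) := by
    apply Finset.prod_le_prod
    · intro i _; exact norm_nonneg _
    · intro τ hτ
      rw [sp_norm_pow]
      have : ‖w - τ‖ ≤ s := (sp_max_sub _ _).trans (max_le hws ((hρ τ hτ).trans hs))
      gcongr
  rw [Finset.prod_const, ← pow_mul, sp_card D hT, Nat.mul_comm, sp_pow_total D] at h1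
  have h2 : ‖ev1 (RingHom.id (OC C)) w U‖ ≤ 1 := OC.norm_le_one _
  calc _ ≤ 1 * s ^ (p ^ n) := by gcongr
    _ = s ^ (p ^ n) := one_mul _

instance sp_instH : D.Hx.IsComm := D.Hcomm

instance sp_instG : D.Γ.IsComm := D.Γcomm

theorem sp_nsmul_H (x : Pt D.Hx (RingHom.id (OC C))) : (p • x).1 = D.pw x.1 :=
  Pt.nsmul_val p x

theorem sp_nsmul_G (x : Pt D.Γ D.kx) : (p • x).1 = x.1 ^ (p ^ n) := by
  rw [Pt.nsmul_val, D.Γp]
  exact sp_evX_pow D.kx x.1 (sp_norm_lt x) (p ^ n)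

theorem sp_pw_zero : D.pw 0 = 0 := by
  have h1 := sp_nsmul_H D 0
  rw [nsmul_zero, Pt.zero_val] at h1
  exact h1.symm

theorem sp_exists_max {T : Finset (OC C)} {U : PowerSeries (OC C)} (hT : D.Factor 1 T U) :
    ∃ ρ : ℝ, 0 < ρ ∧ ρ < 1 ∧ (∀ τ ∈ T, ‖τ‖ ≤ ρ) ∧ ∃ τ ∈ T, ‖τ‖ = ρ := by
  have hc := sp_card D hT
  have hp := (Fact.out : p.Prime).one_lt
  have h2 : 1 < T.card := by
    rw [hc]
    exact Nat.one_lt_pow (by have := D.hr; omega) hp
  obtain ⟨a, ha, b, hb, hab⟩ := Finset.one_lt_card.1 h2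
  obtain ⟨τ, hτ, hmax⟩ := Finset.exists_max_image T (fun τ => ‖τ‖) ⟨a, ha⟩
  refine ⟨‖τ‖, ?_, hT.2.1 τ hτ, hmax, τ, hτ, rfl⟩
  by_contra hle
  push Not at hle
  have h3 : ∀ c ∈ T, c = 0 := fun c hc => norm_le_zero_iff.1 ((hmax c hc).trans hle)
  exact hab ((h3 a ha).trans (h3 b hb).symm)

theorem sp_mem_iff {T : Finset (OC C)} {U : PowerSeries (OC C)} (hT : D.Factor 1 T U)
    (w : OC C) (hw : ‖w‖ < 1) : D.pw w = 0 ↔ w ∈ T := by
  obtain ⟨ρ, hρ0, hρ1, hρ, _⟩ := sp_exists_max D hT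
  have hU := sp_U_norm D hT hρ0.le hρ1 hρ w hw
  rw [sp_pw_factor D hT w hw, ← norm_eq_zero, sp_norm_mul, hU, one_mul, sp_norm_prod,
    Finset.prod_eq_zero_iff]
  have hp := (Fact.out : p.Prime).pos
  constructor
  · rintro ⟨τ, hτ, h0⟩
    rw [sp_norm_pow] at h0
    have h1 : ‖w - τ‖ = 0 := by
      exact pow_eq_zero_iff (pow_pos hp h).ne' |>.1 h0
    rw [norm_eq_zero, sub_eq_zero] at h1
    rw [h1]; exact hτ
  · intro hm
    refine ⟨w, hm, ?_⟩
    rw [sub_self, sp_norm_pow, norm_zero, zero_pow (pow_pos hp h).ne']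

/-- (P3) -/
theorem sp_P3 {T : Finset (OC C)} {U : PowerSeries (OC C)} (hT : D.Factor 1 T U) {ρ : ℝ}
    (hρ0 : 0 ≤ ρ) (hρ1 : ρ < 1) (hρ : ∀ τ ∈ T, ‖τ‖ ≤ ρ) (w : OC C) (hws : ‖w‖ ≤ ρ) :
    ‖D.pw w‖ ≤ ρ * ‖w‖ := by
  have hw : ‖w‖ < 1 := lt_of_le_of_lt hws hρ1
  have hp := (Fact.out : p.Prime).pos
  classical
  have h0 : (0 : OC C) ∈ T := (sp_mem_iff D hT 0 (by simp)).1 (sp_pw_zero D)
  have hsub : ∀ τ ∈ T, ‖(w - τ) ^ (p ^ h)‖ ≤ ‖w - τ‖ := by
    intro τ _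
    rw [sp_norm_pow]
    exact pow_le_of_le_one (norm_nonneg _) (OC.norm_le_one _) (pow_pos hp h).ne'
  have hdiff : ∀ τ ∈ T, ‖w - τ‖ ≤ ρ := fun τ hτ => (sp_max_sub _ _).trans (max_le hws (hρ τ hτ))
  rw [sp_pw_factor D hT w hw, sp_norm_mul, sp_norm_prod]
  have h1 : ∏ τ ∈ T, ‖(w - τ) ^ (p ^ h)‖ ≤ ∏ τ ∈ T, ‖w - τ‖ :=
    Finset.prod_le_prod (fun i _ => norm_nonneg _) hsub
  rw [← Finset.mul_prod_erase T (fun τ => ‖w - τ‖) h0, sub_zero] at h1
  have h2 : ∏ τ ∈ T.erase 0, ‖w - τ‖ ≤ ρ := by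
    have h3 : ∏ τ ∈ T.erase 0, ‖w - τ‖ ≤ ∏ τ ∈ T.erase 0, ρ :=
      Finset.prod_le_prod (fun i _ => norm_nonneg _)
        (fun τ hτ => hdiff τ (Finset.mem_of_mem_erase hτ))
    rw [Finset.prod_const] at h3
    refine h3.trans (pow_le_of_le_one hρ0 hρ1.le ?_)
    rw [Finset.card_erase_of_mem h0, sp_card D hT]
    have := Nat.one_lt_pow (show r ≠ 0 by have := D.hr; omega) (Fact.out : p.Prime).one_lt
    omega
  have h4 : ‖ev1 (RingHom.id (OC C)) w U‖ ≤ 1 := OC.norm_le_one _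
  calc _ ≤ 1 * (‖w‖ * ρ) := by
        apply mul_le_mul h4 (h1.trans (by gcongr)) (Finset.prod_nonneg fun _ _ => norm_nonneg _)
          zero_le_one
    _ = ρ * ‖w‖ := by ring

/-! ### norms of `ι` -/

theorem sp_norm_eq_of_close {a b : OC C} (h : ‖a - b‖ < ‖b‖) : ‖a‖ = ‖b‖ := by
  have h1 : ‖(a - b) + b‖ = max ‖a - b‖ ‖b‖ :=
    IsUltrametricDist.norm_add_eq_max_of_norm_ne_norm h.ne
  rw [sub_add_cancel, max_eq_right h.le] at h1
  exact h1

theorem sp_root_props {z : OC C} (hz : ‖z‖ < 1) :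
    ‖rt p n z‖ ^ (p ^ n) = ‖z‖ ∧ ‖rt p n z‖ < 1 := by
  have h1 := sp_rt_norm (p := p) n z
  refine ⟨h1, ?_⟩
  apply sp_pow_lt zero_le_one (k := p ^ n)
  rw [h1, one_pow]; exact hz

theorem sp_iota_root (z : OC C) (hz : ‖z‖ < 1) : D.iota z = D.pw (D.iota (rt p n z)) := by
  have h1 := D.iota_pow (z := rt p n z) (sp_root_props hz).2
  rw [rt_pow] at h1
  exact h1

/-- (I2) -/
theorem sp_I2 {T : Finset (OC C)} {U : PowerSeries (OC C)} (hT : D.Factor 1 T U) {ρ : ℝ}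
    (hρ0 : 0 < ρ) (hρ1 : ρ < 1) (hρ : ∀ τ ∈ T, ‖τ‖ ≤ ρ) (z : OC C) (hz1 : ρ ≤ ‖z‖)
    (hz : ‖z‖ < 1) : ‖D.iota z - z‖ < ‖z‖ := by
  have key : ∀ m : ℕ, ∀ z : OC C, ρ ≤ ‖z‖ → ‖z‖ < 1 → D.ε ^ ((p ^ n) ^ m) < ‖z‖ →
      ‖D.iota z - z‖ < ‖z‖ := by
    intro m
    induction m with
    | zero =>
      intro z _ hz hε
      rw [pow_zero, pow_one] at hε
      exact lt_of_le_of_lt (D.iota_sub_le hz) hε
    | succ m ih =>
      intro z hz1 hz hε
      obtain ⟨hy1, hy2⟩ := sp_root_props (p := p) (n := n) hz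
      set y := rt p n z with hy
      have hq := sp_q2 D
      have hyρ : ρ < ‖y‖ := by
        by_contra hle
        push Not at hle
        have h1 : ‖y‖ ^ (p ^ n) ≤ ρ ^ (p ^ n) := pow_le_pow_left₀ (norm_nonneg _) hle _
        have h2 : ρ ^ (p ^ n) < ρ ^ 1 := pow_lt_pow_right_of_lt_one₀ hρ0 hρ1 (by omega)
        rw [pow_one] at h2
        linarith
      have hyε : D.ε ^ ((p ^ n) ^ m) < ‖y‖ := by
        apply sp_pow_lt (norm_nonneg _) (k := p ^ n)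
        rw [hy1, ← pow_mul, ← pow_succ]
        exact hε
      have h1 := ih y hyρ.le hy2 hyε
      have h2 := sp_norm_eq_of_close h1
      have h3 : D.iota z = D.pw (D.iota y) := sp_iota_root D z hz
      have h4 := sp_P1 D hT hρ0.le hρ1 hρ (D.iota y) (by rw [h2]; exact hyρ) (by rw [h2]; exact hy2)
      rw [← h3, h2, hy1] at h4
      have h5 : ‖D.iota y ^ (p ^ n) - y ^ (p ^ n)‖ < ‖z‖ := by
        rw [sp_norm_sub_pow, ← hy1]
        exact pow_lt_pow_left₀ h1 (norm_nonneg _) (by omega)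
      have h6 : y ^ (p ^ n) = z := rt_pow n z
      rw [h6] at h5
      have h7 : D.iota z - z = (D.iota z - D.iota y ^ (p ^ n)) + (D.iota y ^ (p ^ n) - z) := by ring
      rw [h7]
      exact (sp_max _ _).trans_lt (max_lt h4 h5)
  obtain ⟨k, hk⟩ := exists_pow_lt_of_lt_one (lt_of_lt_of_le hρ0 hz1) D.ε1
  refine key k z hz1 hz ?_
  refine lt_of_le_of_lt ?_ hk
  apply pow_le_pow_of_le_one D.ε0 D.ε1.le
  exact (Nat.lt_pow_self (by have := sp_q2 D; omega)).le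

/-- (I3) -/
theorem sp_I3 {T : Finset (OC C)} {U : PowerSeries (OC C)} (hT : D.Factor 1 T U) {ρ : ℝ}
    (hρ0 : 0 < ρ) (hρ1 : ρ < 1) (hρ : ∀ τ ∈ T, ‖τ‖ ≤ ρ) (z : OC C) (hz : ‖z‖ < ρ) :
    ‖D.iota z‖ < ρ := by
  have hq := sp_q2 D
  have hρq : ρ ^ (p ^ n) < ρ := by
    have h2 : ρ ^ (p ^ n) < ρ ^ 1 := pow_lt_pow_right_of_lt_one₀ hρ0 hρ1 (by omega)
    rwa [pow_one] at h2
  have key : ∀ m : ℕ, ∀ z : OC C, ρ ^ ((p ^ n) ^ m) ≤ ‖z‖ → ‖z‖ < ρ → ‖D.iota z‖ < ρ := by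
    intro m
    induction m with
    | zero =>
      intro z h1 h2
      rw [pow_zero, pow_one] at h1
      linarith
    | succ m ih =>
      intro z h1 h2
      have hz : ‖z‖ < 1 := h2.trans hρ1
      obtain ⟨hy1, hy2⟩ := sp_root_props (p := p) (n := n) hz
      set y := rt p n z with hy
      have h3 : D.iota z = D.pw (D.iota y) := sp_iota_root D z hz
      rcases lt_or_ge ‖y‖ ρ with hlt | hge
      · have h4 : ρ ^ ((p ^ n) ^ m) ≤ ‖y‖ := by
          by_contra hcon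
          push Not at hcon
          have h5 := pow_lt_pow_left₀ hcon (norm_nonneg _) (show p ^ n ≠ 0 by omega)
          rw [hy1, ← pow_mul, ← pow_succ] at h5
          linarith
        have h5 := ih y h4 hlt
        rw [h3]
        exact (sp_P2 D hT hρ (D.iota y) le_rfl h5.le (h5.trans hρ1)).trans_lt hρq
      · have h4 := sp_norm_eq_of_close (sp_I2 D hT hρ0 hρ1 hρ y hge hy2)
        rw [h3]
        have h5 := sp_P2 D hT hρ (D.iota y) hge h4.le (by rw [h4]; exact hy2)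
        rw [hy1] at h5
        exact lt_of_le_of_lt h5 h2
  rcases eq_or_ne z 0 with h0 | h0
  · rw [h0, D.iota_zero, norm_zero]; exact hρ0
  obtain ⟨k, hk⟩ := exists_pow_lt_of_lt_one (norm_pos_iff.2 h0) hρ1
  refine key k z ?_ hz
  refine le_trans ?_ hk.le
  apply pow_le_pow_of_le_one hρ0.le hρ1.le
  exact (Nat.lt_pow_self (by omega)).le

/-- (I4) -/
theorem sp_I4 {T : Finset (OC C)} {U : PowerSeries (OC C)} (hT : D.Factor 1 T U) {ρ : ℝ}
    (hρ0 : 0 < ρ) (hρ1 : ρ < 1) (hρ : ∀ τ ∈ T, ‖τ‖ ≤ ρ) (m : ℕ) (z : OC C)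
    (hz : ‖z‖ ≤ ρ ^ ((p ^ n) ^ m)) : ‖D.iota z‖ ≤ ρ ^ (m + 1) := by
  have hq := sp_q2 D
  induction m generalizing z with
  | zero =>
    rw [pow_zero, pow_one] at hz
    rw [zero_add, pow_one]
    rcases hz.lt_or_eq with h1 | h1
    · exact (sp_I3 D hT hρ0 hρ1 hρ z h1).le
    · exact (sp_norm_eq_of_close (sp_I2 D hT hρ0 hρ1 hρ z h1.ge (h1.trans_lt hρ1))).le.trans h1.le
  | succ m ih =>
    have hz1 : ‖z‖ < 1 := lt_of_le_of_lt hz (pow_lt_one₀ hρ0.le hρ1 (pow_pos (by omega) _).ne')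
    obtain ⟨hy1, hy2⟩ := sp_root_props (p := p) (n := n) hz1
    set y := rt p n z with hy
    have h3 : D.iota z = D.pw (D.iota y) := sp_iota_root D z hz1
    have h4 : ‖y‖ ≤ ρ ^ ((p ^ n) ^ m) := by
      by_contra hcon
      push Not at hcon
      have h5 := pow_lt_pow_left₀ hcon (by positivity) (show p ^ n ≠ 0 by omega)
      rw [hy1, ← pow_mul, ← pow_succ] at h5
      linarith
    have h5 := ih y h4
    have h6 : ‖D.iota y‖ ≤ ρ := h5.trans (pow_le_of_le_one hρ0.le hρ1.le (by omega))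
    rw [h3]
    refine (sp_P3 D hT hρ0.le hρ1 hρ _ h6).trans ?_
    rw [pow_succ ρ (m+1), mul_comm]
    gcongr

/-! ### torsion subgroups and surjectivity of `ι` onto torsion -/

theorem sp_unit_norm (U : PowerSeries (OC C)) (hU : IsUnit (PowerSeries.constantCoeff U))
    (w : OC C) (hw : ‖w‖ < 1) : ‖ev1 (RingHom.id (OC C)) w U‖ = 1 := by
  have hz : ∀ _ : Unit, IsTopologicallyNilpotent w := fun _ =>
    (OC.isTopologicallyNilpotent_iff _).2 hw
  obtain ⟨u, hu⟩ := hU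
  set c0 := PowerSeries.constantCoeff U with hc0
  have hc0n : ‖c0‖ = 1 := by
    have h1 : ‖c0‖ * ‖((u⁻¹ : (OC C)ˣ) : OC C)‖ = 1 := by
      rw [← sp_norm_mul, ← hu, Units.mul_inv]
      exact norm_one (α := C)
    have h2 : ‖c0‖ ≤ 1 := OC.norm_le_one c0
    have h3 : ‖((u⁻¹ : (OC C)ˣ) : OC C)‖ ≤ 1 := OC.norm_le_one _
    have h4 := norm_nonneg c0
    have h5 := norm_nonneg ((u⁻¹ : (OC C)ˣ) : OC C)
    nlinarith
  have h1 : ev1 (RingHom.id (OC C)) w U - c0 =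
      ev1 (RingHom.id (OC C)) w (U - PowerSeries.C c0) := by
    have h2 : ev1 (RingHom.id (OC C)) w (PowerSeries.C c0 : PowerSeries (OC C)) = c0 :=
      ev_C (RingHom.id (OC C)) (fun _ : Unit => w) hz c0
    conv_lhs => rw [← h2]
    show ev _ _ _ - ev _ _ _ = ev _ _ _
    rw [← evHom_apply _ _ hz, ← evHom_apply _ _ hz, ← evHom_apply _ _ hz]
    exact (map_sub _ _ _).symm
  have h2 := OC.norm_ev1_le (RingHom.id (OC C)) w hw (U - PowerSeries.C c0) (M := 1) (N := 1)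
    (fun d => OC.norm_le_one _) (by
      intro d hd
      have : d = 0 := by omega
      subst this
      rw [map_sub, PowerSeries.coeff_zero_C, PowerSeries.coeff_zero_eq_constantCoeff_apply, hc0,
        sub_self])
  rw [← h1, one_mul, pow_one] at h2
  have h3 : ‖ev1 (RingHom.id (OC C)) w U - c0‖ < ‖c0‖ := by rw [hc0n]; exact lt_of_le_of_lt h2 hw
  rw [sp_norm_eq_of_close h3, hc0n]

/-- `p^m`-torsion -/
noncomputable def sp_Tor (m : ℕ) : AddSubgroup (Pt D.Hx (RingHom.id (OC C))) where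
  carrier := {a | p ^ m • a = 0}
  add_mem' := by
    intro a b ha hb
    show p ^ m • (a + b) = 0
    rw [nsmul_add, show p ^ m • a = 0 from ha, show p ^ m • b = 0 from hb, add_zero]
  zero_mem' := smul_zero _
  neg_mem' := by
    intro a ha
    show p ^ m • (-a) = 0
    rw [neg_nsmul, show p ^ m • a = 0 from ha, neg_zero]

theorem sp_mem_Tor (m : ℕ) (a : Pt D.Hx (RingHom.id (OC C))) :
    a ∈ sp_Tor D m ↔ p ^ m • a = 0 := Iff.rfl

theorem sp_mem_Tor_iff {m : ℕ} {T : Finset (OC C)} {U : PowerSeries (OC C)}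
    (hT : D.Factor m T U) (a : Pt D.Hx (RingHom.id (OC C))) : a ∈ sp_Tor D m ↔ a.1 ∈ T := by
  have hU := sp_unit_norm U hT.2.2.1 a.1 (sp_norm_lt a)
  have h1 : p ^ m • a = 0 ↔ (p ^ m • a).1 = 0 := by
    constructor
    · intro h; rw [h, Pt.zero_val]
    · intro h; exact Subtype.ext (h.trans Pt.zero_val.symm)
  rw [sp_mem_Tor, h1, Pt.nsmul_val, hT.2.2.2 a.1 (sp_norm_lt a), ← norm_eq_zero, sp_norm_mul, hU,
    one_mul, sp_norm_prod, Finset.prod_eq_zero_iff]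
  have hp := (Fact.out : p.Prime).pos
  constructor
  · rintro ⟨τ, hτ, h0⟩
    rw [sp_norm_pow] at h0
    have h1 : ‖a.1 - τ‖ = 0 := by
      exact pow_eq_zero_iff (pow_pos (pow_pos hp h) m).ne' |>.1 h0
    rw [norm_eq_zero, sub_eq_zero] at h1
    rw [h1]; exact hτ
  · intro hm
    refine ⟨a.1, hm, ?_⟩
    rw [sub_self, sp_norm_pow, norm_zero, zero_pow (pow_pos (pow_pos hp h) m).ne']

theorem sp_card_Tor {m : ℕ} {T : Finset (OC C)} {U : PowerSeries (OC C)}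
    (hT : D.Factor m T U) : Nat.card (sp_Tor D m) = p ^ (r * m) := by
  rw [← hT.1]
  have e : sp_Tor D m ≃ {z // z ∈ T} :=
    { toFun := fun a => ⟨a.1.1, (sp_mem_Tor_iff D hT a.1).1 a.2⟩
      invFun := fun z => ⟨sp_mk D.Hx (RingHom.id (OC C)) z.1 (hT.2.1 z.1 z.2),
        (sp_mem_Tor_iff D hT _).2 z.2⟩
      left_inv := fun a => rfl
      right_inv := fun z => rfl }
  rw [Nat.card_congr e, Nat.card_eq_fintype_card, Fintype.card_coe]

theorem sp_finite_Tor {m : ℕ} {T : Finset (OC C)} {U : PowerSeries (OC C)}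
    (hT : D.Factor m T U) : Finite (sp_Tor D m) := by
  apply Nat.finite_of_card_ne_zero
  rw [sp_card_Tor D hT]
  exact (pow_pos (Fact.out : p.Prime).pos _).ne'

theorem sp_div (hF : ∀ m, ∃ (T : Finset (OC C)) (U : PowerSeries (OC C)), D.Factor m T U)
    (m : ℕ) (a : Pt D.Hx (RingHom.id (OC C))) (ha : a ∈ sp_Tor D m) :
    ∃ b ∈ sp_Tor D (m + 1), p • b = a := by
  obtain ⟨T, U, hT⟩ := hF m
  obtain ⟨T', U', hT'⟩ := hF (m + 1)
  obtain ⟨T1, U1, hT1⟩ := hF 1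
  have := sp_finite_Tor D hT
  have := sp_finite_Tor D hT'
  let f : sp_Tor D (m + 1) →+ sp_Tor D m :=
    { toFun := fun b => ⟨p • b.1, by
        rw [sp_mem_Tor, ← mul_smul, ← pow_succ]; exact b.2⟩
      map_zero' := Subtype.ext (smul_zero _)
      map_add' := fun b c => Subtype.ext (nsmul_add _ _ _) }
  have hker : Nat.card f.ker = p ^ r := by
    have e : f.ker ≃ sp_Tor D 1 :=
      { toFun := fun b => ⟨b.1.1, by
          have := congrArg Subtype.val ((AddMonoidHom.mem_ker).1 b.2)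
          rw [sp_mem_Tor, pow_one]
          exact this⟩
        invFun := fun b => ⟨⟨b.1, by
          have h1 := b.2
          rw [sp_mem_Tor, pow_one] at h1
          rw [sp_mem_Tor, pow_succ, mul_smul, h1, nsmul_zero]⟩, by
          have h1 := b.2
          rw [sp_mem_Tor, pow_one] at h1
          exact (AddMonoidHom.mem_ker).2 (Subtype.ext h1)⟩
        left_inv := fun b => rfl
        right_inv := fun b => rfl }
    rw [Nat.card_congr e, sp_card_Tor D hT1, mul_one]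
  have hsurj : Function.Surjective f := by
    apply f.surjective_of_card_ker_le_div
    rw [hker, sp_card_Tor D hT, sp_card_Tor D hT', mul_add, mul_one, pow_add,
      Nat.mul_div_cancel_left _ (pow_pos (Fact.out : p.Prime).pos _)]
  obtain ⟨b, hb⟩ := hsurj ⟨a, ha⟩
  exact ⟨b.1, b.2, congrArg Subtype.val hb⟩

theorem sp_system (hF : ∀ m, ∃ (T : Finset (OC C)) (U : PowerSeries (OC C)), D.Factor m T U)
    (a : Pt D.Hx (RingHom.id (OC C))) (ha : a ∈ sp_Tor D 1) :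
    ∃ v : ℕ → Pt D.Hx (RingHom.id (OC C)), v 0 = a ∧ ∀ m, p • v (m + 1) = v m := by
  choose g hg1 hg2 using fun m => sp_div D hF m
  let v : (m : ℕ) → sp_Tor D (m + 1) := fun m =>
    Nat.rec ⟨a, ha⟩ (fun m b => ⟨g (m + 1) b.1 b.2, hg1 (m + 1) b.1 b.2⟩) m
  refine ⟨fun m => (v m).1, rfl, fun m => ?_⟩
  exact hg2 (m + 1) (v m).1 (v m).2

/-- (I1) surjectivity onto torsion -/
theorem sp_I1 (hF : ∀ m, ∃ (T : Finset (OC C)) (U : PowerSeries (OC C)), D.Factor m T U)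
    (a : Pt D.Hx (RingHom.id (OC C))) (ha : a ∈ sp_Tor D 1) :
    ∃ z : OC C, ‖z‖ < 1 ∧ D.iota z = a.1 := by
  obtain ⟨v, hv0, hv⟩ := sp_system D hF a ha
  have hq := sp_q2 D
  have hvp : ∀ m, D.pw (v (m + 1)).1 = (v m).1 := fun m => by rw [← sp_nsmul_H, hv]
  -- the approximating sequence
  set y : ℕ → OC C := fun m => (v m).1 ^ ((p ^ n) ^ m) with hy
  have hstep : ∀ m, ‖y (m + 1) - y m‖ ≤ D.ε ^ ((p ^ n) ^ m) := by
    intro m
    have h1 : y (m + 1) - y m = ((v (m + 1)).1 ^ (p ^ n) - (v m).1) ^ ((p ^ n) ^ m) := by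
      show (v (m + 1)).1 ^ ((p ^ n) ^ (m + 1)) - (v m).1 ^ ((p ^ n) ^ m) = _
      have e : (p ^ n) ^ (m + 1) = p ^ n * (p ^ n) ^ m := by rw [pow_succ, mul_comm]
      have e2 : (p ^ n) ^ m = p ^ (n * m) := (pow_mul p n m).symm
      rw [e, pow_mul, e2, sp_sub_pow]
    rw [h1, sp_norm_pow]
    apply pow_le_pow_left₀ (norm_nonneg _)
    rw [← hvp m, ← norm_neg, neg_sub]
    exact sp_pw_close D _ (sp_norm_lt _)
  have hmono : ∀ m, D.ε ^ ((p ^ n) ^ (m + 1)) ≤ D.ε ^ ((p ^ n) ^ m) := by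
    intro m
    apply pow_le_pow_of_le_one D.ε0 D.ε1.le
    exact Nat.pow_le_pow_right (by omega) (by omega)
  have hdiff : ∀ m k, ‖y (m + k) - y m‖ ≤ D.ε ^ ((p ^ n) ^ m) := by
    intro m k
    induction k with
    | zero => rw [add_zero, sub_self, norm_zero]; exact pow_nonneg D.ε0 _
    | succ k ih =>
      have h1 : y (m + (k + 1)) - y m = (y (m + k + 1) - y (m + k)) + (y (m + k) - y m) := by
        rw [show m + (k + 1) = m + k + 1 by ring]; ring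
      rw [h1]
      refine (sp_max _ _).trans (max_le ((hstep _).trans ?_) ih)
      have hanti : Antitone (fun m => D.ε ^ ((p ^ n) ^ m)) := antitone_nat_of_succ_le hmono
      exact hanti (Nat.le_add_right m k)
  have htend : Filter.Tendsto (fun m => D.ε ^ ((p ^ n) ^ m)) Filter.atTop (nhds 0) := by
    apply squeeze_zero (fun m => pow_nonneg D.ε0 _)
      (fun m => pow_le_pow_of_le_one D.ε0 D.ε1.le (Nat.lt_pow_self (by omega : 1 < p ^ n)).le)
    exact tendsto_pow_atTop_nhds_zero_of_lt_one D.ε0 D.ε1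
  have hcauchy : CauchySeq y := by
    apply cauchySeq_of_le_tendsto_0 (fun m => D.ε ^ ((p ^ n) ^ m)) _ htend
    intro a b N ha hb
    obtain ⟨k, rfl⟩ := Nat.exists_eq_add_of_le ha
    obtain ⟨l, rfl⟩ := Nat.exists_eq_add_of_le hb
    rw [dist_eq_norm]
    have h1 : y (N + k) - y (N + l) = (y (N + k) - y N) - (y (N + l) - y N) := by ring
    rw [h1]
    exact (sp_max_sub _ _).trans (max_le (hdiff _ _) (hdiff _ _))
  obtain ⟨z, hz⟩ := cauchySeq_tendsto_of_complete hcauchy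
  have hzy : ∀ m, ‖z - y m‖ ≤ D.ε ^ ((p ^ n) ^ m) := by
    intro m
    have h1 : Filter.Tendsto (fun k => ‖y (m + k) - y m‖) Filter.atTop (nhds ‖z - y m‖) := by
      have h2 : Filter.Tendsto (fun k => y (m + k)) Filter.atTop (nhds z) := by
        have := (Filter.tendsto_add_atTop_iff_nat m).2 hz
        simpa [add_comm] using this
      exact (h2.sub_const _).norm
    exact le_of_tendsto h1 (Filter.Eventually.of_forall (hdiff m))
  have hz1 : ‖z‖ < 1 := by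
    have h1 : z = (z - y 0) + y 0 := by ring
    rw [h1]
    refine (sp_max _ _).trans_lt (max_lt ((hzy 0).trans_lt ?_) ?_)
    · rw [pow_zero, pow_one]; exact D.ε1
    · rw [hy]; simp only [pow_zero, pow_one]; exact sp_norm_lt _
  -- the roots
  have hpow : ∀ m, (p ^ n) ^ m = p ^ (n * m) := fun m => (pow_mul p n m).symm
  set zm : ℕ → OC C := fun m => rt p (n * m) z with hzm
  have hzm_pow : ∀ m, zm m ^ (p ^ (n * m)) = z := fun m => rt_pow _ _
  have hzm_succ : ∀ m, zm (m + 1) ^ (p ^ n) = zm m := by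
    intro m
    refine (rt_unique (n * m) z _ ?_).symm
    rw [← pow_mul, ← pow_add, show n + n * m = n * (m + 1) by ring]
    exact hzm_pow (m + 1)
  have hzm_lt : ∀ m, ‖zm m‖ < 1 := by
    intro m
    apply sp_pow_lt zero_le_one (k := p ^ (n * m))
    rw [← sp_norm_pow, hzm_pow, one_pow]; exact hz1
  have hzv : ∀ m, ‖zm m - (v m).1‖ ≤ D.ε := by
    intro m
    have h1 : ‖zm m - (v m).1‖ ^ (p ^ (n * m)) ≤ D.ε ^ (p ^ (n * m)) := by
      rw [← sp_norm_sub_pow, hzm_pow, ← hpow]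
      exact hzy m
    exact le_of_pow_le_pow_left₀ (pow_pos (Fact.out : p.Prime).pos _).ne' D.ε0 h1
  have hzm0 : zm 0 = z := by
    have := hzm_pow 0
    rwa [mul_zero, pow_zero, pow_one] at this
  refine ⟨z, hz1, ?_⟩
  have h1 := D.contraction (fun m => D.iota (zm m)) (fun m => (v m).1) (fun m => D.iota_lt (hzm_lt m))
    (fun m => sp_norm_lt _) (fun m => by
      have := D.iota_pow (hzm_lt (m + 1))
      rw [hzm_succ] at this
      exact this.symm) (fun m => hvp m) D.ε1 (fun m => by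
      have h2 : D.iota (zm m) - (v m).1 = (D.iota (zm m) - zm m) + (zm m - (v m).1) := by ring
      rw [h2]
      exact (sp_max _ _).trans (max_le (D.iota_sub_le (hzm_lt m)) (hzv m)))
  simp only [hzm0, hv0] at h1
  exact h1

/-! ### `ι` as a homomorphism, combinations -/

/-- `ι` on points -/
noncomputable def sp_iotaPt (z : Pt D.Γ D.kx) : Pt D.Hx (RingHom.id (OC C)) :=
  sp_mk D.Hx (RingHom.id (OC C)) (D.iota z.1) (D.iota_lt (sp_norm_lt z))

theorem sp_iotaPt_val (z : Pt D.Γ D.kx) : (sp_iotaPt D z).1 = D.iota z.1 := rfl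

theorem sp_iotaPt_add (a b : Pt D.Γ D.kx) :
    sp_iotaPt D (a + b) = sp_iotaPt D a + sp_iotaPt D b := by
  have h1 : (sp_iotaPt D (a + b)).1 = D.iota (op D.Γ D.kx a.1 b.1) := by
    rw [sp_iotaPt_val]
    exact congrArg D.iota (Pt.add_val a b)
  have h2 : (sp_iotaPt D a + sp_iotaPt D b).1 =
      op D.Hx (RingHom.id (OC C)) (D.iota a.1) (D.iota b.1) := by
    rw [Pt.add_val, sp_iotaPt_val, sp_iotaPt_val]
  have h3 : (sp_iotaPt D (a + b)).1 = (sp_iotaPt D a + sp_iotaPt D b).1 := by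
    rw [h1, h2]
    exact D.iota_op (sp_norm_lt a) (sp_norm_lt b)
  exact Subtype.ext h3

theorem sp_iotaPt_zero : sp_iotaPt D 0 = 0 := by
  have h1 := sp_iotaPt_add D 0 0
  rw [add_zero] at h1
  exact left_eq_add.1 h1

noncomputable def sp_iotaHom : Pt D.Γ D.kx →+ Pt D.Hx (RingHom.id (OC C)) where
  toFun := sp_iotaPt D
  map_zero' := sp_iotaPt_zero D
  map_add' := sp_iotaPt_add D

theorem sp_iotaHom_val (z : Pt D.Γ D.kx) : (sp_iotaHom D z).1 = D.iota z.1 := rfl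

theorem sp_combo_lt {R : Type*} [CommRing R] {F : FormalGroup R} [F.IsComm] {φ : R →+* OC C}
    {ι : Type*} (s : Finset ι) (x : ι → Pt F φ) {ρ : ℝ} (h0 : 0 < ρ) (h1 : ρ < 1)
    (hx : ∀ i ∈ s, ‖(x i).1‖ ≤ ρ) (c : ι → ℤ) :
    ‖(∑ i ∈ s, c i • x i).1‖ < ρ ↔ ‖∑ i ∈ s, (c i : OC C) * (x i).1‖ < ρ := by
  have h2 := (sp_combo s x h0.le hx c).2
  have h3 : ρ ^ 2 < ρ := by nlinarith
  constructor
  · intro h
    have h4 : ∑ i ∈ s, (c i : OC C) * (x i).1 = (∑ i ∈ s, c i • x i).1 -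
      ((∑ i ∈ s, c i • x i).1 - ∑ i ∈ s, (c i : OC C) * (x i).1) := by ring
    rw [h4]
    exact (sp_max_sub _ _).trans_lt (max_lt h (h2.trans_lt h3))
  · intro h
    have h4 : (∑ i ∈ s, c i • x i).1 = ∑ i ∈ s, (c i : OC C) * (x i).1 +
      ((∑ i ∈ s, c i • x i).1 - ∑ i ∈ s, (c i : OC C) * (x i).1) := by ring
    rw [h4]
    exact (sp_max _ _).trans_lt (max_lt h (h2.trans_lt h3))

theorem sp_pow_combo {ι : Type*} (s : Finset ι) (x : ι → OC C) (c : ι → ℤ) (N : ℕ) :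
    ∑ i ∈ s, (c i : OC C) * x i ^ (p ^ N) = (∑ i ∈ s, (c i : OC C) * x i) ^ (p ^ N) := by
  have := sp_charP (C := C) (p := p)
  have h1 : ∀ y : OC C, iterateFrobenius (OC C) p N y = y ^ (p ^ N) := fun y =>
    iterateFrobenius_def p N y
  rw [← h1, map_sum]
  apply Finset.sum_congr rfl
  intro i _
  rw [map_mul, h1 (x i), map_intCast]

/-! ### the vector space of `p`-torsion points -/

noncomputable instance sp_modTor : Module (ZMod p) (sp_Tor D 1) :=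
  AddCommGroup.zmodModule (n := p) (fun x => Subtype.ext (by
    have h1 := x.2
    rw [sp_mem_Tor, pow_one] at h1
    exact h1))

theorem sp_finrank_Tor {T : Finset (OC C)} {U : PowerSeries (OC C)} (hT : D.Factor 1 T U) :
    Module.finrank (ZMod p) (sp_Tor D 1) = r := by
  have := sp_finite_Tor D hT
  have h1 := Module.natCard_eq_pow_finrank (K := ZMod p) (V := sp_Tor D 1)
  rw [sp_card_Tor D hT, Nat.card_zmod, mul_one] at h1
  exact (Nat.pow_right_injective (Fact.out : p.Prime).two_le h1).symm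

/-- torsion points of norm `< ρ` -/
noncomputable def sp_W0 {ρ : ℝ} (hρ : 0 < ρ) : Submodule (ZMod p) (sp_Tor D 1) :=
  AddSubgroup.toZModSubmodule p
    { carrier := {a | ‖a.1.1‖ < ρ}
      add_mem' := by
        intro a b ha hb
        have h1 : ‖(a.1 + b.1).1‖ ≤ max ‖a.1.1‖ ‖b.1.1‖ :=
          sp_norm_add_le (le_max_left _ _) (le_max_right _ _)
        exact lt_of_le_of_lt h1 (max_lt ha hb)
      zero_mem' := by
        show ‖(0 : Pt D.Hx (RingHom.id (OC C))).1‖ < ρ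
        rw [Pt.zero_val, norm_zero]; exact hρ
      neg_mem' := by
        intro a ha
        show ‖(-a.1).1‖ < ρ
        rw [sp_norm_neg]; exact ha }

theorem sp_mem_W0 {ρ : ℝ} (hρ : 0 < ρ) (a : sp_Tor D 1) : a ∈ sp_W0 D hρ ↔ ‖a.1.1‖ < ρ := Iff.rfl

theorem sp_card_W0 {T : Finset (OC C)} {U : PowerSeries (OC C)} (hT : D.Factor 1 T U)
    {ρ : ℝ} (hρ : 0 < ρ) :
    (T.filter (fun τ => ‖τ‖ < ρ)).card = p ^ Module.finrank (ZMod p) (sp_W0 D hρ) := by
  have := sp_finite_Tor D hT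
  have h1 := Module.natCard_eq_pow_finrank (K := ZMod p) (V := sp_W0 D hρ)
  rw [Nat.card_zmod] at h1
  rw [← h1]
  have e : sp_W0 D hρ ≃ {z // z ∈ T.filter (fun τ => ‖τ‖ < ρ)} :=
    { toFun := fun a => ⟨a.1.1.1, Finset.mem_filter.2
        ⟨(sp_mem_Tor_iff D hT a.1.1).1 a.1.2, a.2⟩⟩
      invFun := fun z => ⟨⟨sp_mk D.Hx (RingHom.id (OC C)) z.1
        (hT.2.1 z.1 (Finset.mem_filter.1 z.2).1),
        (sp_mem_Tor_iff D hT _).2 (Finset.mem_filter.1 z.2).1⟩, (Finset.mem_filter.1 z.2).2⟩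
      left_inv := fun a => rfl
      right_inv := fun z => rfl }
  rw [Nat.card_congr e, Nat.card_eq_fintype_card, Fintype.card_coe]

theorem sp_zsmul_eq (a : ℤ) (x : sp_Tor D 1) : ((a : ZMod p)) • x = a • x :=
  Int.cast_smul_eq_zsmul (ZMod p) a x

/-- norms of preimages of torsion points -/
theorem sp_norm_le_of_tor {T : Finset (OC C)} {U : PowerSeries (OC C)} (hT : D.Factor 1 T U)
    {ρ : ℝ} (hρ0 : 0 < ρ) (hρ1 : ρ < 1) (hρ : ∀ τ ∈ T, ‖τ‖ ≤ ρ) (w : Pt D.Γ D.kx)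
    (hw : sp_iotaHom D w ∈ sp_Tor D 1) : ‖w.1‖ ≤ ρ := by
  by_contra hlt
  push Not at hlt
  have h1 := sp_norm_eq_of_close (sp_I2 D hT hρ0 hρ1 hρ w.1 hlt.le (sp_norm_lt w))
  have h2 := hρ _ ((sp_mem_Tor_iff D hT _).1 hw)
  have h3 : (sp_iotaHom D w).1 = D.iota w.1 := rfl
  rw [h3, h1] at h2
  linarith

theorem sp_norm_eq_of_tor {T : Finset (OC C)} {U : PowerSeries (OC C)} (hT : D.Factor 1 T U)
    {ρ : ℝ} (hρ0 : 0 < ρ) (hρ1 : ρ < 1) (hρ : ∀ τ ∈ T, ‖τ‖ ≤ ρ) (w : Pt D.Γ D.kx)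
    (hw : sp_iotaHom D w ∈ sp_Tor D 1) (hw2 : ⟨sp_iotaHom D w, hw⟩ ∉ sp_W0 D hρ0) :
    ‖w.1‖ = ρ := by
  refine le_antisymm (sp_norm_le_of_tor D hT hρ0 hρ1 hρ w hw) ?_
  by_contra hlt
  push Not at hlt
  exact hw2 (sp_I3 D hT hρ0 hρ1 hρ w.1 hlt)

/-- residual independence of the `t_i` -/
theorem sp_resindep {T : Finset (OC C)} {U : PowerSeries (OC C)} (hT : D.Factor 1 T U)
    {ρ : ℝ} (hρ0 : 0 < ρ) (hρ1 : ρ < 1) (hρ : ∀ τ ∈ T, ‖τ‖ ≤ ρ) (d : ℕ)
    (σ : Fin d → sp_Tor D 1)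
    (hσ : ∀ c : Fin d → ZMod p, ∑ i, c i • σ i ∈ sp_W0 D hρ0 → ∀ i, c i = 0)
    (w : Fin d → Pt D.Γ D.kx) (hw : ∀ i, sp_iotaHom D (w i) = (σ i).1) :
    (∀ i, ‖(w i).1‖ = ρ) ∧
    ∀ a : Fin d → ℤ, ‖(∑ i, a i • w i).1‖ < ρ → ∀ i, (p : ℤ) ∣ a i := by
  have key : ∀ a : Fin d → ℤ, ‖(∑ i, a i • w i).1‖ < ρ → ∀ i, (p : ℤ) ∣ a i := by
    intro a ha i
    have h1 : sp_iotaHom D (∑ i, a i • w i) = (∑ i, (a i : ZMod p) • σ i : sp_Tor D 1).1 := by
      rw [map_sum]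
      have h2 : (∑ i, (a i : ZMod p) • σ i : sp_Tor D 1).1 = ∑ i, a i • (σ i).1 := by
        rw [AddSubgroup.val_finsetSum]
        apply Finset.sum_congr rfl
        intro j _
        rw [sp_zsmul_eq]; rfl
      rw [h2]
      apply Finset.sum_congr rfl
      intro j _
      rw [map_zsmul, hw]
    have h3 : (∑ i, (a i : ZMod p) • σ i) ∈ sp_W0 D hρ0 := by
      rw [sp_mem_W0, ← h1]
      exact sp_I3 D hT hρ0 hρ1 hρ _ ha
    have h4 := hσ _ h3 i
    exact (ZMod.intCast_zmod_eq_zero_iff_dvd (a i) p).1 h4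
  refine ⟨fun i => ?_, key⟩
  apply sp_norm_eq_of_tor D hT hρ0 hρ1 hρ (w i) (by rw [hw i]; exact (σ i).2)
  intro hmem
  have h1 : ∑ j, (Pi.single i (1 : ZMod p) : Fin d → ZMod p) j • σ j ∈ sp_W0 D hρ0 := by
    have h2 : ∑ j, (Pi.single i (1 : ZMod p) : Fin d → ZMod p) j • σ j = σ i := by
      rw [Finset.sum_eq_single i]
      · rw [Pi.single_eq_same, one_smul]
      · intro j _ hj
        rw [Pi.single_eq_of_ne hj, zero_smul]
      · intro h; exact absurd (Finset.mem_univ i) h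
    rw [h2, sp_mem_W0]
    rw [sp_mem_W0] at hmem
    rw [← hw i]
    exact hmem
  have h2 := hσ _ h1 i
  rw [Pi.single_eq_same] at h2
  exact one_ne_zero h2

theorem sp_resIndep_of {d : ℕ} {ρ : ℝ} (hρ0 : 0 < ρ) (hρ1 : ρ < 1) (w : Fin d → Pt D.Γ D.kx)
    (hw : ∀ i, ‖(w i).1‖ = ρ)
    (h : ∀ a : Fin d → ℤ, ‖(∑ i, a i • w i).1‖ < ρ → ∀ i, (p : ℤ) ∣ a i)
    (s : Fin d → OC C) (hs : ∀ i, s i = (w i).1 ^ (p ^ n)) :
    (∀ i, ‖s i‖ = ρ ^ (p ^ n)) ∧ ∀ a : Fin d → ℤ, ‖∑ i, (a i : C) * (s i : C)‖ < ρ ^ (p ^ n) →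
      ∀ i, (p : ℤ) ∣ a i := by
  refine ⟨fun i => by rw [hs, sp_norm_pow, hw], ?_⟩
  intro a ha
  apply h a
  rw [sp_combo_lt Finset.univ w hρ0 hρ1 (fun i _ => (hw i).le) a]
  have h1 : ∑ i, (a i : C) * (s i : C) = ((∑ i, (a i : OC C) * (s i) : OC C) : C) := by
    push_cast; rfl
  rw [h1] at ha
  have h2 : ‖∑ i, (a i : OC C) * s i‖ < ρ ^ (p ^ n) := ha
  have h3 : ∑ i, (a i : OC C) * s i = ∑ i, (a i : OC C) * (w i).1 ^ (p ^ n) :=
    Finset.sum_congr rfl fun i _ => by rw [hs]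
  rw [h3, sp_pow_combo, sp_norm_pow] at h2
  exact sp_pow_lt hρ0.le h2

theorem sp_build (hF : ∀ m, ∃ (T : Finset (OC C)) (U : PowerSeries (OC C)), D.Factor m T U)
    {T : Finset (OC C)} {U : PowerSeries (OC C)} (hT : D.Factor 1 T U) (d : ℕ) (hd : d + 1 ≤ r)
    (σ : Fin d → sp_Tor D 1) (hσ : LinearIndependent (ZMod p) σ) (w0 : Fin d → Pt D.Γ D.kx)
    (hw0 : ∀ i, sp_iotaHom D (w0 i) = (σ i).1) (wd : Pt D.Γ D.kx)
    (hwd : sp_iotaHom D wd ∈ sp_Tor D 1)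
    (hwd2 : ⟨sp_iotaHom D wd, hwd⟩ ∉ Submodule.span (ZMod p) (Set.range σ)) :
    ∃ t : Fin r → OC C, D.TBasis t ∧ (∀ i, t i ≠ 0) ∧
      (∀ (i : Fin r) (hi : (i : ℕ) < d), t i = (w0 ⟨i, hi⟩).1 ^ (p ^ n)) ∧
      (∀ i : Fin r, (i : ℕ) = d → t i = wd.1 ^ (p ^ n)) := by
  have := sp_finite_Tor D hT
  obtain ⟨σ', h1, h2, h3, h4⟩ := sp_linB (K := ZMod p) d r hd (sp_finrank_Tor D hT) σ hσ
    ⟨sp_iotaHom D wd, hwd⟩ hwd2
  have hex : ∀ i : Fin r, ∃ w : Pt D.Γ D.kx, sp_iotaHom D w = (σ' i).1 ∧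
      (∀ hi : (i : ℕ) < d, w = w0 ⟨i, hi⟩) ∧ ((i : ℕ) = d → w = wd) := by
    intro i
    rcases lt_trichotomy (i : ℕ) d with hi | hi | hi
    · exact ⟨w0 ⟨i, hi⟩, by rw [hw0, h1 i hi], fun _ => rfl, fun h => by omega⟩
    · exact ⟨wd, by rw [h2 i hi], fun h => by omega, fun _ => rfl⟩
    · obtain ⟨z, hz, hz2⟩ := sp_I1 D hF (σ' i).1 (σ' i).2
      exact ⟨sp_mk D.Γ D.kx z hz, Subtype.ext hz2, fun h => by omega, fun h => by omega⟩
  choose w hw1 hw2 hw3 using hex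
  have hq := sp_q2 D
  have hval : ∀ i, D.iota (w i).1 = (σ' i).1.1 := fun i => congrArg Subtype.val (hw1 i)
  have hrt : ∀ i, rt p n ((w i).1 ^ (p ^ n)) = (w i).1 := fun i => rt_unique n _ _ rfl
  refine ⟨fun i => (w i).1 ^ (p ^ n), ⟨?_, ?_, ?_⟩, ?_, ?_, ?_⟩
  · intro i
    rw [sp_norm_pow]
    exact pow_lt_one₀ (norm_nonneg _) (sp_norm_lt _) (by omega)
  · intro i
    rw [D.iota_pow (sp_norm_lt (w i)), hval]
    have h5 := (σ' i).2
    rw [sp_mem_Tor, pow_one] at h5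
    have h6 := sp_nsmul_H D (σ' i).1
    rw [h5, Pt.zero_val] at h6
    exact h6.symm
  · intro Q hQ0 hQt hQadd a ha hpa
    have hmem : sp_mk D.Hx (RingHom.id (OC C)) a ha ∈ sp_Tor D 1 := by
      rw [sp_mem_Tor, pow_one]
      apply Subtype.ext
      rw [Pt.zero_val]
      exact (sp_nsmul_H D _).trans hpa
    have hPadd : ∀ x y : sp_Tor D 1, Q x.1.1 → Q y.1.1 → Q (x + y).1.1 := by
      intro x y hx hy
      have h5 : (x + y).1.1 = op D.Hx (RingHom.id (OC C)) x.1.1 y.1.1 := Pt.add_val x.1 y.1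
      rw [h5]
      exact hQadd _ _ (sp_norm_lt _) (sp_norm_lt _) hx hy
    have hP0 : Q (0 : sp_Tor D 1).1.1 := by
      have h5 : (0 : sp_Tor D 1).1.1 = 0 := Pt.zero_val
      rw [h5]; exact hQ0
    have hPn : ∀ (k : ℕ) (x : sp_Tor D 1), Q x.1.1 → Q (k • x).1.1 := by
      intro k x hx
      induction k with
      | zero => rw [zero_smul]; exact hP0
      | succ k ih => rw [succ_nsmul]; exact hPadd _ _ ih hx
    have hall : ∀ x : sp_Tor D 1, Q x.1.1 := by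
      intro x
      have hx : x ∈ Submodule.span (ZMod p) (Set.range σ') := by rw [h4]; trivial
      induction hx using Submodule.span_induction with
      | mem x hx =>
        obtain ⟨i, rfl⟩ := hx
        have h5 := hQt i
        rw [hrt, hval] at h5
        exact h5
      | zero => exact hP0
      | add x y _ _ hx hy => exact hPadd x y hx hy
      | smul c x _ hx =>
        have h5 : c • x = c.val • x := by
          conv_lhs => rw [← ZMod.natCast_zmod_val c]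
          exact Nat.cast_smul_eq_nsmul (ZMod p) c.val x
        rw [h5]
        exact hPn _ _ hx
    exact hall ⟨_, hmem⟩
  · intro i h0
    have h5 : (w i).1 = 0 := by
      have h6 := sp_norm_pow (w i).1 (p ^ n)
      simp only at h0
      rw [h0, norm_zero] at h6
      exact norm_eq_zero.1 ((pow_eq_zero_iff (by omega)).1 h6.symm)
    have h6 := hval i
    rw [h5, D.iota_zero] at h6
    apply h3 i
    apply Subtype.ext
    apply Subtype.ext
    exact h6.symm.trans Pt.zero_val.symm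
  · intro i hi
    simp only [hw2 i hi]
  · intro i hi
    simp only [hw3 i hi]

/-- the dichotomy for the last vector -/
theorem sp_dichotomy (hF : ∀ m, ∃ (T : Finset (OC C)) (U : PowerSeries (OC C)), D.Factor m T U)
    {T : Finset (OC C)} {U : PowerSeries (OC C)} (hT : D.Factor 1 T U)
    {ρ : ℝ} (hρ0 : 0 < ρ) (hρ1 : ρ < 1) (hρ : ∀ τ ∈ T, ‖τ‖ ≤ ρ) (d : ℕ) (hd : d + 1 ≤ r)
    (σ : Fin d → sp_Tor D 1)
    (hσ : ∀ c : Fin d → ZMod p, ∑ i, c i • σ i ∈ sp_W0 D hρ0 → ∀ i, c i = 0)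
    (w0 : Fin d → Pt D.Γ D.kx) (hw0 : ∀ i, sp_iotaHom D (w0 i) = (σ i).1) :
    ∃ (wd : Pt D.Γ D.kx) (hwd : sp_iotaHom D wd ∈ sp_Tor D 1),
      ⟨sp_iotaHom D wd, hwd⟩ ∉ Submodule.span (ZMod p) (Set.range σ) ∧
      ((∀ e e' : ℕ, (‖wd.1‖ ^ (p ^ n)) ^ ((p ^ n) ^ e) ≠ (ρ ^ (p ^ n)) ^ ((p ^ n) ^ e')) ∨
        ∃ (e : ℕ) (y : Pt D.Γ D.kx), y.1 ^ ((p ^ n) ^ e) = wd.1 ∧ ‖y.1‖ = ρ ∧
          ∀ (a : Fin d → ℤ) (c : ℤ), ‖(∑ i, a i • w0 i + c • y).1‖ < ρ →
            (∀ i, (p : ℤ) ∣ a i) ∧ (p : ℤ) ∣ c) := by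
  have hfin := sp_finite_Tor D hT
  have hq := sp_q2 D
  obtain ⟨hn0, hres⟩ := sp_resindep D hT hρ0 hρ1 hρ d σ hσ w0 hw0
  set S := Submodule.span (ZMod p) (Set.range σ) with hS
  let N : Set (Pt D.Γ D.kx) := {w | ∃ h : sp_iotaHom D w ∈ sp_Tor D 1,
    (⟨sp_iotaHom D w, h⟩ : sp_Tor D 1) ∉ S}
  -- `N` is nonempty
  have hNne : ∃ w, w ∈ N := by
    have h1 : S ≠ ⊤ := by
      intro htop
      have h2 : Module.finrank (ZMod p) S ≤ d := by
        have := finrank_range_le_card (R := ZMod p) σ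
        rwa [Fintype.card_fin] at this
      rw [htop, finrank_top, sp_finrank_Tor D hT] at h2
      omega
    obtain ⟨v, hv⟩ : ∃ v, v ∉ S := by
      by_contra hcon
      push Not at hcon
      exact h1 (Submodule.eq_top_iff'.2 hcon)
    obtain ⟨z, hz, hz2⟩ := sp_I1 D hF v.1 v.2
    have h3 : sp_iotaHom D (sp_mk D.Γ D.kx z hz) = v.1 := Subtype.ext hz2
    refine ⟨sp_mk D.Γ D.kx z hz, by rw [h3]; exact v.2, ?_⟩
    intro hmem
    apply hv
    have h4 : (⟨sp_iotaHom D (sp_mk D.Γ D.kx z hz), by rw [h3]; exact v.2⟩ : sp_Tor D 1) = v :=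
      Subtype.ext h3
    rw [h4] at hmem
    exact hmem
  by_cases hA : ∃ w ∈ N, ∀ e e' : ℕ, (‖w.1‖ ^ (p ^ n)) ^ ((p ^ n) ^ e) ≠
      (ρ ^ (p ^ n)) ^ ((p ^ n) ^ e')
  · obtain ⟨w, ⟨hw, hw2⟩, hw3⟩ := hA
    exact ⟨w, hw, hw2, Or.inl hw3⟩
  push Not at hA
  -- norms on `N`
  have hnorm : ∀ w ∈ N, ∃ E : ℕ, ‖w.1‖ = ρ ^ ((p ^ n) ^ E) := by
    intro w hw
    obtain ⟨e, e', he⟩ := hA w hw
    have hle := sp_norm_le_of_tor D hT hρ0 hρ1 hρ w hw.1
    have hpp : ∀ (x : ℝ) (k : ℕ), (x ^ (p ^ n)) ^ ((p ^ n) ^ k) = x ^ ((p ^ n) ^ (k + 1)) := by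
      intro x k
      rw [pow_succ' (p ^ n) k, pow_mul]
    rw [hpp, hpp] at he
    have hee : e ≤ e' := by
      by_contra hlt
      push Not at hlt
      have h1 : ρ ^ ((p ^ n) ^ (e + 1)) < ρ ^ ((p ^ n) ^ (e' + 1)) := by
        apply pow_lt_pow_right_of_lt_one₀ hρ0 hρ1
        exact Nat.pow_lt_pow_right (by omega) (by omega)
      rw [← he] at h1
      have h2 := pow_le_pow_left₀ (norm_nonneg _) hle ((p ^ n) ^ (e + 1))
      linarith
    refine ⟨e' - e, ?_⟩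
    have h3 : (ρ ^ ((p ^ n) ^ (e' - e))) ^ ((p ^ n) ^ (e + 1)) = ρ ^ ((p ^ n) ^ (e' + 1)) := by
      rw [← pow_mul, ← pow_add]
      congr 2
      omega
    rw [← h3] at he
    exact (pow_left_inj₀ (norm_nonneg _) (by positivity)
      (pow_pos (by omega : 0 < p ^ n) _).ne').1 he
  -- the exponents are bounded
  let EE : Set ℕ := {E | ∃ w ∈ N, ‖w.1‖ = ρ ^ ((p ^ n) ^ E)}
  have hEEne : EE.Nonempty := by
    obtain ⟨w, hw⟩ := hNne
    obtain ⟨E, hE⟩ := hnorm w hw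
    exact ⟨E, w, hw, hE⟩
  have hEEb : BddAbove EE := by
    obtain ⟨μ, hμ0, hμ⟩ : ∃ μ : ℝ, 0 < μ ∧ ∀ τ ∈ T, τ ≠ 0 → μ ≤ ‖τ‖ := by
      classical
      rcases (T.filter (fun τ => τ ≠ 0)).eq_empty_or_nonempty with h0 | h0
      · refine ⟨1, one_pos, fun τ hτ hne => ?_⟩
        exfalso
        have h1 : τ ∈ T.filter (fun τ => τ ≠ 0) := Finset.mem_filter.2 ⟨hτ, hne⟩
        rw [h0] at h1
        simp at h1
      · obtain ⟨τ0, hτ0, hmin⟩ := Finset.exists_min_image _ (fun τ => ‖τ‖) h0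
        exact ⟨‖τ0‖, norm_pos_iff.2 (Finset.mem_filter.1 hτ0).2,
          fun τ hτ hne => hmin τ (Finset.mem_filter.2 ⟨hτ, hne⟩)⟩
    obtain ⟨M, hM⟩ := exists_pow_lt_of_lt_one hμ0 hρ1
    refine ⟨M, ?_⟩
    rintro E ⟨w, hw, hE⟩
    by_contra hlt
    push Not at hlt
    have h1 := sp_I4 D hT hρ0 hρ1 hρ E w.1 hE.le
    have h2 : D.iota w.1 ∈ T := (sp_mem_Tor_iff D hT _).1 hw.1
    have h3 : D.iota w.1 ≠ 0 := by
      intro h0
      obtain ⟨hw1, hw2⟩ := hw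
      apply hw2
      have h4 : (⟨sp_iotaHom D w, hw1⟩ : sp_Tor D 1) = 0 := by
        apply Subtype.ext
        apply Subtype.ext
        exact h0.trans Pt.zero_val.symm
      rw [h4]
      exact Submodule.zero_mem _
    have h4 := hμ _ h2 h3
    have h5 : ρ ^ (E + 1) ≤ ρ ^ M := pow_le_pow_of_le_one hρ0.le hρ1.le (by omega)
    linarith
  obtain ⟨w, hwN, hwE⟩ := Nat.sSup_mem hEEne hEEb
  set E := sSup EE with hEdef
  have hEmax : ∀ E' ∈ EE, E' ≤ E := fun E' hE' => le_csSup hEEb hE'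
  obtain ⟨hw1, hw2⟩ := hwN
  refine ⟨w, hw1, hw2, Or.inr ?_⟩
  have hpow : (p ^ n) ^ E = p ^ (n * E) := (pow_mul p n E).symm
  have hyn : ‖rt p (n * E) w.1‖ = ρ := by
    have h1 := sp_rt_norm (p := p) (n * E) w.1
    rw [hwE, hpow] at h1
    exact (pow_left_inj₀ (norm_nonneg _) hρ0.le (pow_pos (Fact.out : p.Prime).pos _).ne').1 h1
  let y : Pt D.Γ D.kx := sp_mk D.Γ D.kx (rt p (n * E) w.1) (by rw [hyn]; exact hρ1)
  have hy1 : y.1 ^ ((p ^ n) ^ E) = w.1 := by rw [hpow]; exact rt_pow _ _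
  have hpE : ∀ (k : ℕ) (x : Pt D.Γ D.kx), (p ^ k • x).1 = x.1 ^ ((p ^ n) ^ k) := by
    intro k x
    induction k with
    | zero => simp
    | succ k ih =>
      rw [pow_succ', mul_smul, sp_nsmul_G, ih, ← pow_mul, pow_succ]
  have hyw : p ^ E • y = w := Subtype.ext ((hpE E y).trans hy1)
  refine ⟨E, y, hy1, hyn, ?_⟩
  intro a c hac
  by_cases hpc : (p : ℤ) ∣ c
  · refine ⟨?_, hpc⟩
    apply hres a
    rw [sp_combo_lt Finset.univ w0 hρ0 hρ1 (fun i _ => (hn0 i).le) a]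
    obtain ⟨k, rfl⟩ := hpc
    -- use an option-like sum
    have h1 : ‖(∑ i, a i • w0 i).1‖ < ρ := by
      have h2 : ∑ i, a i • w0 i = (∑ i, a i • w0 i + ((p : ℤ) * k) • y) - ((p : ℤ) * k) • y := by
        abel
      have h3 : ‖(((p : ℤ) * k) • y).1‖ < ρ := by
        rw [mul_comm, mul_smul, natCast_zsmul]
        have h4 : ‖(p • y).1‖ ≤ ρ ^ (p ^ n) := by
          rw [sp_nsmul_G, sp_norm_pow]
          exact pow_le_pow_left₀ (norm_nonneg _) (le_of_eq hyn) _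
        have h5 := (sp_combo (F := D.Γ) (φ := D.kx) {()} (fun _ => p • y) (by positivity)
          (fun _ _ => h4) (fun _ => k)).1
        rw [Finset.sum_singleton] at h5
        refine lt_of_le_of_lt h5 ?_
        have h6 : ρ ^ (p ^ n) < ρ ^ 1 := pow_lt_pow_right_of_lt_one₀ hρ0 hρ1 (by omega)
        rwa [pow_one] at h6
      rw [h2, sp_norm_sub]
      exact (sp_max_sub _ _).trans_lt (max_lt hac h3)
    rwa [sp_combo_lt Finset.univ w0 hρ0 hρ1 (fun i _ => (hn0 i).le) a] at h1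
  · exfalso
    -- `u * c ≡ 1 mod p`
    have hcop : IsCoprime (p : ℤ) c := by
      have hpp : Prime (p : ℤ) := Nat.prime_iff_prime_int.1 (Fact.out : p.Prime)
      exact (hpp.coprime_iff_not_dvd).2 hpc
    obtain ⟨k, u, huk⟩ := hcop
    -- y' := y + Σ (u a_i) w_i
    set y' : Pt D.Γ D.kx := y + ∑ i, (u * a i) • w0 i with hy'
    have h1 : y' = u • (∑ i, a i • w0 i + c • y) + (k * p) • y := by
      have h2 : y = (k * p + u * c) • y := by rw [huk, one_smul]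
      have h3 : u • ∑ i, a i • w0 i = ∑ i, (u * a i) • w0 i := by
        rw [Finset.smul_sum]
        exact Finset.sum_congr rfl fun i _ => (mul_smul u (a i) (w0 i)).symm
      rw [hy', zsmul_add, h3, ← mul_smul]
      conv_lhs => rw [h2, add_zsmul]
      abel
    have hsmall : ∀ (x : Pt D.Γ D.kx) (m : ℤ), ‖x.1‖ < ρ → ‖(m • x).1‖ < ρ := by
      intro x m hx
      have h5 := (sp_combo (F := D.Γ) (φ := D.kx) {()} (fun _ => x) (norm_nonneg x.1)
        (fun _ _ => le_rfl) (fun _ => m)).1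
      rw [Finset.sum_singleton] at h5
      exact lt_of_le_of_lt h5 hx
    have hy'n : ‖y'.1‖ < ρ := by
      rw [h1]
      have h2 := hsmall _ u hac
      have h3 : ‖((k * p) • y).1‖ < ρ := by
        rw [mul_smul, natCast_zsmul]
        apply hsmall
        rw [sp_nsmul_G, sp_norm_pow]
        have h6 : ρ ^ (p ^ n) < ρ ^ 1 := pow_lt_pow_right_of_lt_one₀ hρ0 hρ1 (by omega)
        rw [pow_one] at h6
        have h7 : ‖y.1‖ ^ (p ^ n) = ρ ^ (p ^ n) := by rw [show ‖y.1‖ = ρ from hyn]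
        rw [h7]; exact h6
      have h4 := sp_norm_add_le (le_max_left ‖(u • (∑ i, a i • w0 i + c • y)).1‖ ‖((k * p) • y).1‖)
        (le_max_right _ _)
      exact lt_of_le_of_lt h4 (max_lt h2 h3)
    set w' : Pt D.Γ D.kx := p ^ E • y' with hw'
    have hw'val : w'.1 = y'.1 ^ ((p ^ n) ^ E) := hpE E y'
    have hw'eq : w' = w + ∑ i, (p ^ E : ℕ) • ((u * a i) • w0 i) := by
      rw [hw', hy', nsmul_add, hyw, Finset.smul_sum]
    have hιw' : sp_iotaHom D w' = sp_iotaHom D w +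
        (∑ i, ((p ^ E : ℕ) * (u * a i) : ℤ) • σ i : sp_Tor D 1).1 := by
      rw [hw'eq, map_add, map_sum, AddSubgroup.val_finsetSum]
      congr 1
      apply Finset.sum_congr rfl
      intro i _
      rw [map_nsmul, map_zsmul, hw0]
      show (p ^ E : ℕ) • ((u * a i) • (σ i).1) = (((p ^ E : ℕ) : ℤ) * (u * a i)) • (σ i).1
      rw [mul_smul ((p ^ E : ℕ) : ℤ), natCast_zsmul]
    have hw'Tor : sp_iotaHom D w' ∈ sp_Tor D 1 := by
      rw [hιw']
      exact AddSubgroup.add_mem _ hw1 (Subtype.prop _)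
    have hw'S : (⟨sp_iotaHom D w', hw'Tor⟩ : sp_Tor D 1) ∉ S := by
      intro hmem
      apply hw2
      have h2 : (⟨sp_iotaHom D w, hw1⟩ : sp_Tor D 1) = ⟨sp_iotaHom D w', hw'Tor⟩ -
          ∑ i, ((p ^ E : ℕ) * (u * a i) : ℤ) • σ i := by
        apply Subtype.ext
        rw [AddSubgroup.coe_sub]
        simp only
        rw [hιw', add_sub_cancel_right]
      rw [h2]
      apply Submodule.sub_mem _ hmem
      apply Submodule.sum_mem
      intro i _
      rw [← sp_zsmul_eq]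
      exact Submodule.smul_mem _ _ (Submodule.subset_span ⟨i, rfl⟩)
    have hw'N : w' ∈ N := ⟨hw'Tor, hw'S⟩
    obtain ⟨E', hE'⟩ := hnorm w' hw'N
    have hE'E := hEmax E' ⟨w', hw'N, hE'⟩
    have h5 : ρ ^ ((p ^ n) ^ E) ≤ ‖w'.1‖ := by
      rw [hE']
      apply pow_le_pow_of_le_one hρ0.le hρ1.le
      exact Nat.pow_le_pow_right (by omega) hE'E
    rw [hw'val, sp_norm_pow] at h5
    have h6 := pow_lt_pow_left₀ hy'n (norm_nonneg _) (pow_pos (by omega : 0 < p ^ n) E).ne'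
    linarith

end ldata

section final
variable {C : Type*} [NontriviallyNormedField C] [CompleteSpace C] [IsUltrametricDist C]
  [CharP C p] [IsAlgClosed C]

/-- C5 -/
theorem CData.exists_special (D : CData p n h r C) (d : ℕ) (hd1 : 1 ≤ d) (hd : d + 1 ≤ r)
    (hx : ∀ i : Fin r, r - d + 1 ≤ (i : ℕ) → D.x (MvPowerSeries.X i) = 0) :
    ∃ (t : Fin r → OC C) (R : ℝ), 0 < R ∧ R < 1 ∧ D.toLData.TBasis t ∧
      (∀ i, t i ≠ 0) ∧
      ResIndep p (fun i : Fin d => t ⟨i, by omega⟩) R ∧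
      ((∀ e e' : ℕ, ‖t ⟨d, by omega⟩‖ ^ ((p ^ n) ^ e) ≠ R ^ ((p ^ n) ^ e')) ∨
        ∃ (e : ℕ) (s : OC C), s ^ ((p ^ n) ^ e) = t ⟨d, by omega⟩ ∧
          ResIndep p (fun i : Fin (d + 1) => if hi : (i : ℕ) < d then t ⟨i, by omega⟩ else s) R) := by
  have hF := D.exists_factor
  obtain ⟨T, U, hT⟩ := hF 1
  obtain ⟨ρ, hρ0, hρ1, hρ, hρ'⟩ := sp_exists_max D.toLData hT
  have hfin := sp_finite_Tor D.toLData hT
  have hfr := sp_finrank_Tor D.toLData hT
  have hq := sp_q2 D.toLData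
  obtain ⟨i, hi, hxi⟩ := D.coeff_ne_zero_of_card T U hT ρ hρ hρ' hρ0 _
    (sp_card_W0 D.toLData hT hρ0)
  have he : Module.finrank (ZMod p) (sp_W0 D.toLData hρ0) + d ≤
      Module.finrank (ZMod p) (sp_Tor D.toLData 1) := by
    rw [hfr, ← hi]
    by_contra hlt
    push Not at hlt
    exact hxi (hx i (by omega))
  obtain ⟨σ, hσ⟩ := sp_linA (sp_W0 D.toLData hρ0) d he
  have hli : LinearIndependent (ZMod p) σ := by
    rw [Fintype.linearIndependent_iff]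
    intro c hc
    exact hσ c (by rw [hc]; exact Submodule.zero_mem _)
  have hex : ∀ i : Fin d, ∃ w : Pt D.toLData.Γ D.toLData.kx,
      sp_iotaHom D.toLData w = (σ i).1 := by
    intro i
    obtain ⟨z, hz, hz2⟩ := sp_I1 D.toLData hF (σ i).1 (σ i).2
    exact ⟨sp_mk _ _ z hz, Subtype.ext hz2⟩
  choose w0 hw0 using hex
  obtain ⟨hn0, hres⟩ := sp_resindep D.toLData hT hρ0 hρ1 hρ d σ hσ w0 hw0
  obtain ⟨wd, hwd, hwd2, hdich⟩ := sp_dichotomy D.toLData hF hT hρ0 hρ1 hρ d hd σ hσ w0 hw0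
  obtain ⟨t, ht1, ht2, ht3, ht4⟩ := sp_build D.toLData hF hT d hd σ hli w0 hw0 wd hwd hwd2
  refine ⟨t, ρ ^ (p ^ n), by positivity, pow_lt_one₀ hρ0.le hρ1 (by omega), ht1, ht2, ?_, ?_⟩
  · exact sp_resIndep_of D.toLData hρ0 hρ1 w0 hn0 hres _ (fun i => ht3 _ i.2)
  · rcases hdich with hA | ⟨e, y, hy1, hy2, hy3⟩
    · left
      intro e e'
      rw [ht4 ⟨d, by omega⟩ rfl, sp_norm_pow]
      exact hA e e'
    · right
      refine ⟨e, y.1 ^ (p ^ n), ?_, ?_⟩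
      · rw [ht4 ⟨d, by omega⟩ rfl, ← hy1]
        exact pow_right_comm _ _ _
      · have h1 : ∀ i : Fin (d + 1), ‖(if hi : (i : ℕ) < d then w0 ⟨i, hi⟩ else y).1‖ = ρ := by
          intro i
          by_cases hi : (i : ℕ) < d
          · rw [dif_pos hi]; exact hn0 _
          · rw [dif_neg hi]; exact hy2
        refine sp_resIndep_of D.toLData hρ0 hρ1
          (fun i : Fin (d + 1) => if hi : (i : ℕ) < d then w0 ⟨i, hi⟩ else y) h1 ?_ _ ?_
        · intro a ha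
          have h2 : ∑ i : Fin (d + 1), a i • (if hi : (i : ℕ) < d then w0 ⟨i, hi⟩ else y) =
              ∑ i : Fin d, a (Fin.castSucc i) • w0 i + a (Fin.last d) • y := by
            rw [Fin.sum_univ_castSucc]
            congr 1
            · apply Finset.sum_congr rfl
              intro i _
              rw [dif_pos (show ((Fin.castSucc i : Fin (d + 1)) : ℕ) < d from i.2)]
              rfl
            · rw [dif_neg (show ¬ ((Fin.last d : Fin (d + 1)) : ℕ) < d by simp)]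
          rw [h2] at ha
          obtain ⟨h3, h4⟩ := hy3 _ _ ha
          intro i
          rcases Fin.eq_castSucc_or_eq_last i with ⟨j, rfl⟩ | rfl
          · exact h3 j
          · exact h4
        · intro i
          by_cases hi : (i : ℕ) < d
          · rw [dif_pos hi]
            simp only [dif_pos hi]
            exact ht3 ⟨i, by omega⟩ hi
          · rw [dif_neg hi]
            simp only [dif_neg hi]

end final

end Crest.Agent.LT
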