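import Mathlib
import Crest.Agent.LT.CDefs
import Crest.Agent.LT.Iota
import Crest.Agent.LT.LogC
import Crest.Agent.LT.Torsion
import Crest.Agent.LT.Special

/-! # The Jacobian part of STAR (row 227) -/

set_option autoImplicit false
set_option linter.unusedSectionVars false

namespace Crest.Agent.LT

open Crest.LubinTate MvPowerSeries

variable {p n h r : ℕ} [Fact p.Prime]
variable {C : Type*} [NontriviallyNormedField C] [CompleteSpace C] [IsUltrametricDist C]
  [CharP C p] [IsAlgClosed C]

section Deriv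

variable {A : Type*} [CommRing A]

/-- directional derivative along `v` read off a Taylor expansion `T` -/
noncomputable def jacDv (T : A →+* MvPowerSeries (Fin r) (OC C)) (v : Fin r → OC C) (f : A) :
    OC C := ∑ l, v l * MvPowerSeries.coeff (Finsupp.single l 1) (T f)

theorem jacDv_add (T : A →+* MvPowerSeries (Fin r) (OC C)) (v : Fin r → OC C) (f g : A) :
    jacDv T v (f + g) = jacDv T v f + jacDv T v g := by
  unfold jacDv
  rw [← Finset.sum_add_distrib]
  apply Finset.sum_congr rfl
  intro l _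
  rw [map_add, map_add, mul_add]

theorem jacDv_zero (T : A →+* MvPowerSeries (Fin r) (OC C)) (v : Fin r → OC C) :
    jacDv T v 0 = 0 := by
  unfold jacDv
  apply Finset.sum_eq_zero
  intro l _
  rw [map_zero, map_zero, mul_zero]

theorem jacDv_one (T : A →+* MvPowerSeries (Fin r) (OC C)) (v : Fin r → OC C) :
    jacDv T v 1 = 0 := by
  classical
  unfold jacDv
  apply Finset.sum_eq_zero
  intro l _
  rw [map_one, MvPowerSeries.coeff_one, if_neg, mul_zero]
  intro h
  have := congrArg (fun f => f l) h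
  simp at this

theorem jac_coeff_mul (a b : MvPowerSeries (Fin r) (OC C)) (l : Fin r) :
    MvPowerSeries.coeff (Finsupp.single l 1) (a * b) =
      MvPowerSeries.coeff (Finsupp.single l 1) a * MvPowerSeries.constantCoeff b +
      MvPowerSeries.constantCoeff a * MvPowerSeries.coeff (Finsupp.single l 1) b := by
  classical
  rw [MvPowerSeries.coeff_mul, Finsupp.antidiagonal_single, Finset.sum_map,
    Finset.Nat.antidiagonal_succ, Finset.sum_cons, Finset.sum_map, Finset.Nat.antidiagonal_zero,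
    Finset.sum_singleton]
  simp [add_comm]

theorem jacDv_mul (T : A →+* MvPowerSeries (Fin r) (OC C)) (v : Fin r → OC C) (x : A →+* OC C)
    (hT : ∀ f, MvPowerSeries.constantCoeff (T f) = x f) (f g : A) :
    jacDv T v (f * g) = jacDv T v f * x g + x f * jacDv T v g := by
  unfold jacDv
  rw [Finset.sum_mul, Finset.mul_sum, ← Finset.sum_add_distrib]
  apply Finset.sum_congr rfl
  intro l _
  rw [map_mul, jac_coeff_mul, hT, hT]
  ring

theorem jacDv_sum (T : A →+* MvPowerSeries (Fin r) (OC C)) (v : Fin r → OC C) {ι : Type*}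
    (s : Finset ι) (f : ι → A) : jacDv T v (∑ i ∈ s, f i) = ∑ i ∈ s, jacDv T v (f i) := by
  classical
  induction s using Finset.induction_on with
  | empty => simp [jacDv_zero]
  | insert i s hi ih => rw [Finset.sum_insert hi, Finset.sum_insert hi, jacDv_add, ih]

theorem jac_tn (t : OC C) (ht : ‖t‖ < 1) (v : Fin r → OC C) (l : Fin r) :
    IsTopologicallyNilpotent (t * v l) := by
  rw [OC.isTopologicallyNilpotent_iff, OC.norm_mul']
  exact lt_of_le_of_lt (mul_le_of_le_one_right (norm_nonneg _) (OC.norm_le_one _)) ht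

/-- the point `x + t v` -/
noncomputable def jacPt (T : A →+* MvPowerSeries (Fin r) (OC C)) (v : Fin r → OC C) (t : OC C)
    (ht : ‖t‖ < 1) : A →+* OC C :=
  (evHom (RingHom.id (OC C)) (fun l => t * v l) (jac_tn t ht v)).comp T

theorem jac_eq_of_degree {d : Fin r →₀ ℕ} (hd : d.degree < 2) :
    d = 0 ∨ ∃ l, d = Finsupp.single l 1 := by
  classical
  have h : d.degree = 0 ∨ d.degree = 1 := by omega
  rcases h with h | h
  · left
    exact (Finsupp.degree_eq_zero_iff d).1 h
  · right
    have h1 : d ∈ Set.range (fun a : Fin r => Finsupp.single a 1) := by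
      rw [Finsupp.range_single_one]
      exact h
    obtain ⟨l, hl⟩ := h1
    exact ⟨l, hl.symm⟩

theorem jacPt_sub_le (T : A →+* MvPowerSeries (Fin r) (OC C)) (v : Fin r → OC C) (t : OC C)
    (ht : ‖t‖ < 1) (x : A →+* OC C) (hT : ∀ f, MvPowerSeries.constantCoeff (T f) = x f) (f : A) :
    ‖jacPt T v t ht f - x f - t * jacDv T v f‖ ≤ ‖t‖ ^ 2 := by
  classical
  obtain ⟨g, hg⟩ : ∃ g : MvPowerSeries (Fin r) (OC C), g = T f - MvPowerSeries.C (x f) -
      ∑ l, MvPowerSeries.C (MvPowerSeries.coeff (Finsupp.single l 1) (T f)) *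
        MvPowerSeries.X l := ⟨_, rfl⟩
  have h1 : evHom (RingHom.id (OC C)) (fun l => t * v l) (jac_tn t ht v) g =
      jacPt T v t ht f - x f - t * jacDv T v f := by
    rw [hg, map_sub, map_sub, map_sum, evHom_apply _ _ _ (MvPowerSeries.C (x f)),
      ev_C _ _ (jac_tn t ht v)]
    unfold jacPt jacDv
    rw [RingHom.comp_apply, Finset.mul_sum]
    congr 1
    apply Finset.sum_congr rfl
    intro l _
    rw [map_mul, evHom_apply, evHom_apply, ev_C _ _ (jac_tn t ht v), ev_X _ _ (jac_tn t ht v)]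
    simp only [RingHom.id_apply]
    ring
  rw [← h1, evHom_apply]
  have h2 := OC.norm_ev_le (RingHom.id (OC C)) (fun l => t * v l) (norm_nonneg t) ht
    (fun l => by
      rw [OC.norm_mul']
      exact mul_le_of_le_one_right (norm_nonneg _) (OC.norm_le_one _)) g (M := 1) (N := 2)
    (fun d => OC.norm_le_one _) (by
      intro d hd
      rcases jac_eq_of_degree hd with rfl | ⟨l, rfl⟩
      · rw [hg, MvPowerSeries.coeff_zero_eq_constantCoeff_apply, map_sub, map_sub, hT, map_sum,
          MvPowerSeries.constantCoeff_C, sub_self, zero_sub, neg_eq_zero]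
        apply Finset.sum_eq_zero
        intro l _
        rw [map_mul, MvPowerSeries.constantCoeff_X, mul_zero]
      · rw [hg, map_sub, map_sub, map_sum, Finset.sum_eq_single l]
        · rw [MvPowerSeries.coeff_C_mul, MvPowerSeries.coeff_X, if_pos rfl, mul_one,
            MvPowerSeries.coeff_C, if_neg]
          · ring
          · intro h
            have := congrArg (fun f => f l) h
            simp at this
        · intro k _ hk
          rw [MvPowerSeries.coeff_C_mul, MvPowerSeries.coeff_X, if_neg, mul_zero]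
          intro h
          have := congrArg (fun f => f l) h
          rw [Finsupp.single_eq_same, Finsupp.single_apply, if_neg hk] at this
          omega
        · intro h; exact absurd (Finset.mem_univ _) h)
  rw [one_mul] at h2
  exact h2

theorem jacPt_sub_le' (T : A →+* MvPowerSeries (Fin r) (OC C)) (v : Fin r → OC C) (t : OC C)
    (ht : ‖t‖ < 1) (x : A →+* OC C) (hT : ∀ f, MvPowerSeries.constantCoeff (T f) = x f) (f : A) :
    ‖jacPt T v t ht f - x f‖ ≤ ‖t‖ := by
  have h1 := jacPt_sub_le T v t ht x hT f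
  have h2 : jacPt T v t ht f - x f = (jacPt T v t ht f - x f - t * jacDv T v f) +
      t * jacDv T v f := by ring
  rw [h2]
  refine (OC.norm_add_le_max' _ _).trans (max_le ?_ ?_)
  · refine h1.trans ?_
    rw [pow_two]
    exact mul_le_of_le_one_left (norm_nonneg _) ht.le
  · rw [OC.norm_mul']
    exact mul_le_of_le_one_right (norm_nonneg _) (OC.norm_le_one _)

/-- the derivative of a series with coefficients in `A`, evaluated -/
noncomputable def jacW (T : A →+* MvPowerSeries (Fin r) (OC C)) (v : Fin r → OC C)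
    (w : PowerSeries A) (z : OC C) : OC C :=
  ev1 (RingHom.id (OC C)) z (PowerSeries.mk fun m => jacDv T v (PowerSeries.coeff m w))

theorem jac_ev_sub_le (T : A →+* MvPowerSeries (Fin r) (OC C)) (v : Fin r → OC C) (t : OC C)
    (ht : ‖t‖ < 1) (x : A →+* OC C) (hT : ∀ f, MvPowerSeries.constantCoeff (T f) = x f)
    (w : PowerSeries A) (z : OC C) (hz : ‖z‖ < 1) :
    ‖ev1 (jacPt T v t ht) z w - ev1 x z w - t * jacW T v w z‖ ≤ ‖t‖ ^ 2 := by
  have hz' := (OC.isTopologicallyNilpotent_iff z).2 hz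
  obtain ⟨g, hg⟩ : ∃ g : PowerSeries (OC C), g = PowerSeries.map (jacPt T v t ht) w -
      PowerSeries.map x w - PowerSeries.C t *
        PowerSeries.mk fun m => jacDv T v (PowerSeries.coeff m w) := ⟨_, rfl⟩
  have h1 : ev1 (RingHom.id (OC C)) z g =
      ev1 (jacPt T v t ht) z w - ev1 x z w - t * jacW T v w z := by
    rw [hg, tor_ev1_sub _ _ hz', tor_ev1_sub _ _ hz', tor_ev1_mul _ _ hz', tor_ev1_C _ _ hz',
      ev1_map _ _ _ hz', ev1_map _ _ _ hz']
    rfl
  rw [← h1]
  have h2 := OC.norm_ev1_le (RingHom.id (OC C)) z hz g (M := ‖t‖ ^ 2) (N := 0)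
    (fun d => by
      rw [RingHom.id_apply, hg, map_sub, map_sub, PowerSeries.coeff_map, PowerSeries.coeff_map,
        PowerSeries.coeff_C_mul, PowerSeries.coeff_mk]
      exact jacPt_sub_le T v t ht x hT _) (fun d hd => absurd hd (Nat.not_lt_zero d))
  rwa [pow_zero, mul_one] at h2

/-- additivity of the derivative on the kernel of a hom -/
theorem jac_add [CharP A p] (T : A →+* MvPowerSeries (Fin r) (OC C)) (v : Fin r → OC C)
    (x : A →+* OC C) (hT : ∀ f, MvPowerSeries.constantCoeff (T f) = x f)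
    {H : FormalGroup A} {W : PowerSeries A} (hh : 1 ≤ h)
    (hW : IsFGHom (H.map (iterateFrobenius A p h)) H W) (a b : OC C) (ha : ‖a‖ < 1)
    (hb : ‖b‖ < 1) (hWa : ev1 x a W = 0) (hWb : ev1 x b W = 0) :
    ev1 x (op (H.map (iterateFrobenius A p h)) x a b) W = 0 ∧
    jacW T v W (op (H.map (iterateFrobenius A p h)) x a b) = jacW T v W a + jacW T v W b := by
  have hp : p.Prime := Fact.out
  have hchO : CharP (OC C) p := OC.charP
  have ha' := (OC.isTopologicallyNilpotent_iff a).2 ha
  have hb' := (OC.isTopologicallyNilpotent_iff b).2 hb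
  obtain ⟨F, hF⟩ : ∃ F, F = H.map (iterateFrobenius A p h) := ⟨_, rfl⟩
  rw [← hF] at hW ⊢
  obtain ⟨c, hc⟩ : ∃ c, c = op F x a b := ⟨_, rfl⟩
  rw [← hc]
  have hcn : ‖c‖ < 1 := by
    rw [← OC.isTopologicallyNilpotent_iff, hc]
    exact E7.isTopologicallyNilpotent_op F x ha' hb'
  have hWc : ev1 x c W = 0 := by
    rw [hc, E7.op_hom hW ha' hb', hWa, hWb]
    exact E7.zero_op' H x IsTopologicallyNilpotent.zero
  refine ⟨hWc, ?_⟩
  -- estimate with the points `x + t v`
  have key : ∀ t : OC C, ‖t‖ < 1 → t ≠ 0 →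
      ‖jacW T v W c - (jacW T v W a + jacW T v W b)‖ ≤ ‖t‖ := by
    intro t ht ht0
    obtain ⟨xt, hxt⟩ : ∃ xt, xt = jacPt T v t ht := ⟨_, rfl⟩
    have e1 : ∀ f, ‖xt f - x f‖ ≤ ‖t‖ := by
      intro f; rw [hxt]; exact jacPt_sub_le' T v t ht x hT f
    have e2 : ∀ z, ‖z‖ < 1 → ‖ev1 xt z W - ev1 x z W - t * jacW T v W z‖ ≤ ‖t‖ ^ 2 := by
      intro z hz; rw [hxt]; exact jac_ev_sub_le T v t ht x hT W z hz
    have ht2 : ‖t‖ ^ 2 ≤ ‖t‖ := by
      rw [pow_two]
      exact mul_le_of_le_one_left (norm_nonneg _) ht.le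
    obtain ⟨ct, hct⟩ : ∃ ct, ct = op F xt a b := ⟨_, rfl⟩
    have hctn : ‖ct‖ < 1 := by
      rw [← OC.isTopologicallyNilpotent_iff, hct]
      exact E7.isTopologicallyNilpotent_op F xt ha' hb'
    -- `ct` is close to `c`
    have h1 : ‖ct - c‖ ≤ ‖t‖ ^ 2 := by
      rw [hct, hc]
      apply OC.norm_ev_sub_ev_le xt x ![a, b] _ (by positivity)
      · intro d
        rw [hF, FormalGroup.map_toPowerSeries, MvPowerSeries.coeff_map, iterateFrobenius_def,
          map_pow, map_pow, ← sub_pow_char_pow, OC.norm_pow']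
        calc ‖xt (MvPowerSeries.coeff d H.toPowerSeries) -
              x (MvPowerSeries.coeff d H.toPowerSeries)‖ ^ p ^ h ≤ ‖t‖ ^ p ^ h :=
              pow_le_pow_left₀ (norm_nonneg _) (e1 _) _
          _ ≤ ‖t‖ ^ 2 := by
              apply pow_le_pow_of_le_one (norm_nonneg _) ht.le
              calc 2 ≤ p := hp.two_le
                _ = p ^ 1 := (pow_one p).symm
                _ ≤ p ^ h := Nat.pow_le_pow_right hp.pos hh
      · intro i
        fin_cases i
        · exact ha
        · exact hb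
    obtain ⟨u, hu⟩ : ∃ u, u = ev1 xt a W := ⟨_, rfl⟩
    obtain ⟨w, hw⟩ : ∃ w, w = ev1 xt b W := ⟨_, rfl⟩
    have hu1 : ‖u - t * jacW T v W a‖ ≤ ‖t‖ ^ 2 := by
      have := e2 a ha
      rwa [hWa, sub_zero, ← hu] at this
    have hw1 : ‖w - t * jacW T v W b‖ ≤ ‖t‖ ^ 2 := by
      have := e2 b hb
      rwa [hWb, sub_zero, ← hw] at this
    have hu2 : ‖u‖ ≤ ‖t‖ := by
      have : u = (u - t * jacW T v W a) + t * jacW T v W a := by ring
      rw [this]
      refine (OC.norm_add_le_max' _ _).trans (max_le (hu1.trans ht2) ?_)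
      rw [OC.norm_mul']
      exact mul_le_of_le_one_right (norm_nonneg _) (OC.norm_le_one _)
    have hw2 : ‖w‖ ≤ ‖t‖ := by
      have : w = (w - t * jacW T v W b) + t * jacW T v W b := by ring
      rw [this]
      refine (OC.norm_add_le_max' _ _).trans (max_le (hw1.trans ht2) ?_)
      rw [OC.norm_mul']
      exact mul_le_of_le_one_right (norm_nonneg _) (OC.norm_le_one _)
    have h2 : ev1 xt ct W = op H xt u w := by
      rw [hct, E7.op_hom hW ha' hb', hu, hw]
    have h3 : ‖op H xt u w - (u + w)‖ ≤ ‖t‖ ^ 2 := by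
      refine (OC.norm_op_sub_le H xt u w (lt_of_le_of_lt hu2 ht) (lt_of_le_of_lt hw2 ht)).trans ?_
      rw [pow_two]
      exact mul_le_mul hu2 hw2 (norm_nonneg _) (norm_nonneg _)
    have h4 : ‖ev1 xt ct W - ev1 xt c W‖ ≤ ‖t‖ ^ 2 :=
      OC.norm_ev_sub_le xt (fun _ : Unit => ct) (fun _ => c) (fun _ => hctn) (fun _ => hcn)
        (by positivity) (fun _ => h1) W
    have h5 : ‖ev1 xt c W - t * jacW T v W c‖ ≤ ‖t‖ ^ 2 := by
      have := e2 c hcn
      rwa [hWc, sub_zero] at this
    have h6 : ‖t * (jacW T v W c - (jacW T v W a + jacW T v W b))‖ ≤ ‖t‖ ^ 2 := by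
      have e : t * (jacW T v W c - (jacW T v W a + jacW T v W b)) =
          -(ev1 xt c W - t * jacW T v W c) + (-(ev1 xt ct W - ev1 xt c W) +
          ((op H xt u w - (u + w)) + ((u - t * jacW T v W a) + (w - t * jacW T v W b)))) := by
        rw [h2]; ring
      rw [e]
      refine (OC.norm_add_le_max' _ _).trans (max_le (by rw [norm_neg]; exact h5) ?_)
      refine (OC.norm_add_le_max' _ _).trans (max_le (by rw [norm_neg]; exact h4) ?_)
      refine (OC.norm_add_le_max' _ _).trans (max_le h3 ?_)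
      exact (OC.norm_add_le_max' _ _).trans (max_le hu1 hw1)
    rw [OC.norm_mul', pow_two] at h6
    exact le_of_mul_le_mul_left h6 (norm_pos_iff.2 ht0)
  have h0 : ‖jacW T v W c - (jacW T v W a + jacW T v W b)‖ = 0 := by
    by_contra hcon
    have hpos : 0 < ‖jacW T v W c - (jacW T v W a + jacW T v W b)‖ :=
      lt_of_le_of_ne (norm_nonneg _) (Ne.symm hcon)
    obtain ⟨s, hs0, hs1⟩ := NormedField.exists_norm_lt C hpos
    have hs2 : ‖s‖ < 1 := lt_of_lt_of_le hs1 (OC.norm_le_one _)
    have := key ⟨s, hs2.le⟩ hs2 (by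
      intro h
      have h' := congrArg Subtype.val h
      have h'' : s = 0 := h'
      rw [h''] at hs0
      simp at hs0)
    exact absurd hs1 (not_lt.2 this)
  rw [norm_eq_zero, sub_eq_zero] at h0
  exact h0

end Deriv

/-- the matrix `(∂_l W)_x(τ_i)`, `τ_i = ι(t_i^(1/q))^Q`, is invertible. -/
theorem CData.jacobian_aux (D : CData p n h r C)
    (T : MvPowerSeries (Fin r) (GaloisField p n) →+* MvPowerSeries (Fin r) (OC C))
    (hT : ∀ f, MvPowerSeries.constantCoeff (T f) = D.x f)
    (hTX : ∀ i l, MvPowerSeries.coeff (Finsupp.single l 1) (T (MvPowerSeries.X i)) =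
      if l = i then 1 else 0)
    (t : Fin r → OC C) (ht : D.toLData.TBasis t) :
    IsUnit (Matrix.det (Matrix.of fun i l : Fin r =>
      ((ev1 (RingHom.id (OC C)) ((D.toLData.iota (rt p n (t i))) ^ (p ^ h))
        (PowerSeries.mk fun m => MvPowerSeries.coeff (Finsupp.single l 1)
          (T (PowerSeries.coeff m D.W))) : OC C) : C))) := by
  classical
  have hp : p.Prime := Fact.out
  have hp0 : p ≠ 0 := hp.ne_zero
  have hchA : CharP (MvPowerSeries (Fin r) (GaloisField p n)) p := tor_charP_mv _ _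
  have hchO : CharP (OC C) p := OC.charP
  have := D.Hcomm
  obtain ⟨σ, hσ⟩ : ∃ σ : Fin r → OC C, σ = fun i => D.toLData.iota (rt p n (t i)) := ⟨_, rfl⟩
  obtain ⟨M, hM⟩ : ∃ M : Matrix (Fin r) (Fin r) C, M = Matrix.of fun i l : Fin r =>
      ((ev1 (RingHom.id (OC C)) ((σ i) ^ (p ^ h))
        (PowerSeries.mk fun m => MvPowerSeries.coeff (Finsupp.single l 1)
          (T (PowerSeries.coeff m D.W))) : OC C) : C) := ⟨_, rfl⟩
  suffices hdet : M.det ≠ 0 by
    rw [hM, hσ] at hdet
    exact isUnit_iff_ne_zero.2 hdet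
  intro hdet
  obtain ⟨v0, hv0, hv1⟩ := Matrix.exists_mulVec_eq_zero_iff.2 hdet
  -- normalise
  obtain ⟨l0, _, hl0⟩ := Finset.exists_max_image (Finset.univ : Finset (Fin r))
    (fun l => ‖v0 l‖) ⟨⟨0, D.hr⟩, Finset.mem_univ _⟩
  have hvl0 : v0 l0 ≠ 0 := by
    intro h0
    apply hv0
    ext1 l
    have := hl0 l (Finset.mem_univ _)
    rw [h0, norm_zero] at this
    exact norm_le_zero_iff.1 this
  have hvn : ∀ l, ‖v0 l / v0 l0‖ ≤ 1 := by
    intro l
    rw [norm_div, div_le_one (norm_pos_iff.2 hvl0)]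
    exact hl0 l (Finset.mem_univ _)
  obtain ⟨v, hv⟩ : ∃ v : Fin r → OC C, v = fun l => ⟨v0 l / v0 l0, hvn l⟩ := ⟨_, rfl⟩
  have hvval : ∀ l, (v l : C) = v0 l / v0 l0 := by intro l; rw [hv]
  have hvl : v l0 = 1 := by
    apply Subtype.ext
    rw [hvval, div_self hvl0]
    rfl
  -- sizes
  have hσn : ∀ i, ‖σ i‖ < 1 := by
    intro i
    rw [hσ]
    apply D.toLData.iota_lt
    have h1 := ht.lt i
    have h2 : ‖rt p n (t i)‖ ^ (p ^ n) = ‖t i‖ := by
      rw [← OC.norm_pow', rt_pow]
    by_contra hcon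
    rw [not_lt] at hcon
    have := one_le_pow₀ hcon (n := p ^ n)
    rw [h2] at this
    linarith
  have hQ0 : p ^ h ≠ 0 := pow_ne_zero _ hp0
  have hpowlt : ∀ z : OC C, ‖z‖ < 1 → ‖z ^ (p ^ h)‖ < 1 := by
    intro z hz
    rw [OC.norm_pow']
    exact pow_lt_one₀ (norm_nonneg _) hz hQ0
  -- the derivative of `W` vanishes at `σ_i^Q`
  have hzero : ∀ i, jacW T v D.W ((σ i) ^ (p ^ h)) = 0 := by
    intro i
    have h1 := congrFun hv1 i
    rw [Matrix.mulVec, dotProduct, Pi.zero_apply] at h1
    have hz' := (OC.isTopologicallyNilpotent_iff _).2 (hpowlt _ (hσn i))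
    have h2 : jacW T v D.W ((σ i) ^ (p ^ h)) = ∑ l, v l *
        ev1 (RingHom.id (OC C)) ((σ i) ^ (p ^ h))
        (PowerSeries.mk fun m => MvPowerSeries.coeff (Finsupp.single l 1)
          (T (PowerSeries.coeff m D.W))) := by
      unfold jacW
      have h3 : (PowerSeries.mk fun m => jacDv T v (PowerSeries.coeff m D.W)) =
          ∑ l, PowerSeries.C (v l) * PowerSeries.mk fun m =>
            MvPowerSeries.coeff (Finsupp.single l 1) (T (PowerSeries.coeff m D.W)) := by
        ext m
        rw [map_sum, PowerSeries.coeff_mk]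
        unfold jacDv
        congr 1
        apply Finset.sum_congr rfl
        intro l _
        rw [PowerSeries.coeff_C_mul, PowerSeries.coeff_mk]
      rw [h3, ← tor_evHom1_apply _ _ hz', map_sum]
      apply Finset.sum_congr rfl
      intro l _
      rw [map_mul, tor_evHom1_apply, tor_evHom1_apply, tor_ev1_C _ _ hz']
      rfl
    rw [h2]
    apply Subtype.ext
    have h4 : ∑ l, (M i l) * v0 l = 0 := h1
    have h5 : ((∑ l, v l * ev1 (RingHom.id (OC C)) ((σ i) ^ (p ^ h))
        (PowerSeries.mk fun m => MvPowerSeries.coeff (Finsupp.single l 1)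
          (T (PowerSeries.coeff m D.W))) : OC C) : C) = (∑ l, (M i l) * v0 l) / v0 l0 := by
      rw [Finset.sum_div, show ((∑ l, v l * ev1 (RingHom.id (OC C)) ((σ i) ^ (p ^ h))
        (PowerSeries.mk fun m => MvPowerSeries.coeff (Finsupp.single l 1)
          (T (PowerSeries.coeff m D.W))) : OC C) : C) = (OC C).subtype (∑ l, v l *
          ev1 (RingHom.id (OC C)) ((σ i) ^ (p ^ h))
        (PowerSeries.mk fun m => MvPowerSeries.coeff (Finsupp.single l 1)
          (T (PowerSeries.coeff m D.W)))) from rfl, map_sum]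
      apply Finset.sum_congr rfl
      intro l _
      rw [map_mul, hM]
      show (v l : C) * _ = _
      rw [hvval]
      simp only [Matrix.of_apply, Subring.subtype_apply]
      ring
    rw [h5, h4, zero_div]
    rfl
  -- `[p]` and `W`
  have hmulW : ∀ z : OC C, ‖z‖ < 1 → ev1 (RingHom.id (OC C)) z (mulSeries D.toLData.Hx p) =
      ev1 D.x (z ^ (p ^ h)) D.W := by
    intro z hz
    have hz' := (OC.isTopologicallyNilpotent_iff z).2 hz
    have hzp' := (OC.isTopologicallyNilpotent_iff _).2 (hpowlt z hz)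
    rw [D.toLData.HW, ev1_subst _ _ hz' _ (by
      rw [map_pow, PowerSeries.constantCoeff_X, zero_pow hQ0]), tor_ev1_pow _ _ hz',
      ev1_X _ _ hz']
    show ev1 (RingHom.id (OC C)) (z ^ (p ^ h)) (PowerSeries.map D.x D.W) = _
    rw [ev1_map _ _ _ hzp']
    rfl
  have hWhom := D.tor_W_hom
  have hgen := ht.gen (fun z => ‖z‖ < 1 ∧ ev1 D.x (z ^ (p ^ h)) D.W = 0 ∧
      jacW T v D.W (z ^ (p ^ h)) = 0) ?_ ?_ ?_
  rotate_left
  · refine ⟨by simp, ?_, ?_⟩
    · rw [zero_pow hQ0]
      exact E7.ev1_zero_arg _ _ D.W0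
    · rw [zero_pow hQ0]
      apply E7.ev1_zero_arg
      rw [← PowerSeries.coeff_zero_eq_constantCoeff_apply, PowerSeries.coeff_mk,
        PowerSeries.coeff_zero_eq_constantCoeff_apply, D.W0, jacDv_zero]
  · intro i
    have hσi : D.toLData.iota (rt p n (t i)) = σ i := by rw [hσ]
    rw [hσi]
    refine ⟨hσn i, ?_, hzero i⟩
    rw [← hmulW _ (hσn i), ← hσi, ← D.toLData.iota_pow, rt_pow, ht.iota i]
    by_contra hcon
    rw [not_lt] at hcon
    have := one_le_pow₀ hcon (n := p ^ n)
    rw [← OC.norm_pow', rt_pow] at this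
    exact absurd (ht.lt i) (not_lt.2 this)
  · rintro a b ha hb ⟨_, ha2, ha3⟩ ⟨_, hb2, hb3⟩
    have ha' := (OC.isTopologicallyNilpotent_iff a).2 ha
    have hb' := (OC.isTopologicallyNilpotent_iff b).2 hb
    have hop : (op D.toLData.Hx (RingHom.id (OC C)) a b) ^ (p ^ h) =
        op (D.H.map (iterateFrobenius _ p h)) D.x (a ^ (p ^ h)) (b ^ (p ^ h)) := by
      have h1 := map_ev (iterateFrobenius (OC C) p h) (by
        change Continuous (fun x : OC C => x ^ (p ^ h))
        exact continuous_pow _) (RingHom.id (OC C)) ![a, b] (E7.tn2 ha' hb')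
        D.toLData.Hx.toPowerSeries
      rw [iterateFrobenius_def] at h1
      unfold op
      rw [h1]
      have h2 : (fun i => (iterateFrobenius (OC C) p h) ((![a, b] : Fin 2 → OC C) i)) =
          ![a ^ (p ^ h), b ^ (p ^ h)] := by
        ext1 i
        fin_cases i
        · simp [iterateFrobenius_def]
        · simp [iterateFrobenius_def]
      rw [h2]
      have htn2 := E7.tn2 ((OC.isTopologicallyNilpotent_iff _).2 (hpowlt a ha))
        ((OC.isTopologicallyNilpotent_iff _).2 (hpowlt b hb))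
      rw [show D.toLData.Hx.toPowerSeries = (D.H.map D.x).toPowerSeries from rfl,
        FormalGroup.map_toPowerSeries, FormalGroup.map_toPowerSeries,
        ev_map _ _ _ htn2, ev_map _ _ _ htn2]
      congr 1
      ext1 f
      simp [iterateFrobenius_def]
    have h3 := jac_add (h := h) T v D.x hT D.hh hWhom (a ^ (p ^ h)) (b ^ (p ^ h)) (hpowlt a ha)
      (hpowlt b hb) ha2 hb2
    refine ⟨?_, ?_, ?_⟩
    · rw [← OC.isTopologicallyNilpotent_iff]
      exact E7.isTopologicallyNilpotent_op _ _ ha' hb'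
    · rw [hop]; exact h3.1
    · rw [hop, h3.2, ha3, hb3, add_zero]
  -- Weierstrass polynomial
  obtain ⟨S, US, W1, U1, D1, g1, g2, g3, g4, g5, g6, g7⟩ := D.tor_exists_factor 1
  have hW1 : W1 = D.W := by
    apply tor_subst_X_pow_inj (pow_ne_zero h hp0)
    rw [← D.HW]
    have := g2
    rw [pow_one, pow_one] at this
    exact this.symm
  rw [hW1] at g3
  rw [pow_one] at g7
  rw [mul_one] at g6
  have hS : ∀ τ ∈ S, ‖τ‖ < 1 ∧ jacW T v D.W (τ ^ (p ^ h)) = 0 := by
    intro τ hτ
    have h1 := (LData.Factor.mem_iff D.toLData g1 τ).1 hτ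
    rw [pow_one] at h1
    exact ⟨h1.1, (hgen τ h1.1 h1.2).2.2⟩
  obtain ⟨N, hN⟩ : ∃ N, N = p ^ r := ⟨_, rfl⟩
  rw [← hN] at g6
  have hScard : S.card = N := by rw [g1.1, mul_one, hN]
  obtain ⟨E, hE⟩ : ∃ E : Polynomial (OC C), E = ∑ j ∈ Finset.range N,
      Polynomial.monomial j (jacDv T v (D1.coeff j)) := ⟨_, rfl⟩
  have hEc : ∀ k, E.coeff k = jacDv T v (D1.coeff k) := by
    intro k
    rw [hE, Polynomial.finsetSum_coeff]
    simp only [Polynomial.coeff_monomial]
    rw [Finset.sum_ite_eq' (Finset.range N) k (fun j => jacDv T v (D1.coeff j))]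
    split_ifs with hk
    · rfl
    · rw [Finset.mem_range, not_lt] at hk
      rcases Nat.lt_or_ge N k with hk2 | hk2
      · rw [Polynomial.coeff_eq_zero_of_natDegree_lt (by rw [g6]; exact hk2), jacDv_zero]
      · have : k = D1.natDegree := by omega
        rw [this, g5.coeff_natDegree, jacDv_one]
  have hprod : (PowerSeries.mk fun m => jacDv T v (PowerSeries.coeff m D.W)) =
      (PowerSeries.mk fun m => jacDv T v (PowerSeries.coeff m U1)) *
        PowerSeries.map D.x (D1 : PowerSeries _) +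
      PowerSeries.map D.x U1 * (E : PowerSeries (OC C)) := by
    ext m
    rw [PowerSeries.coeff_mk, g3, PowerSeries.coeff_mul, jacDv_sum, map_add,
      PowerSeries.coeff_mul, PowerSeries.coeff_mul, ← Finset.sum_add_distrib]
    congr 1
    apply Finset.sum_congr rfl
    intro ij _
    rw [jacDv_mul T v D.x hT, PowerSeries.coeff_mk, PowerSeries.coeff_map, PowerSeries.coeff_map,
      Polynomial.coeff_coe, Polynomial.coeff_coe, hEc]
  have hEz : ∀ τ ∈ S, E.eval (τ ^ (p ^ h)) = 0 := by
    intro τ hτ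
    obtain ⟨h1, h2⟩ := hS τ hτ
    have hz := hpowlt τ h1
    have hz' := (OC.isTopologicallyNilpotent_iff _).2 hz
    unfold jacW at h2
    rw [hprod, tor_ev1_add _ _ hz', tor_ev1_mul _ _ hz', tor_ev1_mul _ _ hz',
      ev1_map _ _ _ hz', ev1_map _ _ _ hz', tor_ev1_coe _ _ hz', tor_ev1_coe _ _ hz'] at h2
    have h3 : Polynomial.eval₂ ((RingHom.id (OC C)).comp D.x) (τ ^ (p ^ h)) D1 = 0 := by
      apply Subtype.ext
      have h4 := Polynomial.hom_eval₂ D1 ((RingHom.id (OC C)).comp D.x) (OC C).subtype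
        (τ ^ (p ^ h))
      have h5 := congrArg (Polynomial.eval ((τ : C) ^ (p ^ h))) g7
      rw [Polynomial.eval_map] at h5
      show (OC C).subtype _ = 0
      rw [h4]
      have h6 : (OC C).subtype (τ ^ (p ^ h)) = (τ : C) ^ (p ^ h) := by
        rw [map_pow]; rfl
      rw [h6]
      show Polynomial.eval₂ ((OC C).subtype.comp D.x) ((τ : C) ^ (p ^ h)) D1 = 0
      rw [h5, Polynomial.eval_prod, Finset.prod_eq_zero hτ]
      simp
    rw [h3, mul_zero, zero_add] at h2
    have h7 := tor_norm_unit ((RingHom.id (OC C)).comp D.x) (τ ^ (p ^ h)) hz U1 g4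
    have h8 : ev1 ((RingHom.id (OC C)).comp D.x) (τ ^ (p ^ h)) U1 ≠ 0 := by
      intro h9
      rw [h9] at h7
      simp at h7
    exact (mul_eq_zero.1 h2).resolve_left h8
  have hE0 : E = 0 := by
    apply Polynomial.eq_zero_of_natDegree_lt_card_of_eval_eq_zero' E
      (S.image (fun τ => τ ^ (p ^ h)))
    · intro z hz
      obtain ⟨τ, hτ, rfl⟩ := Finset.mem_image.1 hz
      exact hEz τ hτ
    · rw [Finset.card_image_of_injective, hScard]
      · have hN0 : 0 < N := by rw [hN]; exact pow_pos hp.pos _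
        by_contra hcon
        rw [not_lt] at hcon
        have h1 : E.coeff E.natDegree = 0 := by
          rw [hEc]
          rcases Nat.lt_or_ge N E.natDegree with hk2 | hk2
          · rw [Polynomial.coeff_eq_zero_of_natDegree_lt (by rw [g6]; exact hk2), jacDv_zero]
          · have : E.natDegree = D1.natDegree := by omega
            rw [this, g5.coeff_natDegree, jacDv_one]
        have h2 : E = 0 := by
          rwa [← Polynomial.leadingCoeff, Polynomial.leadingCoeff_eq_zero] at h1
        rw [h2, Polynomial.natDegree_zero] at hcon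
        omega
      · intro a b hab
        exact iterateFrobenius_inj (OC C) p h (by simpa [iterateFrobenius_def] using hab)
  have hD0 : ∀ k, jacDv T v (D1.coeff k) = 0 := by
    intro k
    rw [← hEc, hE0, Polynomial.coeff_zero]
  -- conclusion
  have hxD : ∀ j < N, ‖D.x (D1.coeff j)‖ < 1 := by
    intro j hj
    have h1 := tor_prod_coeff_lt S (fun τ : OC C => (τ : C) ^ (p ^ h)) 1 one_pos (by
      intro τ hτ
      have := hpowlt τ (hS τ hτ).1
      exact this) j (by rw [hScard]; exact hj)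
    rw [one_pow, ← g7, Polynomial.coeff_map] at h1
    exact h1
  have hfin : ‖jacDv T v (PowerSeries.coeff (p ^ (l0 : ℕ)) D.W)‖ < 1 := by
    rw [g3, PowerSeries.coeff_mul, jacDv_sum]
    have h1 := tor_sum_lt (Finset.HasAntidiagonal.antidiagonal (p ^ (l0 : ℕ)))
      (fun ij => ((jacDv T v (PowerSeries.coeff ij.1 U1 *
        PowerSeries.coeff ij.2 (D1 : PowerSeries _)) : OC C) : C)) 1 one_pos (by
      rintro ⟨i, j⟩ hij
      rw [Finset.HasAntidiagonal.mem_antidiagonal] at hij
      simp only at hij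
      show ‖jacDv T v (PowerSeries.coeff i U1 * PowerSeries.coeff j (D1 : PowerSeries _))‖ < 1
      rw [jacDv_mul T v D.x hT, Polynomial.coeff_coe, hD0, mul_zero, add_zero, OC.norm_mul']
      have hj : j < N := by
        have h2 : p ^ (l0 : ℕ) < p ^ r := Nat.pow_lt_pow_right hp.one_lt l0.2
        rw [hN]; omega
      exact lt_of_le_of_lt (mul_le_of_le_one_left (norm_nonneg _) (OC.norm_le_one _)) (hxD j hj))
    have h2 : ((∑ ij ∈ Finset.HasAntidiagonal.antidiagonal (p ^ (l0 : ℕ)),
        jacDv T v (PowerSeries.coeff ij.1 U1 * PowerSeries.coeff ij.2 (D1 : PowerSeries _)) :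
        OC C) : C) = ∑ ij ∈ Finset.HasAntidiagonal.antidiagonal (p ^ (l0 : ℕ)),
        ((jacDv T v (PowerSeries.coeff ij.1 U1 *
        PowerSeries.coeff ij.2 (D1 : PowerSeries _)) : OC C) : C) :=
      map_sum (OC C).subtype _ _
    rw [← h2] at h1
    exact h1
  rw [D.Wcoord l0] at hfin
  have h1 : jacDv T v (MvPowerSeries.X l0) = 1 := by
    unfold jacDv
    rw [Finset.sum_eq_single l0, hTX, if_pos rfl, mul_one, hvl]
    · intro l _ hl
      rw [hTX, if_neg hl, mul_zero]
    · intro h; exact absurd (Finset.mem_univ _) h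
  rw [h1, OC.norm_one'] at hfin
  linarith

end Crest.Agent.LT
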