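import Crest.Agent.LT95.Form

/-! # Taylor expansion at the point: coefficient formula (row 227, STAR) -/

set_option autoImplicit false
set_option linter.unusedSectionVars false

namespace Crest.Agent.LT

open Crest.LubinTate MvPowerSeries Crest.Agent.LT95
open scoped MvPowerSeries.WithPiTopology

variable {p n h r : ℕ} [Fact p.Prime]
variable {C : Type*} [NontriviallyNormedField C] [CompleteSpace C] [IsUltrametricDist C]
  [CharP C p] [IsAlgClosed C]

/-- coefficients of `∏ (c_l + X_l)^(d_l)` -/
theorem ty_coeff_prod {S : Type*} [CommRing S] (c : Fin r → S) (d J : Fin r →₀ ℕ) :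
    MvPowerSeries.coeff J (∏ l, (MvPowerSeries.C (c l) + MvPowerSeries.X l) ^ (d l) :
      MvPowerSeries (Fin r) S) =
      if J ≤ d then ∏ l, (((d l).choose (J l) : ℕ) : S) * c l ^ (d l - J l) else 0 := by
  classical
  have h1 : ∀ l, (MvPowerSeries.C (c l) + MvPowerSeries.X l : MvPowerSeries (Fin r) S) ^ (d l) =
      ∑ i ∈ Finset.range (d l + 1), MvPowerSeries.C ((((d l).choose i : ℕ) : S) *
        c l ^ (d l - i)) * MvPowerSeries.X l ^ i := by
    intro l
    rw [add_comm, add_pow]
    apply Finset.sum_congr rfl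
    intro i _
    rw [map_mul, map_pow, map_natCast]
    ring
  rw [Finset.prod_congr rfl (fun l _ => h1 l), Finset.prod_univ_sum, map_sum]
  have h2 : ∀ I : Fin r → ℕ, MvPowerSeries.coeff J (∏ l,
      (MvPowerSeries.C ((((d l).choose (I l) : ℕ) : S) * c l ^ (d l - I l)) *
        MvPowerSeries.X l ^ (I l)) : MvPowerSeries (Fin r) S) =
      if I = J then ∏ l, (((d l).choose (J l) : ℕ) : S) * c l ^ (d l - J l) else 0 := by
    intro I
    rw [Finset.prod_mul_distrib, ← map_prod, MvPowerSeries.coeff_C_mul]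
    have h3 : (∏ l, MvPowerSeries.X l ^ (I l) : MvPowerSeries (Fin r) S) =
        MvPowerSeries.monomial (Finsupp.equivFunOnFinite.symm I) 1 := by
      rw [MvPowerSeries.monomial_one_eq, Finsupp.prod_fintype]
      · rfl
      · intro i; rw [pow_zero]
    rw [h3, MvPowerSeries.coeff_monomial]
    by_cases hI : I = J
    · have : J = Finsupp.equivFunOnFinite.symm I := by
        ext l; rw [hI]; rfl
      rw [if_pos this, if_pos hI, mul_one, hI]
    · have : ¬ J = Finsupp.equivFunOnFinite.symm I := by
        intro h; apply hI; rw [h]; rfl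
      rw [if_neg this, if_neg hI, mul_zero]
  rw [Finset.sum_congr rfl (fun I _ => h2 I), Finset.sum_ite_eq']
  congr 1
  rw [Fintype.mem_piFinset, eq_iff_iff]
  constructor
  · intro h l
    have := h l
    rw [Finset.mem_range] at this
    omega
  · intro h l
    rw [Finset.mem_range]
    have := h l
    omega

/-- the coefficient formula for the Taylor expansion -/
theorem CData.taylor_formula (D : CData p n h r C)
    (f : MvPowerSeries (Fin r) (GaloisField p n)) (J : Fin r →₀ ℕ) :
    MvPowerSeries.coeff J (tay D (fun l => (MvPowerSeries.X l : MvPowerSeries (Fin r) (OC C)))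
      (fun _ => MvPowerSeries.constantCoeff_X _) f) =
      D.x (fun e : Fin r →₀ ℕ => ((∏ i, ((e + J) i).choose (J i) : ℕ) : GaloisField p n) *
        MvPowerSeries.coeff (e + J) f) := by
  classical
  -- left hand side as a sum
  have h1 := hasSum_ev ((MvPowerSeries.C : OC C →+* MvPowerSeries (Fin r) (OC C)).comp
      (D.x.comp MvPowerSeries.C))
    (fun l => MvPowerSeries.C (D.x (MvPowerSeries.X l)) + MvPowerSeries.X l)
    (tay_tn D _ (fun _ => MvPowerSeries.constantCoeff_X _)) f
  rw [← evHom_apply _ _ (tay_tn D _ (fun _ => MvPowerSeries.constantCoeff_X _))] at h1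
  have h2 := (MvPowerSeries.WithPiTopology.hasSum_iff_hasSum_coeff.mp h1) J
  have h3 : ∀ d : Fin r →₀ ℕ, MvPowerSeries.coeff J
      (((MvPowerSeries.C : OC C →+* MvPowerSeries (Fin r) (OC C)).comp
      (D.x.comp MvPowerSeries.C)) (MvPowerSeries.coeff d f) *
      d.prod (fun i e => (MvPowerSeries.C (D.x (MvPowerSeries.X i)) + MvPowerSeries.X i) ^ e)) =
      D.x (MvPowerSeries.C (MvPowerSeries.coeff d f)) * (if J ≤ d then
        ∏ l, (((d l).choose (J l) : ℕ) : OC C) * D.x (MvPowerSeries.X l) ^ (d l - J l) else 0) := by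
    intro d
    rw [RingHom.comp_apply, RingHom.comp_apply, MvPowerSeries.coeff_C_mul,
      Finsupp.prod_fintype _ _ (fun i => pow_zero _), ty_coeff_prod]
  simp only [h3] at h2
  -- right hand side as a sum
  obtain ⟨g, hg⟩ : ∃ g : MvPowerSeries (Fin r) (GaloisField p n),
      g = (fun e : Fin r →₀ ℕ => ((∏ i, ((e + J) i).choose (J i) : ℕ) : GaloisField p n) *
        MvPowerSeries.coeff (e + J) f) := ⟨_, rfl⟩
  have hgc : ∀ e, MvPowerSeries.coeff e g =
      ((∏ i, ((e + J) i).choose (J i) : ℕ) : GaloisField p n) *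
        MvPowerSeries.coeff (e + J) f := by
    intro e; rw [hg]; rfl
  rw [← hg]
  have h4 := hasSum_ev (D.x.comp MvPowerSeries.C) (fun i => D.x (MvPowerSeries.X i))
    (fun i => (OC.isTopologicallyNilpotent_iff _).2 (x_X_lt D i)) g
  rw [← D.point_eq_ev g] at h4
  -- reindex
  have hinj : Function.Injective (fun e : Fin r →₀ ℕ => e + J) := fun a b hab => by
    simpa using hab
  have h5 := (hinj.hasSum_iff (f := fun d : Fin r →₀ ℕ =>
      D.x (MvPowerSeries.C (MvPowerSeries.coeff d f)) * (if J ≤ d then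
        ∏ l, (((d l).choose (J l) : ℕ) : OC C) * D.x (MvPowerSeries.X l) ^ (d l - J l) else 0))
      (a := MvPowerSeries.coeff J (tay D (fun l => (MvPowerSeries.X l :
        MvPowerSeries (Fin r) (OC C))) (fun _ => MvPowerSeries.constantCoeff_X _) f)) (by
      intro d hd
      have : ¬ J ≤ d := by
        intro hle
        apply hd
        exact ⟨d - J, by simp [tsub_add_cancel_of_le hle]⟩
      rw [if_neg this, mul_zero])).2 h2
  have h7 : ((fun d : Fin r →₀ ℕ =>
      D.x (MvPowerSeries.C (MvPowerSeries.coeff d f)) * (if J ≤ d then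
        ∏ l, (((d l).choose (J l) : ℕ) : OC C) * D.x (MvPowerSeries.X l) ^ (d l - J l) else 0)) ∘
        fun e : Fin r →₀ ℕ => e + J) =
      fun e : Fin r →₀ ℕ => (D.x.comp MvPowerSeries.C) (MvPowerSeries.coeff e g) *
        e.prod (fun i k => D.x (MvPowerSeries.X i) ^ k) := by
    funext e
    rw [Function.comp_apply, hgc]
    have hle : J ≤ e + J := le_add_self
    rw [if_pos hle, Finsupp.prod_fintype _ _ (fun i => pow_zero _), Finset.prod_mul_distrib,
      RingHom.comp_apply, map_mul, map_mul, map_natCast, map_natCast, Nat.cast_prod]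
    have h6 : ∏ l, D.x (MvPowerSeries.X l) ^ ((e + J) l - J l) =
        ∏ l, D.x (MvPowerSeries.X l) ^ (e l) := by
      apply Finset.prod_congr rfl
      intro l _
      congr 1
      simp
    rw [h6]
    ring
  rw [h7] at h5
  exact h5.unique h4

/-- evaluation of the Taylor expansion -/
theorem CData.taylor_ev_aux (D : CData p n h r C)
    (f : MvPowerSeries (Fin r) (GaloisField p n)) (u : Fin r → OC C) (hu : ∀ i, ‖u i‖ < 1) :
    ev (RingHom.id (OC C)) u (tay D (fun l => (MvPowerSeries.X l :
      MvPowerSeries (Fin r) (OC C))) (fun _ => MvPowerSeries.constantCoeff_X _) f) =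
      ev (D.x.comp MvPowerSeries.C) (fun i => D.x (MvPowerSeries.X i) + u i) f := by
  have hu' : ∀ i, IsTopologicallyNilpotent (u i) :=
    fun i => (OC.isTopologicallyNilpotent_iff _).2 (hu i)
  rw [← evHom_apply _ _ hu', map_tay D _ _ _
    (continuous_evHom_of (RingHom.id (OC C)) continuous_id u hu')]
  have h1 : ((evHom (RingHom.id (OC C)) u hu').comp MvPowerSeries.C).comp
      (D.x.comp MvPowerSeries.C) = D.x.comp MvPowerSeries.C := by
    ext c
    simp only [RingHom.comp_apply]
    rw [evHom_apply, ev_C _ _ hu', RingHom.id_apply]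
  rw [h1]
  congr 1
  funext l
  rw [evHom_apply, evHom_apply, ev_C _ _ hu', ev_X _ _ hu', RingHom.id_apply]

end Crest.Agent.LT
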