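import Mathlib
import Crest.Agent.LT.CDefs
import Crest.Agent.LT.Iota
import Crest.Agent.LT.LogC
import Crest.Agent.LT.Torsion
import Crest.Agent.LT.Special
import Crest.Agent.LT.Jacobian
import Crest.Agent.LT95.StarMain
import Crest.Agent.LT.Taylor

/-! # STAR: orbit expansion (row 227). Paper proof: ideas row 227, post 4, STAR. -/

set_option autoImplicit false
set_option linter.unusedSectionVars false

namespace Crest.Agent.LT

open Crest.LubinTate MvPowerSeries

variable {p n h r : ℕ} [Fact p.Prime]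
variable {C : Type*} [NontriviallyNormedField C] [CompleteSpace C] [IsUltrametricDist C]
  [CharP C p] [IsAlgClosed C]

/-- coefficientwise Hasse derivative at the point: the Taylor expansion of `f ∈ A` at `x`:
`taylor f = f(x + U) ∈ OC[[U]]`, coefficient of `U^J` is `x(∂^(J) f)`:
`x` applied to `Σ_{d ≥ J} binom(d, J) f_d X^(d-J)`. -/
noncomputable def CData.taylor (D : CData p n h r C)
    (f : MvPowerSeries (Fin r) (GaloisField p n)) : MvPowerSeries (Fin r) (OC C) :=
  fun J => D.x (fun e => ((∏ i, ((e + J) i).choose (J i) : ℕ) : GaloisField p n) *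
    MvPowerSeries.coeff (e + J) f)

open scoped MvPowerSeries.WithPiTopology in
/-- `taylor` is evaluation at `x + U` -/
theorem CData.taylor_eq (D : CData p n h r C) (f : MvPowerSeries (Fin r) (GaloisField p n)) :
    D.taylor f = LT95.tay D (fun l => (MvPowerSeries.X l : MvPowerSeries (Fin r) (OC C)))
      (fun _ => MvPowerSeries.constantCoeff_X _) f := by
  apply MvPowerSeries.ext
  intro J
  exact (D.taylor_formula f J).symm

/-- `taylor` is a ring hom -/
theorem CData.taylor_ringHom (D : CData p n h r C) :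
    ∃ T : MvPowerSeries (Fin r) (GaloisField p n) →+* MvPowerSeries (Fin r) (OC C),
      ∀ f, T f = D.taylor f :=
  ⟨LT95.tay D (fun l => (MvPowerSeries.X l : MvPowerSeries (Fin r) (OC C)))
      (fun _ => MvPowerSeries.constantCoeff_X _), fun f => (D.taylor_eq f).symm⟩

open scoped MvPowerSeries.WithPiTopology in
/-- evaluating the Taylor expansion: `f(x + u) = (taylor f)(u)` -/
theorem CData.ev_taylor (D : CData p n h r C) (f : MvPowerSeries (Fin r) (GaloisField p n))
    (u : Fin r → OC C) (hu : ∀ i, ‖u i‖ < 1) :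
    ev (RingHom.id (OC C)) u (D.taylor f) =
      ev (D.x.comp MvPowerSeries.C) (fun i => D.x (MvPowerSeries.X i) + u i) f := by
  rw [D.taylor_eq, ← evHom_apply _ _ (LT95.nilp hu), LT95.map_tay D _ _ _
    (LT95.continuous_evHom_of (RingHom.id (OC C)) continuous_id u (LT95.nilp hu))]
  have h1 : ((evHom (RingHom.id (OC C)) u (LT95.nilp hu)).comp MvPowerSeries.C).comp
      (D.x.comp MvPowerSeries.C) = D.x.comp MvPowerSeries.C := by
    ext c
    simp only [RingHom.comp_apply]
    rw [evHom_apply, ev_C _ _ (LT95.nilp hu), RingHom.id_apply]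
  rw [h1]
  congr 1
  funext l
  rw [evHom_apply, evHom_apply, ev_C _ _ (LT95.nilp hu), ev_X _ _ (LT95.nilp hu), RingHom.id_apply]

/-- `Θ(f) = (taylor f)(𝒰(Y)) ∈ C[[Y]]` -/
noncomputable def CData.theta (D : CData p n h r C) (𝒰 : Fin r → MvPowerSeries (Fin r) C)
    (f : MvPowerSeries (Fin r) (GaloisField p n)) : MvPowerSeries (Fin r) C :=
  MvPowerSeries.subst 𝒰 (MvPowerSeries.map (OC C).subtype (D.taylor f))

/-- companion point: `x'` with a hom `θ : H_{x'} → H_x` over `OC` reducing to `g` -/
def CData.Companion (D : CData p n h r C) (g : PowerSeries (GaloisField p n))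
    (x' : MvPowerSeries (Fin r) (GaloisField p n) →+* OC C) : Prop :=
  D.IsPoint x' ∧ ∃ (θ : PowerSeries (OC C)) (ρ : ℝ), ρ < 1 ∧ IsFGHom (D.H.map x') (D.H.map D.x) θ ∧
    ∀ i, ‖PowerSeries.coeff i θ - D.toLData.kx (PowerSeries.coeff i g)‖ ≤ ρ

theorem CData.jac_taylor_const (D : CData p n h r C)
    (f : MvPowerSeries (Fin r) (GaloisField p n)) :
    MvPowerSeries.constantCoeff (D.taylor f) = D.x f := by
  show D.x _ = D.x f
  congr 1
  ext1 e
  show ((∏ i, ((e + 0) i).choose ((0 : Fin r →₀ ℕ) i) : ℕ) : GaloisField p n) *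
    MvPowerSeries.coeff (e + 0) f = MvPowerSeries.coeff e f
  simp

theorem CData.jac_taylor_X (D : CData p n h r C) (i l : Fin r) :
    MvPowerSeries.coeff (Finsupp.single l 1) (D.taylor (MvPowerSeries.X i)) =
      if l = i then 1 else 0 := by
  classical
  have h1 : (fun e : Fin r →₀ ℕ => ((∏ k, ((e + Finsupp.single l 1 : Fin r →₀ ℕ) k).choose
      ((Finsupp.single l 1 : Fin r →₀ ℕ) k) : ℕ) : GaloisField p n) *
      MvPowerSeries.coeff (e + Finsupp.single l 1)
        (MvPowerSeries.X i : MvPowerSeries (Fin r) (GaloisField p n)) :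
        MvPowerSeries (Fin r) (GaloisField p n)) =
      if l = i then (1 : MvPowerSeries (Fin r) (GaloisField p n)) else 0 := by
    apply MvPowerSeries.ext
    intro e
    show ((∏ k, ((e + Finsupp.single l 1 : Fin r →₀ ℕ) k).choose
      ((Finsupp.single l 1 : Fin r →₀ ℕ) k) : ℕ) : GaloisField p n) *
      MvPowerSeries.coeff (e + Finsupp.single l 1)
        (MvPowerSeries.X i : MvPowerSeries (Fin r) (GaloisField p n)) =
      MvPowerSeries.coeff e (if l = i then (1 : MvPowerSeries (Fin r) (GaloisField p n)) else 0)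
    rw [MvPowerSeries.coeff_X]
    by_cases he : e = 0
    · subst he
      rw [zero_add]
      by_cases hl : l = i
      · subst hl
        simp [MvPowerSeries.coeff_zero_one]
      · rw [if_neg hl, if_neg, mul_zero, map_zero]
        intro h
        have := congrArg (fun f => f l) h
        simp only [Finsupp.single_eq_same, Finsupp.single_apply, if_neg (Ne.symm hl)] at this
        omega
    · have h2 : ¬ (e + Finsupp.single l 1 = Finsupp.single i 1) := by
        intro h
        apply he
        have h3 := congrArg Finsupp.degree h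
        rw [map_add, Finsupp.degree_single, Finsupp.degree_single] at h3
        exact (Finsupp.degree_eq_zero_iff e).1 (by omega)
      rw [if_neg h2, mul_zero]
      by_cases hl : l = i
      · rw [if_pos hl, MvPowerSeries.coeff_one, if_neg he]
      · rw [if_neg hl, map_zero]
  show D.x _ = _
  rw [h1]
  split_ifs
  · exact map_one _
  · exact map_zero _

/-- Jacobian part of STAR: the matrix `(∂_l W)_x(τ_i)`, `τ_i = ι(t_i^(1/q))^Q`, is invertible. -/
theorem CData.jacobian (D : CData p n h r C) (t : Fin r → OC C) (ht : D.toLData.TBasis t) :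
    IsUnit (Matrix.det (Matrix.of fun i l : Fin r =>
      ((ev1 (RingHom.id (OC C)) ((D.toLData.iota (rt p n (t i))) ^ (p ^ h))
        (PowerSeries.mk fun m => MvPowerSeries.coeff (Finsupp.single l 1)
          (D.taylor (PowerSeries.coeff m D.W))) : OC C) : C))) := by
  obtain ⟨T, hT⟩ := D.taylor_ringHom
  have := D.jacobian_aux T (fun f => by rw [hT, D.jac_taylor_const])
    (fun i l => by rw [hT, D.jac_taylor_X]) t ht
  simpa only [hT] using this

/-- STAR. `t` basis of `ker ι`, `y_i(δ) = π(δ(t_i))`. For every `N` there is `𝒰 ∈ ((Y)C[[Y]])^r` with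
invertible linear part such that, if `g_a` is the inverse of `1 + p^a δ` and `x'_a` is a companion
point for `g_a` with `x'_a → x`, then `x'_a(f) = Θ(f)^[<N](y(δ)^(Q^a)) + O(|y(δ)|^(N Q^a))`. -/
theorem CData.star (D : CData p n h r C) (t : Fin r → OC C) (ht : D.toLData.TBasis t) (N : ℕ) :
    ∃ 𝒰 : Fin r → MvPowerSeries (Fin r) C, (∀ i, MvPowerSeries.constantCoeff (𝒰 i) = 0) ∧
      IsUnit (Matrix.det (Matrix.of fun l i : Fin r =>
        MvPowerSeries.coeff (Finsupp.single i 1) (𝒰 l))) ∧
      ∀ δ, IsFGHom D.Γ D.Γ δ → ∀ η : ℕ → ℝ, Filter.Tendsto η Filter.atTop (nhds 0) →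
        ∀ f : MvPowerSeries (Fin r) (GaloisField p n), ∃ (C0 : ℝ) (a0 : ℕ), ∀ a ≥ a0,
          ∀ (g : PowerSeries (GaloisField p n))
            (x' : MvPowerSeries (Fin r) (GaloisField p n) →+* OC C), IsFGHom D.Γ D.Γ g →
            PowerSeries.subst (D.Γ.toPowerSeries.subst ![PowerSeries.X,
              PowerSeries.subst δ (mulSeries D.Γ (p ^ a))] : PowerSeries (GaloisField p n)) g =
              PowerSeries.X →
            D.Companion g x' → (∀ i, ‖x' (MvPowerSeries.X i) - D.x (MvPowerSeries.X i)‖ ≤ η a) →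
            ‖(x' f : C) - MvPolynomial.eval
                (fun i => (D.toLData.pi (ev1 D.toLData.kx (t i) δ) : C) ^ ((p ^ h) ^ a))
                (truncTotal N (D.theta 𝒰 f))‖ ≤
              C0 * (‖fun i => D.toLData.pi (ev1 D.toLData.kx (t i) δ)‖) ^ (N * (p ^ h) ^ a) := by
  have hJ := D.jacobian t ht
  simp only [D.taylor_eq] at hJ
  obtain ⟨𝒰, h1, h2, h3⟩ := LT95.star_aux D t ht N hJ
  refine ⟨𝒰, h1, h2, fun δ hδ η hη f => ?_⟩
  obtain ⟨C0, a0, h4⟩ := h3 δ hδ η hη f
  refine ⟨C0, a0, fun a ha g x' hg hgi hc hη' => ?_⟩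
  obtain ⟨hx', θ, ρ, hρ, hθ, hθg⟩ := hc
  unfold CData.theta
  rw [D.taylor_eq]
  exact h4 a ha g x' hg hgi hx' θ ρ hρ hθ hθg hη'

end Crest.Agent.LT
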