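import Mathlib
import Crest.Agent.LT.Ring
import Crest.Agent.LT93.Height
import Crest.Agent.LT.Act
import Crest.Agent.LT.Coord
import Crest.Agent.LT.Cont
import Crest.Agent.LT.CDefs
import Crest.Agent.LT.Star

/-! # Assembly of part C, step A: from `E` to `A = E/I_h`, the data `D`, companion points. -/

set_option autoImplicit false
set_option linter.unusedSectionVars false

namespace Crest.Agent.LT

open Crest.LubinTate MvPowerSeries

variable {p : ℕ} [hp : Fact p.Prime] {n : ℕ}

instance cm_charP_GF : CharP (GaloisField p n) p := inferInstance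

instance cm_charP_A (r : ℕ) : CharP (MvPowerSeries (Fin r) (GaloisField p n)) p :=
  charP_of_injective_ringHom (f := (MvPowerSeries.C : GaloisField p n →+* _))
    MvPowerSeries.C_injective p

/-- element with `z^(p^n) = z` and given constant term is constant -/
lemma cm_eq_C_of_pow {r : ℕ} (hn : 1 ≤ n) (z : MvPowerSeries (Fin r) (GaloisField p n))
    (hz : z ^ (p ^ n) = z) : z = MvPowerSeries.C (MvPowerSeries.constantCoeff z) := by
  have hn0 : n ≠ 0 := by omega
  have hcq : ∀ c : GaloisField p n, c ^ (p ^ n) = c := by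
    intro c
    have := Fintype.ofFinite (GaloisField p n)
    have hcard : Fintype.card (GaloisField p n) = p ^ n := by
      rw [← Nat.card_eq_fintype_card, GaloisField.card p n hn0]
    rw [← hcard]; exact FiniteField.pow_card c
  set c := MvPowerSeries.constantCoeff z with hc
  have hu : (z - MvPowerSeries.C c) ^ (p ^ n) = z - MvPowerSeries.C c := by
    rw [sub_pow_char_pow, hz, ← map_pow, hcq]
  set u := z - MvPowerSeries.C c with hudef
  have hu0 : MvPowerSeries.constantCoeff u = 0 := by simp [hudef, hc]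
  have hq : 2 ≤ p ^ n := le_trans hp.1.two_le (Nat.le_self_pow hn0 p)
  have hfac : u * (u ^ (p ^ n - 1) - 1) = 0 := by
    rw [mul_sub, mul_one, ← pow_succ', Nat.sub_add_cancel (by omega), hu, sub_self]
  have hunit : u ^ (p ^ n - 1) - 1 ≠ 0 := by
    intro h0
    have := congrArg MvPowerSeries.constantCoeff h0
    rw [map_sub, map_pow, hu0, zero_pow (by omega), map_one, map_zero, zero_sub] at this
    exact one_ne_zero (neg_eq_zero.mp this)
  have := (mul_eq_zero.mp hfac).resolve_right hunit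
  exact sub_eq_zero.mp this

/-- the `W` series over `A` -/
lemma cm_exists_W {Γ : FormalGroup (GaloisField p n)} {H : FormalGroup (LTRing p n)} [H.IsComm]
    {h r : ℕ} (π : LTRing p n →+* MvPowerSeries (Fin r) (GaloisField p n))
    (hker : RingHom.ker π = heightIdeal p n H h)
    (hX : ∀ i : Fin r, π (PowerSeries.coeff (p ^ (h + i.val)) (mulSeries H p)) =
        MvPowerSeries.X i) :
    ∃ W : PowerSeries (MvPowerSeries (Fin r) (GaloisField p n)),
      PowerSeries.constantCoeff W = 0 ∧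
      mulSeries (H.map π) p = PowerSeries.subst (PowerSeries.X ^ (p ^ h) :
        PowerSeries (MvPowerSeries (Fin r) (GaloisField p n))) W ∧
      ∀ i : Fin r, PowerSeries.coeff (p ^ (i : ℕ)) W = MvPowerSeries.X i := by
  have h1 : ∀ j < h, PowerSeries.coeff (p ^ j) (mulSeries (H.map π) p) = 0 := by
    intro j hj
    rw [mulSeries_map, PowerSeries.coeff_map]
    have : PowerSeries.coeff (p ^ j) (mulSeries H p) ∈ RingHom.ker π := by
      rw [hker]; exact LT93.coeff_pow_mem_heightIdeal H hj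
    exact this
  haveI : (H.map π).IsComm := map_isComm H π
  obtain ⟨W, hW, hWhom⟩ := IsFGHom.frob_factor_iterate p (isFGHom_mulSeries (H.map π) p) h h1
  refine ⟨W, hWhom.1, hW, ?_⟩
  intro i
  rw [← hX i, ← PowerSeries.coeff_map, ← mulSeries_map, hW, PowerSeries.coeff_subst_X_pow]
  · rw [if_pos, pow_add, Nat.mul_div_cancel_left]
    · rfl
    · exact pow_pos hp.1.pos _
    · exact Dvd.intro _ (pow_add p h i).symm
  · exact pow_ne_zero _ hp.1.ne_zero

/-- `π ∘ algebraMap` on `W(k)` is `C ∘ residue` -/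
lemma cm_pi_algebraMap {r : ℕ} (hn : 1 ≤ n)
    (π : LTRing p n →+* MvPowerSeries (Fin r) (GaloisField p n))
    (hπp : π (p : LTRing p n) = 0)
    (hc : MvPowerSeries.constantCoeff.comp π = LTRing.residue p n)
    (w : WittVector p (GaloisField p n)) :
    π (algebraMap (WittVector p (GaloisField p n)) (LTRing p n) w) =
      MvPowerSeries.C (WittVector.constantCoeff w) := by
  have hn0 : n ≠ 0 := by omega
  set c := (WittVector.constantCoeff w : GaloisField p n) with hcdef
  set j := π.comp (algebraMap (WittVector p (GaloisField p n)) (LTRing p n)) with hj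
  have hjp : j (p : WittVector p (GaloisField p n)) = 0 := by
    rw [hj, RingHom.comp_apply, map_natCast]; exact hπp
  have hsub : w - WittVector.teichmuller p c ∈ RingHom.ker
      (WittVector.constantCoeff : WittVector p (GaloisField p n) →+* _) := by
    rw [RingHom.mem_ker, map_sub, ← hcdef]
    simp
  rw [ker_constantCoeff_witt, Ideal.mem_span_singleton'] at hsub
  obtain ⟨w', hw'⟩ := hsub
  have h1 : j w = j (WittVector.teichmuller p c) := by
    rw [← sub_eq_zero, ← map_sub, ← hw', map_mul, hjp, mul_zero]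
  have hcq : c ^ (p ^ n) = c := by
    have := Fintype.ofFinite (GaloisField p n)
    have hcard : Fintype.card (GaloisField p n) = p ^ n := by
      rw [← Nat.card_eq_fintype_card, GaloisField.card p n hn0]
    rw [← hcard]; exact FiniteField.pow_card c
  have h2 : (j (WittVector.teichmuller p c)) ^ (p ^ n) = j (WittVector.teichmuller p c) := by
    rw [← map_pow, ← map_pow, hcq]
  have h3 := cm_eq_C_of_pow hn _ h2
  have h4 : MvPowerSeries.constantCoeff (j (WittVector.teichmuller p c)) = c := by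
    rw [hj, RingHom.comp_apply, ← RingHom.comp_apply MvPowerSeries.constantCoeff, hc,
      ← RingHom.comp_apply, residue_algebraMap]
    simp
  show j w = _
  rw [h1, h3, h4]

/-- `[p^a]_Γ = X^((p^n)^a)` -/
lemma cm_mulSeries_pow {Γ : FormalGroup (GaloisField p n)} [Γ.IsComm]
    (hΓ : mulSeries Γ p = PowerSeries.X ^ (p ^ n)) (a : ℕ) :
    mulSeries Γ (p ^ a) = PowerSeries.X ^ ((p ^ n) ^ a) := by
  induction a with
  | zero => simp [mulSeries_one]
  | succ a ih =>
    rw [pow_succ, mulSeries_mul, ih, hΓ, PowerSeries.subst_pow, PowerSeries.subst_X, ← pow_mul,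
      pow_succ]
    · exact PowerSeries.HasSubst.X_pow (pow_ne_zero _ (pow_ne_zero _ hp.1.ne_zero))
    · exact PowerSeries.HasSubst.X_pow (pow_ne_zero _ (pow_ne_zero _ hp.1.ne_zero))

/-- `1 + p^a δ` -/
noncomputable def onePlus (Γ : FormalGroup (GaloisField p n)) (a : ℕ)
    (δ : PowerSeries (GaloisField p n)) : PowerSeries (GaloisField p n) :=
  Γ.toPowerSeries.subst ![PowerSeries.X, PowerSeries.subst δ (mulSeries Γ (p ^ a))]

lemma cm_onePlus_dvd {Γ : FormalGroup (GaloisField p n)} [Γ.IsComm]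
    (hΓ : mulSeries Γ p = PowerSeries.X ^ (p ^ n)) (a : ℕ)
    {δ : PowerSeries (GaloisField p n)} (hδ : IsFGHom Γ Γ δ) :
    (PowerSeries.X : PowerSeries (GaloisField p n)) ^ ((p ^ n) ^ a) ∣
      onePlus Γ a δ - PowerSeries.X := by
  have hδs : PowerSeries.HasSubst δ := PowerSeries.HasSubst.of_constantCoeff_zero' hδ.1
  have hb : (PowerSeries.X : PowerSeries (GaloisField p n)) ^ ((p ^ n) ^ a) ∣
      PowerSeries.subst δ (mulSeries Γ (p ^ a)) - 0 := by
    rw [sub_zero, cm_mulSeries_pow hΓ, PowerSeries.subst_pow hδs, PowerSeries.subst_X hδs]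
    exact pow_dvd_pow_of_dvd (PowerSeries.X_dvd_iff.mpr hδ.1) _
  have h0 : PowerSeries.constantCoeff (PowerSeries.subst δ (mulSeries Γ (p ^ a)) :
      PowerSeries (GaloisField p n)) = 0 :=
    (IsFGHom.comp hδ (isFGHom_mulSeries Γ (p ^ a))).1
  have := LT93.X_pow_dvd_op_sub Γ (a := PowerSeries.X) (by simp) h0 (map_zero _) hb
  rw [LT93.op_zero Γ LT93.hXX] at this
  exact this

lemma cm_onePlus_hom {Γ : FormalGroup (GaloisField p n)} [Γ.IsComm] (a : ℕ)
    {δ : PowerSeries (GaloisField p n)} (hδ : IsFGHom Γ Γ δ) :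
    IsFGHom Γ Γ (onePlus Γ a δ) :=
  IsFGHom.add (IsFGHom.id Γ) (IsFGHom.comp hδ (isFGHom_mulSeries Γ (p ^ a)))

lemma cm_coeff_onePlus {Γ : FormalGroup (GaloisField p n)} [Γ.IsComm]
    (hΓ : mulSeries Γ p = PowerSeries.X ^ (p ^ n)) {a : ℕ}
    {δ : PowerSeries (GaloisField p n)} (hδ : IsFGHom Γ Γ δ) {i : ℕ} (hi : i < (p ^ n) ^ a) :
    PowerSeries.coeff i (onePlus Γ a δ) = PowerSeries.coeff i PowerSeries.X := by
  have := (PowerSeries.X_pow_dvd_iff.mp (cm_onePlus_dvd hΓ a hδ)) i hi
  rwa [map_sub, sub_eq_zero] at this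

/-- the inverse `g` of `1 + p^a δ`: it exists, is an automorphism, and any such `g` is
congruent to `X` modulo `X^(q^a)`. -/
lemma cm_inv_congr {Γ : FormalGroup (GaloisField p n)} [Γ.IsComm] (hn : 1 ≤ n)
    (hΓ : mulSeries Γ p = PowerSeries.X ^ (p ^ n)) {a : ℕ} (ha : 1 ≤ a)
    {δ : PowerSeries (GaloisField p n)} (hδ : IsFGHom Γ Γ δ)
    {g : PowerSeries (GaloisField p n)} (hg : IsFGHom Γ Γ g)
    (hgu : PowerSeries.subst (onePlus Γ a δ) g = PowerSeries.X) :
    IsFGAut Γ g ∧ ∀ i < (p ^ n) ^ a, PowerSeries.coeff i g = PowerSeries.coeff i PowerSeries.X := by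
  have hu := cm_onePlus_hom a hδ
  have hcong : ∀ i < (p ^ n) ^ a,
      PowerSeries.coeff i g = PowerSeries.coeff i PowerSeries.X := by
    have h1 := LT93.X_pow_dvd_subst_sub (σ := Unit) (a := fun _ => onePlus Γ a δ)
      (b := fun _ => PowerSeries.X)
      (PowerSeries.HasSubst.const (PowerSeries.HasSubst.of_constantCoeff_zero' hu.1))
      (PowerSeries.HasSubst.const LT93.hXX) (fun _ => cm_onePlus_dvd hΓ a hδ) g
    change (PowerSeries.X : PowerSeries (GaloisField p n)) ^ ((p ^ n) ^ a) ∣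
      PowerSeries.subst (onePlus Γ a δ) g - PowerSeries.subst PowerSeries.X g at h1
    rw [hgu, PowerSeries.X_subst] at h1
    intro i hi
    have h2 := (PowerSeries.X_pow_dvd_iff.mp h1) i hi
    rw [map_sub, sub_eq_zero] at h2
    exact h2.symm
  refine ⟨⟨hg, ?_⟩, hcong⟩
  have h1 : 1 < (p ^ n) ^ a := Nat.one_lt_pow (by omega)
    (Nat.one_lt_pow (by omega) hp.1.one_lt)
  rw [hcong 1 h1, PowerSeries.coeff_one_X]
  exact isUnit_one

lemma cm_exists_inv {Γ : FormalGroup (GaloisField p n)} [Γ.IsComm] (hn : 1 ≤ n)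
    (hΓ : mulSeries Γ p = PowerSeries.X ^ (p ^ n)) {a : ℕ} (ha : 1 ≤ a)
    {δ : PowerSeries (GaloisField p n)} (hδ : IsFGHom Γ Γ δ) :
    ∃ g : PowerSeries (GaloisField p n), IsFGHom Γ Γ g ∧
      PowerSeries.subst (onePlus Γ a δ) g = PowerSeries.X := by
  have hu := cm_onePlus_hom a hδ
  have h1 : 1 < (p ^ n) ^ a := Nat.one_lt_pow (by omega)
    (Nat.one_lt_pow (by omega) hp.1.one_lt)
  obtain ⟨g, hg, -, h, -⟩ := IsFGHom.exists_inv hu (by
    rw [cm_coeff_onePlus hΓ hδ h1, PowerSeries.coeff_one_X]; exact isUnit_one)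
  exact ⟨g, hg, h⟩

lemma cm_eta {M' : ℕ → ℕ} {ε : ℝ} (hε0 : 0 ≤ ε) (hε1 : ε < 1) (hn : 1 ≤ n) :
    ∃ Nf : ℕ → ℕ, Filter.Tendsto (fun a => ε ^ (Nf a)) Filter.atTop (nhds 0) ∧
      ∀ a, Nf a = 0 ∨ M' (Nf a) ≤ (p ^ n) ^ a := by
  classical
  refine ⟨fun a => Nat.findGreatest (fun N => M' N ≤ (p ^ n) ^ a) a, ?_, ?_⟩
  · have h1 : Filter.Tendsto (fun a => Nat.findGreatest (fun N => M' N ≤ (p ^ n) ^ a) a)
        Filter.atTop Filter.atTop := by
      rw [Filter.tendsto_atTop]
      intro N0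
      have h2 : Filter.Tendsto (fun a : ℕ => (p ^ n) ^ a) Filter.atTop Filter.atTop :=
        tendsto_pow_atTop_atTop_of_one_lt (Nat.one_lt_pow (by omega) hp.1.one_lt)
      filter_upwards [Filter.eventually_ge_atTop N0, h2.eventually_ge_atTop (M' N0)] with a ha hb
      exact Nat.le_findGreatest ha hb
    exact (tendsto_pow_atTop_nhds_zero_of_lt_one hε0 hε1).comp h1
  · intro a
    by_cases h : Nat.findGreatest (fun N => M' N ≤ (p ^ n) ^ a) a = 0
    · exact Or.inl h
    · exact Or.inr (Nat.findGreatest_of_ne_zero (P := fun N => M' N ≤ (p ^ n) ^ a) rfl h)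

section comp

variable {C : Type*} [NontriviallyNormedField C] [CompleteSpace C] [IsUltrametricDist C]
  [CharP C p] [IsAlgClosed C]

theorem cm_companion (hn : 1 ≤ n) {Γ : FormalGroup (GaloisField p n)} [Γ.IsComm]
    (hΓ : mulSeries Γ p = PowerSeries.X ^ (p ^ n)) {H : FormalGroup (LTRing p n)} [H.IsComm]
    (hH : IsUniversalDeformation p n Γ H) {h r : ℕ} (h1 : 1 ≤ h)
    (π : LTRing p n →+* MvPowerSeries (Fin r) (GaloisField p n))
    (hsurj : Function.Surjective π) (hker : RingHom.ker π = heightIdeal p n H h)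
    (hc : MvPowerSeries.constantCoeff.comp π = LTRing.residue p n)
    (hX : ∀ i : Fin r, π (PowerSeries.coeff (p ^ (h + i.val)) (mulSeries H p)) =
        MvPowerSeries.X i)
    (D : CData p n h r C) (hDH : D.H = H.map π) (M : ℕ) (P : Ideal (LTRing p n))
    (hst : IsStableIdeal p n Γ H M P) (hPx : ∀ f ∈ P, D.x (π f) = 0) :
    ∃ (η : ℕ → ℝ) (a1 : ℕ), Filter.Tendsto η Filter.atTop (nhds 0) ∧ ∀ a ≥ a1,
      ∀ δ, IsFGHom Γ Γ δ → ∀ g, IsFGHom Γ Γ g →
        PowerSeries.subst (onePlus Γ a δ) g = PowerSeries.X →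
        ∃ x' : MvPowerSeries (Fin r) (GaloisField p n) →+* OC C, D.Companion g x' ∧
          (∀ i, ‖x' (MvPowerSeries.X i) - D.x (MvPowerSeries.X i)‖ ≤ η a) ∧
          ∀ f ∈ P, x' (π f) = 0 := by
  classical
  obtain ⟨ε, hε0, hε1, hε⟩ := D.exists_eps
  choose M' hM' using fun N => stabilizer_close hn hΓ hH N
  obtain ⟨Nf, hNf, hNf'⟩ := cm_eta (p := p) (M' := M') hε0 hε1 hn
  -- `a1` with `q^a ≥ M`
  obtain ⟨a1, ha1⟩ : ∃ a1 : ℕ, 1 ≤ a1 ∧ M ≤ (p ^ n) ^ a1 := by
    have h2 : Filter.Tendsto (fun a : ℕ => (p ^ n) ^ a) Filter.atTop Filter.atTop :=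
      tendsto_pow_atTop_atTop_of_one_lt (Nat.one_lt_pow (by omega) hp.1.one_lt)
    obtain ⟨a, ha⟩ := ((Filter.eventually_ge_atTop 1).and (h2.eventually_ge_atTop M)).exists
    exact ⟨a, ha⟩
  have hXg : ∀ e : LTRing p n, LTRing.residue p n e = 0 → ‖D.x (π e)‖ ≤ ε := by
    intro e he
    apply hε
    rw [← RingHom.comp_apply, hc, he]
  have hpow : ∀ N, ∀ e ∈ (RingHom.ker (LTRing.residue p n)) ^ N, ‖D.x (π e)‖ ≤ ε ^ N := by
    intro N
    induction N with
    | zero => intro e _; rw [pow_zero]; exact OC.norm_le_one _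
    | succ N ih =>
      intro e he
      rw [pow_succ] at he
      refine Submodule.mul_induction_on he ?_ ?_
      · intro a ha b hb
        rw [map_mul, map_mul, norm_mul, pow_succ]
        exact mul_le_mul (ih a ha) (hXg b hb) (norm_nonneg _) (pow_nonneg hε0 _)
      · intro a b ha hb
        rw [map_add, map_add]
        exact (IsUltrametricDist.norm_add_le_max _ _).trans (max_le ha hb)
  refine ⟨fun a => ε ^ (Nf a), a1, hNf, ?_⟩
  intro a ha δ hδ g hg hgu
  have ha' : 1 ≤ a := ha1.1.trans ha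
  obtain ⟨hgaut, hgcong⟩ := cm_inv_congr hn hΓ ha' hδ hg hgu
  have hpos : 1 ≤ p ^ n := Nat.one_le_pow _ _ hp.1.pos
  have hqa : M ≤ (p ^ n) ^ a := ha1.2.trans (Nat.pow_le_pow_right hpos ha)
  obtain ⟨φ, hφ⟩ := exists_stabilizer hH hgaut
  have hφI : ∀ f ∈ RingHom.ker π, φ f ∈ RingHom.ker π := by
    intro f hf
    rw [hker] at hf ⊢
    have hs := heightIdeal_stable hH 1 h g φ hgaut (by
      intro i hi
      exact hgcong i (lt_of_lt_of_le hi (Nat.one_le_pow _ _ hpos))) hφ
    rw [← hs] at hf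
    exact hf
  let y : LTRing p n →+* OC C := (D.x.comp π).comp φ.toRingHom
  have hy : RingHom.ker π ≤ RingHom.ker y := by
    intro f hf
    have h2 : π (φ f) = 0 := hφI f hf
    show D.x (π (φ f)) = 0
    rw [h2, map_zero]
  let x' := (π.liftOfSurjective hsurj) ⟨y, hy⟩
  have hx' : ∀ e, x' (π e) = D.x (π (φ e)) := fun e =>
    RingHom.liftOfSurjective_comp_apply π hsurj ⟨y, hy⟩ e
  have hres : ∀ e, LTRing.residue p n (φ e) = LTRing.residue p n e := by
    intro e
    have := hφ.1
    exact RingHom.congr_fun this e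
  have hhn : h ≤ n := by have := D.hn; omega
  have hπp : π (p : LTRing p n) = 0 := by
    have h2 : PowerSeries.coeff (p ^ 0) (mulSeries H p) ∈ RingHom.ker π := by
      rw [hker]; exact LT93.coeff_pow_mem_heightIdeal H (by omega)
    rw [pow_zero, coeff_one_mulSeries] at h2
    exact h2
  have hpoint : D.IsPoint x' := by
    refine ⟨?_, ?_, ?_⟩
    · intro f hf
      obtain ⟨e, rfl⟩ := hsurj f
      rw [hx']
      refine lt_of_le_of_lt (hXg _ ?_) hε1
      rw [hres, ← hc, RingHom.comp_apply, hf]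
    · intro c
      have h2 := cm_pi_algebraMap hn π hπp hc (WittVector.teichmuller p c)
      have h3 : (WittVector.constantCoeff (WittVector.teichmuller p c) : GaloisField p n) = c := by
        simp
      rw [h3] at h2
      rw [← h2, hx']
      congr 2
      exact φ.commutes _
    · intro i hi
      obtain ⟨c, hcu, hcm⟩ := stabilizer_coeff hH hgaut hφ h
      have h2 := hX i
      rw [hi, add_zero] at h2
      rw [← h2, hx']
      rw [← hker, RingHom.mem_ker, map_sub, sub_eq_zero, map_mul, h2] at hcm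
      rw [hcm, map_mul]
      refine mul_ne_zero ?_ (D.x0 i hi)
      exact ((hcu.map π).map D.x).ne_zero
  refine ⟨x', ⟨hpoint, ?_⟩, ?_, ?_⟩
  · obtain ⟨θ, hθ, hθhom⟩ := stabilizer_point hφ (D.x.comp π)
    refine ⟨PowerSeries.map (D.x.comp π) θ, ε, hε1, ?_, ?_⟩
    · rw [hDH, map_map, map_map]
      have h2 : x'.comp π = (D.x.comp π).comp φ.toRingHom :=
        RingHom.liftOfSurjective_comp π hsurj ⟨y, hy⟩
      rw [h2]
      exact hθhom
    · intro i
      have h2 : D.toLData.kx (PowerSeries.coeff i g) =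
          D.x (MvPowerSeries.C (PowerSeries.coeff i g)) := rfl
      rw [PowerSeries.coeff_map, h2, RingHom.comp_apply, ← map_sub]
      apply hε
      rw [map_sub, ← RingHom.comp_apply MvPowerSeries.constantCoeff, hc, ← hθ,
        PowerSeries.coeff_map]
      simp
  · intro i
    rw [← hX i, hx', ← map_sub, ← map_sub]
    rcases hNf' a with h0 | h0
    · simp only [h0, pow_zero]
      exact (D.x _).2
    · exact hpow _ _ (hM' (Nf a) g φ hgaut (fun j hj => hgcong j (lt_of_lt_of_le hj h0)) hφ _)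
  · intro f hf
    rw [hx']
    apply hPx
    have hs := hst g φ hgaut (fun j hj => hgcong j (lt_of_lt_of_le hj hqa)) hφ
    rw [← hs] at hf
    exact hf

end comp

end Crest.Agent.LT
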