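import Mathlib
import Crest.Agent.LT.CDefs
import Crest.Agent.LT.Iota
import Crest.Agent.LT.LogC
import Crest.Agent.LT.Leading
import Crest.Agent.LT.Special
import Crest.Agent.LT.Closure
import Crest.Agent.LT.EndGamma

/-! # C6 auxiliary lemmas (row 227). -/

set_option autoImplicit false
set_option linter.unusedSectionVars false
set_option linter.style.haveILetI false

namespace Crest.Agent.LT

open Crest.LubinTate MvPowerSeries

namespace C6

section res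

variable {C : Type*} [NontriviallyNormedField C] [CompleteSpace C] [IsUltrametricDist C]

theorem isUnit_iff (x : OC C) : IsUnit x ↔ ‖x‖ = 1 := by
  constructor
  · rintro ⟨u, rfl⟩
    have h1 : ‖(u : OC C)‖ * ‖((u⁻¹ : (OC C)ˣ) : OC C)‖ = 1 := by
      rw [← norm_mul, Units.mul_inv, norm_one]
    have h2 := OC.norm_le_one (u : OC C)
    have h3 := OC.norm_le_one ((u⁻¹ : (OC C)ˣ) : OC C)
    have h2' : ‖(u : OC C)‖ ≤ 1 := h2
    have h3' : ‖((u⁻¹ : (OC C)ˣ) : OC C)‖ ≤ 1 := h3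
    have h4 : 0 ≤ ‖(u : OC C)‖ := norm_nonneg _
    nlinarith
  · intro hx
    have hx0 : (x : C) ≠ 0 := by
      intro h
      have : ‖(x : C)‖ = 1 := hx
      rw [h, norm_zero] at this
      exact zero_ne_one this
    refine IsUnit.of_mul_eq_one ⟨(x : C)⁻¹, ?_⟩ ?_
    · rw [mem_OC, norm_inv]
      have : ‖(x : C)‖ = 1 := hx
      rw [this, inv_one]
    · apply Subtype.ext
      change (x : C) * (x : C)⁻¹ = 1
      exact mul_inv_cancel₀ hx0

theorem residue_eq_zero_iff (x : OC C) : IsLocalRing.residue (OC C) x = 0 ↔ ‖x‖ < 1 := by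
  rw [IsLocalRing.residue_eq_zero_iff, IsLocalRing.mem_maximalIdeal, mem_nonunits_iff, isUnit_iff]
  have h : ‖x‖ ≤ 1 := OC.norm_le_one x
  constructor
  · intro h1
    exact lt_of_le_of_ne h h1
  · intro h1
    exact ne_of_lt h1

theorem rs_coe (x : OC C) : rs (x : C) = IsLocalRing.residue (OC C) x := by
  unfold rs
  have h : ‖(x : C)‖ ≤ 1 := x.2
  rw [dif_pos h]

theorem rs_of_le {c : C} (hc : ‖c‖ ≤ 1) : rs c = IsLocalRing.residue (OC C) ⟨c, hc⟩ := by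
  unfold rs
  rw [dif_pos hc]

theorem rs_zero : rs (0 : C) = 0 := by
  have := rs_coe (C := C) 0
  rw [_root_.map_zero] at this
  exact this

theorem rs_one : rs (1 : C) = 1 := by
  have := rs_coe (C := C) 1
  rw [_root_.map_one] at this
  exact this

theorem rs_eq_zero_iff {c : C} (hc : ‖c‖ ≤ 1) : rs c = 0 ↔ ‖c‖ < 1 := by
  rw [rs_of_le hc, residue_eq_zero_iff]
  rfl

theorem rs_mul {a b : C} (ha : ‖a‖ ≤ 1) (hb : ‖b‖ ≤ 1) : rs (a * b) = rs a * rs b := by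
  have h := rs_coe (C := C) (⟨a, ha⟩ * ⟨b, hb⟩)
  rw [_root_.map_mul, ← rs_of_le ha, ← rs_of_le hb] at h
  exact h

theorem rs_add {a b : C} (ha : ‖a‖ ≤ 1) (hb : ‖b‖ ≤ 1) : rs (a + b) = rs a + rs b := by
  have h := rs_coe (C := C) (⟨a, ha⟩ + ⟨b, hb⟩)
  rw [_root_.map_add, ← rs_of_le ha, ← rs_of_le hb] at h
  exact h

theorem rs_pow {a : C} (ha : ‖a‖ ≤ 1) (k : ℕ) : rs (a ^ k) = rs a ^ k := by
  have h := rs_coe (C := C) (⟨a, ha⟩ ^ k)
  rw [_root_.map_pow, ← rs_of_le ha] at h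
  exact h

theorem rs_sum {ι : Type*} (S : Finset ι) (a : ι → C) (ha : ∀ i ∈ S, ‖a i‖ ≤ 1) :
    rs (∑ i ∈ S, a i) = ∑ i ∈ S, rs (a i) ∧ ‖∑ i ∈ S, a i‖ ≤ 1 := by
  classical
  induction S using Finset.induction_on with
  | empty =>
    simp only [Finset.sum_empty, norm_zero]
    exact ⟨rs_zero, zero_le_one⟩
  | insert i S hi ih =>
    obtain ⟨h1, h2⟩ := ih (fun j hj => ha j (Finset.mem_insert_of_mem hj))
    have h3 := ha i (Finset.mem_insert_self i S)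
    rw [Finset.sum_insert hi, Finset.sum_insert hi]
    refine ⟨by rw [rs_add h3 h2, h1], ?_⟩
    exact (IsUltrametricDist.norm_add_le_max _ _).trans (max_le h3 h2)

theorem rs_congr {a b : C} (ha : ‖a‖ ≤ 1) (h : ‖a - b‖ < 1) : rs a = rs b := by
  have hb : ‖b‖ ≤ 1 := by
    have : b = a + (b - a) := by ring
    rw [this]
    refine (IsUltrametricDist.norm_add_le_max _ _).trans (max_le ha ?_)
    rw [norm_sub_rev]
    exact h.le
  have h1 : ‖b - a‖ < 1 := by rw [norm_sub_rev]; exact h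
  have h2 : rs (b - a) = 0 := (rs_eq_zero_iff h1.le).2 h1
  have h3 := rs_add ha h1.le
  rw [h2, add_zero, add_sub_cancel] at h3
  exact h3.symm

theorem rs_natCast_mul (k : ℕ) {a : C} (ha : ‖a‖ ≤ 1) : rs ((k : C) * a) = (k : Kap C) * rs a := by
  have h := rs_coe (C := C) ((k : OC C) * ⟨a, ha⟩)
  rw [_root_.map_mul, ← rs_of_le ha, _root_.map_natCast] at h
  exact h

theorem rs_intCast_mul (k : ℤ) {a : C} (ha : ‖a‖ ≤ 1) : rs ((k : C) * a) = (k : Kap C) * rs a := by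
  have h := rs_coe (C := C) ((k : OC C) * ⟨a, ha⟩)
  rw [_root_.map_mul, ← rs_of_le ha, _root_.map_intCast] at h
  exact h

theorem Kap.charP (p : ℕ) [Fact p.Prime] [CharP C p] : CharP (Kap C) p := by
  haveI : CharP (OC C) p := OC.charP
  have h0 : ((p : ℕ) : Kap C) = 0 := by
    have h := congrArg (IsLocalRing.residue (OC C)) (CharP.cast_eq_zero (OC C) p)
    rw [_root_.map_natCast, _root_.map_zero] at h
    exact h
  have hp : p.Prime := Fact.out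
  exact (CharP.charP_iff_prime_eq_zero hp).2 h0

end res

/-- `Σ_{k<n} A_k ψ(ζ)^(p^(e0+k)) = 0` for all `ζ ∈ F_q` implies `A = 0`. -/
theorem charIndep {p n : ℕ} [Fact p.Prime] (hn : n ≠ 0) {κ : Type*} [Field κ]
    (ψ : GaloisField p n →+* κ) (A : ℕ → κ) (e0 : ℕ)
    (h : ∀ ζ, ∑ k ∈ Finset.range n, A k * (ψ ζ) ^ (p ^ (e0 + k)) = 0) : ∀ k < n, A k = 0 := by
  classical
  haveI : Fintype (GaloisField p n) := Fintype.ofFinite _
  have hp : p.Prime := Fact.out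
  have hp1 : 1 < p := hp.one_lt
  let P : Polynomial κ := ∑ k ∈ Finset.range n, Polynomial.C (A k) * Polynomial.X ^ (p ^ k)
  have hPdeg : P.natDegree < Fintype.card (GaloisField p n) := by
    have h1 : Fintype.card (GaloisField p n) = p ^ n := by
      rw [← Nat.card_eq_fintype_card]; exact GaloisField.card p n hn
    rw [h1]
    refine lt_of_le_of_lt (Polynomial.natDegree_sum_le_of_forall_le (n := p ^ (n - 1)) _ _ ?_)
      (Nat.pow_lt_pow_right hp1 (by omega))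
    intro k hk
    rw [Finset.mem_range] at hk
    refine (Polynomial.natDegree_C_mul_X_pow_le _ _).trans ?_
    exact Nat.pow_le_pow_right hp.pos (by omega)
  have hinj : Function.Injective (fun ζ : GaloisField p n => ψ ζ ^ (p ^ e0)) := by
    have hq : CharP κ p := charP_of_injective_ringHom ψ.injective p
    intro a b hab
    simp only at hab
    rw [← iterateFrobenius_def, ← iterateFrobenius_def] at hab
    exact ψ.injective ((iterateFrobenius κ p e0).injective hab)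
  have hP : P = 0 := by
    refine Polynomial.eq_zero_of_natDegree_lt_card_of_eval_eq_zero P hinj ?_ hPdeg
    intro ζ
    have h2 := h ζ
    rw [← h2]
    simp only [P, Polynomial.eval_finsetSum, Polynomial.eval_mul, Polynomial.eval_C,
      Polynomial.eval_pow, Polynomial.eval_X]
    refine Finset.sum_congr rfl fun k _ => ?_
    rw [← pow_mul, ← pow_add]
  intro k hk
  have h3 : P.coeff (p ^ k) = A k := by
    simp only [P, Polynomial.finsetSum_coeff, Polynomial.coeff_C_mul, Polynomial.coeff_X_pow]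
    rw [Finset.sum_eq_single k]
    · simp
    · intro b _ hbk
      rw [if_neg, mul_zero]
      intro h4
      exact hbk (Nat.pow_right_injective hp.two_le h4).symm
    · intro h4
      exact absurd (Finset.mem_range.2 hk) h4
  rw [← h3, hP, Polynomial.coeff_zero]

/-- discrete intermediate value theorem -/
theorem dIVT (e : ℕ → ℕ) (hstep : ∀ j, e (j + 1) ≤ e j + 1) (N x : ℕ) (h0 : e 0 ≤ x)
    (hN : x ≤ e N) : ∃ j ≤ N, e j = x := by
  classical
  have hex : ∃ j, x ≤ e j := ⟨N, hN⟩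
  have h1 := Nat.find_spec hex
  have h2 : Nat.find hex ≤ N := Nat.find_min' hex hN
  refine ⟨Nat.find hex, h2, ?_⟩
  rcases Nat.eq_zero_or_pos (Nat.find hex) with h3 | h3
  · rw [h3] at h1 ⊢
    omega
  · have h4 : ¬ x ≤ e (Nat.find hex - 1) := Nat.find_min hex (by omega)
    have h5 := hstep (Nat.find hex - 1)
    rw [Nat.sub_add_cancel h3] at h5
    omega

section ev

variable {C : Type*} [NontriviallyNormedField C] [CompleteSpace C] [IsUltrametricDist C]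
variable {R : Type*} [CommRing R]

theorem tn {z : OC C} (hz : ‖z‖ < 1) : IsTopologicallyNilpotent z :=
  (OC.isTopologicallyNilpotent_iff z).2 hz

theorem ev1_eq_evHom (φ : R →+* OC C) {z : OC C} (hz : ‖z‖ < 1) (f : PowerSeries R) :
    ev1 φ z f = evHom φ (fun _ : Unit => z) (fun _ => tn hz) f := by
  rw [evHom_apply]
  rfl

theorem ev1_add (φ : R →+* OC C) {z : OC C} (hz : ‖z‖ < 1) (f g : PowerSeries R) :
    ev1 φ z (f + g) = ev1 φ z f + ev1 φ z g := by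
  rw [ev1_eq_evHom φ hz, ev1_eq_evHom φ hz, ev1_eq_evHom φ hz]
  exact _root_.map_add _ f g

theorem ev1_monomial (φ : R →+* OC C) {z : OC C} (hz : ‖z‖ < 1) (a : R) (k : ℕ) :
    ev1 φ z (PowerSeries.C a * PowerSeries.X ^ k) = φ a * z ^ k := by
  have h1 : ev1 φ z (PowerSeries.C a) = φ a := by
    have := ev_C φ (fun _ : Unit => z) (fun _ => tn hz) a
    exact this
  have h2 := ev1_X φ z (tn hz)
  rw [ev1_eq_evHom φ hz] at h1 h2 ⊢
  have h3 := _root_.map_mul (evHom φ (fun _ : Unit => z) (fun _ => tn hz))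
    (PowerSeries.C a) (PowerSeries.X ^ k)
  have h4 := _root_.map_pow (evHom φ (fun _ : Unit => z) (fun _ => tn hz))
    (PowerSeries.X : PowerSeries R) k
  rw [h2] at h4
  rw [h4, h1] at h3
  exact h3

/-- leading term estimate -/
theorem norm_ev1_sub_lead (φ : R →+* OC C) {z : OC C} (hz : ‖z‖ < 1) (f : PowerSeries R) (k : ℕ)
    (hf : ∀ i < k, PowerSeries.coeff i f = 0) :
    ‖ev1 φ z f - φ (PowerSeries.coeff k f) * z ^ k‖ ≤ ‖z‖ ^ (k + 1) := by
  have h1 : f = PowerSeries.C (PowerSeries.coeff k f) * PowerSeries.X ^ k +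
      (f - PowerSeries.C (PowerSeries.coeff k f) * PowerSeries.X ^ k) := by ring
  have h2 : ev1 φ z f - φ (PowerSeries.coeff k f) * z ^ k =
      ev1 φ z (f - PowerSeries.C (PowerSeries.coeff k f) * PowerSeries.X ^ k) := by
    conv_lhs => rw [h1, ev1_add φ hz, ev1_monomial φ hz]
    simp only [map_add, PowerSeries.coeff_C_mul, PowerSeries.coeff_X_pow_self, mul_one, map_sub,
      sub_self, add_zero]
    rw [add_sub_cancel_left]
  rw [h2]
  have h3 := OC.norm_ev1_le φ z hz (f - PowerSeries.C (PowerSeries.coeff k f) * PowerSeries.X ^ k)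
    (M := 1) (N := k + 1) (fun d => OC.norm_le_one _) (by
      intro d hd
      rw [map_sub, PowerSeries.coeff_C_mul, PowerSeries.coeff_X_pow]
      rcases lt_or_eq_of_le (Nat.lt_succ_iff.1 hd) with h | h
      · rw [hf d h, if_neg (ne_of_lt h), mul_zero, sub_zero]
      · rw [if_pos h, h, mul_one, sub_self])
  rwa [one_mul] at h3

theorem norm_ev1_le_of_coeff (φ : R →+* OC C) {z : OC C} (hz : ‖z‖ < 1) (f : PowerSeries R) (k : ℕ)
    (hf : ∀ i < k, PowerSeries.coeff i f = 0) : ‖ev1 φ z f‖ ≤ ‖z‖ ^ k := by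
  have h3 := OC.norm_ev1_le φ z hz f (M := 1) (N := k) (fun d => OC.norm_le_one _) hf
  rwa [one_mul] at h3

/-- point constructor -/
def mkPt (G : FormalGroup R) (φ : R →+* OC C) (z : OC C) (hz : ‖z‖ < 1) : Pt G φ := ⟨z, tn hz⟩

theorem mkPt_val (G : FormalGroup R) (φ : R →+* OC C) (z : OC C) (hz : ‖z‖ < 1) :
    (mkPt G φ z hz).1 = z := rfl

/-- sums of points -/
theorem norm_sum_pt (G : FormalGroup R) [G.IsComm] (φ : R →+* OC C) {ι : Type*} (S : Finset ι)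
    (P : ι → Pt G φ) {μ : ℝ} (hμ0 : 0 ≤ μ) (hμ : μ < 1) (hP : ∀ i ∈ S, ‖(P i).1‖ ≤ μ) :
    ‖(∑ i ∈ S, P i).1‖ ≤ μ ∧ ‖(∑ i ∈ S, P i).1 - ∑ i ∈ S, (P i).1‖ ≤ μ ^ 2 := by
  classical
  induction S using Finset.induction_on with
  | empty =>
    simp only [Finset.sum_empty]
    rw [Pt.zero_val]
    simp only [norm_zero, sub_zero]
    exact ⟨hμ0, by positivity⟩
  | insert i S hi ih =>
    obtain ⟨h1, h2⟩ := ih (fun j hj => hP j (Finset.mem_insert_of_mem hj))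
    have h3 := hP i (Finset.mem_insert_self i S)
    rw [Finset.sum_insert hi, Finset.sum_insert hi, Pt.add_val]
    have h4 := OC.norm_op_sub_le G φ (P i).1 (∑ j ∈ S, P j).1 (h3.trans_lt hμ) (h1.trans_lt hμ)
    have h5 : ‖(P i).1‖ * ‖(∑ j ∈ S, P j).1‖ ≤ μ ^ 2 := by
      rw [sq]
      exact mul_le_mul h3 h1 (norm_nonneg _) hμ0
    have h6 : μ ^ 2 ≤ μ := by nlinarith
    constructor
    · have e1 : op G φ (P i).1 (∑ j ∈ S, P j).1 =
          (op G φ (P i).1 (∑ j ∈ S, P j).1 - ((P i).1 + (∑ j ∈ S, P j).1)) +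
            ((P i).1 + (∑ j ∈ S, P j).1) := by ring
      rw [e1]
      refine (IsUltrametricDist.norm_add_le_max _ _).trans (max_le ((h4.trans h5).trans h6) ?_)
      exact (IsUltrametricDist.norm_add_le_max _ _).trans (max_le h3 h1)
    · have e1 : op G φ (P i).1 (∑ j ∈ S, P j).1 - ((P i).1 + ∑ j ∈ S, (P j).1) =
          (op G φ (P i).1 (∑ j ∈ S, P j).1 - ((P i).1 + (∑ j ∈ S, P j).1)) +
            ((∑ j ∈ S, P j).1 - ∑ j ∈ S, (P j).1) := by ring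
      rw [e1]
      exact (IsUltrametricDist.norm_add_le_max _ _).trans (max_le (h4.trans h5) h2)

/-- if a sum of points is zero, the sum of leading terms is small -/
theorem norm_sum_lead (G : FormalGroup R) [G.IsComm] (φ : R →+* OC C) {ι : Type*} (S : Finset ι)
    (P : ι → Pt G φ) (A : ι → OC C) {μ : ℝ} (hμ0 : 0 < μ) (hμ : μ < 1)
    (hPA : ∀ i ∈ S, ‖(P i).1 - A i‖ < μ) (hA : ∀ i ∈ S, ‖A i‖ ≤ μ) (h0 : ∑ i ∈ S, P i = 0) :
    ‖∑ i ∈ S, A i‖ < μ := by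
  classical
  have hP : ∀ i ∈ S, ‖(P i).1‖ ≤ μ := by
    intro i hi
    have e1 : (P i).1 = ((P i).1 - A i) + A i := by ring
    rw [e1]
    exact (IsUltrametricDist.norm_add_le_max _ _).trans (max_le (hPA i hi).le (hA i hi))
  obtain ⟨h1, h2⟩ := norm_sum_pt G φ S P hμ0.le hμ hP
  rw [h0, Pt.zero_val, zero_sub, norm_neg] at h2
  have h3 : ‖∑ i ∈ S, ((P i).1 - A i)‖ < μ := by
    clear h1 h2 h0 hP hA
    induction S using Finset.induction_on with
    | empty => simpa using hμ0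
    | insert i S hi ih =>
      rw [Finset.sum_insert hi]
      refine lt_of_le_of_lt (IsUltrametricDist.norm_add_le_max _ _) (max_lt
        (hPA i (Finset.mem_insert_self i S)) (ih (fun j hj => hPA j (Finset.mem_insert_of_mem hj))))
  have h4 : ∑ i ∈ S, A i = ∑ i ∈ S, (P i).1 - ∑ i ∈ S, ((P i).1 - A i) := by
    rw [← Finset.sum_sub_distrib]
    refine Finset.sum_congr rfl fun i _ => ?_
    ring
  rw [h4, sub_eq_add_neg]
  refine lt_of_le_of_lt (IsUltrametricDist.norm_add_le_max _ _) (max_lt ?_ ?_)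
  · refine lt_of_le_of_lt h2 ?_
    nlinarith
  · rw [norm_neg]
    exact h3

end ev

section order

variable {p : ℕ} [Fact p.Prime] {R : Type*} [Field R] [CharP R p]

theorem coeff_eq_zero_of_hom {F G : FormalGroup R} {β : PowerSeries R} (hβ : IsFGHom F G β) (v : ℕ)
    (hv : ∀ j < v, PowerSeries.coeff (p ^ j) β = 0) : ∀ k < p ^ v, PowerSeries.coeff k β = 0 := by
  intro k hk
  have hp : p.Prime := Fact.out
  rcases Nat.eq_zero_or_pos k with h0 | h0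
  · subst h0
    have := hβ.1
    rwa [← PowerSeries.coeff_zero_eq_constantCoeff_apply] at this
  · obtain ⟨ψ, h1, -⟩ := Crest.Agent.LT.IsFGHom.frob_factor_iterate p hβ v hv
    have h2 : p ^ v ≠ 0 := pow_ne_zero _ hp.ne_zero
    rw [h1, ← PowerSeries.expand_apply (p ^ v) h2]
    exact PowerSeries.coeff_expand_of_not_dvd (p ^ v) h2 ψ (fun h => absurd (Nat.le_of_dvd h0 h) (by omega))

theorem exists_order {ι : Type*} {F G : FormalGroup R} (β : ι → PowerSeries R)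
    (hβ : ∀ i, IsFGHom F G (β i)) (hne : ∃ i, β i ≠ 0) :
    ∃ v : ℕ, (∀ i, ∀ k < p ^ v, PowerSeries.coeff k (β i) = 0) ∧
      ∃ i, PowerSeries.coeff (p ^ v) (β i) ≠ 0 := by
  classical
  have hp : p.Prime := Fact.out
  have hex : ∃ v : ℕ, ∃ i, PowerSeries.coeff (p ^ v) (β i) ≠ 0 := by
    by_contra hcon
    push Not at hcon
    obtain ⟨i, hi⟩ := hne
    apply hi
    ext k
    rw [_root_.map_zero]
    exact coeff_eq_zero_of_hom (hβ i) k (fun j _ => hcon j i) k (Nat.lt_pow_self hp.one_lt)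
  refine ⟨Nat.find hex, ?_, Nat.find_spec hex⟩
  intro i k hk
  refine coeff_eq_zero_of_hom (hβ i) (Nat.find hex) (fun j hj => ?_) k hk
  have := Nat.find_min hex hj
  push Not at this
  exact this i

end order

section lead

variable {p n h r : ℕ} [Fact p.Prime]
variable {C : Type*} [NontriviallyNormedField C] [CompleteSpace C] [IsUltrametricDist C]
  [CharP C p] [IsAlgClosed C]

/-- the residual inclusion `k → κ` -/
noncomputable def psi (D : LData p n h r C) : GaloisField p n →+* Kap C :=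
  (IsLocalRing.residue (OC C)).comp D.kx

theorem n_ne_zero (D : LData p n h r C) : n ≠ 0 := by
  have h1 := D.hh
  have h2 := D.hn
  omega

theorem gf_pow (hn : n ≠ 0) (ζ : GaloisField p n) (J : ℕ) : ζ ^ (p ^ (n * J)) = ζ := by
  haveI : Fintype (GaloisField p n) := Fintype.ofFinite _
  have h1 : Fintype.card (GaloisField p n) = p ^ n := by
    rw [← Nat.card_eq_fintype_card]; exact GaloisField.card p n hn
  have h2 := FiniteField.pow_card_pow J ζ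
  rw [h1, ← pow_mul] at h2
  exact h2

theorem pi_pow_iter (D : LData p n h r C) {z : OC C} (hz : ‖z‖ < 1) (J : ℕ) :
    D.pi (z ^ (p ^ (n * J))) = (D.pi z) ^ (p ^ (h * J)) := by
  have hp : p.Prime := Fact.out
  induction J with
  | zero => simp
  | succ J ih =>
    have h1 : ‖z ^ (p ^ (n * J))‖ < 1 := by
      rw [norm_pow]
      exact pow_lt_one₀ (norm_nonneg _) hz (pow_ne_zero _ hp.ne_zero)
    have h2 := D.pi_pow h1
    rw [ih, ← pow_mul, ← pow_mul, ← pow_add, ← pow_add] at h2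
    rw [show n * (J + 1) = n * J + n by ring, show h * (J + 1) = h * J + h by ring]
    exact h2

theorem Kap.frob_inj (m : ℕ) {a b : Kap C} (hab : a ^ (p ^ m) = b ^ (p ^ m)) : a = b := by
  haveI : CharP (Kap C) p := Kap.charP p
  rw [← iterateFrobenius_def, ← iterateFrobenius_def] at hab
  exact (iterateFrobenius (Kap C) p m).injective hab

theorem norm_kx (D : LData p n h r C) {ζ : GaloisField p n} (hζ : ζ ≠ 0) : ‖D.kx ζ‖ = 1 :=
  (isUnit_iff _).1 ((IsUnit.mk0 ζ hζ).map D.kx)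

theorem norm_eq_of_sub_lt {a b : OC C} (hab : ‖a - b‖ < ‖b‖) : ‖a‖ = ‖b‖ := by
  have h1 : a = (a - b) + b := by ring
  rw [h1, IsUltrametricDist.norm_add_eq_max_of_norm_ne_norm (ne_of_lt hab)]
  exact max_eq_right hab.le

theorem lead_single (D : LData p n h r C) (L : D.Lead) (Y0 : OC C) (J j : ℕ) (h0 : 0 < ‖Y0‖)
    (h1 : ‖Y0‖ < 1) (hρ : L.ρ0 < ‖Y0‖ ^ (p ^ j)) :
    ∃ (ν : C) (a : ℕ → Kap C), ‖ν‖ = L.N (‖Y0‖ ^ (p ^ j)) ∧ a 0 ≠ 0 ∧
      ∀ (y : OC C), ‖y‖ = ‖Y0‖ → ∀ ζ : GaloisField p n, ζ ≠ 0 →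
        ∀ δ : PowerSeries (GaloisField p n), (∀ i < p ^ j, PowerSeries.coeff i δ = 0) →
          PowerSeries.coeff (p ^ j) δ = ζ →
          ‖D.pi (ev1 D.kx (y ^ (p ^ (n * J))) δ)‖ ≤ ‖ν‖ ^ (p ^ (h * J)) ∧
          rs ((D.pi (ev1 D.kx (y ^ (p ^ (n * J))) δ) : C) / ν ^ (p ^ (h * J))) =
            (∑ l ∈ Finset.range (L.b (‖Y0‖ ^ (p ^ j)) - L.c (‖Y0‖ ^ (p ^ j)) + 1),
              a l * (psi D ζ * rs ((y : C) / Y0) ^ (p ^ j)) ^ (p ^ l)) ^
                (p ^ (L.c (‖Y0‖ ^ (p ^ j)) + h * J)) := by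
  have hp : p.Prime := Fact.out
  have hpj : p ^ j ≠ 0 := pow_ne_zero _ hp.ne_zero
  have hpJ : p ^ (n * J) ≠ 0 := pow_ne_zero _ hp.ne_zero
  have hXs : ‖(Y0 : C) ^ (p ^ j)‖ = ‖Y0‖ ^ (p ^ j) := by rw [norm_pow]; rfl
  obtain ⟨ν, a, hν, ha0, -, hlead⟩ := L.lead ((Y0 : C) ^ (p ^ j)) (by rw [hXs]; exact hρ)
    (by rw [hXs]; exact pow_lt_one₀ h0.le h1 hpj)
  rw [hXs] at hν hlead
  have hνpos : 0 < ‖ν‖ := by
    rw [hν, ← hXs]
    refine L.N_pos _ ?_ ?_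
    · rw [hXs]; positivity
    · rw [hXs]; exact pow_lt_one₀ h0.le h1 hpj
  have hν0 : ν ≠ 0 := norm_pos_iff.1 hνpos
  refine ⟨ν, a, hν, ha0, ?_⟩
  intro y hy ζ hζ δ hδ hδζ
  have hy1 : ‖y‖ < 1 := by rw [hy]; exact h1
  have hy0 : 0 < ‖y‖ := by rw [hy]; exact h0
  set s : OC C := y ^ (p ^ (n * J)) with hs
  have hsn : ‖s‖ = ‖y‖ ^ (p ^ (n * J)) := norm_pow _ _
  have hs0 : 0 < ‖s‖ := by rw [hsn]; positivity
  have hs1 : ‖s‖ < 1 := by rw [hsn]; exact pow_lt_one₀ hy0.le hy1 hpJ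
  set z : OC C := ev1 D.kx s δ with hz
  have hzlead := norm_ev1_sub_lead D.kx hs1 δ (p ^ j) hδ
  rw [hδζ, ← hz] at hzlead
  have hks : ‖D.kx ζ * s ^ (p ^ j)‖ = ‖s‖ ^ (p ^ j) := by
    rw [norm_mul, norm_kx D hζ, one_mul, norm_pow s]
  have hlt : ‖z - D.kx ζ * s ^ (p ^ j)‖ < ‖D.kx ζ * s ^ (p ^ j)‖ := by
    refine lt_of_le_of_lt hzlead ?_
    rw [hks, pow_succ]
    exact mul_lt_of_lt_one_right (by positivity) hs1
  have hzn : ‖z‖ = ‖s‖ ^ (p ^ j) := by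
    rw [norm_eq_of_sub_lt hlt, hks]
  have hzX : (rt p (n * J) z) ^ (p ^ (n * J)) = z := rt_pow (n * J) z
  set X : OC C := rt p (n * J) z with hX
  have hXn : ‖X‖ = ‖Y0‖ ^ (p ^ j) := by
    have e1 : ‖X‖ ^ (p ^ (n * J)) = (‖Y0‖ ^ (p ^ j)) ^ (p ^ (n * J)) := by
      rw [← norm_pow, hzX, hzn, hsn, hy, ← pow_mul, ← pow_mul, mul_comm]
    exact (pow_left_inj₀ (norm_nonneg _) (by positivity) hpJ).1 e1
  have hX1 : ‖X‖ < 1 := by rw [hXn]; exact pow_lt_one₀ h0.le h1 hpj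
  obtain ⟨hb, hr⟩ := hlead X (by rw [hXn])
  have hpiz : D.pi z = (D.pi X) ^ (p ^ (h * J)) := by
    rw [← pi_pow_iter D hX1 J, hzX]
  have hY0C : (Y0 : C) ≠ 0 := by
    intro h
    have : ‖(Y0 : C)‖ = 0 := by rw [h, norm_zero]
    exact h0.ne' this
  have hyY : ‖(y : C) / (Y0 : C)‖ ≤ 1 := by
    rw [norm_div]
    have e1 : ‖(y : C)‖ = ‖(Y0 : C)‖ := hy
    rw [e1]
    exact div_self_le_one _
  have hXXs : ‖(X : C) / (Y0 : C) ^ (p ^ j)‖ ≤ 1 := by
    rw [norm_div, norm_pow]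
    have e1 : ‖(X : C)‖ = ‖(Y0 : C)‖ ^ (p ^ j) := hXn
    rw [e1]
    exact div_self_le_one _
  have hrsX : rs ((X : C) / (Y0 : C) ^ (p ^ j)) = psi D ζ * rs ((y : C) / Y0) ^ (p ^ j) := by
    apply Kap.frob_inj (p := p) (n * J)
    have e1 : psi D ζ ^ (p ^ (n * J)) = psi D ζ := by
      rw [← _root_.map_pow, gf_pow (n_ne_zero D)]
    have e2 : psi D ζ = rs ((D.kx ζ : OC C) : C) := (rs_coe _).symm
    have e3 : ‖((D.kx ζ : OC C) : C)‖ ≤ 1 := (D.kx ζ).2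
    rw [mul_pow, e1, e2, ← rs_pow hXXs, ← rs_pow hyY, ← rs_pow (by
      rw [norm_pow]; exact pow_le_one₀ (norm_nonneg _) hyY), ← rs_mul e3 (by
      rw [norm_pow, norm_pow]; exact pow_le_one₀ (by positivity) (pow_le_one₀ (norm_nonneg _) hyY))]
    apply rs_congr
    · rw [norm_pow]; exact pow_le_one₀ (norm_nonneg _) hXXs
    · have e4 : ((X : C) / (Y0 : C) ^ (p ^ j)) ^ (p ^ (n * J)) -
          ((D.kx ζ : OC C) : C) * (((y : C) / Y0) ^ (p ^ j)) ^ (p ^ (n * J)) =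
          ((z - D.kx ζ * s ^ (p ^ j) : OC C) : C) / ((Y0 : C) ^ (p ^ j)) ^ (p ^ (n * J)) := by
        have e5 : (z : C) = (X : C) ^ (p ^ (n * J)) := by
          rw [← hzX]; rfl
        have e6 : ((z - D.kx ζ * s ^ (p ^ j) : OC C) : C) =
            (z : C) - ((D.kx ζ : OC C) : C) * (s : C) ^ (p ^ j) := rfl
        have e7 : (s : C) = (y : C) ^ (p ^ (n * J)) := rfl
        rw [e6, e5, e7, div_pow, div_pow, div_pow, sub_div]
        congr 1
        rw [mul_div_assoc, ← pow_mul (y : C), ← pow_mul (y : C), mul_comm (p ^ j) (p ^ (n * J))]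
      rw [e4, norm_div]
      have e8 : ‖((Y0 : C) ^ (p ^ j)) ^ (p ^ (n * J))‖ = ‖s‖ ^ (p ^ j) := by
        rw [norm_pow, norm_pow, hsn, hy, ← pow_mul, ← pow_mul, mul_comm]
        rfl
      rw [e8, div_lt_one (by positivity)]
      have e9 : ‖((z - D.kx ζ * s ^ (p ^ j) : OC C) : C)‖ = ‖z - D.kx ζ * s ^ (p ^ j)‖ := rfl
      rw [e9]
      refine lt_of_le_of_lt hzlead ?_
      rw [pow_succ]
      exact mul_lt_of_lt_one_right (by positivity) hs1
  constructor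
  · rw [hpiz, norm_pow]
    exact pow_le_pow_left₀ (norm_nonneg _) hb _
  · have e1 : (D.pi z : C) / ν ^ (p ^ (h * J)) = ((D.pi X : C) / ν) ^ (p ^ (h * J)) := by
      rw [hpiz, div_pow]
      rfl
    have e2 : ‖(D.pi X : C) / ν‖ ≤ 1 := by
      rw [norm_div, div_le_one hνpos]
      exact hb
    rw [e1, rs_pow e2, hr, hrsX, ← pow_mul, ← pow_add]

/-- Moore determinant in the residue field -/
theorem moore_kap {m : ℕ} (t : Fin m → Kap C)
    (ht : ∀ a : Fin m → ℤ, ∑ i, (a i : Kap C) * t i = 0 → ∀ i, (p : ℤ) ∣ a i)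
    (b : Fin m → Kap C) (e0 : ℕ)
    (hrel : ∀ k < m, ∑ i, b i * (t i) ^ (p ^ (e0 + k)) = 0) : ∀ i, b i = 0 := by
  classical
  haveI : CharP (Kap C) p := Kap.charP p
  letI : Algebra (ZMod p) (Kap C) := ZMod.algebra (Kap C) p
  have hli : LinearIndependent (ZMod p) (fun i => (t i) ^ (p ^ e0)) := by
    rw [Fintype.linearIndependent_iff]
    intro g hg
    have h1 : ∑ i, (((g i).val : ℤ) : Kap C) * t i = 0 := by
      apply Kap.frob_inj (p := p) e0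
      rw [zero_pow (pow_ne_zero _ (Fact.out : p.Prime).ne_zero), sum_pow_char_pow]
      rw [← hg]
      refine Finset.sum_congr rfl fun i _ => ?_
      rw [mul_pow, Algebra.smul_def]
      congr 1
      rw [← iterateFrobenius_def, map_intCast]
      have h2 : algebraMap (ZMod p) (Kap C) (g i) = algebraMap (ZMod p) (Kap C) (((g i).val : ℕ) : ZMod p) := by
        rw [ZMod.natCast_zmod_val]
      rw [h2, map_natCast, Int.cast_natCast]
    intro i
    have h2 := ht _ h1 i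
    rw [Int.natCast_dvd_natCast] at h2
    have h3 : (((g i).val : ℕ) : ZMod p) = 0 := (ZMod.natCast_eq_zero_iff _ _).2 h2
    rwa [ZMod.natCast_zmod_val] at h3
  have hdet := moore (F := ZMod p) (fun i => (t i) ^ (p ^ e0)) hli
  have h4 := Matrix.eq_zero_of_mulVec_eq_zero (M := Matrix.of fun i b : Fin m =>
    ((t b) ^ (p ^ e0)) ^ ((Nat.card (ZMod p)) ^ (i : ℕ))) (v := b) hdet.ne_zero (by
      funext k
      rw [Pi.zero_apply, ← hrel k k.2]
      simp only [Matrix.mulVec, dotProduct, Matrix.of_apply, Nat.card_zmod]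
      refine Finset.sum_congr rfl fun i _ => ?_
      rw [← pow_mul, ← pow_add, mul_comm])
  intro i
  rw [h4]
  rfl

theorem block_expand {κ : Type*} [Field κ] [CharP κ p] {m : ℕ} (w E j : ℕ) (a : ℕ → κ)
    (t b : Fin m → κ) (x : κ) :
    ∑ i, b i * (∑ l ∈ Finset.range (w + 1), a l * (x * t i ^ (p ^ j)) ^ (p ^ l)) ^ (p ^ E) =
      ∑ l ∈ Finset.range (w + 1), (a l ^ (p ^ E) * ∑ i, b i * t i ^ (p ^ (j + l + E))) *
        x ^ (p ^ (E + l)) := by
  have h1 : ∀ i, b i * (∑ l ∈ Finset.range (w + 1), a l * (x * t i ^ (p ^ j)) ^ (p ^ l)) ^ (p ^ E) =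
      ∑ l ∈ Finset.range (w + 1), a l ^ (p ^ E) * (b i * t i ^ (p ^ (j + l + E))) *
        x ^ (p ^ (E + l)) := by
    intro i
    rw [sum_pow_char_pow, Finset.mul_sum]
    refine Finset.sum_congr rfl fun l _ => ?_
    rw [mul_pow, ← pow_mul, mul_pow, ← pow_mul, ← pow_add, ← pow_add,
      show j + (l + E) = j + l + E by ring, show l + E = E + l by ring]
    ring
  rw [Finset.sum_congr rfl fun i _ => h1 i, Finset.sum_comm]
  refine Finset.sum_congr rfl fun l _ => ?_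
  rw [Finset.mul_sum, Finset.sum_mul]

theorem core (D : LData p n h r C) (L : D.Lead) {m : ℕ} (s : Fin m → OC C) (R : ℝ)
    (hR0 : 0 < R) (hR1 : R < 1) (hs : ResIndep p s R) (Y0 : OC C) (J : ℕ)
    (hY0 : ‖Y0‖ ^ (p ^ (n * J)) = R) (hρ : L.ρ0 < ‖Y0‖ ^ (p ^ (n * m))) (v : ℕ)
    (b : Fin m → FQ C p h)
    (H : ∀ j ≤ n * m, ∀ ζ : GaloisField p n, ζ ≠ 0 → ∀ δ : PowerSeries (GaloisField p n),
      IsFGHom D.Γ D.Γ δ → (∀ i < p ^ j, PowerSeries.coeff i δ = 0) →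
      PowerSeries.coeff (p ^ j) δ = ζ →
      ‖∑ i, FQ.incl D.hh (b i) * (D.pi (ev1 D.kx (s i) δ)) ^ (p ^ v)‖ <
        (L.N (‖Y0‖ ^ (p ^ j))) ^ (p ^ (h * J + v))) : ∀ i, b i = 0 := by
  classical
  have hp : p.Prime := Fact.out
  haveI : CharP (Kap C) p := Kap.charP p
  haveI := D.Γcomm
  have hn0 := n_ne_zero D
  have hN : p ^ (n * J) ≠ 0 := pow_ne_zero _ hp.ne_zero
  have h0 : 0 < ‖Y0‖ := by
    rcases (norm_nonneg Y0).lt_or_eq with h | h
    · exact h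
    · rw [← h, zero_pow hN] at hY0
      exact absurd hY0 hR0.ne
  have h1 : ‖Y0‖ < 1 := by
    by_contra hcon
    push Not at hcon
    have := one_le_pow₀ (n := p ^ (n * J)) hcon
    rw [hY0] at this
    exact absurd hR1 (not_lt.2 this)
  -- roots
  let y : Fin m → OC C := fun i => rt p (n * J) (s i)
  have hyp : ∀ i, (y i) ^ (p ^ (n * J)) = s i := fun i => rt_pow (n * J) (s i)
  have hyn : ∀ i, ‖y i‖ = ‖Y0‖ := by
    intro i
    have e1 : ‖y i‖ ^ (p ^ (n * J)) = ‖Y0‖ ^ (p ^ (n * J)) := by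
      rw [← norm_pow, hyp, hY0, hs.1 i]
    exact (pow_left_inj₀ (norm_nonneg _) (norm_nonneg _) hN).1 e1
  let t : Fin m → Kap C := fun i => rs ((y i : C) / Y0)
  have hY0C : (Y0 : C) ≠ 0 := by
    intro h
    have : ‖(Y0 : C)‖ = 0 := by rw [h, norm_zero]
    exact h0.ne' this
  have hyY : ∀ i, ‖(y i : C) / (Y0 : C)‖ ≤ 1 := by
    intro i
    rw [norm_div]
    have e1 : ‖(y i : C)‖ = ‖(Y0 : C)‖ := hyn i
    rw [e1]
    exact div_self_le_one _
  have ht : ∀ a : Fin m → ℤ, ∑ i, (a i : Kap C) * t i = 0 → ∀ i, (p : ℤ) ∣ a i := by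
    intro a ha
    apply hs.2
    have e1 : rs (∑ i, (a i : C) * ((y i : C) / Y0) ^ (p ^ (n * J))) = 0 := by
      have e2 : ∀ i ∈ Finset.univ, ‖(a i : C) * ((y i : C) / Y0) ^ (p ^ (n * J))‖ ≤ 1 := by
        intro i _
        rw [norm_mul, norm_pow]
        have e3 : ‖(a i : C)‖ ≤ 1 := ((a i : OC C)).2
        exact mul_le_one₀ e3 (by positivity) (pow_le_one₀ (norm_nonneg _) (hyY i))
      rw [(rs_sum _ _ e2).1]
      have e4 : (∑ i, (a i : Kap C) * t i) ^ (p ^ (n * J)) = 0 := by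
        rw [ha, zero_pow hN]
      rw [sum_pow_char_pow] at e4
      rw [← e4]
      refine Finset.sum_congr rfl fun i _ => ?_
      rw [rs_intCast_mul _ (by rw [norm_pow]; exact pow_le_one₀ (norm_nonneg _) (hyY i)),
        rs_pow (hyY i), mul_pow]
      congr 1
      rw [← iterateFrobenius_def, map_intCast]
    have e5 : ‖∑ i, (a i : C) * ((y i : C) / Y0) ^ (p ^ (n * J))‖ < 1 := by
      refine (rs_eq_zero_iff ?_).1 e1
      refine (rs_sum _ _ ?_).2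
      intro i _
      rw [norm_mul, norm_pow]
      have e3 : ‖(a i : C)‖ ≤ 1 := ((a i : OC C)).2
      exact mul_le_one₀ e3 (by positivity) (pow_le_one₀ (norm_nonneg _) (hyY i))
    have e6 : ∑ i, (a i : C) * ((y i : C) / Y0) ^ (p ^ (n * J)) =
        (∑ i, (a i : C) * (s i : C)) / (Y0 : C) ^ (p ^ (n * J)) := by
      rw [Finset.sum_div]
      refine Finset.sum_congr rfl fun i _ => ?_
      rw [div_pow, mul_div_assoc]
      congr 2
      rw [← hyp i]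
      rfl
    have e7 : ‖(Y0 : C) ^ (p ^ (n * J))‖ = R := by
      rw [norm_pow]; exact hY0
    rw [e6, norm_div, e7, div_lt_one hR0] at e5
    exact e5
  -- residues of b
  let bb : Fin m → Kap C := fun i => IsLocalRing.residue (OC C) (FQ.incl D.hh (b i))
  -- bounds for rho
  have hρj : ∀ j ≤ n * m, L.ρ0 < ‖Y0‖ ^ (p ^ j) := by
    intro j hj
    refine lt_of_lt_of_le hρ ?_
    exact pow_le_pow_of_le_one h0.le h1.le (Nat.pow_le_pow_right hp.pos hj)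
  have hlt1 : ∀ j, ‖Y0‖ ^ (p ^ j) < 1 := fun j => pow_lt_one₀ h0.le h1 (pow_ne_zero _ hp.ne_zero)
  -- the relation at each j
  have hrelj : ∀ j ≤ n * m,
      ∑ i, bb i * t i ^ (p ^ (j + (L.c (‖Y0‖ ^ (p ^ j)) + h * J + v))) = 0 := by
    intro j hj
    obtain ⟨ν, a, hν, ha0, hlead⟩ := lead_single D L Y0 J j h0 h1 (hρj j hj)
    have hνpos : 0 < ‖ν‖ := by
      rw [hν]
      have e1 : ‖(Y0 : C) ^ (p ^ j)‖ = ‖Y0‖ ^ (p ^ j) := by rw [norm_pow]; rfl
      rw [← e1]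
      refine L.N_pos _ ?_ ?_
      · rw [e1]; positivity
      · rw [e1]; exact hlt1 j
    set c := L.c (‖Y0‖ ^ (p ^ j)) with hc
    set w := L.b (‖Y0‖ ^ (p ^ j)) - c with hw
    have hwr : w ≤ r := by
      have := L.b_sub_c (‖Y0‖ ^ (p ^ j))
      omega
    have hwn : w < n := by
      have e1 := D.hh
      have e2 := D.hn
      omega
    have hzero : ∀ ζ : GaloisField p n, ∑ l ∈ Finset.range (w + 1),
        (a l ^ (p ^ (c + h * J + v)) * ∑ i, bb i * t i ^ (p ^ (j + l + (c + h * J + v)))) *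
          (psi D ζ) ^ (p ^ ((c + h * J + v) + l)) = 0 := by
      intro ζ
      by_cases hζ : ζ = 0
      · rw [hζ, _root_.map_zero]
        refine Finset.sum_eq_zero fun l _ => ?_
        rw [zero_pow (pow_ne_zero _ hp.ne_zero), mul_zero]
      rw [← block_expand]
      obtain ⟨δ, hδ, hδ1, hδ2⟩ := exists_End (by omega) D.Γ D.Γp ζ j
      have hH := H j hj ζ hζ δ hδ hδ1 hδ2
      have hl : ∀ i, ‖D.pi (ev1 D.kx (s i) δ)‖ ≤ ‖ν‖ ^ (p ^ (h * J)) ∧
          rs ((D.pi (ev1 D.kx (s i) δ) : C) / ν ^ (p ^ (h * J))) =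
            (∑ l ∈ Finset.range (w + 1), a l * (psi D ζ * t i ^ (p ^ j)) ^ (p ^ l)) ^
                (p ^ (c + h * J)) := by
        intro i
        have := hlead (y i) (hyn i) ζ hζ δ hδ1 hδ2
        rw [hyp i] at this
        exact this
      have hle : ∀ i, ‖(D.pi (ev1 D.kx (s i) δ) : C) / ν ^ (p ^ (h * J))‖ ≤ 1 := by
        intro i
        rw [norm_div, norm_pow, div_le_one (by positivity)]
        exact (hl i).1
      have e1 : (∑ i, FQ.incl D.hh (b i) * (D.pi (ev1 D.kx (s i) δ)) ^ (p ^ v) : OC C) =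
          ((∑ i, ((FQ.incl D.hh (b i) : OC C) : C) *
            ((D.pi (ev1 D.kx (s i) δ) : C) / ν ^ (p ^ (h * J))) ^ (p ^ v)) *
            ν ^ (p ^ (h * J + v)) : C) := by
        rw [Finset.sum_mul]
        push_cast
        refine Finset.sum_congr rfl fun i _ => ?_
        rw [div_pow, ← pow_mul, ← pow_add]
        have : ν ^ (p ^ (h * J + v)) ≠ 0 := pow_ne_zero _ (norm_pos_iff.1 hνpos)
        field_simp
      have e2 : ‖∑ i, ((FQ.incl D.hh (b i) : OC C) : C) *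
            ((D.pi (ev1 D.kx (s i) δ) : C) / ν ^ (p ^ (h * J))) ^ (p ^ v)‖ < 1 := by
        have e3 : ‖(∑ i, FQ.incl D.hh (b i) * (D.pi (ev1 D.kx (s i) δ)) ^ (p ^ v) : OC C)‖ =
            ‖((∑ i, FQ.incl D.hh (b i) * (D.pi (ev1 D.kx (s i) δ)) ^ (p ^ v) : OC C) : C)‖ := rfl
        rw [e3, e1, norm_mul, norm_pow ν, hν] at hH
        have e4 : 0 < L.N (‖Y0‖ ^ (p ^ j)) ^ (p ^ (h * J + v)) := by
          rw [← hν]; positivity
        by_contra hcon
        push Not at hcon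
        have := mul_le_mul_of_nonneg_right hcon e4.le
        rw [one_mul] at this
        exact absurd hH (not_lt.2 this)
      have e5 : ∀ i ∈ Finset.univ, ‖((FQ.incl D.hh (b i) : OC C) : C) *
            ((D.pi (ev1 D.kx (s i) δ) : C) / ν ^ (p ^ (h * J))) ^ (p ^ v)‖ ≤ 1 := by
        intro i _
        rw [norm_mul, norm_pow]
        exact mul_le_one₀ (FQ.incl D.hh (b i)).2 (by positivity)
          (pow_le_one₀ (norm_nonneg _) (hle i))
      have e6 := (rs_eq_zero_iff (rs_sum _ _ e5).2).2 e2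
      rw [(rs_sum _ _ e5).1] at e6
      rw [← e6]
      refine Finset.sum_congr rfl fun i _ => ?_
      rw [rs_mul (FQ.incl D.hh (b i)).2 (by rw [norm_pow]; exact pow_le_one₀ (norm_nonneg _) (hle i)),
        rs_pow (hle i), (hl i).2, ← pow_mul, ← pow_add, rs_coe]
    have hAk := charIndep hn0 (psi D)
      (fun l => if l < w + 1 then (a l ^ (p ^ (c + h * J + v)) *
        ∑ i, bb i * t i ^ (p ^ (j + l + (c + h * J + v)))) else 0) (c + h * J + v) (by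
        intro ζ
        refine Eq.trans ?_ (hzero ζ)
        symm
        apply Finset.sum_subset_zero_on_sdiff
        · intro l hl
          rw [Finset.mem_range] at hl ⊢
          omega
        · intro l hl
          rw [Finset.mem_sdiff, Finset.mem_range, Finset.mem_range] at hl
          rw [if_neg (by omega), zero_mul]
        · intro l hl
          rw [Finset.mem_range] at hl
          rw [if_pos hl]) 0 (by omega)
    simp only [Nat.zero_lt_succ, if_true] at hAk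
    rcases mul_eq_zero.1 hAk with h2 | h2
    · exact absurd h2 (pow_ne_zero _ ha0)
    · exact h2
  -- discrete IVT
  let e : ℕ → ℕ := fun j => if j ≤ n * m then j + (L.c (‖Y0‖ ^ (p ^ j)) + h * J + v)
    else n * m + (L.c (‖Y0‖ ^ (p ^ (n * m))) + h * J + v)
  have hstep : ∀ j, e (j + 1) ≤ e j + 1 := by
    intro j
    by_cases hj : j + 1 ≤ n * m
    · have e1 : e (j + 1) = (j + 1) + (L.c (‖Y0‖ ^ (p ^ (j + 1))) + h * J + v) := if_pos hj
      have e2 : e j = j + (L.c (‖Y0‖ ^ (p ^ j)) + h * J + v) := if_pos (by omega)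
      rw [e1, e2]
      have e3 : L.c (‖Y0‖ ^ (p ^ (j + 1))) ≤ L.c (‖Y0‖ ^ (p ^ j)) := by
        refine (L.c_le_b _).trans (L.b_le_c _ _ ?_ (hlt1 j))
        exact pow_lt_pow_right_of_lt_one₀ h0 h1 (Nat.pow_lt_pow_right hp.one_lt (by omega))
      omega
    · have e1 : e (j + 1) = n * m + (L.c (‖Y0‖ ^ (p ^ (n * m))) + h * J + v) := if_neg hj
      rw [e1]
      by_cases hj2 : j ≤ n * m
      · have e2 : e j = j + (L.c (‖Y0‖ ^ (p ^ j)) + h * J + v) := if_pos hj2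
        have e3 : j = n * m := by omega
        rw [e2, e3]
        omega
      · have e2 : e j = n * m + (L.c (‖Y0‖ ^ (p ^ (n * m))) + h * J + v) := if_neg hj2
        rw [e2]
        omega
  have hcn : ∀ k ≤ m, L.c (‖Y0‖ ^ (p ^ (n * k))) + r * k = L.c (‖Y0‖ ^ (p ^ 0)) := by
    intro k
    induction k with
    | zero => intro _; simp
    | succ k ih =>
      intro hk
      have e1 := ih (by omega)
      have e2 := L.c_pow (‖Y0‖ ^ (p ^ (n * k))) (hρj _ (Nat.mul_le_mul_left n (by omega))) (hlt1 _)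
      rw [← pow_mul, ← pow_add, show n * k + n = n * (k + 1) by ring] at e2
      rw [← e1, ← e2]
      ring
  have hrange : ∀ k < m, ∃ j ≤ n * m, e j = e 0 + k := by
    intro k hk
    refine dIVT e hstep (n * m) (e 0 + k) (by omega) ?_
    have e1 : e (n * m) = n * m + (L.c (‖Y0‖ ^ (p ^ (n * m))) + h * J + v) := if_pos le_rfl
    have e2 : e 0 = 0 + (L.c (‖Y0‖ ^ (p ^ 0)) + h * J + v) := if_pos (by omega)
    have e3 := hcn m le_rfl
    have e4 : n * m = h * m + r * m := by rw [← D.hn]; ring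
    have e5 : m ≤ h * m := Nat.le_mul_of_pos_left m D.hh
    rw [e1, e2]
    omega
  have hbb := moore_kap t ht bb (e 0) (by
    intro k hk
    obtain ⟨j, hj, hej⟩ := hrange k hk
    rw [← hej]
    have e1 : e j = j + (L.c (‖Y0‖ ^ (p ^ j)) + h * J + v) := if_pos hj
    rw [e1]
    exact hrelj j hj)
  intro i
  have h2 := (residue_eq_zero_iff _).1 (hbb i)
  by_contra hbi
  have h3 : ‖FQ.incl D.hh (b i)‖ = 1 := (isUnit_iff (C := C) _).1 ((IsUnit.mk0 (b i) hbi).map _)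
  rw [h3] at h2
  exact lt_irrefl _ h2

theorem two_block (hn : n ≠ 0) {κ : Type*} [Field κ]
    (ψ : GaloisField p n →+* κ) (w w' E E' : ℕ) (A A' : ℕ → κ) (κ0 : κ) (hw' : w' < n)
    (hcase : κ0 = 0 ∨ (E + w < E' ∧ E' + w' < E + n))
    (hz : ∀ ζ, κ0 * ∑ l ∈ Finset.range (w + 1), A l * (ψ ζ) ^ (p ^ (E + l)) +
      ∑ l ∈ Finset.range (w' + 1), A' l * (ψ ζ) ^ (p ^ (E' + l)) = 0) : A' 0 = 0 := by
  classical
  rcases hcase with h0 | ⟨h1, h2⟩
  · have hAk := charIndep hn ψ (fun l => if l < w' + 1 then A' l else 0) E' (by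
      intro ζ
      refine Eq.trans ?_ (hz ζ)
      rw [h0, zero_mul, zero_add]
      symm
      apply Finset.sum_subset_zero_on_sdiff
      · intro l hl
        rw [Finset.mem_range] at hl ⊢
        omega
      · intro l hl
        rw [Finset.mem_sdiff, Finset.mem_range, Finset.mem_range] at hl
        rw [if_neg (by omega), zero_mul]
      · intro l hl
        rw [Finset.mem_range] at hl
        rw [if_pos hl]) 0 (by omega)
    simpa using hAk
  · obtain ⟨d, hd⟩ : ∃ d, E' = E + d := ⟨E' - E, by omega⟩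
    subst hd
    have hAk := charIndep hn ψ (fun l => (if l < w + 1 then κ0 * A l else 0) +
      (if d ≤ l ∧ l < d + (w' + 1) then A' (l - d) else 0)) E (by
      intro ζ
      refine Eq.trans ?_ (hz ζ)
      rw [Finset.sum_congr rfl fun l _ => add_mul _ _ _, Finset.sum_add_distrib]
      congr 1
      · rw [Finset.mul_sum]
        symm
        apply Finset.sum_subset_zero_on_sdiff
        · intro l hl
          rw [Finset.mem_range] at hl ⊢
          omega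
        · intro l hl
          rw [Finset.mem_sdiff, Finset.mem_range, Finset.mem_range] at hl
          rw [if_neg (by omega), zero_mul]
        · intro l hl
          rw [Finset.mem_range] at hl
          rw [if_pos hl, mul_assoc]
      · have e1 : ∑ l ∈ Finset.range (w' + 1), A' l * (ψ ζ) ^ (p ^ (E + d + l)) =
            ∑ l ∈ Finset.Ico d (d + (w' + 1)), A' (l - d) * (ψ ζ) ^ (p ^ (E + l)) := by
          rw [Finset.sum_Ico_eq_sum_range]
          have e2 : d + (w' + 1) - d = w' + 1 := by omega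
          rw [e2]
          refine Finset.sum_congr rfl fun l _ => ?_
          rw [Nat.add_sub_cancel_left, add_assoc]
        rw [e1]
        symm
        apply Finset.sum_subset_zero_on_sdiff
        · intro l hl
          rw [Finset.mem_Ico] at hl
          rw [Finset.mem_range]
          omega
        · intro l hl
          rw [Finset.mem_sdiff, Finset.mem_range, Finset.mem_Ico] at hl
          rw [if_neg hl.2, zero_mul]
        · intro l hl
          rw [Finset.mem_Ico] at hl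
          rw [if_pos hl]) d (by omega)
    simp only [le_refl, true_and, Nat.sub_self] at hAk
    rw [if_neg (by omega), if_pos (by omega), zero_add] at hAk
    exact hAk

theorem exists_pow_small (hn : n ≠ 0) {ρ ε : ℝ} (h0 : 0 ≤ ρ) (h1 : ρ < 1) (hε : 0 < ε) :
    ∃ J0 : ℕ, ∀ J ≥ J0, ρ ^ (p ^ (n * J)) < ε := by
  have hp : p.Prime := Fact.out
  obtain ⟨N, hN⟩ := exists_pow_lt_of_lt_one hε h1
  refine ⟨N, fun J hJ => lt_of_le_of_lt (pow_le_pow_of_le_one h0 h1.le ?_) hN⟩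
  calc N ≤ J := hJ
    _ ≤ n * J := Nat.le_mul_of_pos_left J (Nat.pos_of_ne_zero hn)
    _ ≤ p ^ (n * J) := (Nat.lt_pow_self hp.one_lt).le

theorem FQ.charP' : CharP (FQ C p h) p := by
  have hp : p.Prime := Fact.out
  refine (CharP.charP_iff_prime_eq_zero hp).2 ?_
  apply Subtype.ext
  simp

/-- bound of `π(δ(s))` -/
theorem norm_pi_le (D : LData p n h r C) (L : D.Lead) {R : ℝ} (hR0 : 0 < R) (hR1 : R < 1)
    (Y0 : OC C) (J j : ℕ) (hY0 : ‖Y0‖ ^ (p ^ (n * J)) = R) (hρ : L.ρ0 < ‖Y0‖ ^ (p ^ j))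
    (s : OC C) (hs : ‖s‖ = R) (ζ : GaloisField p n) (hζ : ζ ≠ 0)
    (δ : PowerSeries (GaloisField p n)) (hδ : ∀ i < p ^ j, PowerSeries.coeff i δ = 0)
    (hδζ : PowerSeries.coeff (p ^ j) δ = ζ) :
    ‖D.pi (ev1 D.kx s δ)‖ ≤ (L.N (‖Y0‖ ^ (p ^ j))) ^ (p ^ (h * J)) := by
  have hp : p.Prime := Fact.out
  have hN : p ^ (n * J) ≠ 0 := pow_ne_zero _ hp.ne_zero
  have h0 : 0 < ‖Y0‖ := by
    rcases (norm_nonneg Y0).lt_or_eq with h | h
    · exact h
    · rw [← h, zero_pow hN] at hY0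
      exact absurd hY0 hR0.ne
  have h1 : ‖Y0‖ < 1 := by
    by_contra hcon
    push Not at hcon
    have := one_le_pow₀ (n := p ^ (n * J)) hcon
    rw [hY0] at this
    exact absurd hR1 (not_lt.2 this)
  obtain ⟨ν, a, hν, ha0, hlead⟩ := lead_single D L Y0 J j h0 h1 hρ
  have hy : (rt p (n * J) s) ^ (p ^ (n * J)) = s := rt_pow (n * J) s
  have hyn : ‖rt p (n * J) s‖ = ‖Y0‖ := by
    have e1 : ‖rt p (n * J) s‖ ^ (p ^ (n * J)) = ‖Y0‖ ^ (p ^ (n * J)) := by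
      rw [← norm_pow, hy, hY0, hs]
    exact (pow_left_inj₀ (norm_nonneg _) (norm_nonneg _) hN).1 e1
  have h2 := (hlead _ hyn ζ hζ δ hδ hδζ).1
  rw [hy, hν] at h2
  exact h2

/-- case (B), in terms of `D.pi` -/
theorem contra_B_aux (D : LData p n h r C) (L : D.Lead) (m : ℕ) (s : Fin m → OC C) (R : ℝ)
    (hR0 : 0 < R) (hR1 : R < 1) (hs : ResIndep p s R)
    (β : Fin m → PowerSeries (FQ C p h)) (hβ : ∀ i, IsFGHom D.Gh D.Gh (β i))
    [D.Gh.IsComm]
    (hrel : ∀ δ, IsFGHom D.Γ D.Γ δ → ∀ z : Fin m → Pt D.Gh (FQ.incl (C := C) (p := p) D.hh),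
      (∀ i, (z i).1 = D.pi (ev1 D.kx (s i) δ)) → ∑ i, Pt.mapHom (β i) (hβ i) (z i) = 0) :
    ∀ i, β i = 0 := by
  classical
  have hp : p.Prime := Fact.out
  haveI : CharP (FQ C p h) p := FQ.charP'
  have hn0 := n_ne_zero D
  by_contra hcon
  push Not at hcon
  obtain ⟨v, hv1, i1, hv2⟩ := exists_order (p := p) β hβ hcon
  obtain ⟨J, hJ⟩ := exists_pow_small (p := p) hn0 L.ρ0_pos.le L.ρ0_lt
    (pow_pos hR0 (p ^ (n * m)))
  have hN : p ^ (n * J) ≠ 0 := pow_ne_zero _ hp.ne_zero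
  set Y0 : OC C := rt p (n * J) (s i1) with hY0def
  have hY0 : ‖Y0‖ ^ (p ^ (n * J)) = R := by
    rw [← norm_pow, hY0def, rt_pow, hs.1 i1]
  have h0 : 0 < ‖Y0‖ := by
    rcases (norm_nonneg Y0).lt_or_eq with h | h
    · exact h
    · rw [← h, zero_pow hN] at hY0
      exact absurd hY0 hR0.ne
  have h1 : ‖Y0‖ < 1 := by
    by_contra hcon
    push Not at hcon
    have := one_le_pow₀ (n := p ^ (n * J)) hcon
    rw [hY0] at this
    exact absurd hR1 (not_lt.2 this)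
  have hρ : L.ρ0 < ‖Y0‖ ^ (p ^ (n * m)) := by
    by_contra hcon2
    push Not at hcon2
    have e1 : (‖Y0‖ ^ (p ^ (n * m))) ^ (p ^ (n * J)) ≤ L.ρ0 ^ (p ^ (n * J)) :=
      pow_le_pow_left₀ (by positivity) hcon2 _
    rw [← pow_mul, mul_comm, pow_mul, hY0] at e1
    exact absurd (hJ J le_rfl) (not_lt.2 e1)
  have hρj : ∀ j ≤ n * m, L.ρ0 < ‖Y0‖ ^ (p ^ j) := by
    intro j hj
    refine lt_of_lt_of_le hρ ?_
    exact pow_le_pow_of_le_one h0.le h1.le (Nat.pow_le_pow_right hp.pos hj)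
  have hb := core D L s R hR0 hR1 hs Y0 J hY0 hρ v (fun i => PowerSeries.coeff (p ^ v) (β i)) (by
    intro j hj ζ hζ δ hδ hδ1 hδ2
    have hns : ∀ i, ‖s i‖ < 1 := fun i => by rw [hs.1 i]; exact hR1
    have hevlt : ∀ i, ‖ev1 D.kx (s i) δ‖ < 1 := by
      intro i
      refine (OC.isTopologicallyNilpotent_iff _).1
        (isTopologicallyNilpotent_ev1 D.kx (s i) (tn (hns i)) δ hδ.1)
    have hpilt : ∀ i, ‖D.pi (ev1 D.kx (s i) δ)‖ < 1 := fun i => D.pi_lt (hevlt i)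
    have hNpos : 0 < L.N (‖Y0‖ ^ (p ^ j)) := by
      have e1 : ‖(Y0 : C) ^ (p ^ j)‖ = ‖Y0‖ ^ (p ^ j) := by rw [norm_pow]; rfl
      rw [← e1]
      refine L.N_pos _ ?_ ?_
      · rw [e1]; positivity
      · rw [e1]; exact pow_lt_one₀ h0.le h1 (pow_ne_zero _ hp.ne_zero)
    have hNlt : L.N (‖Y0‖ ^ (p ^ j)) < 1 := by
      have e1 : ‖(Y0 : C) ^ (p ^ j)‖ = ‖Y0‖ ^ (p ^ j) := by rw [norm_pow]; rfl
      rw [← e1]
      refine L.N_lt _ ?_ ?_
      · rw [e1]; positivity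
      · rw [e1]; exact pow_lt_one₀ h0.le h1 (pow_ne_zero _ hp.ne_zero)
    have hbd : ∀ i, ‖D.pi (ev1 D.kx (s i) δ)‖ ≤ (L.N (‖Y0‖ ^ (p ^ j))) ^ (p ^ (h * J)) :=
      fun i => norm_pi_le D L hR0 hR1 Y0 J j hY0 (hρj j hj) (s i) (hs.1 i) ζ hζ δ hδ1 hδ2
    set M := L.N (‖Y0‖ ^ (p ^ j)) with hM
    have hMv : (M ^ (p ^ (h * J))) ^ (p ^ v) = M ^ (p ^ (h * J + v)) := by
      rw [← pow_mul, ← pow_add]
    have hM1 : M ^ (p ^ (h * J)) < 1 := pow_lt_one₀ hNpos.le hNlt (pow_ne_zero _ hp.ne_zero)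
    refine norm_sum_lead D.Gh (FQ.incl D.hh) Finset.univ
      (fun i => Pt.mapHom (β i) (hβ i) (mkPt _ _ (D.pi (ev1 D.kx (s i) δ)) (hpilt i)))
      (fun i => FQ.incl D.hh (PowerSeries.coeff (p ^ v) (β i)) *
        (D.pi (ev1 D.kx (s i) δ)) ^ (p ^ v)) (by positivity)
      (pow_lt_one₀ hNpos.le hNlt (pow_ne_zero _ hp.ne_zero)) ?_ ?_
      (hrel δ hδ _ (fun i => rfl))
    · intro i _
      rw [Pt.mapHom_val, mkPt_val]
      refine lt_of_le_of_lt (norm_ev1_sub_lead _ (hpilt i) (β i) (p ^ v) (hv1 i)) ?_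
      refine lt_of_le_of_lt (pow_le_pow_left₀ (norm_nonneg _) (hbd i) _) ?_
      rw [pow_succ, hMv]
      exact mul_lt_of_lt_one_right (by positivity) hM1
    · intro i _
      rw [norm_mul, norm_pow (D.pi _), ← hMv]
      have e1 : ‖(FQ.incl D.hh (PowerSeries.coeff (p ^ v) (β i)) : OC C)‖ ≤ 1 :=
        OC.norm_le_one _
      calc _ ≤ 1 * (M ^ (p ^ (h * J))) ^ (p ^ v) := by
            refine mul_le_mul e1 (pow_le_pow_left₀ (norm_nonneg _) (hbd i) _) (by positivity)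
              zero_le_one
        _ = _ := one_mul _)
  exact hv2 (hb i1)

theorem norm_intCast_lt_one {a : ℤ} (ha : ‖(a : C)‖ < 1) : (p : ℤ) ∣ a := by
  have hp : p.Prime := Fact.out
  rw [← CharP.intCast_eq_zero_iff C p]
  by_contra hne
  have h1 : (a : C) ^ (p ^ 1) = (a : C) := by
    rw [← iterateFrobenius_def, map_intCast]
  have h2 : ‖(a : C)‖ ^ p = ‖(a : C)‖ := by
    rw [← norm_pow, ← pow_one p, h1]
  have h3 : 0 < ‖(a : C)‖ := norm_pos_iff.2 hne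
  have h4 : ‖(a : C)‖ ^ p < ‖(a : C)‖ := by
    have := pow_lt_pow_right_of_lt_one₀ h3 ha hp.one_lt
    rwa [pow_one] at this
  rw [h2] at h4
  exact lt_irrefl _ h4

theorem resIndep_single (s : OC C) (hs : s ≠ 0) : ResIndep p (fun _ : Fin 1 => s) ‖s‖ := by
  refine ⟨fun _ => rfl, ?_⟩
  intro a ha i
  have h0 : 0 < ‖(s : C)‖ := norm_pos_iff.2 (fun h => hs (Subtype.ext h))
  rw [Fin.sum_univ_one, norm_mul] at ha
  have h1 : ‖(a 0 : C)‖ < 1 := by
    by_contra hcon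
    push Not at hcon
    have := mul_le_mul_of_nonneg_right hcon h0.le
    rw [one_mul] at this
    exact absurd ha (not_lt.2 this)
  have h2 := norm_intCast_lt_one (p := p) h1
  have h3 : i = 0 := Subsingleton.elim _ _
  rw [h3]
  exact h2

theorem norm_pos_lt_of_pow {Y : OC C} {R : ℝ} (hR0 : 0 < R) (hR1 : R < 1) {N : ℕ} (hN : N ≠ 0)
    (hY : ‖Y‖ ^ N = R) : 0 < ‖Y‖ ∧ ‖Y‖ < 1 := by
  constructor
  · rcases (norm_nonneg Y).lt_or_eq with h | h
    · exact h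
    · rw [← h, zero_pow hN] at hY
      exact absurd hY hR0.ne
  · by_contra hcon
    push Not at hcon
    have := one_le_pow₀ (n := N) hcon
    rw [hY] at this
    exact absurd hR1 (not_lt.2 this)

theorem N_pos' (D : LData p n h r C) (L : D.Lead) {Y : OC C} (h0 : 0 < ‖Y‖) (h1 : ‖Y‖ < 1)
    (j : ℕ) : 0 < L.N (‖Y‖ ^ (p ^ j)) ∧ L.N (‖Y‖ ^ (p ^ j)) < 1 := by
  have hp : p.Prime := Fact.out
  have e1 : ‖(Y : C) ^ (p ^ j)‖ = ‖Y‖ ^ (p ^ j) := by rw [norm_pow]; rfl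
  rw [← e1]
  refine ⟨L.N_pos _ ?_ ?_, L.N_lt _ ?_ ?_⟩
  · rw [e1]; positivity
  · rw [e1]; exact pow_lt_one₀ h0.le h1 (pow_ne_zero _ hp.ne_zero)
  · rw [e1]; positivity
  · rw [e1]; exact pow_lt_one₀ h0.le h1 (pow_ne_zero _ hp.ne_zero)

theorem exponents (D : LData p n h r C) (L : D.Lead) (Y0 Y' : OC C) (j A A' : ℕ)
    (h0 : 0 < ‖Y0‖) (h1 : ‖Y0‖ < 1) (h1' : ‖Y'‖ < 1)
    (hlt1 : ‖Y0‖ < ‖Y'‖) (hlt2 : ‖Y'‖ ^ (p ^ n) < ‖Y0‖) (hρ : L.ρ0 < ‖Y0‖ ^ (p ^ j))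
    (hM : L.N (‖Y0‖ ^ (p ^ j)) ^ (p ^ A) = L.N (‖Y'‖ ^ (p ^ j)) ^ (p ^ A')) :
    L.b (‖Y0‖ ^ (p ^ j)) + A < L.c (‖Y'‖ ^ (p ^ j)) + A' ∧
      L.b (‖Y'‖ ^ (p ^ j)) + A' < L.c (‖Y0‖ ^ (p ^ j)) + A + n := by
  have hp : p.Prime := Fact.out
  have hpj : p ^ j ≠ 0 := pow_ne_zero _ hp.ne_zero
  have hpn : p ^ n ≠ 0 := pow_ne_zero _ hp.ne_zero
  have h0' : 0 < ‖Y'‖ := h0.trans hlt1
  obtain ⟨hN0, hN1⟩ := N_pos' D L h0 h1 j
  obtain ⟨hN0', hN1'⟩ := N_pos' D L h0' h1' j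
  have e0 : ‖(Y0 : C) ^ (p ^ j)‖ = ‖Y0‖ ^ (p ^ j) := by rw [norm_pow]; rfl
  have e0' : ‖(Y' : C) ^ (p ^ j)‖ = ‖Y'‖ ^ (p ^ j) := by rw [norm_pow]; rfl
  have hρlt : ‖Y0‖ ^ (p ^ j) < ‖Y'‖ ^ (p ^ j) := pow_lt_pow_left₀ hlt1 h0.le hpj
  have hρ1 : ‖Y0‖ ^ (p ^ j) < 1 := pow_lt_one₀ h0.le h1 hpj
  have hρ1' : ‖Y'‖ ^ (p ^ j) < 1 := pow_lt_one₀ h0'.le h1' hpj
  -- z3
  set z3 : OC C := rt p n (Y0 ^ (p ^ j)) with hz3
  have hz3p : ‖z3‖ ^ (p ^ n) = ‖Y0‖ ^ (p ^ j) := by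
    rw [← norm_pow, hz3, rt_pow, norm_pow]
  obtain ⟨hz30, hz31⟩ := norm_pos_lt_of_pow (Y := z3) (by positivity) hρ1 hpn hz3p
  have hz3ρ : L.ρ0 < ‖z3‖ := by
    refine lt_of_lt_of_le hρ ?_
    rw [← hz3p]
    exact pow_le_of_le_one hz30.le hz31.le hpn
  have hlt3 : ‖Y'‖ ^ (p ^ j) < ‖z3‖ := by
    have e3 : (‖Y'‖ ^ (p ^ j)) ^ (p ^ n) < ‖z3‖ ^ (p ^ n) := by
      rw [hz3p, ← pow_mul, mul_comm, pow_mul]
      exact pow_lt_pow_left₀ hlt2 (by positivity) hpj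
    exact lt_of_pow_lt_pow_left₀ _ hz30.le e3
  have hNN : L.N (‖Y0‖ ^ (p ^ j)) < L.N (‖Y'‖ ^ (p ^ j)) := by
    have := L.N_mono ((Y0 : C) ^ (p ^ j)) ((Y' : C) ^ (p ^ j)) (by rw [e0]; positivity)
      (by rw [e0, e0']; exact hρlt) (by rw [e0']; exact hρ1')
    rwa [e0, e0'] at this
  have hNN3 : L.N (‖Y'‖ ^ (p ^ j)) < L.N ‖z3‖ := by
    have := L.N_mono ((Y' : C) ^ (p ^ j)) (z3 : C) (by rw [e0']; positivity)
      (by rw [e0']; exact hlt3) hz31
    rwa [e0'] at this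
  have hNp : L.N (‖Y0‖ ^ (p ^ j)) = L.N ‖z3‖ ^ (p ^ h) := by
    rw [← hz3p]
    exact L.N_pow (z3 : C) hz3ρ hz31
  have hA : A < A' := by
    by_contra hcon
    push Not at hcon
    have e3 : L.N (‖Y0‖ ^ (p ^ j)) ^ (p ^ A) ≤ L.N (‖Y0‖ ^ (p ^ j)) ^ (p ^ A') :=
      pow_le_pow_of_le_one hN0.le hN1.le (Nat.pow_le_pow_right hp.pos hcon)
    have e4 : L.N (‖Y0‖ ^ (p ^ j)) ^ (p ^ A') < L.N (‖Y'‖ ^ (p ^ j)) ^ (p ^ A') :=
      pow_lt_pow_left₀ hNN hN0.le (pow_ne_zero _ hp.ne_zero)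
    exact absurd hM (ne_of_lt (lt_of_le_of_lt e3 e4))
  have hA' : A' < A + h := by
    by_contra hcon
    push Not at hcon
    have e3 : L.N (‖Y'‖ ^ (p ^ j)) ^ (p ^ A') ≤ L.N (‖Y'‖ ^ (p ^ j)) ^ (p ^ (A + h)) :=
      pow_le_pow_of_le_one hN0'.le hN1'.le (Nat.pow_le_pow_right hp.pos hcon)
    have e4 : L.N (‖Y'‖ ^ (p ^ j)) ^ (p ^ (A + h)) < L.N ‖z3‖ ^ (p ^ (A + h)) :=
      pow_lt_pow_left₀ hNN3 hN0'.le (pow_ne_zero _ hp.ne_zero)
    have e5 : L.N ‖z3‖ ^ (p ^ (A + h)) = L.N (‖Y0‖ ^ (p ^ j)) ^ (p ^ A) := by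
      rw [hNp, ← pow_mul, ← pow_add, add_comm]
    rw [e5] at e4
    exact absurd hM (ne_of_gt (lt_of_le_of_lt e3 e4))
  have hb1 := L.b_le_c _ _ hρlt hρ1'
  have hb2 := L.b_le_c _ _ hlt3 hz31
  have hc := L.c_pow ‖z3‖ hz3ρ hz31
  rw [hz3p] at hc
  have hhr := D.hn
  omega

theorem no_dom (D : LData p n h r C) (L : D.Lead) {m : ℕ} (s : Fin m → OC C) (R : ℝ)
    (hR0 : 0 < R) (hR1 : R < 1) (hs : ∀ i, ‖s i‖ = R) (s' : OC C)
    (hs'1 : ‖s'‖ < 1) (Y0 Y' : OC C) (J J' j : ℕ)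
    (hY0 : ‖Y0‖ ^ (p ^ (n * J)) = R) (hY' : Y' ^ (p ^ (n * J')) = s')
    (hlt1 : ‖Y0‖ < ‖Y'‖) (hlt2 : ‖Y'‖ ^ (p ^ n) < ‖Y0‖) (hρ : L.ρ0 < ‖Y0‖ ^ (p ^ j))
    (v v' : ℕ) (b : Fin m → FQ C p h) (b' : FQ C p h) (hb' : b' ≠ 0)
    (H : ∀ ζ : GaloisField p n, ζ ≠ 0 → ∀ δ : PowerSeries (GaloisField p n),
      IsFGHom D.Γ D.Γ δ → (∀ i < p ^ j, PowerSeries.coeff i δ = 0) →
      PowerSeries.coeff (p ^ j) δ = ζ →
      ‖∑ i, FQ.incl D.hh (b i) * (D.pi (ev1 D.kx (s i) δ)) ^ (p ^ v) +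
        FQ.incl D.hh b' * (D.pi (ev1 D.kx s' δ)) ^ (p ^ v')‖ <
        (L.N (‖Y'‖ ^ (p ^ j))) ^ (p ^ (h * J' + v')))
    (hM : (L.N (‖Y0‖ ^ (p ^ j))) ^ (p ^ (h * J + v)) ≤
      (L.N (‖Y'‖ ^ (p ^ j))) ^ (p ^ (h * J' + v'))) : False := by
  classical
  have hp : p.Prime := Fact.out
  haveI : CharP (Kap C) p := Kap.charP p
  haveI := D.Γcomm
  have hn0 := n_ne_zero D
  have hN : p ^ (n * J) ≠ 0 := pow_ne_zero _ hp.ne_zero
  have hN' : p ^ (n * J') ≠ 0 := pow_ne_zero _ hp.ne_zero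
  obtain ⟨h0, h1⟩ := norm_pos_lt_of_pow hR0 hR1 hN hY0
  have h0' : 0 < ‖Y'‖ := h0.trans hlt1
  have h1' : ‖Y'‖ < 1 := by
    by_contra hcon
    push Not at hcon
    have := one_le_pow₀ (n := p ^ (n * J')) hcon
    rw [← norm_pow, hY'] at this
    exact absurd hs'1 (not_lt.2 this)
  have hρ' : L.ρ0 < ‖Y'‖ ^ (p ^ j) :=
    hρ.trans (pow_lt_pow_left₀ hlt1 h0.le (pow_ne_zero _ hp.ne_zero))
  -- roots
  let y : Fin m → OC C := fun i => rt p (n * J) (s i)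
  have hyp : ∀ i, (y i) ^ (p ^ (n * J)) = s i := fun i => rt_pow (n * J) (s i)
  have hyn : ∀ i, ‖y i‖ = ‖Y0‖ := by
    intro i
    have e1 : ‖y i‖ ^ (p ^ (n * J)) = ‖Y0‖ ^ (p ^ (n * J)) := by
      rw [← norm_pow, hyp, hY0, hs i]
    exact (pow_left_inj₀ (norm_nonneg _) (norm_nonneg _) hN).1 e1
  let t : Fin m → Kap C := fun i => rs ((y i : C) / Y0)
  let bb : Fin m → Kap C := fun i => IsLocalRing.residue (OC C) (FQ.incl D.hh (b i))
  let bb' : Fin 1 → Kap C := fun _ => IsLocalRing.residue (OC C) (FQ.incl D.hh b')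
  let t' : Fin 1 → Kap C := fun _ => rs ((Y' : C) / Y')
  obtain ⟨ν, a, hν, ha0, hlead⟩ := lead_single D L Y0 J j h0 h1 hρ
  obtain ⟨ν', a', hν', ha0', hlead'⟩ := lead_single D L Y' J' j h0' h1' hρ'
  obtain ⟨hNp, hNl⟩ := N_pos' D L h0 h1 j
  obtain ⟨hNp', hNl'⟩ := N_pos' D L h0' h1' j
  have hνpos : 0 < ‖ν‖ := by rw [hν]; exact hNp
  have hνpos' : 0 < ‖ν'‖ := by rw [hν']; exact hNp'
  have hν0 : ν ≠ 0 := norm_pos_iff.1 hνpos
  have hν0' : ν' ≠ 0 := norm_pos_iff.1 hνpos'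
  set c := L.c (‖Y0‖ ^ (p ^ j)) with hc
  set w := L.b (‖Y0‖ ^ (p ^ j)) - c with hw
  set c' := L.c (‖Y'‖ ^ (p ^ j)) with hc'
  set w' := L.b (‖Y'‖ ^ (p ^ j)) - c' with hw'
  set V : C := ν ^ (p ^ (h * J + v)) with hV
  set V' : C := ν' ^ (p ^ (h * J' + v')) with hV'
  have hV0 : V ≠ 0 := pow_ne_zero _ hν0
  have hV0' : V' ≠ 0 := pow_ne_zero _ hν0'
  have hVn : ‖V‖ = (L.N (‖Y0‖ ^ (p ^ j))) ^ (p ^ (h * J + v)) := by rw [hV, norm_pow, hν]
  have hVn' : ‖V'‖ = (L.N (‖Y'‖ ^ (p ^ j))) ^ (p ^ (h * J' + v')) := by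
    rw [hV', norm_pow, hν']
  have hVV : ‖V / V'‖ ≤ 1 := by
    rw [norm_div, hVn, hVn', div_le_one (by positivity)]
    exact hM
  have hwn' : w' < n := by
    have e0 := L.b_sub_c (‖Y'‖ ^ (p ^ j))
    have e1 := D.hh
    have e2 := D.hn
    omega
  have hcb := L.c_le_b (‖Y0‖ ^ (p ^ j))
  have hcb' := L.c_le_b (‖Y'‖ ^ (p ^ j))
  have hcase : rs (V / V') = 0 ∨ (c + h * J + v + w < c' + h * J' + v' ∧
      c' + h * J' + v' + w' < c + h * J + v + n) := by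
    by_cases hk : rs (V / V') = 0
    · exact Or.inl hk
    · right
      have e1 : ‖V / V'‖ = 1 := by
        rcases hVV.lt_or_eq with h | h
        · exact absurd ((rs_eq_zero_iff hVV).2 h) hk
        · exact h
      rw [norm_div, hVn, hVn', div_eq_one_iff_eq (by positivity)] at e1
      obtain ⟨e2, e3⟩ := exponents D L Y0 Y' j (h * J + v) (h * J' + v') h0 h1 h1' hlt1 hlt2 hρ e1
      omega
  have hfin := two_block (p := p) hn0 (psi D) w w' (c + h * J + v) (c' + h * J' + v')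
    (fun l => a l ^ (p ^ (c + h * J + v)) * ∑ i, bb i * t i ^ (p ^ (j + l + (c + h * J + v))))
    (fun l => a' l ^ (p ^ (c' + h * J' + v')) *
      ∑ i, bb' i * t' i ^ (p ^ (j + l + (c' + h * J' + v')))) (rs (V / V')) hwn' hcase (by
    intro ζ
    by_cases hζ : ζ = 0
    · rw [hζ, _root_.map_zero]
      have e1 : ∀ k : ℕ, (0 : Kap C) ^ (p ^ k) = 0 := fun k => zero_pow (pow_ne_zero _ hp.ne_zero)
      simp only [e1, mul_zero, Finset.sum_const_zero, add_zero]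
    rw [← block_expand, ← block_expand]
    obtain ⟨δ, hδ, hδ1, hδ2⟩ := exists_End (by omega) D.Γ D.Γp ζ j
    have hH := H ζ hζ δ hδ hδ1 hδ2
    have hl : ∀ i, ‖D.pi (ev1 D.kx (s i) δ)‖ ≤ ‖ν‖ ^ (p ^ (h * J)) ∧
        rs ((D.pi (ev1 D.kx (s i) δ) : C) / ν ^ (p ^ (h * J))) =
          (∑ l ∈ Finset.range (w + 1), a l * (psi D ζ * t i ^ (p ^ j)) ^ (p ^ l)) ^
              (p ^ (c + h * J)) := by
      intro i
      have := hlead (y i) (hyn i) ζ hζ δ hδ1 hδ2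
      rw [hyp i] at this
      exact this
    have hl' : ‖D.pi (ev1 D.kx s' δ)‖ ≤ ‖ν'‖ ^ (p ^ (h * J')) ∧
        rs ((D.pi (ev1 D.kx s' δ) : C) / ν' ^ (p ^ (h * J'))) =
          (∑ l ∈ Finset.range (w' + 1), a' l * (psi D ζ * t' 0 ^ (p ^ j)) ^ (p ^ l)) ^
              (p ^ (c' + h * J')) := by
      have := hlead' Y' rfl ζ hζ δ hδ1 hδ2
      rw [hY'] at this
      exact this
    have hle : ∀ i, ‖(D.pi (ev1 D.kx (s i) δ) : C) / ν ^ (p ^ (h * J))‖ ≤ 1 := by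
      intro i
      rw [norm_div, norm_pow, div_le_one (by positivity)]
      exact (hl i).1
    have hle' : ‖(D.pi (ev1 D.kx s' δ) : C) / ν' ^ (p ^ (h * J'))‖ ≤ 1 := by
      rw [norm_div, norm_pow, div_le_one (by positivity)]
      exact hl'.1
    have e1 : ((∑ i, FQ.incl D.hh (b i) * (D.pi (ev1 D.kx (s i) δ)) ^ (p ^ v) +
        FQ.incl D.hh b' * (D.pi (ev1 D.kx s' δ)) ^ (p ^ v') : OC C) : C) =
        ((V / V') * (∑ i, ((FQ.incl D.hh (b i) : OC C) : C) *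
          ((D.pi (ev1 D.kx (s i) δ) : C) / ν ^ (p ^ (h * J))) ^ (p ^ v)) +
          ((FQ.incl D.hh b' : OC C) : C) *
          ((D.pi (ev1 D.kx s' δ) : C) / ν' ^ (p ^ (h * J'))) ^ (p ^ v')) * V' := by
      rw [add_mul]
      push_cast
      congr 1
      · rw [Finset.mul_sum, Finset.sum_mul]
        refine Finset.sum_congr rfl fun i _ => ?_
        rw [div_pow, ← pow_mul, ← pow_add, ← hV]
        field_simp
      · rw [div_pow, ← pow_mul, ← pow_add, ← hV']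
        field_simp
    have e5 : ∀ i ∈ Finset.univ, ‖((FQ.incl D.hh (b i) : OC C) : C) *
          ((D.pi (ev1 D.kx (s i) δ) : C) / ν ^ (p ^ (h * J))) ^ (p ^ v)‖ ≤ 1 := by
      intro i _
      rw [norm_mul, norm_pow]
      exact mul_le_one₀ (FQ.incl D.hh (b i)).2 (by positivity)
        (pow_le_one₀ (norm_nonneg _) (hle i))
    have e5' : ‖((FQ.incl D.hh b' : OC C) : C) *
          ((D.pi (ev1 D.kx s' δ) : C) / ν' ^ (p ^ (h * J'))) ^ (p ^ v')‖ ≤ 1 := by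
      rw [norm_mul, norm_pow]
      exact mul_le_one₀ (FQ.incl D.hh b').2 (by positivity)
        (pow_le_one₀ (norm_nonneg _) hle')
    have e7 : ‖(V / V') * (∑ i, ((FQ.incl D.hh (b i) : OC C) : C) *
          ((D.pi (ev1 D.kx (s i) δ) : C) / ν ^ (p ^ (h * J))) ^ (p ^ v))‖ ≤ 1 := by
      rw [norm_mul]
      exact mul_le_one₀ hVV (norm_nonneg _) (rs_sum _ _ e5).2
    have e2 : ‖(V / V') * (∑ i, ((FQ.incl D.hh (b i) : OC C) : C) *
          ((D.pi (ev1 D.kx (s i) δ) : C) / ν ^ (p ^ (h * J))) ^ (p ^ v)) +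
          ((FQ.incl D.hh b' : OC C) : C) *
          ((D.pi (ev1 D.kx s' δ) : C) / ν' ^ (p ^ (h * J'))) ^ (p ^ v')‖ < 1 := by
      rw [← hVn'] at hH
      have hH' := hH
      change ‖((∑ i, FQ.incl D.hh (b i) * (D.pi (ev1 D.kx (s i) δ)) ^ (p ^ v) +
        FQ.incl D.hh b' * (D.pi (ev1 D.kx s' δ)) ^ (p ^ v') : OC C) : C)‖ < ‖V'‖ at hH'
      rw [e1, norm_mul] at hH'
      have e4 : 0 < ‖V'‖ := norm_pos_iff.2 hV0'
      by_contra hcon
      push Not at hcon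
      have := mul_le_mul_of_nonneg_right hcon e4.le
      rw [one_mul] at this
      exact absurd hH' (not_lt.2 this)
    have e6 := (rs_eq_zero_iff ((IsUltrametricDist.norm_add_le_max _ _).trans
      (max_le e7 e5'))).2 e2
    rw [rs_add e7 e5', rs_mul hVV (rs_sum _ _ e5).2, (rs_sum _ _ e5).1] at e6
    refine Eq.trans ?_ e6
    congr 1
    · congr 1
      refine Finset.sum_congr rfl fun i _ => ?_
      rw [rs_mul (FQ.incl D.hh (b i)).2 (by rw [norm_pow]; exact pow_le_one₀ (norm_nonneg _) (hle i)),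
        rs_pow (hle i), (hl i).2, ← pow_mul, ← pow_add, rs_coe]
    · rw [Fin.sum_univ_one, rs_mul (FQ.incl D.hh b').2
        (by rw [norm_pow]; exact pow_le_one₀ (norm_nonneg _) hle'),
        rs_pow hle', hl'.2, ← pow_mul, ← pow_add, rs_coe])
  simp only [Fin.sum_univ_one] at hfin
  have hY'C : (Y' : C) ≠ 0 := by
    intro h
    have : ‖(Y' : C)‖ = 0 := by rw [h, norm_zero]
    exact h0'.ne' this
  have ht1 : t' 0 = 1 := by
    change rs ((Y' : C) / Y') = 1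
    rw [div_self hY'C, rs_one]
  rw [ht1, one_pow, mul_one] at hfin
  rcases mul_eq_zero.1 hfin with h2 | h2
  · exact absurd h2 (pow_ne_zero _ ha0')
  · have h3 := (residue_eq_zero_iff _).1 h2
    have h4 : ‖FQ.incl D.hh b'‖ = 1 := (isUnit_iff (C := C) _).1 ((IsUnit.mk0 b' hb').map _)
    rw [h4] at h3
    exact lt_irrefl _ h3

theorem exists_J' (hn : n ≠ 0) (s' : OC C) (R R' : ℝ) (hR0 : 0 < R) (hR1 : R < 1)
    (hR'0 : 0 < R') (hs' : ‖s'‖ = R')
    (hcl : ∀ e e' : ℕ, R' ^ ((p ^ n) ^ e) ≠ R ^ ((p ^ n) ^ e')) (Y0 : OC C) (J : ℕ)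
    (hY0 : ‖Y0‖ ^ (p ^ (n * J)) = R) (hJ : R' ^ (p ^ (n * J)) ≤ R) :
    ∃ J' : ℕ, ‖Y0‖ < ‖rt p (n * J') s'‖ ∧ ‖rt p (n * J') s'‖ ^ (p ^ n) < ‖Y0‖ := by
  classical
  have hp : p.Prime := Fact.out
  have hN : ∀ J, p ^ (n * J) ≠ 0 := fun J => pow_ne_zero _ hp.ne_zero
  obtain ⟨h0, h1⟩ := norm_pos_lt_of_pow hR0 hR1 (hN J) hY0
  have hf : ∀ K, ‖rt p (n * K) s'‖ ^ (p ^ (n * K)) = R' := by
    intro K
    rw [← norm_pow, rt_pow, hs']
  have hex : ∃ K, ‖Y0‖ < ‖rt p (n * K) s'‖ := by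
    by_contra hcon
    push Not at hcon
    obtain ⟨K0, hK0⟩ := exists_pow_small (p := p) hn h0.le h1 hR'0
    have e1 := hK0 K0 le_rfl
    have e2 := pow_le_pow_left₀ (norm_nonneg _) (hcon K0) (p ^ (n * K0))
    rw [hf K0] at e2
    exact absurd e1 (not_lt.2 e2)
  refine ⟨Nat.find hex, Nat.find_spec hex, ?_⟩
  rcases Nat.eq_zero_or_pos (Nat.find hex) with hz | hz
  · exfalso
    have e1 := Nat.find_spec hex
    rw [hz] at e1
    have e2 : ‖rt p (n * 0) s'‖ = R' := by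
      have := hf 0
      simpa using this
    rw [e2] at e1
    have e3 : ‖Y0‖ ^ (p ^ (n * J)) < R' ^ (p ^ (n * J)) := pow_lt_pow_left₀ e1 h0.le (hN J)
    rw [hY0] at e3
    exact absurd e3 (not_lt.2 hJ)
  · obtain ⟨K, hK⟩ : ∃ K, Nat.find hex = K + 1 := ⟨Nat.find hex - 1, by omega⟩
    have e1 : ¬ ‖Y0‖ < ‖rt p (n * K) s'‖ := Nat.find_min hex (by omega)
    push Not at e1
    rw [hK]
    have e2 : ‖rt p (n * (K + 1)) s'‖ ^ (p ^ n) = ‖rt p (n * K) s'‖ := by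
      have e3 : (‖rt p (n * (K + 1)) s'‖ ^ (p ^ n)) ^ (p ^ (n * K)) =
          ‖rt p (n * K) s'‖ ^ (p ^ (n * K)) := by
        rw [← pow_mul, ← pow_add, hf K, show n + n * K = n * (K + 1) by ring, hf (K + 1)]
      exact (pow_left_inj₀ (by positivity) (norm_nonneg _) (hN K)).1 e3
    rw [e2]
    rcases e1.lt_or_eq with h | h
    · exact h
    · exfalso
      apply hcl J K
      rw [← pow_mul, ← pow_mul]
      have e4 : R' ^ (p ^ (n * J)) = (‖Y0‖ ^ (p ^ (n * K))) ^ (p ^ (n * J)) := by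
        rw [← h, hf K]
      rw [e4, ← pow_mul, mul_comm (p ^ (n * K)), pow_mul, hY0]

/-- case (A), in terms of `D.pi` -/
theorem contra_A_aux (D : LData p n h r C) (L : D.Lead) (m : ℕ) (s : Fin m → OC C) (R : ℝ)
    (hR0 : 0 < R) (hR1 : R < 1) (hs : ResIndep p s R) (s' : OC C) (hs'0 : s' ≠ 0)
    (hs'1 : ‖s'‖ < 1) (hcl : ∀ e e' : ℕ, ‖s'‖ ^ ((p ^ n) ^ e) ≠ R ^ ((p ^ n) ^ e'))
    (β : Fin m → PowerSeries (FQ C p h)) (hβ : ∀ i, IsFGHom D.Gh D.Gh (β i))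
    (β' : PowerSeries (FQ C p h)) (hβ' : IsFGHom D.Gh D.Gh β')
    [D.Gh.IsComm]
    (hrel : ∀ δ, IsFGHom D.Γ D.Γ δ → ∀ (z : Fin m → Pt D.Gh (FQ.incl (C := C) (p := p) D.hh))
      (z' : Pt D.Gh (FQ.incl (C := C) (p := p) D.hh)),
      (∀ i, (z i).1 = D.pi (ev1 D.kx (s i) δ)) → z'.1 = D.pi (ev1 D.kx s' δ) →
        ∑ i, Pt.mapHom (β i) (hβ i) (z i) + Pt.mapHom β' hβ' z' = 0) :
    (∀ i, β i = 0) ∧ β' = 0 := by
  classical
  have hp : p.Prime := Fact.out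
  haveI : CharP (FQ C p h) p := FQ.charP'
  have hn0 := n_ne_zero D
  have hs'pos : 0 < ‖s'‖ := norm_pos_iff.2 hs'0
  have hevlt : ∀ s'' : OC C, ‖s''‖ < 1 → ∀ δ : PowerSeries (GaloisField p n),
      IsFGHom D.Γ D.Γ δ → ‖D.pi (ev1 D.kx s'' δ)‖ < 1 := by
    intro s'' hs'' δ hδ
    refine D.pi_lt ((OC.isTopologicallyNilpotent_iff _).1
      (isTopologicallyNilpotent_ev1 D.kx s'' (tn hs'') δ hδ.1))
  have hmap0 : ∀ (γ : PowerSeries (FQ C p h)) (hγ : IsFGHom D.Gh D.Gh γ) (_ : γ = 0)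
      (z : Pt D.Gh (FQ.incl (C := C) (p := p) D.hh)), Pt.mapHom γ hγ z = 0 := by
    intro γ hγ hγ0 z
    subst hγ0
    apply Subtype.ext
    have hz : ‖z.1‖ < 1 := (OC.isTopologicallyNilpotent_iff _).1 z.2
    have e1 : (Pt.mapHom (0 : PowerSeries (FQ C p h)) hγ z).1 = ev1 (FQ.incl D.hh) z.1 0 :=
      Pt.mapHom_val _ _ _
    have e2 : ev1 (FQ.incl (C := C) (p := p) D.hh) z.1 (0 : PowerSeries (FQ C p h)) = 0 := by
      rw [ev1_eq_evHom _ hz]
      exact _root_.map_zero _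
    exact (e1.trans e2).trans Pt.zero_val.symm
  by_cases hβ'0 : β' = 0
  · refine ⟨?_, hβ'0⟩
    refine contra_B_aux D L m s R hR0 hR1 hs β hβ ?_
    intro δ hδ z hz
    have e1 := hrel δ hδ z (mkPt _ _ (D.pi (ev1 D.kx s' δ)) (hevlt s' hs'1 δ hδ)) hz rfl
    rw [hmap0 β' hβ' hβ'0, add_zero] at e1
    exact e1
  exfalso
  by_cases hβ0 : ∀ i, β i = 0
  · have e1 := contra_B_aux D L 1 (fun _ => s') ‖s'‖ hs'pos hs'1 (resIndep_single s' hs'0)
      (fun _ => β') (fun _ => hβ') (by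
        intro δ hδ z hz
        have e2 := hrel δ hδ (fun i => mkPt _ _ (D.pi (ev1 D.kx (s i) δ))
          (hevlt (s i) (by rw [hs.1 i]; exact hR1) δ hδ)) (z 0) (fun i => rfl) (hz 0)
        rw [Finset.sum_eq_zero (fun i _ => hmap0 (β i) (hβ i) (hβ0 i) _), zero_add] at e2
        rw [Fin.sum_univ_one]
        exact e2)
    exact hβ'0 (e1 0)
  push Not at hβ0
  obtain ⟨v, hv1, i1, hv2⟩ := exists_order (p := p) β hβ hβ0
  obtain ⟨v', hv1', _, hv2'⟩ := exists_order (p := p) (fun _ : Unit => β') (fun _ => hβ')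
    ⟨(), hβ'0⟩
  replace hv1' := hv1' ()
  obtain ⟨J1, hJ1⟩ := exists_pow_small (p := p) hn0 L.ρ0_pos.le L.ρ0_lt
    (pow_pos hR0 (p ^ (n * m)))
  obtain ⟨J2, hJ2⟩ := exists_pow_small (p := p) hn0 hs'pos.le hs'1 hR0
  set J := max J1 J2 with hJdef
  have hJa := hJ1 J (le_max_left _ _)
  have hJb := hJ2 J (le_max_right _ _)
  have hN : p ^ (n * J) ≠ 0 := pow_ne_zero _ hp.ne_zero
  set Y0 : OC C := rt p (n * J) (s i1) with hY0def
  have hY0 : ‖Y0‖ ^ (p ^ (n * J)) = R := by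
    rw [← norm_pow, hY0def, rt_pow, hs.1 i1]
  obtain ⟨h0, h1⟩ := norm_pos_lt_of_pow hR0 hR1 hN hY0
  have hρ : L.ρ0 < ‖Y0‖ ^ (p ^ (n * m)) := by
    by_contra hcon2
    push Not at hcon2
    have e1 : (‖Y0‖ ^ (p ^ (n * m))) ^ (p ^ (n * J)) ≤ L.ρ0 ^ (p ^ (n * J)) :=
      pow_le_pow_left₀ (by positivity) hcon2 _
    rw [← pow_mul, mul_comm, pow_mul, hY0] at e1
    exact absurd hJa (not_lt.2 e1)
  have hρj : ∀ j ≤ n * m, L.ρ0 < ‖Y0‖ ^ (p ^ j) := by
    intro j hj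
    refine lt_of_lt_of_le hρ ?_
    exact pow_le_pow_of_le_one h0.le h1.le (Nat.pow_le_pow_right hp.pos hj)
  obtain ⟨J', hJ'1, hJ'2⟩ := exists_J' hn0 s' R ‖s'‖ hR0 hR1 hs'pos rfl hcl Y0 J hY0 hJb.le
  set Y' : OC C := rt p (n * J') s' with hY'def
  have hY' : Y' ^ (p ^ (n * J')) = s' := rt_pow _ _
  have hN' : p ^ (n * J') ≠ 0 := pow_ne_zero _ hp.ne_zero
  have hY'n : ‖Y'‖ ^ (p ^ (n * J')) = ‖s'‖ := by rw [← norm_pow, hY']
  obtain ⟨h0', h1'⟩ := norm_pos_lt_of_pow hs'pos hs'1 hN' hY'n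
  -- the basic estimate
  have key : ∀ j ≤ n * m, ∀ ζ : GaloisField p n, ζ ≠ 0 → ∀ δ : PowerSeries (GaloisField p n),
      IsFGHom D.Γ D.Γ δ → (∀ i < p ^ j, PowerSeries.coeff i δ = 0) →
      PowerSeries.coeff (p ^ j) δ = ζ →
      ‖∑ i, FQ.incl D.hh (PowerSeries.coeff (p ^ v) (β i)) *
          (D.pi (ev1 D.kx (s i) δ)) ^ (p ^ v) +
        FQ.incl D.hh (PowerSeries.coeff (p ^ v') β') * (D.pi (ev1 D.kx s' δ)) ^ (p ^ v')‖ <
        max ((L.N (‖Y0‖ ^ (p ^ j))) ^ (p ^ (h * J + v)))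
          ((L.N (‖Y'‖ ^ (p ^ j))) ^ (p ^ (h * J' + v'))) ∧
      ‖FQ.incl D.hh (PowerSeries.coeff (p ^ v') β') * (D.pi (ev1 D.kx s' δ)) ^ (p ^ v')‖ ≤
        (L.N (‖Y'‖ ^ (p ^ j))) ^ (p ^ (h * J' + v')) := by
    intro j hj ζ hζ δ hδ hδ1 hδ2
    have hns : ∀ i, ‖s i‖ < 1 := fun i => by rw [hs.1 i]; exact hR1
    have hpilt : ∀ i, ‖D.pi (ev1 D.kx (s i) δ)‖ < 1 := fun i => hevlt (s i) (hns i) δ hδ
    have hpilt' : ‖D.pi (ev1 D.kx s' δ)‖ < 1 := hevlt s' hs'1 δ hδ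
    obtain ⟨hNpos, hNlt⟩ := N_pos' D L h0 h1 j
    obtain ⟨hNpos', hNlt'⟩ := N_pos' D L h0' h1' j
    have hρ' : L.ρ0 < ‖Y'‖ ^ (p ^ j) :=
      (hρj j hj).trans (pow_lt_pow_left₀ hJ'1 h0.le (pow_ne_zero _ hp.ne_zero))
    have hbd : ∀ i, ‖D.pi (ev1 D.kx (s i) δ)‖ ≤ (L.N (‖Y0‖ ^ (p ^ j))) ^ (p ^ (h * J)) :=
      fun i => norm_pi_le D L hR0 hR1 Y0 J j hY0 (hρj j hj) (s i) (hs.1 i) ζ hζ δ hδ1 hδ2
    have hbd' : ‖D.pi (ev1 D.kx s' δ)‖ ≤ (L.N (‖Y'‖ ^ (p ^ j))) ^ (p ^ (h * J')) :=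
      norm_pi_le D L hs'pos hs'1 Y' J' j hY'n hρ' s' rfl ζ hζ δ hδ1 hδ2
    set M := L.N (‖Y0‖ ^ (p ^ j)) with hM
    set M' := L.N (‖Y'‖ ^ (p ^ j)) with hM'
    have hMv : (M ^ (p ^ (h * J))) ^ (p ^ v) = M ^ (p ^ (h * J + v)) := by
      rw [← pow_mul, ← pow_add]
    have hMv' : (M' ^ (p ^ (h * J'))) ^ (p ^ v') = M' ^ (p ^ (h * J' + v')) := by
      rw [← pow_mul, ← pow_add]
    have hM1 : M ^ (p ^ (h * J)) < 1 := pow_lt_one₀ hNpos.le hNlt (pow_ne_zero _ hp.ne_zero)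
    have hM1' : M' ^ (p ^ (h * J')) < 1 :=
      pow_lt_one₀ hNpos'.le hNlt' (pow_ne_zero _ hp.ne_zero)
    have hA' : ‖FQ.incl D.hh (PowerSeries.coeff (p ^ v') β') *
        (D.pi (ev1 D.kx s' δ)) ^ (p ^ v')‖ ≤ M' ^ (p ^ (h * J' + v')) := by
      rw [norm_mul, norm_pow (D.pi _), ← hMv']
      have e1 : ‖(FQ.incl D.hh (PowerSeries.coeff (p ^ v') β') : OC C)‖ ≤ 1 :=
        OC.norm_le_one _
      calc _ ≤ 1 * (M' ^ (p ^ (h * J'))) ^ (p ^ v') := by
            refine mul_le_mul e1 (pow_le_pow_left₀ (norm_nonneg _) hbd' _) (by positivity)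
              zero_le_one
        _ = _ := one_mul _
    have hA : ∀ i, ‖FQ.incl D.hh (PowerSeries.coeff (p ^ v) (β i)) *
        (D.pi (ev1 D.kx (s i) δ)) ^ (p ^ v)‖ ≤ M ^ (p ^ (h * J + v)) := by
      intro i
      rw [norm_mul, norm_pow (D.pi _), ← hMv]
      have e1 : ‖(FQ.incl D.hh (PowerSeries.coeff (p ^ v) (β i)) : OC C)‖ ≤ 1 :=
        OC.norm_le_one _
      calc _ ≤ 1 * (M ^ (p ^ (h * J))) ^ (p ^ v) := by
            refine mul_le_mul e1 (pow_le_pow_left₀ (norm_nonneg _) (hbd i) _) (by positivity)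
              zero_le_one
        _ = _ := one_mul _
    refine ⟨?_, hA'⟩
    have hsum := norm_sum_lead D.Gh (FQ.incl D.hh) (Finset.univ : Finset (Option (Fin m)))
      (fun o => o.elim (Pt.mapHom β' hβ' (mkPt _ _ (D.pi (ev1 D.kx s' δ)) hpilt'))
        (fun i => Pt.mapHom (β i) (hβ i) (mkPt _ _ (D.pi (ev1 D.kx (s i) δ)) (hpilt i))))
      (fun o => o.elim (FQ.incl D.hh (PowerSeries.coeff (p ^ v') β') *
          (D.pi (ev1 D.kx s' δ)) ^ (p ^ v'))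
        (fun i => FQ.incl D.hh (PowerSeries.coeff (p ^ v) (β i)) *
          (D.pi (ev1 D.kx (s i) δ)) ^ (p ^ v)))
      (μ := max (M ^ (p ^ (h * J + v))) (M' ^ (p ^ (h * J' + v'))))
      (lt_max_of_lt_left (by positivity))
      (max_lt (pow_lt_one₀ hNpos.le hNlt (pow_ne_zero _ hp.ne_zero))
        (pow_lt_one₀ hNpos'.le hNlt' (pow_ne_zero _ hp.ne_zero))) ?_ ?_ ?_
    · rw [Fintype.sum_option] at hsum
      simp only [Option.elim] at hsum
      rw [add_comm] at hsum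
      exact hsum
    · intro o _
      rcases o with _ | i
      · simp only [Option.elim]
        rw [Pt.mapHom_val, mkPt_val]
        refine lt_max_of_lt_right ?_
        refine lt_of_le_of_lt (norm_ev1_sub_lead _ hpilt' β' (p ^ v') hv1') ?_
        refine lt_of_le_of_lt (pow_le_pow_left₀ (norm_nonneg _) hbd' _) ?_
        rw [pow_succ, hMv']
        exact mul_lt_of_lt_one_right (by positivity) hM1'
      · simp only [Option.elim]
        rw [Pt.mapHom_val, mkPt_val]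
        refine lt_max_of_lt_left ?_
        refine lt_of_le_of_lt (norm_ev1_sub_lead _ (hpilt i) (β i) (p ^ v) (hv1 i)) ?_
        refine lt_of_le_of_lt (pow_le_pow_left₀ (norm_nonneg _) (hbd i) _) ?_
        rw [pow_succ, hMv]
        exact mul_lt_of_lt_one_right (by positivity) hM1
    · intro o _
      rcases o with _ | i
      · exact le_max_of_le_right hA'
      · exact le_max_of_le_left (hA i)
    · rw [Fintype.sum_option]
      simp only [Option.elim]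
      rw [add_comm]
      exact hrel δ hδ _ _ (fun i => rfl) rfl
  -- the class of `s` dominates for every `j`
  have hdom : ∀ j ≤ n * m, (L.N (‖Y'‖ ^ (p ^ j))) ^ (p ^ (h * J' + v')) <
      (L.N (‖Y0‖ ^ (p ^ j))) ^ (p ^ (h * J + v)) := by
    intro j hj
    by_contra hcon
    push Not at hcon
    refine no_dom D L s R hR0 hR1 hs.1 s' hs'1 Y0 Y' J J' j hY0 hY' hJ'1 hJ'2 (hρj j hj) v v'
      (fun i => PowerSeries.coeff (p ^ v) (β i)) (PowerSeries.coeff (p ^ v') β') hv2' ?_ hcon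
    intro ζ hζ δ hδ hδ1 hδ2
    have e1 := (key j hj ζ hζ δ hδ hδ1 hδ2).1
    rwa [max_eq_right hcon] at e1
  have hb := core D L s R hR0 hR1 hs Y0 J hY0 hρ v (fun i => PowerSeries.coeff (p ^ v) (β i)) (by
    intro j hj ζ hζ δ hδ hδ1 hδ2
    obtain ⟨e1, e2⟩ := key j hj ζ hζ δ hδ hδ1 hδ2
    have e3 := hdom j hj
    rw [max_eq_left e3.le] at e1
    have e4 : ∑ i, FQ.incl D.hh (PowerSeries.coeff (p ^ v) (β i)) *
          (D.pi (ev1 D.kx (s i) δ)) ^ (p ^ v) =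
        (∑ i, FQ.incl D.hh (PowerSeries.coeff (p ^ v) (β i)) *
          (D.pi (ev1 D.kx (s i) δ)) ^ (p ^ v) +
        FQ.incl D.hh (PowerSeries.coeff (p ^ v') β') * (D.pi (ev1 D.kx s' δ)) ^ (p ^ v')) +
        -(FQ.incl D.hh (PowerSeries.coeff (p ^ v') β') *
          (D.pi (ev1 D.kx s' δ)) ^ (p ^ v')) := by ring
    rw [e4]
    refine lt_of_le_of_lt (IsUltrametricDist.norm_add_le_max _ _) (max_lt e1 ?_)
    rw [norm_neg]
    exact lt_of_le_of_lt e2 e3)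
  exact hv2 (hb i1)

end lead

end C6

end Crest.Agent.LT
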