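import Mathlib
import Crest.Agent.LT.CDefs
import Crest.Agent.LT.Iota
import Crest.Agent.LT.LogC
import Crest.Agent.LT.Leading
import Crest.Agent.LT.Special
import Crest.Agent.LT.Closure
import Crest.Agent.LT.EndGamma
import Crest.Agent.LT.ContraAux

/-! # C6: contradiction from a relation (row 227). Paper proof: ideas row 227, C6.
(`moore` of Closure.lean is used.) -/

set_option autoImplicit false
set_option linter.unusedSectionVars false

namespace Crest.Agent.LT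

open Crest.LubinTate MvPowerSeries

variable {p n h r : ℕ} [Fact p.Prime]
variable {C : Type*} [NontriviallyNormedField C] [CompleteSpace C] [IsUltrametricDist C]
  [CharP C p] [IsAlgClosed C]

/-- the point `π(δ(t))` of `G_h` -/
noncomputable def LData.piPt (D : LData p n h r C) (δ : PowerSeries (GaloisField p n))
    (t : OC C) : OC C := D.pi (ev1 D.kx t δ)

/-- C6, case (B): all norms equal, residues `F_p`-independent -/
theorem LData.contra_B (D : LData p n h r C) (L : D.Lead) (m : ℕ) (s : Fin m → OC C) (R : ℝ)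
    (hR0 : 0 < R) (hR1 : R < 1) (hs : ResIndep p s R)
    (β : Fin m → PowerSeries (FQ C p h)) (hβ : ∀ i, IsFGHom D.Gh D.Gh (β i))
    [D.Gh.IsComm]
    (hrel : ∀ δ, IsFGHom D.Γ D.Γ δ → ∀ z : Fin m → Pt D.Gh (FQ.incl (C := C) (p := p) D.hh),
      (∀ i, (z i).1 = D.piPt δ (s i)) → ∑ i, Pt.mapHom (β i) (hβ i) (z i) = 0) :
    ∀ i, β i = 0 :=
  C6.contra_B_aux D L m s R hR0 hR1 hs β hβ hrel

/-- C6, case (A): `d` elements as in (B) and one more element of a different norm class -/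
theorem LData.contra_A (D : LData p n h r C) (L : D.Lead) (m : ℕ) (s : Fin m → OC C) (R : ℝ)
    (hR0 : 0 < R) (hR1 : R < 1) (hs : ResIndep p s R) (s' : OC C) (hs'0 : s' ≠ 0)
    (hs'1 : ‖s'‖ < 1) (hcl : ∀ e e' : ℕ, ‖s'‖ ^ ((p ^ n) ^ e) ≠ R ^ ((p ^ n) ^ e'))
    (β : Fin m → PowerSeries (FQ C p h)) (hβ : ∀ i, IsFGHom D.Gh D.Gh (β i))
    (β' : PowerSeries (FQ C p h)) (hβ' : IsFGHom D.Gh D.Gh β')
    [D.Gh.IsComm]
    (hrel : ∀ δ, IsFGHom D.Γ D.Γ δ → ∀ (z : Fin m → Pt D.Gh (FQ.incl (C := C) (p := p) D.hh))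
      (z' : Pt D.Gh (FQ.incl (C := C) (p := p) D.hh)),
      (∀ i, (z i).1 = D.piPt δ (s i)) → z'.1 = D.piPt δ s' →
        ∑ i, Pt.mapHom (β i) (hβ i) (z i) + Pt.mapHom β' hβ' z' = 0) :
    (∀ i, β i = 0) ∧ β' = 0 :=
  C6.contra_A_aux D L m s R hR0 hR1 hs s' hs'0 hs'1 hcl β hβ β' hβ' hrel

end Crest.Agent.LT
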