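import Mathlib

/-! # General Hilbert-function count, used in `DimCount.lean` (row 227, C7). -/

set_option autoImplicit false
set_option linter.unusedSectionVars false

namespace Crest.Agent.LT.DimCount

open MvPowerSeries

/-- exponents of degree `< e` -/
noncomputable def expLT (σ : Type*) [Finite σ] (e : ℕ) : Finset (σ →₀ ℕ) :=
  (Finsupp.finite_of_degree_lt (σ := σ) e).toFinset

theorem mem_expLT {σ : Type*} [Finite σ] {e : ℕ} {I : σ →₀ ℕ} :
    I ∈ expLT σ e ↔ I.degree < e := by
  simp [expLT]

section

variable {K : Type*} [Field K] {σ : Type*} [Finite σ]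

/-- two series agreeing to leading order `m` -/
def Rel (m : ℕ) (f g : MvPowerSeries σ K) : Prop :=
  (m : ℕ∞) ≤ f.order ∧ (m : ℕ∞) ≤ g.order ∧ ((m + 1 : ℕ) : ℕ∞) ≤ (f - g).order

theorem le_order_add {m : ℕ∞} {f g : MvPowerSeries σ K} (hf : m ≤ f.order) (hg : m ≤ g.order) :
    m ≤ (f + g).order :=
  (le_min hf hg).trans min_order_le_add

theorem le_order_sub {m : ℕ∞} {f g : MvPowerSeries σ K} (hf : m ≤ f.order) (hg : m ≤ g.order) :
    m ≤ (f - g).order := by
  rw [sub_eq_add_neg]
  exact le_order_add hf (by rwa [order_neg])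

theorem le_order_mul_left {m : ℕ∞} {f g : MvPowerSeries σ K} (hf : m ≤ f.order) :
    m ≤ (f * g).order :=
  hf.trans (le_self_add.trans le_order_mul)

theorem le_order_mul_right {m : ℕ∞} {f g : MvPowerSeries σ K} (hg : m ≤ g.order) :
    m ≤ (f * g).order := by
  rw [mul_comm]; exact le_order_mul_left hg

theorem le_order_sum {ι : Type*} {m : ℕ∞} (s : Finset ι) (f : ι → MvPowerSeries σ K)
    (hf : ∀ i ∈ s, m ≤ (f i).order) : m ≤ (∑ i ∈ s, f i).order := by
  classical
  induction s using Finset.induction_on with
  | empty => simp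
  | insert a s ha ih =>
    rw [Finset.sum_insert ha]
    exact le_order_add (hf a (Finset.mem_insert_self a s))
      (ih fun i hi => hf i (Finset.mem_insert_of_mem hi))

theorem Rel.mul {m₁ m₂ : ℕ} {f₁ g₁ f₂ g₂ : MvPowerSeries σ K} (h₁ : Rel m₁ f₁ g₁)
    (h₂ : Rel m₂ f₂ g₂) : Rel (m₁ + m₂) (f₁ * f₂) (g₁ * g₂) := by
  obtain ⟨a₁, b₁, c₁⟩ := h₁
  obtain ⟨a₂, b₂, c₂⟩ := h₂
  refine ⟨?_, ?_, ?_⟩
  · push_cast
    exact (add_le_add a₁ a₂).trans le_order_mul
  · push_cast
    exact (add_le_add b₁ b₂).trans le_order_mul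
  · have e : f₁ * f₂ - g₁ * g₂ = (f₁ - g₁) * f₂ + g₁ * (f₂ - g₂) := by ring
    rw [e]
    apply le_order_add
    · refine le_trans ?_ ((add_le_add c₁ a₂).trans le_order_mul)
      norm_cast
      omega
    · refine le_trans ?_ ((add_le_add b₁ c₂).trans le_order_mul)
      norm_cast

theorem Rel.one : Rel 0 (1 : MvPowerSeries σ K) 1 := by
  refine ⟨by simp, by simp, by simp⟩

theorem Rel.pow {m : ℕ} {f g : MvPowerSeries σ K} (h : Rel m f g) (k : ℕ) :
    Rel (k * m) (f ^ k) (g ^ k) := by
  induction k with
  | zero => simpa using Rel.one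
  | succ k ih =>
    rw [pow_succ, pow_succ, Nat.succ_mul]
    exact ih.mul h

theorem Rel.prod {ι : Type*} (s : Finset ι) (m : ι → ℕ) (f g : ι → MvPowerSeries σ K)
    (h : ∀ i ∈ s, Rel (m i) (f i) (g i)) : Rel (∑ i ∈ s, m i) (∏ i ∈ s, f i) (∏ i ∈ s, g i) := by
  classical
  induction s using Finset.induction_on with
  | empty => simpa using Rel.one
  | insert a s ha ih =>
    rw [Finset.sum_insert ha, Finset.prod_insert ha, Finset.prod_insert ha]
    exact (h a (Finset.mem_insert_self a s)).mul (ih fun i hi => h i (Finset.mem_insert_of_mem hi))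

theorem monomial_eq_prod (I : σ →₀ ℕ) :
    (monomial I (1 : K)) = I.prod fun k n => (X k : MvPowerSeries σ K) ^ n := by
  have h := congrArg (fun q : MvPolynomial σ K => (q : MvPowerSeries σ K))
    (MvPolynomial.monomial_eq (s := I) (a := (1 : K)))
  simp only [MvPolynomial.coe_monomial, map_one, one_mul] at h
  rw [h, Finsupp.prod, Finsupp.prod]
  have := map_prod (MvPolynomial.coeToMvPowerSeries.ringHom (σ := σ) (R := K))
    (fun n => (MvPolynomial.X n : MvPolynomial σ K) ^ I n) I.support
  simpa using this

theorem Rel.monomial {z : σ → MvPowerSeries σ K} (hz : ∀ k, Rel 1 (z k) (X k)) (I : σ →₀ ℕ) :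
    Rel I.degree (I.prod fun k n => z k ^ n) (MvPowerSeries.monomial I (1 : K)) := by
  rw [monomial_eq_prod, Finsupp.prod, Finsupp.prod]
  have := Rel.prod I.support (fun k => I k * 1) (fun k => z k ^ I k) (fun k => X k ^ I k)
    (fun k _ => (hz k).pow (I k))
  simp only [mul_one] at this
  rwa [← Finsupp.degree_apply] at this

/-- a subalgebra containing everything of high order and coordinates is everything -/
theorem mem_of_coords (B : Subalgebra K (MvPowerSeries σ K)) (e : ℕ)
    (hB : ∀ g : MvPowerSeries σ K, (e : ℕ∞) ≤ g.order → g ∈ B) (z : σ → MvPowerSeries σ K)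
    (hz : ∀ k, z k ∈ B) (hR : ∀ k, Rel 1 (z k) (X k)) (g : MvPowerSeries σ K) : g ∈ B := by
  classical
  have key : ∀ j : ℕ, ∀ g : MvPowerSeries σ K, ((e - j : ℕ) : ℕ∞) ≤ g.order → g ∈ B := by
    intro j
    induction j with
    | zero => intro g hg; exact hB g (by simpa using hg)
    | succ j ih =>
      intro g hg
      by_cases hj : e ≤ j
      · apply ih
        have : e - j = e - (j + 1) := by omega
        rw [this]; exact hg
      push Not at hj
      set m := e - (j + 1) with hm
      have hmj : e - j = m + 1 := by omega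
      set hh : MvPowerSeries σ K :=
        ∑ I ∈ expLT σ (m + 1), (coeff I g) • (I.prod fun k n => z k ^ n) with hhdef
      have hhB : hh ∈ B := by
        apply Subalgebra.sum_mem
        intro I _
        apply Subalgebra.smul_mem
        rw [Finsupp.prod]
        apply Subalgebra.prod_mem
        intro k _
        exact Subalgebra.pow_mem _ (hz k) _
      have hdiff : g - hh ∈ B := by
        apply ih
        rw [hmj]
        apply MvPowerSeries.le_order
        intro d hd
        have hd' : d.degree < m + 1 := by exact_mod_cast hd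
        rw [map_sub, hhdef, map_sum]
        have : ∀ I ∈ expLT σ (m + 1), coeff d ((coeff I g) • (I.prod fun k n => z k ^ n)) =
            if d = I then coeff I g else 0 := by
          intro I hI
          rw [mem_expLT] at hI
          rw [map_smul, smul_eq_mul]
          by_cases hIm : I.degree < m
          · have : coeff I g = 0 := by
              apply coeff_of_lt_order
              exact lt_of_lt_of_le (by exact_mod_cast hIm) hg
            simp [this]
          · have hIm' : I.degree = m := by omega
            have hrel := (Rel.monomial hR I).2.2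
            have h0 : coeff d ((I.prod fun k n => z k ^ n) - MvPowerSeries.monomial I (1 : K)) = 0 := by
              apply coeff_of_lt_order
              refine lt_of_lt_of_le ?_ hrel
              rw [hIm']
              exact_mod_cast hd'
            rw [map_sub, sub_eq_zero] at h0
            rw [h0, coeff_monomial]
            split_ifs <;> simp
        rw [Finset.sum_congr rfl this, Finset.sum_ite_eq, if_pos (mem_expLT.mpr hd'), sub_self]
      have : g = (g - hh) + hh := by ring
      rw [this]
      exact B.add_mem hdiff hhB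
  exact key e g (by simp)

/-- the subalgebra of series congruent, up to order `e`, to an element of `Algebra.adjoin` -/
def closureAlg (S : Subalgebra K (MvPowerSeries σ K)) (e : ℕ) :
    Subalgebra K (MvPowerSeries σ K) where
  carrier := {g | ∃ h ∈ S, (e : ℕ∞) ≤ (g - h).order}
  mul_mem' := by
    rintro a b ⟨x, hx, hx'⟩ ⟨y, hy, hy'⟩
    refine ⟨x * y, S.mul_mem hx hy, ?_⟩
    have : a * b - x * y = (a - x) * b + x * (b - y) := by ring
    rw [this]
    exact le_order_add (le_order_mul_left hx') (le_order_mul_right hy')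
  add_mem' := by
    rintro a b ⟨x, hx, hx'⟩ ⟨y, hy, hy'⟩
    refine ⟨x + y, S.add_mem hx hy, ?_⟩
    have : a + b - (x + y) = (a - x) + (b - y) := by ring
    rw [this]
    exact le_order_add hx' hy'
  algebraMap_mem' := by
    intro r
    exact ⟨_, S.algebraMap_mem r, by simp⟩

theorem count {A : Type*} [CommRing A] (φ : A →+* MvPowerSeries σ K) (e : ℕ)
    (z : σ → MvPowerSeries σ K) (hz : ∀ k, z k ∈ Algebra.adjoin K (Set.range φ))
    (hR : ∀ k, Rel 1 (z k) (X k)) (T : Finset (MvPowerSeries σ K))
    (hT : ∀ f : A, ∃ t ∈ Submodule.span K (T : Set (MvPowerSeries σ K)),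
      (e : ℕ∞) ≤ (φ f - t).order) :
    (expLT σ e).card ≤ T.card := by
  classical
  -- truncation map
  let τ : MvPowerSeries σ K →ₗ[K] (expLT σ e → K) :=
    LinearMap.pi fun I => coeff (I : σ →₀ ℕ)
  have hτ0 : ∀ g : MvPowerSeries σ K, (e : ℕ∞) ≤ g.order → τ g = 0 := by
    intro g hg
    ext I
    have hI := mem_expLT.mp I.2
    show coeff (I : σ →₀ ℕ) g = 0
    apply coeff_of_lt_order
    exact lt_of_lt_of_le (by exact_mod_cast hI) hg
  have hτeq : ∀ g h : MvPowerSeries σ K, (e : ℕ∞) ≤ (g - h).order → τ g = τ h := by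
    intro g h hgh
    have := hτ0 _ hgh
    rwa [map_sub, sub_eq_zero] at this
  have hadj : ((Algebra.adjoin K (Set.range φ)).toSubmodule : Submodule K (MvPowerSeries σ K)) =
      Submodule.span K (Set.range φ) := by
    rw [Algebra.adjoin_eq_span]
    congr 1
    have : (Set.range φ) = ((MonoidHom.mrange (φ : A →* MvPowerSeries σ K) :
        Submonoid (MvPowerSeries σ K)) : Set (MvPowerSeries σ K)) := by
      ext x; simp
    rw [this, Submonoid.closure_eq]
  have htop : Submodule.map τ (Submodule.span K (T : Set (MvPowerSeries σ K))) = ⊤ := by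
    rw [eq_top_iff]
    intro v _
    -- lift v
    let g : MvPowerSeries σ K := fun I => if h : I ∈ expLT σ e then v ⟨I, h⟩ else 0
    have hg : τ g = v := by
      ext I
      show coeff (I : σ →₀ ℕ) g = v I
      show (if h : (I : σ →₀ ℕ) ∈ expLT σ e then v ⟨I, h⟩ else 0) = v I
      rw [dif_pos I.2]
    have hmem := mem_of_coords (closureAlg (Algebra.adjoin K (Set.range φ)) e) e
      (fun g hg => ⟨0, Subalgebra.zero_mem _, by simpa using hg⟩) z
      (fun k => ⟨z k, hz k, by simp⟩) hR g
    obtain ⟨h, hh, hgh⟩ := hmem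
    have h1 : v = τ h := by rw [← hg]; exact hτeq g h hgh
    rw [h1]
    have h2 : h ∈ Submodule.span K (Set.range φ) := by
      rw [← hadj]; exact hh
    have h3 : Submodule.map τ (Submodule.span K (Set.range φ)) ≤
        Submodule.map τ (Submodule.span K (T : Set (MvPowerSeries σ K))) := by
      rw [Submodule.map_span, Submodule.span_le]
      rintro _ ⟨_, ⟨f, rfl⟩, rfl⟩
      obtain ⟨t, ht, ht'⟩ := hT f
      refine ⟨t, ht, (hτeq _ _ ht').symm⟩
    exact h3 ⟨h, h2, rfl⟩
  have h1 : Module.finrank K (expLT σ e → K) = (expLT σ e).card := by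
    simp
  have h2 : Submodule.span K ((T.image τ : Finset (expLT σ e → K)) : Set (expLT σ e → K)) = ⊤ := by
    rw [Finset.coe_image, ← Submodule.map_span, htop]
  have h3 : Module.finrank K (⊤ : Submodule K (expLT σ e → K)) ≤ (T.image τ).card := by
    rw [← h2]
    exact finrank_span_finset_le_card _
  rw [finrank_top, h1] at h3
  exact h3.trans Finset.card_image_le

end

/-- lower bound for the number of monomials -/
theorem pow_le_card_expLT (c t : ℕ) (ht : 1 ≤ t) (hc : 1 ≤ c) :
    t ^ c ≤ (expLT (Fin c) (c * t)).card := by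
  classical
  have : Fintype.card (Fin c → Fin t) ≤ (expLT (Fin c) (c * t)).card := by
    rw [← Fintype.card_coe]
    apply Fintype.card_le_of_injective (fun a : Fin c → Fin t =>
      (⟨Finsupp.equivFunOnFinite.symm (fun k => (a k : ℕ)), by
        rw [mem_expLT, Finsupp.degree_eq_sum]
        calc ∑ k, (Finsupp.equivFunOnFinite.symm (fun k => (a k : ℕ))) k
            = ∑ k, (a k : ℕ) := by simp
          _ ≤ ∑ _k : Fin c, (t - 1) := Finset.sum_le_sum fun k _ => by have := (a k).2; omega
          _ = c * (t - 1) := by simp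
          _ < c * t := by
            apply Nat.mul_lt_mul_of_pos_left <;> omega⟩ : expLT (Fin c) (c * t)))
    intro a b hab
    simp only [Subtype.mk.injEq, EmbeddingLike.apply_eq_iff_eq] at hab
    ext k
    exact congrFun hab k
  simpa using this

/-- upper bound for the number of monomials in a subset of the variables -/
theorem card_params_le {r : ℕ} (Q : Fin r → Prop) [DecidablePred Q] (e : ℕ) :
    ((expLT (Fin r) e).filter fun J => ∀ i, J i ≠ 0 → Q i).card ≤
      e ^ (Finset.univ.filter Q).card := by
  classical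
  by_cases he : e = 0
  · subst he
    have : (expLT (Fin r) 0) = ∅ := by
      ext I; simp [mem_expLT]
    simp [this]
  have hcard : Fintype.card ({i : Fin r // Q i} → Fin e) = e ^ (Finset.univ.filter Q).card := by
    rw [Fintype.card_fun, Fintype.card_fin, Fintype.card_subtype]
  rw [← hcard, ← Fintype.card_coe]
  apply Fintype.card_le_of_injective
    (fun J : ((expLT (Fin r) e).filter fun J => ∀ i, J i ≠ 0 → Q i : Finset _) =>
      (fun i : {i : Fin r // Q i} => (⟨(J : Fin r →₀ ℕ) i, by
        have h := (Finset.mem_filter.mp J.2).1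
        rw [mem_expLT] at h
        exact lt_of_le_of_lt (Finsupp.le_degree _ _) h⟩ : Fin e)))
  intro J J' hJ
  ext i
  by_cases hi : Q i
  · have := congrFun hJ ⟨i, hi⟩
    simpa using this
  · have h1 := (Finset.mem_filter.mp J.2).2 i
    have h2 := (Finset.mem_filter.mp J'.2).2 i
    have h1' : (J : Fin r →₀ ℕ) i = 0 := by by_contra h; exact hi (h1 h)
    have h2' : (J' : Fin r →₀ ℕ) i = 0 := by by_contra h; exact hi (h2 h)
    rw [h1', h2']

end Crest.Agent.LT.DimCount
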