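import Mathlib
import Crest.Agent.LT.CDefs
import Crest.Agent.LT.Star
import Crest.Agent.LT.Comm
import Crest.Agent.LT.DimCountGen

/-! # C7: dimension count (row 227). Paper proof: ideas row 227, C7. -/

set_option autoImplicit false
set_option linter.unusedSectionVars false

namespace Crest.Agent.LT

open Crest.LubinTate MvPowerSeries

variable {p n h r : ℕ} [Fact p.Prime]
variable {C : Type*} [NontriviallyNormedField C] [CompleteSpace C] [IsUltrametricDist C]
  [CharP C p] [IsAlgClosed C]

namespace DimCount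

theorem subst_trunc {K : Type*} [Field K] {r c : ℕ} (a : Fin r → MvPowerSeries (Fin c) K)
    (ha : ∀ i, MvPowerSeries.constantCoeff (a i) = 0) (g : MvPowerSeries (Fin r) K) (e : ℕ) :
    (e : ℕ∞) ≤ (MvPowerSeries.subst a g -
      ∑ J ∈ expLT (Fin r) e, (coeff J g) • (J.prod fun k m => a k ^ m)).order := by
  classical
  have hs : HasSubst a := hasSubst_of_constantCoeff_zero ha
  have h1 : (∑ J ∈ expLT (Fin r) e, (coeff J g) • (J.prod fun k m => a k ^ m)) =
      MvPowerSeries.subst a (∑ J ∈ expLT (Fin r) e, monomial J (coeff J g)) := by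
    rw [← coe_substAlgHom hs, map_sum]
    refine Finset.sum_congr rfl fun J _ => ?_
    rw [coe_substAlgHom hs, subst_monomial hs, Algebra.smul_def]
  rw [h1, ← subst_sub hs]
  refine le_trans ?_ (le_order_subst hs _)
  have h2 : (e : ℕ∞) ≤ (g - ∑ J ∈ expLT (Fin r) e, monomial J (coeff J g)).order := by
    apply MvPowerSeries.le_order
    intro d hd
    have hd' : d.degree < e := by exact_mod_cast hd
    rw [map_sub, map_sum]
    have : ∀ J ∈ expLT (Fin r) e, coeff d (monomial J (coeff J g)) =
        if d = J then coeff J g else 0 := by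
      intro J _
      rw [coeff_monomial]
    rw [Finset.sum_congr rfl this, Finset.sum_ite_eq, if_pos (mem_expLT.mpr hd'), sub_self]
  have h3 : (1 : ℕ∞) ≤ ⨅ i, (a i).order := by
    apply le_iInf
    intro i
    rw [one_le_order_iff_constCoeff_eq_zero]
    exact ha i
  calc (e : ℕ∞) = 1 * e := by rw [one_mul]
    _ ≤ _ := mul_le_mul' h3 h2

theorem degree_lt_two {c : ℕ} {I : Fin c →₀ ℕ} (hI : I.degree < 2) :
    I = 0 ∨ ∃ k, I = Finsupp.single k 1 := by
  classical
  rcases Nat.lt_or_ge I.degree 1 with h0 | h1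
  · left
    have : I.degree = 0 := by omega
    exact (Finsupp.degree_eq_zero_iff I).mp this
  · right
    have h1' : I.degree = 1 := by omega
    have : I ≠ 0 := by
      rintro rfl
      simp at h1'
    obtain ⟨k, hk⟩ := Finsupp.ne_iff.mp this
    refine ⟨k, ?_⟩
    have hk1 : 1 ≤ I k := Nat.one_le_iff_ne_zero.mpr (by simpa using hk)
    have hle : Finsupp.single k 1 ≤ I := by
      intro j
      by_cases hj : j = k
      · subst hj; simpa using hk1
      · simp [Ne.symm hj]
    have hsub : (I - Finsupp.single k 1).degree + (Finsupp.single k 1 : Fin c →₀ ℕ).degree =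
        I.degree := by
      rw [← map_add, tsub_add_cancel_of_le hle]
    rw [Finsupp.degree_single, h1'] at hsub
    have : (I - Finsupp.single k 1).degree = 0 := by omega
    have h0 := (Finsupp.degree_eq_zero_iff _).mp this
    have := tsub_add_cancel_of_le hle
    rw [h0, zero_add] at this
    exact this.symm

end DimCount

open DimCount

namespace DimCount

/-- Hasse derivative of a power series -/
noncomputable def hasse {K : Type*} [CommRing K] {r : ℕ} (J : Fin r →₀ ℕ) (f : MvPowerSeries (Fin r) K) :
    MvPowerSeries (Fin r) K :=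
  fun e => ((∏ i, ((e + J) i).choose (J i) : ℕ) : K) * MvPowerSeries.coeff (e + J) f

theorem coeff_hasse {K : Type*} [CommRing K] {r : ℕ} (J e : Fin r →₀ ℕ)
    (f : MvPowerSeries (Fin r) K) : MvPowerSeries.coeff e (hasse J f) =
      ((∏ i, ((e + J) i).choose (J i) : ℕ) : K) * MvPowerSeries.coeff (e + J) f := rfl

theorem hasse_zero {K : Type*} [CommRing K] {r : ℕ} (f : MvPowerSeries (Fin r) K) :
    hasse 0 f = f := by
  ext e
  rw [coeff_hasse]
  simp

theorem hasse_X_self {K : Type*} [CommRing K] {r : ℕ} (l : Fin r) :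
    hasse (Finsupp.single l 1) (MvPowerSeries.X l : MvPowerSeries (Fin r) K) = 1 := by
  classical
  ext e
  rw [coeff_hasse, coeff_X, coeff_one]
  by_cases he : e = 0
  · subst he
    simp
  · have : e + Finsupp.single l 1 ≠ Finsupp.single l 1 := by
      intro h
      apply he
      simpa using h
    rw [if_neg this, if_neg he, mul_zero]

theorem hasse_X_of_ne {K : Type*} [CommRing K] {r : ℕ} (l : Fin r) (J : Fin r →₀ ℕ) (hJ0 : J ≠ 0)
    (hJ : J ≠ Finsupp.single l 1) :
    hasse J (MvPowerSeries.X l : MvPowerSeries (Fin r) K) = 0 := by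
  classical
  ext e
  rw [coeff_hasse, coeff_X, map_zero]
  have : e + J ≠ Finsupp.single l 1 := by
    intro h
    have hle : J ≤ Finsupp.single l 1 := by
      rw [← h]; exact le_add_self
    have hdeg : J.degree < 2 := by
      have h1 : e.degree + J.degree = 1 := by
        rw [← map_add, h, Finsupp.degree_single]
      omega
    rcases degree_lt_two hdeg with h0 | ⟨k, hk⟩
    · exact hJ0 h0
    · apply hJ
      rw [hk]
      have := hle k
      rw [hk] at this
      by_cases hkl : l = k
      · rw [hkl]
      · simp [hkl] at this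
  rw [if_neg this, mul_zero]

theorem hasse_onlyParams {K : Type} [Field K] {r : ℕ} (d : ℕ) (s : MvPowerSeries (Fin r) K)
    (hs : OnlyParams r d s) (J : Fin r →₀ ℕ) (i : Fin r) (hi : J i ≠ 0) (hcon : ¬ IsParam r d i) :
    hasse J s = 0 := by
  ext e
  have : MvPowerSeries.coeff (e + J) s = 0 := by
    by_contra h0
    apply hcon
    apply hs (e + J) h0 i
    simp only [Finsupp.add_apply]
    omega
  rw [coeff_hasse, this, mul_zero, map_zero]

end DimCount

theorem CData.coeff_taylor (D : CData p n h r C) (f : MvPowerSeries (Fin r) (GaloisField p n))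
    (J : Fin r →₀ ℕ) : MvPowerSeries.coeff J (D.taylor f) = D.x (hasse J f) := rfl

theorem CData.taylor_X (D : CData p n h r C) (l : Fin r) :
    D.taylor (MvPowerSeries.X l) =
      MvPowerSeries.C (D.x (MvPowerSeries.X l)) + MvPowerSeries.X l := by
  classical
  apply MvPowerSeries.ext
  intro J
  rw [D.coeff_taylor, map_add, coeff_C, coeff_X]
  by_cases hJ0 : J = 0
  · subst hJ0
    have hne : (0 : Fin r →₀ ℕ) ≠ Finsupp.single l 1 := by
      intro h
      have := congrArg (fun f => f l) h
      simp at this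
    rw [if_pos rfl, if_neg hne, add_zero, hasse_zero]
  · rw [if_neg hJ0, zero_add]
    by_cases hJ : J = Finsupp.single l 1
    · rw [if_pos hJ, hJ, hasse_X_self, map_one]
    · rw [if_neg hJ, hasse_X_of_ne l J hJ0 hJ, map_zero]

theorem CData.taylor_onlyParams (D : CData p n h r C) (d : ℕ)
    (s : MvPowerSeries (Fin r) (GaloisField p n)) (hs : OnlyParams r d s) (J : Fin r →₀ ℕ)
    (hJ : MvPowerSeries.coeff J (D.taylor s) ≠ 0) (i : Fin r) (hi : J i ≠ 0) :
    IsParam r d i := by
  by_contra hcon
  apply hJ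
  rw [D.coeff_taylor, hasse_onlyParams d s hs J i hi hcon, map_zero]

theorem card_isParam (r d : ℕ) (hd1 : 1 ≤ d) (hdr : d + 1 ≤ r) [DecidablePred (IsParam r d)] :
    (Finset.univ.filter (IsParam r d)).card ≤ d := by
  classical
  have hsub : Finset.univ.filter (IsParam r d) ⊆
      insert (⟨0, by omega⟩ : Fin r)
        ((Finset.univ : Finset (Fin (d - 1))).image fun j : Fin (d - 1) =>
          (⟨r - d + 1 + j, by have := j.2; omega⟩ : Fin r)) := by
    intro i hi
    rw [Finset.mem_filter] at hi
    rcases hi.2 with h0 | h1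
    · apply Finset.mem_insert.mpr
      left
      ext; simpa using h0
    · apply Finset.mem_insert.mpr
      right
      rw [Finset.mem_image]
      refine ⟨⟨(i : ℕ) - (r - d + 1), by have := i.2; omega⟩, Finset.mem_univ _, ?_⟩
      ext
      simp only
      omega
  refine (Finset.card_le_card hsub).trans ((Finset.card_insert_le _ _).trans ?_)
  have := (Finset.card_image_le (s := (Finset.univ : Finset (Fin (d - 1))))
    (f := fun j : Fin (d - 1) => (⟨r - d + 1 + j, by have := j.2; omega⟩ : Fin r)))
  rw [Finset.card_univ, Fintype.card_fin] at this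
  omega

theorem CData.dim_count (D : CData p n h r C) (P : Ideal (MvPowerSeries (Fin r) (GaloisField p n)))
    (d : ℕ) (hd1 : 1 ≤ d) (hdr : d + 1 ≤ r)
    (hfin : ∃ (m0 : ℕ) (θ : Fin m0 → MvPowerSeries (Fin r) (GaloisField p n)),
      ∀ f : MvPowerSeries (Fin r) (GaloisField p n),
        ∃ s : Fin m0 → MvPowerSeries (Fin r) (GaloisField p n), (∀ i, OnlyParams r d (s i)) ∧
          f - ∑ i, s i * θ i ∈ P)
    (c : ℕ)
    (hΘ : ∀ e : ℕ, ∃ 𝒱 : Fin r → MvPowerSeries (Fin c) C,
      (∀ l, MvPowerSeries.constantCoeff (𝒱 l) = 0) ∧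
      (∀ v : Fin c → C, (∀ l, ∑ k, MvPowerSeries.coeff (Finsupp.single k 1) (𝒱 l) * v k = 0) →
        v = 0) ∧
      ∀ f ∈ P, ∀ I : Fin c →₀ ℕ, I.degree < e → MvPowerSeries.coeff I
        (MvPowerSeries.subst 𝒱 (MvPowerSeries.map (OC C).subtype (D.taylor f))) = 0) :
    c ≤ d := by
  classical
  by_contra hcd
  push Not at hcd
  obtain ⟨m0, θ, hθ⟩ := hfin
  obtain ⟨T, hT⟩ := D.taylor_ringHom
  set t := m0 * c ^ d + 1 with ht
  set e := c * t with he
  obtain ⟨𝒱, h𝒱0, h𝒱inj, h𝒱P⟩ := hΘ e
  have hs : HasSubst 𝒱 := hasSubst_of_constantCoeff_zero h𝒱0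
  let φ : MvPowerSeries (Fin r) (GaloisField p n) →+* MvPowerSeries (Fin c) C :=
    (substAlgHom (R := C) hs).toRingHom.comp ((MvPowerSeries.map (OC C).subtype).comp T)
  have hφ : ∀ f, φ f = MvPowerSeries.subst 𝒱 (MvPowerSeries.map (OC C).subtype (D.taylor f)) := by
    intro f
    show (substAlgHom (R := C) hs) ((MvPowerSeries.map (OC C).subtype) (T f)) = _
    rw [coe_substAlgHom, hT]
  -- coordinates
  let M : Matrix (Fin r) (Fin c) C := fun l k => MvPowerSeries.coeff (Finsupp.single k 1) (𝒱 l)
  obtain ⟨N, hN⟩ : ∃ N : Matrix (Fin c) (Fin r) C, N * M = 1 := by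
    obtain ⟨g, hg⟩ := LinearMap.exists_leftInverse_of_injective (Matrix.toLin' M) (by
      rw [LinearMap.ker_eq_bot']
      intro v hv
      apply h𝒱inj
      intro l
      have := congrFun hv l
      simpa [Matrix.toLin'_apply, Matrix.mulVec, dotProduct] using this)
    refine ⟨LinearMap.toMatrix' g, ?_⟩
    have := congrArg LinearMap.toMatrix' hg
    rw [LinearMap.toMatrix'_comp, LinearMap.toMatrix'_toLin', LinearMap.toMatrix'_id] at this
    exact this
  let z : Fin c → MvPowerSeries (Fin c) C := fun k => ∑ l, N k l • 𝒱 l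
  have h𝒱mem : ∀ l, 𝒱 l ∈ Algebra.adjoin C (Set.range φ) := by
    intro l
    have h1 : 𝒱 l = φ (MvPowerSeries.X l) -
        algebraMap C (MvPowerSeries (Fin c) C) ((D.x (MvPowerSeries.X l) : OC C) : C) := by
      rw [hφ, D.taylor_X l, map_add, MvPowerSeries.map_C, MvPowerSeries.map_X, subst_add hs,
        subst_X hs, subst_C]
      simp [MvPowerSeries.algebraMap_apply]
    rw [h1]
    apply Subalgebra.sub_mem
    · exact Algebra.subset_adjoin ⟨_, rfl⟩
    · exact Subalgebra.algebraMap_mem _ _
  have hz : ∀ k, z k ∈ Algebra.adjoin C (Set.range φ) := fun k =>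
    Subalgebra.sum_mem _ fun l _ => Subalgebra.smul_mem _ (h𝒱mem l) _
  have hR : ∀ k, Rel 1 (z k) (X k) := by
    intro k
    have hz0 : MvPowerSeries.constantCoeff (z k) = 0 := by
      show MvPowerSeries.constantCoeff (∑ l, N k l • 𝒱 l) = 0
      rw [map_sum]
      apply Finset.sum_eq_zero
      intro l _
      rw [MvPowerSeries.smul_eq_C_mul, map_mul, h𝒱0 l, mul_zero]
    refine ⟨?_, ?_, ?_⟩
    · rw [Nat.cast_one, one_le_order_iff_constCoeff_eq_zero]; exact hz0
    · rw [Nat.cast_one, one_le_order_iff_constCoeff_eq_zero]; exact constantCoeff_X k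
    · apply MvPowerSeries.le_order
      intro I hI
      have hI' : I.degree < 2 := by exact_mod_cast hI
      rcases degree_lt_two hI' with rfl | ⟨j, rfl⟩
      · rw [map_sub, coeff_zero_eq_constantCoeff_apply, coeff_zero_eq_constantCoeff_apply, hz0,
          constantCoeff_X, sub_zero]
      · have h1 : coeff (Finsupp.single j 1) (z k) = (N * M) k j := by
          show coeff (Finsupp.single j 1) (∑ l, N k l • 𝒱 l) = _
          rw [map_sum, Matrix.mul_apply]
          refine Finset.sum_congr rfl fun l _ => ?_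
          rw [map_smul, smul_eq_mul]
        rw [map_sub, h1, hN, coeff_X, Matrix.one_apply]
        by_cases hkj : k = j
        · subst hkj; simp
        · have : Finsupp.single j 1 ≠ (Finsupp.single k 1 : Fin c →₀ ℕ) := by
            intro h
            apply hkj
            exact ((Finsupp.single_left_inj (by norm_num)).mp h).symm
          rw [if_neg hkj, if_neg this, sub_zero]
  -- the spanning set
  let 𝒥 : Finset (Fin r →₀ ℕ) := (expLT (Fin r) e).filter fun J => ∀ i, J i ≠ 0 → IsParam r d i
  let u : Fin m0 × (Fin r →₀ ℕ) → MvPowerSeries (Fin c) C := fun q =>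
    (q.2.prod fun k m => 𝒱 k ^ m) * φ (θ q.1)
  let S : Finset (MvPowerSeries (Fin c) C) := ((Finset.univ : Finset (Fin m0)) ×ˢ 𝒥).image u
  have hS : S.card ≤ m0 * e ^ d := by
    refine Finset.card_image_le.trans ?_
    rw [Finset.card_product, Finset.card_univ, Fintype.card_fin]
    apply Nat.mul_le_mul_left
    refine (card_params_le (IsParam r d) e).trans ?_
    apply Nat.pow_le_pow_right
    · rw [he]; exact Nat.mul_pos (by omega) (by omega)
    · exact card_isParam r d hd1 hdr
  have hspan : ∀ f, ∃ y ∈ Submodule.span C (S : Set (MvPowerSeries (Fin c) C)),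
      (e : ℕ∞) ≤ (φ f - y).order := by
    intro f
    obtain ⟨s, hsp, hsP⟩ := hθ f
    let g : Fin m0 → MvPowerSeries (Fin r) C := fun i =>
      MvPowerSeries.map (OC C).subtype (D.taylor (s i))
    refine ⟨∑ i, ∑ J ∈ 𝒥, coeff J (g i) • u (i, J), ?_, ?_⟩
    · apply Submodule.sum_mem
      intro i _
      apply Submodule.sum_mem
      intro J hJ
      apply Submodule.smul_mem
      apply Submodule.subset_span
      exact Finset.mem_coe.mpr (Finset.mem_image_of_mem _
        (Finset.mem_product.mpr ⟨Finset.mem_univ _, hJ⟩))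
    · have h1 : ∀ i, ∑ J ∈ 𝒥, coeff J (g i) • u (i, J) =
          (∑ J ∈ expLT (Fin r) e, coeff J (g i) • (J.prod fun k m => 𝒱 k ^ m)) * φ (θ i) := by
        intro i
        rw [Finset.sum_mul]
        have hsub : 𝒥 ⊆ expLT (Fin r) e := Finset.filter_subset _ _
        rw [← Finset.sum_subset hsub]
        · refine Finset.sum_congr rfl fun J _ => ?_
          rw [smul_mul_assoc]
        · intro J hJ hJ'
          have : coeff J (g i) = 0 := by
            by_contra h0
            apply hJ'
            rw [Finset.mem_filter]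
            refine ⟨hJ, fun k hk => ?_⟩
            apply D.taylor_onlyParams d (s i) (hsp i) J _ k hk
            intro h00
            apply h0
            show coeff J (MvPowerSeries.map (OC C).subtype (D.taylor (s i))) = 0
            rw [coeff_map, h00, map_zero]
          rw [this, zero_smul, zero_mul]
      have h2 : φ f - ∑ i, ∑ J ∈ 𝒥, coeff J (g i) • u (i, J) =
          φ (f - ∑ i, s i * θ i) + ∑ i, (φ (s i) -
            ∑ J ∈ expLT (Fin r) e, coeff J (g i) • (J.prod fun k m => 𝒱 k ^ m)) * φ (θ i) := by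
        rw [map_sub, map_sum]
        simp only [sub_mul, Finset.sum_sub_distrib, h1, map_mul]
        ring
      rw [h2]
      apply le_order_add
      · apply MvPowerSeries.le_order
        intro I hI
        rw [hφ]
        exact h𝒱P _ hsP I (by exact_mod_cast hI)
      · apply le_order_sum
        intro i _
        apply le_order_mul_left
        rw [hφ]
        exact subst_trunc 𝒱 h𝒱0 (g i) e
  have hcount := count φ e z hz hR S hspan
  have hlow := pow_le_card_expLT c t (by omega) (by omega)
  have h1 : t ^ c ≤ m0 * (c * t) ^ d := hlow.trans (hcount.trans hS)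
  have h2 : t ^ (d + 1) ≤ t ^ c := Nat.pow_le_pow_right (by omega) hcd
  have h3 : t * t ^ d ≤ (m0 * c ^ d) * t ^ d := by
    calc t * t ^ d = t ^ (d + 1) := by ring
      _ ≤ m0 * (c * t) ^ d := h2.trans h1
      _ = (m0 * c ^ d) * t ^ d := by rw [mul_pow, mul_assoc]
  have h4 : 0 < t ^ d := Nat.pow_pos (by omega)
  have h5 := Nat.le_of_mul_le_mul_right h3 h4
  omega

end Crest.Agent.LT
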