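import Mathlib
import Crest.Prelude.Def_LubinTate
import Crest.Agent.LT.FG

/-! # C8: elimination over `End(G)` (row 227). Paper proof: ideas row 227, C8.
`F` finite field, `G` over `F` with `[p]_G = X^(p^h)`, all `c ∈ F` satisfy `c^(p^h) = c`. -/

set_option autoImplicit false
set_option linter.unusedSectionVars false

namespace Crest.Agent.LT

open Crest.LubinTate MvPowerSeries

/-- a power series with zero constant term as a point of `G` -/
def FPt.of {F : Type*} [CommRing F] (G : FormalGroup F) (f : PowerSeries F)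
    (hf : PowerSeries.constantCoeff f = 0) : FPt G Unit := ⟨f, hf⟩

namespace Elim

/-- elimination in a domain where every nonzero element has a left multiple which is central -/
theorem ring_elim {R : Type*} [Ring R] [Nontrivial R] [NoZeroDivisors R]
    (H : ∀ a : R, a ≠ 0 → ∃ b z : R, b * a = z ∧ z ≠ 0 ∧ ∀ c, z * c = c * z) :
    ∀ (c : ℕ) (α : Fin (c + 1) → Fin c → R), ∃ β : Fin (c + 1) → R, (∃ i, β i ≠ 0) ∧
      ∀ k, ∑ i, β i * α i k = 0 := by
  intro c
  induction c with
  | zero => intro α; exact ⟨fun _ => 1, ⟨0, one_ne_zero⟩, fun k => k.elim0⟩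
  | succ c ih =>
    intro α
    by_cases hz : ∀ i, α i 0 = 0
    · obtain ⟨β, ⟨i0, hi0⟩, hβ⟩ := ih (fun i k => α i.succ k.succ)
      refine ⟨Fin.cons 0 β, ⟨i0.succ, by simpa using hi0⟩, ?_⟩
      intro k
      rw [Fin.sum_univ_succ]
      simp only [Fin.cons_zero, Fin.cons_succ, zero_mul, zero_add]
      refine Fin.cases ?_ (fun k => ?_) k
      · simp [hz]
      · exact hβ k
    · push Not at hz
      obtain ⟨i0, hi0⟩ := hz
      obtain ⟨b, z, hbz, hz0, hzc⟩ := H _ hi0
      obtain ⟨δ, ⟨j0, hj0⟩, hδ⟩ := ih (fun j k => z * α (i0.succAbove j) k.succ -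
        α (i0.succAbove j) 0 * b * α i0 k.succ)
      refine ⟨i0.insertNth (-∑ j, δ j * (α (i0.succAbove j) 0 * b)) (fun j => δ j * z),
        ⟨i0.succAbove j0, ?_⟩, ?_⟩
      · rw [Fin.insertNth_apply_succAbove]
        exact mul_ne_zero hj0 hz0
      · intro k
        rw [Fin.sum_univ_succAbove _ i0]
        simp only [Fin.insertNth_apply_same, Fin.insertNth_apply_succAbove]
        refine Fin.cases ?_ (fun k => ?_) k
        · rw [neg_mul, Finset.sum_mul, neg_add_eq_zero]
          refine Finset.sum_congr rfl fun j _ => ?_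
          rw [mul_assoc, mul_assoc, hbz, mul_assoc, hzc]
        · rw [neg_mul, Finset.sum_mul, neg_add_eq_zero, ← sub_eq_zero, ← Finset.sum_sub_distrib]
          rw [← neg_eq_zero, ← Finset.sum_neg_distrib]
          rw [← hδ k]
          refine Finset.sum_congr rfl fun j _ => ?_
          rw [mul_sub, neg_sub]
          congr 1
          · rw [mul_assoc]
          · rw [mul_assoc]

variable {F : Type*} [Field F]

private theorem hs0 {σ : Type*} {f : MvPowerSeries σ F} (h : MvPowerSeries.constantCoeff f = 0) :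
    PowerSeries.HasSubst f := PowerSeries.HasSubst.of_constantCoeff_zero h

/-- a hom as an additive endomorphism of the points -/
noncomputable def mE {G : FormalGroup F} [G.IsComm] {φ : PowerSeries F} (hφ : IsFGHom G G φ) :
    AddMonoid.End (FPt G Unit) := IsFGHom.mapPt hφ Unit

/-- the tautological point -/
noncomputable def Xpt (G : FormalGroup F) : FPt G Unit :=
  ⟨(PowerSeries.X : PowerSeries F), PowerSeries.constantCoeff_X⟩

theorem mE_val {G : FormalGroup F} [G.IsComm] {φ : PowerSeries F} (hφ : IsFGHom G G φ)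
    (x : FPt G Unit) : (mE hφ x).1 = PowerSeries.subst x.1 φ := rfl

theorem Xpt_val (G : FormalGroup F) : (Xpt G).1 = (PowerSeries.X : PowerSeries F) := rfl

/-- the endomorphism ring of `G` inside the additive endomorphisms of the points -/
noncomputable def EndSub (G : FormalGroup F) [G.IsComm] : Subring (AddMonoid.End (FPt G Unit)) where
  carrier := {f | ∃ (φ : PowerSeries F) (hφ : IsFGHom G G φ), f = mE hφ}
  mul_mem' := by
    rintro f g ⟨φ, hφ, rfl⟩ ⟨ψ, hψ, rfl⟩
    refine ⟨_, IsFGHom.comp hψ hφ, ?_⟩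
    refine AddMonoidHom.ext fun x => Subtype.ext ?_
    exact LT93.ev_ev hψ.1 (hs0 x.2)
  one_mem' := by
    refine ⟨_, IsFGHom.id G, ?_⟩
    refine AddMonoidHom.ext fun x => Subtype.ext ?_
    exact (LT93.ev_X (hs0 x.2)).symm
  add_mem' := by
    rintro f g ⟨φ, hφ, rfl⟩ ⟨ψ, hψ, rfl⟩
    refine ⟨_, IsFGHom.add hφ hψ, ?_⟩
    refine AddMonoidHom.ext fun x => Subtype.ext ?_
    exact (LT93.subst_op G (LT93.hasSubst_of φ hφ.1) (LT93.hasSubst_of ψ hψ.1) (hs0 x.2).const).symm
  zero_mem' := by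
    refine ⟨_, IsFGHom.zero G G, ?_⟩
    refine AddMonoidHom.ext fun x => Subtype.ext ?_
    change (0 : MvPowerSeries Unit F) = PowerSeries.subst x.1 (0 : PowerSeries F)
    rw [← PowerSeries.coe_substAlgHom (R := F) (hs0 x.2)]
    exact (_root_.map_zero _).symm
  neg_mem' := by
    rintro f ⟨φ, hφ, rfl⟩
    refine ⟨_, IsFGHom.neg hφ, ?_⟩
    refine AddMonoidHom.ext fun x => Subtype.ext ?_
    exact LT93.ev_ev hφ.1 (hs0 x.2)

theorem subst_eq_zero {φ ψ : PowerSeries F} (hψ : PowerSeries.constantCoeff ψ = 0)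
    (h : PowerSeries.subst ψ φ = 0) : φ = 0 ∨ ψ = 0 := by
  by_cases hφ : φ = 0
  · exact Or.inl hφ
  · right
    have hs : PowerSeries.HasSubst ψ := LT93.hasSubst_of ψ hψ
    have e := PowerSeries.X_pow_order_mul_divXPowOrder (f := φ)
    rw [← e, ← PowerSeries.coe_substAlgHom hs, map_mul, map_pow, PowerSeries.coe_substAlgHom hs,
      PowerSeries.subst_X hs, mul_eq_zero] at h
    rcases h with h | h
    · exact eq_zero_of_pow_eq_zero h
    · exfalso
      have h1 : PowerSeries.constantCoeff (PowerSeries.subst ψ φ.divXPowOrder) =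
          PowerSeries.constantCoeff φ.divXPowOrder := by
        have h2 := PowerSeries.constantCoeff_subst_eq_zero hψ
          (φ.divXPowOrder - PowerSeries.C (PowerSeries.constantCoeff φ.divXPowOrder)) (by simp)
        rw [← PowerSeries.coe_substAlgHom hs, map_sub, map_sub, sub_eq_zero,
          PowerSeries.coe_substAlgHom hs] at h2
        have h3 : PowerSeries.subst ψ (PowerSeries.C (PowerSeries.constantCoeff φ.divXPowOrder)) =
            (PowerSeries.C (PowerSeries.constantCoeff φ.divXPowOrder) : PowerSeries F) := by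
          rw [← PowerSeries.coe_substAlgHom hs]
          exact (PowerSeries.substAlgHom hs).commutes _
        rw [h3] at h2
        refine Eq.trans h2 ?_
        exact PowerSeries.constantCoeff_C _
      rw [h, map_zero] at h1
      exact hφ (PowerSeries.constantCoeff_divXPowOrder_eq_zero_iff.mp h1.symm)

theorem mE_Xpt {G : FormalGroup F} [G.IsComm] {φ : PowerSeries F} (hφ : IsFGHom G G φ) :
    (mE hφ (Xpt G)).1 = φ := PowerSeries.X_subst φ

theorem mE_eq_zero {G : FormalGroup F} [G.IsComm] {φ : PowerSeries F} (hφ : IsFGHom G G φ)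
    (h : φ = 0) : mE hφ = 0 := by
  subst h
  refine AddMonoidHom.ext fun x => Subtype.ext ?_
  change PowerSeries.subst x.1 (0 : PowerSeries F) = (0 : MvPowerSeries Unit F)
  rw [← PowerSeries.coe_substAlgHom (R := F) (hs0 x.2)]
  exact _root_.map_zero _

instance (G : FormalGroup F) [G.IsComm] : NoZeroDivisors (EndSub G) where
  eq_zero_or_eq_zero_of_mul_eq_zero := by
    rintro ⟨f, φ, hφ, rfl⟩ ⟨g, ψ, hψ, rfl⟩ h
    have h1 : mE hφ * mE hψ = 0 := congrArg Subtype.val h
    have h2 : PowerSeries.subst ψ φ = 0 := by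
      have e0 : (mE hφ (mE hψ (Xpt G))) = 0 :=
        congrArg (fun f : AddMonoid.End (FPt G Unit) => f (Xpt G)) h1
      have e := congrArg Subtype.val e0
      rw [mE_val, mE_Xpt] at e
      exact e
    rcases subst_eq_zero hψ.1 h2 with h3 | h3
    · left
      exact Subtype.ext (mE_eq_zero hφ h3)
    · right
      exact Subtype.ext (mE_eq_zero hψ h3)

instance (G : FormalGroup F) [G.IsComm] : Nontrivial (EndSub G) := by
  refine ⟨⟨1, 0, ?_⟩⟩
  intro h
  have h1 : (1 : AddMonoid.End (FPt G Unit)) = 0 := congrArg Subtype.val h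
  have := congrArg (fun f : AddMonoid.End (FPt G Unit) =>
    (f (⟨(PowerSeries.X : PowerSeries F), PowerSeries.constantCoeff_X⟩ : FPt G Unit)).1) h1
  exact PowerSeries.X_ne_zero this

variable {p h : ℕ} [hp : Fact p.Prime] [CharP F p]

theorem mulSeries_pow (G : FormalGroup F) [G.IsComm]
    (hG : mulSeries G p = PowerSeries.X ^ (p ^ h)) (s : ℕ) :
    mulSeries G (p ^ s) = PowerSeries.X ^ (p ^ (h * s)) := by
  induction s with
  | zero => simp [mulSeries_one]
  | succ s ih =>
    have hq : p ^ (h * s) ≠ 0 := pow_ne_zero _ hp.1.ne_zero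
    rw [pow_succ, mulSeries_mul, ih, hG, PowerSeries.subst_pow (PowerSeries.HasSubst.X_pow hq),
      PowerSeries.subst_X (PowerSeries.HasSubst.X_pow hq), ← pow_mul, ← pow_add, mul_add, mul_one]

theorem exists_coeff_ne (G : FormalGroup F) {φ : PowerSeries F} (hφ : IsFGHom G G φ) (h0 : φ ≠ 0) :
    ∃ v, PowerSeries.coeff (p ^ v) φ ≠ 0 := by
  by_contra hc
  push Not at hc
  apply h0
  ext N
  obtain ⟨m, hm⟩ : ∃ m, N < p ^ m := ⟨N, Nat.lt_pow_self hp.1.one_lt⟩
  obtain ⟨ψ, hψ, hψ2⟩ := IsFGHom.frob_factor_iterate p hφ m (fun j _ => hc j)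
  rw [hψ, PowerSeries.coeff_subst_X_pow (pow_ne_zero m hp.1.ne_zero)]
  split_ifs with hd
  · rcases Nat.eq_zero_or_pos N with rfl | hN
    · have := hψ2.1
      simp [this]
    · exact absurd (Nat.le_of_dvd hN hd) (by omega)
  · simp

theorem exists_left_mul (hh : 1 ≤ h) (hF : ∀ c : F, c ^ (p ^ h) = c) (G : FormalGroup F) [G.IsComm]
    (hG : mulSeries G p = PowerSeries.X ^ (p ^ h)) {φ : PowerSeries F} (hφ : IsFGHom G G φ)
    (h0 : φ ≠ 0) : ∃ (β : PowerSeries F) (s : ℕ), IsFGHom G G β ∧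
      PowerSeries.subst φ β = mulSeries G (p ^ s) := by
  classical
  have hex := exists_coeff_ne (p := p) G hφ h0
  let v := Nat.find hex
  have hv : PowerSeries.coeff (p ^ v) φ ≠ 0 := Nat.find_spec hex
  have hv' : ∀ j < v, PowerSeries.coeff (p ^ j) φ = 0 := fun j hj => by
    have := Nat.find_min hex hj
    push Not at this
    exact this
  obtain ⟨ψ, hψ, hψ2⟩ := IsFGHom.frob_factor_iterate p hφ v hv'
  have hpv : p ^ v ≠ 0 := pow_ne_zero v hp.1.ne_zero
  have hu : IsUnit (PowerSeries.coeff 1 ψ) := by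
    rw [isUnit_iff_ne_zero]
    rw [hψ, PowerSeries.coeff_subst_X_pow hpv, if_pos dvd_rfl,
      Nat.div_self (Nat.pos_of_ne_zero hpv)] at hv
    simpa using hv
  obtain ⟨ψ', hψ', hu', hl, hr⟩ := IsFGHom.exists_inv hψ2 hu
  have hle : v ≤ h * v := Nat.le_mul_of_pos_left v hh
  let e := h * v - v
  have he : v + e = h * v := by omega
  have hiter : ∀ k, iterateFrobenius F p (h * k) = RingHom.id F := by
    intro k
    induction k with
    | zero => rw [mul_zero, iterateFrobenius_zero]
    | succ k ih =>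
      rw [mul_add, mul_one, iterateFrobenius_add, ih, RingHom.id_comp]
      refine RingHom.ext fun c => ?_
      exact hF c
  have hfr := isFGHom_frobenius p (G.map (iterateFrobenius F p v)) e
  have hmap : (G.map (iterateFrobenius F p v)).map (iterateFrobenius F p e) = G := by
    rw [map_map, ← iterateFrobenius_add, add_comm e v, he, hiter, map_id]
  rw [hmap] at hfr
  refine ⟨_, v, IsFGHom.comp hψ' hfr, ?_⟩
  have hs' : PowerSeries.HasSubst ψ' := LT93.hasSubst_of ψ' hψ'.1
  have hsφ : PowerSeries.HasSubst φ := LT93.hasSubst_of φ hφ.1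
  rw [PowerSeries.subst_pow hs', PowerSeries.subst_X hs', PowerSeries.subst_pow hsφ]
  have h1 : (PowerSeries.subst φ ψ' : PowerSeries F) = PowerSeries.X ^ (p ^ v) := by
    have hsX : PowerSeries.HasSubst (PowerSeries.X ^ (p ^ v) : PowerSeries F) :=
      PowerSeries.HasSubst.X_pow hpv
    have h2 := PowerSeries.subst_comp_subst_apply (LT93.hasSubst_of ψ hψ2.1) hsX ψ'
    rw [hl, PowerSeries.subst_X hsX, ← hψ] at h2
    exact h2.symm
  rw [h1, mulSeries_pow G hG, ← pow_mul, ← pow_add, he]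

end Elim

open Elim in
/-- `c+1` vectors in `End(G)^c` are left linearly dependent: there are `β_i ∈ End(G)`, not all
zero, with `Σ_i β_i ∘ α_ik = 0` for all `k` (sum in the group `FPt G Unit`). -/
theorem end_elim {p h : ℕ} [Fact p.Prime] (hh : 1 ≤ h) {F : Type*} [Field F] [CharP F p]
    (hF : ∀ c : F, c ^ (p ^ h) = c) (G : FormalGroup F) [G.IsComm]
    (hG : mulSeries G p = PowerSeries.X ^ (p ^ h)) (c : ℕ)
    (α : Fin (c + 1) → Fin c → PowerSeries F) (hα : ∀ i k, IsFGHom G G (α i k)) :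
    ∃ (β : Fin (c + 1) → PowerSeries F) (hβ : ∀ i, IsFGHom G G (β i)), (∃ i, β i ≠ 0) ∧
      ∀ k, ∑ i, FPt.of G (PowerSeries.subst (α i k) (β i))
        ((IsFGHom.comp (hα i k) (hβ i)).1) = 0 := by
  have H : ∀ a : EndSub G, a ≠ 0 → ∃ b z : EndSub G, b * a = z ∧ z ≠ 0 ∧ ∀ c, z * c = c * z := by
    rintro ⟨f, φ, hφ, rfl⟩ ha
    have h0 : φ ≠ 0 := fun h => ha (Subtype.ext (mE_eq_zero hφ h))
    obtain ⟨β, s, hβ, hs⟩ := exists_left_mul hh hF G hG hφ h0
    have e1 : ∀ x : FPt G Unit,
        ((((p ^ s : ℕ) : EndSub G) : AddMonoid.End (FPt G Unit)) x).1 =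
          PowerSeries.subst x.1 (mulSeries G (p ^ s)) := by
      intro x
      rw [← FPt.nsmul_val, Subring.coe_natCast]
      rfl
    refine ⟨⟨_, β, hβ, rfl⟩, ((p ^ s : ℕ) : EndSub G), ?_, ?_, fun c => Nat.cast_comm _ c⟩
    · apply Subtype.ext
      refine AddMonoidHom.ext fun x => Subtype.ext ?_
      refine Eq.trans ?_ (e1 x).symm
      rw [← hs]
      exact LT93.ev_ev hφ.1 (PowerSeries.HasSubst.of_constantCoeff_zero x.2)
    · intro hz
      have e2 := e1 (Xpt G)
      rw [hz, mulSeries_pow G hG] at e2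
      have e3 : (0 : PowerSeries F) = PowerSeries.X ^ (p ^ (h * s)) := by
        refine Eq.trans e2 ?_
        exact PowerSeries.X_subst _
      exact pow_ne_zero _ PowerSeries.X_ne_zero e3.symm
  obtain ⟨b, ⟨i0, hi0⟩, hb⟩ := ring_elim H c (fun i k => ⟨_, α i k, hα i k, rfl⟩)
  have hb' : ∀ i, ∃ (φ : PowerSeries F) (hφ : IsFGHom G G φ),
    (b i : AddMonoid.End (FPt G Unit)) = mE hφ := fun i => (b i).2
  choose β hβ hbβ using hb'
  refine ⟨β, hβ, ⟨i0, ?_⟩, ?_⟩
  · intro h0
    apply hi0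
    apply Subtype.ext
    rw [hbβ]
    exact mE_eq_zero (hβ i0) h0
  · intro k
    have e0 := congrArg Subtype.val (hb k)
    rw [AddSubmonoidClass.coe_finsetSum] at e0
    have e1 : (∑ i, mE (hβ i) * mE (hα i k)) = (0 : AddMonoid.End (FPt G Unit)) := by
      refine Eq.trans (Finset.sum_congr rfl fun i _ => ?_) e0
      rw [← hbβ]
      rfl
    have e2 := congrArg (fun f : AddMonoid.End (FPt G Unit) => f (Xpt G)) e1
    refine Eq.trans (Finset.sum_congr rfl fun i _ => ?_) (Eq.trans
      (AddMonoidHom.finsetSum_apply (fun i => (mE (hβ i) * mE (hα i k) : AddMonoid.End (FPt G Unit))) Finset.univ (Xpt G)).symm e2)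
    apply Subtype.ext
    change PowerSeries.subst (α i k) (β i) = (mE (hβ i) (mE (hα i k) (Xpt G))).1
    rw [mE_val, mE_Xpt]

end Crest.Agent.LT
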