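import Mathlib
import Crest.Agent.LT.CompA
import Crest.Agent.LT.Closure
import Crest.Agent.LT.Elim
import Crest.Agent.LT.DimCount
import Crest.Agent.LT.Contra

/-! # Assembly of part C, step B: the orbit data, the relation, the contradiction. -/

set_option autoImplicit false
set_option linter.unusedSectionVars false

namespace Crest.Agent.LT

open Crest.LubinTate MvPowerSeries

section evPt

variable {R : Type*} [CommRing R] {S : Type*} [CommRing S] [UniformSpace S]
  [IsUniformAddGroup S] [IsTopologicalRing S] [IsLinearTopology S S] [T2Space S]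
  [CompleteSpace S] {σ : Type*} [Finite σ]

/-- evaluation of formal points at topologically nilpotent elements -/
noncomputable def evPt (F : FormalGroup R) [F.IsComm] (φ : R →+* S) (a : σ → S)
    (ha : ∀ i, IsTopologicallyNilpotent (a i)) : FPt F σ →+ Pt F φ where
  toFun f := ⟨ev φ a f.1, isTopologicallyNilpotent_ev' φ a ha f.1 f.2⟩
  map_zero' := by
    apply Subtype.ext
    have h0 : ev φ a (0 : MvPowerSeries σ R) = 0 := by rw [← evHom_apply φ a ha, map_zero]
    exact h0.trans (Pt.zero_val (F := F) (φ := φ)).symm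
  map_add' f g := by
    apply Subtype.ext
    have h1 : ev φ a (F.toPowerSeries.subst ![f.1, g.1]) =
        ev φ ![ev φ a f.1, ev φ a g.1] F.toPowerSeries := by
      rw [ev_subst φ a ha ![f.1, g.1] (by
        intro i; fin_cases i
        · exact f.2
        · exact g.2)]
      congr 1
      funext i; fin_cases i <;> rfl
    exact h1.trans (Pt.add_val (F := F) (φ := φ)
      ⟨ev φ a f.1, isTopologicallyNilpotent_ev' φ a ha f.1 f.2⟩
      ⟨ev φ a g.1, isTopologicallyNilpotent_ev' φ a ha g.1 g.2⟩).symm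

theorem evPt_val (F : FormalGroup R) [F.IsComm] (φ : R →+* S) (a : σ → S)
    (ha : ∀ i, IsTopologicallyNilpotent (a i)) (f : FPt F σ) :
    (evPt F φ a ha f).1 = ev φ a f.1 := rfl

theorem evPt_mapPt {F G : FormalGroup R} [F.IsComm] [G.IsComm] (φ : R →+* S) (a : σ → S)
    (ha : ∀ i, IsTopologicallyNilpotent (a i)) {ψ : PowerSeries R} (hψ : IsFGHom F G ψ)
    (f : FPt F σ) :
    evPt G φ a ha (IsFGHom.mapPt hψ σ f) = Pt.mapHom ψ hψ (evPt F φ a ha f) := by
  apply Subtype.ext
  rw [evPt_val, Pt.mapHom_val, evPt_val]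
  exact ev_subst1 φ a ha f.1 f.2 ψ

end evPt

/-- additive group of endomorphisms of a commutative FGL -/
def CmEndG {R : Type*} [CommRing R] (F : FormalGroup R) [F.IsComm] : AddSubgroup (FPt F Unit) where
  carrier := {f | IsFGHom F F f.1}
  add_mem' := by
    intro a b ha hb
    exact IsFGHom.add ha hb
  zero_mem' := IsFGHom.zero F F
  neg_mem' := by
    intro a ha
    exact IsFGHom.neg ha

variable {p n h r : ℕ} [hp : Fact p.Prime]
variable {C : Type*} [NontriviallyNormedField C] [CompleteSpace C] [IsUltrametricDist C]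
  [CharP C p] [IsAlgClosed C]

lemma OC.tn {z : OC C} (hz : ‖z‖ < 1) : IsTopologicallyNilpotent z :=
  (OC.isTopologicallyNilpotent_iff z).2 hz

lemma norm_ev1_lt (φ : GaloisField p n →+* OC C) {z : OC C} (hz : ‖z‖ < 1)
    {δ : PowerSeries (GaloisField p n)} (hδ : PowerSeries.constantCoeff δ = 0) :
    ‖ev1 φ z δ‖ < 1 :=
  (OC.isTopologicallyNilpotent_iff _).1 (isTopologicallyNilpotent_ev1 φ z (OC.tn hz) δ hδ)

/-- orbit data attached to `D` and a basis `t` -/
noncomputable def CData.yData (D : CData p n h r C) [D.Γ.IsComm] (t : Fin r → OC C)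
    (ht : ∀ i, ‖t i‖ < 1) :
    YData p h r C D.hh D.toLData.Gh (CmEndG D.Γ) where
  y δ i := D.toLData.pi (ev1 D.toLData.kx (t i) δ.1.1)
  lt δ i := D.toLData.pi_lt (norm_ev1_lt _ (ht i) δ.1.2)
  add δ δ' i := by
    rw [← LData.pi_op D.toLData (norm_ev1_lt _ (ht i) δ.1.2) (norm_ev1_lt _ (ht i) δ'.1.2)]
    congr 1
    have := congrArg Subtype.val ((evPt D.Γ D.toLData.kx (fun _ : Unit => t i)
      (fun _ => OC.tn (ht i))).map_add δ.1 δ'.1)
    exact this
  frob δ := by
    refine ⟨⟨⟨PowerSeries.subst δ.1.1 (mulSeries D.Γ p),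
      (IsFGHom.comp δ.2 (isFGHom_mulSeries D.Γ p)).1⟩,
      IsFGHom.comp δ.2 (isFGHom_mulSeries D.Γ p)⟩, ?_⟩
    intro i
    rw [← LData.pi_pow D.toLData (norm_ev1_lt _ (ht i) δ.1.2)]
    congr 1
    show ev1 D.toLData.kx (t i) (PowerSeries.subst δ.1.1 (mulSeries D.Γ p)) = _
    rw [ev1_subst D.toLData.kx (t i) (OC.tn (ht i)) δ.1.1 δ.1.2, D.Γp]
    have hz := OC.tn (norm_ev1_lt D.toLData.kx (ht i) δ.1.2)
    unfold ev1 at hz ⊢
    rw [← evHom_apply _ _ (fun _ => hz), map_pow, evHom_apply]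
    congr 1
    exact ev1_X D.toLData.kx _ hz

lemma cm_constantCoeff_pderiv {R : Type*} [CommRing R] {υ : Type*} (g : MvPowerSeries υ R) (j : υ) :
    MvPowerSeries.constantCoeff (MvPowerSeries.pderiv R j g) =
      MvPowerSeries.coeff (Finsupp.single j 1) g := by
  rw [← MvPowerSeries.coeff_zero_eq_constantCoeff_apply, MvPowerSeries.coeff_pderiv]
  simp

/-- linear coefficients of a substitution -/
lemma cm_coeff_single_subst {R : Type*} [CommRing R] {σ τ : Type*} [Fintype σ] [Finite τ]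
    (a : σ → MvPowerSeries τ R) (ha : ∀ i, MvPowerSeries.constantCoeff (a i) = 0)
    (f : MvPowerSeries σ R) (k : τ) :
    MvPowerSeries.coeff (Finsupp.single k 1) (MvPowerSeries.subst a f) =
      ∑ i, MvPowerSeries.coeff (Finsupp.single i 1) f *
        MvPowerSeries.coeff (Finsupp.single k 1) (a i) := by
  have hs : MvPowerSeries.HasSubst a := MvPowerSeries.hasSubst_of_constantCoeff_zero ha
  have h1 := congrArg MvPowerSeries.constantCoeff (LT93.pderiv_subst hs f k)
  rw [cm_constantCoeff_pderiv, map_sum] at h1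
  rw [h1]
  refine Finset.sum_congr rfl fun i _ => ?_
  rw [map_mul, LT93.constantCoeff_subst_of_zero hs ha, cm_constantCoeff_pderiv,
    cm_constantCoeff_pderiv]

/-- an `F`-linear functional commutes with substitution of series over `F` -/
lemma cm_ell_subst {F C : Type*} [Field F] [Field C] [Algebra F C] (ℓ : C →ₗ[F] F)
    {σ τ : Type*} [Finite σ] [Finite τ] (φ : σ → MvPowerSeries τ F)
    (hφ : ∀ i, MvPowerSeries.constantCoeff (φ i) = 0) (g : MvPowerSeries σ C)
    (I : τ →₀ ℕ) :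
    ℓ (MvPowerSeries.coeff I (MvPowerSeries.subst
      (fun i => MvPowerSeries.map (algebraMap F C) (φ i)) g)) =
      MvPowerSeries.coeff I (MvPowerSeries.subst φ
        (show MvPowerSeries σ F from fun d => ℓ (MvPowerSeries.coeff d g))) := by
  have hs : MvPowerSeries.HasSubst φ := MvPowerSeries.hasSubst_of_constantCoeff_zero hφ
  have hs' : MvPowerSeries.HasSubst (fun i => MvPowerSeries.map (algebraMap F C) (φ i)) :=
    MvPowerSeries.hasSubst_of_constantCoeff_zero (fun i => by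
      rw [MvPowerSeries.constantCoeff_map, hφ, map_zero])
  rw [MvPowerSeries.coeff_subst hs', MvPowerSeries.coeff_subst hs]
  have hfin := MvPowerSeries.coeff_subst_finite hs' g I
  have h1 := (ℓ : C →+ F).map_finsum hfin
  rw [show ℓ (∑ᶠ d, MvPowerSeries.coeff d g • MvPowerSeries.coeff I
    (d.prod fun s e => (MvPowerSeries.map (algebraMap F C) (φ s)) ^ e)) = (ℓ : C →+ F) _ from rfl,
    h1]
  refine finsum_congr fun d => ?_
  have h2 : MvPowerSeries.coeff I (d.prod fun s e =>
      (MvPowerSeries.map (algebraMap F C) (φ s)) ^ e) =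
      algebraMap F C (MvPowerSeries.coeff I (d.prod fun s e => (φ s) ^ e)) := by
    rw [← MvPowerSeries.coeff_map, Finsupp.prod, Finsupp.prod,
      map_prod (MvPowerSeries.map (algebraMap F C))]
    simp only [map_pow]
  rw [h2]
  show ℓ (MvPowerSeries.coeff d g • algebraMap F C _) = _
  rw [smul_eq_mul, mul_comm, ← Algebra.smul_def, map_smul, smul_eq_mul, smul_eq_mul, mul_comm]
  rfl

/-- truncation: series agreeing in degree `< e` have substitutions agreeing in degree `< e` -/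
lemma cm_subst_congr {F : Type*} [CommRing F] {σ τ : Type*} [Finite σ] [Finite τ]
    (φ : σ → MvPowerSeries τ F) (hφ : ∀ i, MvPowerSeries.constantCoeff (φ i) = 0)
    (f g : MvPowerSeries σ F) (e : ℕ)
    (hfg : ∀ I : σ →₀ ℕ, I.degree < e → MvPowerSeries.coeff I f = MvPowerSeries.coeff I g)
    (I : τ →₀ ℕ) (hI : I.degree < e) :
    MvPowerSeries.coeff I (MvPowerSeries.subst φ f) =
      MvPowerSeries.coeff I (MvPowerSeries.subst φ g) := by
  have hs : MvPowerSeries.HasSubst φ := MvPowerSeries.hasSubst_of_constantCoeff_zero hφ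
  rw [← sub_eq_zero, ← map_sub, ← MvPowerSeries.subst_sub hs]
  apply MvPowerSeries.coeff_of_lt_order
  have h1 := MvPowerSeries.le_order_subst hs (f - g)
  have h2 : (e : ℕ∞) ≤ (f - g).order := by
    apply MvPowerSeries.le_order
    intro d hd
    rw [map_sub, hfg d (by exact_mod_cast hd), sub_self]
  have h3 : (1 : ℕ∞) ≤ ⨅ i, (φ i).order := by
    refine le_iInf fun i => ?_
    apply MvPowerSeries.le_order
    intro d hd
    have : d = 0 := by
      have : d.degree = 0 := by
        have := (by exact_mod_cast hd : d.degree < 1)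
        omega
      exact (Finsupp.degree_eq_zero_iff d).mp this
    rw [this, MvPowerSeries.coeff_zero_eq_constantCoeff_apply, hφ]
  calc ((I.degree : ℕ) : ℕ∞) < e := by exact_mod_cast hI
    _ ≤ 1 * (f - g).order := by rw [one_mul]; exact h2
    _ ≤ (⨅ i, (φ i).order) * (f - g).order := mul_le_mul_left h3 _
    _ ≤ _ := h1

/-- `FQ` is a field over which `C` is an algebra; the inclusion factors through `OC`. -/
lemma FQ.incl_coe (hh : 1 ≤ h) (c : FQ C p h) :
    ((FQ.incl (C := C) (p := p) hh c : OC C) : C) = (c : C) := rfl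

/-- constructor for formal points -/
def FPt.mk' {R : Type*} [CommRing R] (F : FormalGroup R) {σ : Type*} (f : MvPowerSeries σ R)
    (hf : MvPowerSeries.constantCoeff f = 0) : FPt F σ := ⟨f, hf⟩

/-- the formal version of `y_i = Σ_k α_ik(y_k)` -/
noncomputable def phiF (G : FormalGroup (FQ C p h)) [G.IsComm] {c : ℕ}
    (α : Fin c → PowerSeries (FQ C p h)) (hα : ∀ k, IsFGHom G G (α k)) : FPt G (Fin c) :=
  ∑ k, IsFGHom.mapPt (hα k) (Fin c) (FPt.mk' G (MvPowerSeries.X k) (by simp))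

lemma cm_ev_phiF {hh : 1 ≤ h} (G : FormalGroup (FQ C p h)) [G.IsComm] {c : ℕ}
    (α : Fin c → PowerSeries (FQ C p h)) (hα : ∀ k, IsFGHom G G (α k))
    (z : Fin c → OC C) (hz : ∀ k, ‖z k‖ < 1) :
    evPt G (FQ.incl hh) z (fun k => OC.tn (hz k)) (phiF G α hα) =
      ∑ k, Pt.mapHom (α k) (hα k) (⟨z k, OC.tn (hz k)⟩ : Pt G (FQ.incl (C := C) (p := p) hh)) := by
  rw [phiF, map_sum]
  refine Finset.sum_congr rfl fun k _ => ?_
  rw [evPt_mapPt]
  congr 1
  apply Subtype.ext
  exact ev_X (FQ.incl hh) z (fun k => OC.tn (hz k)) k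

theorem cm_hTheta (D : CData p n h r C) [D.Γ.IsComm] [D.toLData.Gh.IsComm] (hn1 : 1 ≤ n)
    (t : Fin r → OC C) (ht : D.toLData.TBasis t)
    (P : Ideal (MvPowerSeries (Fin r) (GaloisField p n)))
    (hcomp : ∀ δ, IsFGHom D.Γ D.Γ δ → ∃ (η : ℕ → ℝ) (a1 : ℕ),
      Filter.Tendsto η Filter.atTop (nhds 0) ∧ ∀ a ≥ a1,
      ∀ g, IsFGHom D.Γ D.Γ g → PowerSeries.subst (onePlus D.Γ a δ) g = PowerSeries.X →
        ∃ x' : MvPowerSeries (Fin r) (GaloisField p n) →+* OC C, D.Companion g x' ∧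
          (∀ i, ‖x' (MvPowerSeries.X i) - D.x (MvPowerSeries.X i)‖ ≤ η a) ∧
          ∀ f ∈ P, x' f = 0)
    {c : ℕ} (K : Fin c ↪ Fin r) (α : Fin r → Fin c → PowerSeries (FQ C p h))
    (hα : ∀ i k, IsFGHom D.toLData.Gh D.toLData.Gh (α i k))
    (hclos : ∀ δ i, (D.yData t ht.lt).pt δ i =
      ∑ k, Pt.mapHom (α i k) (hα i k) ((D.yData t ht.lt).pt δ (K k)))
    (hindep : ∀ f : MvPowerSeries (Fin c) (FQ C p h),
        (∀ δ, ev (FQ.incl D.hh) (fun k => (D.yData t ht.lt).y δ (K k)) f = 0) → f = 0) (e : ℕ) :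
    ∃ 𝒱 : Fin r → MvPowerSeries (Fin c) C,
      (∀ l, MvPowerSeries.constantCoeff (𝒱 l) = 0) ∧
      (∀ v : Fin c → C, (∀ l, ∑ k, MvPowerSeries.coeff (Finsupp.single k 1) (𝒱 l) * v k = 0) →
        v = 0) ∧
      ∀ f ∈ P, ∀ I : Fin c →₀ ℕ, I.degree < e → MvPowerSeries.coeff I
        (MvPowerSeries.subst 𝒱 (MvPowerSeries.map (OC C).subtype (D.taylor f))) = 0 := by
  classical
  set Y := D.yData t ht.lt with hY
  let φF : Fin r → MvPowerSeries (Fin c) (FQ C p h) := fun i => (phiF D.toLData.Gh (α i) (hα i)).1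
  have hφF0 : ∀ i, MvPowerSeries.constantCoeff (φF i) = 0 := fun i =>
    (phiF D.toLData.Gh (α i) (hα i)).2
  -- evaluation of `φF`
  have hevφ : ∀ δ i, ev (FQ.incl D.hh) (fun k => Y.y δ (K k)) (φF i) = Y.y δ i := by
    intro δ i
    have h1 := cm_ev_phiF (hh := D.hh) D.toLData.Gh (α i) (hα i) (fun k => Y.y δ (K k))
      (fun k => Y.lt δ (K k))
    have h2 := hclos δ i
    have h3 := h1.trans h2.symm
    exact congrArg Subtype.val h3
  have htnK : ∀ δ, ∀ k : Fin c, IsTopologicallyNilpotent (Y.y δ (K k)) := fun δ k =>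
    OC.tn (Y.lt δ (K k))
  -- `φF (K k) = X k`
  have hφK : ∀ k, φF (K k) = MvPowerSeries.X k := by
    intro k
    rw [← sub_eq_zero]
    apply hindep
    intro δ
    rw [← evHom_apply _ _ (htnK δ), map_sub, evHom_apply, evHom_apply, hevφ,
      ev_X _ _ (htnK δ), sub_self]
  obtain ⟨N, hN⟩ := Y.ell_close e
  obtain ⟨𝒰, h𝒰0, h𝒰det, h𝒰⟩ := D.star t ht N
  let φC : Fin r → MvPowerSeries (Fin c) C :=
    fun i => MvPowerSeries.map (algebraMap (FQ C p h) C) (φF i)
  have hφC0 : ∀ i, MvPowerSeries.constantCoeff (φC i) = 0 := fun i => by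
    rw [MvPowerSeries.constantCoeff_map, hφF0, map_zero]
  have hsφ : MvPowerSeries.HasSubst φC := MvPowerSeries.hasSubst_of_constantCoeff_zero hφC0
  have hs𝒰 : MvPowerSeries.HasSubst 𝒰 := MvPowerSeries.hasSubst_of_constantCoeff_zero h𝒰0
  refine ⟨fun l => MvPowerSeries.subst φC (𝒰 l), ?_, ?_, ?_⟩
  · intro l
    exact MvPowerSeries.constantCoeff_subst_eq_zero hsφ hφC0 (h𝒰0 l)
  · intro v hv
    -- linear algebra
    have h1 : ∀ l, ∑ i, MvPowerSeries.coeff (Finsupp.single i 1) (𝒰 l) *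
        (∑ k, MvPowerSeries.coeff (Finsupp.single k 1) (φC i) * v k) = 0 := by
      intro l
      rw [← hv l]
      simp_rw [cm_coeff_single_subst φC hφC0, Finset.mul_sum, Finset.sum_mul]
      rw [Finset.sum_comm]
      refine Finset.sum_congr rfl fun k _ => Finset.sum_congr rfl fun i _ => by ring
    have h2 : (fun i => ∑ k, MvPowerSeries.coeff (Finsupp.single k 1) (φC i) * v k) = 0 := by
      apply Matrix.eq_zero_of_mulVec_eq_zero h𝒰det.ne_zero
      funext l
      exact h1 l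
    funext k
    have h3 := congrFun h2 (K k)
    simp only [Pi.zero_apply] at h3 ⊢
    rw [← h3, Finset.sum_eq_single k]
    · show v k = MvPowerSeries.coeff (Finsupp.single k 1)
        (MvPowerSeries.map (algebraMap (FQ C p h) C) (φF (K k))) * v k
      rw [hφK, MvPowerSeries.map_X, MvPowerSeries.coeff_X, if_pos rfl, one_mul]
    · intro b _ hb
      show MvPowerSeries.coeff (Finsupp.single b 1)
        (MvPowerSeries.map (algebraMap (FQ C p h) C) (φF (K k))) * v b = 0
      rw [hφK, MvPowerSeries.map_X, MvPowerSeries.coeff_X, if_neg, zero_mul]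
      intro h4
      exact hb ((Finsupp.single_left_inj one_ne_zero).mp h4)
    · intro h4; exact absurd (Finset.mem_univ k) h4
  · intro f hf I hI
    have hcond : ∀ δ, ∃ (C0 : ℝ) (a0 : ℕ), ∀ a ≥ a0,
        ‖MvPolynomial.eval (fun i => (Y.y δ i : C) ^ ((p ^ h) ^ a))
          (truncTotal N (D.theta 𝒰 f))‖ ≤ C0 * (‖Y.y δ‖) ^ (N * (p ^ h) ^ a) := by
      intro δ
      obtain ⟨η, a1, hη, ha1⟩ := hcomp δ.1.1 δ.2
      obtain ⟨C0, a0, ha0⟩ := h𝒰 δ.1.1 δ.2 η hη f
      refine ⟨C0, max (max a0 a1) 1, ?_⟩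
      intro a ha
      have ha0' : a ≥ a0 := le_trans (le_trans (le_max_left _ _) (le_max_left _ _)) ha
      have ha1' : a ≥ a1 := le_trans (le_trans (le_max_right _ _) (le_max_left _ _)) ha
      have ha2' : 1 ≤ a := le_trans (le_max_right _ _) ha
      obtain ⟨g, hg, hgu⟩ := cm_exists_inv hn1 D.Γp ha2' δ.2
      obtain ⟨x', hx', hclose, hkill⟩ := ha1 a ha1' g hg hgu
      have h1 := ha0 a ha0' g x' hg hgu hx' hclose
      rw [hkill f hf, ZeroMemClass.coe_zero, zero_sub, norm_neg] at h1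
      exact h1
    have h1 : MvPowerSeries.subst (fun l => MvPowerSeries.subst φC (𝒰 l))
        (MvPowerSeries.map (OC C).subtype (D.taylor f)) =
        MvPowerSeries.subst φC (D.theta 𝒰 f) := by
      rw [CData.theta, MvPowerSeries.subst_comp_subst_apply hs𝒰 hsφ]
    rw [h1]
    -- separate by functionals
    by_contra hne
    obtain ⟨ℓ, hℓ⟩ : ∃ ℓ : C →ₗ[FQ C p h] FQ C p h,
        ℓ (MvPowerSeries.coeff I (MvPowerSeries.subst φC (D.theta 𝒰 f))) ≠ 0 := by
      by_contra hno
      push Not at hno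
      exact hne ((Module.forall_dual_apply_eq_zero_iff (FQ C p h) _).mp hno)
    apply hℓ
    obtain ⟨f', hf', hf'c⟩ := hN (D.theta 𝒰 f) hcond ℓ
    rw [cm_ell_subst ℓ φF hφF0, ← cm_subst_congr φF hφF0 f' _ e (fun J hJ => by
      rw [hf'c J hJ]; rfl) I hI]
    have h2 : MvPowerSeries.subst φF f' = 0 := by
      apply hindep
      intro δ
      rw [ev_subst _ _ (htnK δ) φF hφF0]
      have h3 : (fun i => ev (FQ.incl D.hh) (fun k => Y.y δ (K k)) (φF i)) = Y.y δ := by
        funext i; exact hevφ δ i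
      rw [h3]
      exact hf' δ
    rw [h2, map_zero]

end Crest.Agent.LT
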