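import Mathlib
import Crest.Agent.LT.CompB
import Crest.Agent.LT.Comm

/-! # Assembly of part C, step C: the contradiction at the level of `A`. -/

set_option autoImplicit false
set_option linter.unusedSectionVars false

namespace Crest.Agent.LT

open Crest.LubinTate MvPowerSeries

variable {p n h r : ℕ} [hp : Fact p.Prime]
variable {C : Type*} [NontriviallyNormedField C] [CompleteSpace C] [IsUltrametricDist C]
  [CharP C p] [IsAlgClosed C]

/-- composition of homs acting on points -/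
lemma cm_mapHom_comp {R : Type*} [CommRing R] {S : Type*} [CommRing S] [UniformSpace S]
    [IsUniformAddGroup S] [IsTopologicalRing S] [IsLinearTopology S S] [T2Space S]
    [CompleteSpace S] {F G K : FormalGroup R} [F.IsComm] [G.IsComm] [K.IsComm] {φ : R →+* S}
    {α β : PowerSeries R} (hα : IsFGHom F G α) (hβ : IsFGHom G K β) (z : Pt F φ) :
    Pt.mapHom β hβ (Pt.mapHom α hα z) =
      Pt.mapHom (PowerSeries.subst α β) (IsFGHom.comp hα hβ) z := by
  apply Subtype.ext
  rw [Pt.mapHom_val, Pt.mapHom_val, Pt.mapHom_val]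
  exact (ev1_subst φ z.1 z.2 α hα.1 β).symm

/-- a relation between formal points gives a relation between points -/
lemma cm_sum_mapHom {R : Type*} [CommRing R] {S : Type*} [CommRing S] [UniformSpace S]
    [IsUniformAddGroup S] [IsTopologicalRing S] [IsLinearTopology S S] [T2Space S]
    [CompleteSpace S] {G : FormalGroup R} [G.IsComm] {φ : R →+* S} {ι : Type*} (s : Finset ι)
    (γ : ι → PowerSeries R) (hγ : ∀ i, IsFGHom G G (γ i))
    (h0 : ∑ i ∈ s, FPt.of G (γ i) (hγ i).1 = 0) (z : Pt G φ) :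
    ∑ i ∈ s, Pt.mapHom (γ i) (hγ i) z = 0 := by
  have h1 : ∀ i, Pt.mapHom (γ i) (hγ i) z =
      evPt G φ (fun _ : Unit => z.1) (fun _ => z.2) (FPt.of G (γ i) (hγ i).1) := by
    intro i
    apply Subtype.ext
    rw [Pt.mapHom_val]
    rfl
  simp_rw [h1]
  rw [← map_sum, h0, map_zero]

/-- the relation among the `y_i` -/
theorem cm_relation {hh : 1 ≤ h} {G : FormalGroup (FQ C p h)} [G.IsComm] {𝒟 : Type*}
    [AddCommGroup 𝒟] (hG : mulSeries G p = PowerSeries.X ^ (p ^ h))
    (Y : YData p h r C hh G 𝒟) {c d : ℕ} (hcd : c ≤ d) (hdr : d + 1 ≤ r) (K : Fin c → Fin r)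
    (α : Fin r → Fin c → PowerSeries (FQ C p h)) (hα : ∀ i k, IsFGHom G G (α i k))
    (hclos : ∀ δ i, Y.pt δ i = ∑ k, Pt.mapHom (α i k) (hα i k) (Y.pt δ (K k))) :
    ∃ (β : Fin (d + 1) → PowerSeries (FQ C p h)) (hβ : ∀ i, IsFGHom G G (β i)),
      (∃ i, β i ≠ 0) ∧ ∀ δ, ∑ i, Pt.mapHom (β i) (hβ i) (Y.pt δ (Fin.castLE hdr i)) = 0 := by
  classical
  -- pad with zero columns
  let α' : Fin (d + 1) → Fin d → PowerSeries (FQ C p h) := fun i k =>
    if hk : (k : ℕ) < c then α (Fin.castLE hdr i) ⟨k, hk⟩ else 0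
  have hα' : ∀ i k, IsFGHom G G (α' i k) := by
    intro i k
    by_cases hk : (k : ℕ) < c
    · simp only [α', dif_pos hk]; exact hα _ _
    · simp only [α', dif_neg hk]; exact IsFGHom.zero G G
  obtain ⟨β, hβ, hβ0, hrel⟩ := end_elim (p := p) hh (fun x : FQ C p h => by
    apply Subtype.ext; exact x.2) G hG d α' hα'
  refine ⟨β, hβ, hβ0, ?_⟩
  intro δ
  have h1 : ∀ i : Fin (d + 1), Pt.mapHom (β i) (hβ i) (Y.pt δ (Fin.castLE hdr i)) =
      ∑ k : Fin c, Pt.mapHom (PowerSeries.subst (α' i (Fin.castLE hcd k)) (β i))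
        (IsFGHom.comp (hα' i (Fin.castLE hcd k)) (hβ i)) (Y.pt δ (K k)) := by
    intro i
    rw [hclos δ (Fin.castLE hdr i), map_sum]
    refine Finset.sum_congr rfl fun k _ => ?_
    rw [cm_mapHom_comp]
    have h2 : α' i (Fin.castLE hcd k) = α (Fin.castLE hdr i) k := by
      simp only [α', Fin.val_castLE, k.2, dif_pos]
    congr 2
    rw [h2]
  rw [Finset.sum_congr rfl (fun i _ => h1 i), Finset.sum_comm]
  refine Finset.sum_eq_zero fun k _ => ?_
  exact cm_sum_mapHom Finset.univ (fun i => PowerSeries.subst (α' i (Fin.castLE hcd k)) (β i))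
    (fun i => IsFGHom.comp (hα' i (Fin.castLE hcd k)) (hβ i)) (hrel (Fin.castLE hcd k)) _

lemma cm_mulSeries_pow' {R : Type*} [CommRing R] {G : FormalGroup R} [G.IsComm] {N : ℕ}
    (hN : N ≠ 0) (hG : mulSeries G p = PowerSeries.X ^ N) (a : ℕ) :
    mulSeries G (p ^ a) = PowerSeries.X ^ (N ^ a) := by
  induction a with
  | zero => simp [mulSeries_one]
  | succ a ih =>
    rw [pow_succ, mulSeries_mul, ih, hG, PowerSeries.subst_pow, PowerSeries.subst_X, ← pow_mul,
      pow_succ]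
    · exact PowerSeries.HasSubst.X_pow (pow_ne_zero a hN)
    · exact PowerSeries.HasSubst.X_pow (pow_ne_zero a hN)

lemma cm_piPt_pow (D : LData p n h r C) [D.Gh.IsComm] (s : OC C) (hs : ‖s‖ < 1) (e : ℕ)
    {δ : PowerSeries (GaloisField p n)} (hδ : IsFGHom D.Γ D.Γ δ) :
    D.piPt δ (s ^ ((p ^ n) ^ e)) = (D.piPt δ s) ^ ((p ^ h) ^ e) := by
  induction e with
  | zero => simp
  | succ e ih =>
    have h1 : ‖s ^ ((p ^ n) ^ e)‖ < 1 := by
      rw [norm_pow]
      exact pow_lt_one₀ (norm_nonneg _) hs (pow_ne_zero _ (pow_ne_zero _ hp.1.ne_zero))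
    have hz := OC.tn h1
    have hn0 : n ≠ 0 := by have := D.hn; have := D.hr; omega
    have h2 : ev1 D.kx ((s ^ ((p ^ n) ^ e)) ^ (p ^ n)) δ =
        (ev1 D.kx (s ^ ((p ^ n) ^ e)) δ) ^ (p ^ n) := by
      have := io_ev1_frob D.kx hn0 1 δ h1
      rw [mul_one] at this
      exact this.symm
    rw [pow_succ, pow_mul, LData.piPt, h2, D.pi_pow (norm_ev1_lt _ h1 hδ.1), pow_succ, pow_mul,
      ← ih]
    rfl

theorem cm_core (D : CData p n h r C) [D.Γ.IsComm] [D.toLData.Gh.IsComm] (hn1 : 1 ≤ n)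
    (d : ℕ) (hd1 : 1 ≤ d) (hdr : d + 1 ≤ r)
    (P : Ideal (MvPowerSeries (Fin r) (GaloisField p n)))
    (hfin : ∃ (m0 : ℕ) (θ : Fin m0 → MvPowerSeries (Fin r) (GaloisField p n)),
      ∀ f : MvPowerSeries (Fin r) (GaloisField p n),
        ∃ s : Fin m0 → MvPowerSeries (Fin r) (GaloisField p n), (∀ i, OnlyParams r d (s i)) ∧
          f - ∑ i, s i * θ i ∈ P)
    (hx : ∀ i : Fin r, r - d + 1 ≤ (i : ℕ) → D.x (MvPowerSeries.X i) = 0)
    (hcomp : ∀ δ, IsFGHom D.Γ D.Γ δ → ∃ (η : ℕ → ℝ) (a1 : ℕ),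
      Filter.Tendsto η Filter.atTop (nhds 0) ∧ ∀ a ≥ a1,
      ∀ g, IsFGHom D.Γ D.Γ g → PowerSeries.subst (onePlus D.Γ a δ) g = PowerSeries.X →
        ∃ x' : MvPowerSeries (Fin r) (GaloisField p n) →+* OC C, D.Companion g x' ∧
          (∀ i, ‖x' (MvPowerSeries.X i) - D.x (MvPowerSeries.X i)‖ ≤ η a) ∧
          ∀ f ∈ P, x' f = 0) : False := by
  classical
  obtain ⟨t, R, hR0, hR1, ht, ht0, hind, hAB⟩ := D.exists_special d hd1 hdr hx
  obtain ⟨L⟩ := D.toLData.exists_Lead (fun m => D.exists_factor m)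
  obtain ⟨c, K, α, hα, hclos, hindep⟩ := (D.yData t ht.lt).closure
  have hc : c ≤ d := D.dim_count P d hd1 hdr hfin c (fun e =>
    cm_hTheta D hn1 t ht P hcomp K α hα hclos hindep e)
  obtain ⟨β, hβ, hβ0, hrel⟩ := cm_relation D.toLData.Log_spec.2.2.2.1 (D.yData t ht.lt) hc hdr K α
    hα hclos
  have hval : ∀ (δ : PowerSeries (GaloisField p n)) (hδ : IsFGHom D.Γ D.Γ δ) (i : Fin r),
      ((D.yData t ht.lt).pt (⟨⟨δ, hδ.1⟩, hδ⟩ : CmEndG D.Γ) i).1 = D.toLData.piPt δ (t i) :=
    fun δ hδ i => rfl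
  rcases hAB with hA | ⟨e, s, hse, hB⟩
  · -- case (A)
    have h1 := D.toLData.contra_A L d (fun i : Fin d => t ⟨i, by omega⟩) R hR0 hR1 hind
      (t ⟨d, by omega⟩) (ht0 _) (ht.lt _) hA (fun i => β i.castSucc) (fun i => hβ i.castSucc)
      (β (Fin.last d)) (hβ (Fin.last d)) (by
        intro δ hδ z z' hz hz'
        have h2 := hrel (⟨⟨δ, hδ.1⟩, hδ⟩ : CmEndG D.Γ)
        rw [Fin.sum_univ_castSucc] at h2
        rw [← h2]
        congr 1
        · refine Finset.sum_congr rfl fun i _ => ?_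
          congr 1
          apply Subtype.ext
          exact (hz i).trans
            (hval δ hδ (Fin.castLE hdr i.castSucc)).symm
        · congr 1
          apply Subtype.ext
          exact hz'.trans (hval δ hδ (Fin.castLE hdr (Fin.last d))).symm)
    obtain ⟨i, hi⟩ := hβ0
    refine Fin.lastCases (motive := fun i => β i ≠ 0 → False) ?_ ?_ i hi
    · intro h2; exact h2 h1.2
    · intro j h2; exact h2 (h1.1 j)
  · -- case (B)
    have hs1 : ‖s‖ < 1 := by
      have h2 := hB.1 (Fin.last d)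
      simp only [Fin.val_last, lt_self_iff_false, dif_neg, not_false_eq_true] at h2
      rw [h2]; exact hR1
    let ψ : PowerSeries (FQ C p h) := mulSeries D.toLData.Gh (p ^ e)
    have hψ : IsFGHom D.toLData.Gh D.toLData.Gh ψ := isFGHom_mulSeries _ _
    have hQ0 : p ^ h ≠ 0 := pow_ne_zero _ hp.1.ne_zero
    have hψX : ψ = PowerSeries.X ^ ((p ^ h) ^ e) :=
      cm_mulSeries_pow' hQ0 D.toLData.Log_spec.2.2.2.1 e
    let β'' : Fin (d + 1) → PowerSeries (FQ C p h) := fun i =>
      if (i : ℕ) < d then β i else PowerSeries.subst ψ (β i)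
    have hβ'' : ∀ i, IsFGHom D.toLData.Gh D.toLData.Gh (β'' i) := by
      intro i
      by_cases hi : (i : ℕ) < d
      · simp only [β'', if_pos hi]; exact hβ i
      · simp only [β'', if_neg hi]; exact IsFGHom.comp hψ (hβ i)
    have h1 := D.toLData.contra_B L (d + 1)
      (fun i : Fin (d + 1) => if hi : (i : ℕ) < d then t ⟨i, by omega⟩ else s) R hR0 hR1 hB
      β'' hβ'' (by
        intro δ hδ z hz
        have h2 := hrel (⟨⟨δ, hδ.1⟩, hδ⟩ : CmEndG D.Γ)
        rw [← h2]
        refine Finset.sum_congr rfl fun i _ => ?_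
        by_cases hi : (i : ℕ) < d
        · have h3 : z i = (D.yData t ht.lt).pt (⟨⟨δ, hδ.1⟩, hδ⟩ : CmEndG D.Γ) (Fin.castLE hdr i) := by
            apply Subtype.ext
            have h4 := hz i
            simp only [dif_pos hi] at h4
            exact h4.trans (hval δ hδ (Fin.castLE hdr i)).symm
          rw [h3]
          congr 2
          simp only [β'', if_pos hi]
        · have hid : i = Fin.last d := by
            apply Fin.ext; have := i.2; simp only [Fin.val_last]; omega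
          subst hid
          have h3 : Pt.mapHom (β'' (Fin.last d)) (hβ'' (Fin.last d)) (z (Fin.last d)) =
              Pt.mapHom (PowerSeries.subst ψ (β (Fin.last d)))
                (IsFGHom.comp hψ (hβ (Fin.last d))) (z (Fin.last d)) := by
            congr 1
            simp only [β'', if_neg hi]
          rw [h3, ← cm_mapHom_comp hψ (hβ (Fin.last d))]
          congr 1
          apply Subtype.ext
          rw [Pt.mapHom_val]
          have h4 := hz (Fin.last d)
          simp only [Fin.val_last, lt_self_iff_false, dif_neg, not_false_eq_true] at h4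
          have h5 : (z (Fin.last d)).1 ^ ((p ^ h) ^ e) = D.toLData.piPt δ (t ⟨d, by omega⟩) := by
            rw [h4, ← cm_piPt_pow D.toLData s hs1 e hδ, hse]
          rw [hψX, tor_ev1_pow _ _ (z (Fin.last d)).2, ev1_X _ _ (z (Fin.last d)).2]
          exact h5.trans (hval δ hδ (Fin.castLE hdr (Fin.last d))).symm)
    obtain ⟨i, hi⟩ := hβ0
    apply hi
    have h2 := h1 i
    by_cases hi' : (i : ℕ) < d
    · simp only [β'', if_pos hi'] at h2; exact h2
    · simp only [β'', if_neg hi', hψX] at h2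
      apply tor_subst_X_pow_inj (pow_ne_zero e hQ0)
      rw [h2, ← PowerSeries.coe_substAlgHom (PowerSeries.HasSubst.X_pow (pow_ne_zero e hQ0)),
        map_zero]

end Crest.Agent.LT
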