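import Mathlib
import Crest.Prelude.Def_LubinTate
import Crest.Agent.LT.CompC
import Crest.Agent.LT.Coord
import Crest.Agent.LT93.Height

/-! # KEYh (row 227): the characteristic `p` part, assembly. -/

set_option autoImplicit false
set_option linter.unusedSectionVars false

namespace Crest.Agent.LT

open Crest.LubinTate MvPowerSeries

variable {p : ℕ} [hp : Fact p.Prime] {n : ℕ}

/-- image of the ideal `P + (v_h)` and of `I_j` under `π` -/
lemma kp_radHyp {H : FormalGroup (LTRing p n)} {h j : ℕ} (h1 : 1 ≤ h) (hj : h + 2 ≤ j)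
    (hjn : j ≤ n)
    (π : LTRing p n →+* MvPowerSeries (Fin (n - h)) (GaloisField p n))
    (hsurj : Function.Surjective π) (hker : RingHom.ker π = heightIdeal p n H h)
    (hX : ∀ i : Fin (n - h), π (PowerSeries.coeff (p ^ (h + i.val)) (mulSeries H p)) =
        MvPowerSeries.X i)
    (P : Ideal (LTRing p n)) (hIP : heightIdeal p n H h ≤ P)
    (hrad : (P ⊔ Ideal.span {PowerSeries.coeff (p ^ h) (mulSeries H p)}).radical =
      heightIdeal p n H j) : RadHyp (P.map π) (n - j + 1) := by
  have hX0 := hX ⟨0, by omega⟩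
  simp only [add_zero] at hX0
  have hspan0 : Ideal.span {f : MvPowerSeries (Fin (n - h)) (GaloisField p n) |
      ∃ i : Fin (n - h), (i : ℕ) = 0 ∧ f = X i} =
      (Ideal.span {PowerSeries.coeff (p ^ h) (mulSeries H p)}).map π := by
    rw [Ideal.map_span, Set.image_singleton, hX0]
    congr 1
    ext f
    simp only [Set.mem_ofPred_eq, Set.mem_singleton_iff]
    constructor
    · rintro ⟨i, hi, rfl⟩
      congr 1
      exact Fin.ext hi
    · rintro rfl
      exact ⟨⟨0, by omega⟩, rfl, rfl⟩
  have hrd : (n - h) - (n - j + 1) = j - h - 1 := by omega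
  rw [RadHyp, hspan0, ← Ideal.map_sup, ← Ideal.map_radical_of_surjective hsurj
    (by rw [hker]; exact le_sup_of_le_left hIP), hrad, hrd]
  apply le_antisymm
  · rw [Ideal.map_le_iff_le_comap, LT93.heightIdeal_le_iff]
    intro i hi
    rw [Ideal.mem_comap]
    rcases Nat.lt_or_ge i h with hih | hih
    · have : PowerSeries.coeff (p ^ i) (mulSeries H p) ∈ RingHom.ker π := by
        rw [hker]; exact LT93.coeff_pow_mem_heightIdeal H hih
      rw [RingHom.mem_ker.1 this]
      exact Ideal.zero_mem _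
    · have h3 := hX ⟨i - h, by omega⟩
      have h4 : h + (i - h) = i := by omega
      simp only [h4] at h3
      rw [h3]
      refine Ideal.subset_span ⟨⟨i - h, by omega⟩, ?_, rfl⟩
      show i - h ≤ j - h - 1
      omega
  · rw [Ideal.span_le]
    rintro f ⟨i, hi, rfl⟩
    rw [SetLike.mem_coe, ← hX i]
    exact Ideal.mem_map_of_mem _ (LT93.coeff_pow_mem_heightIdeal H (by omega))

/-- KEYh -/
theorem key_charP' (hn : 1 ≤ n) {Γ : FormalGroup (GaloisField p n)} [Γ.IsComm]
    (hΓ : mulSeries Γ p = PowerSeries.X ^ (p ^ n)) {H : FormalGroup (LTRing p n)} [H.IsComm]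
    (hH : IsUniversalDeformation p n Γ H) (M : ℕ) (P : Ideal (LTRing p n)) (hP : P.IsPrime)
    (h j : ℕ) (h1 : 1 ≤ h) (hj : h + 2 ≤ j) (hjn : j ≤ n)
    (hIP : heightIdeal p n H h ≤ P) (hvP : PowerSeries.coeff (p ^ h) (mulSeries H p) ∉ P)
    (hrad : (P ⊔ Ideal.span {PowerSeries.coeff (p ^ h) (mulSeries H p)}).radical =
      heightIdeal p n H j)
    (hst : IsStableIdeal p n Γ H M P) : False := by
  classical
  obtain ⟨π, hsurj, hker, hc, hX⟩ := exists_quotient_coord hn hΓ hH h1 (by omega)
  obtain ⟨W, W0, HW, Wcoord⟩ := cm_exists_W (Γ := Γ) π hker hX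
  have hkP : RingHom.ker π ≤ P := by rw [hker]; exact hIP
  have hradA := kp_radHyp h1 hj hjn π hsurj hker hX P hIP hrad
  have hPA : (P.map π).IsPrime := Ideal.map_isPrime_of_surjective hsurj hkP
  have hmem : ∀ f, π f ∈ P.map π → f ∈ P := by
    intro f hf
    obtain ⟨g, hg, hgf⟩ := (Ideal.mem_map_iff_of_surjective π hsurj).1 hf
    have : f - g ∈ P := hkP (by rw [RingHom.mem_ker, map_sub, hgf, sub_self])
    have h2 := P.add_mem this hg
    rwa [sub_add_cancel] at h2
  obtain ⟨C, iC, cC, uC, chC, aC, x, hxlt, hxP, hx, hx0⟩ :=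
    exists_point (p := p) (P.map π) hPA (d := n - j + 1) (by omega) (by omega) (by
      intro i hi hmemX
      apply hvP
      apply hmem
      have h3 := hX i
      rw [hi, add_zero] at h3
      rw [h3]
      exact hmemX) hradA
  have : (H.map π).IsComm := map_isComm H π
  let D : CData p n h (n - h) C :=
    { hh := h1
      hr := by omega
      hn := by omega
      Γ := Γ
      Γcomm := inferInstance
      Γp := hΓ
      H := H.map π
      Hcomm := inferInstance
      Hres := by
        rw [← hH.1, ← hc]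
        rfl
      W := W
      W0 := W0
      HW := HW
      Wcoord := Wcoord
      x := x
      xlt := hxlt
      x0 := hx0 }
  have : D.Γ.IsComm := inferInstanceAs Γ.IsComm
  have : D.toLData.Gh.IsComm := D.toLData.Log_spec.2.2.1
  refine cm_core D hn (n - j + 1) (by omega) (by omega) (P.map π)
    (exists_finite_gens (P.map π) (by omega) (by omega) hradA) hx ?_
  obtain ⟨η, a1, hη, hcomp⟩ := cm_companion hn hΓ hH h1 π hsurj hker hc hX D rfl M P hst
    (fun f hf => hxP _ (Ideal.mem_map_of_mem _ hf))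
  intro δ hδ
  refine ⟨η, a1, hη, ?_⟩
  intro a ha g hg hsub
  obtain ⟨x', hx'1, hx'2, hx'3⟩ := hcomp a ha δ hδ g hg hsub
  refine ⟨x', hx'1, hx'2, ?_⟩
  intro f hf
  obtain ⟨e, he, rfl⟩ := (Ideal.mem_map_iff_of_surjective π hsurj).1 hf
  exact hx'3 e he

end Crest.Agent.LT
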