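import Mathlib
import Crest.Prelude.Def_LubinTate
import Crest.Agent.LT.FG
import Crest.Agent.LT.Act
import Crest.Agent.LT.Coord
import Crest.Agent.LT.Cont
import Crest.Agent.LT.EndGamma
import Crest.Agent.LT.KeyP
import Crest.Agent.LT.Char0

/-! # Key theorems KEY0, KEYh (row 227): statements (proved in Char0 / CharP files). -/

set_option autoImplicit false
set_option linter.unusedSectionVars false

namespace Crest.Agent.LT

open Crest.LubinTate MvPowerSeries

variable {p : ℕ} [Fact p.Prime] {n : ℕ}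

/-- KEY0 -/
theorem key_char0 (hn : 1 ≤ n) {Γ : FormalGroup (GaloisField p n)} [Γ.IsComm]
    (hΓ : mulSeries Γ p = PowerSeries.X ^ (p ^ n)) {H : FormalGroup (LTRing p n)} [H.IsComm]
    (hH : IsUniversalDeformation p n Γ H) (M : ℕ) (P : Ideal (LTRing p n)) (hP : P.IsPrime)
    (hP0 : P ≠ ⊥) (hpP : (p : LTRing p n) ∉ P) (hst : IsStableIdeal p n Γ H M P) : False :=
  key_char0' hn hΓ hH M P hP hP0 hpP hst

/-- KEYh -/
theorem key_charP (hn : 1 ≤ n) {Γ : FormalGroup (GaloisField p n)} [Γ.IsComm]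
    (hΓ : mulSeries Γ p = PowerSeries.X ^ (p ^ n)) {H : FormalGroup (LTRing p n)} [H.IsComm]
    (hH : IsUniversalDeformation p n Γ H) (M : ℕ) (P : Ideal (LTRing p n)) (hP : P.IsPrime)
    (h j : ℕ) (h1 : 1 ≤ h) (hj : h + 2 ≤ j) (hjn : j ≤ n)
    (hIP : heightIdeal p n H h ≤ P) (hvP : PowerSeries.coeff (p ^ h) (mulSeries H p) ∉ P)
    (hrad : (P ⊔ Ideal.span {PowerSeries.coeff (p ^ h) (mulSeries H p)}).radical =
      heightIdeal p n H j)
    (hst : IsStableIdeal p n Γ H M P) : False :=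
  key_charP' hn hΓ hH M P hP h j h1 hj hjn hIP hvP hrad hst

end Crest.Agent.LT
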