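import Mathlib
import Crest.Prelude.Def_LubinTate
import Crest.Agent.LT.FG
import Crest.Agent.LT.Act
import Crest.Agent.LT.Coord
import Crest.Agent.LT.Cont
import Crest.Agent.LT.Key
import Crest.Agent.LT93.Height

/-! # Assembly of S0351 (row 227) from KEY0 and KEYh. -/

set_option autoImplicit false
set_option linter.unusedSectionVars false

namespace Crest.Agent.LT

open Crest.LubinTate

variable {p : ℕ} [Fact p.Prime] {n : ℕ}

/-- Krull: `⋂ (P + m^N) = P` -/
theorem exists_not_le_sup_pow {R : Type*} [CommRing R] [IsLocalRing R] [IsNoetherianRing R]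
    {P Q : Ideal R} (hP : P ≠ ⊤) (h : ¬ Q ≤ P) :
    ∃ N : ℕ, ¬ Q ≤ P ⊔ (IsLocalRing.maximalIdeal R) ^ N := by
  by_contra hcon
  push Not at hcon
  apply h
  intro x hx
  have : Nontrivial (R ⧸ P) := Ideal.Quotient.nontrivial_iff.2 hP
  have : IsLocalRing (R ⧸ P) :=
    IsLocalRing.of_surjective' (Ideal.Quotient.mk P) Ideal.Quotient.mk_surjective
  have h1 : Ideal.Quotient.mk P x ∈ ⨅ i, (IsLocalRing.maximalIdeal (R ⧸ P)) ^ i := by
    rw [Ideal.mem_iInf]
    intro N
    have h2 := hcon N hx
    obtain ⟨a, ha, b, hb, hab⟩ := Submodule.mem_sup.1 h2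
    rw [← hab, map_add, Ideal.Quotient.eq_zero_iff_mem.2 ha, zero_add]
    have h3 : Ideal.map (Ideal.Quotient.mk P) (IsLocalRing.maximalIdeal R) =
        IsLocalRing.maximalIdeal (R ⧸ P) :=
      IsLocalRing.map_maximalIdeal_of_surjective _ Ideal.Quotient.mk_surjective
    rw [← h3, ← Ideal.map_pow]
    exact Ideal.mem_map_of_mem _ hb
  rw [Ideal.iInf_pow_eq_bot_of_isLocalRing _ (Ideal.IsPrime.ne_top inferInstance)] at h1
  rw [Ideal.mem_bot] at h1
  exact Ideal.Quotient.eq_zero_iff_mem.1 h1

/-- minimal primes of a stable ideal are stable for a smaller subgroup -/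
theorem exists_minimalPrimes_stable (hn : 1 ≤ n) {Γ : FormalGroup (GaloisField p n)} [Γ.IsComm]
    (hΓ : mulSeries Γ p = PowerSeries.X ^ (p ^ n)) {H : FormalGroup (LTRing p n)} [H.IsComm]
    (hH : IsUniversalDeformation p n Γ H) {M : ℕ} {J : Ideal (LTRing p n)}
    (hJ : IsStableIdeal p n Γ H M J) :
    ∃ M' : ℕ, ∀ P ∈ J.minimalPrimes, IsStableIdeal p n Γ H M' P := by
  classical
  have hfin : J.minimalPrimes.Finite := Ideal.finite_minimalPrimes_of_isNoetherianRing _ J
  -- separation exponent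
  have hsep : ∀ P Q : Ideal (LTRing p n), ∃ N : ℕ, P ≠ ⊤ → ¬ Q ≤ P →
      ¬ Q ≤ P ⊔ (RingHom.ker (LTRing.residue p n)) ^ N := by
    intro P Q
    by_cases hP : P = ⊤
    · exact ⟨0, fun h => absurd hP h⟩
    · by_cases hQ : Q ≤ P
      · exact ⟨0, fun _ h => absurd hQ h⟩
      · obtain ⟨N, hN⟩ := exists_not_le_sup_pow hP hQ
        exact ⟨N, fun _ _ => by rw [ker_residue]; exact hN⟩
  choose e he using hsep
  obtain ⟨N, hN⟩ : ∃ N : ℕ, ∀ P ∈ J.minimalPrimes, ∀ Q ∈ J.minimalPrimes, e P Q ≤ N := by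
    refine ⟨(hfin.toFinset ×ˢ hfin.toFinset).sup (fun x => e x.1 x.2), ?_⟩
    intro P hP Q hQ
    have : (P, Q) ∈ hfin.toFinset ×ˢ hfin.toFinset := by
      rw [Finset.mem_product]
      exact ⟨hfin.mem_toFinset.2 hP, hfin.mem_toFinset.2 hQ⟩
    exact Finset.le_sup (f := fun x : Ideal (LTRing p n) × Ideal (LTRing p n) => e x.1 x.2) this
  obtain ⟨M₁, hM₁⟩ := stabilizer_close hn hΓ hH N
  refine ⟨max M M₁, ?_⟩
  intro P hP g φ hg hcong hφ
  have h1 : Ideal.comap φ.toRingHom J = J :=
    hJ g φ hg (fun i hi => hcong i (lt_of_lt_of_le hi (le_max_left _ _))) hφ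
  have h2 := hM₁ g φ hg (fun i hi => hcong i (lt_of_lt_of_le hi (le_max_right _ _))) hφ
  have hbij := stabilizer_bijective hH hg hφ
  have hsurj : Function.Surjective φ.toRingHom := hbij.2
  have h3 : Ideal.comap φ.toRingHom P ∈ J.minimalPrimes := by
    have := Ideal.minimalPrimes_comap_of_surjective hsurj hP
    rwa [h1] at this
  have hPp : P.IsPrime := hP.1.1
  by_contra hne
  have h4 : ¬ Ideal.comap φ.toRingHom P ≤ P := by
    intro hle
    exact hne (le_antisymm hle (hP.2 h3.1 hle))
  have h5 := he P (Ideal.comap φ.toRingHom P) hPp.ne_top h4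
  apply h5
  intro x hx
  rw [Ideal.mem_comap] at hx
  have h6 := h2 x
  have h7 : x = φ x - (φ x - x) := by ring
  rw [h7]
  refine Ideal.sub_mem _ (Ideal.mem_sup_left hx) (Ideal.mem_sup_right ?_)
  exact Ideal.pow_le_pow_right (hN P hP _ h3) h6

/-- all minimal primes of `J` among the `I_j`: then the radical of `J` is one of them -/
theorem radical_eq_of_minimalPrimes {H : FormalGroup (LTRing p n)} {J : Ideal (LTRing p n)}
    (hJ : J ≠ ⊤) {h : ℕ}
    (hmin : ∀ P ∈ J.minimalPrimes, ∃ j : ℕ, h ≤ j ∧ j ≤ n ∧ P = heightIdeal p n H j) :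
    ∃ j : ℕ, h ≤ j ∧ j ≤ n ∧ J.radical = heightIdeal p n H j := by
  obtain ⟨⟨P, hP⟩⟩ := Ideal.nonempty_minimalPrimes hJ
  obtain ⟨j, hj1, hj2, hPj⟩ := hmin P hP
  refine ⟨j, hj1, hj2, ?_⟩
  have hall : ∀ Q ∈ J.minimalPrimes, Q = P := by
    intro Q hQ
    obtain ⟨i, _, _, hQi⟩ := hmin Q hQ
    rcases le_total i j with hij | hij
    · have hle : Q ≤ P := by rw [hQi, hPj]; exact LT93.heightIdeal_mono H hij
      exact le_antisymm hle (hP.2 hQ.1 hle)
    · have hle : P ≤ Q := by rw [hQi, hPj]; exact LT93.heightIdeal_mono H hij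
      exact le_antisymm (hQ.2 hP.1 hle) hle
  rw [← Ideal.sInf_minimalPrimes]
  have : J.minimalPrimes = {P} := by
    ext Q
    constructor
    · intro hQ; exact hall Q hQ
    · intro hQ
      rw [Set.mem_singleton_iff] at hQ
      rw [hQ]; exact hP
  rw [this, sInf_singleton, hPj]

theorem prime_stable_aux (hn : 1 ≤ n) {Γ : FormalGroup (GaloisField p n)} [Γ.IsComm]
    (hΓ : mulSeries Γ p = PowerSeries.X ^ (p ^ n)) {H : FormalGroup (LTRing p n)} [H.IsComm]
    (hH : IsUniversalDeformation p n Γ H) (k : ℕ) :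
    ∀ (h : ℕ), h + k = n → ∀ (M : ℕ) (P : Ideal (LTRing p n)), P.IsPrime →
      IsStableIdeal p n Γ H M P → heightIdeal p n H h ≤ P →
      ∃ j : ℕ, h ≤ j ∧ j ≤ n ∧ P = heightIdeal p n H j := by
  induction k with
  | zero =>
    intro h hh M P hP _ hle
    have hhn : h = n := by omega
    subst hhn
    refine ⟨h, le_rfl, le_rfl, ?_⟩
    rw [heightIdeal_n hn hΓ hH, ker_residue] at hle ⊢
    exact ((IsLocalRing.maximalIdeal.isMaximal (LTRing p h)).eq_of_le hP.ne_top hle).symm
  | succ k ih =>
    intro h hh M P hP hst hle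
    have hhn : h < n := by omega
    set v := PowerSeries.coeff (p ^ h) (mulSeries H p) with hv
    by_cases hvP : v ∈ P
    · have hle' : heightIdeal p n H (h + 1) ≤ P := by
        rw [LT93.heightIdeal_le_iff]
        intro j hj
        rcases Nat.lt_succ_iff_lt_or_eq.1 hj with hj | hj
        · exact hle (LT93.coeff_pow_mem_heightIdeal H hj)
        · rw [hj]; exact hvP
      obtain ⟨j, hj1, hj2, hj3⟩ := ih (h + 1) (by omega) M P hP hst hle'
      exact ⟨j, by omega, hj2, hj3⟩
    · rcases Nat.eq_zero_or_pos h with h0 | h1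
      · subst h0
        by_cases hPbot : P = ⊥
        · exact ⟨0, le_rfl, by omega, hPbot⟩
        · exfalso
          refine key_char0 hn hΓ hH M P hP hPbot ?_ hst
          rw [hv, pow_zero, coeff_one_mulSeries] at hvP
          exact hvP
      · -- h ≥ 1
        set K := P ⊔ Ideal.span {v} with hK
        have hKst : IsStableIdeal p n Γ H M K := LT93.isStable_sup_span hH hst hle
        have hPmax : P ≤ RingHom.ker (LTRing.residue p n) := le_ker_residue p n P hP.ne_top
        have hvmax : v ∈ RingHom.ker (LTRing.residue p n) := by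
          rw [← heightIdeal_n hn hΓ hH]
          exact LT93.coeff_pow_mem_heightIdeal H hhn
        have hKtop : K ≠ ⊤ := by
          intro htop
          have : K ≤ RingHom.ker (LTRing.residue p n) := by
            rw [hK, sup_le_iff, Ideal.span_singleton_le_iff_mem]
            exact ⟨hPmax, hvmax⟩
          rw [htop, top_le_iff, ker_residue] at this
          exact Ideal.IsPrime.ne_top inferInstance this
        obtain ⟨M', hM'⟩ := exists_minimalPrimes_stable hn hΓ hH hKst
        have hmin : ∀ Q ∈ K.minimalPrimes, ∃ j : ℕ, h + 1 ≤ j ∧ j ≤ n ∧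
            Q = heightIdeal p n H j := by
          intro Q hQ
          have hKQ : K ≤ Q := hQ.1.2
          refine ih (h + 1) (by omega) M' Q hQ.1.1 (hM' Q hQ) ?_
          rw [LT93.heightIdeal_le_iff]
          intro j hj
          rcases Nat.lt_succ_iff_lt_or_eq.1 hj with hj | hj
          · exact hKQ (Ideal.mem_sup_left (hle (LT93.coeff_pow_mem_heightIdeal H hj)))
          · rw [hj]
            exact hKQ (Ideal.mem_sup_right (Ideal.subset_span rfl))
        obtain ⟨j, hj1, hj2, hrad⟩ := radical_eq_of_minimalPrimes hKtop hmin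
        rcases Nat.lt_or_ge j (h + 2) with hj | hj
        · -- j = h + 1
          have hjh : j = h + 1 := by omega
          subst hjh
          refine ⟨h, le_rfl, by omega, ?_⟩
          have hPI : P ≤ heightIdeal p n H (h + 1) := by
            rw [← hrad]
            exact le_sup_left.trans Ideal.le_radical
          have hNak : P ≤ heightIdeal p n H h ⊔ IsLocalRing.maximalIdeal (LTRing p n) • P := by
            intro x hx
            have hx2 : x ∈ heightIdeal p n H h ⊔ Ideal.span {v} := hPI hx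
            obtain ⟨a, ha, b, hb, hab⟩ := Submodule.mem_sup.1 hx2
            obtain ⟨y, hy⟩ := Ideal.mem_span_singleton'.1 hb
            have hyv : y * v ∈ P := by
              rw [hy]
              have : b = x - a := by rw [← hab]; ring
              rw [this]
              exact P.sub_mem hx (hle ha)
            have hyP : y ∈ P := (hP.mem_or_mem hyv).resolve_right hvP
            rw [← hab, ← hy]
            refine Ideal.add_mem _ (Ideal.mem_sup_left ha) (Ideal.mem_sup_right ?_)
            rw [mul_comm]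
            rw [ker_residue] at hvmax
            exact Ideal.mul_mem_mul hvmax hyP
          have hfg : (P : Submodule (LTRing p n) (LTRing p n)).FG := IsNoetherian.noetherian P
          have hjac : IsLocalRing.maximalIdeal (LTRing p n) ≤ (⊥ : Ideal (LTRing p n)).jacobson := by
            rw [IsLocalRing.jacobson_eq_maximalIdeal ⊥ bot_ne_top]
          exact le_antisymm (Submodule.le_of_le_smul_of_le_jacobson_bot hfg hjac hNak) hle
        · exfalso
          exact key_charP hn hΓ hH M P hP h j h1 hj hj2 hle hvP hrad hst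

/-- S0351 -/
theorem main_S0351 (hn : 1 ≤ n) {Γ : FormalGroup (GaloisField p n)} [Γ.IsComm]
    (hΓ : mulSeries Γ p = PowerSeries.X ^ (p ^ n)) {H : FormalGroup (LTRing p n)} [H.IsComm]
    (hH : IsUniversalDeformation p n Γ H) (M : ℕ) :
    (∀ P : Ideal (LTRing p n),
        (P.IsPrime ∧ IsStableIdeal p n Γ H M P) ↔ ∃ h : ℕ, h ≤ n ∧ P = heightIdeal p n H h) ∧
    (∀ J : Ideal (LTRing p n),
        (J.IsRadical ∧ IsStableIdeal p n Γ H M J) ↔
          (∃ h : ℕ, h ≤ n ∧ J = heightIdeal p n H h) ∨ J = ⊤) := by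
  have hbot : ∀ P : Ideal (LTRing p n), heightIdeal p n H 0 ≤ P := fun P => by
    rw [heightIdeal]; exact bot_le
  constructor
  · intro P
    constructor
    · rintro ⟨hP, hst⟩
      obtain ⟨j, _, hj, hPj⟩ := prime_stable_aux hn hΓ hH n 0 (by omega) M P hP hst (hbot P)
      exact ⟨j, hj, hPj⟩
    · rintro ⟨h, hh, rfl⟩
      exact ⟨heightIdeal_prime hn hΓ hH hh, heightIdeal_stable hH M h⟩
  · intro J
    constructor
    · rintro ⟨hJ, hst⟩
      by_cases htop : J = ⊤
      · exact Or.inr htop
      · left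
        obtain ⟨M', hM'⟩ := exists_minimalPrimes_stable hn hΓ hH hst
        have hmin : ∀ Q ∈ J.minimalPrimes, ∃ j : ℕ, 0 ≤ j ∧ j ≤ n ∧
            Q = heightIdeal p n H j := by
          intro Q hQ
          exact prime_stable_aux hn hΓ hH n 0 (by omega) M' Q hQ.1.1 (hM' Q hQ) (hbot Q)
        obtain ⟨j, _, hj, hrad⟩ := radical_eq_of_minimalPrimes htop hmin
        refine ⟨j, hj, ?_⟩
        rw [← hrad, hJ.radical]
    · rintro (⟨h, hh, rfl⟩ | rfl)
      · exact ⟨(heightIdeal_prime hn hΓ hH hh).isRadical, heightIdeal_stable hH M h⟩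
      · refine ⟨?_, ?_⟩
        · intro x _
          exact Submodule.mem_top
        · intro g φ _ _ _
          exact Ideal.comap_top

end Crest.Agent.LT
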