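import Crest.Agent.LT.CDefs
import Crest.Agent.LT.Ring

/-! # C1: auxiliary lemmas (Weierstrass preparation, roots) for `LT/Torsion.lean` -/

set_option autoImplicit false
set_option linter.unusedSectionVars false

namespace Crest.Agent.LT

open Crest.LubinTate MvPowerSeries

section Weier

variable {A : Type*} [CommRing A] [IsLocalRing A]

/-- Weierstrass preparation for a series reducing to `X ^ N` -/
theorem tor_weier [IsAdicComplete (IsLocalRing.maximalIdeal A) A] (g : PowerSeries A) (N : ℕ)
    (hg : PowerSeries.map (IsLocalRing.residue A) g = PowerSeries.X ^ N) :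
    ∃ (D : Polynomial A) (U : PowerSeries A), D.Monic ∧ D.natDegree = N ∧
      (∀ i < N, D.coeff i ∈ IsLocalRing.maximalIdeal A) ∧ IsUnit U ∧
      g = (D : PowerSeries A) * U := by
  have hne : PowerSeries.map (IsLocalRing.residue A) g ≠ 0 := by
    rw [hg]
    exact pow_ne_zero _ PowerSeries.X_ne_zero
  obtain ⟨D, U, H⟩ := PowerSeries.exists_isWeierstrassFactorization hne
  have hdeg : D.natDegree = N := by
    rw [H.natDegree_eq_toNat_order_map, hg, PowerSeries.order_X_pow]
    simp
  refine ⟨D, U, H.isDistinguishedAt.monic, hdeg, fun i hi => ?_, H.isUnit, H.eq_mul⟩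
  exact H.isDistinguishedAt.mem (by rw [hdeg]; exact hi)

end Weier

section Frob

variable {R : Type*} [CommRing R]

/-- `f^(p^k) = (f^(Frob^k))(X^(p^k))` -/
theorem tor_pow_char (p : ℕ) [Fact p.Prime] [CharP R p] (f : PowerSeries R) (k : ℕ) :
    f ^ (p ^ k) = PowerSeries.subst (PowerSeries.X ^ (p ^ k) : PowerSeries R)
      (PowerSeries.map (iterateFrobenius R p k) f) := by
  have h0 : p ≠ 0 := (Fact.out : p.Prime).ne_zero
  have h1 := MvPowerSeries.map_iterateFrobenius_expand (R := R) (σ := Unit) p h0 f k
  rw [← PowerSeries.expand_apply (p ^ k) (pow_ne_zero k h0), ← PowerSeries.map_expand]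
  exact h1.symm

theorem tor_subst_X_pow_inj {k : ℕ} (hk : k ≠ 0) {f g : PowerSeries R}
    (h : PowerSeries.subst (PowerSeries.X ^ k : PowerSeries R) f =
      PowerSeries.subst (PowerSeries.X ^ k : PowerSeries R) g) : f = g := by
  ext m
  rw [← PowerSeries.expand_apply k hk, ← PowerSeries.expand_apply k hk] at h
  have := congrArg (PowerSeries.coeff (k * m)) h
  rwa [PowerSeries.coeff_expand_mul, PowerSeries.coeff_expand_mul] at this

theorem tor_coeff_one_subst (f g : PowerSeries R) (hf : PowerSeries.constantCoeff f = 0)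
    (hg : PowerSeries.constantCoeff g = 0) :
    PowerSeries.coeff 1 (PowerSeries.subst f g) = PowerSeries.coeff 1 g * PowerSeries.coeff 1 f := by
  have hs : PowerSeries.HasSubst f := PowerSeries.HasSubst.of_constantCoeff_zero' hf
  rw [PowerSeries.coeff_subst' hs, finsum_eq_single _ 1]
  · simp
  · intro n hn
    rcases n with _ | n
    · rw [PowerSeries.coeff_zero_eq_constantCoeff_apply, hg, zero_smul]
    · suffices hsuff : PowerSeries.coeff 1 (f ^ (n + 1)) = 0 by rw [hsuff, smul_zero]
      apply PowerSeries.coeff_of_lt_order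
      have h1 : (1 : ℕ∞) ≤ f.order := by
        apply PowerSeries.nat_le_order
        intro i hi
        have : i = 0 := by omega
        subst this
        rw [PowerSeries.coeff_zero_eq_constantCoeff_apply, hf]
      have h2 : ((n + 1 : ℕ) : ℕ∞) ≤ (f ^ (n + 1)).order := by
        refine le_trans ?_ (PowerSeries.le_order_pow _ _)
        calc ((n + 1 : ℕ) : ℕ∞) = (n + 1) • (1 : ℕ∞) := by simp
          _ ≤ (n + 1) • f.order := nsmul_le_nsmul_right h1 _
      refine lt_of_lt_of_le ?_ h2
      have : 1 < n + 1 := by omega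
      exact_mod_cast this

end Frob

section CD

variable {p n h r : ℕ} [Fact p.Prime]
variable {C : Type*} [NormedField C] [IsUltrametricDist C] [CharP C p]

theorem tor_charP_mv (K : Type*) [Field K] [CharP K p] (σ : Type*) :
    CharP (MvPowerSeries σ K) p :=
  charP_of_injective_ringHom (f := (MvPowerSeries.C : K →+* MvPowerSeries σ K))
    (MvPowerSeries.C_injective) p

theorem tor_mem_max {K : Type*} [Field K] {σ : Type*} (f : MvPowerSeries σ K) :
    f ∈ IsLocalRing.maximalIdeal (MvPowerSeries σ K) ↔ MvPowerSeries.constantCoeff f = 0 := by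
  rw [IsLocalRing.mem_maximalIdeal, mem_nonunits_iff, MvPowerSeries.isUnit_iff_constantCoeff,
    isUnit_iff_ne_zero, not_not]

/-- `W : H^(Q) → H` is a hom -/
theorem CData.tor_W_hom (D : CData p n h r C)
    [CharP (MvPowerSeries (Fin r) (GaloisField p n)) p] :
    IsFGHom (D.H.map (iterateFrobenius _ p h)) D.H D.W := by
  have := D.Hcomm
  have hp0 : p ≠ 0 := (Fact.out : p.Prime).ne_zero
  obtain ⟨ψ, h1, h2⟩ := IsFGHom.frob_factor_iterate p (isFGHom_mulSeries D.H p) h (by
    intro j hj
    rw [D.HW, ← PowerSeries.expand_apply (p ^ h) (pow_ne_zero h hp0)]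
    apply PowerSeries.coeff_expand_of_not_dvd
    intro hd
    have := Nat.le_of_dvd (pow_pos (Nat.pos_of_ne_zero hp0) j) hd
    have h3 := Nat.pow_lt_pow_right (Fact.out : p.Prime).one_lt hj
    omega)
  have h3 : D.W = ψ := by
    apply tor_subst_X_pow_inj (pow_ne_zero h hp0)
    rw [← h1, D.HW]
  rw [h3]
  exact h2

/-- `W = X^(p^r)` mod `m_A` -/
theorem CData.tor_W_res (D : CData p n h r C) :
    PowerSeries.map MvPowerSeries.constantCoeff D.W =
      (PowerSeries.X : PowerSeries (GaloisField p n)) ^ (p ^ r) := by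
  have hp0 : p ≠ 0 := (Fact.out : p.Prime).ne_zero
  have hs : PowerSeries.HasSubst (PowerSeries.X ^ (p ^ h) :
      PowerSeries (MvPowerSeries (Fin r) (GaloisField p n))) :=
    PowerSeries.HasSubst.X_pow (pow_ne_zero h hp0)
  apply tor_subst_X_pow_inj (pow_ne_zero h hp0)
  have h1 : PowerSeries.map MvPowerSeries.constantCoeff (mulSeries D.H p) =
      (PowerSeries.X : PowerSeries (GaloisField p n)) ^ (p ^ n) := by
    rw [← mulSeries_map, D.Hres, D.Γp]
  rw [D.HW, ← PowerSeries.expand_apply (p ^ h) (pow_ne_zero h hp0), PowerSeries.map_expand,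
    PowerSeries.expand_apply] at h1
  rw [h1, ← PowerSeries.expand_apply (p ^ h) (pow_ne_zero h hp0), map_pow,
    PowerSeries.expand_X, ← pow_mul, ← pow_add, D.hn]

theorem CData.tor_Wm (D : CData p n h r C)
    [CharP (MvPowerSeries (Fin r) (GaloisField p n)) p] (m : ℕ) :
    ∃ Wm : PowerSeries (MvPowerSeries (Fin r) (GaloisField p n)),
      mulSeries D.H (p ^ m) = PowerSeries.subst (PowerSeries.X ^ ((p ^ h) ^ m) :
        PowerSeries (MvPowerSeries (Fin r) (GaloisField p n))) Wm ∧
      PowerSeries.constantCoeff Wm = 0 ∧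
      PowerSeries.coeff 1 Wm = ∏ i ∈ Finset.range m, (PowerSeries.coeff 1 D.W) ^ ((p ^ h) ^ i) ∧
      IsFGHom (D.H.map (iterateFrobenius _ p (h * m))) D.H Wm ∧
      PowerSeries.map MvPowerSeries.constantCoeff Wm =
        (PowerSeries.X : PowerSeries (GaloisField p n)) ^ (p ^ (r * m)) := by
  have := D.Hcomm
  have hp0 : p ≠ 0 := (Fact.out : p.Prime).ne_zero
  induction m with
  | zero =>
    refine ⟨PowerSeries.X, ?_, by simp, by simp, ?_, by simp⟩
    · rw [pow_zero, pow_zero, mulSeries_one, pow_one, PowerSeries.subst_X PowerSeries.HasSubst.X']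
    · have : D.H.map (iterateFrobenius _ p (h * 0)) = D.H := by
        rw [mul_zero]
        ext d
        simp [FormalGroup.map, iterateFrobenius_zero]
      rw [this]
      exact IsFGHom.id D.H
  | succ m ih =>
    obtain ⟨Wm, h1, h2, h3, h4, h5⟩ := ih
    obtain ⟨V, hV⟩ : ∃ V, V = PowerSeries.map
      (iterateFrobenius (MvPowerSeries (Fin r) (GaloisField p n)) p (h * m)) D.W := ⟨_, rfl⟩
    have hV0 : PowerSeries.constantCoeff V = 0 := by
      rw [hV, ← PowerSeries.coeff_zero_eq_constantCoeff_apply, PowerSeries.coeff_map,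
        PowerSeries.coeff_zero_eq_constantCoeff_apply, D.W0, map_zero]
    have hVs : PowerSeries.HasSubst V := PowerSeries.HasSubst.of_constantCoeff_zero' hV0
    refine ⟨PowerSeries.subst V Wm, ?_, ?_, ?_, ?_, ?_⟩
    · rw [pow_succ' p m, mulSeries_mul, h1, PowerSeries.subst_comp_subst_apply
        (PowerSeries.HasSubst.X_pow (pow_ne_zero _ (pow_ne_zero _ hp0)))
        (PowerSeries.HasSubst.of_constantCoeff_zero' (constantCoeff_mulSeries _ _)),
        PowerSeries.subst_pow (PowerSeries.HasSubst.of_constantCoeff_zero'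
          (constantCoeff_mulSeries _ _)),
        PowerSeries.subst_X (PowerSeries.HasSubst.of_constantCoeff_zero'
          (constantCoeff_mulSeries _ _)),
        PowerSeries.subst_comp_subst_apply hVs
          (PowerSeries.HasSubst.X_pow (pow_ne_zero _ (pow_ne_zero _ hp0)))]
      congr 1
      rw [← pow_mul p h m, tor_pow_char p, D.HW,
        ← PowerSeries.expand_apply (p ^ h) (pow_ne_zero h hp0), PowerSeries.map_expand, ← hV,
        ← PowerSeries.expand_apply (p ^ (h * m)) (pow_ne_zero _ hp0),
        ← PowerSeries.expand_mul,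
        ← PowerSeries.expand_apply ((p ^ h) ^ (m + 1)) (pow_ne_zero _ (pow_ne_zero _ hp0))]
      congr 2
      rw [← pow_mul, ← pow_add]
      ring_nf
    · exact PowerSeries.constantCoeff_subst_eq_zero hV0 _ h2
    · rw [tor_coeff_one_subst _ _ hV0 h2, h3, Finset.prod_range_succ]
      congr 1
      rw [hV, PowerSeries.coeff_map, iterateFrobenius_def, pow_mul]
    · have h6 := IsFGHom.map D.tor_W_hom
        (iterateFrobenius (MvPowerSeries (Fin r) (GaloisField p n)) p (h * m))
      rw [map_map, ← hV] at h6
      have h7 : (iterateFrobenius (MvPowerSeries (Fin r) (GaloisField p n)) p (h * m)).comp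
          (iterateFrobenius (MvPowerSeries (Fin r) (GaloisField p n)) p h) =
          iterateFrobenius (MvPowerSeries (Fin r) (GaloisField p n)) p (h * (m + 1)) := by
        ext1 x
        rw [RingHom.comp_apply, ← iterateFrobenius_add_apply]
        congr 1
      rw [h7] at h6
      exact IsFGHom.comp h6 h4
    · have hms : PowerSeries.map MvPowerSeries.constantCoeff (PowerSeries.subst V Wm) =
          PowerSeries.subst (PowerSeries.map MvPowerSeries.constantCoeff V)
            (PowerSeries.map MvPowerSeries.constantCoeff Wm) :=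
        PowerSeries.map_subst hVs (h := MvPowerSeries.constantCoeff) Wm
      rw [hms, h5, hV]
      have h8 : PowerSeries.map MvPowerSeries.constantCoeff (PowerSeries.map
          (iterateFrobenius (MvPowerSeries (Fin r) (GaloisField p n)) p (h * m)) D.W) =
          (PowerSeries.X : PowerSeries (GaloisField p n)) ^ (p ^ r) := by
        have h9 := congrArg (PowerSeries.map (iterateFrobenius (GaloisField p n) p (h * m)))
          D.tor_W_res
        rw [map_pow, PowerSeries.map_X] at h9
        rw [← h9]
        ext i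
        simp only [PowerSeries.coeff_map, iterateFrobenius_def, map_pow]
      rw [h8, PowerSeries.subst_pow, PowerSeries.subst_X, ← pow_mul, ← pow_add]
      · ring_nf
      · exact PowerSeries.HasSubst.X_pow (pow_ne_zero _ hp0)
      · exact PowerSeries.HasSubst.X_pow (pow_ne_zero _ hp0)

end CD

end Crest.Agent.LT
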